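/-
helper199, row 96, leaf ENERGY, part 1: LEVELS.  Riemann sums of an integrable function at a
random offset converge in measure; choice of equidistant levels for finitely many indicatrices.
-/
import Mathlib

set_option autoImplicit false

open MeasureTheory Set Filter
open scoped Topology ENNReal

namespace Crest.Agent.R96.En1_199

noncomputable section

/-- the Riemann sum with offset `c` -/
def RS (m : ℕ) (n : ℝ → ℝ) (c : ℝ) : ℝ := (1 / (m:ℝ)) * ∑ k ∈ Finset.range m, n ((c + k) / m)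

theorem point_mem {m k : ℕ} (hk : k < m) {c : ℝ} (hc : c ∈ Icc (0:ℝ) 1) :
    (c + k) / m ∈ Icc ((k:ℝ) / m) (((k:ℝ) + 1) / m) := by
  have hm : (0:ℝ) < m := by
    have : 0 < m := lt_of_le_of_lt (Nat.zero_le k) hk
    exact_mod_cast this
  constructor
  · exact div_le_div_of_nonneg_right (by linarith [hc.1]) hm.le
  · exact div_le_div_of_nonneg_right (by linarith [hc.2]) hm.le

theorem piece_sub {m k : ℕ} (hk : k < m) :
    Icc ((k:ℝ) / m) (((k:ℝ) + 1) / m) ⊆ Icc (0:ℝ) 1 := by
  have hm : (0:ℝ) < m := by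
    have : 0 < m := lt_of_le_of_lt (Nat.zero_le k) hk
    exact_mod_cast this
  have h1 : ((k:ℝ) + 1) ≤ m := by exact_mod_cast hk
  apply Icc_subset_Icc
  · positivity
  · rw [div_le_one hm]; exact h1

theorem piece_le {m k : ℕ} (hk : k < m) : ((k:ℝ) / m) ≤ (((k:ℝ) + 1) / m) := by
  have hm : (0:ℝ) < m := by
    have : 0 < m := lt_of_le_of_lt (Nat.zero_le k) hk
    exact_mod_cast this
  gcongr
  linarith

theorem intervalIntegrable_piece {m k : ℕ} (hk : k < m) {n : ℝ → ℝ}
    (hn : IntegrableOn n (Icc 0 1)) :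
    IntervalIntegrable n volume ((k:ℝ) / m) (((k:ℝ) + 1) / m) := by
  rw [intervalIntegrable_iff_integrableOn_Icc_of_le (piece_le hk)]
  exact hn.mono_set (piece_sub hk)

theorem sum_pieces {m : ℕ} (hm : 0 < m) {n : ℝ → ℝ} (hn : IntegrableOn n (Icc 0 1)) :
    ∑ k ∈ Finset.range m, ∫ y in ((k:ℝ) / m)..(((k:ℝ) + 1) / m), n y = ∫ y in (0:ℝ)..1, n y := by
  have h1 := intervalIntegral.sum_integral_adjacent_intervals (f := n) (μ := volume)
    (a := fun k : ℕ => (k:ℝ) / m) (n := m) (fun k hk => by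
      have := intervalIntegrable_piece hk hn
      simpa using this)
  have hm' : (m:ℝ) ≠ 0 := by positivity
  simp only [Nat.cast_add, Nat.cast_one, Nat.cast_zero, zero_div, div_self hm'] at h1
  exact h1

theorem integral_term {m k : ℕ} (hk : k < m) (n : ℝ → ℝ) :
    ∫ c in (0:ℝ)..1, n ((c + k) / m) = m * ∫ y in ((k:ℝ) / m)..(((k:ℝ) + 1) / m), n y := by
  have hm : (m:ℝ) ≠ 0 := by
    have : 0 < m := lt_of_le_of_lt (Nat.zero_le k) hk
    positivity
  have h1 := intervalIntegral.integral_comp_div_add (a := (0:ℝ)) (b := 1) n hm ((k:ℝ) / m)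
  have h2 : ∀ c : ℝ, c / m + k / m = (c + k) / m := fun c => by ring
  simp only [h2] at h1
  rw [h1]
  simp only [zero_add, smul_eq_mul, add_comm (1:ℝ)]

theorem intervalIntegrable_term {m k : ℕ} (hk : k < m) {n : ℝ → ℝ}
    (hn : IntegrableOn n (Icc 0 1)) :
    IntervalIntegrable (fun c => n ((c + k) / m)) volume 0 1 := by
  have hm0 : 0 < m := lt_of_le_of_lt (Nat.zero_le k) hk
  have hm : (m:ℝ) ≠ 0 := by positivity
  have h1 := (intervalIntegrable_piece hk hn).comp_add_right (k / m : ℝ)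
  have h2 := h1.comp_mul_right (c := (m:ℝ)⁻¹)
  have h3 : ∀ c : ℝ, c * (m:ℝ)⁻¹ + k / m = (c + k) / m := fun c => by field_simp
  simp only [h3] at h2
  have h4 : (((k:ℝ) / m - k / m) / (m:ℝ)⁻¹) = 0 := by simp
  have h5 : (((((k:ℝ) + 1) / m) - k / m) / (m:ℝ)⁻¹) = 1 := by field_simp; ring
  rw [h4, h5] at h2
  exact h2

theorem intervalIntegrable_RS {m : ℕ} {n : ℝ → ℝ}
    (hn : IntegrableOn n (Icc 0 1)) : IntervalIntegrable (RS m n) volume 0 1 := by
  unfold RS
  apply IntervalIntegrable.const_mul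
  have : (fun c : ℝ => ∑ k ∈ Finset.range m, n ((c + k) / m)) =
      ∑ k ∈ Finset.range m, fun c : ℝ => n ((c + k) / m) := by
    funext c; simp
  rw [this]
  apply IntervalIntegrable.sum
  intro k hk
  exact intervalIntegrable_term (Finset.mem_range.1 hk) hn

/-- **the average of the Riemann sums** -/
theorem integral_RS {m : ℕ} (hm : 0 < m) {n : ℝ → ℝ} (hn : IntegrableOn n (Icc 0 1)) :
    ∫ c in (0:ℝ)..1, RS m n c = ∫ y in (0:ℝ)..1, n y := by
  unfold RS
  rw [intervalIntegral.integral_const_mul, intervalIntegral.integral_finsetSum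
    (fun k hk => intervalIntegrable_term (Finset.mem_range.1 hk) hn)]
  have h1 : ∑ k ∈ Finset.range m, ∫ c in (0:ℝ)..1, n ((c + k) / m) =
      ∑ k ∈ Finset.range m, (m:ℝ) * ∫ y in ((k:ℝ) / m)..(((k:ℝ) + 1) / m), n y := by
    apply Finset.sum_congr rfl
    intro k hk
    exact integral_term (Finset.mem_range.1 hk) n
  rw [h1, ← Finset.mul_sum, sum_pieces hm hn]
  have hm' : (m:ℝ) ≠ 0 := by positivity
  field_simp

/-- uniform convergence for continuous functions -/
theorem RS_uniform {φ : ℝ → ℝ} (hφ : Continuous φ) {ε : ℝ} (hε : 0 < ε) :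
    ∃ m0 : ℕ, ∀ m ≥ m0, 0 < m → ∀ c ∈ Icc (0:ℝ) 1, |RS m φ c - ∫ y in (0:ℝ)..1, φ y| ≤ ε := by
  have hu : UniformContinuousOn φ (Icc 0 1) :=
    isCompact_Icc.uniformContinuousOn_of_continuous hφ.continuousOn
  rw [Metric.uniformContinuousOn_iff] at hu
  obtain ⟨δ, hδ, hu⟩ := hu ε hε
  obtain ⟨m0, hm0⟩ := exists_nat_gt (1 / δ)
  refine ⟨m0, fun m hm hmp c hc => ?_⟩
  have hmR : (0:ℝ) < m := by exact_mod_cast hmp
  have hmδ : 1 / (m:ℝ) < δ := by
    rw [div_lt_iff₀ hmR]
    have h1 : (m0:ℝ) ≤ m := by exact_mod_cast hm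
    have h2 : 1 / δ < m := lt_of_lt_of_le hm0 h1
    rw [div_lt_iff₀ hδ] at h2
    linarith
  have hφi : IntegrableOn φ (Icc 0 1) := hφ.integrableOn_Icc
  have hterm : ∀ k ∈ Finset.range m,
      |1 / (m:ℝ) * φ ((c + k) / m) - ∫ y in ((k:ℝ) / m)..(((k:ℝ) + 1) / m), φ y| ≤ ε / m := by
    intro k hk
    have hk' := Finset.mem_range.1 hk
    have h1 : 1 / (m:ℝ) * φ ((c + k) / m) =
        ∫ y in ((k:ℝ) / m)..(((k:ℝ) + 1) / m), φ ((c + k) / m) := by
      rw [intervalIntegral.integral_const, smul_eq_mul]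
      congr 1
      field_simp
      ring
    rw [h1, ← intervalIntegral.integral_sub intervalIntegrable_const
      (intervalIntegrable_piece hk' hφi)]
    have h2 := intervalIntegral.norm_integral_le_of_norm_le_const (a := (k:ℝ) / m)
      (b := ((k:ℝ) + 1) / m) (C := ε) (f := fun y => φ ((c + k) / m) - φ y) ?_
    · rw [Real.norm_eq_abs] at h2
      refine h2.trans (le_of_eq ?_)
      have h3 : ((k:ℝ) + 1) / m - k / m = 1 / m := by ring
      rw [h3, abs_of_pos (by positivity)]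
      ring
    · intro y hy
      rw [uIoc_of_le (piece_le hk')] at hy
      have hp := point_mem hk' hc
      have hy' : y ∈ Icc ((k:ℝ) / m) (((k:ℝ) + 1) / m) := Ioc_subset_Icc_self hy
      have h4 := hu _ (piece_sub hk' hp) _ (piece_sub hk' hy') (by
        rw [Real.dist_eq]
        refine lt_of_le_of_lt (abs_sub_le_of_le_of_le hp.1 hp.2 hy'.1 hy'.2) ?_
        have h3 : ((k:ℝ) + 1) / m - k / m = 1 / m := by ring
        rw [h3]; exact hmδ)
      rw [Real.dist_eq] at h4
      exact h4.le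
  unfold RS
  rw [Finset.mul_sum, ← sum_pieces hmp hφi, ← Finset.sum_sub_distrib]
  refine (Finset.abs_sum_le_sum_abs _ _).trans ?_
  refine (Finset.sum_le_sum hterm).trans (le_of_eq ?_)
  rw [Finset.sum_const, Finset.card_range, nsmul_eq_mul]
  field_simp

theorem RS_sub (m : ℕ) (n n' : ℝ → ℝ) (c : ℝ) : RS m n c - RS m n' c = RS m (fun y => n y - n' y) c := by
  unfold RS
  rw [← mul_sub, ← Finset.sum_sub_distrib]

theorem abs_RS_le (m : ℕ) (n : ℝ → ℝ) (c : ℝ) : |RS m n c| ≤ RS m (fun y => |n y|) c := by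
  unfold RS
  rw [abs_mul, abs_of_nonneg (by positivity)]
  gcongr
  exact Finset.abs_sum_le_sum_abs _ _

theorem RS_nonneg (m : ℕ) {n : ℝ → ℝ} (hn : ∀ y, 0 ≤ n y) (c : ℝ) : 0 ≤ RS m n c := by
  unfold RS
  have := Finset.sum_nonneg fun k (_ : k ∈ Finset.range m) => hn ((c + k) / m)
  positivity

/-- **LEVELS, one function**: convergence in measure of the Riemann sums with random offset -/
theorem levels_real {n : ℝ → ℝ} (hn : IntegrableOn n (Icc 0 1)) {ε : ℝ} (hε : 0 < ε) :
    ∃ m0 : ℕ, ∀ m ≥ m0, 0 < m →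
      volume {c ∈ Icc (0:ℝ) 1 | ε < |RS m n c - ∫ y in (0:ℝ)..1, n y|} ≤ ENNReal.ofReal ε := by
  -- approximation by a continuous function
  set η : ℝ := (ε / 3) * ε with hη
  have hηpos : 0 < η := by positivity
  set η' : ℝ := min η (ε / 3) with hη'
  have hη'pos : 0 < η' := lt_min hηpos (by positivity)
  obtain ⟨φ, -, h1, h2, h3⟩ := (hn.integrable_indicator measurableSet_Icc).exists_hasCompactSupport_integral_sub_le hη'pos
  obtain ⟨m0, hm0⟩ := RS_uniform h2 (ε := ε / 3) (by positivity)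
  have hφi : IntegrableOn φ (Icc 0 1) := h2.integrableOn_Icc
  have hdi : IntegrableOn (fun y => n y - φ y) (Icc 0 1) := hn.sub hφi
  have hdabs : IntegrableOn (fun y => |n y - φ y|) (Icc 0 1) := hdi.abs
  have hd : ∫ y in (0:ℝ)..1, |n y - φ y| ≤ η' := by
    rw [intervalIntegral.integral_of_le zero_le_one, ← integral_Icc_eq_integral_Ioc]
    refine le_trans ?_ h1
    have h4 : ∫ y in Icc (0:ℝ) 1, |n y - φ y| =
        ∫ y in Icc (0:ℝ) 1, ‖(Icc (0:ℝ) 1).indicator n y - φ y‖ := by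
      apply setIntegral_congr_fun measurableSet_Icc
      intro y hy
      simp only [indicator_of_mem hy, Real.norm_eq_abs]
    rw [h4]
    apply setIntegral_le_integral
    · exact ((hn.integrable_indicator measurableSet_Icc).sub h3).norm
    · exact Eventually.of_forall fun y => norm_nonneg _
  refine ⟨m0, fun m hm hmp => ?_⟩
  have hsub : {c ∈ Icc (0:ℝ) 1 | ε < |RS m n c - ∫ y in (0:ℝ)..1, n y|} ⊆
      {c | ε / 3 ≤ RS m (fun y => |n y - φ y|) c} ∩ Icc 0 1 := by
    rintro c ⟨hc, hlt⟩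
    refine ⟨?_, hc⟩
    by_contra hcon
    simp only [mem_ofPred_eq, not_le] at hcon
    have h5 := hm0 m hm hmp c hc
    have h6 : |RS m n c - RS m φ c| ≤ RS m (fun y => |n y - φ y|) c := by
      rw [RS_sub]; exact abs_RS_le _ _ _
    have h7 : |∫ y in (0:ℝ)..1, (n y - φ y)| ≤ η' := by
      refine (intervalIntegral.abs_integral_le_integral_abs zero_le_one).trans hd
    have h8 : ∫ y in (0:ℝ)..1, (n y - φ y) = (∫ y in (0:ℝ)..1, n y) - ∫ y in (0:ℝ)..1, φ y :=
      intervalIntegral.integral_sub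
        ((intervalIntegrable_iff_integrableOn_Icc_of_le zero_le_one).2 hn)
        ((intervalIntegrable_iff_integrableOn_Icc_of_le zero_le_one).2 hφi)
    rw [h8] at h7
    have h9 : η' ≤ ε / 3 := min_le_right _ _
    have h10 := abs_le.1 h5
    have h11 := abs_le.1 h6
    have h12 := abs_le.1 h7
    have h13 : |RS m n c - ∫ y in (0:ℝ)..1, n y| ≤ ε := by
      rw [abs_le]
      constructor <;> linarith
    linarith
  refine (measure_mono hsub).trans ?_
  have hint := intervalIntegrable_RS (m := m) hdabs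
  have hI : ∫ c in (0:ℝ)..1, RS m (fun y => |n y - φ y|) c ≤ η' := by
    rw [integral_RS hmp hdabs]; exact hd
  have hint' : IntegrableOn (RS m (fun y => |n y - φ y|)) (Icc 0 1) :=
    (intervalIntegrable_iff_integrableOn_Icc_of_le zero_le_one).1 hint
  rw [intervalIntegral.integral_of_le zero_le_one, ← integral_Icc_eq_integral_Ioc] at hI
  have hM := mul_meas_ge_le_integral_of_nonneg (μ := volume.restrict (Icc (0:ℝ) 1))
    (f := RS m (fun y => |n y - φ y|)) (Eventually.of_forall fun c => RS_nonneg m (fun y => abs_nonneg _) c)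
    hint' (ε / 3)
  have hM2 : (ε / 3) * (volume.restrict (Icc (0:ℝ) 1)).real
      {c | ε / 3 ≤ RS m (fun y => |n y - φ y|) c} ≤ η := hM.trans (hI.trans (min_le_left _ _))
  have hfin : volume ({c | ε / 3 ≤ RS m (fun y => |n y - φ y|) c} ∩ Icc 0 1) ≠ ∞ :=
    ne_top_of_le_ne_top (by simp) (measure_mono inter_subset_right)
  have hM3 : (volume.restrict (Icc (0:ℝ) 1)).real {c | ε / 3 ≤ RS m (fun y => |n y - φ y|) c} =
      (volume ({c | ε / 3 ≤ RS m (fun y => |n y - φ y|) c} ∩ Icc 0 1)).toReal := by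
    rw [measureReal_def, Measure.restrict_apply' measurableSet_Icc]
  rw [hM3] at hM2
  rw [← ENNReal.ofReal_toReal hfin]
  apply ENNReal.ofReal_le_ofReal
  have h14 : (0:ℝ) < ε / 3 := by positivity
  exact le_of_mul_le_mul_left hM2 h14

end

end Crest.Agent.R96.En1_199
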