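/-
helper199, row 96, leaf ENERGY, part 2: choice of equidistant levels for finitely many
indicatrices, and for finitely many absolutely continuous functions on edges.
-/
import Mathlib
import Crest.Agent.R96.En1_199
import Crest.Agent.R096.Bas1_731

set_option autoImplicit false

open MeasureTheory Set Filter
open scoped Topology ENNReal

namespace Crest.Agent.R96.En2_199

open Crest.Agent.R96.En1_199 Crest.Agent.R096.Bas_731

noncomputable section

/-- the levels of a null set are avoided by almost every offset -/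
theorem ae_avoid {Z : Set ℝ} (hZ : volume Z = 0) {m : ℕ} :
    ∀ᵐ c : ℝ, ∀ k < m, (c + k) / m ∉ Z := by
  rw [ae_all_iff]
  intro k
  by_cases hk : k < m
  · have hm0 : 0 < m := lt_of_le_of_lt (Nat.zero_le k) hk
    have hm : ((m:ℝ)⁻¹) ≠ 0 := by positivity
    have h1 : volume ((fun c : ℝ => (m:ℝ)⁻¹ * c) ⁻¹' Z) = 0 := by
      rw [Real.volume_preimage_mul_left hm, hZ, mul_zero]
    have h2 : volume ((fun c : ℝ => c + k) ⁻¹' ((fun c : ℝ => (m:ℝ)⁻¹ * c) ⁻¹' Z)) = 0 := by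
      rw [measure_preimage_add_right]; exact h1
    have h3 : {c : ℝ | ¬ (k < m → (c + k) / m ∉ Z)} ⊆
        (fun c : ℝ => c + k) ⁻¹' ((fun c : ℝ => (m:ℝ)⁻¹ * c) ⁻¹' Z) := by
      intro c hc
      simp only [mem_ofPred_eq, not_forall, not_not] at hc
      obtain ⟨-, hc⟩ := hc
      simp only [mem_preimage]
      rw [inv_mul_eq_div]
      exact hc
    exact measure_mono_null h3 h2
  · exact Eventually.of_forall fun c h => absurd h hk

/-- **LEVELS, finitely many functions.** -/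
theorem exists_levels {ι : Type*} [Fintype ι] {N : ι → ℝ → ℝ≥0∞} {I : ι → ℝ}
    (hN : ∀ i, AEMeasurable (N i) (volume.restrict (Icc (0:ℝ) 1)))
    (hI0 : ∀ i, 0 ≤ I i) (hI : ∀ i, ∫⁻ y in Icc (0:ℝ) 1, N i y ≤ ENNReal.ofReal (I i))
    {Z : Set ℝ} (hZ : volume Z = 0) {ε : ℝ} (hε : 0 < ε) :
    ∃ m0 : ℕ, ∀ m ≥ m0, 0 < m →
      volume (Icc (0:ℝ) 1 \ {c | c ∈ Ioo (0:ℝ) 1 ∧ (∀ k < m, (c + k) / m ∉ Z) ∧
        ∀ i, ∑ k ∈ Finset.range m, N i ((c + k) / m) ≤ ENNReal.ofReal (m * (I i + ε))}) ≤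
        ENNReal.ofReal ε := by
  classical
  set ε' : ℝ := ε / (Fintype.card ι + 1) with hε'
  have hε'pos : 0 < ε' := by positivity
  have hε'le : ε' ≤ ε := div_le_self hε.le (by
    have : (0:ℝ) ≤ Fintype.card ι := by positivity
    linarith)
  have hfin : ∀ i, ∫⁻ y in Icc (0:ℝ) 1, N i y ≠ ∞ := fun i =>
    ne_top_of_le_ne_top ENNReal.ofReal_ne_top (hI i)
  have hn : ∀ i, IntegrableOn (fun y => (N i y).toReal) (Icc (0:ℝ) 1) := fun i =>
    integrable_toReal_of_lintegral_ne_top (hN i) (hfin i)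
  choose m1 hm1 using fun i => levels_real (hn i) hε'pos
  refine ⟨Finset.univ.sup m1, fun m hm hmp => ?_⟩
  have hm' : ∀ i, m1 i ≤ m := fun i => (Finset.le_sup (Finset.mem_univ i)).trans hm
  have hmR : (0:ℝ) < m := by exact_mod_cast hmp
  -- infinite values
  have hae : ∀ i, ∀ᵐ y ∂(volume.restrict (Icc (0:ℝ) 1)), N i y < ∞ := fun i =>
    ae_lt_top' (hN i) (hfin i)
  set W : Set ℝ := Z ∪ ⋃ i, {y | y ∈ Icc (0:ℝ) 1 ∧ ¬ N i y < ∞} with hW
  have hW0 : volume W = 0 := by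
    rw [hW]
    refine measure_union_null hZ (measure_iUnion_null fun i => ?_)
    have := hae i
    rw [ae_restrict_iff' measurableSet_Icc, ae_iff] at this
    refine measure_mono_null ?_ this
    rintro y ⟨h1, h2⟩
    simp only [mem_ofPred_eq, Classical.not_imp]
    exact ⟨h1, h2⟩
  have hav := ae_avoid hW0 (m := m)
  -- the bad set
  set B : Set ℝ := ⋃ i, {c ∈ Icc (0:ℝ) 1 | ε' < |RS m (fun y => (N i y).toReal) c -
    ∫ y in (0:ℝ)..1, (N i y).toReal|} with hB
  have hBm : volume B ≤ ENNReal.ofReal ε := by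
    calc volume B ≤ ∑ i, volume {c ∈ Icc (0:ℝ) 1 | ε' < |RS m (fun y => (N i y).toReal) c -
        ∫ y in (0:ℝ)..1, (N i y).toReal|} := by
          rw [hB]
          exact measure_iUnion_fintype_le _ _
      _ ≤ ∑ _i : ι, ENNReal.ofReal ε' :=
          Finset.sum_le_sum fun i _ => hm1 i m (hm' i) hmp
      _ = (Fintype.card ι : ℝ≥0∞) * ENNReal.ofReal ε' := by
          rw [Finset.sum_const, Finset.card_univ, nsmul_eq_mul]
      _ = ENNReal.ofReal (Fintype.card ι * ε') := by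
          rw [ENNReal.ofReal_mul (by positivity), ENNReal.ofReal_natCast]
      _ ≤ ENNReal.ofReal ε := by
          apply ENNReal.ofReal_le_ofReal
          rw [hε', mul_div_assoc', div_le_iff₀ (by positivity)]
          nlinarith [show (0:ℝ) ≤ Fintype.card ι by positivity]
  set A : Set ℝ := {c | ¬ ∀ k < m, (c + k) / m ∉ W} with hA
  have hA0 : volume A = 0 := hav
  have h01 : volume ({0, 1} : Set ℝ) = 0 := by
    exact (Set.toFinite ({0, 1} : Set ℝ)).measure_zero _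
  refine (measure_mono (t := B ∪ (A ∪ {0, 1})) ?_).trans ?_
  · rintro c ⟨hc, hcg⟩
    by_contra hcon
    simp only [mem_union, not_or] at hcon
    obtain ⟨hcB, hcA, hc01⟩ := hcon
    apply hcg
    have hcA' : ∀ k < m, (c + k) / m ∉ W := by
      by_contra h; exact hcA h
    have hc0 : c ≠ 0 := fun h => hc01 (by rw [h]; exact Or.inl rfl)
    have hc1 : c ≠ 1 := fun h => hc01 (by rw [h]; exact Or.inr rfl)
    refine ⟨⟨lt_of_le_of_ne hc.1 (Ne.symm hc0), lt_of_le_of_ne hc.2 hc1⟩, ?_, fun i => ?_⟩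
    · intro k hk hz
      exact hcA' k hk (Or.inl hz)
    · have hltop : ∀ k ∈ Finset.range m, N i ((c + k) / m) ≠ ∞ := by
        intro k hk hinf
        have hk' := Finset.mem_range.1 hk
        apply hcA' k hk'
        right
        rw [mem_iUnion]
        refine ⟨i, piece_sub hk' (point_mem hk' hc), ?_⟩
        rw [hinf]; simp
      have h1 : ∑ k ∈ Finset.range m, N i ((c + k) / m) =
          ENNReal.ofReal (m * RS m (fun y => (N i y).toReal) c) := by
        unfold RS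
        rw [← mul_assoc, mul_one_div_cancel hmR.ne', one_mul,
          ENNReal.ofReal_sum_of_nonneg (fun k _ => ENNReal.toReal_nonneg)]
        apply Finset.sum_congr rfl
        intro k hk
        rw [ENNReal.ofReal_toReal (hltop k hk)]
      rw [h1]
      apply ENNReal.ofReal_le_ofReal
      apply mul_le_mul_of_nonneg_left _ hmR.le
      have h2 : ∫ y in (0:ℝ)..1, (N i y).toReal ≤ I i := by
        rw [intervalIntegral.integral_of_le zero_le_one, ← integral_Icc_eq_integral_Ioc,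
          integral_toReal (hN i) (hae i)]
        exact ENNReal.toReal_le_of_le_ofReal (hI0 i) (hI i)
      have h3 : |RS m (fun y => (N i y).toReal) c - ∫ y in (0:ℝ)..1, (N i y).toReal| ≤ ε' := by
        by_contra hlt
        apply hcB
        rw [hB, mem_iUnion]
        exact ⟨i, hc, not_le.1 hlt⟩
      have h4 := (abs_le.1 h3).2
      linarith
  · calc volume (B ∪ (A ∪ {0, 1})) ≤ volume B + volume (A ∪ {0, 1}) := measure_union_le _ _
      _ ≤ ENNReal.ofReal ε + 0 := by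
          gcongr
          exact (measure_union_null hA0 h01).le
      _ = _ := add_zero _

/-- some offset is good -/
theorem exists_good_offset {ι : Type*} [Fintype ι] {N : ι → ℝ → ℝ≥0∞} {I : ι → ℝ}
    (hN : ∀ i, AEMeasurable (N i) (volume.restrict (Icc (0:ℝ) 1)))
    (hI0 : ∀ i, 0 ≤ I i) (hI : ∀ i, ∫⁻ y in Icc (0:ℝ) 1, N i y ≤ ENNReal.ofReal (I i))
    {Z : Set ℝ} (hZ : volume Z = 0) {ε : ℝ} (hε : 0 < ε) :
    ∃ m0 : ℕ, ∀ m ≥ m0, 0 < m → ∃ c ∈ Ioo (0:ℝ) 1, (∀ k < m, (c + k) / m ∉ Z) ∧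
        ∀ i, ∑ k ∈ Finset.range m, N i ((c + k) / m) ≤ ENNReal.ofReal (m * (I i + ε)) := by
  obtain ⟨m0, hm0⟩ := exists_levels hN hI0 hI hZ (ε := min ε (1/2)) (by positivity)
  refine ⟨m0, fun m hm hmp => ?_⟩
  have h1 := hm0 m hm hmp
  by_contra hcon
  have h2 : Icc (0:ℝ) 1 \ {c | c ∈ Ioo (0:ℝ) 1 ∧ (∀ k < m, (c + k) / m ∉ Z) ∧
        ∀ i, ∑ k ∈ Finset.range m, N i ((c + k) / m) ≤
          ENNReal.ofReal (m * (I i + min ε (1/2)))} = Icc 0 1 := by
    rw [sdiff_eq_left, Set.disjoint_left]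
    rintro c hc ⟨h3, h4, h5⟩
    refine hcon ⟨c, h3, h4, fun i => (h5 i).trans ?_⟩
    apply ENNReal.ofReal_le_ofReal
    gcongr
    exact min_le_left _ _
  rw [h2, Real.volume_Icc] at h1
  have h3 : ENNReal.ofReal (min ε (1/2)) ≤ ENNReal.ofReal (1/2) :=
    ENNReal.ofReal_le_ofReal (min_le_right _ _)
  have h4 := h1.trans h3
  rw [ENNReal.ofReal_le_ofReal_iff (by norm_num)] at h4
  norm_num at h4

/-- `cnt` on the closed interval is a.e. measurable -/
theorem aemeasurable_cnt_Icc {g : ℝ → ℝ} {a b : ℝ} (hg : ContinuousOn g (Icc a b)) :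
    AEMeasurable (cnt g (Icc a b)) volume := by
  rcases le_or_gt a b with hab | hab
  · refine ⟨cnt g (Ioc a b), measurable_cnt hg hab, ?_⟩
    have h1 : ∀ᵐ y : ℝ, y ∉ ({g a} : Set ℝ) :=
      measure_eq_zero_iff_ae_notMem.1 (by simp)
    filter_upwards [h1] with y hy
    apply le_antisymm
    · refine (cnt_Icc_le g a b y).trans ?_
      rw [indicator_of_notMem hy, add_zero]
    · exact cnt_mono Ioc_subset_Icc_self y
  · have : cnt g (Icc a b) = fun _ => 0 := by
      funext y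
      simp [cnt, Icc_eq_empty (not_le.2 hab)]
    rw [this]
    exact aemeasurable_const

/-- increments dominated by an integral -/
theorem dom_of_le {v g : ℝ → ℝ} {a b : ℝ} (hg : IntegrableOn g (Icc a b))
    (hg0 : ∀ τ ∈ Icc a b, 0 ≤ g τ)
    (hv : ∀ s t, a ≤ s → s ≤ t → t ≤ b → |v t - v s| ≤ ∫ τ in s..t, g τ) :
    Dom v ((volume.restrict (Icc a b)).withDensity fun τ => ENNReal.ofReal (g τ)) a b := by
  intro x y hx hxy hy
  rw [withDensity_apply _ measurableSet_Ioc]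
  have hsub : Ioc x y ⊆ Icc a b := fun τ hτ => ⟨hx.trans hτ.1.le, hτ.2.trans hy⟩
  rw [Measure.restrict_restrict measurableSet_Ioc, inter_eq_self_of_subset_left hsub]
  have h1 := hv x y hx hxy hy
  rw [intervalIntegral.integral_of_le hxy] at h1
  rw [← ofReal_integral_eq_lintegral_ofReal (hg.mono_set hsub)]
  · exact ENNReal.ofReal_le_ofReal h1
  · rw [Filter.EventuallyLE, ae_restrict_iff' measurableSet_Ioc]
    exact Eventually.of_forall fun τ hτ => hg0 τ (hsub hτ)

/-- **edges**: the number of crossings with `m` equidistant levels in `(0,1)`. -/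
theorem edge_levels {ι : Type*} [Fintype ι] {v g : ι → ℝ → ℝ} {a b : ι → ℝ}
    (hab : ∀ i, a i ≤ b i) (hv : ∀ i, ContinuousOn (v i) (Icc (a i) (b i)))
    (hg : ∀ i, IntegrableOn (g i) (Icc (a i) (b i)))
    (hg0 : ∀ i, ∀ τ ∈ Icc (a i) (b i), 0 ≤ g i τ)
    (hvg : ∀ i, ∀ s t, a i ≤ s → s ≤ t → t ≤ b i → |v i t - v i s| ≤ ∫ τ in s..t, g i τ)
    {Z : Set ℝ} (hZ : volume Z = 0) {ε : ℝ} (hε : 0 < ε) :
    ∃ m0 : ℕ, ∀ m ≥ m0, 0 < m → ∃ c ∈ Ioo (0:ℝ) 1, (∀ k < m, (c + k) / m ∉ Z) ∧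
      ∀ i, (∀ k < m, (Icc (a i) (b i) ∩ v i ⁻¹' {(c + k) / m}).Finite) ∧
        ∑ k ∈ Finset.range m, ((Icc (a i) (b i) ∩ v i ⁻¹' {(c + k) / m}).ncard : ℝ) ≤
          m * ((∫ τ in a i..b i, g i τ) + ε) := by
  have hI0 : ∀ i, 0 ≤ ∫ τ in a i..b i, g i τ := fun i =>
    intervalIntegral.integral_nonneg (hab i) (hg0 i)
  have hN : ∀ i, AEMeasurable (cnt (v i) (Icc (a i) (b i)))
      (volume.restrict (Icc (0:ℝ) 1)) := fun i => (aemeasurable_cnt_Icc (hv i)).restrict
  have hI : ∀ i, ∫⁻ y in Icc (0:ℝ) 1, cnt (v i) (Icc (a i) (b i)) y ≤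
      ENNReal.ofReal (∫ τ in a i..b i, g i τ) := by
    intro i
    refine (setLIntegral_le_lintegral _ _).trans ?_
    refine (lintegral_cnt_Icc_le (hv i) (dom_of_le (hg i) (hg0 i) (hvg i))).trans ?_
    rw [withDensity_apply _ measurableSet_Ioc, Measure.restrict_restrict measurableSet_Ioc,
      inter_eq_self_of_subset_left Ioc_subset_Icc_self, intervalIntegral.integral_of_le (hab i),
      ofReal_integral_eq_lintegral_ofReal ((hg i).mono_set Ioc_subset_Icc_self)]
    rw [Filter.EventuallyLE, ae_restrict_iff' measurableSet_Ioc]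
    exact Eventually.of_forall fun τ hτ => hg0 i τ (Ioc_subset_Icc_self hτ)
  obtain ⟨m0, hm0⟩ := exists_good_offset hN hI0 hI hZ hε
  refine ⟨m0, fun m hm hmp => ?_⟩
  obtain ⟨c, hc, h1, h2⟩ := hm0 m hm hmp
  refine ⟨c, hc, h1, fun i => ?_⟩
  have h3 := h2 i
  have hlt : ∀ k < m, cnt (v i) (Icc (a i) (b i)) ((c + k) / m) < ∞ := by
    intro k hk
    refine lt_of_le_of_lt ?_ (lt_of_le_of_lt h3 ENNReal.ofReal_lt_top)
    exact Finset.single_le_sum (f := fun k : ℕ => cnt (v i) (Icc (a i) (b i)) ((c + k) / m))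
      (fun _ _ => zero_le) (Finset.mem_range.2 hk)
  have hfin : ∀ k < m, (Icc (a i) (b i) ∩ v i ⁻¹' {(c + k) / m}).Finite := fun k hk =>
    cnt_lt_top.1 (hlt k hk)
  refine ⟨hfin, ?_⟩
  have h4 : ∑ k ∈ Finset.range m, cnt (v i) (Icc (a i) (b i)) ((c + k) / m) =
      ENNReal.ofReal (∑ k ∈ Finset.range m,
        ((Icc (a i) (b i) ∩ v i ⁻¹' {(c + k) / m}).ncard : ℝ)) := by
    rw [ENNReal.ofReal_sum_of_nonneg (fun k _ => by positivity)]
    apply Finset.sum_congr rfl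
    intro k hk
    have hf := hfin k (Finset.mem_range.1 hk)
    rw [ENNReal.ofReal_natCast, cnt, ← hf.cast_ncard_eq]
    simp
  rw [h4] at h3
  refine (ENNReal.ofReal_le_ofReal_iff ?_).1 h3
  have := hI0 i
  positivity

end

end Crest.Agent.R96.En2_199
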