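/-
helper392, row 96, leaf P6-ACL, part 1: weak directional derivatives are absolutely continuous
on almost every line (abstract form: one direction `e`, any finite dimensional space).
-/
import Mathlib

set_option autoImplicit false
set_option linter.unusedSectionVars false

open MeasureTheory Set Filter
open scoped ContDiff Topology

namespace Crest.Agent.R96.Acl_392

noncomputable section

variable {E : Type*} [NormedAddCommGroup E] [NormedSpace ℝ E] [FiniteDimensional ℝ E]
  [MeasurableSpace E] [BorelSpace E] {μ : Measure E} [μ.IsAddHaarMeasure]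

/-- the segment `x + [s,t] e` -/
def segIn (Ω : Set E) (e : E) (s t : ℝ) : Set E := {x | ∀ τ ∈ Icc s t, x + τ • e ∈ Ω}

theorem isOpen_segIn {Ω : Set E} (hΩ : IsOpen Ω) (e : E) (s t : ℝ) : IsOpen (segIn Ω e s t) := by
  have hcl : IsClosed (segIn Ω e s t)ᶜ := by
    have h1 : (segIn Ω e s t)ᶜ = Prod.fst '' ({p : E × ℝ | p.1 + p.2 • e ∈ Ωᶜ} ∩
        (univ ×ˢ Icc s t)) := by
      ext x
      simp only [segIn, mem_compl_iff, mem_ofPred_eq, not_forall, mem_image, mem_inter_iff,
        mem_prod, mem_univ, true_and, Prod.exists, exists_and_right, exists_eq_right]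
      constructor
      · rintro ⟨τ, hτ, h⟩
        exact ⟨τ, h, hτ⟩
      · rintro ⟨τ, h, hτ⟩
        exact ⟨τ, hτ, h⟩
    rw [h1]
    have h2 : IsClosed {p : E × ℝ | p.1 + p.2 • e ∈ Ωᶜ} := by
      apply (hΩ.isClosed_compl).preimage
      fun_prop
    -- projection along a compact set
    have h3 : ({p : E × ℝ | p.1 + p.2 • e ∈ Ωᶜ} ∩ (univ ×ˢ Icc s t)) =
        {p : E × ℝ | p.1 + p.2 • e ∈ Ωᶜ} ∩ (univ ×ˢ Icc s t) := rfl
    rw [← isSeqClosed_iff_isClosed]
    intro u a hu hua
    choose p hp hpu using fun n => hu n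
    have hmem : ∀ n, (p n).2 ∈ Icc s t := fun n => (hp n).2.2
    obtain ⟨b, hb, φ, hφ, hlim⟩ := isCompact_Icc.tendsto_subseq hmem
    refine ⟨(a, b), ⟨?_, ⟨mem_univ _, hb⟩⟩, rfl⟩
    have h4 : Tendsto (fun n => ((p (φ n)).1, (p (φ n)).2)) atTop (𝓝 (a, b)) := by
      apply Tendsto.prodMk_nhds
      · have h5 : (fun n => (p (φ n)).1) = fun n => u (φ n) := by
          funext n; exact hpu (φ n)
        rw [h5]
        exact hua.comp hφ.tendsto_atTop
      · exact hlim
    exact h2.mem_of_tendsto h4 (Eventually.of_forall fun n => (hp (φ n)).1)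
  exact isClosed_compl_iff.1 hcl

/-- the swept set of a compact set -/
def sweep (K : Set E) (e : E) (s t : ℝ) : Set E := (fun p : E × ℝ => p.1 + p.2 • e) '' (K ×ˢ Icc s t)

theorem isCompact_sweep {K : Set E} (hK : IsCompact K) (e : E) (s t : ℝ) :
    IsCompact (sweep K e s t) := by
  apply (hK.prod isCompact_Icc).image
  fun_prop

theorem sweep_subset {Ω K : Set E} {e : E} {s t : ℝ} (h : K ⊆ segIn Ω e s t) :
    sweep K e s t ⊆ Ω := by
  rintro _ ⟨⟨x, τ⟩, ⟨hx, hτ⟩, rfl⟩
  exact h hx τ hτ

theorem mem_sweep {K : Set E} {e x : E} {s t τ : ℝ} (hx : x ∈ K) (hτ : τ ∈ Icc s t) :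
    x + τ • e ∈ sweep K e s t := ⟨(x, τ), ⟨hx, hτ⟩, rfl⟩

/-- the shear `(τ,x) ↦ (τ, x + τ e)` preserves the product measure -/
theorem mp_shear (ν : Measure ℝ) [SFinite ν] (e : E) :
    MeasurePreserving (fun p : ℝ × E => (p.1, p.2 + p.1 • e)) (ν.prod μ) (ν.prod μ) := by
  apply MeasurePreserving.skew_product (MeasurePreserving.id ν)
    (g := fun (τ : ℝ) (x : E) => x + τ • e)
  · apply Measurable.add measurable_snd
    exact measurable_fst.smul_const e
  · apply Eventually.of_forall
    intro τ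
    exact (measurePreserving_add_right μ (τ • e)).map_eq

/-- if `F` is integrable then `(τ,x) ↦ F (x + τ e)` is integrable on `[s,t] × E` -/
theorem integrable_shear {F : E → ℝ} (hF : Integrable F μ) (ν : Measure ℝ) [IsFiniteMeasure ν]
    (e : E) : Integrable (fun p : ℝ × E => F (p.2 + p.1 • e)) (ν.prod μ) := by
  have h1 : Integrable (fun p : ℝ × E => F p.2) (ν.prod μ) := hF.comp_snd ν
  exact (mp_shear (μ := μ) ν e).integrable_comp_of_integrable h1

/-- the averaged test function -/
def avgT (ψ : E → ℝ) (e : E) (s t : ℝ) (y : E) : ℝ := ∫ τ in s..t, ψ (y - τ • e)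

theorem contDiff_avgT {ψ : E → ℝ} (hψ : ContDiff ℝ ∞ ψ) (hc : HasCompactSupport ψ) (e : E)
    {s t : ℝ} (hst : s ≤ t) : ContDiff ℝ ∞ (avgT ψ e s t) := by
  let ν : Measure E := Measure.map (fun τ : ℝ => τ • e) (volume.restrict (Ioc s t))
  have hmeas : Measurable (fun τ : ℝ => τ • e) := measurable_id.smul_const e
  have : IsFiniteMeasure ν := Measure.isFiniteMeasure_map _ _
  have h1 : avgT ψ e s t = MeasureTheory.convolution (fun _ : E => (1:ℝ)) ψ
      (ContinuousLinearMap.mul ℝ ℝ) ν := by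
    funext y
    rw [avgT, intervalIntegral.integral_of_le hst, MeasureTheory.convolution]
    simp only [ContinuousLinearMap.mul_apply', one_mul]
    rw [integral_map hmeas.aemeasurable]
    exact (hψ.continuous.comp (continuous_const.sub continuous_id)).aestronglyMeasurable
  rw [h1]
  exact hc.contDiff_convolution_right _ (locallyIntegrable_const 1) hψ

theorem fderiv_avgT {ψ : E → ℝ} (hψ : ContDiff ℝ ∞ ψ) (hc : HasCompactSupport ψ) (e : E)
    {s t : ℝ} (hst : s ≤ t) (y : E) :
    fderiv ℝ (avgT ψ e s t) y e = ψ (y - s • e) - ψ (y - t • e) := by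
  have hd : DifferentiableAt ℝ (avgT ψ e s t) y :=
    ((contDiff_avgT hψ hc e hst).differentiable (by simp)).differentiableAt
  have h1 : HasDerivAt (fun h : ℝ => avgT ψ e s t (y + h • e))
      (fderiv ℝ (avgT ψ e s t) y e) 0 := by
    have h2 : HasDerivAt (fun h : ℝ => y + h • e) e 0 := by
      have := ((hasDerivAt_id (0:ℝ)).smul_const e).const_add y
      simpa using this
    have h3 : HasFDerivAt (avgT ψ e s t) (fderiv ℝ (avgT ψ e s t) y) (y + (0:ℝ) • e) := by
      simpa using hd.hasFDerivAt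
    exact h3.comp_hasDerivAt (0:ℝ) h2
  have h4 : (fun h : ℝ => avgT ψ e s t (y + h • e)) =
      fun h : ℝ => (∫ τ in (0:ℝ)..(t - h), ψ (y - τ • e)) -
        ∫ τ in (0:ℝ)..(s - h), ψ (y - τ • e) := by
    funext h
    have hcont : Continuous (fun τ : ℝ => ψ (y - τ • e)) := by
      have := hψ.continuous
      fun_prop
    have h5 : avgT ψ e s t (y + h • e) = ∫ τ in (s - h)..(t - h), ψ (y - τ • e) := by
      rw [avgT, ← intervalIntegral.integral_comp_sub_right (fun τ => ψ (y - τ • e)) h]
      congr 1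
      funext τ
      congr 1
      rw [sub_smul]
      abel
    rw [h5, ← intervalIntegral.integral_interval_sub_left (hcont.intervalIntegrable _ _)
      (hcont.intervalIntegrable _ _)]
  have hcont : Continuous (fun τ : ℝ => ψ (y - τ • e)) := by
    have := hψ.continuous
    fun_prop
  have h6 : HasDerivAt (fun h : ℝ => (∫ τ in (0:ℝ)..(t - h), ψ (y - τ • e)) -
        ∫ τ in (0:ℝ)..(s - h), ψ (y - τ • e)) (ψ (y - s • e) - ψ (y - t • e)) 0 := by
    have h7 : ∀ a : ℝ, HasDerivAt (fun h : ℝ => ∫ τ in (0:ℝ)..(a - h), ψ (y - τ • e))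
        (- ψ (y - a • e)) 0 := by
      intro a
      have h8 : HasDerivAt (fun u : ℝ => ∫ τ in (0:ℝ)..u, ψ (y - τ • e)) (ψ (y - a • e)) (a - 0) := by
        rw [sub_zero]
        exact intervalIntegral.integral_hasDerivAt_right (hcont.intervalIntegrable _ _)
          (hcont.stronglyMeasurableAtFilter _ _) hcont.continuousAt
      have h9 : HasDerivAt (fun h : ℝ => a - h) (-1) 0 := by
        simpa using (hasDerivAt_id (0:ℝ)).const_sub a
      have := h8.comp (0:ℝ) h9
      simpa [Function.comp_def] using this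
    have := (h7 t).sub (h7 s)
    convert! this using 1
    ring
  rw [← h4] at h6
  exact h1.unique h6

theorem avgT_ne_zero {ψ : E → ℝ} {e y : E} {s t : ℝ} (hst : s ≤ t) (h : avgT ψ e s t y ≠ 0) :
    y ∈ sweep (tsupport ψ) e s t := by
  by_contra hy
  apply h
  rw [avgT]
  have : ∀ τ ∈ Icc s t, ψ (y - τ • e) = 0 := by
    intro τ hτ
    by_contra hne
    apply hy
    have h1 : y - τ • e ∈ tsupport ψ := subset_tsupport _ hne
    have h2 := mem_sweep (e := e) h1 hτ
    rwa [sub_add_cancel] at h2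
  rw [intervalIntegral.integral_congr (g := fun _ => (0:ℝ))]
  · simp
  · intro τ hτ
    rw [uIcc_of_le hst] at hτ
    exact this τ hτ

theorem tsupport_avgT {ψ : E → ℝ} (hc : HasCompactSupport ψ) (e : E)
    {s t : ℝ} (hst : s ≤ t) : tsupport (avgT ψ e s t) ⊆ sweep (tsupport ψ) e s t := by
  apply closure_minimal
  · intro y hy
    exact avgT_ne_zero hst hy
  · exact (isCompact_sweep hc e s t).isClosed

end

end Crest.Agent.R96.Acl_392
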