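/-
helper392, row 96, leaf P6-ACL, part 2: weak directional derivatives are absolutely continuous
on almost every line: fixed parameters.
-/
import Mathlib
import Crest.Agent.R96.Acl1_392

set_option autoImplicit false
set_option linter.unusedSectionVars false

open MeasureTheory Set Filter
open scoped ContDiff Topology

namespace Crest.Agent.R96.Acl_392

noncomputable section

variable {E : Type*} [NormedAddCommGroup E] [NormedSpace ℝ E] [FiniteDimensional ℝ E]
  [MeasurableSpace E] [BorelSpace E]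

/-- `g` is the weak derivative of `v` in the direction `e` on `Ω` -/
structure WD (Ω : Set E) (μ : Measure E) (v g : E → ℝ) (e : E) : Prop where
  lv : LocallyIntegrableOn v Ω μ
  lg : LocallyIntegrableOn g Ω μ
  weak : ∀ φ : E → ℝ, ContDiff ℝ ∞ φ → HasCompactSupport φ → tsupport φ ⊆ Ω →
    ∫ x, v x * fderiv ℝ φ x e ∂μ = - ∫ x, g x * φ x ∂μ

variable {μ : Measure E} [μ.IsAddHaarMeasure]

/-- the cut-off of `g` to the swept set of `K` -/
def cut (g : E → ℝ) (K : Set E) (e : E) (s t : ℝ) : E → ℝ := (sweep K e s t).indicator g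

theorem cut_apply {g : E → ℝ} {K : Set E} {e x : E} {s t τ : ℝ} (hx : x ∈ K)
    (hτ : τ ∈ Icc s t) : cut g K e s t (x + τ • e) = g (x + τ • e) :=
  indicator_of_mem (mem_sweep hx hτ) _

theorem integrable_cut {Ω : Set E} {g : E → ℝ} (hg : LocallyIntegrableOn g Ω μ) {K : Set E}
    (hK : IsCompact K) {e : E} {s t : ℝ} (hKs : K ⊆ segIn Ω e s t) :
    Integrable (cut g K e s t) μ := by
  have h1 : IntegrableOn g (sweep K e s t) μ :=
    hg.integrableOn_compact_subset (sweep_subset hKs) (isCompact_sweep hK e s t)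
  exact h1.integrable_indicator (isCompact_sweep hK e s t).measurableSet

theorem ae_integrable {Ω : Set E} {g : E → ℝ} (hg : LocallyIntegrableOn g Ω μ) {K : Set E}
    (hK : IsCompact K) {e : E} {s t : ℝ} (hKs : K ⊆ segIn Ω e s t) :
    ∀ᵐ x ∂μ, x ∈ K → IntegrableOn (fun τ : ℝ => g (x + τ • e)) (Icc s t) := by
  have h1 := integrable_shear (integrable_cut hg hK hKs) (volume.restrict (Icc s t)) e
  filter_upwards [h1.prod_left_ae] with x hx hxK
  refine IntegrableOn.congr_fun (f := fun τ : ℝ => cut g K e s t (x + τ • e)) hx ?_ measurableSet_Icc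
  intro τ hτ
  exact cut_apply hxK hτ

theorem integral_cut {g : E → ℝ} {K : Set E} {e x : E} {s t : ℝ} (hst : s ≤ t) (hx : x ∈ K) :
    ∫ τ in s..t, g (x + τ • e) = ∫ τ, cut g K e s t (x + τ • e) ∂(volume.restrict (Icc s t)) := by
  rw [intervalIntegral.integral_of_le hst, ← integral_Icc_eq_integral_Ioc]
  apply setIntegral_congr_fun measurableSet_Icc
  intro τ hτ
  exact (cut_apply hx hτ).symm

theorem locallyIntegrable_avg {Ω : Set E} (hΩ : IsOpen Ω) {g : E → ℝ}
    (hg : LocallyIntegrableOn g Ω μ) {e : E} {s t : ℝ} (hst : s ≤ t) :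
    LocallyIntegrableOn (fun x => ∫ τ in s..t, g (x + τ • e)) (segIn Ω e s t) μ := by
  rw [locallyIntegrableOn_iff (isOpen_segIn hΩ e s t).isLocallyClosed]
  intro K hKs hK
  have h1 := integrable_shear (integrable_cut hg hK hKs) (volume.restrict (Icc s t)) e
  have h2 := h1.integral_prod_right
  refine IntegrableOn.congr_fun
    (f := fun x => ∫ τ, cut g K e s t (x + τ • e) ∂(volume.restrict (Icc s t))) h2.integrableOn ?_
    hK.measurableSet
  intro x hx
  exact (integral_cut hst hx).symm

theorem locallyIntegrable_shift {Ω : Set E} (hΩ : IsOpen Ω) {v : E → ℝ}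
    (hv : LocallyIntegrableOn v Ω μ) {e : E} {s t a : ℝ} (ha : a ∈ Icc s t) :
    LocallyIntegrableOn (fun x => v (x + a • e)) (segIn Ω e s t) μ := by
  rw [locallyIntegrableOn_iff (isOpen_segIn hΩ e s t).isLocallyClosed]
  intro K hKs hK
  have h1 := integrable_cut hv hK hKs
  have h2 : Integrable (fun x => cut v K e s t (x + a • e)) μ := h1.comp_add_right (a • e)
  refine IntegrableOn.congr_fun (f := fun x => cut v K e s t (x + a • e)) h2.integrableOn ?_
    hK.measurableSet
  intro x hx
  exact cut_apply hx ha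

theorem test_identity {Ω : Set E} {v g : E → ℝ} {e : E} (h : WD Ω μ v g e) {s t : ℝ}
    (hst : s ≤ t) {ψ : E → ℝ} (hψ : ContDiff ℝ ∞ ψ) (hc : HasCompactSupport ψ)
    (hsupp : tsupport ψ ⊆ segIn Ω e s t) :
    ∫ x, ψ x • (v (x + t • e) - v (x + s • e) - ∫ τ in s..t, g (x + τ • e)) ∂μ = 0 := by
  set K := tsupport ψ with hKdef
  have hK : IsCompact K := hc
  obtain ⟨C, hC⟩ := hψ.continuous.bounded_above_of_compact_support hc
  have hψ0 : ∀ x, x ∉ K → ψ x = 0 := fun x hx => image_eq_zero_of_notMem_tsupport hx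
  have hψm : AEStronglyMeasurable ψ μ := hψ.continuous.aestronglyMeasurable
  -- shifts
  have hsh : ∀ a ∈ Icc s t, Integrable (fun x => ψ x * v (x + a • e)) μ ∧
      ∫ x, ψ x * v (x + a • e) ∂μ = ∫ y, v y * ψ (y - a • e) ∂μ ∧
      Integrable (fun y => v y * ψ (y - a • e)) μ := by
    intro a ha
    have h1 : (fun x => ψ x * v (x + a • e)) = fun x => ψ x * cut v K e s t (x + a • e) := by
      funext x
      by_cases hx : x ∈ K
      · rw [cut_apply hx ha]
      · rw [hψ0 x hx]; simp
    have h2 : Integrable (fun x => cut v K e s t (x + a • e)) μ :=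
      (integrable_cut h.lv hK hsupp).comp_add_right (a • e)
    have h3 : Integrable (fun x => ψ x * v (x + a • e)) μ := by
      rw [h1]
      exact h2.bdd_mul hψm (Eventually.of_forall hC)
    refine ⟨h3, ?_, ?_⟩
    · have h4 := integral_add_right_eq_self (μ := μ) (fun y => v y * ψ (y - a • e)) (a • e)
      rw [← h4]
      congr 1
      funext x
      rw [add_sub_cancel_right, mul_comm]
    · have h5 := h3.comp_sub_right (a • e)
      refine h5.congr (Eventually.of_forall fun y => ?_)
      show ψ (y - a • e) * v (y - a • e + a • e) = _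
      rw [sub_add_cancel, mul_comm]
  obtain ⟨ht1, ht2, ht3⟩ := hsh t ⟨hst, le_rfl⟩
  obtain ⟨hs1, hs2, hs3⟩ := hsh s ⟨le_rfl, hst⟩
  set ν : Measure ℝ := volume.restrict (Icc s t) with hν
  have hF := integrable_cut h.lg hK hsupp
  have hH := integrable_shear (μ := μ) hF ν e
  -- the averaged term
  have hA1 : Integrable (fun p : ℝ × E => ψ p.2 * cut g K e s t (p.2 + p.1 • e)) (ν.prod μ) := by
    refine hH.bdd_mul (c := C) ?_ (Eventually.of_forall fun p => hC p.2)
    exact (hψ.continuous.comp continuous_snd).aestronglyMeasurable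
  have hA2 : Integrable (fun p : ℝ × E => ψ (p.2 - p.1 • e) * cut g K e s t p.2) (ν.prod μ) := by
    refine (hF.comp_snd ν).bdd_mul (c := C) ?_ (Eventually.of_forall fun p => hC _)
    apply Continuous.aestronglyMeasurable
    have := hψ.continuous
    fun_prop
  have hG1 : (fun x => ψ x * ∫ τ in s..t, g (x + τ • e)) =
      fun x => ∫ τ, ψ x * cut g K e s t (x + τ • e) ∂ν := by
    funext x
    by_cases hx : x ∈ K
    · rw [integral_cut hst hx, integral_const_mul]
    · rw [hψ0 x hx]; simp
  have hG2 : Integrable (fun x => ψ x * ∫ τ in s..t, g (x + τ • e)) μ := by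
    rw [hG1]; exact hA1.integral_prod_right
  have hG3 : ∫ x, ψ x * (∫ τ in s..t, g (x + τ • e)) ∂μ = ∫ y, g y * avgT ψ e s t y ∂μ := by
    rw [hG1]
    rw [← integral_integral_swap (f := fun (τ : ℝ) (x : E) => ψ x * cut g K e s t (x + τ • e)) hA1]
    have h1 : ∀ τ : ℝ, ∫ x, ψ x * cut g K e s t (x + τ • e) ∂μ =
        ∫ y, ψ (y - τ • e) * cut g K e s t y ∂μ := by
      intro τ
      have h4 := integral_add_right_eq_self (μ := μ)
        (fun y => ψ (y - τ • e) * cut g K e s t y) (τ • e)
      rw [← h4]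
      congr 1
      funext x
      rw [add_sub_cancel_right]
    simp_rw [h1]
    rw [integral_integral_swap (f := fun (τ : ℝ) (y : E) => ψ (y - τ • e) * cut g K e s t y) hA2]
    congr 1
    funext y
    rw [integral_mul_const]
    by_cases hy : y ∈ sweep K e s t
    · have : cut g K e s t y = g y := indicator_of_mem hy _
      rw [this, mul_comm]
      congr 1
      rw [avgT, intervalIntegral.integral_of_le hst, ← integral_Icc_eq_integral_Ioc]
    · have h5 : cut g K e s t y = 0 := indicator_of_notMem hy _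
      have h6 : avgT ψ e s t y = 0 := by
        by_contra hne
        exact hy (avgT_ne_zero hst hne)
      rw [h5, h6]; simp
  have hw := h.weak (avgT ψ e s t) (contDiff_avgT hψ hc e hst)
    (HasCompactSupport.of_support_subset_isCompact (isCompact_sweep hK e s t)
      (subset_closure.trans (tsupport_avgT hc e hst)))
    ((tsupport_avgT hc e hst).trans (sweep_subset hsupp))
  have hw' : ∫ x, v x * fderiv ℝ (avgT ψ e s t) x e ∂μ =
      ∫ y, v y * ψ (y - s • e) ∂μ - ∫ y, v y * ψ (y - t • e) ∂μ := by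
    rw [← integral_sub hs3 ht3]
    congr 1
    funext y
    rw [fderiv_avgT hψ hc e hst]
    ring
  have hfin : ∫ x, ψ x • (v (x + t • e) - v (x + s • e) - ∫ τ in s..t, g (x + τ • e)) ∂μ =
      ∫ x, ψ x * v (x + t • e) ∂μ - ∫ x, ψ x * v (x + s • e) ∂μ -
        ∫ x, ψ x * (∫ τ in s..t, g (x + τ • e)) ∂μ := by
    have hsub : Integrable (fun x => ψ x * v (x + t • e) - ψ x * v (x + s • e)) μ := ht1.sub hs1
    rw [← integral_sub ht1 hs1, ← integral_sub hsub hG2]
    congr 1
    funext x
    simp only [smul_eq_mul, Pi.sub_apply]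
    ring
  rw [hfin, ht2, hs2, hG3]
  rw [hw'] at hw
  linarith

/-- **ACL, fixed parameters.** -/
theorem acl_fix {Ω : Set E} (hΩ : IsOpen Ω) {v g : E → ℝ} {e : E} (h : WD Ω μ v g e) {s t : ℝ}
    (hst : s ≤ t) : ∀ᵐ x ∂μ, x ∈ segIn Ω e s t →
      IntegrableOn (fun τ : ℝ => g (x + τ • e)) (Icc s t) ∧
        v (x + t • e) - v (x + s • e) = ∫ τ in s..t, g (x + τ • e) := by
  have hU := isOpen_segIn hΩ e s t
  have h1 : ∀ᵐ x ∂μ, x ∈ segIn Ω e s t →
      v (x + t • e) - v (x + s • e) - ∫ τ in s..t, g (x + τ • e) = 0 := by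
    apply hU.ae_eq_zero_of_integral_contDiff_smul_eq_zero
    · exact ((locallyIntegrable_shift hΩ h.lv ⟨hst, le_rfl⟩).sub
        (locallyIntegrable_shift hΩ h.lv ⟨le_rfl, hst⟩)).sub (locallyIntegrable_avg hΩ h.lg hst)
    · intro ψ hψ hc hs
      exact test_identity h hst hψ hc hs
  have h2 : ∀ᵐ x ∂μ, x ∈ segIn Ω e s t →
      IntegrableOn (fun τ : ℝ => g (x + τ • e)) (Icc s t) := by
    -- exhaust the open set by compact sets
    obtain ⟨F, hFc, hFs, hFU, hFm⟩ := hU.exists_iUnion_isClosed
    have h3 : ∀ n : ℕ, ∀ᵐ x ∂μ, x ∈ F n ∩ Metric.closedBall (0:E) n →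
        IntegrableOn (fun τ : ℝ => g (x + τ • e)) (Icc s t) := by
      intro n
      apply ae_integrable h.lg
      · exact (isCompact_closedBall (0:E) (n:ℝ)).inter_left (hFc n)
      · exact inter_subset_left.trans (hFs n)
    filter_upwards [ae_all_iff.2 h3] with x hx hxU
    rw [← hFU] at hxU
    obtain ⟨m, hm⟩ := mem_iUnion.1 hxU
    obtain ⟨k, hk⟩ := exists_nat_ge ‖x‖
    refine hx (max m k) ⟨hFm (le_max_left m k) hm, ?_⟩
    rw [mem_closedBall_zero_iff]
    exact hk.trans (by exact_mod_cast le_max_right m k)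
  filter_upwards [h1, h2] with x hx1 hx2 hxU
  exact ⟨hx2 hxU, sub_eq_zero.1 (hx1 hxU)⟩

end

end Crest.Agent.R96.Acl_392
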