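/-
helper392, row 96, leaf P6-ACL, part 3: ACL for all parameters, and for `HasWeakGradOn` on ℝ³.
-/
import Mathlib
import Crest.Agent.R96.Acl2_392
import Crest.Prelude.Def_SobolevMap

set_option autoImplicit false
set_option linter.unusedSectionVars false

open MeasureTheory Set Filter
open scoped ContDiff Topology

namespace Crest.Agent.R96.Acl_392

noncomputable section

section General

variable {E : Type*} [NormedAddCommGroup E] [NormedSpace ℝ E] [FiniteDimensional ℝ E]
  [MeasurableSpace E] [BorelSpace E] {μ : Measure E} [μ.IsAddHaarMeasure]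

/-- `v` is absolutely continuous on the line through `x` in the direction `e` inside `Ω`,
with derivative `g`. -/
def ACLat (Ω : Set E) (v g : E → ℝ) (e x : E) : Prop :=
  ∀ s t : ℝ, s ≤ t → x ∈ segIn Ω e s t →
    IntegrableOn (fun τ : ℝ => g (x + τ • e)) (Icc s t) ∧
      v (x + t • e) - v (x + s • e) = ∫ τ in s..t, g (x + τ • e)

theorem exists_rat_Icc {O : Set ℝ} (hO : IsOpen O) {s t : ℝ} (hst : s ≤ t) (h : Icc s t ⊆ O) :
    ∃ a b : ℚ, (a:ℝ) < s ∧ t < b ∧ Icc (a:ℝ) b ⊆ O := by
  obtain ⟨ε₁, hε₁, h1⟩ := Metric.isOpen_iff.1 hO s (h ⟨le_rfl, hst⟩)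
  obtain ⟨ε₂, hε₂, h2⟩ := Metric.isOpen_iff.1 hO t (h ⟨hst, le_rfl⟩)
  obtain ⟨a, ha1, ha2⟩ := exists_rat_btwn (show s - ε₁ < s by linarith)
  obtain ⟨b, hb1, hb2⟩ := exists_rat_btwn (show t < t + ε₂ by linarith)
  refine ⟨a, b, ha2, hb1, ?_⟩
  intro τ hτ
  rcases lt_or_ge τ s with hs | hs
  · apply h1
    rw [Metric.mem_ball, Real.dist_eq, abs_lt]
    constructor
    · linarith [hτ.1]
    · linarith
  · rcases le_or_gt τ t with ht | ht
    · exact h ⟨hs, ht⟩
    · apply h2
      rw [Metric.mem_ball, Real.dist_eq, abs_lt]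
      constructor
      · linarith
      · linarith [hτ.2]

/-- **ACL**: almost every line. -/
theorem acl {Ω : Set E} (hΩ : IsOpen Ω) {v g : E → ℝ} {e : E} (h : WD Ω μ v g e)
    (hvc : ContinuousOn v Ω) : ∀ᵐ x ∂μ, ACLat Ω v g e x := by
  have h1 : ∀ p : ℚ × ℚ, ∀ᵐ x ∂μ, (p.1:ℝ) ≤ p.2 → x ∈ segIn Ω e p.1 p.2 →
      IntegrableOn (fun τ : ℝ => g (x + τ • e)) (Icc (p.1:ℝ) p.2) ∧
        v (x + (p.2:ℝ) • e) - v (x + (p.1:ℝ) • e) = ∫ τ in (p.1:ℝ)..p.2, g (x + τ • e) := by
    intro p
    by_cases hp : (p.1:ℝ) ≤ p.2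
    · filter_upwards [acl_fix hΩ h hp] with x hx _ using hx
    · exact Eventually.of_forall fun x hp' => absurd hp' hp
  filter_upwards [ae_all_iff.2 h1] with x hx
  intro s t hst hxs
  set O : Set ℝ := {τ | x + τ • e ∈ Ω} with hO
  have hOo : IsOpen O := by
    apply hΩ.preimage (f := fun τ : ℝ => x + τ • e)
    fun_prop
  obtain ⟨a, b, has, htb, hab⟩ := exists_rat_Icc hOo hst hxs
  have hab' : (a:ℝ) ≤ b := by linarith
  have hseg : ∀ p q : ℝ, p ∈ Icc (a:ℝ) b → q ∈ Icc (a:ℝ) b → x ∈ segIn Ω e p q := by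
    intro p q hp hq τ hτ
    exact hab ⟨hp.1.trans hτ.1, hτ.2.trans hq.2⟩
  obtain ⟨hint, -⟩ := hx (a, b) hab' (hseg _ _ ⟨le_rfl, hab'⟩ ⟨hab', le_rfl⟩)
  have hII : ∀ p q : ℝ, p ∈ Icc (a:ℝ) b → q ∈ Icc (a:ℝ) b →
      IntervalIntegrable (fun τ : ℝ => g (x + τ • e)) volume p q := by
    intro p q hp hq
    have h2 : IntervalIntegrable (fun τ : ℝ => g (x + τ • e)) volume a b :=
      (intervalIntegrable_iff_integrableOn_Icc_of_le hab').2 hint
    refine h2.mono_set ?_
    rw [uIcc_of_le hab']
    exact uIcc_subset_Icc hp hq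
  -- the function `H` is constant
  set H : ℝ → ℝ := fun τ => v (x + τ • e) - ∫ σ in (a:ℝ)..τ, g (x + σ • e) with hH
  have hHc : ContinuousOn H (Ioo (a:ℝ) b) := by
    apply ContinuousOn.sub
    · have h3 : ContinuousOn (fun τ : ℝ => x + τ • e) (Ioo (a:ℝ) b) := by fun_prop
      exact hvc.comp h3 (fun τ hτ => hab ⟨hτ.1.le, hτ.2.le⟩)
    · have h4 := intervalIntegral.continuousOn_primitive_interval (a := (a:ℝ)) (b := (b:ℝ))
        (f := fun σ => g (x + σ • e)) (μ := volume) (by rw [uIcc_of_le hab']; exact hint)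
      rw [uIcc_of_le hab'] at h4
      exact h4.mono Ioo_subset_Icc_self
  have hHr : ∀ q : ℚ, (q:ℝ) ∈ Ioo (a:ℝ) b → H q = v (x + (a:ℝ) • e) := by
    intro q hq
    obtain ⟨-, h5⟩ := hx (a, q) hq.1.le (hseg _ _ ⟨le_rfl, hab'⟩ ⟨hq.1.le, hq.2.le⟩)
    simp only [hH]
    simp only at h5
    rw [← h5]
    ring
  have hHconst : EqOn H (fun _ => v (x + (a:ℝ) • e)) (Ioo (a:ℝ) b) := by
    refine EqOn.of_subset_closure (s := Ioo (a:ℝ) b ∩ range ((↑) : ℚ → ℝ)) ?_ hHc
      continuousOn_const inter_subset_left ?_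
    · rintro _ ⟨hq, q, rfl⟩
      exact hHr q hq
    · exact Rat.denseRange_cast.open_subset_closure_inter isOpen_Ioo
  have hs' : s ∈ Ioo (a:ℝ) b := ⟨has, by linarith⟩
  have ht' : t ∈ Ioo (a:ℝ) b := ⟨by linarith, htb⟩
  refine ⟨hint.mono_set (Icc_subset_Icc has.le htb.le), ?_⟩
  have e1 := hHconst hs'
  have e2 := hHconst ht'
  simp only [hH] at e1 e2
  have e3 : ∫ τ in s..t, g (x + τ • e) =
      (∫ σ in (a:ℝ)..t, g (x + σ • e)) - ∫ σ in (a:ℝ)..s, g (x + σ • e) := by
    rw [intervalIntegral.integral_interval_sub_left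
      (hII _ _ ⟨le_rfl, hab'⟩ ⟨ht'.1.le, ht'.2.le⟩) (hII _ _ ⟨le_rfl, hab'⟩ ⟨hs'.1.le, hs'.2.le⟩)]
  rw [e3]
  linarith

end General

section R3

open Crest.AnalysisR.VecCalc3 Crest.AnalysisR.Sobolev

/-- A weak gradient gives all directional weak derivatives. -/
theorem wd_of_grad {Ω : Set R3} (hΩ : IsOpen Ω) {v : R3 → ℝ} {G : R3 → R3}
    (h : HasWeakGradOn Ω v G) (e : R3) :
    WD Ω volume v (fun x => inner ℝ (G x) e) e := by
  obtain ⟨hv, hG, hw⟩ := h
  have hGi : ∀ i : Fin 3, LocallyIntegrableOn (fun x => G x i) Ω := by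
    intro i
    rw [locallyIntegrableOn_iff hΩ.isLocallyClosed] at hG ⊢
    intro K hK hKc
    exact (EuclideanSpace.proj (𝕜 := ℝ) i).integrable_comp (hG K hK hKc)
  have hin : ∀ x, inner ℝ (G x) e = ∑ i : Fin 3, G x i * e i := by
    intro x
    rw [PiLp.inner_apply]
    apply Finset.sum_congr rfl
    intro i _
    simp [mul_comm]
  -- integrability of (locally integrable) times (continuous, compactly supported in Ω)
  have hprod : ∀ (u : R3 → ℝ), LocallyIntegrableOn u Ω → ∀ φ : R3 → ℝ, Continuous φ →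
      HasCompactSupport φ → tsupport φ ⊆ Ω → Integrable (fun x => u x * φ x) := by
    intro u hu φ hφ hc hs
    have h1 : IntegrableOn u (tsupport φ) := hu.integrableOn_compact_subset hs hc
    obtain ⟨C, hC⟩ := hφ.bounded_above_of_compact_support hc
    have h2 : Integrable ((tsupport φ).indicator u) :=
      h1.integrable_indicator (isClosed_tsupport φ).measurableSet
    have h3 := h2.bdd_mul hφ.aestronglyMeasurable (Eventually.of_forall hC)
    refine h3.congr (Eventually.of_forall fun x => ?_)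
    by_cases hx : x ∈ tsupport φ
    · simp only [indicator_of_mem hx]; ring
    · have : φ x = 0 := image_eq_zero_of_notMem_tsupport hx
      simp [this]
  refine ⟨hv, ?_, ?_⟩
  · have : (fun x => inner ℝ (G x) e) = fun x => ∑ i : Fin 3, G x i * e i := funext hin
    rw [this]
    rw [locallyIntegrableOn_iff hΩ.isLocallyClosed]
    intro K hK hKc
    apply integrable_finsetSum
    intro i _
    have := (locallyIntegrableOn_iff hΩ.isLocallyClosed).1 (hGi i) K hK hKc
    exact this.mul_const (e i)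
  · intro φ hφ hc hs
    have hd : ∀ x, fderiv ℝ φ x e = ∑ i : Fin 3, e i * pderiv φ i x := by
      intro x
      have he : e = ∑ i : Fin 3, e i • EuclideanSpace.single i (1:ℝ) := by
        ext j
        simp [Finset.sum_apply, Pi.single_apply]
      conv_lhs => rw [he]
      rw [map_sum]
      apply Finset.sum_congr rfl
      intro i _
      rw [map_smul]
      rfl
    have hpc : ∀ i : Fin 3, Continuous (pderiv φ i) := by
      intro i
      have h1 : Continuous (fderiv ℝ φ) := hφ.continuous_fderiv (by simp)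
      exact h1.clm_apply continuous_const
    have hps : ∀ i : Fin 3, tsupport (pderiv φ i) ⊆ tsupport φ := by
      intro i
      apply closure_minimal _ (isClosed_tsupport φ)
      intro x hx
      have h1 : fderiv ℝ φ x ≠ 0 := by
        intro h0
        apply hx
        show fderiv ℝ φ x _ = 0
        rw [h0]; rfl
      exact tsupport_fderiv_subset ℝ (subset_tsupport _ h1)
    have hpcs : ∀ i : Fin 3, HasCompactSupport (pderiv φ i) := fun i =>
      hc.of_isClosed_subset (isClosed_tsupport _) (hps i)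
    have hI1 : ∀ i : Fin 3, Integrable (fun x => v x * pderiv φ i x) := fun i =>
      hprod v hv _ (hpc i) (hpcs i) ((hps i).trans hs)
    have hI2 : ∀ i : Fin 3, Integrable (fun x => G x i * φ x) := fun i =>
      hprod _ (hGi i) _ hφ.continuous hc hs
    have hΩ1 : ∀ (u : R3 → ℝ) (ψ : R3 → ℝ), tsupport ψ ⊆ Ω →
        ∫ x in Ω, u x * ψ x = ∫ x, u x * ψ x := by
      intro u ψ hψ
      apply setIntegral_eq_integral_of_forall_compl_eq_zero
      intro x hx
      have : ψ x = 0 := image_eq_zero_of_notMem_tsupport (fun h => hx (hψ h))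
      simp [this]
    have hwi : ∀ i : Fin 3, ∫ x, v x * pderiv φ i x = - ∫ x, G x i * φ x := by
      intro i
      have := hw φ hφ hc hs i
      rwa [hΩ1 v _ ((hps i).trans hs), hΩ1 (fun x => G x i) φ hs] at this
    calc ∫ x, v x * fderiv ℝ φ x e = ∫ x, ∑ i : Fin 3, e i * (v x * pderiv φ i x) := by
          congr 1
          funext x
          rw [hd, Finset.mul_sum]
          apply Finset.sum_congr rfl
          intro i _
          ring
      _ = ∑ i : Fin 3, e i * ∫ x, v x * pderiv φ i x := by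
          rw [integral_finsetSum _ (fun i _ => (hI1 i).const_mul (e i))]
          apply Finset.sum_congr rfl
          intro i _
          rw [integral_const_mul]
      _ = - ∑ i : Fin 3, e i * ∫ x, G x i * φ x := by
          rw [← Finset.sum_neg_distrib]
          apply Finset.sum_congr rfl
          intro i _
          rw [hwi i]
          ring
      _ = - ∫ x, inner ℝ (G x) e * φ x := by
          congr 1
          have : ∀ x, inner ℝ (G x) e * φ x = ∑ i : Fin 3, e i * (G x i * φ x) := by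
            intro x
            rw [hin, Finset.sum_mul]
            apply Finset.sum_congr rfl
            intro i _
            ring
          simp_rw [this]
          rw [integral_finsetSum _ (fun i _ => (hI2 i).const_mul (e i))]
          apply Finset.sum_congr rfl
          intro i _
          rw [integral_const_mul]

/-- **ACL for Sobolev functions on ℝ³**: for every direction `e`, for a.e. `x`, on every segment
`x + [s,t] e ⊆ Ω` the function is absolutely continuous with derivative `⟪G, e⟫`. -/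
theorem acl_grad {Ω : Set R3} (hΩ : IsOpen Ω) {v : R3 → ℝ} {G : R3 → R3}
    (h : HasWeakGradOn Ω v G) (hvc : ContinuousOn v Ω) (e : R3) :
    ∀ᵐ x : R3, ACLat Ω v (fun x => inner ℝ (G x) e) e x :=
  acl hΩ (wd_of_grad hΩ h e) hvc

/-- simultaneously for countably many directions and base point offsets: for a.e. translate `x`,
on all lines `x + c + ℝ e`. -/
theorem acl_grad_countable {Ω : Set R3} (hΩ : IsOpen Ω) {v : R3 → ℝ} {G : R3 → R3}
    (h : HasWeakGradOn Ω v G) (hvc : ContinuousOn v Ω) {ι : Type*} [Countable ι] (c e : ι → R3) :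
    ∀ᵐ x : R3, ∀ i, ACLat Ω v (fun x => inner ℝ (G x) (e i)) (e i) (x + c i) := by
  rw [ae_all_iff]
  intro i
  have h1 := acl_grad hΩ h hvc (e i)
  exact (measurePreserving_add_right volume (c i)).quasiMeasurePreserving.ae h1

end R3

end

end Crest.Agent.R96.Acl_392
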