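/-
helper199, row 96, leaf P6-SOB, part 1: absolute continuity on almost every line implies the
weak directional derivative (converse of P6-ACL), elementary calculus of `WD`.
-/
import Mathlib
import Crest.Agent.R96.Acl3_392

set_option autoImplicit false
set_option linter.unusedSectionVars false

open MeasureTheory Set Filter
open scoped ContDiff Topology

namespace Crest.Agent.R96.Sob1_199

open Crest.Agent.R96.Acl_392

noncomputable section

variable {E : Type*} [NormedAddCommGroup E] [NormedSpace ℝ E] [FiniteDimensional ℝ E]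
  [MeasurableSpace E] [BorelSpace E] {μ : Measure E} [μ.IsAddHaarMeasure]

/-- Fubini: integral of `ψ` against the line average of `g`. -/
theorem integral_mul_avg {Ω : Set E} {g : E → ℝ} (hg : LocallyIntegrableOn g Ω μ) {e : E}
    {s t : ℝ} (hst : s ≤ t) {ψ : E → ℝ} (hψ : ContDiff ℝ ∞ ψ) (hc : HasCompactSupport ψ)
    (hsupp : tsupport ψ ⊆ segIn Ω e s t) :
    ∫ x, ψ x * (∫ τ in s..t, g (x + τ • e)) ∂μ = ∫ y, g y * avgT ψ e s t y ∂μ := by
  set K := tsupport ψ with hKdef
  have hK : IsCompact K := hc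
  obtain ⟨C, hC⟩ := hψ.continuous.bounded_above_of_compact_support hc
  have hψ0 : ∀ x, x ∉ K → ψ x = 0 := fun x hx => image_eq_zero_of_notMem_tsupport hx
  set ν : Measure ℝ := volume.restrict (Icc s t) with hν
  have hF := integrable_cut hg hK hsupp
  have hH := integrable_shear (μ := μ) hF ν e
  have hA1 : Integrable (fun p : ℝ × E => ψ p.2 * cut g K e s t (p.2 + p.1 • e)) (ν.prod μ) := by
    refine hH.bdd_mul (c := C) ?_ (Eventually.of_forall fun p => hC p.2)
    exact (hψ.continuous.comp continuous_snd).aestronglyMeasurable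
  have hA2 : Integrable (fun p : ℝ × E => ψ (p.2 - p.1 • e) * cut g K e s t p.2) (ν.prod μ) := by
    refine (hF.comp_snd ν).bdd_mul (c := C) ?_ (Eventually.of_forall fun p => hC _)
    apply Continuous.aestronglyMeasurable
    have := hψ.continuous
    fun_prop
  have hG1 : (fun x => ψ x * ∫ τ in s..t, g (x + τ • e)) =
      fun x => ∫ τ, ψ x * cut g K e s t (x + τ • e) ∂ν := by
    funext x
    by_cases hx : x ∈ K
    · rw [integral_cut hst hx, integral_const_mul]
    · rw [hψ0 x hx]; simp
  rw [hG1]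
  rw [← integral_integral_swap (f := fun (τ : ℝ) (x : E) => ψ x * cut g K e s t (x + τ • e)) hA1]
  have h1 : ∀ τ : ℝ, ∫ x, ψ x * cut g K e s t (x + τ • e) ∂μ =
      ∫ y, ψ (y - τ • e) * cut g K e s t y ∂μ := by
    intro τ
    have h4 := integral_add_right_eq_self (μ := μ)
      (fun y => ψ (y - τ • e) * cut g K e s t y) (τ • e)
    rw [← h4]
    congr 1
    funext x
    rw [add_sub_cancel_right]
  simp_rw [h1]
  rw [integral_integral_swap (f := fun (τ : ℝ) (y : E) => ψ (y - τ • e) * cut g K e s t y) hA2]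
  congr 1
  funext y
  rw [integral_mul_const]
  by_cases hy : y ∈ sweep K e s t
  · have : cut g K e s t y = g y := indicator_of_mem hy _
    rw [this, mul_comm]
    congr 1
    rw [avgT, intervalIntegral.integral_of_le hst, ← integral_Icc_eq_integral_Ioc]
  · have h5 : cut g K e s t y = 0 := indicator_of_notMem hy _
    have h6 : avgT ψ e s t y = 0 := by
      by_contra hne
      exact hy (avgT_ne_zero hst hne)
    rw [h5, h6]; simp

/-- shifting the argument of `v` onto the test function -/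
theorem integral_mul_shift {Ω : Set E} {v : E → ℝ} (hv : LocallyIntegrableOn v Ω μ) {e : E}
    {s t a : ℝ} (ha : a ∈ Icc s t) {ψ : E → ℝ} (hψ : ContDiff ℝ ∞ ψ) (hc : HasCompactSupport ψ)
    (hsupp : tsupport ψ ⊆ segIn Ω e s t) :
    Integrable (fun x => ψ x * v (x + a • e)) μ ∧
      ∫ x, ψ x * v (x + a • e) ∂μ = ∫ y, v y * ψ (y - a • e) ∂μ ∧
      Integrable (fun y => v y * ψ (y - a • e)) μ := by
  set K := tsupport ψ with hKdef
  have hK : IsCompact K := hc
  obtain ⟨C, hC⟩ := hψ.continuous.bounded_above_of_compact_support hc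
  have hψ0 : ∀ x, x ∉ K → ψ x = 0 := fun x hx => image_eq_zero_of_notMem_tsupport hx
  have hψm : AEStronglyMeasurable ψ μ := hψ.continuous.aestronglyMeasurable
  have h1 : (fun x => ψ x * v (x + a • e)) = fun x => ψ x * cut v K e s t (x + a • e) := by
    funext x
    by_cases hx : x ∈ K
    · rw [cut_apply hx ha]
    · rw [hψ0 x hx]; simp
  have h2 : Integrable (fun x => cut v K e s t (x + a • e)) μ :=
    (integrable_cut hv hK hsupp).comp_add_right (a • e)
  have h3 : Integrable (fun x => ψ x * v (x + a • e)) μ := by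
    rw [h1]
    exact h2.bdd_mul hψm (Eventually.of_forall hC)
  refine ⟨h3, ?_, ?_⟩
  · have h4 := integral_add_right_eq_self (μ := μ) (fun y => v y * ψ (y - a • e)) (a • e)
    rw [← h4]
    congr 1
    funext x
    rw [add_sub_cancel_right, mul_comm]
  · have h5 := h3.comp_sub_right (a • e)
    refine h5.congr (Eventually.of_forall fun y => ?_)
    show ψ (y - a • e) * v (y - a • e + a • e) = _
    rw [sub_add_cancel, mul_comm]

theorem tendsto_avgT {ψ : E → ℝ} (hψ : Continuous ψ) (e y : E) {h : ℕ → ℝ}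
    (h0 : ∀ n, 0 < h n) (hl : Tendsto h atTop (𝓝 0)) :
    Tendsto (fun n => (h n)⁻¹ * avgT ψ e 0 (h n) y) atTop (𝓝 (ψ y)) := by
  have hcont : Continuous (fun τ : ℝ => ψ (y - τ • e)) := by fun_prop
  have h1 : HasDerivAt (fun u : ℝ => ∫ τ in (0:ℝ)..u, ψ (y - τ • e)) (ψ (y - (0:ℝ) • e)) 0 :=
    intervalIntegral.integral_hasDerivAt_right (hcont.intervalIntegrable _ _)
      (hcont.stronglyMeasurableAtFilter _ _) hcont.continuousAt
  have h2 := h1.tendsto_slope
  have h3 : Tendsto h atTop (𝓝[≠] 0) := by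
    rw [tendsto_nhdsWithin_iff]
    exact ⟨hl, Eventually.of_forall fun n => (h0 n).ne'⟩
  have h4 := h2.comp h3
  simp only [zero_smul, sub_zero] at h4
  refine h4.congr fun n => ?_
  simp [slope_def_field, avgT, div_eq_inv_mul]

theorem abs_avgT_le {ψ : E → ℝ} {C : ℝ} (hC : ∀ x, ‖ψ x‖ ≤ C) (e y : E) {h : ℝ} (h0 : 0 < h) :
    |h⁻¹ * avgT ψ e 0 h y| ≤ C := by
  rw [abs_mul, abs_of_pos (inv_pos.2 h0)]
  have h1 : ‖avgT ψ e 0 h y‖ ≤ C * |h - 0| := by
    apply intervalIntegral.norm_integral_le_of_norm_le_const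
    intro τ _
    exact hC _
  rw [Real.norm_eq_abs, sub_zero, abs_of_pos h0] at h1
  rw [inv_mul_le_iff₀ h0]
  linarith

/-- a uniform neighbourhood: for `K` compact in `Ω` open there is `h > 0` with
`K ⊆ segIn Ω e 0 h`. -/
theorem exists_segIn {Ω K : Set E} (hΩ : IsOpen Ω) (hK : IsCompact K) (hKΩ : K ⊆ Ω) (e : E) :
    ∃ h > 0, K ⊆ segIn Ω e (-h) h := by
  obtain ⟨δ, hδ, hδK⟩ := hK.exists_thickening_subset_open hΩ hKΩ
  refine ⟨δ / (2 * (‖e‖ + 1)), by positivity, fun x hx τ hτ => hδK ?_⟩
  rw [Metric.mem_thickening_iff]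
  refine ⟨x, hx, ?_⟩
  rw [dist_eq_norm, add_sub_cancel_left, norm_smul, Real.norm_eq_abs]
  have h1 : |τ| ≤ δ / (2 * (‖e‖ + 1)) := abs_le.2 hτ
  have h2 : 0 ≤ ‖e‖ := norm_nonneg e
  calc |τ| * ‖e‖ ≤ δ / (2 * (‖e‖ + 1)) * (‖e‖ + 1) := by
        apply mul_le_mul h1 (by linarith) h2 (by positivity)
    _ = δ / 2 := by field_simp
    _ < δ := by linarith

theorem segIn_mono {Ω : Set E} {e : E} {s t s' t' : ℝ} (hs : s ≤ s') (ht : t' ≤ t) :
    segIn Ω e s t ⊆ segIn Ω e s' t' := fun _ hx τ hτ => hx τ ⟨hs.trans hτ.1, hτ.2.trans ht⟩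

/-- the increment estimate for a compactly supported smooth function -/
theorem exists_incr_bound {ψ : E → ℝ} (hψ : ContDiff ℝ ∞ ψ) (hc : HasCompactSupport ψ) (e : E) :
    ∃ C, 0 ≤ C ∧ ∀ (y : E) (h : ℝ), |ψ (y - h • e) - ψ y| ≤ C * |h| := by
  have h1 : ContDiff ℝ 1 ψ := hψ.of_le (by exact_mod_cast le_top)
  obtain ⟨C, hC⟩ := h1.lipschitzWith_of_hasCompactSupport hc (by simp)
  refine ⟨C * ‖e‖, by positivity, fun y h => ?_⟩
  have h2 := hC.dist_le_mul (y - h • e) y
  rw [Real.dist_eq, dist_eq_norm, sub_sub_cancel_left, norm_neg, norm_smul, Real.norm_eq_abs] at h2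
  nlinarith [h2]

/-- **Converse of ACL.** -/
theorem wd_of_acl {Ω : Set E} (hΩ : IsOpen Ω) {v g : E → ℝ} {e : E}
    (hv : LocallyIntegrableOn v Ω μ) (hg : LocallyIntegrableOn g Ω μ)
    (h : ∀ᵐ x ∂μ, ACLat Ω v g e x) : WD Ω μ v g e := by
  refine ⟨hv, hg, fun φ hφ hc hs => ?_⟩
  set K := tsupport φ with hKdef
  have hK : IsCompact K := hc
  obtain ⟨h₀, hh₀, hKh⟩ := exists_segIn hΩ hK hs e
  -- the sequence of steps
  set a : ℕ → ℝ := fun n => h₀ / (n + 1) with ha
  have ha0 : ∀ n, 0 < a n := fun n => by simp only [ha]; positivity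
  have hale : ∀ n, a n ≤ h₀ := by
    intro n
    simp only [ha]
    rw [div_le_iff₀ (by positivity)]
    nlinarith [Nat.cast_nonneg (α := ℝ) n]
  have hal : Tendsto a atTop (𝓝 0) := by
    have := tendsto_one_div_add_atTop_nhds_zero_nat (𝕜 := ℝ)
    have h2 := this.const_mul h₀
    simp only [mul_zero] at h2
    refine h2.congr fun n => ?_
    simp only [ha]
    ring
  have hseg : ∀ n, K ⊆ segIn Ω e 0 (a n) := fun n => hKh.trans
    (segIn_mono (by linarith) (hale n))
  -- the discrete identity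
  have hid : ∀ n, ∫ y, v y * ((a n)⁻¹ * (φ (y - (a n) • e) - φ y)) ∂μ =
      ∫ y, g y * ((a n)⁻¹ * avgT φ e 0 (a n) y) ∂μ := by
    intro n
    obtain ⟨h1, h2, h3⟩ := integral_mul_shift hv (a := a n) ⟨(ha0 n).le, le_rfl⟩ hφ hc (hseg n)
    obtain ⟨h4, h5, h6⟩ := integral_mul_shift hv (a := 0) ⟨le_rfl, (ha0 n).le⟩ hφ hc (hseg n)
    simp only [zero_smul, add_zero, sub_zero] at h4 h5 h6
    have h7 := integral_mul_avg hg (ha0 n).le hφ hc (hseg n)
    have h8 : ∫ x, φ x * (v (x + (a n) • e) - v x) ∂μ =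
        ∫ x, φ x * (∫ τ in (0:ℝ)..(a n), g (x + τ • e)) ∂μ := by
      apply integral_congr_ae
      filter_upwards [h] with x hx
      by_cases hxK : x ∈ K
      · have := (hx 0 (a n) (ha0 n).le (hseg n hxK)).2
        simp only [zero_smul, add_zero] at this
        rw [this]
      · have : φ x = 0 := image_eq_zero_of_notMem_tsupport hxK
        simp [this]
    have h9 : ∫ x, φ x * (v (x + (a n) • e) - v x) ∂μ =
        ∫ y, v y * (φ (y - (a n) • e) - φ y) ∂μ := by
      have e1 : ∫ x, φ x * (v (x + (a n) • e) - v x) ∂μ =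
          ∫ x, φ x * v (x + (a n) • e) ∂μ - ∫ x, φ x * v x ∂μ := by
        rw [← integral_sub h1 h4]
        congr 1; funext x; ring
      have e2 : ∫ y, v y * (φ (y - (a n) • e) - φ y) ∂μ =
          ∫ y, v y * φ (y - (a n) • e) ∂μ - ∫ y, v y * φ y ∂μ := by
        rw [← integral_sub h3 h6]
        congr 1; funext x; ring
      rw [e1, e2, h2, h5]
    have e3 : ∫ y, v y * ((a n)⁻¹ * (φ (y - (a n) • e) - φ y)) ∂μ =
        (a n)⁻¹ * ∫ y, v y * (φ (y - (a n) • e) - φ y) ∂μ := by
      rw [← integral_const_mul]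
      congr 1; funext x; ring
    have e4 : ∫ y, g y * ((a n)⁻¹ * avgT φ e 0 (a n) y) ∂μ =
        (a n)⁻¹ * ∫ y, g y * avgT φ e 0 (a n) y ∂μ := by
      rw [← integral_const_mul]
      congr 1; funext x; ring
    rw [e3, e4, ← h9, h8, h7]
  -- the compact set carrying everything
  set K' := sweep K e (-h₀) h₀ with hK'
  have hK'c : IsCompact K' := isCompact_sweep hK e _ _
  have hK'Ω : K' ⊆ Ω := sweep_subset hKh
  have hvK : Integrable (K'.indicator v) μ :=
    (hv.integrableOn_compact_subset hK'Ω hK'c).integrable_indicator hK'c.measurableSet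
  have hgK : Integrable (K'.indicator g) μ :=
    (hg.integrableOn_compact_subset hK'Ω hK'c).integrable_indicator hK'c.measurableSet
  obtain ⟨C₁, hC₁0, hC₁⟩ := exists_incr_bound hφ hc e
  obtain ⟨C₂, hC₂⟩ := hφ.continuous.bounded_above_of_compact_support hc
  have hvan1 : ∀ n y, y ∉ K' → φ (y - (a n) • e) - φ y = 0 := by
    intro n y hy
    have h1 : φ (y - (a n) • e) = 0 := by
      by_contra hne
      apply hy
      have h2 : y - (a n) • e ∈ K := subset_tsupport _ hne
      have h3 := mem_sweep (e := e) (s := -h₀) (t := h₀) h2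
        (τ := a n) ⟨by linarith [ha0 n], hale n⟩
      rwa [sub_add_cancel] at h3
    have h2 : φ y = 0 := by
      by_contra hne
      apply hy
      have h2 : y ∈ K := subset_tsupport _ hne
      have h3 := mem_sweep (e := e) (s := -h₀) (t := h₀) h2 (τ := 0) ⟨by linarith, hh₀.le⟩
      simpa using h3
    rw [h1, h2, sub_zero]
  have hvan2 : ∀ n y, y ∉ K' → avgT φ e 0 (a n) y = 0 := by
    intro n y hy
    by_contra hne
    apply hy
    have h1 := avgT_ne_zero (ha0 n).le hne
    obtain ⟨⟨x, τ⟩, ⟨hx, hτ⟩, rfl⟩ := h1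
    exact mem_sweep hx ⟨by linarith [hτ.1], hτ.2.trans (hale n)⟩
  -- limits
  have hL : Tendsto (fun n => ∫ y, v y * ((a n)⁻¹ * (φ (y - (a n) • e) - φ y)) ∂μ) atTop
      (𝓝 (∫ y, v y * (- fderiv ℝ φ y e) ∂μ)) := by
    have h1 : ∀ n, (fun y => v y * ((a n)⁻¹ * (φ (y - (a n) • e) - φ y))) =
        fun y => K'.indicator v y * ((a n)⁻¹ * (φ (y - (a n) • e) - φ y)) := by
      intro n
      funext y
      by_cases hy : y ∈ K'
      · rw [indicator_of_mem hy]
      · rw [hvan1 n y hy]; simp
    have h2 : (fun y => v y * (- fderiv ℝ φ y e)) =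
        fun y => K'.indicator v y * (- fderiv ℝ φ y e) := by
      funext y
      by_cases hy : y ∈ K'
      · rw [indicator_of_mem hy]
      · have h3 : fderiv ℝ φ y = 0 := by
          by_contra hne
          apply hy
          have h2 : y ∈ K := tsupport_fderiv_subset ℝ (subset_tsupport _ hne)
          have h3 := mem_sweep (e := e) (s := -h₀) (t := h₀) h2 (τ := 0) ⟨by linarith, hh₀.le⟩
          simpa using h3
        rw [h3]; simp
    simp_rw [h1]
    rw [h2]
    apply tendsto_integral_of_dominated_convergence (fun y => ‖K'.indicator v y‖ * C₁)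
    · intro n
      apply hvK.aestronglyMeasurable.mul
      apply Continuous.aestronglyMeasurable
      have := hφ.continuous
      fun_prop
    · exact hvK.norm.mul_const _
    · intro n
      refine Eventually.of_forall fun y => ?_
      rw [norm_mul]
      apply mul_le_mul_of_nonneg_left _ (norm_nonneg _)
      rw [Real.norm_eq_abs, abs_mul, abs_of_pos (inv_pos.2 (ha0 n)), inv_mul_le_iff₀ (ha0 n)]
      have := hC₁ y (a n)
      rw [abs_of_pos (ha0 n)] at this
      linarith
    · refine Eventually.of_forall fun y => ?_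
      apply Tendsto.const_mul
      have hd : HasFDerivAt φ (fderiv ℝ φ y) y :=
        (hφ.differentiable (by simp) y).hasFDerivAt
      have h3 : HasDerivAt (fun h : ℝ => φ (y - h • e)) (fderiv ℝ φ y (-e)) 0 := by
        have h4 : HasDerivAt (fun h : ℝ => y - h • e) (-e) 0 := by
          have := ((hasDerivAt_id (0:ℝ)).smul_const e).const_sub y
          simpa using this
        have h5 : HasFDerivAt φ (fderiv ℝ φ y) (y - (0:ℝ) • e) := by simpa using hd
        exact h5.comp_hasDerivAt (0:ℝ) h4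
      have h6 := h3.tendsto_slope
      have h7 : Tendsto a atTop (𝓝[≠] 0) := by
        rw [tendsto_nhdsWithin_iff]
        exact ⟨hal, Eventually.of_forall fun n => (ha0 n).ne'⟩
      have h8 := h6.comp h7
      rw [map_neg] at h8
      refine h8.congr fun n => ?_
      simp [slope_def_field, div_eq_inv_mul]
  have hR : Tendsto (fun n => ∫ y, g y * ((a n)⁻¹ * avgT φ e 0 (a n) y) ∂μ) atTop
      (𝓝 (∫ y, g y * φ y ∂μ)) := by
    have h1 : ∀ n, (fun y => g y * ((a n)⁻¹ * avgT φ e 0 (a n) y)) =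
        fun y => K'.indicator g y * ((a n)⁻¹ * avgT φ e 0 (a n) y) := by
      intro n
      funext y
      by_cases hy : y ∈ K'
      · rw [indicator_of_mem hy]
      · rw [hvan2 n y hy]; simp
    have h2 : (fun y => g y * φ y) = fun y => K'.indicator g y * φ y := by
      funext y
      by_cases hy : y ∈ K'
      · rw [indicator_of_mem hy]
      · have h3 : φ y = 0 := by
          by_contra hne
          apply hy
          have h2 : y ∈ K := subset_tsupport _ hne
          have h3 := mem_sweep (e := e) (s := -h₀) (t := h₀) h2 (τ := 0) ⟨by linarith, hh₀.le⟩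
          simpa using h3
        rw [h3]; simp
    simp_rw [h1]
    rw [h2]
    apply tendsto_integral_of_dominated_convergence (fun y => ‖K'.indicator g y‖ * C₂)
    · intro n
      apply hgK.aestronglyMeasurable.mul
      apply Continuous.aestronglyMeasurable
      exact continuous_const.mul (contDiff_avgT hφ hc e (ha0 n).le).continuous
    · exact hgK.norm.mul_const _
    · intro n
      refine Eventually.of_forall fun y => ?_
      rw [norm_mul]
      apply mul_le_mul_of_nonneg_left _ (norm_nonneg _)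
      exact abs_avgT_le hC₂ e y (ha0 n)
    · refine Eventually.of_forall fun y => ?_
      exact (tendsto_avgT hφ.continuous e y ha0 hal).const_mul _
  have hfin := tendsto_nhds_unique (hL.congr hid) hR
  have e5 : ∫ y, v y * (- fderiv ℝ φ y e) ∂μ = - ∫ y, v y * fderiv ℝ φ y e ∂μ := by
    rw [← integral_neg]
    congr 1; funext y; ring
  rw [e5] at hfin
  linarith

end

end Crest.Agent.R96.Sob1_199
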