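/-
helper199, row 96, leaf P6-SOB, part 2: elementary calculus of weak directional derivatives,
Fubini along lines, upper gradients along lines give weak derivatives.
-/
import Mathlib
import Crest.Agent.R96.Sob1_199

set_option autoImplicit false
set_option linter.unusedSectionVars false

open MeasureTheory Set Filter
open scoped ContDiff Topology

namespace Crest.Agent.R96.Sob2_199

open Crest.Agent.R96.Acl_392 Crest.Agent.R96.Sob1_199

noncomputable section

variable {E : Type*} [NormedAddCommGroup E] [NormedSpace ℝ E] [FiniteDimensional ℝ E]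
  [MeasurableSpace E] [BorelSpace E] {μ : Measure E} [μ.IsAddHaarMeasure]

/-! ### products with test functions -/

theorem integrable_mul_test {Ω : Set E} {u : E → ℝ} (hu : LocallyIntegrableOn u Ω μ) {φ : E → ℝ}
    (hφ : Continuous φ) (hc : HasCompactSupport φ) (hs : tsupport φ ⊆ Ω) :
    Integrable (fun x => u x * φ x) μ := by
  have h1 : IntegrableOn u (tsupport φ) μ := hu.integrableOn_compact_subset hs hc
  obtain ⟨C, hC⟩ := hφ.bounded_above_of_compact_support hc
  have h2 : Integrable ((tsupport φ).indicator u) μ :=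
    h1.integrable_indicator (isClosed_tsupport φ).measurableSet
  have h3 := h2.bdd_mul hφ.aestronglyMeasurable (Eventually.of_forall hC)
  refine h3.congr (Eventually.of_forall fun x => ?_)
  by_cases hx : x ∈ tsupport φ
  · simp only [indicator_of_mem hx]; ring
  · have : φ x = 0 := image_eq_zero_of_notMem_tsupport hx
    simp [this]

theorem continuous_dir {φ : E → ℝ} (hφ : ContDiff ℝ ∞ φ) (e : E) :
    Continuous (fun x => fderiv ℝ φ x e) :=
  (hφ.continuous_fderiv (by simp)).clm_apply continuous_const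

theorem tsupport_dir (φ : E → ℝ) (e : E) :
    tsupport (fun x => fderiv ℝ φ x e) ⊆ tsupport φ := by
  apply closure_minimal _ (isClosed_tsupport φ)
  intro x hx
  have h1 : fderiv ℝ φ x ≠ 0 := by
    intro h0
    apply hx
    show fderiv ℝ φ x _ = 0
    rw [h0]; rfl
  exact tsupport_fderiv_subset ℝ (subset_tsupport _ h1)

theorem compact_dir {φ : E → ℝ} (hc : HasCompactSupport φ) (e : E) :
    HasCompactSupport (fun x => fderiv ℝ φ x e) :=
  hc.of_isClosed_subset (isClosed_tsupport _) (tsupport_dir φ e)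

theorem wd_int1 {Ω : Set E} {v g : E → ℝ} {e : E} (h : WD Ω μ v g e) {φ : E → ℝ}
    (hφ : ContDiff ℝ ∞ φ) (hc : HasCompactSupport φ) (hs : tsupport φ ⊆ Ω) :
    Integrable (fun x => v x * fderiv ℝ φ x e) μ :=
  integrable_mul_test h.lv (continuous_dir hφ e) (compact_dir hc e) ((tsupport_dir φ e).trans hs)

theorem wd_int2 {Ω : Set E} {v g : E → ℝ} {e : E} (h : WD Ω μ v g e) {φ : E → ℝ}
    (hφ : ContDiff ℝ ∞ φ) (hc : HasCompactSupport φ) (hs : tsupport φ ⊆ Ω) :
    Integrable (fun x => g x * φ x) μ :=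
  integrable_mul_test h.lg hφ.continuous hc hs

/-! ### calculus of `WD` -/

theorem wd_mono {Ω Ω' : Set E} {v g : E → ℝ} {e : E} (h : WD Ω μ v g e) (hs : Ω' ⊆ Ω) :
    WD Ω' μ v g e :=
  ⟨h.lv.mono_set hs, h.lg.mono_set hs, fun φ h1 h2 h3 => h.weak φ h1 h2 (h3.trans hs)⟩

theorem wd_add {Ω : Set E} {v g v' g' : E → ℝ} {e : E} (h : WD Ω μ v g e) (h' : WD Ω μ v' g' e) :
    WD Ω μ (fun x => v x + v' x) (fun x => g x + g' x) e := by
  refine ⟨h.lv.add h'.lv, h.lg.add h'.lg, fun φ h1 h2 h3 => ?_⟩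
  simp only [add_mul]
  rw [integral_add (wd_int1 h h1 h2 h3) (wd_int1 h' h1 h2 h3),
    integral_add (wd_int2 h h1 h2 h3) (wd_int2 h' h1 h2 h3), h.weak φ h1 h2 h3, h'.weak φ h1 h2 h3]
  ring

theorem wd_const_mul {Ω : Set E} {v g : E → ℝ} {e : E} (h : WD Ω μ v g e) (c : ℝ) :
    WD Ω μ (fun x => c * v x) (fun x => c * g x) e := by
  refine ⟨h.lv.smul c, h.lg.smul c, fun φ h1 h2 h3 => ?_⟩
  simp only [mul_assoc]
  rw [integral_const_mul, integral_const_mul, h.weak φ h1 h2 h3]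
  ring

theorem wd_neg {Ω : Set E} {v g : E → ℝ} {e : E} (h : WD Ω μ v g e) :
    WD Ω μ (fun x => - v x) (fun x => - g x) e := by
  have := wd_const_mul h (-1)
  simpa using this

theorem wd_sub {Ω : Set E} {v g v' g' : E → ℝ} {e : E} (h : WD Ω μ v g e) (h' : WD Ω μ v' g' e) :
    WD Ω μ (fun x => v x - v' x) (fun x => g x - g' x) e := by
  have := wd_add h (wd_neg h')
  simpa [sub_eq_add_neg] using this

theorem wd_zero (Ω : Set E) (e : E) : WD Ω μ (fun _ => 0) (fun _ => 0) e :=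
  ⟨(locallyIntegrable_const 0).locallyIntegrableOn _,
    (locallyIntegrable_const 0).locallyIntegrableOn _, fun φ _ _ _ => by simp⟩

theorem wd_sum {ι : Type*} (S : Finset ι) {Ω : Set E} {v g : ι → E → ℝ} {e : E}
    (h : ∀ i ∈ S, WD Ω μ (v i) (g i) e) :
    WD Ω μ (fun x => ∑ i ∈ S, v i x) (fun x => ∑ i ∈ S, g i x) e := by
  classical
  induction S using Finset.induction_on with
  | empty => simpa using wd_zero (μ := μ) Ω e
  | insert a S ha ih =>
    simp only [Finset.sum_insert ha]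
    exact wd_add (h a (Finset.mem_insert_self a S))
      (ih fun i hi => h i (Finset.mem_insert_of_mem hi))

theorem locallyIntegrableOn_congr {F : Type*} [NormedAddCommGroup F] {Ω : Set E} (hΩ : IsOpen Ω)
    {u u' : E → F} (hu : LocallyIntegrableOn u Ω μ) (h : ∀ᵐ x ∂μ, x ∈ Ω → u x = u' x) :
    LocallyIntegrableOn u' Ω μ := by
  rw [locallyIntegrableOn_iff hΩ.isLocallyClosed] at hu ⊢
  intro K hK hKc
  refine (hu K hK hKc).congr_fun_ae ?_
  rw [Filter.EventuallyEq, ae_restrict_iff' hKc.measurableSet]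
  filter_upwards [h] with x hx hxK
  exact hx (hK hxK)

theorem wd_congr {Ω : Set E} (hΩ : IsOpen Ω) {v g v' g' : E → ℝ} {e : E} (h : WD Ω μ v g e)
    (hv : ∀ᵐ x ∂μ, x ∈ Ω → v x = v' x) (hg : ∀ᵐ x ∂μ, x ∈ Ω → g x = g' x) :
    WD Ω μ v' g' e := by
  refine ⟨locallyIntegrableOn_congr hΩ h.lv hv, locallyIntegrableOn_congr hΩ h.lg hg,
    fun φ h1 h2 h3 => ?_⟩
  have e1 : ∫ x, v' x * fderiv ℝ φ x e ∂μ = ∫ x, v x * fderiv ℝ φ x e ∂μ := by
    apply integral_congr_ae
    filter_upwards [hv] with x hx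
    by_cases hxΩ : x ∈ Ω
    · rw [hx hxΩ]
    · have : fderiv ℝ φ x e = 0 := by
        have := image_eq_zero_of_notMem_tsupport (f := fun x => fderiv ℝ φ x e) (x := x)
          (fun hx' => hxΩ (h3 (tsupport_dir φ e hx')))
        simpa using this
      rw [this]; simp
  have e2 : ∫ x, g' x * φ x ∂μ = ∫ x, g x * φ x ∂μ := by
    apply integral_congr_ae
    filter_upwards [hg] with x hx
    by_cases hxΩ : x ∈ Ω
    · rw [hx hxΩ]
    · have : φ x = 0 := image_eq_zero_of_notMem_tsupport (fun hx' => hxΩ (h3 hx'))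
      rw [this]; simp
  rw [e1, e2]
  exact h.weak φ h1 h2 h3

theorem wd_unique {Ω : Set E} (hΩ : IsOpen Ω) {v g g' : E → ℝ} {e : E} (h : WD Ω μ v g e)
    (h' : WD Ω μ v g' e) : ∀ᵐ x ∂μ, x ∈ Ω → g x = g' x := by
  have h1 : ∀ᵐ x ∂μ, x ∈ Ω → g x - g' x = 0 := by
    apply hΩ.ae_eq_zero_of_integral_contDiff_smul_eq_zero (h.lg.sub h'.lg)
    intro φ hφ hc hs
    have e1 : ∫ x, φ x • (g x - g' x) ∂μ = ∫ x, g x * φ x ∂μ - ∫ x, g' x * φ x ∂μ := by
      rw [← integral_sub (wd_int2 h hφ hc hs) (wd_int2 h' hφ hc hs)]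
      congr 1
      funext x
      simp only [smul_eq_mul]
      ring
    have h2 := h.weak φ hφ hc hs
    have h3 := h'.weak φ hφ hc hs
    show ∫ x, φ x • (g x - g' x) ∂μ = 0
    rw [e1]
    linarith
  filter_upwards [h1] with x hx hxΩ
  exact sub_eq_zero.1 (hx hxΩ)

/-- linearity in the direction -/
theorem wd_add_dir {Ω : Set E} {v g g' : E → ℝ} {e e' : E} (h : WD Ω μ v g e)
    (h' : WD Ω μ v g' e') : WD Ω μ v (fun x => g x + g' x) (e + e') := by
  refine ⟨h.lv, h.lg.add h'.lg, fun φ h1 h2 h3 => ?_⟩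
  simp only [add_mul, map_add, mul_add]
  rw [integral_add (wd_int1 h h1 h2 h3) (wd_int1 h' h1 h2 h3),
    integral_add (wd_int2 h h1 h2 h3) (wd_int2 h' h1 h2 h3), h.weak φ h1 h2 h3, h'.weak φ h1 h2 h3]
  ring

theorem wd_smul_dir {Ω : Set E} {v g : E → ℝ} {e : E} (h : WD Ω μ v g e) (c : ℝ) :
    WD Ω μ v (fun x => c * g x) (c • e) := by
  refine ⟨h.lv, h.lg.smul c, fun φ h1 h2 h3 => ?_⟩
  have e1 : ∫ x, v x * fderiv ℝ φ x (c • e) ∂μ = c * ∫ x, v x * fderiv ℝ φ x e ∂μ := by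
    rw [← integral_const_mul]
    congr 1
    funext x
    rw [map_smul, smul_eq_mul]
    ring
  rw [e1, h.weak φ h1 h2 h3]
  simp only [mul_assoc]
  rw [integral_const_mul]
  ring

/-! ### Fubini along lines -/

/-- a property true almost everywhere is true almost everywhere on almost every line -/
theorem ae_line_of_ae {P : E → Prop} (h : ∀ᵐ x ∂μ, P x) (e : E) :
    ∀ᵐ x ∂μ, ∀ᵐ τ : ℝ, P (x + τ • e) := by
  have h1 : ∀ᵐ p : E × ℝ ∂(μ.prod volume), P (p.1 + p.2 • e) := by
    have h2 : ∀ᵐ p : ℝ × E ∂((volume : Measure ℝ).prod μ), P p.2 :=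
      Measure.quasiMeasurePreserving_snd.ae h
    have h3 : ∀ᵐ p : ℝ × E ∂((volume : Measure ℝ).prod μ), P (p.2 + p.1 • e) :=
      (mp_shear (μ := μ) (volume : Measure ℝ) e).quasiMeasurePreserving.ae h2
    have h4 := (Measure.measurePreserving_swap (μ := μ)
      (ν := (volume : Measure ℝ))).quasiMeasurePreserving.ae h3
    simpa using h4
  exact Measure.ae_ae_of_ae_prod h1

/-- a measurable set which is null on almost every line is null -/
theorem measure_zero_of_line {N : Set E} (hN : MeasurableSet N) {e : E}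
    (h : ∀ᵐ x ∂μ, ∀ᵐ τ : ℝ, x + τ • e ∉ N) : μ N = 0 := by
  set ν : Measure ℝ := volume.restrict (Icc 0 1) with hν
  have hm : MeasurableSet {p : E × ℝ | p.1 + p.2 • e ∈ N} := by
    apply hN.preimage
    exact measurable_fst.add (measurable_snd.smul_const e)
  have h1 : (μ.prod ν) {p : E × ℝ | p.1 + p.2 • e ∈ N} = 0 := by
    rw [Measure.measure_prod_null hm]
    filter_upwards [h] with x hx
    have h2 : ∀ᵐ τ ∂ν, x + τ • e ∉ N := ae_restrict_of_ae hx
    rw [ae_iff] at h2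
    simpa using h2
  have hm' : MeasurableSet {p : ℝ × E | p.2 + p.1 • e ∈ N} := by
    apply hN.preimage
    exact measurable_snd.add (measurable_fst.smul_const e)
  have h3 : (ν.prod μ) {p : ℝ × E | p.2 + p.1 • e ∈ N} = 0 := by
    have h4 := (Measure.measurePreserving_swap (μ := ν) (ν := μ)).measure_preimage
      hm.nullMeasurableSet
    rw [← h1, ← h4]
    rfl
  have h5 : (ν.prod μ) ((Prod.snd : ℝ × E → E) ⁻¹' N) = 0 := by
    have h6 := (mp_shear (μ := μ) ν e).measure_preimage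
      (s := (Prod.snd : ℝ × E → E) ⁻¹' N) (hN.preimage measurable_snd).nullMeasurableSet
    rw [← h6]
    exact h3
  have h7 : ((Prod.snd : ℝ × E → E) ⁻¹' N) = univ ×ˢ N := by ext; simp
  rw [h7, Measure.prod_prod] at h5
  have h8 : ν univ = 1 := by simp [hν]
  rwa [h8, one_mul] at h5

theorem ae_of_ae_line {P : E → Prop} (hP : NullMeasurableSet {x | P x} μ) {e : E}
    (h : ∀ᵐ x ∂μ, ∀ᵐ τ : ℝ, P (x + τ • e)) : ∀ᵐ x ∂μ, P x := by
  obtain ⟨N, hN1, hN2, hN3⟩ := hP.compl.exists_measurable_subset_ae_eq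
  have h1 : ∀ᵐ x ∂μ, ∀ᵐ τ : ℝ, x + τ • e ∉ N := by
    filter_upwards [h] with x hx
    filter_upwards [hx] with τ hτ hτN
    exact hN1 hτN hτ
  have h2 : μ N = 0 := measure_zero_of_line hN2 h1
  have h3 : μ {x | P x}ᶜ = 0 := by
    rw [← measure_congr hN3]; exact h2
  rw [ae_iff]
  exact h3

end

end Crest.Agent.R96.Sob2_199
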