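/-
helper199, row 96, leaf P6-SOB, part 3: upper gradients along lines give weak derivatives;
derivatives along lines.
-/
import Mathlib
import Crest.Agent.R96.Sob2_199

set_option autoImplicit false
set_option linter.unusedSectionVars false

open MeasureTheory Set Filter
open scoped ContDiff Topology

namespace Crest.Agent.R96.Sob3_199

open Crest.Agent.R96.Acl_392 Crest.Agent.R96.Sob1_199 Crest.Agent.R96.Sob2_199

noncomputable section

/-! ### one variable -/

theorem ac_of_bound {u m : ℝ → ℝ} {a b : ℝ} (hab : a ≤ b) (hm : IntegrableOn m (Icc a b))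
    (h : ∀ s t, a ≤ s → s ≤ t → t ≤ b → |u t - u s| ≤ ∫ τ in s..t, m τ) :
    AbsolutelyContinuousOnInterval u a b := by
  have hmi : IntervalIntegrable m volume a b :=
    (intervalIntegrable_iff_integrableOn_Icc_of_le hab).2 hm
  set U : ℝ → ℝ := fun t => ∫ τ in a..t, m τ with hU
  have hUac : AbsolutelyContinuousOnInterval U a b :=
    hmi.absolutelyContinuousOnInterval_intervalIntegral (c := a) (by simp)
  have hsub : ∀ s t, s ∈ Icc a b → t ∈ Icc a b → IntervalIntegrable m volume s t := by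
    intro s t hs ht
    refine hmi.mono_set ?_
    rw [uIcc_of_le hab]
    exact uIcc_subset_Icc hs ht
  have hd : ∀ s t, s ∈ Icc a b → t ∈ Icc a b → dist (u s) (u t) ≤ dist (U s) (U t) := by
    have key : ∀ s t, s ∈ Icc a b → t ∈ Icc a b → s ≤ t → dist (u s) (u t) ≤ dist (U s) (U t) := by
      intro s t hs ht hst
      have h1 := h s t hs.1 hst ht.2
      have h2 : U t - U s = ∫ τ in s..t, m τ := by
        simp only [hU]
        rw [intervalIntegral.integral_interval_sub_left (hsub _ _ ⟨le_rfl, hab⟩ ht)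
          (hsub _ _ ⟨le_rfl, hab⟩ hs)]
      rw [dist_comm, dist_comm (U s), Real.dist_eq, Real.dist_eq, h2]
      exact h1.trans (le_abs_self _)
    intro s t hs ht
    rcases le_total s t with hst | hst
    · exact key s t hs ht hst
    · rw [dist_comm, dist_comm (U s)]
      exact key t s ht hs hst
  rw [absolutelyContinuousOnInterval_iff] at hUac ⊢
  intro ε hε
  obtain ⟨δ, hδ, hδ'⟩ := hUac ε hε
  refine ⟨δ, hδ, fun I hI hl => ?_⟩
  refine lt_of_le_of_lt (Finset.sum_le_sum fun i hi => ?_) (hδ' I hI hl)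
  have h1 := hI.1 i hi
  rw [uIcc_of_le hab] at h1
  exact hd _ _ h1.1 h1.2

/-- a.e. differentiability and the bound for the derivative -/
theorem ae_deriv_of_bound {u m : ℝ → ℝ} {a b : ℝ} (hab : a ≤ b) (hm : IntegrableOn m (Icc a b))
    (h : ∀ s t, a ≤ s → s ≤ t → t ≤ b → |u t - u s| ≤ ∫ τ in s..t, m τ) :
    ∀ᵐ τ : ℝ, τ ∈ Ioo a b → HasDerivAt u (deriv u τ) τ ∧ |deriv u τ| ≤ m τ := by
  have hmi : IntervalIntegrable m volume a b :=
    (intervalIntegrable_iff_integrableOn_Icc_of_le hab).2 hm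
  have hac := ac_of_bound hab hm h
  filter_upwards [hac.ae_differentiableAt, hmi.ae_hasDerivAt_integral] with τ h1 h2 hτ
  have hτ' : τ ∈ uIcc a b := by
    rw [uIcc_of_le hab]; exact Ioo_subset_Icc_self hτ
  have h3 := (h1 hτ').hasDerivAt
  have h4 := h2 hτ' a (by simp)
  refine ⟨h3, ?_⟩
  -- compare slopes from the right
  have h5 := h3.tendsto_slope
  have h6 := h4.tendsto_slope
  have h7 : Tendsto (fun t => |slope u τ t|) (𝓝[>] τ) (𝓝 |deriv u τ|) :=
    (h5.mono_left (nhdsGT_le_nhdsNE τ)).abs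
  have h8 := h6.mono_left (nhdsGT_le_nhdsNE τ)
  refine le_of_tendsto_of_tendsto h7 h8 ?_
  have h9 : Ioo τ b ∈ 𝓝[>] τ := Ioo_mem_nhdsGT hτ.2
  filter_upwards [h9] with t ht
  have hpos : 0 < t - τ := sub_pos.2 ht.1
  have h10 := h τ t hτ.1.le ht.1.le ht.2.le
  have h11 : (∫ x in a..t, m x) - ∫ x in a..τ, m x = ∫ x in τ..t, m x := by
    rw [intervalIntegral.integral_interval_sub_left]
    · refine hmi.mono_set ?_
      rw [uIcc_of_le hab]
      exact uIcc_subset_Icc ⟨le_rfl, hab⟩ ⟨(hτ.1.trans ht.1).le, ht.2.le⟩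
    · refine hmi.mono_set ?_
      rw [uIcc_of_le hab]
      exact uIcc_subset_Icc ⟨le_rfl, hab⟩ ⟨hτ.1.le, hτ.2.le⟩
  rw [slope_def_field, slope_def_field, abs_div, abs_of_pos hpos, h11]
  gcongr

variable {E : Type*} [NormedAddCommGroup E] [NormedSpace ℝ E] [FiniteDimensional ℝ E]
  [MeasurableSpace E] [BorelSpace E] {μ : Measure E} [μ.IsAddHaarMeasure]

/-- the upper right difference quotient along `1/(n+1)`, of the function extended by zero -/
def dq (Ω : Set E) (u : E → ℝ) (e : E) (x : E) : ℝ :=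
  limsup (fun n : ℕ => ((n:ℝ) + 1) *
    (Ω.indicator u (x + ((n:ℝ) + 1)⁻¹ • e) - Ω.indicator u x)) atTop

theorem measurable_dq {Ω : Set E} (hΩ : IsOpen Ω) {u : E → ℝ} (hu : ContinuousOn u Ω) (e : E) :
    Measurable (dq Ω u e) := by
  have h1 : Measurable (Ω.indicator u) := by
    classical
    have h2 := hu.measurable_piecewise (g := fun _ => (0:ℝ)) continuousOn_const hΩ.measurableSet
    rw [← piecewise_eq_indicator]
    exact h2
  apply Measurable.limsup
  intro n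
  apply Measurable.const_mul
  apply Measurable.sub _ h1
  exact h1.comp (measurable_id.add_const _)

theorem dq_eq {Ω : Set E} (hΩ : IsOpen Ω) {u : E → ℝ} {e x : E} {τ d : ℝ}
    (hx : x + τ • e ∈ Ω) (hd : HasDerivAt (fun s : ℝ => u (x + s • e)) d τ) :
    dq Ω u e (x + τ • e) = d := by
  apply Tendsto.limsup_eq
  have h1 : Tendsto (fun n : ℕ => τ + ((n:ℝ) + 1)⁻¹) atTop (𝓝[≠] τ) := by
    rw [tendsto_nhdsWithin_iff]
    constructor
    · have := tendsto_one_div_add_atTop_nhds_zero_nat (𝕜 := ℝ)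
      have h2 := this.const_add τ
      simp only [add_zero, one_div] at h2
      exact h2
    · refine Eventually.of_forall fun n => ?_
      simp only [mem_compl_iff, mem_singleton_iff, add_eq_left, inv_eq_zero]
      positivity
  have h2 := hd.tendsto_slope.comp h1
  refine h2.congr' ?_
  have h3 : ∀ᶠ n : ℕ in atTop, x + (τ + ((n:ℝ) + 1)⁻¹) • e ∈ Ω := by
    have hc : Continuous (fun s : ℝ => x + s • e) := by fun_prop
    have h4 : (fun s : ℝ => x + s • e) ⁻¹' Ω ∈ 𝓝 τ := (hΩ.preimage hc).mem_nhds hx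
    exact (h1.mono_right nhdsWithin_le_nhds) h4
  filter_upwards [h3] with n hn
  have h5 : x + τ • e + ((n:ℝ) + 1)⁻¹ • e = x + (τ + ((n:ℝ) + 1)⁻¹) • e := by
    rw [add_smul]; abel
  rw [h5, indicator_of_mem hn, indicator_of_mem hx]
  simp only [Function.comp_apply, slope_def_field, add_sub_cancel_left, div_inv_eq_mul]
  ring

/-- line-wise absolute continuity with an upper gradient -/
def UG (Ω : Set E) (u m : E → ℝ) (e x : E) : Prop :=
  ∀ s t : ℝ, s ≤ t → x ∈ segIn Ω e s t →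
    IntegrableOn (fun τ : ℝ => m (x + τ • e)) (Icc s t) ∧
      |u (x + t • e) - u (x + s • e)| ≤ ∫ τ in s..t, m (x + τ • e)

theorem ug_of_acl {Ω : Set E} {v g : E → ℝ} {e x : E} (h : ACLat Ω v g e x) :
    UG Ω v (fun y => |g y|) e x := by
  intro s t hst hx
  obtain ⟨h1, h2⟩ := h s t hst hx
  refine ⟨h1.abs, ?_⟩
  rw [h2]
  exact intervalIntegral.abs_integral_le_integral_abs hst

theorem segIn_sub {Ω : Set E} {e x : E} {s t s' t' : ℝ} (hx : x ∈ segIn Ω e s t) (hs : s ≤ s')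
    (ht : t' ≤ t) : x ∈ segIn Ω e s' t' := segIn_mono hs ht hx

/-- on a line with an upper gradient: a.e. derivative, with the bound -/
theorem ug_deriv {Ω : Set E} {u m : E → ℝ} {e x : E} (h : UG Ω u m e x) {s t : ℝ} (hst : s ≤ t)
    (hx : x ∈ segIn Ω e s t) : ∀ᵐ τ : ℝ, τ ∈ Ioo s t →
      HasDerivAt (fun σ : ℝ => u (x + σ • e)) (deriv (fun σ : ℝ => u (x + σ • e)) τ) τ ∧
        |deriv (fun σ : ℝ => u (x + σ • e)) τ| ≤ m (x + τ • e) := by
  apply ae_deriv_of_bound hst (h s t hst hx).1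
  intro s' t' h1 h2 h3
  exact (h s' t' h2 (segIn_sub hx h1 h3)).2

/-- a.e. point of the part of the line inside the open set -/
theorem ae_line_open {Ω : Set E} (hΩ : IsOpen Ω) {e x : E} {P : ℝ → Prop}
    (h : ∀ s t : ℝ, s ≤ t → x ∈ segIn Ω e s t → ∀ᵐ τ : ℝ, τ ∈ Ioo s t → P τ) :
    ∀ᵐ τ : ℝ, x + τ • e ∈ Ω → P τ := by
  have h1 : ∀ p : ℚ × ℚ, ∀ᵐ τ : ℝ, (p.1:ℝ) ≤ p.2 → x ∈ segIn Ω e p.1 p.2 →
      τ ∈ Ioo (p.1:ℝ) p.2 → P τ := by
    intro p
    by_cases hp : (p.1:ℝ) ≤ p.2 ∧ x ∈ segIn Ω e p.1 p.2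
    · filter_upwards [h _ _ hp.1 hp.2] with τ hτ _ _ using hτ
    · refine Eventually.of_forall fun τ h1 h2 => absurd ⟨h1, h2⟩ hp
  filter_upwards [ae_all_iff.2 h1] with τ hτ hxτ
  have hO : IsOpen {s : ℝ | x + s • e ∈ Ω} := by
    apply hΩ.preimage (f := fun s : ℝ => x + s • e)
    fun_prop
  obtain ⟨a, b, ha, hb, hab⟩ := exists_rat_Icc hO (le_refl τ)
    (fun s hs => by
      have : s = τ := le_antisymm hs.2 hs.1
      rw [this]; exact hxτ)
  exact hτ (a, b) (by linarith) (fun s hs => hab hs) ⟨ha, hb⟩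

theorem ug_line {Ω : Set E} (hΩ : IsOpen Ω) {u m : E → ℝ} {e x : E} (h : UG Ω u m e x) :
    ∀ᵐ τ : ℝ, x + τ • e ∈ Ω →
      HasDerivAt (fun σ : ℝ => u (x + σ • e)) (dq Ω u e (x + τ • e)) τ ∧
        |dq Ω u e (x + τ • e)| ≤ m (x + τ • e) := by
  have h1 : ∀ᵐ τ : ℝ, x + τ • e ∈ Ω →
      HasDerivAt (fun σ : ℝ => u (x + σ • e)) (deriv (fun σ : ℝ => u (x + σ • e)) τ) τ ∧
        |deriv (fun σ : ℝ => u (x + σ • e)) τ| ≤ m (x + τ • e) :=
    ae_line_open hΩ fun s t hst hx => ug_deriv h hst hx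
  filter_upwards [h1] with τ hτ hxτ
  obtain ⟨h2, h3⟩ := hτ hxτ
  rw [dq_eq hΩ hxτ h2]
  exact ⟨h2, h3⟩

/-- on a line with an upper gradient the function is the integral of `dq` -/
theorem ug_acl {Ω : Set E} (hΩ : IsOpen Ω) {u m : E → ℝ} {e x : E} (h : UG Ω u m e x) :
    ACLat Ω u (dq Ω u e) e x := by
  intro s t hst hx
  have h1 := ug_line hΩ h
  have hac : AbsolutelyContinuousOnInterval (fun σ : ℝ => u (x + σ • e)) s t := by
    apply ac_of_bound hst (h s t hst hx).1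
    intro s' t' h1 h2 h3
    exact (h s' t' h2 (segIn_sub hx h1 h3)).2
  have hae : ∀ᵐ τ : ℝ, τ ∈ Icc s t →
      deriv (fun σ : ℝ => u (x + σ • e)) τ = dq Ω u e (x + τ • e) := by
    filter_upwards [h1] with τ hτ hτ'
    exact (hτ (hx τ hτ')).1.deriv
  constructor
  · have h2 : IntegrableOn (deriv (fun σ : ℝ => u (x + σ • e))) (Icc s t) :=
      (intervalIntegrable_iff_integrableOn_Icc_of_le hst).1 hac.intervalIntegrable_deriv
    refine h2.congr_fun_ae ?_
    rw [Filter.EventuallyEq, ae_restrict_iff' measurableSet_Icc]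
    exact hae
  · rw [← hac.integral_deriv_eq_sub]
    apply intervalIntegral.integral_congr_ae
    filter_upwards [hae] with τ hτ hτ'
    apply hτ
    rw [uIoc_of_le hst] at hτ'
    exact Ioc_subset_Icc_self hτ'

theorem aemeas_of_loc {Ω : Set E} {m : E → ℝ} (hm : LocallyIntegrableOn m Ω μ) :
    AEStronglyMeasurable m (μ.restrict Ω) := hm.aestronglyMeasurable

/-- **Upper gradients along almost every line give a weak derivative.** -/
theorem wd_of_ug {Ω : Set E} (hΩ : IsOpen Ω) {u m : E → ℝ} {e : E} (hu : ContinuousOn u Ω)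
    (hm : LocallyIntegrableOn m Ω μ) (h : ∀ᵐ x ∂μ, UG Ω u m e x) :
    WD Ω μ u (dq Ω u e) e ∧ (∀ᵐ x ∂μ, x ∈ Ω → |dq Ω u e x| ≤ m x) := by
  have hmeas := measurable_dq hΩ hu e
  -- the bound
  have hb : ∀ᵐ x ∂μ, x ∈ Ω → |dq Ω u e x| ≤ m x := by
    have ham := aemeas_of_loc hm
    obtain ⟨m', hm'1, hm'2⟩ := ham
    rw [Filter.EventuallyEq, ae_restrict_iff' hΩ.measurableSet] at hm'2
    have hN : MeasurableSet (Ω ∩ {x | m' x < |dq Ω u e x|}) := by
      apply hΩ.measurableSet.inter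
      exact measurableSet_lt hm'1.measurable hmeas.abs
    have h1 : μ (Ω ∩ {x | m' x < |dq Ω u e x|}) = 0 := by
      apply measure_zero_of_line hN (e := e)
      filter_upwards [h, ae_line_of_ae hm'2 e] with x hx hx'
      filter_upwards [ug_line hΩ hx, hx'] with τ h1 h2 h3
      have h4 := (h1 h3.1).2
      have h5 := h2 h3.1
      have h6 := h3.2
      simp only [mem_ofPred_eq] at h6
      rw [h5] at h4
      linarith
    have h2 : ∀ᵐ x ∂μ, x ∉ (Ω ∩ {x | m' x < |dq Ω u e x|}) := measure_eq_zero_iff_ae_notMem.1 h1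
    filter_upwards [h2, hm'2] with x h3 h4 hx
    rw [h4 hx]
    by_contra hcon
    push Not at hcon
    exact h3 ⟨hx, hcon⟩
  refine ⟨?_, hb⟩
  apply wd_of_acl hΩ (hu.locallyIntegrableOn hΩ.measurableSet)
  · rw [locallyIntegrableOn_iff hΩ.isLocallyClosed]
    intro K hK hKc
    refine Integrable.mono' (hm.integrableOn_compact_subset hK hKc) hmeas.aestronglyMeasurable ?_
    rw [ae_restrict_iff' hKc.measurableSet]
    filter_upwards [hb] with x hx hxK
    exact hx (hK hxK)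
  · filter_upwards [h] with x hx
    exact ug_acl hΩ hx

/-- **Derivatives along lines** of a continuous function with a weak derivative. -/
theorem line_deriv {Ω : Set E} (hΩ : IsOpen Ω) {v g : E → ℝ} {e : E} (h : WD Ω μ v g e)
    (hv : ContinuousOn v Ω) :
    (∀ᵐ x ∂μ, ∀ᵐ τ : ℝ, x + τ • e ∈ Ω →
      HasDerivAt (fun σ : ℝ => v (x + σ • e)) (g (x + τ • e)) τ) ∧
    (∀ᵐ x ∂μ, x ∈ Ω → g x = dq Ω v e x) := by
  have h1 := acl hΩ h hv
  have hUG : ∀ᵐ x ∂μ, UG Ω v (fun y => |g y|) e x := by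
    filter_upwards [h1] with x hx using ug_of_acl hx
  have h2 : LocallyIntegrableOn (fun y => |g y|) Ω μ := h.lg.norm
  obtain ⟨h3, -⟩ := wd_of_ug hΩ hv h2 hUG
  have h4 := wd_unique hΩ h h3
  refine ⟨?_, h4⟩
  filter_upwards [hUG, ae_line_of_ae h4 e] with x hx hx'
  filter_upwards [ug_line hΩ hx, hx'] with τ h5 h6 h7
  rw [h6 h7]
  exact (h5 h7).1

end

end Crest.Agent.R96.Sob3_199
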