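/-
helper199, row 96, leaf P6-SOB, part 4: vector valued maps, post-composition with Lipschitz
and with differentiable maps, localisation.
-/
import Mathlib
import Crest.Agent.R96.Sob3_199

set_option autoImplicit false
set_option linter.unusedSectionVars false

open MeasureTheory Set Filter
open scoped ContDiff Topology NNReal

namespace Crest.Agent.R96.Sob4_199

open Crest.Agent.R96.Acl_392 Crest.Agent.R96.Sob1_199 Crest.Agent.R96.Sob2_199
  Crest.Agent.R96.Sob3_199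

noncomputable section

variable {E : Type*} [NormedAddCommGroup E] [NormedSpace ℝ E] [FiniteDimensional ℝ E]
  [MeasurableSpace E] [BorelSpace E] {μ : Measure E} [μ.IsAddHaarMeasure]

/-! ### comparison on lines gives comparison almost everywhere -/

theorem ae_le_of_line {Ω : Set E} (hΩ : IsOpen Ω) {a b : E → ℝ} {e : E}
    (ha : AEMeasurable a (μ.restrict Ω)) (hb : AEMeasurable b (μ.restrict Ω))
    (h : ∀ᵐ x ∂μ, ∀ᵐ τ : ℝ, x + τ • e ∈ Ω → a (x + τ • e) ≤ b (x + τ • e)) :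
    ∀ᵐ x ∂μ, x ∈ Ω → a x ≤ b x := by
  obtain ⟨a', ha1, ha2⟩ := ha
  obtain ⟨b', hb1, hb2⟩ := hb
  rw [Filter.EventuallyEq, ae_restrict_iff' hΩ.measurableSet] at ha2 hb2
  have hN : MeasurableSet (Ω ∩ {x | b' x < a' x}) :=
    hΩ.measurableSet.inter (measurableSet_lt hb1 ha1)
  have h1 : μ (Ω ∩ {x | b' x < a' x}) = 0 := by
    apply measure_zero_of_line hN (e := e)
    filter_upwards [h, ae_line_of_ae ha2 e, ae_line_of_ae hb2 e] with x h1 h2 h3
    filter_upwards [h1, h2, h3] with τ h4 h5 h6 h7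
    have h8 := h4 h7.1
    rw [h5 h7.1, h6 h7.1] at h8
    exact absurd h7.2 (not_lt.2 h8)
  have h2 : ∀ᵐ x ∂μ, x ∉ (Ω ∩ {x | b' x < a' x}) := measure_eq_zero_iff_ae_notMem.1 h1
  filter_upwards [h2, ha2, hb2] with x h3 h4 h5 hx
  rw [h4 hx, h5 hx]
  by_contra hcon
  push Not at hcon
  exact h3 ⟨hx, hcon⟩

theorem ae_eq_of_line {Ω : Set E} (hΩ : IsOpen Ω) {a b : E → ℝ} {e : E}
    (ha : AEMeasurable a (μ.restrict Ω)) (hb : AEMeasurable b (μ.restrict Ω))
    (h : ∀ᵐ x ∂μ, ∀ᵐ τ : ℝ, x + τ • e ∈ Ω → a (x + τ • e) = b (x + τ • e)) :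
    ∀ᵐ x ∂μ, x ∈ Ω → a x = b x := by
  have h1 := ae_le_of_line hΩ ha hb (e := e) (by
    filter_upwards [h] with x hx
    filter_upwards [hx] with τ hτ h' using (hτ h').le)
  have h2 := ae_le_of_line hΩ hb ha (e := e) (by
    filter_upwards [h] with x hx
    filter_upwards [hx] with τ hτ h' using (hτ h').ge)
  filter_upwards [h1, h2] with x h3 h4 hx
  exact le_antisymm (h3 hx) (h4 hx)

/-! ### localisation -/

theorem dq_local {Ω Ω' : Set E} (hΩ : IsOpen Ω) (hΩ' : IsOpen Ω') {u : E → ℝ} {e x : E}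
    (hx : x ∈ Ω) (hx' : x ∈ Ω') : dq Ω u e x = dq Ω' u e x := by
  apply limsup_congr
  have h1 : Tendsto (fun n : ℕ => x + ((n:ℝ) + 1)⁻¹ • e) atTop (𝓝 x) := by
    have h2 := tendsto_one_div_add_atTop_nhds_zero_nat (𝕜 := ℝ)
    simp only [one_div] at h2
    have h3 := (h2.smul_const e).const_add x
    simpa using h3
  filter_upwards [h1 (hΩ.mem_nhds hx), h1 (hΩ'.mem_nhds hx')] with n h2 h3
  simp only [mem_preimage] at h2 h3
  rw [indicator_of_mem h2, indicator_of_mem h3, indicator_of_mem hx, indicator_of_mem hx']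

/-- weak derivatives are local: it suffices to have `WD` near every compact subset. -/
theorem wd_of_compacts {Ω : Set E} (hΩ : IsOpen Ω) {v g : E → ℝ} {e : E}
    (h : ∀ K ⊆ Ω, IsCompact K → ∃ Ω', K ⊆ Ω' ∧ WD Ω' μ v g e) : WD Ω μ v g e := by
  refine ⟨?_, ?_, fun φ hφ hc hs => ?_⟩
  · rw [locallyIntegrableOn_iff hΩ.isLocallyClosed]
    intro K hK hKc
    obtain ⟨Ω', h1, h2⟩ := h K hK hKc
    exact h2.lv.integrableOn_compact_subset h1 hKc
  · rw [locallyIntegrableOn_iff hΩ.isLocallyClosed]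
    intro K hK hKc
    obtain ⟨Ω', h1, h2⟩ := h K hK hKc
    exact h2.lg.integrableOn_compact_subset h1 hKc
  · obtain ⟨Ω', h1, h2⟩ := h _ hs hc
    exact h2.weak φ hφ hc h1

/-- a function which is locally of upper gradient type -/
theorem wd_of_ug_local {Ω : Set E} (hΩ : IsOpen Ω) {u : E → ℝ} {e : E} (hu : ContinuousOn u Ω)
    (h : ∀ K ⊆ Ω, IsCompact K → ∃ (Ω' : Set E) (m : E → ℝ), IsOpen Ω' ∧ K ⊆ Ω' ∧ Ω' ⊆ Ω ∧
      LocallyIntegrableOn m Ω' μ ∧ ∀ᵐ x ∂μ, UG Ω' u m e x) :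
    WD Ω μ u (dq Ω u e) e := by
  apply wd_of_compacts hΩ
  intro K hK hKc
  obtain ⟨Ω', m, h1, h2, h3, h4, h5⟩ := h K hK hKc
  obtain ⟨h6, -⟩ := wd_of_ug h1 (hu.mono h3) h4 h5
  refine ⟨Ω', h2, wd_congr h1 h6 (Eventually.of_forall fun _ _ => rfl)
    (Eventually.of_forall fun x hx => dq_local h1 hΩ hx (h3 hx))⟩

/-- a relatively compact open neighbourhood of a compact set in an open set -/
theorem exists_nhd {Ω K : Set E} (hΩ : IsOpen Ω) (hK : IsCompact K) (hKΩ : K ⊆ Ω) :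
    ∃ Ω', IsOpen Ω' ∧ K ⊆ Ω' ∧ IsCompact (closure Ω') ∧ closure Ω' ⊆ Ω := by
  obtain ⟨V, h1, h2, h3, h4⟩ := exists_open_between_and_isCompact_closure hK hΩ hKΩ
  exact ⟨V, h1, h2, h4, h3⟩

/-! ### vector valued maps -/

section Vec

variable {ι κ : Type*} [Fintype ι] [Fintype κ]

/-- the vector valued `D` is the weak derivative of `f` in the direction `e` -/
def VWD (Ω : Set E) (μ : Measure E) (f D : E → EuclideanSpace ℝ ι) (e : E) : Prop :=
  ∀ i, WD Ω μ (fun x => f x i) (fun x => D x i) e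

theorem continuousOn_comp_apply {X : Type*} [TopologicalSpace X] {Ω : Set X}
    {f : X → EuclideanSpace ℝ ι} (hf : ContinuousOn f Ω) (i : ι) :
    ContinuousOn (fun x => f x i) Ω := by
  have h1 : Continuous (fun y : EuclideanSpace ℝ ι => y i) := (EuclideanSpace.proj i).continuous
  exact h1.comp_continuousOn hf

theorem continuousOn_iff_apply {X : Type*} [TopologicalSpace X] {Ω : Set X}
    {f : X → EuclideanSpace ℝ ι} (hf : ∀ i, ContinuousOn (fun x => f x i) Ω) :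
    ContinuousOn f Ω := by
  have h1 : ContinuousOn (fun x => (WithLp.ofLp (f x) : ι → ℝ)) Ω := continuousOn_pi.2 hf
  have h2 : Continuous (fun y : ι → ℝ => (WithLp.toLp 2 y : EuclideanSpace ℝ ι)) :=
    PiLp.continuous_toLp 2 _
  exact h2.comp_continuousOn h1

theorem hasDerivAt_of_apply {f : ℝ → EuclideanSpace ℝ ι} {d : EuclideanSpace ℝ ι} {τ : ℝ}
    (h : ∀ i, HasDerivAt (fun s => f s i) (d i) τ) : HasDerivAt f d τ := by
  have h1 : HasDerivAt (fun s => (WithLp.ofLp (f s) : ι → ℝ)) (WithLp.ofLp d) τ :=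
    hasDerivAt_pi.2 h
  have h2 := (PiLp.continuousLinearEquiv 2 ℝ (fun _ : ι => ℝ)).symm.hasFDerivAt
    (x := (WithLp.ofLp (f τ) : ι → ℝ))
  exact h2.comp_hasDerivAt τ h1

theorem hasDerivAt_apply' {f : ℝ → EuclideanSpace ℝ ι} {d : EuclideanSpace ℝ ι} {τ : ℝ}
    (h : HasDerivAt f d τ) (i : ι) : HasDerivAt (fun s => f s i) (d i) τ := by
  have h2 := (EuclideanSpace.proj i : EuclideanSpace ℝ ι →L[ℝ] ℝ).hasFDerivAt (x := f τ)
  exact h2.comp_hasDerivAt τ h

theorem aestronglyMeasurable_of_apply {ν : Measure E} {D : E → EuclideanSpace ℝ ι}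
    (h : ∀ i, AEMeasurable (fun x => D x i) ν) : AEMeasurable D ν := by
  have h1 : AEMeasurable (fun x => (WithLp.ofLp (D x) : ι → ℝ)) ν := aemeasurable_pi_iff.2 h
  have h2 : Measurable (fun y : ι → ℝ => (WithLp.toLp 2 y : EuclideanSpace ℝ ι)) :=
    (PiLp.continuous_toLp 2 _).measurable
  exact h2.comp_aemeasurable h1

theorem VWD.aemeas {Ω : Set E} {f D : E → EuclideanSpace ℝ ι} {e : E}
    (h : VWD Ω μ f D e) : AEMeasurable D (μ.restrict Ω) :=
  aestronglyMeasurable_of_apply fun i => (aemeas_of_loc (h i).lg).aemeasurable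

theorem VWD.loc {Ω : Set E} (hΩ : IsOpen Ω) {f D : E → EuclideanSpace ℝ ι} {e : E}
    (h : VWD Ω μ f D e) : LocallyIntegrableOn D Ω μ := by
  rw [locallyIntegrableOn_iff hΩ.isLocallyClosed]
  intro K hK hKc
  have h1 : IntegrableOn (fun x => ∑ i, |D x i|) K μ := by
    apply integrable_finsetSum
    intro i _
    exact ((h i).lg.integrableOn_compact_subset hK hKc).abs
  refine Integrable.mono' h1 ?_ ?_
  · exact (h.aemeas.mono_measure (Measure.restrict_mono hK le_rfl)).aestronglyMeasurable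
  · refine Eventually.of_forall fun x => ?_
    rw [EuclideanSpace.norm_eq]
    have h2 : ∑ i, ‖D x i‖ ^ 2 ≤ (∑ i, |D x i|) ^ 2 := by
      simp only [Real.norm_eq_abs]
      exact Finset.sum_sq_le_sq_sum_of_nonneg fun i _ => abs_nonneg _
    calc √(∑ i, ‖D x i‖ ^ 2) ≤ √((∑ i, |D x i|) ^ 2) := Real.sqrt_le_sqrt h2
      _ = ∑ i, |D x i| := Real.sqrt_sq (Finset.sum_nonneg fun i _ => abs_nonneg _)

/-- derivatives along lines, vector valued -/
theorem vline_deriv {Ω : Set E} (hΩ : IsOpen Ω) {f D : E → EuclideanSpace ℝ ι} {e : E}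
    (h : VWD Ω μ f D e) (hf : ContinuousOn f Ω) :
    ∀ᵐ x ∂μ, ∀ᵐ τ : ℝ, x + τ • e ∈ Ω →
      HasDerivAt (fun σ : ℝ => f (x + σ • e)) (D (x + τ • e)) τ := by
  have h1 : ∀ i, ∀ᵐ x ∂μ, ∀ᵐ τ : ℝ, x + τ • e ∈ Ω →
      HasDerivAt (fun σ : ℝ => f (x + σ • e) i) (D (x + τ • e) i) τ := fun i =>
    (line_deriv hΩ (h i) (continuousOn_comp_apply hf i)).1
  filter_upwards [ae_all_iff.2 h1] with x hx
  filter_upwards [ae_all_iff.2 hx] with τ hτ hxτ
  exact hasDerivAt_of_apply fun i => hτ i hxτ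

/-- increments along lines, vector valued: `‖f (x+te) - f (x+se)‖ ≤ ∫ ‖D‖` -/
theorem vline_incr {Ω : Set E} (hΩ : IsOpen Ω) {f D : E → EuclideanSpace ℝ ι} {e : E}
    (h : VWD Ω μ f D e) (hf : ContinuousOn f Ω) :
    ∀ᵐ x ∂μ, ∀ s t : ℝ, s ≤ t → x ∈ segIn Ω e s t →
      IntegrableOn (fun τ : ℝ => D (x + τ • e)) (Icc s t) ∧
      f (x + t • e) - f (x + s • e) = ∫ τ in s..t, D (x + τ • e) := by
  have h1 : ∀ i, ∀ᵐ x ∂μ, ACLat Ω (fun x => f x i) (fun x => D x i) e x := fun i =>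
    acl hΩ (h i) (continuousOn_comp_apply hf i)
  have hD := (VWD.aemeas h)
  obtain ⟨D', hD1, hD2⟩ := hD
  rw [Filter.EventuallyEq, ae_restrict_iff' hΩ.measurableSet] at hD2
  filter_upwards [ae_all_iff.2 h1, ae_line_of_ae hD2 e] with x hx hx2 s t hst hxs
  have hint : IntegrableOn (fun τ : ℝ => D (x + τ • e)) (Icc s t) := by
    have h2 : IntegrableOn (fun τ : ℝ => ∑ i, |D (x + τ • e) i|) (Icc s t) := by
      apply integrable_finsetSum
      intro i _
      exact ((hx i s t hst hxs).1).abs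
    refine Integrable.mono' h2 ?_ ?_
    · have h3 : AEStronglyMeasurable (fun τ : ℝ => D' (x + τ • e))
          ((volume : Measure ℝ).restrict (Icc s t)) := by
        apply Measurable.aestronglyMeasurable
        exact hD1.comp ((measurable_id.smul_const e).const_add x)
      refine h3.congr ?_
      rw [Filter.EventuallyEq, ae_restrict_iff' measurableSet_Icc]
      filter_upwards [hx2] with τ hτ hτ'
      exact (hτ (hxs τ hτ')).symm
    · refine Eventually.of_forall fun τ => ?_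
      rw [EuclideanSpace.norm_eq]
      have h2 : ∑ i, ‖D (x + τ • e) i‖ ^ 2 ≤ (∑ i, |D (x + τ • e) i|) ^ 2 := by
        simp only [Real.norm_eq_abs]
        exact Finset.sum_sq_le_sq_sum_of_nonneg fun i _ => abs_nonneg _
      calc √(∑ i, ‖D (x + τ • e) i‖ ^ 2) ≤ √((∑ i, |D (x + τ • e) i|) ^ 2) := Real.sqrt_le_sqrt h2
        _ = ∑ i, |D (x + τ • e) i| := Real.sqrt_sq (Finset.sum_nonneg fun i _ => abs_nonneg _)
  refine ⟨hint, ?_⟩
  ext i
  have h3 := (hx i s t hst hxs).2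
  have h4 : (∫ τ in s..t, D (x + τ • e)) i = ∫ τ in s..t, D (x + τ • e) i := by
    have h5 : IntervalIntegrable (fun τ : ℝ => D (x + τ • e)) volume s t :=
      (intervalIntegrable_iff_integrableOn_Icc_of_le hst).2 hint
    exact ((EuclideanSpace.proj i : EuclideanSpace ℝ ι →L[ℝ] ℝ).intervalIntegral_comp_comm
      h5).symm
  rw [h4]
  simpa using h3

theorem vline_bound {Ω : Set E} (hΩ : IsOpen Ω) {f D : E → EuclideanSpace ℝ ι} {e : E}
    (h : VWD Ω μ f D e) (hf : ContinuousOn f Ω) :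
    ∀ᵐ x ∂μ, ∀ s t : ℝ, s ≤ t → x ∈ segIn Ω e s t →
      IntegrableOn (fun τ : ℝ => ‖D (x + τ • e)‖) (Icc s t) ∧
      ‖f (x + t • e) - f (x + s • e)‖ ≤ ∫ τ in s..t, ‖D (x + τ • e)‖ := by
  filter_upwards [vline_incr hΩ h hf] with x hx s t hst hxs
  obtain ⟨h1, h2⟩ := hx s t hst hxs
  refine ⟨h1.norm, ?_⟩
  rw [h2]
  exact intervalIntegral.norm_integral_le_integral_norm hst

end Vec

end

end Crest.Agent.R96.Sob4_199
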