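/-
helper199, row 96, leaf P6-SOB, part 5: post-composition with locally Lipschitz maps, with the
sharp norm bound, and the chain rule.
-/
import Mathlib
import Crest.Agent.R96.Sob4_199

set_option autoImplicit false
set_option linter.unusedSectionVars false

open MeasureTheory Set Filter
open scoped ContDiff Topology NNReal

namespace Crest.Agent.R96.Sob5_199

open Crest.Agent.R96.Acl_392 Crest.Agent.R96.Sob1_199 Crest.Agent.R96.Sob2_199
  Crest.Agent.R96.Sob3_199 Crest.Agent.R96.Sob4_199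

noncomputable section

/-! ### locally Lipschitz maps are Lipschitz on compact sets -/

theorem exists_lipschitzOn {X Y : Type*} [MetricSpace X] [PseudoMetricSpace Y] {K : Set X}
    (hK : IsCompact K) {θ : X → Y} (hθ : LocallyLipschitzOn K θ) :
    ∃ C : ℝ≥0, LipschitzOnWith C θ K := by
  have h : ∃ C : ℝ≥0, ∀ z ∈ K ×ˢ K, dist (θ z.1) (θ z.2) ≤ C * dist z.1 z.2 := by
    refine IsCompact.induction_on (s := K ×ˢ K)
      (p := fun s => ∃ C : ℝ≥0, ∀ z ∈ s, dist (θ z.1) (θ z.2) ≤ C * dist z.1 z.2)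
      (hK.prod hK) ⟨0, fun z hz => absurd hz (notMem_empty z)⟩
      (fun s t hst ⟨C, hC⟩ => ⟨C, fun z hz => hC z (hst hz)⟩)
      (fun s t ⟨C, hC⟩ ⟨C', hC'⟩ => ⟨max C C', ?_⟩) ?_
    · rintro z (hz | hz)
      · refine (hC z hz).trans ?_
        gcongr
        exact le_max_left _ _
      · refine (hC' z hz).trans ?_
        gcongr
        exact le_max_right _ _
    · rintro ⟨x, y⟩ ⟨hx, hy⟩
      simp only at hx hy
      by_cases hxy : x = y
      · subst hxy
        obtain ⟨C, t, ht, hC⟩ := hθ hx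
        refine ⟨t ×ˢ t, ?_, C, fun z hz => ?_⟩
        · rw [nhdsWithin_prod_eq]
          exact prod_mem_prod ht ht
        · exact hC.dist_le_mul z.1 hz.1 z.2 hz.2
      · have hd : 0 < dist x y := dist_pos.2 hxy
        have hc := hθ.continuousOn
        have h1 : Tendsto (fun z : X × X => dist z.1 z.2) (𝓝[K ×ˢ K] (x, y))
            (𝓝 (dist x y)) :=
          (continuous_fst.dist continuous_snd).continuousAt.tendsto.mono_left nhdsWithin_le_nhds
        have h2 : Tendsto (fun z : X × X => dist (θ z.1) (θ z.2)) (𝓝[K ×ˢ K] (x, y))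
            (𝓝 (dist (θ x) (θ y))) := by
          rw [nhdsWithin_prod_eq]
          exact ((hc x hx).tendsto.comp tendsto_fst).dist ((hc y hy).tendsto.comp tendsto_snd)
        have h3 : ∀ᶠ z : X × X in 𝓝[K ×ˢ K] (x, y), dist x y / 2 < dist z.1 z.2 :=
          h1.eventually_const_lt (by linarith)
        have h4 : ∀ᶠ z : X × X in 𝓝[K ×ˢ K] (x, y),
            dist (θ z.1) (θ z.2) < dist (θ x) (θ y) + 1 :=
          h2.eventually_lt_const (by linarith)
        have h5 : (0:ℝ) ≤ (dist (θ x) (θ y) + 1) / (dist x y / 2) := by positivity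
        refine ⟨{z | dist x y / 2 < dist z.1 z.2 ∧ dist (θ z.1) (θ z.2) < dist (θ x) (θ y) + 1},
          h3.and h4, ⟨⟨(dist (θ x) (θ y) + 1) / (dist x y / 2), h5⟩, ?_⟩⟩
        rintro z ⟨hz1, hz2⟩
        change dist (θ z.1) (θ z.2) ≤ (dist (θ x) (θ y) + 1) / (dist x y / 2) * dist z.1 z.2
        calc dist (θ z.1) (θ z.2) ≤ dist (θ x) (θ y) + 1 := hz2.le
          _ = (dist (θ x) (θ y) + 1) / (dist x y / 2) * (dist x y / 2) := by
            field_simp
          _ ≤ _ := by gcongr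
  obtain ⟨C, hC⟩ := h
  exact ⟨C, LipschitzOnWith.of_dist_le_mul fun x hx y hy => hC (x, y) ⟨hx, hy⟩⟩

variable {E : Type*} [NormedAddCommGroup E] [NormedSpace ℝ E] [FiniteDimensional ℝ E]
  [MeasurableSpace E] [BorelSpace E] {μ : Measure E} [μ.IsAddHaarMeasure]

variable {ι κ : Type*} [Fintype ι] [Fintype κ]

/-! ### post-composition: existence of the weak derivative -/

/-- real valued post-composition -/
theorem comp_real {Ω : Set E} (hΩ : IsOpen Ω) {f D : E → EuclideanSpace ℝ ι} {e : E}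
    (h : VWD Ω μ f D e) (hf : ContinuousOn f Ω) {S : Set (EuclideanSpace ℝ ι)}
    (hS : MapsTo f Ω S) {θ : EuclideanSpace ℝ ι → ℝ} (hθ : LocallyLipschitzOn S θ) :
    WD Ω μ (fun x => θ (f x)) (dq Ω (fun x => θ (f x)) e) e := by
  apply wd_of_ug_local hΩ (hθ.continuousOn.comp hf hS)
  intro K hK hKc
  obtain ⟨Ω', h1, h2, h3, h4⟩ := exists_nhd hΩ hKc hK
  have hsub : Ω' ⊆ Ω := subset_closure.trans h4
  have hc : IsCompact (f '' closure Ω') := h3.image_of_continuousOn (hf.mono h4)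
  have hSc : f '' closure Ω' ⊆ S := by
    rintro _ ⟨x, hx, rfl⟩
    exact hS (h4 hx)
  obtain ⟨C, hC⟩ := exists_lipschitzOn hc (hθ.mono hSc)
  refine ⟨Ω', fun x => C * ‖D x‖, h1, h2, hsub, ?_, ?_⟩
  · have h5 := ((VWD.loc hΩ h).mono_set hsub).norm
    intro x hx
    obtain ⟨t, ht1, ht2⟩ := h5 x hx
    exact ⟨t, ht1, ht2.const_mul _⟩
  · filter_upwards [vline_bound hΩ h hf] with x hx s t hst hxs
    have hxs' : x ∈ segIn Ω e s t := fun τ hτ => hsub (hxs τ hτ)
    obtain ⟨h5, h6⟩ := hx s t hst hxs'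
    refine ⟨h5.const_mul _, ?_⟩
    rw [intervalIntegral.integral_const_mul]
    have h7 : f (x + t • e) ∈ f '' closure Ω' :=
      ⟨_, subset_closure (hxs t (right_mem_Icc.2 hst)), rfl⟩
    have h8 : f (x + s • e) ∈ f '' closure Ω' :=
      ⟨_, subset_closure (hxs s (left_mem_Icc.2 hst)), rfl⟩
    have h9 := hC.dist_le_mul _ h7 _ h8
    rw [Real.dist_eq, dist_eq_norm] at h9
    exact h9.trans (mul_le_mul_of_nonneg_left h6 C.2)

/-- vector valued post-composition: existence -/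
theorem comp_exists {Ω : Set E} (hΩ : IsOpen Ω) {f D : E → EuclideanSpace ℝ ι} {e : E}
    (h : VWD Ω μ f D e) (hf : ContinuousOn f Ω) {S : Set (EuclideanSpace ℝ ι)}
    (hS : MapsTo f Ω S) {θ : EuclideanSpace ℝ ι → EuclideanSpace ℝ κ}
    (hθ : LocallyLipschitzOn S θ) :
    ∃ D', VWD Ω μ (fun x => θ (f x)) D' e := by
  refine ⟨fun x => WithLp.toLp 2 fun i => dq Ω (fun x => θ (f x) i) e x, fun i => ?_⟩
  have h1 : LocallyLipschitzOn S (fun y => θ y i) := by
    intro y hy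
    obtain ⟨C, t, ht, hC⟩ := hθ hy
    refine ⟨C, t, ht, fun a ha b hb => ?_⟩
    refine le_trans ?_ (hC ha hb)
    rw [edist_dist, edist_dist]
    apply ENNReal.ofReal_le_ofReal
    rw [Real.dist_eq, dist_eq_norm]
    exact PiLp.norm_apply_le (p := 2) (θ a - θ b) i
  exact comp_real hΩ h hf hS h1

/-! ### the bound -/

theorem deriv_lip {F H : Type*} [NormedAddCommGroup F] [NormedSpace ℝ F] [NormedAddCommGroup H]
    [NormedSpace ℝ H] {φ : ℝ → F} {θ : F → H} {τ : ℝ} {v : F} {w : H} {S : Set F} {L : ℝ}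
    (h1 : HasDerivAt φ v τ) (h2 : HasDerivAt (fun σ => θ (φ σ)) w τ)
    (hS : ∀ᶠ σ in 𝓝 τ, φ σ ∈ S)
    (hL : ∀ ε > 0, ∀ᶠ y in 𝓝[S] (φ τ), ‖θ y - θ (φ τ)‖ ≤ (L + ε) * ‖y - φ τ‖) :
    ‖w‖ ≤ L * ‖v‖ := by
  have key : ∀ ε > 0, ‖w‖ ≤ (L + ε) * ‖v‖ := by
    intro ε hε
    have h3 := (hasDerivAt_iff_tendsto_slope.1 h1).norm.const_mul (L + ε)
    have h4 := (hasDerivAt_iff_tendsto_slope.1 h2).norm
    refine le_of_tendsto_of_tendsto h4 h3 ?_
    have h5 : Tendsto φ (𝓝 τ) (𝓝[S] (φ τ)) :=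
      tendsto_nhdsWithin_iff.2 ⟨h1.continuousAt.tendsto, hS⟩
    filter_upwards [(h5.eventually (hL ε hε)).filter_mono nhdsWithin_le_nhds] with σ hσ
    rw [slope_def_module, slope_def_module, norm_smul, norm_smul]
    calc ‖(σ - τ)⁻¹‖ * ‖θ (φ σ) - θ (φ τ)‖ ≤ ‖(σ - τ)⁻¹‖ * ((L + ε) * ‖φ σ - φ τ‖) := by gcongr
      _ = (L + ε) * (‖(σ - τ)⁻¹‖ * ‖φ σ - φ τ‖) := by ring
  refine le_of_forall_pos_lt_add fun δ hδ => ?_
  have h6 := key (δ / (2 * (‖v‖ + 1))) (by positivity)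
  have h7 : δ / (2 * (‖v‖ + 1)) * ‖v‖ ≤ δ / 2 := by
    rw [div_mul_eq_mul_div, div_le_div_iff₀ (by positivity) (by positivity)]
    nlinarith [norm_nonneg v]
  nlinarith

/-- **pointwise bound for the derivative of a composition** -/
theorem comp_bound {Ω : Set E} (hΩ : IsOpen Ω) {f D : E → EuclideanSpace ℝ ι} {e : E}
    (h : VWD Ω μ f D e) (hf : ContinuousOn f Ω) {S : Set (EuclideanSpace ℝ ι)}
    (hS : MapsTo f Ω S) {θ : EuclideanSpace ℝ ι → EuclideanSpace ℝ κ}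
    (hθ : ContinuousOn θ S) {D' : E → EuclideanSpace ℝ κ}
    (h' : VWD Ω μ (fun x => θ (f x)) D' e) {L : E → ℝ} (hL1 : AEMeasurable L (μ.restrict Ω))
    (hL : ∀ x ∈ Ω, ∀ ε > 0, ∀ᶠ y in 𝓝[S] (f x), ‖θ y - θ (f x)‖ ≤ (L x + ε) * ‖y - f x‖) :
    ∀ᵐ x ∂μ, x ∈ Ω → ‖D' x‖ ≤ L x * ‖D x‖ := by
  apply ae_le_of_line hΩ (e := e) h'.aemeas.norm (hL1.mul h.aemeas.norm)
  filter_upwards [vline_deriv hΩ h hf, vline_deriv hΩ h' (hθ.comp hf hS)] with x hx hx'
  filter_upwards [hx, hx'] with τ h1 h2 hxτ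
  refine deriv_lip (h1 hxτ) (h2 hxτ) ?_ (hL _ hxτ)
  have hc : Continuous (fun s : ℝ => x + s • e) := by fun_prop
  have h4 : (fun s : ℝ => x + s • e) ⁻¹' Ω ∈ 𝓝 τ := (hΩ.preimage hc).mem_nhds hxτ
  filter_upwards [h4] with s hs using hS hs

/-- **post-composition with a Lipschitz map, sharp constant** -/
theorem comp_lip {Ω : Set E} (hΩ : IsOpen Ω) {f D : E → EuclideanSpace ℝ ι} {e : E}
    (h : VWD Ω μ f D e) (hf : ContinuousOn f Ω) {S : Set (EuclideanSpace ℝ ι)}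
    (hS : MapsTo f Ω S) {θ : EuclideanSpace ℝ ι → EuclideanSpace ℝ κ} {K : ℝ≥0}
    (hθ : LipschitzOnWith K θ S) :
    ∃ D', VWD Ω μ (fun x => θ (f x)) D' e ∧ ∀ᵐ x ∂μ, x ∈ Ω → ‖D' x‖ ≤ K * ‖D x‖ := by
  have hloc : LocallyLipschitzOn S θ := fun y hy => ⟨K, S, self_mem_nhdsWithin, hθ⟩
  obtain ⟨D', hD'⟩ := comp_exists hΩ h hf hS hloc
  refine ⟨D', hD', comp_bound hΩ h hf hS hθ.continuousOn hD' aemeasurable_const ?_⟩
  intro x hx ε hε
  filter_upwards [self_mem_nhdsWithin] with y hy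
  have h1 := hθ.dist_le_mul y hy (f x) (hS hx)
  rw [dist_eq_norm, dist_eq_norm] at h1
  refine h1.trans ?_
  gcongr
  linarith

/-- **chain rule** at the points where `θ` is differentiable -/
theorem comp_chain {Ω : Set E} (hΩ : IsOpen Ω) {f D : E → EuclideanSpace ℝ ι} {e : E}
    (h : VWD Ω μ f D e) (hf : ContinuousOn f Ω) {S : Set (EuclideanSpace ℝ ι)}
    (hS : MapsTo f Ω S) {θ : EuclideanSpace ℝ ι → EuclideanSpace ℝ κ}
    (hθ : ContinuousOn θ S) {D' : E → EuclideanSpace ℝ κ}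
    (h' : VWD Ω μ (fun x => θ (f x)) D' e) :
    ∀ᵐ x ∂μ, x ∈ Ω → DifferentiableAt ℝ θ (f x) → D' x = fderiv ℝ θ (f x) (D x) := by
  have hfm : AEMeasurable f (μ.restrict Ω) := (hf.aestronglyMeasurable hΩ.measurableSet).aemeasurable
  -- the function to be shown to vanish
  have hT : MeasurableSet {y : EuclideanSpace ℝ ι | DifferentiableAt ℝ θ y} :=
    measurableSet_of_differentiableAt ℝ θ
  have hM : AEMeasurable (fun x => fderiv ℝ θ (f x) (D x)) (μ.restrict Ω) := by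
    have h1 : AEMeasurable (fun x => fderiv ℝ θ (f x)) (μ.restrict Ω) :=
      (measurable_fderiv ℝ θ).comp_aemeasurable hfm
    have h2 : Continuous (fun z : (EuclideanSpace ℝ ι →L[ℝ] EuclideanSpace ℝ κ) ×
        EuclideanSpace ℝ ι => z.1 z.2) := isBoundedBilinearMap_apply.continuous
    exact h2.measurable.comp_aemeasurable (h1.prodMk h.aemeas)
  have hI : AEMeasurable (fun x => ({y : EuclideanSpace ℝ ι | DifferentiableAt ℝ θ y}.indicator
      (fun _ => (1:ℝ)) (f x))) (μ.restrict Ω) :=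
    (measurable_const.indicator hT).comp_aemeasurable hfm
  have key := ae_le_of_line hΩ (e := e) (μ := μ)
    (a := fun x => ({y : EuclideanSpace ℝ ι | DifferentiableAt ℝ θ y}.indicator
      (fun _ => (1:ℝ)) (f x)) * ‖D' x - fderiv ℝ θ (f x) (D x)‖) (b := fun _ => 0)
    (hI.mul (h'.aemeas.sub hM).norm) aemeasurable_const (by
      filter_upwards [vline_deriv hΩ h hf, vline_deriv hΩ h' (hθ.comp hf hS)] with x hx hx'
      filter_upwards [hx, hx'] with τ h1 h2 hxτ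
      by_cases hd : DifferentiableAt ℝ θ (f (x + τ • e))
      · have h3 := hd.hasFDerivAt.comp_hasDerivAt τ (h1 hxτ)
        have h4 := (h2 hxτ).unique h3
        rw [h4]
        simp
      · rw [indicator_of_notMem (by simpa using hd)]
        simp)
  filter_upwards [key] with x hx hxΩ hd
  have h3 := hx hxΩ
  rw [indicator_of_mem (by simpa using hd), one_mul] at h3
  have h4 : ‖D' x - fderiv ℝ θ (f x) (D x)‖ = 0 := le_antisymm h3 (norm_nonneg _)
  exact sub_eq_zero.1 (norm_eq_zero.1 h4)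

end

end Crest.Agent.R96.Sob5_199
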