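/-
helper199, row 96, leaf P6-SOB, part 6: extension by zero, gluing, the frozen language
(`HasWeakGradOn` on R3), gradients of locally Lipschitz maps.
-/
import Mathlib
import Crest.Agent.R96.Sob5_199

set_option autoImplicit false
set_option linter.unusedSectionVars false

open MeasureTheory Set Filter
open scoped ContDiff Topology NNReal Gradient

namespace Crest.Agent.R96.Sob6_199

open Crest.Agent.R96.Acl_392 Crest.Agent.R96.Sob1_199 Crest.Agent.R96.Sob2_199
  Crest.Agent.R96.Sob3_199 Crest.Agent.R96.Sob4_199 Crest.Agent.R96.Sob5_199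

noncomputable section

section General

variable {E : Type*} [NormedAddCommGroup E] [NormedSpace ℝ E] [FiniteDimensional ℝ E]
  [MeasurableSpace E] [BorelSpace E] {μ : Measure E} [μ.IsAddHaarMeasure]

/-- a locally integrable function is integrable along almost every line -/
theorem ae_line_integrable {Ω : Set E} (hΩ : IsOpen Ω) {m : E → ℝ}
    (hm : LocallyIntegrableOn m Ω μ) (e : E) :
    ∀ᵐ x ∂μ, ∀ s t : ℝ, s ≤ t → x ∈ segIn Ω e s t →
      IntegrableOn (fun τ : ℝ => m (x + τ • e)) (Icc s t) := by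
  have h1 : ∀ p : ℚ × ℚ, ∀ᵐ x ∂μ, x ∈ segIn Ω e p.1 p.2 →
      IntegrableOn (fun τ : ℝ => m (x + τ • e)) (Icc (p.1:ℝ) p.2) := by
    intro p
    have hU := isOpen_segIn hΩ e (p.1:ℝ) p.2
    obtain ⟨F, hFc, hFs, hFU, hFm⟩ := hU.exists_iUnion_isClosed
    have h3 : ∀ n : ℕ, ∀ᵐ x ∂μ, x ∈ F n ∩ Metric.closedBall (0:E) n →
        IntegrableOn (fun τ : ℝ => m (x + τ • e)) (Icc (p.1:ℝ) p.2) := by
      intro n
      apply ae_integrable hm
      · exact (isCompact_closedBall (0:E) (n:ℝ)).inter_left (hFc n)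
      · exact inter_subset_left.trans (hFs n)
    filter_upwards [ae_all_iff.2 h3] with x hx hxU
    rw [← hFU] at hxU
    obtain ⟨m, hm⟩ := mem_iUnion.1 hxU
    obtain ⟨k, hk⟩ := exists_nat_ge ‖x‖
    refine hx (max m k) ⟨hFm (le_max_left m k) hm, ?_⟩
    rw [mem_closedBall_zero_iff]
    exact hk.trans (by exact_mod_cast le_max_right m k)
  filter_upwards [ae_all_iff.2 h1] with x hx s t hst hxs
  have hOo : IsOpen {τ : ℝ | x + τ • e ∈ Ω} := by
    apply hΩ.preimage (f := fun τ : ℝ => x + τ • e)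
    fun_prop
  obtain ⟨a, b, has, htb, hab⟩ := exists_rat_Icc hOo hst hxs
  have h2 := hx (a, b) (fun τ hτ => hab hτ)
  exact h2.mono_set (Icc_subset_Icc has.le htb.le)

/-- one dimensional extension by zero -/
theorem incr_ext_zero {φ m : ℝ → ℝ} {s t : ℝ} (hst : s ≤ t) {O : Set ℝ} (hO : IsOpen O)
    (hφ : ContinuousOn φ (Icc s t)) (h0 : ∀ τ ∈ Icc s t, τ ∉ O → φ τ = 0)
    (hm : IntegrableOn m (Icc s t)) (hm0 : ∀ τ ∈ Icc s t, 0 ≤ m τ)
    (h : ∀ s' t', s ≤ s' → s' ≤ t' → t' ≤ t → Icc s' t' ⊆ O → |φ t' - φ s'| ≤ ∫ τ in s'..t', m τ) :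
    |φ t - φ s| ≤ ∫ τ in s..t, m τ := by
  have hII : ∀ a b : ℝ, s ≤ a → a ≤ b → b ≤ t → IntervalIntegrable m volume a b := by
    intro a b h1 h2 h3
    rw [intervalIntegrable_iff_integrableOn_Icc_of_le h2]
    exact hm.mono_set (Icc_subset_Icc h1 h3)
  have hnn : ∀ a b : ℝ, s ≤ a → a ≤ b → b ≤ t → 0 ≤ ∫ τ in a..b, m τ := by
    intro a b h1 h2 h3
    exact intervalIntegral.integral_nonneg h2 fun τ hτ => hm0 τ ⟨h1.trans hτ.1, hτ.2.trans h3⟩
  by_cases hsub : Icc s t ⊆ O
  · exact h s t le_rfl hst le_rfl hsub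
  · set Z : Set ℝ := Icc s t ∩ Oᶜ with hZ
    have hZc : IsCompact Z := isCompact_Icc.inter_right hO.isClosed_compl
    have hZn : Z.Nonempty := by
      obtain ⟨τ, h1, h2⟩ := not_subset.1 hsub
      exact ⟨τ, h1, h2⟩
    have ha := hZc.sInf_mem hZn
    have hb := hZc.sSup_mem hZn
    set a := sInf Z with hadef
    set b := sSup Z with hbdef
    have hab : a ≤ b := csInf_le_csSup hZn hZc.bddBelow hZc.bddAbove
    have hφa : φ a = 0 := h0 a ha.1 ha.2
    have hφb : φ b = 0 := h0 b hb.1 hb.2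
    have h1 : |φ a - φ s| ≤ ∫ τ in s..a, m τ := by
      rcases eq_or_lt_of_le ha.1.1 with h2 | h2
      · rw [← h2]; simp
      · have h3 : ∀ r ∈ Ico s a, |φ r - φ s| ≤ ∫ τ in s..a, m τ := by
          intro r hr
          have h4 : Icc s r ⊆ O := by
            intro τ hτ
            by_contra hc
            have : τ ∈ Z := ⟨⟨hτ.1, hτ.2.trans (hr.2.le.trans ha.1.2)⟩, hc⟩
            have h5 := csInf_le hZc.bddBelow this
            have h6 := hτ.2
            have h7 := hr.2
            linarith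
          have h5 := h s r le_rfl hr.1 (hr.2.le.trans ha.1.2) h4
          have h6 : ∫ τ in s..a, m τ = (∫ τ in s..r, m τ) + ∫ τ in r..a, m τ :=
            (intervalIntegral.integral_add_adjacent_intervals
              (hII s r le_rfl hr.1 (hr.2.le.trans ha.1.2)) (hII r a hr.1 hr.2.le ha.1.2)).symm
          have h7 := hnn r a hr.1 hr.2.le ha.1.2
          linarith
        have h8 : Tendsto (fun r => |φ r - φ s|) (𝓝[Ico s a] a) (𝓝 |φ a - φ s|) := by
          apply Tendsto.abs
          apply Tendsto.sub_const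
          exact (hφ a ha.1).mono_left (nhdsWithin_mono a fun r hr =>
            ⟨hr.1, hr.2.le.trans ha.1.2⟩)
        have hne : (𝓝[Ico s a] a).NeBot := by
          rw [← mem_closure_iff_nhdsWithin_neBot, closure_Ico h2.ne]
          exact ⟨h2.le, le_rfl⟩
        exact le_of_tendsto h8 (eventually_nhdsWithin_of_forall h3)
    have h2 : |φ t - φ b| ≤ ∫ τ in b..t, m τ := by
      rcases eq_or_lt_of_le hb.1.2 with h2 | h2
      · rw [h2]; simp
      · have h3 : ∀ r ∈ Ioc b t, |φ t - φ r| ≤ ∫ τ in b..t, m τ := by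
          intro r hr
          have h4 : Icc r t ⊆ O := by
            intro τ hτ
            by_contra hc
            have : τ ∈ Z := ⟨⟨(hb.1.1.trans hr.1.le).trans hτ.1, hτ.2⟩, hc⟩
            have h5 := le_csSup hZc.bddAbove this
            have h6 := hτ.1
            have h7 := hr.1
            linarith
          have h5 := h r t (hb.1.1.trans hr.1.le) hr.2 le_rfl h4
          have h6 : ∫ τ in b..t, m τ = (∫ τ in b..r, m τ) + ∫ τ in r..t, m τ :=
            (intervalIntegral.integral_add_adjacent_intervals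
              (hII b r hb.1.1 hr.1.le hr.2) (hII r t (hb.1.1.trans hr.1.le) hr.2 le_rfl)).symm
          have h7 := hnn b r hb.1.1 hr.1.le hr.2
          linarith
        have h8 : Tendsto (fun r => |φ t - φ r|) (𝓝[Ioc b t] b) (𝓝 |φ t - φ b|) := by
          apply Tendsto.abs
          apply Tendsto.const_sub
          exact (hφ b hb.1).mono_left (nhdsWithin_mono b fun r hr =>
            ⟨hb.1.1.trans hr.1.le, hr.2⟩)
        have hne : (𝓝[Ioc b t] b).NeBot := by
          rw [← mem_closure_iff_nhdsWithin_neBot, closure_Ioc h2.ne]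
          exact ⟨le_rfl, h2.le⟩
        exact le_of_tendsto h8 (eventually_nhdsWithin_of_forall h3)
    have h3 : ∫ τ in s..t, m τ = (∫ τ in s..a, m τ) + (∫ τ in a..b, m τ) + ∫ τ in b..t, m τ := by
      rw [intervalIntegral.integral_add_adjacent_intervals (hII s a le_rfl ha.1.1 ha.1.2)
        (hII a b ha.1.1 hab hb.1.2), intervalIntegral.integral_add_adjacent_intervals
        (hII s b le_rfl hb.1.1 hb.1.2) (hII b t hb.1.1 hb.1.2 le_rfl)]
    have h4 := hnn a b ha.1.1 hab hb.1.2
    rw [hφa] at h1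
    rw [hφb] at h2
    have h5 : |φ t - φ s| ≤ |0 - φ s| + |φ t - 0| := by
      have : φ t - φ s = (0 - φ s) + (φ t - 0) := by ring
      rw [this]
      exact abs_add_le _ _
    linarith

/-- **extension by zero, weak derivatives** -/
theorem ext_zero {Ω U : Set E} (hΩ : IsOpen Ω) (hU : IsOpen U) (hUΩ : U ⊆ Ω) {u g : E → ℝ} {e : E}
    (hu : ContinuousOn u Ω) (h0 : ∀ x ∈ Ω, x ∉ U → u x = 0) (h : WD U μ u g e)
    (hg : LocallyIntegrableOn (U.indicator g) Ω μ) : WD Ω μ u (U.indicator g) e := by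
  have hm : LocallyIntegrableOn (U.indicator fun x => |g x|) Ω μ := by
    have h1 := hg.norm
    refine (locallyIntegrableOn_congr hΩ h1 ?_)
    refine Eventually.of_forall fun x _ => ?_
    by_cases hx : x ∈ U <;> simp [hx]
  have hacl := acl hU h (hu.mono hUΩ)
  have hUG : ∀ᵐ x ∂μ, UG Ω u (U.indicator fun x => |g x|) e x := by
    filter_upwards [hacl, ae_line_integrable hΩ hm e] with x hx hx2 s t hst hxs
    refine ⟨hx2 s t hst hxs, ?_⟩
    have hO : IsOpen {τ : ℝ | x + τ • e ∈ U} := by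
      apply hU.preimage (f := fun τ : ℝ => x + τ • e)
      fun_prop
    apply incr_ext_zero (φ := fun τ => u (x + τ • e)) hst hO
    · apply hu.comp (by fun_prop) (fun τ hτ => hxs τ hτ)
    · intro τ hτ hτO
      exact h0 _ (hxs τ hτ) hτO
    · exact hx2 s t hst hxs
    · intro τ _
      exact indicator_nonneg (fun y _ => abs_nonneg _) _
    · intro s' t' h1 h2 h3 h4
      obtain ⟨h5, h6⟩ := ug_of_acl hx s' t' h2 (fun τ hτ => h4 hτ)
      refine h6.trans (le_of_eq ?_)
      apply intervalIntegral.integral_congr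
      intro τ hτ
      rw [uIcc_of_le h2] at hτ
      exact (indicator_of_mem (s := U) (h4 hτ) _).symm
  obtain ⟨h1, h2⟩ := wd_of_ug hΩ hu hm hUG
  have h3 : WD U μ u (dq Ω u e) e := wd_mono h1 hUΩ
  have h4 := wd_unique hU h3 h
  apply wd_congr hΩ h1 (Eventually.of_forall fun _ _ => rfl)
  filter_upwards [h2, h4] with x h5 h6 hx
  by_cases hxU : x ∈ U
  · rw [indicator_of_mem hxU, h6 hxU]
  · rw [indicator_of_notMem hxU]
    have h7 := h5 hx
    rw [indicator_of_notMem hxU] at h7
    exact abs_eq_zero.1 (le_antisymm h7 (abs_nonneg _))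

/-- **gluing**: replace `f` by `f'` on the open set `U` -/
theorem wd_glue {Ω U : Set E} (hΩ : IsOpen Ω) (hU : IsOpen U) (hUΩ : U ⊆ Ω)
    {f g f' g' w G : E → ℝ} {e : E} (h : WD Ω μ f g e) (h' : WD U μ f' g' e)
    (hw1 : ∀ x ∈ U, w x = f' x) (hw2 : ∀ x ∈ Ω, x ∉ U → w x = f x)
    (hG1 : ∀ x ∈ U, G x = g' x) (hG2 : ∀ x ∈ Ω, x ∉ U → G x = g x)
    (hc : ContinuousOn (fun x => w x - f x) Ω)
    (hg : LocallyIntegrableOn G Ω μ) : WD Ω μ w G e := by
  have h1 : WD U μ (fun x => w x - f x) (fun x => g' x - g x) e := by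
    have h2 := wd_sub h' (wd_mono h hUΩ)
    refine wd_congr hU h2 (Eventually.of_forall fun x hx => ?_)
      (Eventually.of_forall fun _ _ => rfl)
    simp only [hw1 x hx]
  have h3 : WD Ω μ (fun x => w x - f x) (U.indicator fun x => g' x - g x) e := by
    apply ext_zero hΩ hU hUΩ hc _ h1
    · have h4 := hg.sub h.lg
      refine locallyIntegrableOn_congr hΩ h4 (Eventually.of_forall fun x hx => ?_)
      by_cases hxU : x ∈ U
      · simp [hxU, hG1 x hxU]
      · simp [hxU, hG2 x hx hxU]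
    · intro x hx hxU
      simp only [hw2 x hx hxU, sub_self]
  have h4 := wd_add h3 h
  refine wd_congr hΩ h4 (Eventually.of_forall fun x hx => ?_) (Eventually.of_forall fun x hx => ?_)
  · ring
  · by_cases hxU : x ∈ U
    · simp [hxU, hG1 x hxU]
    · simp [hxU, hG2 x hx hxU]

end General

end

end Crest.Agent.R96.Sob6_199
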