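/-
helper199, row 96, ENERGY FOR ARBITRARY SEGMENTS, part 1: crossing numbers of a function with the
segments `x + [0,1] v`, and the choice of the levels.
-/
import Mathlib
import Crest.Agent.R96.En2_199
import Crest.Agent.R96.Sob3_199
import Crest.Agent.R96.Sob6_199

set_option autoImplicit false

open MeasureTheory Set Filter
open scoped Topology ENNReal

namespace Crest.Agent.R96.Sg1_199

open Crest.Agent.R096.Bas_731 Crest.Agent.R96.En2_199 Crest.Agent.R96.Acl_392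
  Crest.Agent.R96.Sob2_199 Crest.Agent.R96.Sob3_199

noncomputable section

variable {E : Type*} [NormedAddCommGroup E] [NormedSpace ℝ E]

/-- the segment `x + [0,1] v` -/
def sgm (x v : E) : Set E := (fun τ : ℝ => x + τ • v) '' Icc (0:ℝ) 1

theorem sgm_eq_segment (x v : E) : sgm x v = segment ℝ x (x + v) := by
  rw [segment_eq_image']
  unfold sgm
  simp only [add_sub_cancel_left]

theorem mem_sgm {x v y : E} : y ∈ sgm x v ↔ ∃ τ ∈ Icc (0:ℝ) 1, x + τ • v = y := Iff.rfl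

theorem isCompact_sgm (x v : E) : IsCompact (sgm x v) := by
  apply isCompact_Icc.image
  fun_prop

theorem param_injective {x v : E} (hv : v ≠ 0) :
    Function.Injective (fun τ : ℝ => x + τ • v) := by
  intro s t h
  have h1 : s • v = t • v := add_left_cancel h
  have h2 : (s - t) • v = 0 := by rw [sub_smul, h1, sub_self]
  rcases smul_eq_zero.1 h2 with h3 | h3
  · linarith
  · exact absurd h3 hv

/-- number of points of the level `y` of `u` on the segment -/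
def cr (u : E → ℝ) (x v : E) (y : ℝ) : ℝ≥0∞ := ((sgm x v ∩ u ⁻¹' {y}).encard : ℝ≥0∞)

/-- line integral (in the parameter) over the segment -/
def li (G : E → ℝ≥0∞) (x v : E) : ℝ≥0∞ := ∫⁻ τ in Icc (0:ℝ) 1, G (x + τ • v)

theorem cr_eq {u : E → ℝ} {x v : E} (hv : v ≠ 0) (y : ℝ) :
    cr u x v y = cnt (fun τ => u (x + τ • v)) (Icc (0:ℝ) 1) y := by
  unfold cr cnt
  have h1 : sgm x v ∩ u ⁻¹' {y} = (fun τ : ℝ => x + τ • v) '' (Icc (0:ℝ) 1 ∩
      (fun τ => u (x + τ • v)) ⁻¹' {y}) := by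
    ext z
    constructor
    · rintro ⟨⟨s, hs, rfl⟩, h⟩; exact ⟨s, ⟨hs, h⟩, rfl⟩
    · rintro ⟨s, ⟨hs, h⟩, rfl⟩; exact ⟨⟨s, hs, rfl⟩, h⟩
  rw [h1, (param_injective hv).injOn.encard_image]

/-- upper gradient along the segment -/
def UGs (u : E → ℝ) (g : E → ℝ≥0∞) (x v : E) : Prop := ∀ s t : ℝ, 0 ≤ s → s ≤ t → t ≤ 1 →
  ENNReal.ofReal |u (x + t • v) - u (x + s • v)| ≤ ∫⁻ τ in Ioc s t, g (x + τ • v)

theorem ugs_of_acl {Ω : Set E} {u g : E → ℝ} {x v : E} (hsub : sgm x v ⊆ Ω)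
    (h : ACLat Ω u g v x) : UGs u (fun y => ‖g y‖ₑ) x v := by
  intro s t hs hst ht
  have hseg : x ∈ segIn Ω v s t := by
    intro τ hτ
    exact hsub ⟨τ, ⟨hs.trans hτ.1, hτ.2.trans ht⟩, rfl⟩
  obtain ⟨h1, h2⟩ := h s t hst hseg
  rw [h2, intervalIntegral.integral_of_le hst, ← Real.norm_eq_abs, ofReal_norm]
  exact enorm_integral_le_lintegral_enorm _

theorem li_ne_top_of_acl {Ω : Set E} {u g : E → ℝ} {x v : E} (hsub : sgm x v ⊆ Ω)
    (h : ACLat Ω u g v x) : li (fun y => ‖g y‖ₑ) x v ≠ ∞ := by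
  have hseg : x ∈ segIn Ω v 0 1 := by
    intro τ hτ
    exact hsub ⟨τ, hτ, rfl⟩
  obtain ⟨h1, -⟩ := h 0 1 zero_le_one hseg
  exact h1.hasFiniteIntegral.ne

theorem cr_facts {u : E → ℝ} {g : E → ℝ≥0∞} {x v : E} (hv : v ≠ 0)
    (hu : ContinuousOn u (sgm x v)) (hug : UGs u g x v) :
    AEMeasurable (cr u x v) (volume.restrict (Icc (0:ℝ) 1)) ∧
      ∫⁻ y in Icc (0:ℝ) 1, cr u x v y ≤ li g x v := by
  have h0 : cr u x v = cnt (fun τ => u (x + τ • v)) (Icc (0:ℝ) 1) :=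
    funext fun y => cr_eq hv y
  have hcont : ContinuousOn (fun τ : ℝ => u (x + τ • v)) (Icc (0:ℝ) 1) := by
    refine hu.comp (Continuous.continuousOn (by fun_prop)) ?_
    intro s hs
    exact ⟨s, hs, rfl⟩
  constructor
  · rw [h0]
    exact (aemeasurable_cnt_Icc hcont).restrict
  · refine (setLIntegral_le_lintegral _ _).trans ?_
    rw [h0]
    have hdom : Dom (fun τ : ℝ => u (x + τ • v))
        ((volume.restrict (Icc (0:ℝ) 1)).withDensity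
          fun τ => g (x + τ • v)) 0 1 := by
      intro s t hs hst ht
      have hsub : Ioc s t ⊆ Icc (0:ℝ) 1 := fun τ hτ =>
        ⟨hs.trans hτ.1.le, hτ.2.trans ht⟩
      rw [withDensity_apply _ measurableSet_Ioc, Measure.restrict_restrict measurableSet_Ioc,
        inter_eq_self_of_subset_left hsub]
      exact hug s t hs hst ht
    refine (lintegral_cnt_Icc_le hcont hdom).trans ?_
    rw [withDensity_apply _ measurableSet_Ioc, Measure.restrict_restrict measurableSet_Ioc,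
      inter_eq_self_of_subset_left Ioc_subset_Icc_self]
    exact lintegral_mono_set Ioc_subset_Icc_self

/-- **levels for one function on finitely many segments, with extra conditions** -/
theorem segs_one {κ κ' : Type*} [Fintype κ] [Fintype κ'] (x v : κ → E) (hv : ∀ j, v j ≠ 0)
    {u : E → ℝ} {g : κ → E → ℝ≥0∞} (hu : ∀ j, ContinuousOn u (sgm (x j) (v j)))
    (hug : ∀ j, UGs u (g j) (x j) (v j)) (hfin : ∀ j, li (g j) (x j) (v j) ≠ ∞)
    {X : κ' → ℝ → ℝ≥0∞} (hX : ∀ j, AEMeasurable (X j) (volume.restrict (Icc (0:ℝ) 1)))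
    {J : κ' → ℝ} (hJ0 : ∀ j, 0 ≤ J j) (hJ : ∀ j, ∫⁻ y in Icc (0:ℝ) 1, X j y ≤ ENNReal.ofReal (J j))
    {Z : Set ℝ} (hZ : volume Z = 0) {ε : ℝ} (hε : 0 < ε) :
    ∃ m0 : ℕ, ∀ m ≥ m0, 0 < m → ∃ c ∈ Ioo (0:ℝ) 1, (∀ k < m, (c + k) / m ∉ Z) ∧
      (∀ j, (m:ℝ≥0∞)⁻¹ * ∑ k ∈ Finset.range m, cr u (x j) (v j) ((c + k) / m) ≤
        li (g j) (x j) (v j) + ENNReal.ofReal ε) ∧
      ∀ j, (m:ℝ≥0∞)⁻¹ * ∑ k ∈ Finset.range m, X j ((c + k) / m) ≤
        ENNReal.ofReal (J j) + ENNReal.ofReal ε := by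
  have hf := fun j => cr_facts (hv j) (hu j) (hug j)
  have hN : ∀ j : κ ⊕ κ', AEMeasurable (Sum.elim (fun j => cr u (x j) (v j)) X j)
      (volume.restrict (Icc (0:ℝ) 1)) := by
    rintro (j | j)
    · exact (hf j).1
    · exact hX j
  have hI0 : ∀ j : κ ⊕ κ', 0 ≤ Sum.elim (fun j => (li (g j) (x j) (v j)).toReal) J j := by
    rintro (j | j)
    · exact ENNReal.toReal_nonneg
    · exact hJ0 j
  have hI : ∀ j : κ ⊕ κ', ∫⁻ y in Icc (0:ℝ) 1, Sum.elim (fun j => cr u (x j) (v j)) X j y ≤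
      ENNReal.ofReal (Sum.elim (fun j => (li (g j) (x j) (v j)).toReal) J j) := by
    rintro (j | j)
    · simp only [Sum.elim_inl]
      rw [ENNReal.ofReal_toReal (hfin j)]
      exact (hf j).2
    · exact hJ j
  obtain ⟨m0, hm0⟩ := exists_good_offset hN hI0 hI hZ hε
  refine ⟨m0, fun m hm hmp => ?_⟩
  obtain ⟨c, hc, h1, h2⟩ := hm0 m hm hmp
  have hm1 : (m:ℝ≥0∞) ≠ 0 := by positivity
  have hm2 : (m:ℝ≥0∞) ≠ ∞ := ENNReal.natCast_ne_top m
  have key : ∀ (x : ℝ≥0∞) (r : ℝ), 0 ≤ r → x ≤ ENNReal.ofReal (m * (r + ε)) →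
      (m:ℝ≥0∞)⁻¹ * x ≤ ENNReal.ofReal r + ENNReal.ofReal ε := by
    intro x r hr hx
    calc (m:ℝ≥0∞)⁻¹ * x ≤ (m:ℝ≥0∞)⁻¹ * ENNReal.ofReal (m * (r + ε)) := by gcongr
      _ = (m:ℝ≥0∞)⁻¹ * (m * (ENNReal.ofReal r + ENNReal.ofReal ε)) := by
          rw [ENNReal.ofReal_mul (by positivity), ENNReal.ofReal_natCast,
            ENNReal.ofReal_add hr hε.le]
      _ = ENNReal.ofReal r + ENNReal.ofReal ε := by
          rw [← mul_assoc, ENNReal.inv_mul_cancel hm1 hm2, one_mul]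
  refine ⟨c, hc, h1, fun j => ?_, fun j => ?_⟩
  · have := key _ _ ENNReal.toReal_nonneg (h2 (Sum.inl j))
    rwa [ENNReal.ofReal_toReal (hfin j)] at this
  · exact key _ _ (hJ0 j) (h2 (Sum.inr j))

/-- **levels for arbitrarily many functions and segments, with extra conditions**: estimate for
every single function and every segment, errors prescribed. `Fc c` = the finitely many segments on
which `u c` takes values in `(0,1)`. -/
theorem segs_all {ι 𝒞 : Type*} (x v : ι → E) (hv : ∀ j, v j ≠ 0) {u : 𝒞 → E → ℝ}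
    {g : 𝒞 → ι → E → ℝ≥0∞} (Fc : 𝒞 → Finset ι)
    (hF2 : ∀ c, ∀ j ∉ Fc c, ∀ y ∈ sgm (x j) (v j), u c y ∉ Ioo (0:ℝ) 1)
    (hu : ∀ c, ∀ j ∈ Fc c, ContinuousOn (u c) (sgm (x j) (v j)))
    (hug : ∀ c, ∀ j ∈ Fc c, UGs (u c) (g c j) (x j) (v j))
    (hfin : ∀ c, ∀ j ∈ Fc c, li (g c j) (x j) (v j) ≠ ∞)
    {κ : 𝒞 → Type*} [∀ c, Fintype (κ c)] {X : ∀ c, κ c → ℝ → ℝ≥0∞}
    (hX : ∀ c j, AEMeasurable (X c j) (volume.restrict (Icc (0:ℝ) 1)))
    {J : ∀ c, κ c → ℝ} (hJ0 : ∀ c j, 0 ≤ J c j)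
    (hJ : ∀ c j, ∫⁻ y in Icc (0:ℝ) 1, X c j y ≤ ENNReal.ofReal (J c j))
    {Z : 𝒞 → Set ℝ} (hZ : ∀ c, volume (Z c) = 0) {e : 𝒞 → ι → ℝ} (he : ∀ c j, 0 < e c j)
    {e' : 𝒞 → ℝ} (he' : ∀ c, 0 < e' c) :
    ∃ m0 : 𝒞 → ℕ, ∀ m : 𝒞 → ℕ, (∀ c, m0 c ≤ m c) → (∀ c, 0 < m c) → ∃ o : 𝒞 → ℝ,
      (∀ c, o c ∈ Ioo (0:ℝ) 1) ∧ (∀ c, ∀ k < m c, (o c + k) / m c ∉ Z c) ∧
      (∀ c j, (m c:ℝ≥0∞)⁻¹ * ∑ k ∈ Finset.range (m c),
        cr (u c) (x j) (v j) ((o c + k) / m c) ≤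
          li (g c j) (x j) (v j) + ENNReal.ofReal (e c j)) ∧
      ∀ c j, (m c:ℝ≥0∞)⁻¹ * ∑ k ∈ Finset.range (m c), X c j ((o c + k) / m c) ≤
        ENNReal.ofReal (J c j) + ENNReal.ofReal (e' c) := by
  classical
  -- the error for `c`
  have hε : ∀ c, ∃ ε : ℝ, 0 < ε ∧ ε ≤ e' c ∧ ∀ j ∈ Fc c, ε ≤ e c j := by
    intro c
    rcases (Fc c).eq_empty_or_nonempty with h | h
    · exact ⟨e' c, he' c, le_rfl, fun σ hσ => by rw [h] at hσ; simp at hσ⟩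
    · refine ⟨min (e' c) ((Fc c).inf' h (fun σ => e c σ)), lt_min (he' c) ?_, min_le_left _ _,
        fun σ hσ => (min_le_right _ _).trans (Finset.inf'_le _ hσ)⟩
      rw [Finset.lt_inf'_iff]
      intro σ _
      exact he c σ
  choose ε hε0 hε2 hε1 using hε
  choose m0 hm0 using fun c => segs_one (κ := {j // j ∈ Fc c}) (fun j => x j.1) (fun j => v j.1)
    (fun j => hv j.1) (g := fun j => g c j.1) (fun j => hu c j.1 j.2) (fun j => hug c j.1 j.2)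
    (fun j => hfin c j.1 j.2) (hX c) (hJ0 c) (hJ c) (hZ c) (hε0 c)
  refine ⟨m0, fun m hm hmp => ?_⟩
  choose o ho h1 h2 h2X using fun c => hm0 c (m c) (hm c) (hmp c)
  refine ⟨o, ho, h1, fun c j => ?_, fun c j => (h2X c j).trans ?_⟩
  swap
  · gcongr
    exact hε2 c
  by_cases hjc : j ∈ Fc c
  · refine (h2 c ⟨j, hjc⟩).trans ?_
    gcongr
    exact hε1 c j hjc
  · have h3 : ∑ k ∈ Finset.range (m c), cr (u c) (x j) (v j) ((o c + k) / m c) = 0 := by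
      apply Finset.sum_eq_zero
      intro k hk
      have hk' := Finset.mem_range.1 hk
      have hmR : (0:ℝ) < m c := by exact_mod_cast hmp c
      have hlev : (o c + k) / m c ∈ Ioo (0:ℝ) 1 := by
        have h4 := ho c
        have h5 : ((k:ℝ) + 1) ≤ m c := by exact_mod_cast hk'
        constructor
        · have := h4.1; positivity
        · rw [div_lt_one hmR]; linarith [h4.2]
      unfold cr
      have h6 : sgm (x j) (v j) ∩ u c ⁻¹' {(o c + k) / m c} = ∅ := by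
        rw [eq_empty_iff_forall_notMem]
        rintro y ⟨hx1, hx2⟩
        apply hF2 c j hjc y hx1
        rw [mem_preimage, mem_singleton_iff] at hx2
        rw [hx2]; exact hlev
      rw [h6]; simp
    rw [h3, mul_zero]
    exact zero_le

/-- **levels from weak derivatives on an open set**: the segments `x j + [0,1] v j` lie in `Ω` and
are locally finite there, `u c` has its values in `(0,1)` only on a compact set. -/
theorem segs_levels {ι 𝒞 : Type*} {Ω : Set E} (x v : ι → E) (hv : ∀ j, v j ≠ 0)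
    (hsub : ∀ j, sgm (x j) (v j) ⊆ Ω)
    (hloc : ∀ K : Set E, IsCompact K → K ⊆ Ω → {j | (sgm (x j) (v j) ∩ K).Nonempty}.Finite)
    {u : 𝒞 → E → ℝ} {g : 𝒞 → ι → E → ℝ} (hu : ∀ c, ContinuousOn (u c) Ω)
    (hacl : ∀ c j, ACLat Ω (u c) (g c j) (v j) (x j))
    {K : 𝒞 → Set E} (hK : ∀ c, IsCompact (K c)) (hKO : ∀ c, K c ⊆ Ω)
    (huK : ∀ c, ∀ y ∈ Ω, u c y ∈ Ioo (0:ℝ) 1 → y ∈ K c)
    {κ : 𝒞 → Type*} [∀ c, Fintype (κ c)] {X : ∀ c, κ c → ℝ → ℝ≥0∞}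
    (hX : ∀ c j, AEMeasurable (X c j) (volume.restrict (Icc (0:ℝ) 1)))
    {J : ∀ c, κ c → ℝ} (hJ0 : ∀ c j, 0 ≤ J c j)
    (hJ : ∀ c j, ∫⁻ y in Icc (0:ℝ) 1, X c j y ≤ ENNReal.ofReal (J c j))
    {Z : 𝒞 → Set ℝ} (hZ : ∀ c, volume (Z c) = 0) {e : 𝒞 → ι → ℝ} (he : ∀ c j, 0 < e c j)
    {e' : 𝒞 → ℝ} (he' : ∀ c, 0 < e' c) :
    ∃ m0 : 𝒞 → ℕ, ∀ m : 𝒞 → ℕ, (∀ c, m0 c ≤ m c) → (∀ c, 0 < m c) → ∃ o : 𝒞 → ℝ,
      (∀ c, o c ∈ Ioo (0:ℝ) 1) ∧ (∀ c, ∀ k < m c, (o c + k) / m c ∉ Z c) ∧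
      (∀ c j, (m c:ℝ≥0∞)⁻¹ * ∑ k ∈ Finset.range (m c),
        cr (u c) (x j) (v j) ((o c + k) / m c) ≤
          li (fun y => ‖g c j y‖ₑ) (x j) (v j) + ENNReal.ofReal (e c j)) ∧
      ∀ c j, (m c:ℝ≥0∞)⁻¹ * ∑ k ∈ Finset.range (m c), X c j ((o c + k) / m c) ≤
        ENNReal.ofReal (J c j) + ENNReal.ofReal (e' c) := by
  classical
  set Fc : 𝒞 → Finset ι := fun c => (hloc (K c) (hK c) (hKO c)).toFinset with hFc
  refine segs_all x v hv (g := fun c j y => ‖g c j y‖ₑ) Fc ?_ ?_ ?_ ?_ hX hJ0 hJ hZ he he'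
  · intro c j hj y hy hyv
    apply hj
    rw [hFc]
    simp only [Finite.mem_toFinset, mem_ofPred_eq]
    exact ⟨y, hy, huK c y (hsub j hy) hyv⟩
  · intro c j _
    exact (hu c).mono (hsub j)
  · intro c j _
    exact ugs_of_acl (hsub j) (hacl c j)
  · intro c j _
    exact li_ne_top_of_acl (hsub j) (hacl c j)

/-- the weighted number of crossings of a segment with all used levels -/
def tots {𝒞 : Type*} (w : 𝒞 → ℝ≥0∞) (u : 𝒞 → E → ℝ) (m : 𝒞 → ℕ) (o : 𝒞 → ℝ) (x v : E) : ℝ≥0∞ :=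
  ∑' c, w c * ((m c:ℝ≥0∞)⁻¹ * ∑ k ∈ Finset.range (m c), cr (u c) x v ((o c + k) / m c))

/-- the weighted sum of the derivatives -/
def Hs {𝒞 : Type*} (w : 𝒞 → ℝ≥0∞) (g : 𝒞 → E → ℝ) (y : E) : ℝ≥0∞ := ∑' c, w c * ‖g c y‖ₑ

/-- errors with prescribed weighted sums -/
theorem exists_errs {ι 𝒞 : Type*} [Countable 𝒞] {w : 𝒞 → ℝ≥0∞} (hw : ∀ c, w c ≠ ∞)
    {err : ι → ℝ≥0∞} (herr : ∀ j, err j ≠ 0) :
    ∃ e : 𝒞 → ι → ℝ, (∀ c j, 0 < e c j) ∧ ∀ j, ∑' c, w c * ENNReal.ofReal (e c j) ≤ err j := by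
  have h1 : ∀ j, ∃ e : 𝒞 → ℝ, (∀ c, 0 < e c) ∧ ∑' c, w c * ENNReal.ofReal (e c) ≤ err j := by
    intro j
    obtain ⟨δ, hδ0, hδ⟩ := ENNReal.exists_pos_sum_of_countable' (herr j) 𝒞
    have h2 : ∀ c, ∃ e : ℝ, 0 < e ∧ w c * ENNReal.ofReal e ≤ δ c := by
      intro c
      have h3 : (0:ℝ≥0∞) < min 1 (δ c / (w c + 1)) := by
        apply lt_min one_pos
        apply ENNReal.div_pos (hδ0 c).ne'
        simp [hw c]
      have h4 : min 1 (δ c / (w c + 1)) ≠ ∞ := (min_le_left _ _).trans_lt ENNReal.one_lt_top |>.ne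
      refine ⟨(min 1 (δ c / (w c + 1))).toReal, ENNReal.toReal_pos h3.ne' h4, ?_⟩
      rw [ENNReal.ofReal_toReal h4]
      calc w c * min 1 (δ c / (w c + 1)) ≤ (w c + 1) * (δ c / (w c + 1)) := by
            gcongr
            · exact le_self_add
            · exact min_le_right _ _
        _ = δ c := by
            apply ENNReal.mul_div_cancel
            · simp
            · simp [hw c]
    choose e he0 he using h2
    exact ⟨e, he0, (ENNReal.tsum_le_tsum he).trans hδ.le⟩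
  choose e he0 he using h1
  exact ⟨fun c j => e j c, fun c j => he0 j c, he⟩

/-- **the weighted numbers of crossings are at most the line integrals of the weighted sum of the
derivatives** -/
theorem tots_le {ι 𝒞 : Type*} [Countable 𝒞] {w : 𝒞 → ℝ≥0∞} {x v : ι → E} {u : 𝒞 → E → ℝ}
    {g : 𝒞 → ι → E → ℝ} {m : 𝒞 → ℕ} {o : 𝒞 → ℝ} {e : 𝒞 → ι → ℝ} {err : ι → ℝ≥0∞}
    (hm : ∀ c j, AEMeasurable (fun τ : ℝ => g c j (x j + τ • v j)) (volume.restrict (Icc (0:ℝ) 1)))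
    (he : ∀ j, ∑' c, w c * ENNReal.ofReal (e c j) ≤ err j)
    (h : ∀ c j, (m c:ℝ≥0∞)⁻¹ * ∑ k ∈ Finset.range (m c),
        cr (u c) (x j) (v j) ((o c + k) / m c) ≤
          li (fun y => ‖g c j y‖ₑ) (x j) (v j) + ENNReal.ofReal (e c j)) (j : ι) :
    tots w u m o (x j) (v j) ≤ li (Hs w fun c => g c j) (x j) (v j) + err j := by
  have h1 : li (Hs w fun c => g c j) (x j) (v j) =
      ∑' c, w c * li (fun y => ‖g c j y‖ₑ) (x j) (v j) := by
    unfold li Hs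
    rw [lintegral_tsum]
    · congr 1
      funext c
      rw [lintegral_const_mul'' _ (hm c j).enorm]
    · intro c
      exact (hm c j).enorm.const_mul _
  rw [h1]
  calc tots w u m o (x j) (v j)
      ≤ ∑' c, (w c * li (fun y => ‖g c j y‖ₑ) (x j) (v j) + w c * ENNReal.ofReal (e c j)) := by
        unfold tots
        apply ENNReal.tsum_le_tsum
        intro c
        rw [← mul_add]
        gcongr
        exact h c j
    _ = ∑' c, w c * li (fun y => ‖g c j y‖ₑ) (x j) (v j) +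
          ∑' c, w c * ENNReal.ofReal (e c j) := ENNReal.tsum_add
    _ ≤ _ := by
        gcongr
        exact he j

end

end Crest.Agent.R96.Sg1_199
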