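import Mathlib

/-!
# Row 96, U2 PUSH (helper899), part 1: the box push `psh Q C`

For boxes `C ⊆ int Q` (`C` may be degenerate), `psh Q C` maps `Q \ C` onto `∂Q`, identity on `∂Q`.
-/

set_option autoImplicit false

open Set Filter Topology

noncomputable section

namespace Crest.Agent.R96.Push_899

/-- a closed box (possibly degenerate). -/
@[ext] structure Box (ι : Type*) where
  lo : ι → ℝ
  hi : ι → ℝ
  le : ∀ i, lo i ≤ hi i

variable {ι : Type*}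

namespace Box

/-- the closed box -/
def S (Q : Box ι) : Set (ι → ℝ) := {y | ∀ i, Q.lo i ≤ y i ∧ y i ≤ Q.hi i}

/-- the open box -/
def I (Q : Box ι) : Set (ι → ℝ) := {y | ∀ i, Q.lo i < y i ∧ y i < Q.hi i}

/-- widths -/
def W (Q : Box ι) (i : ι) : ℝ := Q.hi i - Q.lo i

theorem W_nonneg (Q : Box ι) (i : ι) : 0 ≤ Q.W i := sub_nonneg.2 (Q.le i)

/-- the degenerate box `{z}` -/
def pt (z : ι → ℝ) : Box ι := ⟨z, z, fun _ => le_rfl⟩

@[simp] theorem pt_lo (z : ι → ℝ) : (pt z).lo = z := rfl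
@[simp] theorem pt_hi (z : ι → ℝ) : (pt z).hi = z := rfl

end Box

/-- `C` is in the interior of `Q`. -/
structure Nest (C Q : Box ι) : Prop where
  lo : ∀ i, Q.lo i < C.lo i
  hi : ∀ i, C.hi i < Q.hi i

namespace Nest

variable {C Q : Box ι} (h : Nest C Q)
include h

theorem g1 (i : ι) : 0 < Q.hi i - C.hi i := sub_pos.2 (h.hi i)
theorem g2 (i : ι) : 0 < C.lo i - Q.lo i := sub_pos.2 (h.lo i)
theorem lt (i : ι) : Q.lo i < Q.hi i := by have := h.lo i; have := h.hi i; have := C.le i; linarith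
theorem Wpos (i : ι) : 0 < Q.W i := sub_pos.2 (h.lt i)

end Nest

/-- one-sided gauges -/
def gg (Q C : Box ι) (y : ι → ℝ) (i : ι) : ℝ :=
  max ((y i - C.hi i) / (Q.hi i - C.hi i)) ((C.lo i - y i) / (C.lo i - Q.lo i))

/-- lower / upper end of `C_t` -/
def cl (Q C : Box ι) (i : ι) (t : ℝ) : ℝ := C.lo i - t * (C.lo i - Q.lo i)
def ch (Q C : Box ι) (i : ι) (t : ℝ) : ℝ := C.hi i + t * (Q.hi i - C.hi i)
/-- width of `C_t` -/
def ww (Q C : Box ι) (i : ι) (t : ℝ) : ℝ := ch Q C i t - cl Q C i t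

theorem ww_eq (Q C : Box ι) (i : ι) (t : ℝ) :
    ww Q C i t = C.W i + t * (Q.W i - C.W i) := by
  unfold ww ch cl Box.W; ring

theorem gg_le_iff {Q C : Box ι} (h : Nest C Q) (y : ι → ℝ) (i : ι) (t : ℝ) :
    gg Q C y i ≤ t ↔ cl Q C i t ≤ y i ∧ y i ≤ ch Q C i t := by
  unfold gg cl ch
  rw [max_le_iff, div_le_iff₀ (h.g1 i), div_le_iff₀ (h.g2 i)]
  constructor
  · rintro ⟨h1, h2⟩; constructor <;> linarith
  · rintro ⟨h1, h2⟩; constructor <;> linarith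

theorem gg_lt_iff {Q C : Box ι} (h : Nest C Q) (y : ι → ℝ) (i : ι) (t : ℝ) :
    gg Q C y i < t ↔ cl Q C i t < y i ∧ y i < ch Q C i t := by
  unfold gg cl ch
  rw [max_lt_iff, div_lt_iff₀ (h.g1 i), div_lt_iff₀ (h.g2 i)]
  constructor
  · rintro ⟨h1, h2⟩; constructor <;> linarith
  · rintro ⟨h1, h2⟩; constructor <;> linarith

@[simp] theorem cl_zero (Q C : Box ι) (i : ι) : cl Q C i 0 = C.lo i := by simp [cl]
@[simp] theorem ch_zero (Q C : Box ι) (i : ι) : ch Q C i 0 = C.hi i := by simp [ch]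
@[simp] theorem cl_one (Q C : Box ι) (i : ι) : cl Q C i 1 = Q.lo i := by simp [cl]
@[simp] theorem ch_one (Q C : Box ι) (i : ι) : ch Q C i 1 = Q.hi i := by simp [ch]

theorem gg_lip {Q C : Box ι} (h : Nest C Q) (y y' : ι → ℝ) (i : ι) {g : ℝ} (hg : 0 < g)
    (h1 : g ≤ Q.hi i - C.hi i) (h2 : g ≤ C.lo i - Q.lo i) :
    gg Q C y' i ≤ gg Q C y i + |y' i - y i| / g := by
  unfold gg
  have e1 : (y' i - C.hi i) / (Q.hi i - C.hi i) =
      (y i - C.hi i) / (Q.hi i - C.hi i) + (y' i - y i) / (Q.hi i - C.hi i) := by ring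
  have e2 : (C.lo i - y' i) / (C.lo i - Q.lo i) =
      (C.lo i - y i) / (C.lo i - Q.lo i) + (y i - y' i) / (C.lo i - Q.lo i) := by ring
  have b1 : (y' i - y i) / (Q.hi i - C.hi i) ≤ |y' i - y i| / g :=
    (div_le_div_of_nonneg_right (le_abs_self _) (h.g1 i).le).trans
      (div_le_div_of_nonneg_left (abs_nonneg _) hg h1)
  have b2 : (y i - y' i) / (C.lo i - Q.lo i) ≤ |y' i - y i| / g := by
    rw [abs_sub_comm]
    exact (div_le_div_of_nonneg_right (le_abs_self _) (h.g2 i).le).trans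
      (div_le_div_of_nonneg_left (abs_nonneg _) hg h2)
  rw [e1, e2]
  apply max_le
  · exact add_le_add (le_max_left _ _) b1
  · exact add_le_add (le_max_right _ _) b2

section sup

variable [Fintype ι] [Nonempty ι]

/-- the gauge: `y ∈ ∂ C_t` for `t = tt y`. -/
def tt (Q C : Box ι) (y : ι → ℝ) : ℝ := Finset.univ.sup' Finset.univ_nonempty (gg Q C y)

theorem gg_le_tt (Q C : Box ι) (y : ι → ℝ) (i : ι) : gg Q C y i ≤ tt Q C y :=
  Finset.le_sup' _ (Finset.mem_univ i)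

theorem tt_le_iff {Q C : Box ι} {y : ι → ℝ} {t : ℝ} : tt Q C y ≤ t ↔ ∀ i, gg Q C y i ≤ t := by
  simp [tt]

theorem tt_lt_iff {Q C : Box ι} {y : ι → ℝ} {t : ℝ} : tt Q C y < t ↔ ∀ i, gg Q C y i < t := by
  simp [tt]

theorem exists_tt (Q C : Box ι) (y : ι → ℝ) : ∃ i, tt Q C y = gg Q C y i := by
  obtain ⟨i, _, hi⟩ := Finset.exists_mem_eq_sup' (s := (Finset.univ : Finset ι))
    Finset.univ_nonempty (gg Q C y)
  exact ⟨i, hi⟩

theorem tt_le_one_iff {Q C : Box ι} (h : Nest C Q) (y : ι → ℝ) : tt Q C y ≤ 1 ↔ y ∈ Q.S := by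
  simp [tt_le_iff, gg_le_iff h, Box.S]

theorem tt_lt_one_iff {Q C : Box ι} (h : Nest C Q) (y : ι → ℝ) : tt Q C y < 1 ↔ y ∈ Q.I := by
  simp [tt_lt_iff, gg_lt_iff h, Box.I]

theorem tt_le_zero_iff {Q C : Box ι} (h : Nest C Q) (y : ι → ℝ) : tt Q C y ≤ 0 ↔ y ∈ C.S := by
  simp [tt_le_iff, gg_le_iff h, Box.S]

theorem tt_lt_zero_iff {Q C : Box ι} (h : Nest C Q) (y : ι → ℝ) : tt Q C y < 0 ↔ y ∈ C.I := by
  simp [tt_lt_iff, gg_lt_iff h, Box.I]

theorem tt_bounds {Q C : Box ι} (h : Nest C Q) (y : ι → ℝ) (i : ι) :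
    cl Q C i (tt Q C y) ≤ y i ∧ y i ≤ ch Q C i (tt Q C y) :=
  (gg_le_iff h y i _).1 (gg_le_tt Q C y i)

/-- lower gap bounds -/
def Gap (Q C : Box ι) (g : ι → ℝ) : Prop :=
  ∀ i, 0 < g i ∧ g i ≤ Q.hi i - C.hi i ∧ g i ≤ C.lo i - Q.lo i

/-- `tt` only depends on the coordinates in `J` if the other coordinates of `y` are in `C`. -/
theorem tt_lip {Q C : Box ι} (h : Nest C Q) {g : ι → ℝ} (hg : Gap Q C g) {y y' : ι → ℝ}
    {J : Set ι} {B : ℝ} (hy : ∀ i ∉ J, C.lo i ≤ y' i ∧ y' i ≤ C.hi i) (ht : 0 ≤ tt Q C y)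
    (hB0 : 0 ≤ B) (hB : ∀ j ∈ J, |y' j - y j| / g j ≤ B) : tt Q C y' ≤ tt Q C y + B := by
  rw [tt_le_iff]
  intro i
  by_cases hi : i ∈ J
  · have h1 := gg_lip h y y' i (hg i).1 (hg i).2.1 (hg i).2.2
    exact h1.trans (add_le_add (gg_le_tt Q C y i) (hB i hi))
  · have h1 : gg Q C y' i ≤ 0 := by
      rw [gg_le_iff h]; simpa using hy i hi
    linarith

theorem abs_tt_sub_le {Q C : Box ι} (h : Nest C Q) {g : ι → ℝ} (hg : Gap Q C g) {y y' : ι → ℝ}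
    {J : Set ι} {B : ℝ} (hy : ∀ i ∉ J, C.lo i ≤ y i ∧ y i ≤ C.hi i)
    (hy' : ∀ i ∉ J, C.lo i ≤ y' i ∧ y' i ≤ C.hi i) (ht : 0 ≤ tt Q C y) (ht' : 0 ≤ tt Q C y')
    (hB0 : 0 ≤ B) (hB : ∀ j ∈ J, |y' j - y j| / g j ≤ B) :
    |tt Q C y' - tt Q C y| ≤ B := by
  rw [abs_le]
  have h1 := tt_lip h hg hy' ht hB0 hB
  have h2 := tt_lip h hg hy ht' hB0 (fun j hj => by rw [abs_sub_comm]; exact hB j hj)
  constructor <;> linarith

/-- **the push** -/
def psh (Q C : Box ι) (y : ι → ℝ) : ι → ℝ := fun i =>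
  Q.lo i + (y i - cl Q C i (tt Q C y)) * (Q.W i / ww Q C i (tt Q C y))

theorem ww_pos {Q C : Box ι} (h : Nest C Q) (i : ι) {t : ℝ} (ht : 0 ≤ t)
    (h0 : 0 < t ∨ ∀ i, 0 < C.W i) : 0 < ww Q C i t := by
  unfold ww ch cl
  have h1 := h.g1 i
  have h2 := h.g2 i
  have h3 := C.le i
  rcases h0 with h0 | h0
  · nlinarith [mul_pos h0 h1, mul_pos h0 h2]
  · have h4 := h0 i
    unfold Box.W at h4
    nlinarith [mul_nonneg ht h1.le, mul_nonneg ht h2.le]

/-- `psh y ∈ Q`. -/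
theorem psh_mem {Q C : Box ι} (h : Nest C Q) {y : ι → ℝ} (ht : 0 ≤ tt Q C y)
    (h0 : 0 < tt Q C y ∨ ∀ i, 0 < C.W i) : psh Q C y ∈ Q.S := by
  intro i
  have hw := ww_pos h i ht h0
  obtain ⟨h1, h2⟩ := tt_bounds h y i
  have hW := (h.Wpos i).le
  unfold psh
  constructor
  · have : 0 ≤ (y i - cl Q C i (tt Q C y)) * (Q.W i / ww Q C i (tt Q C y)) :=
      mul_nonneg (by linarith) (div_nonneg hW hw.le)
    linarith
  · have h3 : (y i - cl Q C i (tt Q C y)) * (Q.W i / ww Q C i (tt Q C y)) ≤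
        ww Q C i (tt Q C y) * (Q.W i / ww Q C i (tt Q C y)) := by
      apply mul_le_mul_of_nonneg_right _ (div_nonneg hW hw.le)
      unfold ww; linarith
    have h4 : ww Q C i (tt Q C y) * (Q.W i / ww Q C i (tt Q C y)) = Q.W i :=
      mul_div_cancel₀ _ hw.ne'
    have h5 : Q.W i = Q.hi i - Q.lo i := rfl
    linarith

/-- `psh y` is on the boundary of `Q`. -/
theorem psh_bd {Q C : Box ι} (h : Nest C Q) {y : ι → ℝ} (ht : 0 ≤ tt Q C y)
    (h0 : 0 < tt Q C y ∨ ∀ i, 0 < C.W i) :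
    ∃ i, psh Q C y i = Q.lo i ∨ psh Q C y i = Q.hi i := by
  obtain ⟨i, hi⟩ := exists_tt Q C y
  refine ⟨i, ?_⟩
  have hw := ww_pos h i ht h0
  have h1 : y i = cl Q C i (tt Q C y) ∨ y i = ch Q C i (tt Q C y) := by
    obtain ⟨b1, b2⟩ := tt_bounds h y i
    by_contra hne
    rw [not_or] at hne
    have h2 : gg Q C y i < tt Q C y := by
      rw [gg_lt_iff h]
      exact ⟨lt_of_le_of_ne b1 (Ne.symm hne.1), lt_of_le_of_ne b2 hne.2⟩
    exact absurd hi h2.ne'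
  unfold psh
  rcases h1 with h1 | h1
  · left; rw [← h1]; simp
  · right
    have h3 : y i - cl Q C i (tt Q C y) = ww Q C i (tt Q C y) := by unfold ww; rw [← h1]
    rw [h3, mul_div_cancel₀ _ hw.ne']
    unfold Box.W; ring

theorem psh_not_mem_I {Q C : Box ι} (h : Nest C Q) {y : ι → ℝ} (ht : 0 ≤ tt Q C y)
    (h0 : 0 < tt Q C y ∨ ∀ i, 0 < C.W i) : psh Q C y ∉ Q.I := by
  obtain ⟨i, hi⟩ := psh_bd h ht h0
  intro hI
  have h1 := hI i
  rcases hi with hi | hi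
  · exact absurd hi h1.1.ne'
  · exact absurd hi h1.2.ne

/-- identity on `∂Q` -/
theorem psh_eq_self {Q C : Box ι} (h : Nest C Q) {y : ι → ℝ} (ht : tt Q C y = 1) :
    psh Q C y = y := by
  funext i
  unfold psh
  rw [ht, ww_eq]
  have h1 := (h.Wpos i).ne'
  have h2 : C.W i + 1 * (Q.W i - C.W i) = Q.W i := by ring
  rw [h2, div_self h1, cl_one]
  ring

theorem tt_eq_one {Q C : Box ι} (h : Nest C Q) {y : ι → ℝ} (h1 : y ∈ Q.S) (h2 : y ∉ Q.I) :
    tt Q C y = 1 := by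
  have h3 := (tt_le_one_iff h y).2 h1
  have h4 := mt (tt_lt_one_iff h y).1 h2
  exact le_antisymm h3 (not_lt.1 h4)

/-- EXACT increment formula. -/
theorem psh_sub {Q C : Box ι} (h : Nest C Q) (y y' : ι → ℝ) (ht : 0 ≤ tt Q C y)
    (h0 : 0 < tt Q C y ∨ ∀ i, 0 < C.W i) (ht' : 0 ≤ tt Q C y')
    (h0' : 0 < tt Q C y' ∨ ∀ i, 0 < C.W i) (i : ι) :
    ∃ l ∈ Icc (0:ℝ) 1, psh Q C y' i - psh Q C y i = (Q.W i / ww Q C i (tt Q C y')) *
      ((y' i - y i) + (tt Q C y' - tt Q C y) *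
        ((1 - l) * (C.lo i - Q.lo i) - l * (Q.hi i - C.hi i))) := by
  have hw := ww_pos h i ht h0
  have hw' := ww_pos h i ht' h0'
  obtain ⟨b1, b2⟩ := tt_bounds h y i
  refine ⟨(y i - cl Q C i (tt Q C y)) / ww Q C i (tt Q C y), ⟨?_, ?_⟩, ?_⟩
  · exact div_nonneg (by linarith) hw.le
  · rw [div_le_one hw]; unfold ww; linarith
  · set t := tt Q C y with hT
    set t' := tt Q C y' with hT'
    set l := (y i - cl Q C i t) / ww Q C i t with hl
    have e1 : y i - cl Q C i t = l * ww Q C i t := by rw [hl, div_mul_cancel₀ _ hw.ne']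
    have e2 : psh Q C y i = Q.lo i + l * Q.W i := by
      unfold psh
      rw [← hT, e1]
      field_simp
    have e3 : psh Q C y' i = Q.lo i + (y' i - cl Q C i t') * (Q.W i / ww Q C i t') := by
      unfold psh; rw [← hT']
    rw [e2, e3]
    have e4 : l * Q.W i = (Q.W i / ww Q C i t') * (l * ww Q C i t') := by
      field_simp
    rw [e4]
    have e5 : y' i - cl Q C i t' - l * ww Q C i t' =
        (y' i - y i) + (t' - t) * ((1 - l) * (C.lo i - Q.lo i) - l * (Q.hi i - C.hi i)) := by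
      have e6 : ww Q C i t' = ww Q C i t + (t' - t) * (Q.W i - C.W i) := by
        rw [ww_eq, ww_eq]; ring
      have e7 : cl Q C i t' = cl Q C i t - (t' - t) * (C.lo i - Q.lo i) := by
        unfold cl; ring
      have e8 : Q.W i - C.W i = (Q.hi i - C.hi i) + (C.lo i - Q.lo i) := by
        unfold Box.W; ring
      rw [e6, e7, e8]
      have e9 : y' i = y i + (y' i - y i) := by ring
      linear_combination e1
    rw [← e5]
    ring

theorem abs_gap_le {a b l : ℝ} (ha : 0 ≤ a) (hb : 0 ≤ b) (hl : l ∈ Icc (0:ℝ) 1) {G : ℝ}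
    (h1 : a ≤ G) (h2 : b ≤ G) : |(1 - l) * a - l * b| ≤ G := by
  obtain ⟨l0, l1⟩ := hl
  rw [abs_le]
  constructor
  · nlinarith [mul_nonneg l0 hb, mul_nonneg (sub_nonneg.2 l1) ha,
      mul_le_mul_of_nonneg_left h2 l0]
  · nlinarith [mul_nonneg l0 hb, mul_nonneg (sub_nonneg.2 l1) ha,
      mul_le_mul_of_nonneg_left h1 (sub_nonneg.2 l1)]

/-- general bound of the increments -/
theorem abs_psh_sub_le {Q C : Box ι} (h : Nest C Q) (y y' : ι → ℝ) (ht : 0 ≤ tt Q C y)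
    (h0 : 0 < tt Q C y ∨ ∀ i, 0 < C.W i) (ht' : 0 ≤ tt Q C y')
    (h0' : 0 < tt Q C y' ∨ ∀ i, 0 < C.W i) (i : ι) {G : ℝ} (hG1 : Q.hi i - C.hi i ≤ G)
    (hG2 : C.lo i - Q.lo i ≤ G) :
    |psh Q C y' i - psh Q C y i| ≤ (Q.W i / ww Q C i (tt Q C y')) *
      (|y' i - y i| + |tt Q C y' - tt Q C y| * G) := by
  obtain ⟨l, hl, he⟩ := psh_sub h y y' ht h0 ht' h0' i
  rw [he, abs_mul, abs_of_nonneg (div_nonneg (h.Wpos i).le (ww_pos h i ht' h0').le)]
  apply mul_le_mul_of_nonneg_left _ (div_nonneg (h.Wpos i).le (ww_pos h i ht' h0').le)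
  apply (abs_add_le _ _).trans
  apply add_le_add le_rfl
  rw [abs_mul]
  exact mul_le_mul_of_nonneg_left (abs_gap_le (h.g2 i).le (h.g1 i).le hl hG2 hG1) (abs_nonneg _)

/-- near-isometry in the coordinate `i` -/
theorem abs_psh_sub_sub_le {Q C : Box ι} (h : Nest C Q) (y y' : ι → ℝ) (ht : 0 ≤ tt Q C y)
    (hW : ∀ i, 0 < C.W i) (ht' : 0 ≤ tt Q C y') (ht1' : tt Q C y' ≤ 1) (i : ι) {G : ℝ}
    (hG1 : Q.hi i - C.hi i ≤ G) (hG2 : C.lo i - Q.lo i ≤ G) :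
    |psh Q C y' i - psh Q C y i - (y' i - y i)| ≤ (Q.W i / C.W i - 1) * |y' i - y i| +
      (Q.W i / C.W i) * (|tt Q C y' - tt Q C y| * G) := by
  obtain ⟨l, hl, he⟩ := psh_sub h y y' ht (Or.inr hW) ht' (Or.inr hW) i
  have hw' := ww_pos h i ht' (Or.inr hW)
  set a := Q.W i / ww Q C i (tt Q C y') with ha
  have hCW : C.W i ≤ Q.W i := by
    unfold Box.W
    have := h.g1 i; have := h.g2 i; linarith
  have hw1 : ww Q C i (tt Q C y') ≤ Q.W i := by
    rw [ww_eq]; nlinarith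
  have hw2 : C.W i ≤ ww Q C i (tt Q C y') := by
    rw [ww_eq]; nlinarith
  have ha1 : 1 ≤ a := by rw [ha, le_div_iff₀ hw', one_mul]; exact hw1
  have ha2 : a ≤ Q.W i / C.W i := div_le_div_of_nonneg_left (h.Wpos i).le (hW i) hw2
  have e1 : psh Q C y' i - psh Q C y i - (y' i - y i) = (a - 1) * (y' i - y i) +
      a * ((tt Q C y' - tt Q C y) * ((1 - l) * (C.lo i - Q.lo i) - l * (Q.hi i - C.hi i))) := by
    rw [he]; ring
  rw [e1]
  apply (abs_add_le _ _).trans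
  apply add_le_add
  · rw [abs_mul, abs_of_nonneg (by linarith)]
    exact mul_le_mul_of_nonneg_right (by linarith) (abs_nonneg _)
  · rw [abs_mul, abs_of_nonneg (by linarith), abs_mul]
    apply mul_le_mul ha2 _ (by positivity) (by linarith)
    exact mul_le_mul_of_nonneg_left (abs_gap_le (h.g2 i).le (h.g1 i).le hl hG2 hG1)
      (abs_nonneg _)

end sup

end Crest.Agent.R96.Push_899
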