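import Mathlib
import Crest.Agent.R96.Push1_899

/-!
# Row 96, U2 PUSH (helper899), part 4: the two-level push `psi Q C B` and its increments
-/

set_option autoImplicit false
set_option linter.unusedSectionVars false
set_option linter.unusedVariables false

open Set Filter Topology

noncomputable section

namespace Crest.Agent.R96.Push_899

variable {ι : Type*} [Fintype ι] [Nonempty ι] [DecidableEq ι]

/-- the core `C` in the brick `Q`: all gaps between `c₀ ρ` and `ρ`, widths comparable, and in the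
good directions `P` the core has almost full width. -/
structure Shape (P : Finset ι) (c₀ κ ρ : ℝ) (Q C : Box ι) : Prop where
  c0 : 0 < c₀
  c1 : c₀ ≤ 1
  r0 : 0 < ρ
  k0 : 0 ≤ κ
  W0 : ∀ i, 0 < Q.W i
  lo1 : ∀ i, c₀ * ρ ≤ C.lo i - Q.lo i
  lo2 : ∀ i, C.lo i - Q.lo i ≤ ρ
  hi1 : ∀ i, c₀ * ρ ≤ Q.hi i - C.hi i
  hi2 : ∀ i, Q.hi i - C.hi i ≤ ρ
  wd : ∀ i, c₀ * Q.W i ≤ C.W i
  wdP : ∀ i ∈ P, Q.W i ≤ (1 + κ) * C.W i

namespace Shape

variable {P : Finset ι} {c₀ κ ρ : ℝ} {Q C : Box ι} (h : Shape P c₀ κ ρ Q C)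
include h

theorem nest : Nest C Q := by
  have h1 := mul_pos h.c0 h.r0
  exact ⟨fun i => by linarith [h.lo1 i], fun i => by linarith [h.hi1 i]⟩

theorem CW (i : ι) : 0 < C.W i := lt_of_lt_of_le (mul_pos h.c0 (h.W0 i)) (h.wd i)

theorem gap : Gap Q C (fun _ => c₀ * ρ) := fun i => ⟨mul_pos h.c0 h.r0, h.hi1 i, h.lo1 i⟩

theorem ratio (i : ι) {t : ℝ} (ht : 0 ≤ t) : Q.W i / ww Q C i t ≤ 1 / c₀ := by
  have hw := ww_pos h.nest i ht (Or.inr h.CW)
  rw [div_le_div_iff₀ hw h.c0, one_mul]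
  have h1 : C.W i ≤ ww Q C i t := by
    rw [ww_eq]
    have h2 : C.W i ≤ Q.W i := by
      have := h.nest.g1 i; have := h.nest.g2 i; unfold Box.W; linarith
    nlinarith
  nlinarith [h.wd i]

theorem tt_sub {y y' : ι → ℝ} (hy : 0 ≤ tt Q C y) (hy' : 0 ≤ tt Q C y') {J : Set ι}
    (hJ : ∀ i ∉ J, C.lo i ≤ y i ∧ y i ≤ C.hi i) (hJ' : ∀ i ∉ J, C.lo i ≤ y' i ∧ y' i ≤ C.hi i)
    {B : ℝ} (hB : ∀ j ∈ J, |y' j - y j| ≤ B) (hB0 : 0 ≤ B) :
    |tt Q C y' - tt Q C y| * ρ ≤ B / c₀ := by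
  have h1 := mul_pos h.c0 h.r0
  have h2 := abs_tt_sub_le h.nest h.gap (B := B / (c₀ * ρ)) hJ hJ' hy hy' (by positivity)
    (fun j hj => div_le_div_of_nonneg_right (hB j hj) h1.le)
  have h3 := mul_le_mul_of_nonneg_right h2 h.r0.le
  refine h3.trans (le_of_eq ?_)
  have := h.c0.ne'
  have := h.r0.ne'
  field_simp

/-- (A1) everywhere on `Q \ int C` -/
theorem incr {y y' : ι → ℝ} (hy : 0 ≤ tt Q C y) (hy' : 0 ≤ tt Q C y') (i : ι) :
    |psh Q C y' i - psh Q C y i| ≤ 2 / c₀ ^ 2 * ∑ j, |y' j - y j| := by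
  have hs : ∀ j, |y' j - y j| ≤ ∑ j, |y' j - y j| := fun j =>
    Finset.single_le_sum (f := fun j => |y' j - y j|) (fun _ _ => abs_nonneg _)
      (Finset.mem_univ j)
  set B := ∑ j, |y' j - y j| with hB
  have hB0 : 0 ≤ B := Finset.sum_nonneg fun _ _ => abs_nonneg _
  have h1 := abs_psh_sub_le h.nest y y' hy (Or.inr h.CW) hy' (Or.inr h.CW) i (h.hi2 i) (h.lo2 i)
  have h2 := h.tt_sub hy hy' (J := univ) (fun i hi => absurd (mem_univ i) hi)
    (fun i hi => absurd (mem_univ i) hi) (fun j _ => hs j) hB0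
  refine h1.trans ?_
  have h3 := h.ratio i hy'
  have h4 : |y' i - y i| + |tt Q C y' - tt Q C y| * ρ ≤ B + B / c₀ := add_le_add (hs i) h2
  have h5 : 0 ≤ Q.W i / ww Q C i (tt Q C y') :=
    div_nonneg (h.W0 i).le (ww_pos h.nest i hy' (Or.inr h.CW)).le
  have h6 : B ≤ B / c₀ := by rw [le_div_iff₀ h.c0]; nlinarith [h.c1]
  have hc := h.c0
  have hr := h.r0
  calc _ ≤ 1 / c₀ * (B + B / c₀) := mul_le_mul h3 h4 (by positivity) (by positivity)
    _ ≤ 1 / c₀ * (B / c₀ + B / c₀) := by gcongr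
    _ = 2 / c₀ ^ 2 * B := by field_simp; ring

/-- (A1') near isometry: coordinates in `P` -/
theorem incrP {y y' : ι → ℝ} (hy : 0 ≤ tt Q C y) (hy' : 0 ≤ tt Q C y') (hy1' : tt Q C y' ≤ 1)
    (hJ : ∀ i ∈ P, C.lo i ≤ y i ∧ y i ≤ C.hi i) (hJ' : ∀ i ∈ P, C.lo i ≤ y' i ∧ y' i ≤ C.hi i)
    {i : ι} (hi : i ∈ P) :
    |psh Q C y' i - psh Q C y i - (y' i - y i)| ≤
      κ * |y' i - y i| + (1 + κ) / c₀ * ∑ j ∈ Pᶜ, |y' j - y j| := by
  have hs : ∀ j ∈ ((Pᶜ : Finset ι) : Set ι), |y' j - y j| ≤ ∑ j ∈ Pᶜ, |y' j - y j| := fun j hj =>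
    Finset.single_le_sum (f := fun j => |y' j - y j|) (fun _ _ => abs_nonneg _)
      (Finset.mem_coe.1 hj)
  set B := ∑ j ∈ Pᶜ, |y' j - y j| with hB
  have hB0 : 0 ≤ B := Finset.sum_nonneg fun _ _ => abs_nonneg _
  have hP : ∀ i, i ∉ ((Pᶜ : Finset ι) : Set ι) → i ∈ P := by
    intro i hi; simpa using hi
  have h1 := abs_psh_sub_sub_le h.nest y y' hy h.CW hy' hy1' i (h.hi2 i) (h.lo2 i)
  have h2 := h.tt_sub hy hy' (J := ((Pᶜ : Finset ι) : Set ι)) (fun i hi => hJ i (hP i hi))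
    (fun i hi => hJ' i (hP i hi)) hs hB0
  have h3 : Q.W i / C.W i ≤ 1 + κ := by
    rw [div_le_iff₀ (h.CW i)]; exact h.wdP i hi
  have h4 : 0 ≤ Q.W i / C.W i := div_nonneg (h.W0 i).le (h.CW i).le
  have hc := h.c0
  refine h1.trans (add_le_add ?_ ?_)
  · exact mul_le_mul_of_nonneg_right (by linarith) (abs_nonneg _)
  · calc _ ≤ (1 + κ) * (B / c₀) := mul_le_mul h3 h2 (by have := h.r0; positivity)
          (by linarith [h.k0])
      _ = _ := by ring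

/-- (A1') near isometry: the other coordinates -/
theorem incrN {y y' : ι → ℝ} (hy : 0 ≤ tt Q C y) (hy' : 0 ≤ tt Q C y')
    (hJ : ∀ i ∈ P, C.lo i ≤ y i ∧ y i ≤ C.hi i) (hJ' : ∀ i ∈ P, C.lo i ≤ y' i ∧ y' i ≤ C.hi i)
    {i : ι} (hi : i ∉ P) :
    |psh Q C y' i - psh Q C y i| ≤ 2 / c₀ ^ 2 * ∑ j ∈ Pᶜ, |y' j - y j| := by
  have hs : ∀ j ∈ ((Pᶜ : Finset ι) : Set ι), |y' j - y j| ≤ ∑ j ∈ Pᶜ, |y' j - y j| := fun j hj =>
    Finset.single_le_sum (f := fun j => |y' j - y j|) (fun _ _ => abs_nonneg _)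
      (Finset.mem_coe.1 hj)
  set B := ∑ j ∈ Pᶜ, |y' j - y j| with hB
  have hB0 : 0 ≤ B := Finset.sum_nonneg fun _ _ => abs_nonneg _
  have hP : ∀ i, i ∉ ((Pᶜ : Finset ι) : Set ι) → i ∈ P := by
    intro i hi; simpa using hi
  have h1 := abs_psh_sub_le h.nest y y' hy (Or.inr h.CW) hy' (Or.inr h.CW) i (h.hi2 i) (h.lo2 i)
  have h2 := h.tt_sub hy hy' (J := ((Pᶜ : Finset ι) : Set ι)) (fun i hi => hJ i (hP i hi))
    (fun i hi => hJ' i (hP i hi)) hs hB0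
  refine h1.trans ?_
  have h3 := h.ratio i hy'
  have h4 : |y' i - y i| + |tt Q C y' - tt Q C y| * ρ ≤ B + B / c₀ :=
    add_le_add (hs i (by simpa using hi)) h2
  have h5 : 0 ≤ Q.W i / ww Q C i (tt Q C y') :=
    div_nonneg (h.W0 i).le (ww_pos h.nest i hy' (Or.inr h.CW)).le
  have h6 : B ≤ B / c₀ := by rw [le_div_iff₀ h.c0]; nlinarith [h.c1]
  have hc := h.c0
  have hr := h.r0
  calc _ ≤ 1 / c₀ * (B + B / c₀) := mul_le_mul h3 h4 (by positivity) (by positivity)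
    _ ≤ 1 / c₀ * (B / c₀ + B / c₀) := by gcongr
    _ = 2 / c₀ ^ 2 * B := by field_simp; ring

end Shape

/-- the hole `B` in the core `C`. -/
structure Inner (C B : Box ι) : Prop where
  W0 : ∀ i, 0 < C.W i
  lo : ∀ i, C.lo i + C.W i / 8 ≤ B.lo i
  hi : ∀ i, B.hi i ≤ C.hi i - C.W i / 8

namespace Inner

variable {C B : Box ι} (h : Inner C B)
include h

theorem nest : Nest B C :=
  ⟨fun i => by linarith [h.lo i, h.W0 i], fun i => by linarith [h.hi i, h.W0 i]⟩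

theorem gap : Gap C B (fun i => C.W i / 8) := fun i =>
  ⟨by linarith [h.W0 i], by linarith [h.hi i], by linarith [h.lo i]⟩

theorem gapU (i : ι) : C.hi i - B.hi i ≤ C.W i ∧ B.lo i - C.lo i ≤ C.W i := by
  have h1 := B.le i
  have h2 := h.lo i
  have h3 := h.hi i
  have h4 := h.W0 i
  have h5 : C.W i = C.hi i - C.lo i := rfl
  constructor <;> linarith

theorem W_le_ww (i : ι) {t : ℝ} (ht : 0 ≤ t) (ht1 : t ≤ 1) : t * C.W i ≤ ww C B i t := by
  rw [ww_eq]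
  have h1 := B.W_nonneg i
  have h2 : B.W i ≤ C.W i := by
    have := h.nest.g1 i; have := h.nest.g2 i; unfold Box.W; linarith
  nlinarith [ht, mul_nonneg (sub_nonneg.2 ht1) h1]

/-- increments of the inner push; `M` bounds `C.W i / w_i(t')`. -/
theorem incr {y y' : ι → ℝ} (hy : 0 ≤ tt C B y) (h0 : 0 < tt C B y ∨ ∀ i, 0 < B.W i)
    (hy' : 0 ≤ tt C B y') (h0' : 0 < tt C B y' ∨ ∀ i, 0 < B.W i) {M : ℝ}
    (hM : ∀ i, C.W i ≤ M * ww C B i (tt C B y')) (i : ι) :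
    |psh C B y' i - psh C B y i| ≤ 9 * M * ∑ j, C.W i / C.W j * |y' j - y j| := by
  set R := ∑ j, C.W i / C.W j * |y' j - y j| with hR
  have hs : ∀ j, C.W i / C.W j * |y' j - y j| ≤ R := fun j =>
    Finset.single_le_sum (f := fun j => C.W i / C.W j * |y' j - y j|)
      (fun j _ => mul_nonneg (div_nonneg (h.W0 i).le (h.W0 j).le) (abs_nonneg _))
      (Finset.mem_univ j)
  have hR0 : 0 ≤ R := Finset.sum_nonneg
    fun j _ => mul_nonneg (div_nonneg (h.W0 i).le (h.W0 j).le) (abs_nonneg _)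
  have hWi := h.W0 i
  have h1 := abs_psh_sub_le h.nest y y' hy h0 hy' h0' i (h.gapU i).1 (h.gapU i).2
  have h2 := abs_tt_sub_le h.nest h.gap (J := univ) (B := 8 * R / C.W i)
    (fun i hi => absurd (mem_univ i) hi) (fun i hi => absurd (mem_univ i) hi) hy hy'
    (by positivity) (fun j _ => by
      have h3 := hs j
      have h4 := h.W0 j
      rw [div_le_div_iff₀ (by positivity) hWi]
      have h5 : C.W i / C.W j * |y' j - y j| * C.W j = C.W i * |y' j - y j| := by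
        field_simp
      nlinarith [mul_le_mul_of_nonneg_right h3 h4.le])
  have h3 : |tt C B y' - tt C B y| * C.W i ≤ 8 * R := by
    have := mul_le_mul_of_nonneg_right h2 hWi.le
    rwa [div_mul_cancel₀ _ hWi.ne'] at this
  have h4 : |y' i - y i| ≤ R := by
    have := hs i
    rwa [div_self hWi.ne', one_mul] at this
  have hw := ww_pos h.nest i hy' h0'
  have h5 : C.W i / ww C B i (tt C B y') ≤ M := by
    rw [div_le_iff₀ hw]; exact hM i
  have h6 : 0 ≤ C.W i / ww C B i (tt C B y') := div_nonneg hWi.le hw.le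
  refine h1.trans ?_
  calc _ ≤ M * (R + 8 * R) := mul_le_mul h5 (add_le_add h4 h3) (by positivity) (h6.trans h5)
    _ = 9 * M * R := by ring

end Inner

/-- **the two-level push** -/
def psi (Q C B : Box ι) (y : ι → ℝ) : ι → ℝ := by
  classical
  exact if y ∈ C.S then psh Q C (psh C B y) else psh Q C y

theorem psi_in {Q C B : Box ι} {y : ι → ℝ} (h : y ∈ C.S) : psi Q C B y = psh Q C (psh C B y) := by
  classical
  unfold psi; rw [if_pos h]

theorem psi_out {Q C B : Box ι} {y : ι → ℝ} (hCB : Nest B C) (h : y ∉ C.I) :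
    psi Q C B y = psh Q C y := by
  classical
  unfold psi
  split_ifs with hy
  · rw [psh_eq_self hCB (tt_eq_one hCB hy h)]
  · rfl

/-- `y` is outside the hole. -/
def Off (C B : Box ι) (y : ι → ℝ) : Prop := 0 ≤ tt C B y ∧ (0 < tt C B y ∨ ∀ i, 0 < B.W i)

section psi

variable {P : Finset ι} {c₀ κ ρ : ℝ} {Q C B : Box ι} (hQ : Shape P c₀ κ ρ Q C) (hC : Inner C B)
include hQ hC

theorem off_of_not_mem {y : ι → ℝ} (hy : y ∉ C.I) : Off C B y := by
  have h1 : ¬ tt C B y < 1 := mt (tt_lt_one_iff hC.nest y).1 hy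
  have h2 : 0 < tt C B y := by linarith
  exact ⟨h2.le, Or.inl h2⟩

theorem psh_inner_tt {y : ι → ℝ} (hy : Off C B y) : tt Q C (psh C B y) = 0 := by
  have h1 := psh_mem hC.nest hy.1 hy.2
  have h2 := psh_not_mem_I hC.nest hy.1 hy.2
  apply le_antisymm
  · exact (tt_le_zero_iff hQ.nest _).2 h1
  · exact not_lt.1 (mt (tt_lt_zero_iff hQ.nest _).1 h2)

/-- `psi` maps `Q \ hole` into the boundary of `Q`. -/
theorem psi_bd {y : ι → ℝ} (hyQ : y ∈ Q.S) (hy : Off C B y) :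
    psi Q C B y ∈ Q.S ∧ psi Q C B y ∉ Q.I := by
  by_cases hyC : y ∈ C.S
  · rw [psi_in hyC]
    have h0 := psh_inner_tt hQ hC hy
    exact ⟨psh_mem hQ.nest h0.ge (Or.inr hQ.CW), psh_not_mem_I hQ.nest h0.ge (Or.inr hQ.CW)⟩
  · have h1 : y ∉ C.I := fun h => hyC (fun i => ⟨(h i).1.le, (h i).2.le⟩)
    rw [psi_out hC.nest h1]
    have h2 : 0 ≤ tt Q C y := not_lt.1 (mt (tt_lt_zero_iff hQ.nest _).1 h1)
    exact ⟨psh_mem hQ.nest h2 (Or.inr hQ.CW), psh_not_mem_I hQ.nest h2 (Or.inr hQ.CW)⟩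

/-- `psi = id` on the boundary of `Q`. -/
theorem psi_eq_self {y : ι → ℝ} (hyQ : y ∈ Q.S) (hy : y ∉ Q.I) : psi Q C B y = y := by
  have h1 : y ∉ C.I := fun h => hy (fun i => by
    have := h i; have := hQ.nest.lo i; have := hQ.nest.hi i
    constructor <;> linarith)
  rw [psi_out hC.nest h1, psh_eq_self hQ.nest (tt_eq_one hQ.nest hyQ hy)]

/-- increments outside the core -/
theorem psi_incr_out {y y' : ι → ℝ} (hy : y ∉ C.I) (hy' : y' ∉ C.I) (i : ι) :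
    |psi Q C B y' i - psi Q C B y i| ≤ 2 / c₀ ^ 2 * ∑ j, |y' j - y j| := by
  rw [psi_out hC.nest hy, psi_out hC.nest hy']
  exact hQ.incr (not_lt.1 (mt (tt_lt_zero_iff hQ.nest _).1 hy))
    (not_lt.1 (mt (tt_lt_zero_iff hQ.nest _).1 hy')) i

/-- increments inside the core (`t = 0` on `∂C`, so the outer push only stretches) -/
theorem psi_incr_in {y y' : ι → ℝ} (hy : y ∈ C.S) (hy' : y' ∈ C.S) (hyo : Off C B y)
    (hyo' : Off C B y') {M : ℝ} (hM : ∀ i, C.W i ≤ M * ww C B i (tt C B y')) {a : ι → ℝ}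
    (ha : ∀ i j, Q.W i ≤ a j * C.W j) (i : ι) :
    |psi Q C B y' i - psi Q C B y i| ≤ 9 * M * ∑ j, a j * |y' j - y j| := by
  rw [psi_in hy, psi_in hy']
  have t0 := psh_inner_tt hQ hC hyo
  have t0' := psh_inner_tt hQ hC hyo'
  have h1 := abs_psh_sub_le hQ.nest (psh C B y) (psh C B y') t0.ge (Or.inr hQ.CW) t0'.ge
    (Or.inr hQ.CW) i (hQ.hi2 i) (hQ.lo2 i)
  rw [t0, t0', sub_zero, abs_zero, zero_mul, add_zero] at h1
  have hw : ww Q C i 0 = C.W i := by rw [ww_eq]; ring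
  rw [hw] at h1
  have hM0 : 0 ≤ M := by
    have hw := ww_pos hC.nest i hyo'.1 hyo'.2
    have h2 := hM i
    have h3 := hC.W0 i
    by_contra hneg
    nlinarith
  have hCi := hC.W0 i
  have hr : 0 ≤ Q.W i / C.W i := div_nonneg (hQ.W0 i).le hCi.le
  have h2 := hC.incr hyo.1 hyo.2 hyo'.1 hyo'.2 hM i
  refine h1.trans ((mul_le_mul_of_nonneg_left h2 hr).trans ?_)
  have e1 : Q.W i / C.W i * (9 * M * ∑ j, C.W i / C.W j * |y' j - y j|) =
      9 * M * ∑ j, Q.W i / C.W j * |y' j - y j| := by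
    rw [Finset.mul_sum, Finset.mul_sum, Finset.mul_sum]
    apply Finset.sum_congr rfl
    intro j _
    have hCj := hC.W0 j
    field_simp
  rw [e1]
  apply mul_le_mul_of_nonneg_left _ (by positivity)
  apply Finset.sum_le_sum
  intro j _
  apply mul_le_mul_of_nonneg_right _ (abs_nonneg _)
  rw [div_le_iff₀ (hC.W0 j)]
  exact ha i j

end psi

end Crest.Agent.R96.Push_899
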