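/-
helper538, row 96, 2SK tile version, leaf GOODT, part 1: levels taken twice by an almost monotone function.
-/
import Mathlib

set_option autoImplicit false
set_option linter.unusedSectionVars false
set_option maxHeartbeats 400000

open MeasureTheory Set Filter Metric
open scoped ENNReal NNReal Topology

namespace Crest.Agent.R96.Gdt_538

/-- oscillation of an almost increasing function -/
theorem osc_le {φ F : ℝ → ℝ} {a b : ℝ} (hab : a ≤ b) (hφ : ContinuousOn φ (Icc a b))
    (hF : MonotoneOn F (Icc a b))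
    (h : ∀ x ∈ Icc a b, ∀ y ∈ Icc a b, x ≤ y → φ x ≤ φ y + (F y - F x)) :
    volume (φ '' Icc a b) ≤ ENNReal.ofReal (φ b - φ a + 2 * (F b - F a)) ∧
      0 ≤ φ b - φ a + 2 * (F b - F a) := by
  have hne : (Icc a b).Nonempty := nonempty_Icc.2 hab
  obtain ⟨q, hq, hqm⟩ := isCompact_Icc.exists_isMinOn hne hφ
  obtain ⟨p, hp, hpm⟩ := isCompact_Icc.exists_isMaxOn hne hφ
  have ha : a ∈ Icc a b := left_mem_Icc.2 hab
  have hb : b ∈ Icc a b := right_mem_Icc.2 hab
  have h1 : φ '' Icc a b ⊆ Icc (φ q) (φ p) := by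
    rintro _ ⟨x, hx, rfl⟩
    exact ⟨hqm hx, hpm hx⟩
  have hpq : φ p - φ q ≤ φ b - φ a + 2 * (F b - F a) := by
    have e1 := h a ha b hb hab
    have f1 := hF ha hp hp.1
    have f2 := hF hp hb hp.2
    have f3 := hF ha hq hq.1
    have f4 := hF hq hb hq.2
    rcases le_total p q with hle | hle
    · have e2 := h p hp q hq hle
      linarith
    · have e2 := h p hp b hb hp.2
      have e3 := h a ha q hq hq.1
      have f5 := hF hq hp hle
      linarith
  have h0 : φ q ≤ φ p := hqm hp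
  refine ⟨(measure_mono h1).trans ?_, by linarith⟩
  rw [Real.volume_Icc]
  exact ENNReal.ofReal_le_ofReal hpq

/-- one partition -/
theorem count_le {φ F : ℝ → ℝ} {α β : ℝ} (hαβ : α < β) (hφ : ContinuousOn φ (Icc α β))
    (hF : MonotoneOn F (Icc α β))
    (h : ∀ x ∈ Icc α β, ∀ y ∈ Icc α β, x ≤ y → φ x ≤ φ y + (F y - F x)) {n : ℕ} (hn : 0 < n) :
    volume {t | t ∈ Ioo (φ α) (φ β) ∧ ∃ x ∈ Icc α β, ∃ y ∈ Icc α β, (β - α) / n < y - x ∧
      φ x = t ∧ φ y = t} ≤ ENNReal.ofReal (2 * (F β - F α)) := by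
  classical
  set δ : ℝ := (β - α) / n with hδ
  have hn' : (0:ℝ) < n := by exact_mod_cast hn
  have hδ0 : 0 < δ := div_pos (by linarith) hn'
  have hnδ : n * δ = β - α := by rw [hδ]; field_simp
  set p : ℕ → ℝ := fun i => α + i * δ with hp
  have hp0 : p 0 = α := by simp [hp]
  have hpn : p n = β := by simp only [hp]; linarith
  have hps : ∀ i, p (i + 1) = p i + δ := fun i => by simp only [hp]; push_cast; ring
  have hpm : Monotone p := monotone_nat_of_le_succ fun i => by rw [hps]; linarith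
  have hpI : ∀ i ≤ n, p i ∈ Icc α β := fun i hi => by
    refine ⟨?_, ?_⟩
    · rw [← hp0]; exact hpm (Nat.zero_le _)
    · rw [← hpn]; exact hpm hi
  have hsub : ∀ i < n, Icc (p i) (p (i + 1)) ⊆ Icc α β := fun i hi =>
    Icc_subset_Icc (hpI i hi.le).1 (hpI (i + 1) hi).2
  set J : ℕ → Set ℝ := fun i => φ '' Icc (p i) (p (i + 1)) with hJ
  have hJm : ∀ i < n, MeasurableSet (J i) := fun i hi =>
    (isCompact_Icc.image_of_continuousOn (hφ.mono (hsub i hi))).isClosed.measurableSet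
  have hJv : ∀ i < n, volume (J i) ≤
      ENNReal.ofReal (φ (p (i + 1)) - φ (p i) + 2 * (F (p (i + 1)) - F (p i))) ∧
      0 ≤ φ (p (i + 1)) - φ (p i) + 2 * (F (p (i + 1)) - F (p i)) := fun i hi =>
    osc_le (by rw [hps]; linarith) (hφ.mono (hsub i hi)) (hF.mono (hsub i hi))
      fun x hx y hy hxy => h x (hsub i hi hx) y (hsub i hi hy) hxy
  have hex : ∀ x ∈ Icc α β, ∃ i < n, x ∈ Icc (p i) (p (i + 1)) := by
    intro x hx
    by_contra hcon
    push Not at hcon
    have : ∀ i ≤ n, p i ≤ x := by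
      intro i
      induction i with
      | zero => intro _; rw [hp0]; exact hx.1
      | succ i ih =>
        intro hi
        by_contra h1
        exact hcon i (by omega) ⟨ih (by omega), (not_le.1 h1).le⟩
    have h2 := this n le_rfl
    have h3 := hpI n le_rfl
    have h4 : x = β := le_antisymm hx.2 (by rw [← hpn]; exact h2)
    obtain ⟨m, rfl⟩ : ∃ m, n = m + 1 := ⟨n - 1, by omega⟩
    exact hcon m (by omega) ⟨this m (by omega), by rw [hpn, h4]⟩
  set D : Set ℝ := {t | t ∈ Ioo (φ α) (φ β) ∧ ∃ x ∈ Icc α β, ∃ y ∈ Icc α β, δ < y - x ∧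
      φ x = t ∧ φ y = t} with hD
  rcases le_or_gt (φ β) (φ α) with hle | hlt
  · have : D = ∅ := by
      rw [eq_empty_iff_forall_notMem]
      rintro t ⟨ht, -⟩
      linarith [ht.1, ht.2]
    rw [this, measure_empty]
    exact zero_le
  set N : ℝ → ℝ≥0∞ := fun t => ∑ i ∈ Finset.range n, (J i).indicator 1 t with hN
  have hNm : Measurable N := Finset.measurable_sum _ fun i hi =>
    measurable_one.indicator (hJm i (Finset.mem_range.1 hi))
  have hNi : ∫⁻ t, N t ≤ ENNReal.ofReal (φ β - φ α + 2 * (F β - F α)) := by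
    rw [hN, lintegral_finsetSum _ fun i hi =>
      measurable_one.indicator (hJm i (Finset.mem_range.1 hi))]
    calc ∑ i ∈ Finset.range n, ∫⁻ t, (J i).indicator 1 t
        = ∑ i ∈ Finset.range n, volume (J i) := Finset.sum_congr rfl fun i hi =>
          lintegral_indicator_one (hJm i (Finset.mem_range.1 hi))
      _ ≤ ∑ i ∈ Finset.range n,
          ENNReal.ofReal (φ (p (i + 1)) - φ (p i) + 2 * (F (p (i + 1)) - F (p i))) :=
          Finset.sum_le_sum fun i hi => (hJv i (Finset.mem_range.1 hi)).1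
      _ = ENNReal.ofReal (∑ i ∈ Finset.range n,
          (φ (p (i + 1)) - φ (p i) + 2 * (F (p (i + 1)) - F (p i)))) :=
          (ENNReal.ofReal_sum_of_nonneg fun i hi => (hJv i (Finset.mem_range.1 hi)).2).symm
      _ = ENNReal.ofReal (φ β - φ α + 2 * (F β - F α)) := by
          congr 1
          rw [Finset.sum_add_distrib, Finset.sum_range_sub (fun i => φ (p i)),
            ← Finset.mul_sum, Finset.sum_range_sub (fun i => F (p i)), hp0, hpn]
  have hN1 : ∀ t ∈ Ioo (φ α) (φ β), 1 ≤ N t := by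
    intro t ht
    obtain ⟨x, hx, rfl⟩ := intermediate_value_Icc hαβ.le hφ ⟨ht.1.le, ht.2.le⟩
    obtain ⟨i, hi, hxi⟩ := hex x hx
    calc (1 : ℝ≥0∞) = (J i).indicator 1 (φ x) := by
          rw [indicator_of_mem (mem_image_of_mem φ hxi)]; rfl
      _ ≤ N (φ x) := Finset.single_le_sum (f := fun i => (J i).indicator (1 : ℝ → ℝ≥0∞) (φ x))
          (fun _ _ => zero_le) (Finset.mem_range.2 hi)
  have hN2 : ∀ t ∈ D, 2 ≤ N t := by
    rintro t ⟨ht, x, hx, y, hy, hxy, rfl, hyt⟩
    obtain ⟨i, hi, hxi⟩ := hex x hx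
    obtain ⟨j, hj, hyj⟩ := hex y hy
    have hij : i ≠ j := by
      rintro rfl
      have := hps i
      linarith [hxi.1, hyj.2]
    have h1 : (J i).indicator (1 : ℝ → ℝ≥0∞) (φ x) = 1 := by
      rw [indicator_of_mem (mem_image_of_mem φ hxi)]; rfl
    have h2 : (J j).indicator (1 : ℝ → ℝ≥0∞) (φ x) = 1 := by
      rw [indicator_of_mem]
      · rfl
      · rw [← hyt]; exact mem_image_of_mem φ hyj
    calc (2 : ℝ≥0∞) = ∑ k ∈ ({i, j} : Finset ℕ), (J k).indicator (1 : ℝ → ℝ≥0∞) (φ x) := by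
          rw [Finset.sum_pair hij, h1, h2]; norm_num
      _ ≤ N (φ x) := Finset.sum_le_sum_of_subset_of_nonneg
          (by
            intro k hk
            rw [Finset.mem_insert, Finset.mem_singleton] at hk
            rcases hk with rfl | rfl <;> exact Finset.mem_range.2 ‹_›)
          (fun _ _ _ => zero_le)
  set A : Set ℝ := Ioo (φ α) (φ β) ∩ {t | 2 ≤ N t} with hA
  have hAm : MeasurableSet A := measurableSet_Ioo.inter (measurableSet_le measurable_const hNm)
  have hDA : D ⊆ A := fun t ht => ⟨ht.1, hN2 t ht⟩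
  have h1 : volume A + volume (Ioo (φ α) (φ β)) ≤ ∫⁻ t, N t := by
    rw [← lintegral_indicator_one hAm, ← lintegral_indicator_one measurableSet_Ioo,
      ← lintegral_add_left (measurable_one.indicator hAm)]
    apply lintegral_mono
    intro t
    simp only
    by_cases htI : t ∈ Ioo (φ α) (φ β)
    · by_cases htA : t ∈ A
      · rw [indicator_of_mem htI, indicator_of_mem htA]
        calc (1 : ℝ → ℝ≥0∞) t + (1 : ℝ → ℝ≥0∞) t = 2 := by
              simp only [Pi.one_apply]; norm_num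
          _ ≤ N t := htA.2
      · rw [indicator_of_mem htI, indicator_of_notMem htA, zero_add]
        exact hN1 t htI
    · rw [indicator_of_notMem htI, indicator_of_notMem fun hh => htI hh.1, add_zero]
      exact zero_le
  rw [Real.volume_Ioo] at h1
  have h2 := h1.trans hNi
  have h00 : 0 ≤ 2 * (F β - F α) := by
    have := hF (left_mem_Icc.2 hαβ.le) (right_mem_Icc.2 hαβ.le) hαβ.le
    linarith
  rw [show φ β - φ α + 2 * (F β - F α) = 2 * (F β - F α) + (φ β - φ α) by ring,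
    ENNReal.ofReal_add h00 (by linarith)] at h2
  exact (measure_mono hDA).trans (ENNReal.le_of_add_le_add_right ENNReal.ofReal_ne_top h2)

/-- **levels taken twice** -/
theorem double_levels {φ F : ℝ → ℝ} {α β : ℝ} (hφ : ContinuousOn φ (Icc α β))
    (hF : MonotoneOn F (Icc α β))
    (h : ∀ x ∈ Icc α β, ∀ y ∈ Icc α β, x ≤ y → φ x ≤ φ y + (F y - F x)) :
    volume {t | t ∈ Ioo (φ α) (φ β) ∧ ∃ x ∈ Icc α β, ∃ y ∈ Icc α β, x ≠ y ∧
      φ x = t ∧ φ y = t} ≤ ENNReal.ofReal (2 * (F β - F α)) := by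
  rcases lt_or_ge α β with hαβ | hαβ
  · set D : ℕ → Set ℝ := fun n => {t | t ∈ Ioo (φ α) (φ β) ∧ ∃ x ∈ Icc α β, ∃ y ∈ Icc α β,
      (β - α) / (n + 1 : ℕ) < y - x ∧ φ x = t ∧ φ y = t} with hD
    have hmono : Monotone D := by
      intro m n hmn t ht
      obtain ⟨ht, x, hx, y, hy, hxy, e1, e2⟩ := ht
      refine ⟨ht, x, hx, y, hy, lt_of_le_of_lt ?_ hxy, e1, e2⟩
      have h1 : (0:ℝ) < (m + 1 : ℕ) := by positivity
      have h2 : ((m + 1 : ℕ) : ℝ) ≤ (n + 1 : ℕ) := by exact_mod_cast Nat.succ_le_succ hmn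
      exact div_le_div_of_nonneg_left (by linarith) h1 h2
    have hsub : {t | t ∈ Ioo (φ α) (φ β) ∧ ∃ x ∈ Icc α β, ∃ y ∈ Icc α β, x ≠ y ∧
        φ x = t ∧ φ y = t} ⊆ ⋃ n, D n := by
      rintro t ⟨ht, x, hx, y, hy, hxy, e1, e2⟩
      have key : ∀ x ∈ Icc α β, ∀ y ∈ Icc α β, x < y → φ x = t → φ y = t → t ∈ ⋃ n, D n := by
        intro x hx y hy hlt e1 e2
        obtain ⟨n, hn⟩ := exists_nat_gt ((β - α) / (y - x))
        refine mem_iUnion.2 ⟨n, ht, x, hx, y, hy, ?_, e1, e2⟩
        have hyx : 0 < y - x := by linarith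
        rw [div_lt_iff₀ hyx] at hn
        rw [div_lt_iff₀ (by positivity)]
        push_cast
        nlinarith
      rcases lt_or_gt_of_ne hxy with h1 | h1
      · exact key x hx y hy h1 e1 e2
      · exact key y hy x hx h1 e2 e1
    refine (measure_mono hsub).trans ?_
    rw [hmono.measure_iUnion]
    exact iSup_le fun n => count_le hαβ hφ hF h (Nat.succ_pos n)
  · have : {t | t ∈ Ioo (φ α) (φ β) ∧ ∃ x ∈ Icc α β, ∃ y ∈ Icc α β, x ≠ y ∧
        φ x = t ∧ φ y = t} = ∅ := by
      rw [eq_empty_iff_forall_notMem]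
      rintro t ⟨-, x, hx, y, hy, hxy, -⟩
      apply hxy
      have h1 : x = α := le_antisymm (hx.2.trans hαβ) hx.1
      have h2 : y = α := le_antisymm (hy.2.trans hαβ) hy.1
      rw [h1, h2]
    rw [this, measure_empty]
    exact zero_le

end Crest.Agent.R96.Gdt_538
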