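/-
helper538, row 96, 2SK tile version, leaf GOODT, part 2: one crossing edge.
-/
import Mathlib
import Crest.Agent.R96.Gdt1_538
import Crest.Agent.R096.Ub4_113

set_option autoImplicit false
set_option linter.unusedSectionVars false
set_option maxHeartbeats 400000

open MeasureTheory Set Filter Metric
open scoped ENNReal NNReal Topology

namespace Crest.Agent.R96.Gdt_538

open Crest.Agent.R096.Ub_113 (gau le_gau exists_gau convex_gau continuous_gau)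

variable {E : Type*} [NormedAddCommGroup E] [NormedSpace ℝ E] [FiniteDimensional ℝ E]

/-- the gauge is Lipschitz -/
theorem gau_lip {G : Finset ((E →L[ℝ] ℝ) × ℝ)} {hG : G.Nonempty} {Λ : ℝ}
    (hΛ : ∀ h ∈ G, ‖h.1‖ ≤ Λ) (y z : E) : gau G hG y ≤ gau G hG z + Λ * ‖y - z‖ := by
  obtain ⟨h, hh, e⟩ := exists_gau G hG y
  have h1 := le_gau G hG (y := z) hh
  have h2 : h.1 (y - z) ≤ Λ * ‖y - z‖ :=
    (le_abs_self _).trans ((h.1.le_opNorm (y - z)).trans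
      (mul_le_mul_of_nonneg_right (hΛ h hh) (norm_nonneg _)))
  rw [map_sub] at h2
  rw [e]
  linarith

/-- **one edge**: few levels are taken twice -/
theorem edge_once {G : Finset ((E →L[ℝ] ℝ) × ℝ)} {hG : G.Nonempty} {Λ : ℝ} (hΛ0 : 0 ≤ Λ)
    (hΛ : ∀ h ∈ G, ‖h.1‖ ≤ Λ) {γ δ : ℝ → E} (hγ : ContinuousOn γ (Icc 0 1)) {p v : E}
    (hδ : ∀ x, δ x = p + x • v) {ε : ℝ} (hε : 0 < ε)
    (hnear : ∀ x ∈ Icc (0:ℝ) 1, ‖γ x - δ x‖ ≤ ε) {F : ℝ → ℝ} (hF : MonotoneOn F (Icc 0 1))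
    (hBV : ∀ x ∈ Icc (0:ℝ) 1, ∀ y ∈ Icc (0:ℝ) 1, x ≤ y →
      ‖(γ y - δ y) - (γ x - δ x)‖ ≤ F y - F x)
    (hp : gau G hG p ≤ 1) {a0 b0 : ℝ} (ha : 1 + 3 * (Λ * ε) < a0)
    (hb : b0 ≤ gau G hG (γ 1)) :
    volume {t | t ∈ Ioo a0 b0 ∧ ∃ x ∈ Icc (0:ℝ) 1, ∃ y ∈ Icc (0:ℝ) 1, x ≠ y ∧
      gau G hG (γ x) = t ∧ gau G hG (γ y) = t} ≤ ENNReal.ofReal (2 * (Λ * (F 1 - F 0))) := by
  set u := gau G hG with hu
  have hΛε : 0 ≤ Λ * ε := by positivity
  have h01 : (0:ℝ) ∈ Icc (0:ℝ) 1 := ⟨le_rfl, zero_le_one⟩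
  have h11 : (1:ℝ) ∈ Icc (0:ℝ) 1 := ⟨zero_le_one, le_rfl⟩
  have hF01 : 0 ≤ F 1 - F 0 := by have := hF h01 h11 zero_le_one; linarith
  have huc : Continuous u := continuous_gau G hG
  set ψ : ℝ → ℝ := fun x => u (δ x) with hψ
  set φ : ℝ → ℝ := fun x => u (γ x) with hφ
  have hδc : Continuous δ := by
    have : δ = fun x => p + x • v := funext hδ
    rw [this]; fun_prop
  have hψc : Continuous ψ := huc.comp hδc
  have hφc : ContinuousOn φ (Icc 0 1) := huc.comp_continuousOn hγ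
  have hψ0 : ψ 0 ≤ 1 := by simp only [hψ, hδ, zero_smul, add_zero]; exact hp
  have hφψ : ∀ x ∈ Icc (0:ℝ) 1, φ x ≤ ψ x + Λ * ε := fun x hx =>
    (gau_lip hΛ (γ x) (δ x)).trans (by
      have := mul_le_mul_of_nonneg_left (hnear x hx) hΛ0
      linarith)
  have hψφ : ∀ x ∈ Icc (0:ℝ) 1, ψ x ≤ φ x + Λ * ε := fun x hx =>
    (gau_lip hΛ (δ x) (γ x)).trans (by
      have := mul_le_mul_of_nonneg_left (hnear x hx) hΛ0
      rw [norm_sub_rev]
      linarith)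
  have hconv : ∀ x y : ℝ, 0 ≤ x → x ≤ y → 0 < y → ψ x ≤ max 1 (ψ y) := by
    intro x y hx hxy hy
    have h1 := convex_gau G hG
    have h2 := h1.2 (mem_univ (δ 0)) (mem_univ (δ y))
      (show (0:ℝ) ≤ 1 - x / y by rw [sub_nonneg, div_le_one hy]; exact hxy)
      (show (0:ℝ) ≤ x / y by positivity) (by ring)
    have h3 : (1 - x / y) • δ 0 + (x / y) • δ y = δ x := by
      rw [hδ, hδ, hδ, zero_smul, add_zero, smul_add, smul_smul, div_mul_cancel₀ _ hy.ne',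
        ← add_assoc, ← add_smul]
      simp
    rw [h3] at h2
    simp only [smul_eq_mul] at h2
    have hq0 : 0 ≤ x / y := by positivity
    have hq1 : x / y ≤ 1 := by rw [div_le_one hy]; exact hxy
    have h4 : gau G hG (δ 0) ≤ max 1 (ψ y) := hψ0.trans (le_max_left _ _)
    have h5 : gau G hG (δ y) ≤ max 1 (ψ y) := le_max_right _ _
    calc ψ x ≤ (1 - x / y) * gau G hG (δ 0) + x / y * gau G hG (δ y) := h2
      _ ≤ (1 - x / y) * max 1 (ψ y) + x / y * max 1 (ψ y) :=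
          add_le_add (mul_le_mul_of_nonneg_left h4 (by linarith))
            (mul_le_mul_of_nonneg_left h5 hq0)
      _ = max 1 (ψ y) := by ring
  rcases le_or_gt b0 a0 with hab | hab
  · have : {t | t ∈ Ioo a0 b0 ∧ ∃ x ∈ Icc (0:ℝ) 1, ∃ y ∈ Icc (0:ℝ) 1, x ≠ y ∧
        u (γ x) = t ∧ u (γ y) = t} = ∅ := by
      rw [eq_empty_iff_forall_notMem]
      rintro t ⟨ht, -⟩
      linarith [ht.1, ht.2]
    rw [this, measure_empty]
    exact zero_le
  -- the first point where `ψ` reaches `1 + 2 Λ ε'`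
  set c : ℝ := (1 + 3 * (Λ * ε) + a0) / 2 - Λ * ε with hc
  have hc1 : 1 + 2 * (Λ * ε) < c := by rw [hc]; linarith
  have hc2 : c + Λ * ε < a0 := by rw [hc]; linarith
  have hψ1 : c ≤ ψ 1 := by
    have := hφψ 1 h11
    have h2 : b0 ≤ φ 1 := hb
    linarith
  obtain ⟨σ, hσ, hσc⟩ := intermediate_value_Icc zero_le_one hψc.continuousOn
    (show c ∈ Icc (ψ 0) (ψ 1) from ⟨by linarith, hψ1⟩)
  have hσ0 : 0 < σ := by
    rcases hσ.1.eq_or_lt with h | h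
    · rw [← h] at hσc; linarith
    · exact h
  have hge : ∀ x ∈ Icc σ 1, c ≤ ψ x := by
    intro x hx
    have h1 := hconv σ x hσ0.le hx.1 (hσ0.trans_le hx.1)
    rw [hσc] at h1
    rcases le_max_iff.1 h1 with h | h
    · linarith
    · exact h
  have hlt : ∀ x ∈ Icc (0:ℝ) 1, c < ψ x → σ ≤ x := by
    intro x hx hcx
    by_contra hcon
    have h1 := hconv x σ hx.1 (not_le.1 hcon).le hσ0
    rw [hσc] at h1
    rcases le_max_iff.1 h1 with h | h
    · linarith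
    · linarith
  have hone : ∀ x ∈ Icc σ 1, ∀ y ∈ Icc σ 1, x ≤ y → φ x ≤ φ y + (Λ * F y - Λ * F x) := by
    intro x hx y hy hxy
    have hx' : x ∈ Icc (0:ℝ) 1 := ⟨hσ0.le.trans hx.1, hx.2⟩
    have hy' : y ∈ Icc (0:ℝ) 1 := ⟨hσ0.le.trans hy.1, hy.2⟩
    obtain ⟨h, hh, e⟩ := exists_gau G hG (γ x)
    have e1 : φ x = h.1 (γ x) - h.2 := e
    -- slope
    have h1 : h.1 (γ x) - h.1 (δ x) ≤ Λ * ε := by
      rw [← map_sub]
      exact (le_abs_self _).trans ((h.1.le_opNorm _).trans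
        (mul_le_mul (hΛ h hh) (hnear x hx') (norm_nonneg _) hΛ0))
    have h2 := hψφ x hx'
    have h3 := hge x hx
    have h4 : h.1 (δ 0) - h.2 ≤ 1 := (le_gau G hG (y := δ 0) hh).trans hψ0
    have h5 : 0 ≤ h.1 v := by
      have h6 : h.1 (δ x) = h.1 (δ 0) + x * h.1 v := by
        rw [hδ, hδ, zero_smul, add_zero, map_add, map_smul, smul_eq_mul]
      have h7 : 0 < x := hσ0.trans_le hx.1
      by_contra hneg
      rw [not_le] at hneg
      have : x * h.1 v < 0 := mul_neg_of_pos_of_neg h7 hneg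
      linarith
    have h6 : h.1 (δ y) - h.1 (δ x) = (y - x) * h.1 v := by
      rw [hδ, hδ, map_add, map_add, map_smul, map_smul, smul_eq_mul, smul_eq_mul]; ring
    have h7 : 0 ≤ (y - x) * h.1 v := mul_nonneg (by linarith) h5
    have h8 : -(Λ * (F y - F x)) ≤ h.1 ((γ y - δ y) - (γ x - δ x)) := by
      have h9 : |h.1 ((γ y - δ y) - (γ x - δ x))| ≤ Λ * (F y - F x) :=
        (h.1.le_opNorm _).trans (mul_le_mul (hΛ h hh) (hBV x hx' y hy' hxy) (norm_nonneg _) hΛ0)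
      exact (abs_le.1 h9).1
    rw [map_sub, map_sub, map_sub] at h8
    have h10 : h.1 (γ y) - h.2 ≤ φ y := le_gau G hG (y := γ y) hh
    linarith
  have hmono : MonotoneOn (fun x => Λ * F x) (Icc σ 1) := fun x hx y hy hxy =>
    mul_le_mul_of_nonneg_left (hF ⟨hσ0.le.trans hx.1, hx.2⟩ ⟨hσ0.le.trans hy.1, hy.2⟩ hxy) hΛ0
  have h1 := double_levels (φ := φ) (F := fun x => Λ * F x) (α := σ) (β := 1)
    (hφc.mono (Icc_subset_Icc_left hσ0.le)) hmono hone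
  refine (measure_mono ?_).trans (h1.trans (ENNReal.ofReal_le_ofReal ?_))
  · rintro t ⟨ht, x, hx, y, hy, hxy, e1, e2⟩
    have key : ∀ x ∈ Icc (0:ℝ) 1, u (γ x) = t → x ∈ Icc σ 1 := by
      intro x hx e
      refine ⟨hlt x hx ?_, hx.2⟩
      have h2 := hφψ x hx
      have h3 : φ x = t := e
      linarith [ht.1]
    refine ⟨⟨?_, ?_⟩, x, key x hx e1, y, key y hy e2, hxy, e1, e2⟩
    · have h2 := hφψ σ ⟨hσ0.le, hσ.2⟩
      rw [hσc] at h2
      linarith [ht.1]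
    · exact lt_of_lt_of_le ht.2 hb
  · have h2 : F 0 ≤ F σ := hF h01 ⟨hσ0.le, hσ.2⟩ hσ0.le
    have h3 : Λ * F 0 ≤ Λ * F σ := mul_le_mul_of_nonneg_left h2 hΛ0
    linarith

end Crest.Agent.R96.Gdt_538
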