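/-
helper538, row 96, 2SK tile version, leaf GOODT, part 3: near + gap + bounded variation ⟹ GoodT.
-/
import Mathlib
import Crest.Agent.R96.Gdt2_538
import Crest.Agent.R096.Gau2_812
import Crest.Agent.R096.Tgr3_335

set_option autoImplicit false
set_option linter.unusedSectionVars false
set_option maxHeartbeats 400000

open MeasureTheory Set Filter Metric
open scoped ENNReal NNReal Topology

namespace Crest.Agent.R96.Gdt_538

open Crest.Agent.R096.Msh_715
open Crest.Agent.R096.Sk2_855 (sk1)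
open Crest.Agent.R096.Ub_113 (gau le_gau exists_gau convex_gau continuous_gau)
open Crest.Agent.R096.Sk3_812

variable {E : Type} [NormedAddCommGroup E] [NormedSpace ℝ E] [FiniteDimensional ℝ E]
variable {Om La : Set E} {ι : Type*}

/-- the Lipschitz constant of the gauge from the inradius -/
theorem GH_norm {H : Finset ((E →L[ℝ] ℝ) × ℝ)} {c : E} (hc : c ∈ I H) (A : E ≃ᵃ[ℝ] E)
    {ρ κ : ℝ} (hρ : 0 < ρ) (hκ : 0 < κ) (hB : closedBall c ρ ⊆ P H)
    (hA : ∀ v, κ * ‖v‖ ≤ ‖A.linear v‖) : ∀ h ∈ GH H c A, ‖h.1‖ ≤ (κ * ρ)⁻¹ := by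
  classical
  intro g hg
  unfold GH at hg
  obtain ⟨h, hh, rfl⟩ := Finset.mem_image.1 hg
  have hd : 0 < h.2 - h.1 c := sub_pos.2 (hc h hh)
  refine ContinuousLinearMap.opNorm_le_bound _ (by positivity) fun w => ?_
  simp only [ContinuousLinearMap.smul_apply, ContinuousLinearMap.comp_apply, smul_eq_mul,
    LinearMap.coe_toContinuousLinearMap', LinearEquiv.coe_coe]
  set z : E := A.symm.linear w with hz
  have hzw : κ * ‖z‖ ≤ ‖w‖ := by
    have := hA z
    have h2 : A.linear z = w := by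
      rw [hz]
      exact A.linear.apply_symm_apply w
    rwa [h2] at this
  have h1 : ρ * |h.1 z| ≤ (h.2 - h.1 c) * ‖z‖ := by
    rcases eq_or_ne z 0 with h0 | h0
    · rw [h0]; simp
    · have hz0 : 0 < ‖z‖ := norm_pos_iff.2 h0
      have key : ∀ σ : ℝ, |σ| ≤ 1 → ρ * (σ * h.1 z) ≤ (h.2 - h.1 c) * ‖z‖ := by
        intro σ hσ
        have h2 : c + (ρ / ‖z‖ * σ) • z ∈ closedBall c ρ := by
          rw [mem_closedBall, dist_eq_norm, add_sub_cancel_left, norm_smul, Real.norm_eq_abs,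
            abs_mul, abs_of_pos (by positivity : 0 < ρ / ‖z‖)]
          calc ρ / ‖z‖ * |σ| * ‖z‖ = ρ * |σ| := by field_simp
            _ ≤ ρ * 1 := by gcongr
            _ = ρ := mul_one _
        have h3 := hB h2 h hh
        rw [map_add, map_smul, smul_eq_mul] at h3
        have h4 : ρ / ‖z‖ * σ * h.1 z ≤ h.2 - h.1 c := by linarith
        calc ρ * (σ * h.1 z) = ρ / ‖z‖ * σ * h.1 z * ‖z‖ := by field_simp
          _ ≤ (h.2 - h.1 c) * ‖z‖ := by gcongr
      rcases abs_cases (h.1 z) with ⟨e, -⟩ | ⟨e, -⟩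
      · rw [e]
        have := key 1 (by simp)
        linarith
      · rw [e]
        have := key (-1) (by simp)
        linarith
  rw [Real.norm_eq_abs, abs_mul, abs_of_pos (inv_pos.2 hd), inv_mul_le_iff₀ hd, mul_inv]
  have h2 : |h.1 z| ≤ (h.2 - h.1 c) * ‖z‖ / ρ := by
    rw [le_div_iff₀ hρ]; linarith
  refine h2.trans ?_
  have h3 : ‖z‖ ≤ κ⁻¹ * ‖w‖ := by rw [le_inv_mul_iff₀ hκ]; exact hzw
  calc (h.2 - h.1 c) * ‖z‖ / ρ ≤ (h.2 - h.1 c) * (κ⁻¹ * ‖w‖) / ρ := by gcongr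
    _ = (h.2 - h.1 c) * (κ⁻¹ * ρ⁻¹ * ‖w‖) := by field_simp

/-- **near + gap + bounded variation ⟹ good tile**, levels `1 + β`, `1 + 3 β` -/
theorem goodT_of {T : Tiling Om ι} {f : E → E} {i : ι} (hne : (T.H i).Nonempty) {c : E}
    (hc : c ∈ I (T.H i)) (A : E ≃ᵃ[ℝ] E) (hf : ContinuousOn f Om) {N : Set E}
    {Λ ε β η' : ℝ} (hΛ0 : 0 ≤ Λ) (hΛ : ∀ h ∈ GH (T.H i) c A, ‖h.1‖ ≤ Λ) (hε : 0 < ε)
    (hβ : 0 < β) (hΛε : 4 * (Λ * ε) ≤ β)
    (sub : ∀ y, ug (T.H i) hne c A y ≤ 1 + 3 * β → y ∈ La)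
    (hN : P (T.H i) ⊆ N) (hNc : ∀ x, Crs T i x → T.cc x ⊆ N)
    (near : ∀ x ∈ sk1 T, x ∈ N → ‖f x - A x‖ ≤ ε)
    (out : ∀ x ∈ sk1 T, ug (T.H i) hne c A (f x) ≤ 1 + 3 * β → x ∈ N)
    (gap : ∀ x ∈ sk1 T, x ∈ N → x ∉ P (T.H i) → ¬ Crs T i x →
      1 + 4 * β ≤ ug (T.H i) hne c A (A x))
    (tg : Tg T i)
    (bv : ∀ x, Crs T i x → ∀ p q, T.cc x = segment ℝ p q →
      ∃ F : ℝ → ℝ, MonotoneOn F (Icc 0 1) ∧ F 1 - F 0 ≤ η' ∧
        ∀ s ∈ Icc (0:ℝ) 1, ∀ t ∈ Icc (0:ℝ) 1, s ≤ t →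
          ‖(f (p + t • (q - p)) - A (p + t • (q - p))) -
            (f (p + s • (q - p)) - A (p + s • (q - p)))‖ ≤ F t - F s)
    (count : (Nat.card (KT T i) : ℝ) * (2 * (Λ * η')) < 2 * β) :
    GoodT T La f i (ug (T.H i) hne c A) (A c) (1 + β) (1 + 3 * β) := by
  set u := ug (T.H i) hne c A with hu
  have hΛε0 : 0 ≤ Λ * ε := by positivity
  have hlip : ∀ y z, u y ≤ u z + Λ * ‖y - z‖ := fun y z => gau_lip hΛ y z
  have hn1 : ∀ x ∈ sk1 T, x ∈ N → u (f x) ≤ u (A x) + Λ * ε := fun x hx hxN =>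
    (hlip (f x) (A x)).trans (by
      have := mul_le_mul_of_nonneg_left (near x hx hxN) hΛ0
      linarith)
  have hn2 : ∀ x ∈ sk1 T, x ∈ N → u (A x) ≤ u (f x) + Λ * ε := fun x hx hxN =>
    (hlip (A x) (f x)).trans (by
      have := mul_le_mul_of_nonneg_left (near x hx hxN) hΛ0
      rw [norm_sub_rev]
      linarith)
  have htile : ∀ x, x ∈ P (T.H i) → u (A x) ≤ 1 := fun x hx => by
    rw [hu, ug_le_one_iff hne hc A, A.symm_apply_apply]; exact hx
  have houtv : ∀ x, Crs T i x → ∀ w ∈ T.cc x, T.dim w = 0 → w ∉ P (T.H i) →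
      1 + 4 * β - Λ * ε ≤ u (f w) := by
    intro x hx w hw hw0 hwi
    have hwO : w ∈ Om := T.cc_sub_Om hx.1 hw
    have hws : w ∈ sk1 T := ⟨hwO, by rw [hw0]; exact zero_le_one⟩
    have h1 := gap w hws (hNc x hx hw) hwi (fun h => by
      have h2 := h.2.1
      rw [hw0] at h2
      exact absurd h2 (by norm_num))
    have h2 := hn2 w hws (hNc x hx hw)
    linarith
  refine ⟨ug_spec hne hc A (T.cpt i), by linarith, sub, ?_, ?_, ?_, tg, ?_⟩
  · intro x hx h1 h2
    have hxN := out x hx h2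
    have h3 := hn1 x hx hxN
    have h4 := hn2 x hx hxN
    by_contra hcon
    by_cases hxi : x ∈ P (T.H i)
    · have := htile x hxi
      linarith
    · have := gap x hx hxN hxi hcon
      linarith
  · intro x hx hxi
    have h1 := hn1 x hx (hN hxi)
    have h2 := htile x hxi
    linarith
  · intro x hx w hw hw0 hwi
    have := houtv x hx w hw hw0 hwi
    linarith
  · -- levels crossed once
    set a := 1 + β with ha
    set b := 1 + 3 * β with hb
    set Bad : KT T i → Set ℝ := fun k => {t | t ∈ Ioo a b ∧ ∃ z ∈ T.cc k.e, ∃ z' ∈ T.cc k.e,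
      z ≠ z' ∧ u (f z) = t ∧ u (f z') = t} with hBad
    have hbad : ∀ k, volume (Bad k) ≤ ENNReal.ofReal (2 * (Λ * η')) := by
      intro k
      have hk := k.crs
      obtain ⟨p, q, hpq, hp0, hq0, hp, hq⟩ :=
        (Crest.Agent.R096.Tgr_335.Crs.ends (T := T) (i := i) (e := k.e)
          ⟨hk.1, hk.2.1, hk.2.2.1, hk.2.2.2⟩)
      obtain ⟨F, hF, hF1, hFb⟩ := bv _ hk p q hpq
      have hmem : ∀ s ∈ Icc (0:ℝ) 1, p + s • (q - p) ∈ T.cc k.e := by
        intro s hs
        rw [hpq, segment_eq_image']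
        exact ⟨s, hs, rfl⟩
      have hsk : T.cc k.e ⊆ sk1 T := cc_sub_sk1 hk.1 hk.2.1
      have hlin : ∀ s : ℝ, A (p + s • (q - p)) = A p + s • A.linear (q - p) := by
        intro s
        have h1 := A.map_vadd p (s • (q - p))
        simp only [vadd_eq_add, map_smul] at h1
        rw [add_comm p, h1, add_comm]
      have h1 := edge_once (hG := GH_ne hne c A) hΛ0 hΛ
        (γ := fun s => f (p + s • (q - p))) (δ := fun s => A (p + s • (q - p)))
        (hf.comp (by fun_prop) fun s hs => T.cc_sub_Om hk.1 (hmem s hs))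
        (p := A p) (v := A.linear (q - p)) hlin hε
        (fun s hs => near _ (hsk (hmem s hs)) (hNc _ hk (hmem s hs)))
        hF hFb (htile p hp) (a0 := a) (b0 := b) (by rw [ha]; linarith)
        (by
          have h2 := houtv _ hk q (by rw [hpq]; exact right_mem_segment _ _ _) hq0 hq
          have h3 : (p + (1:ℝ) • (q - p)) = q := by rw [one_smul]; abel
          rw [h3, hb]
          have h4 : u (f q) = gau (GH (T.H i) c A) (GH_ne hne c A) (f q) := rfl
          rw [← h4]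
          linarith)
      refine (measure_mono ?_).trans (h1.trans (ENNReal.ofReal_le_ofReal ?_))
      · rintro t ⟨ht, z, hz, z', hz', hzz, e1, e2⟩
        rw [hpq, segment_eq_image'] at hz hz'
        obtain ⟨s, hs, rfl⟩ := hz
        obtain ⟨s', hs', rfl⟩ := hz'
        refine ⟨ht, s, hs, s', hs', ?_, e1, e2⟩
        rintro rfl
        exact hzz rfl
      · have := mul_le_mul_of_nonneg_left hF1 hΛ0
        linarith
    intro hfin
    have hcov : Ioo a b ⊆ {t | t ∈ Ioo a b ∧ ∀ x, Crs T i x → ∀ z ∈ T.cc x, ∀ z' ∈ T.cc x,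
        u (f z) = t → u (f z') = t → z = z'} ∪ ⋃ k, Bad k := by
      intro t ht
      by_cases h : ∀ x, Crs T i x → ∀ z ∈ T.cc x, ∀ z' ∈ T.cc x,
        u (f z) = t → u (f z') = t → z = z'
      · exact Or.inl ⟨ht, h⟩
      · right
        push Not at h
        obtain ⟨x, hx, z, hz, z', hz', e1, e2, hzz⟩ := h
        obtain ⟨k, hk⟩ := exists_KT hx
        have hcc : T.cc x = T.cc k.e := T.cc_eq_of_mem_oc k.eOm hk
        rw [hcc] at hz hz'
        exact mem_iUnion.2 ⟨k, ht, z, hz, z', hz', hzz, e1, e2⟩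
    have h1 : volume (Ioo a b) ≤ ENNReal.ofReal ((Nat.card (KT T i) : ℝ) * (2 * (Λ * η'))) := by
      refine (measure_mono hcov).trans ((measure_union_le _ _).trans ?_)
      rw [hfin.measure_zero, zero_add]
      cases nonempty_fintype (KT T i)
      refine (measure_iUnion_fintype_le _ _).trans ?_
      refine (Finset.sum_le_sum fun k _ => hbad k).trans ?_
      rw [Finset.sum_const, Finset.card_univ, nsmul_eq_mul, Nat.card_eq_fintype_card,
        ENNReal.ofReal_mul (Nat.cast_nonneg _), ENNReal.ofReal_natCast]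
    rw [Real.volume_Ioo] at h1
    have h2 : b - a = 2 * β := by rw [ha, hb]; ring
    rw [h2] at h1
    have h3 := (ENNReal.ofReal_lt_ofReal_iff (by linarith : 0 < 2 * β)).2 count
    exact absurd h1 (not_le.2 h3)

end Crest.Agent.R96.Gdt_538
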