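/-
helper392, row 96, leaf P6-ACL (A3): average energy of translated skeletons (Tonelli) and the
choice of a good translate (Chebyshev).  Any lattice `L` with fundamental domain `D`, any
parametrised piece `γ : T → E` (vertex, edge, face, cube, ...).
-/
import Mathlib

set_option autoImplicit false
set_option linter.unusedSectionVars false

open MeasureTheory Set Filter
open scoped ENNReal Topology

namespace Crest.Agent.R96.Grid_392

noncomputable section

variable {E : Type*} [NormedAddCommGroup E] [NormedSpace ℝ E] [FiniteDimensional ℝ E]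
  [MeasurableSpace E] [BorelSpace E] {μ : Measure E} [μ.IsAddHaarMeasure]

/-- energy of `G` on the piece `γ` at the base point `x` -/
def pc {T : Type*} [MeasurableSpace T] (ν : Measure T) (γ : T → E) (G : E → ℝ≥0∞) (x : E) : ℝ≥0∞ :=
  ∫⁻ τ, G (x + γ τ) ∂ν

/-- energy of `G` on all translates of the piece `γ` by `a + L` -/
def sk (L : AddSubgroup E) {T : Type*} [MeasurableSpace T] (ν : Measure T) (γ : T → E)
    (G : E → ℝ≥0∞) (a : E) : ℝ≥0∞ := ∑' l : L, pc ν γ G (a + (l : E))

section

variable {T : Type*} [MeasurableSpace T] {ν : Measure T} [SFinite ν] {γ : T → E}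

theorem mp_shear' (hγ : Measurable γ) :
    MeasurePreserving (fun p : T × E => (p.1, p.2 + γ p.1)) (ν.prod μ) (ν.prod μ) := by
  apply MeasurePreserving.skew_product (MeasurePreserving.id ν)
    (g := fun (τ : T) (x : E) => x + γ τ)
  · exact measurable_snd.add (hγ.comp measurable_fst)
  · apply Eventually.of_forall
    intro τ
    exact (measurePreserving_add_right μ (γ τ)).map_eq

theorem aemeasurable_shear (hγ : Measurable γ) {G : E → ℝ≥0∞} (hG : AEMeasurable G μ) :
    AEMeasurable (fun p : T × E => G (p.2 + γ p.1)) (ν.prod μ) := by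
  have h1 : AEMeasurable (fun p : T × E => G p.2) (ν.prod μ) :=
    hG.comp_quasiMeasurePreserving Measure.quasiMeasurePreserving_snd
  exact h1.comp_quasiMeasurePreserving (mp_shear' (μ := μ) (ν := ν) hγ).quasiMeasurePreserving

theorem aemeasurable_pc (hγ : Measurable γ) {G : E → ℝ≥0∞} (hG : AEMeasurable G μ) :
    AEMeasurable (pc ν γ G) μ := by
  have h1 := aemeasurable_shear (ν := ν) (μ := μ) hγ hG
  have h2 : AEMeasurable (fun p : E × T => G (p.1 + γ p.2)) (μ.prod ν) := h1.prod_swap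
  exact h2.lintegral_prod_right'

theorem lintegral_pc (hγ : Measurable γ) {G : E → ℝ≥0∞} (hG : AEMeasurable G μ) :
    ∫⁻ x, pc ν γ G x ∂μ = ν univ * ∫⁻ x, G x ∂μ := by
  have h1 := aemeasurable_shear (ν := ν) (μ := μ) hγ hG
  have h2 : AEMeasurable (Function.uncurry fun (x : E) (τ : T) => G (x + γ τ)) (μ.prod ν) :=
    h1.prod_swap
  simp only [pc]
  rw [lintegral_lintegral_swap h2]
  have h3 : ∀ τ, ∫⁻ x, G (x + γ τ) ∂μ = ∫⁻ x, G x ∂μ := fun τ =>
    lintegral_add_right_eq_self (μ := μ) G (γ τ)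
  simp_rw [h3]
  rw [lintegral_const, mul_comm]

variable {L : AddSubgroup E} [Countable L] {D : Set E}

theorem aemeasurable_sk (hγ : Measurable γ) {G : E → ℝ≥0∞} (hG : AEMeasurable G μ) :
    AEMeasurable (sk L ν γ G) μ := by
  have h1 : ∀ l : L, AEMeasurable (fun a => pc ν γ G (a + (l:E))) μ := fun l =>
    (aemeasurable_pc (ν := ν) hγ hG).comp_quasiMeasurePreserving
      (measurePreserving_add_right μ (l:E)).quasiMeasurePreserving
  exact AEMeasurable.tsum h1

/-- **average energy of the skeleton** -/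
theorem lintegral_sk (hD : IsAddFundamentalDomain L D μ) (hγ : Measurable γ) {G : E → ℝ≥0∞}
    (hG : AEMeasurable G μ) : ∫⁻ a in D, sk L ν γ G a ∂μ = ν univ * ∫⁻ x, G x ∂μ := by
  have h1 : ∀ l : L, AEMeasurable (fun a => pc ν γ G (a + (l:E))) (μ.restrict D) := fun l =>
    ((aemeasurable_pc (ν := ν) hγ hG).comp_quasiMeasurePreserving
      (measurePreserving_add_right μ (l:E)).quasiMeasurePreserving).restrict
  simp only [sk]
  rw [lintegral_tsum h1, ← lintegral_pc (μ := μ) (ν := ν) hγ hG, hD.lintegral_eq_tsum']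
  rw [← (Equiv.neg L).tsum_eq]
  congr 1
  funext l
  apply lintegral_congr
  intro a
  simp only [Equiv.neg_apply]
  congr 1
  rw [AddSubgroup.vadd_def]
  simp [add_comm]

end

/-- **good translates**: for countably many energies at once, the translates `a ∈ D` which are bad
for one of them have measure at most `∑ w_i μ(D)`. -/
theorem measure_bad {L : AddSubgroup E} [Countable L] {D : Set E}
    (hD : IsAddFundamentalDomain L D μ) (hD1 : μ D ≠ ∞) (hD0 : μ D ≠ 0)
    {T : Type*} [MeasurableSpace T] {ν : Measure T} [SFinite ν] {γ : T → E} (hγ : Measurable γ)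
    {G : E → ℝ≥0∞} (hG : AEMeasurable G μ) {w : ℝ≥0∞} (hw0 : w ≠ 0) (hw1 : w ≠ ∞) :
    μ.restrict D {a | ν univ * ∫⁻ x, G x ∂μ < w * μ D * sk L ν γ G a} ≤ w * μ D := by
  set c : ℝ≥0∞ := ν univ * ∫⁻ x, G x ∂μ with hc
  set θ : ℝ≥0∞ := w * μ D with hθ
  have hθ0 : θ ≠ 0 := mul_ne_zero hw0 hD0
  have hθ1 : θ ≠ ∞ := ENNReal.mul_ne_top hw1 hD1
  have hm : AEMeasurable (sk L ν γ G) (μ.restrict D) :=
    (aemeasurable_sk (L := L) (ν := ν) hγ hG).restrict
  have hI : ∫⁻ a in D, sk L ν γ G a ∂μ = c := lintegral_sk hD hγ hG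
  by_cases hct : c = ∞
  · have : {a | c < θ * sk L ν γ G a} = ∅ := by
      ext a
      simp [hct]
    rw [this]; simp
  by_cases hc0 : c = 0
  · have h1 : sk L ν γ G =ᵐ[μ.restrict D] 0 := (lintegral_eq_zero_iff' hm).1 (hI.trans hc0)
    have h2 : μ.restrict D {a | c < θ * sk L ν γ G a} = 0 := by
      rw [← nonpos_iff_eq_zero]
      calc μ.restrict D {a | c < θ * sk L ν γ G a} ≤ μ.restrict D {a | ¬ sk L ν γ G a = 0} := by
            apply measure_mono
            intro a ha h0
            simp only [mem_ofPred_eq] at ha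
            rw [h0, mul_zero] at ha
            exact absurd ha (not_lt.2 (zero_le))
        _ ≤ 0 := by
            rw [nonpos_iff_eq_zero]
            exact h1
    rw [h2]; exact zero_le
  · have h1 : {a | c < θ * sk L ν γ G a} ⊆ {a | c ≤ θ * sk L ν γ G a} := fun a (ha : c < θ * sk L ν γ G a) => (le_of_lt ha : c ≤ θ * sk L ν γ G a)
    have hm' : AEMeasurable (fun a => θ * sk L ν γ G a) (μ.restrict D) := hm.const_mul θ
    have h2 := mul_meas_ge_le_lintegral₀ hm' c
    rw [lintegral_const_mul'' _ hm, hI] at h2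
    have h3 : c * μ.restrict D {a | c < θ * sk L ν γ G a} ≤ c * θ := by
      calc c * μ.restrict D {a | c < θ * sk L ν γ G a}
          ≤ c * μ.restrict D {a | c ≤ θ * sk L ν γ G a} := by gcongr
        _ ≤ θ * c := h2
        _ = c * θ := mul_comm _ _
    exact (ENNReal.mul_le_mul_iff_right hc0 hct).1 h3

/-- **existence of a good translate** for countably many energies, avoiding a null set. -/
theorem exists_good {ι : Type*} [Countable ι] {L : ι → AddSubgroup E} [∀ i, Countable (L i)]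
    {D : Set E} (hD : ∀ i, IsAddFundamentalDomain (L i) D μ) (hD1 : μ D ≠ ∞) (hD0 : μ D ≠ 0)
    {T : ι → Type*} [∀ i, MeasurableSpace (T i)] {ν : ∀ i, Measure (T i)} [∀ i, SFinite (ν i)]
    {γ : ∀ i, T i → E} (hγ : ∀ i, Measurable (γ i)) {G : ι → E → ℝ≥0∞}
    (hG : ∀ i, AEMeasurable (G i) μ) {w : ι → ℝ≥0∞} (hw0 : ∀ i, w i ≠ 0)
    (hw : ∑' i, w i < 1) {N : Set E} (hN : μ N = 0) :
    ∃ a ∈ D, a ∉ N ∧ ∀ i, w i * μ D * sk (L i) (ν i) (γ i) (G i) a ≤
      ν i univ * ∫⁻ x, G i x ∂μ := by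
  by_contra hcon
  push Not at hcon
  have hwi : ∀ i, w i ≠ ∞ := fun i => (lt_of_le_of_lt (ENNReal.le_tsum i)
    (lt_trans hw ENNReal.one_lt_top)).ne
  set B : ι → Set E := fun i => {a | ν i univ * ∫⁻ x, G i x ∂μ <
    w i * μ D * sk (L i) (ν i) (γ i) (G i) a} with hB
  have hcov : D ⊆ N ∪ ⋃ i, B i := by
    intro a ha
    by_cases haN : a ∈ N
    · exact Or.inl haN
    · obtain ⟨i, hi⟩ := hcon a ha haN
      exact Or.inr (mem_iUnion.2 ⟨i, hi⟩)
  have h1 : μ D ≤ ∑' i, w i * μ D := by
    calc μ D = μ.restrict D D := by rw [Measure.restrict_apply_self]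
      _ ≤ μ.restrict D (N ∪ ⋃ i, B i) := measure_mono hcov
      _ ≤ μ.restrict D N + μ.restrict D (⋃ i, B i) := measure_union_le _ _
      _ ≤ 0 + ∑' i, μ.restrict D (B i) := by
          apply add_le_add
          · exact le_trans (Measure.restrict_apply_le _ _) hN.le
          · exact measure_iUnion_le _
      _ ≤ ∑' i, w i * μ D := by
          rw [zero_add]
          exact ENNReal.tsum_le_tsum fun i => measure_bad (hD i) hD1 hD0 (hγ i) (hG i) (hw0 i) (hwi i)
  rw [ENNReal.tsum_mul_right] at h1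
  have h2 : (∑' i, w i) * μ D < 1 * μ D :=
    ENNReal.mul_lt_mul_left hD0 hD1 hw
  rw [one_mul] at h2
  exact absurd h1 (not_le.2 h2)

end

end Crest.Agent.R96.Grid_392
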