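/-
helper538, row 96, leaf COARSE, part 11: cubical grids of R3: fundamental domain, Tonelli on the
edges of a translated grid.
-/
import Mathlib
import Crest.Agent.R96.Grid1_392

set_option autoImplicit false
set_option linter.unusedSectionVars false

open MeasureTheory Set Filter Metric
open scoped ENNReal NNReal Topology

namespace Crest.Agent.R96.Coarse_538

noncomputable section

abbrev E3 := EuclideanSpace ℝ (Fin 3)

/-- integer vectors as a homomorphism -/
def ihom (t : ℝ) : (Fin 3 → ℤ) →+ E3 where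
  toFun k := t • WithLp.toLp 2 (fun i => (k i : ℝ))
  map_zero' := by ext i; simp
  map_add' k l := by ext i; simp [mul_add]

theorem ihom_apply (t : ℝ) (k : Fin 3 → ℤ) (i : Fin 3) : ihom t k i = t * k i := by
  simp [ihom]

/-- the vertices of the grid of size `t` through `a` -/
def vt (t : ℝ) (a : E3) (k : Fin 3 → ℤ) : E3 := a + ihom t k

theorem vt_apply (t : ℝ) (a : E3) (k : Fin 3 → ℤ) (i : Fin 3) : vt t a k i = a i + t * k i := by
  simp [vt, ihom_apply]

theorem ihom_inj {t : ℝ} (ht : 0 < t) : Function.Injective (ihom t) := by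
  intro k l h
  funext i
  have h1 := congrArg (fun x : E3 => x i) h
  simp only [ihom_apply] at h1
  have h2 := mul_left_cancel₀ ht.ne' h1
  exact_mod_cast h2

/-- the lattice -/
def lat (t : ℝ) : AddSubgroup E3 := (ihom t).range

instance (t : ℝ) : Countable (lat t) := by
  have : Function.Surjective (ihom t).rangeRestrict := (ihom t).rangeRestrict_surjective
  exact this.countable

/-- the fundamental cube -/
def Dt (t : ℝ) : Set E3 := {a | ∀ i, 0 ≤ a i ∧ a i < t}

theorem meas_Dt (t : ℝ) : MeasurableSet (Dt t) := by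
  have : Dt t = ⋂ i : Fin 3, {a : E3 | 0 ≤ a i ∧ a i < t} := by
    ext a; simp [Dt]
  rw [this]
  refine MeasurableSet.iInter fun i => ?_
  have h1 : Measurable (fun a : E3 => a i) := by fun_prop
  exact (measurableSet_Ico (a := (0:ℝ)) (b := t)).preimage h1

theorem isFD {t : ℝ} (ht : 0 < t) : IsAddFundamentalDomain (lat t) (Dt t) (volume : Measure E3) := by
  refine IsAddFundamentalDomain.mk' (meas_Dt t).nullMeasurableSet fun x => ?_
  refine ⟨⟨ihom t (fun i => -⌊x i / t⌋), ⟨_, rfl⟩⟩, ?_, ?_⟩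
  · intro i
    rw [AddSubgroup.vadd_def, vadd_eq_add, PiLp.add_apply, ihom_apply]
    have h1 := Int.floor_le (x i / t)
    have h2 := Int.lt_floor_add_one (x i / t)
    rw [le_div_iff₀ ht] at h1
    rw [div_lt_iff₀ ht] at h2
    push_cast
    constructor <;> nlinarith
  · rintro ⟨_, l, rfl⟩ hl
    apply Subtype.ext
    show ihom t l = _
    congr 1
    funext i
    have h1 := hl i
    rw [AddSubgroup.vadd_def, vadd_eq_add, PiLp.add_apply] at h1
    have h3 : ihom t l i = t * l i := ihom_apply t l i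
    rw [h3] at h1
    have h2 : ⌊x i / t⌋ = -l i := by
      rw [Int.floor_eq_iff]
      push_cast
      rw [le_div_iff₀ ht, div_lt_iff₀ ht]
      constructor <;> nlinarith
    omega

theorem vol_box {I : Fin 3 → Set ℝ} (hI : ∀ i, MeasurableSet (I i)) :
    volume {x : E3 | ∀ i, x i ∈ I i} = ∏ i, volume (I i) := by
  have h1 : {x : E3 | ∀ i, x i ∈ I i} = (@WithLp.ofLp 2 (Fin 3 → ℝ)) ⁻¹' (Set.pi univ I) := by
    ext x; simp
  rw [h1, (PiLp.volume_preserving_ofLp (Fin 3)).measure_preimage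
    (MeasurableSet.univ_pi hI).nullMeasurableSet, volume_pi_pi]

theorem vol_Dt {t : ℝ} (ht : 0 < t) : volume (Dt t) = ENNReal.ofReal (t ^ 3) := by
  have h1 : Dt t = {x : E3 | ∀ i, x i ∈ (fun _ : Fin 3 => Ico (0:ℝ) t) i} := by
    ext a; simp [Dt]
  rw [h1, vol_box fun _ => measurableSet_Ico]
  simp only [Real.volume_Ico, sub_zero, Finset.prod_const, Finset.card_univ, Fintype.card_fin]
  rw [ENNReal.ofReal_pow ht.le]

/-- the unit vectors -/
def ed (i : Fin 3) : E3 := EuclideanSpace.single i 1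

/-- sum over all edges in direction `i` of the grid -/
def ske (t : ℝ) (F : E3 → ℝ≥0∞) (i : Fin 3) (a : E3) : ℝ≥0∞ :=
  ∑' k : Fin 3 → ℤ, ∫⁻ τ in Ioc (0:ℝ) 1, F (vt t a k + τ • (t • ed i))

theorem ske_eq {t : ℝ} (ht : 0 < t) (F : E3 → ℝ≥0∞) (i : Fin 3) (a : E3) :
    ske t F i a = Grid_392.sk (lat t) (volume.restrict (Ioc (0:ℝ) 1))
      (fun τ : ℝ => τ • (t • ed i)) F a := by
  have h1 := (AddMonoidHom.ofInjective (ihom_inj ht)).toEquiv.tsum_eq
    (fun l : (ihom t).range => Grid_392.pc (volume.restrict (Ioc (0:ℝ) 1))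
      (fun τ : ℝ => τ • (t • ed i)) F (a + (l : E3)))
  exact h1

theorem aemeasurable_ske {t : ℝ} (ht : 0 < t) {F : E3 → ℝ≥0∞} (hF : AEMeasurable F volume)
    (i : Fin 3) : AEMeasurable (ske t F i) volume := by
  have h1 := Grid_392.aemeasurable_sk (L := lat t) (ν := volume.restrict (Ioc (0:ℝ) 1))
    (γ := fun τ : ℝ => τ • (t • ed i)) (by fun_prop) hF
  refine h1.congr (Eventually.of_forall fun a => ?_)
  exact (ske_eq ht F i a).symm

/-- **Tonelli on the edges of the translated grid** -/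
theorem lint_ske {t : ℝ} (ht : 0 < t) {F : E3 → ℝ≥0∞} (hF : AEMeasurable F volume)
    (i : Fin 3) : ∫⁻ a in Dt t, ske t F i a = ∫⁻ x, F x := by
  have h1 := Grid_392.lintegral_sk (isFD ht) (ν := volume.restrict (Ioc (0:ℝ) 1))
    (γ := fun τ : ℝ => τ • (t • ed i)) (by fun_prop) hF
  have h2 : (volume.restrict (Ioc (0:ℝ) 1)) univ = 1 := by simp
  rw [h2, one_mul] at h1
  rw [← h1]
  apply lintegral_congr
  intro a
  exact ske_eq ht F i a

/-- Markov -/
theorem ske_markov {t : ℝ} (ht : 0 < t) {F : E3 → ℝ≥0∞} (hF : AEMeasurable F volume)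
    (i : Fin 3) {c : ℝ≥0∞} (hc0 : c ≠ 0) (hc1 : c ≠ ∞) :
    volume (Dt t ∩ {a | c ≤ ske t F i a}) ≤ (∫⁻ x, F x) / c := by
  have h1 := mul_meas_ge_le_lintegral₀ (aemeasurable_ske ht hF i).restrict (μ := volume.restrict (Dt t)) c
  rw [lint_ske ht hF i] at h1
  rw [ENNReal.le_div_iff_mul_le (Or.inl hc0) (Or.inl hc1), mul_comm]
  refine le_trans (le_of_eq ?_) h1
  rw [Measure.restrict_apply₀' (meas_Dt t).nullMeasurableSet, inter_comm]

end

end Crest.Agent.R96.Coarse_538
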