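/-
helper538, row 96, leaf P6-LUSIN, part 1: averaging along rays, almost every ray, `L^1`-differentiability.
-/
import Mathlib

set_option autoImplicit false
set_option linter.unusedSectionVars false

open MeasureTheory Set Filter Metric Module
open scoped ENNReal Topology

namespace Crest.Agent.R96.Lu_538

noncomputable section

variable {E : Type*} [NormedAddCommGroup E] [NormedSpace ℝ E] [FiniteDimensional ℝ E]
  [MeasurableSpace E] [BorelSpace E] {μ : Measure E} [μ.IsAddHaarMeasure]

/-- scaling towards `x` -/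
theorem lintegral_scale {h : E → ℝ≥0∞} (hh : Measurable h) (x : E) {τ R : ℝ} (hτ : 0 < τ) :
    ∫⁻ w in closedBall (0:E) R, h (x + τ • w) ∂μ =
      ENNReal.ofReal (τ ^ finrank ℝ E)⁻¹ * ∫⁻ u in closedBall x (τ * R), h u ∂μ := by
  have hT : Measurable (fun w : E => x + τ • w) := by fun_prop
  have hmap : Measure.map (fun w : E => x + τ • w) μ = ENNReal.ofReal (τ ^ finrank ℝ E)⁻¹ • μ := by
    have h1 : (fun w : E => x + τ • w) = (fun w => x + w) ∘ (fun w => τ • w) := rfl
    rw [h1, ← Measure.map_map (measurable_const_add x) (measurable_const_smul τ),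
      Measure.map_addHaar_smul μ hτ.ne', Measure.map_smul, map_add_left_eq_self,
      abs_of_pos (by positivity)]
  have hpre : (fun w : E => x + τ • w) ⁻¹' closedBall x (τ * R) = closedBall (0:E) R := by
    ext w
    simp only [mem_preimage, mem_closedBall, dist_eq_norm, add_sub_cancel_left, sub_zero, norm_smul,
      Real.norm_eq_abs, abs_of_pos hτ]
    exact mul_le_mul_iff_right₀ hτ
  rw [← hpre, ← setLIntegral_map measurableSet_closedBall hh hT, hmap, Measure.restrict_smul,
    lintegral_smul_measure, smul_eq_mul]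

/-- the mean over the ball of the mean along the ray is bounded by the maximal function -/
theorem avg_le {h : E → ℝ≥0∞} (hh : Measurable h) {x : E} {R : ℝ} (hR : 0 < R) {δ : ℝ≥0∞}
    (H : ∀ ρ, 0 < ρ → ρ ≤ R → ∫⁻ u in closedBall x ρ, h u ∂μ ≤ δ * μ (closedBall (0:E) ρ)) :
    ∫⁻ w in closedBall (0:E) R, (∫⁻ τ in Ioc (0:ℝ) 1, h (x + τ • w)) ∂μ ≤
      δ * μ (closedBall (0:E) R) := by
  have hm : Measurable (fun p : E × ℝ => h (x + p.2 • p.1)) := by
    apply hh.comp
    fun_prop
  rw [lintegral_lintegral_swap (f := fun w τ => h (x + τ • w)) hm.aemeasurable]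
  calc ∫⁻ τ in Ioc (0:ℝ) 1, (∫⁻ w in closedBall (0:E) R, h (x + τ • w) ∂μ)
      ≤ ∫⁻ _ in Ioc (0:ℝ) 1, δ * μ (closedBall (0:E) R) := by
        apply setLIntegral_mono' measurableSet_Ioc
        intro τ hτ
        rw [lintegral_scale hh x hτ.1]
        have h1 : τ * R ≤ R := by nlinarith [hτ.2]
        have h2 := H (τ * R) (mul_pos hτ.1 hR) h1
        rw [Measure.addHaar_closedBall_mul_of_pos μ (0:E) hτ.1 R] at h2
        have hpos : 0 < τ ^ finrank ℝ E := pow_pos hτ.1 _
        calc ENNReal.ofReal (τ ^ finrank ℝ E)⁻¹ * ∫⁻ u in closedBall x (τ * R), h u ∂μ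
            ≤ ENNReal.ofReal (τ ^ finrank ℝ E)⁻¹ *
              (δ * (ENNReal.ofReal (τ ^ finrank ℝ E) * μ (closedBall (0:E) R))) := by gcongr
          _ = (ENNReal.ofReal (τ ^ finrank ℝ E)⁻¹ * ENNReal.ofReal (τ ^ finrank ℝ E)) *
              (δ * μ (closedBall (0:E) R)) := by ring
          _ = δ * μ (closedBall (0:E) R) := by
              rw [← ENNReal.ofReal_mul (by positivity), inv_mul_cancel₀ hpos.ne', ENNReal.ofReal_one,
                one_mul]
    _ = δ * μ (closedBall (0:E) R) := by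
        rw [setLIntegral_const, Real.volume_Ioc]
        simp

variable {F : Type*} [NormedAddCommGroup F] [NormedSpace ℝ F] [FiniteDimensional ℝ F]
  [MeasurableSpace F] [BorelSpace F]

/-- the ray formula holds at `x` for almost every `w` -/
def Good (μ : Measure E) (f : E → F) (G : E → E →L[ℝ] F) (B : Set E) (x : E) : Prop :=
  ∀ᵐ w ∂μ, x ∈ B → x + w ∈ B → f (x + w) - f x = ∫ τ in (0:ℝ)..1, G (x + τ • w) w

/-- almost every point is good -/
theorem ae_good {f : E → F} {G : E → E →L[ℝ] F} {B : Set E} (hB : IsOpen B) 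
    (hf : ContinuousOn f B) (hG : StronglyMeasurable G)
    (H : ∀ w : E, ∀ᵐ x ∂μ, x ∈ B → x + w ∈ B →
      f (x + w) - f x = ∫ τ in (0:ℝ)..1, G (x + τ • w) w) :
    ∀ᵐ x ∂μ, Good μ f G B x := by
  classical
  have hf1 : Measurable (B.indicator f) := by
    have h1 := ContinuousOn.measurable_piecewise (s := B) (f := f) (g := fun _ => (0:F)) hf
      continuousOn_const hB.measurableSet
    exact h1
  set L : E × E → F := fun p => B.indicator f (p.2 + p.1) - B.indicator f p.2 with hL
  set Rr : E × E → F := fun p => ∫ τ in (0:ℝ)..1, G (p.2 + τ • p.1) p.1 with hRr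
  have hLm : StronglyMeasurable L := by
    have h1 : Measurable (fun p : E × E => B.indicator f (p.2 + p.1)) :=
      hf1.comp (measurable_snd.add measurable_fst)
    have h2 : Measurable (fun p : E × E => B.indicator f p.2) := hf1.comp measurable_snd
    exact (h1.stronglyMeasurable).sub (h2.stronglyMeasurable)
  have hRm : StronglyMeasurable Rr := by
    have h1 : StronglyMeasurable (fun q : (E × E) × ℝ => G (q.1.2 + q.2 • q.1.1)) :=
      hG.comp_measurable (by fun_prop)
    have h2 : StronglyMeasurable (fun q : (E × E) × ℝ => q.1.1) :=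
      (measurable_fst.comp measurable_fst).stronglyMeasurable
    have h3 : StronglyMeasurable (fun q : (E × E) × ℝ => G (q.1.2 + q.2 • q.1.1) q.1.1) := by
      have hc : Continuous (fun z : (E →L[ℝ] F) × E => z.1 z.2) :=
        isBoundedBilinearMap_apply.continuous
      exact hc.comp_stronglyMeasurable (h1.prodMk h2)
    have h4 : StronglyMeasurable (fun p : E × E =>
        ∫ τ in Ioc (0:ℝ) 1, G (p.2 + τ • p.1) p.1) :=
      StronglyMeasurable.integral_prod_right (ν := volume.restrict (Ioc (0:ℝ) 1)) h3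
    convert h4 using 2 with p
    simp only [hRr]
    rw [intervalIntegral.integral_of_le zero_le_one]
  set P : Set (E × E) := {p | p.2 ∈ B ∧ p.2 + p.1 ∈ B ∧ L p ≠ Rr p} with hP
  have hPm : MeasurableSet P := by
    have h1 : MeasurableSet {p : E × E | p.2 ∈ B} := measurable_snd hB.measurableSet
    have h2 : MeasurableSet {p : E × E | p.2 + p.1 ∈ B} :=
      (measurable_snd.add measurable_fst) hB.measurableSet
    have h3 : MeasurableSet {p : E × E | L p = Rr p} := hLm.measurableSet_eq_fun hRm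
    exact h1.inter (h2.inter h3.compl)
  -- for every `w`, a.e. `x`
  have h0 : ∀ w : E, ∀ᵐ x ∂μ, (w, x) ∉ P := by
    intro w
    filter_upwards [H w] with x hx
    rintro ⟨h1, h2, h3⟩
    apply h3
    simp only [hL, hRr, indicator_of_mem h1, indicator_of_mem h2]
    exact hx h1 h2
  have h1 : ∀ᵐ p ∂(μ.prod μ), p ∉ P := by
    rw [Measure.ae_prod_iff_ae_ae hPm.compl]
    exact Eventually.of_forall h0
  have h2 : ∀ᵐ p ∂(μ.prod μ), (p.2, p.1) ∉ P := by
    exact (Measure.measurePreserving_swap (μ := μ) (ν := μ)).quasiMeasurePreserving.ae h1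
  have h3 := Measure.ae_ae_of_ae_prod h2
  filter_upwards [h3] with x hx
  filter_upwards [hx] with w hw
  intro hxB hxwB
  by_contra hne
  apply hw
  refine ⟨hxB, hxwB, ?_⟩
  simp only [hL, hRr, indicator_of_mem hxB, indicator_of_mem hxwB]
  exact hne

/-- the pointwise estimate along a good ray -/
theorem enorm_ray_le {f : E → F} {G : E → E →L[ℝ] F} {x w : E} (hG : StronglyMeasurable G)
    (h : f (x + w) - f x = ∫ τ in (0:ℝ)..1, G (x + τ • w) w) (A : E →L[ℝ] F) :
    ‖f (x + w) - f x - A w‖ₑ ≤ ‖w‖ₑ * ∫⁻ τ in Ioc (0:ℝ) 1, ‖G (x + τ • w) - A‖ₑ := by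
  have hGm : StronglyMeasurable (fun τ : ℝ => G (x + τ • w)) :=
    hG.comp_measurable (by fun_prop)
  have hGw : StronglyMeasurable (fun τ : ℝ => G (x + τ • w) w) := by
    have hc : Continuous (fun z : (E →L[ℝ] F) => z w) := (ContinuousLinearMap.apply ℝ F w).continuous
    exact hc.comp_stronglyMeasurable hGm
  have hDw : StronglyMeasurable (fun τ : ℝ => (G (x + τ • w) - A) w) := by
    exact hGw.sub (stronglyMeasurable_const (b := A w))
  have hb : ∫⁻ τ in Ioc (0:ℝ) 1, ‖(G (x + τ • w) - A) w‖ₑ ≤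
      ‖w‖ₑ * ∫⁻ τ in Ioc (0:ℝ) 1, ‖G (x + τ • w) - A‖ₑ := by
    rw [← lintegral_const_mul']
    · apply lintegral_mono
      intro τ
      have h1 := (G (x + τ • w) - A).le_opENorm w
      calc ‖(G (x + τ • w) - A) w‖ₑ ≤ ‖G (x + τ • w) - A‖ₑ * ‖w‖ₑ := h1
        _ = ‖w‖ₑ * ‖G (x + τ • w) - A‖ₑ := mul_comm _ _
    · exact enorm_ne_top
  refine le_trans ?_ hb
  by_cases htop : ∫⁻ τ in Ioc (0:ℝ) 1, ‖(G (x + τ • w) - A) w‖ₑ = ∞
  · rw [htop]; exact le_top
  have hint : IntegrableOn (fun τ : ℝ => (G (x + τ • w) - A) w) (Ioc (0:ℝ) 1) :=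
    ⟨hDw.aestronglyMeasurable, lt_top_iff_ne_top.2 htop⟩
  have hc : IntegrableOn (fun _ : ℝ => A w) (Ioc (0:ℝ) 1) := by
    apply integrableOn_const
    · simp
    · simp
  have hsum : ∫ τ in (0:ℝ)..1, G (x + τ • w) w =
      (∫ τ in (0:ℝ)..1, (G (x + τ • w) - A) w) + A w := by
    rw [intervalIntegral.integral_of_le zero_le_one, intervalIntegral.integral_of_le zero_le_one]
    have h1 : ∫ _ in Ioc (0:ℝ) 1, A w = A w := by simp
    rw [← h1, ← integral_add hint hc]
    apply integral_congr_ae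
    filter_upwards with τ
    simp
  rw [h, hsum, add_sub_cancel_right, intervalIntegral.integral_of_le zero_le_one]
  exact enorm_integral_le_lintegral_enorm _

/-- `L^1` estimate on a ball around a good point -/
theorem ball_est {f : E → F} {G : E → E →L[ℝ] F} {B : Set E} {x : E} {R : ℝ}
    (hG : StronglyMeasurable G) (hx : Good μ f G B x) (hR : 0 < R) (hb : closedBall x R ⊆ B)
    (A : E →L[ℝ] F) {δ : ℝ≥0∞}
    (H : ∀ ρ, 0 < ρ → ρ ≤ R →
      ∫⁻ u in closedBall x ρ, ‖G u - A‖ₑ ∂μ ≤ δ * μ (closedBall (0:E) ρ)) :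
    ∫⁻ u in closedBall x R, ‖f u - f x - A (u - x)‖ₑ ∂μ ≤
      ENNReal.ofReal R * (δ * μ (closedBall (0:E) R)) := by
  have hm : Measurable (fun u => ‖G u - A‖ₑ) :=
    (hG.sub stronglyMeasurable_const).enorm
  have h1 := avg_le hm hR H
  have h2 : ∫⁻ u in closedBall x R, ‖f u - f x - A (u - x)‖ₑ ∂μ =
      ∫⁻ w in closedBall (0:E) R, ‖f (x + w) - f x - A w‖ₑ ∂μ := by
    have hmp : MeasurePreserving (fun w : E => x + w) μ μ := measurePreserving_add_left μ x
    have hemb : MeasurableEmbedding (fun w : E => x + w) := measurableEmbedding_addLeft x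
    have hpre : (fun w : E => x + w) ⁻¹' closedBall x R = closedBall (0:E) R := by
      ext w
      simp [mem_closedBall, dist_eq_norm]
    rw [← hpre, ← hmp.setLIntegral_comp_preimage_emb hemb
      (fun u => ‖f u - f x - A (u - x)‖ₑ) (closedBall x R)]
    simp
  rw [h2]
  have hxB : x ∈ B := hb (mem_closedBall_self hR.le)
  calc ∫⁻ w in closedBall (0:E) R, ‖f (x + w) - f x - A w‖ₑ ∂μ
      ≤ ∫⁻ w in closedBall (0:E) R, ENNReal.ofReal R *
          (∫⁻ τ in Ioc (0:ℝ) 1, ‖G (x + τ • w) - A‖ₑ) ∂μ := by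
        apply setLIntegral_mono_ae'  measurableSet_closedBall
        filter_upwards [hx] with w hw hwR
        have hwn : ‖w‖ ≤ R := by simpa using hwR
        have hwB : x + w ∈ B := hb (by simpa [mem_closedBall, dist_eq_norm] using hwn)
        refine (enorm_ray_le hG (hw hxB hwB) A).trans ?_
        gcongr
        rw [← ofReal_norm]
        exact ENNReal.ofReal_le_ofReal hwn
    _ = ENNReal.ofReal R * ∫⁻ w in closedBall (0:E) R,
          (∫⁻ τ in Ioc (0:ℝ) 1, ‖G (x + τ • w) - A‖ₑ) ∂μ := by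
        rw [lintegral_const_mul' _ _ ENNReal.ofReal_ne_top]
    _ ≤ _ := by gcongr

end

end Crest.Agent.R96.Lu_538
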