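/-
helper538, row 96, leaf P6-LUSIN, part 2: Lipschitz estimate and derivative within a set.
-/
import Mathlib
import Crest.Agent.R96.Lu1_538

set_option autoImplicit false
set_option linter.unusedSectionVars false

open MeasureTheory Set Filter Metric Module
open scoped ENNReal NNReal Topology

namespace Crest.Agent.R96.Lu_538

noncomputable section

variable {E : Type*} [NormedAddCommGroup E] [NormedSpace ℝ E] [FiniteDimensional ℝ E]
  [MeasurableSpace E] [BorelSpace E] {μ : Measure E} [μ.IsAddHaarMeasure]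
variable {F : Type*} [NormedAddCommGroup F] [NormedSpace ℝ F] [FiniteDimensional ℝ F]
  [MeasurableSpace F] [BorelSpace F]

theorem mu_two_mul (r : ℝ) : μ (closedBall (0:E) (2 * r)) =
    ENNReal.ofReal (2 ^ finrank ℝ E) * μ (closedBall (0:E) r) :=
  Measure.addHaar_closedBall_mul_of_pos μ (0:E) (by norm_num : (0:ℝ) < 2) r

theorem mu_center (x : E) (r : ℝ) : μ (closedBall x r) = μ (closedBall (0:E) r) :=
  Measure.addHaar_closedBall_center μ x r

theorem mu_pos {r : ℝ} (hr : 0 < r) (x : E) : μ (closedBall x r) ≠ 0 :=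
  (measure_closedBall_pos μ x hr).ne'

theorem mu_fin (x : E) (r : ℝ) : μ (closedBall x r) ≠ ∞ := measure_closedBall_lt_top.ne

/-- the Lipschitz estimate for two good points with bounded maximal function -/
theorem lip_est {f : E → F} {G : E → E →L[ℝ] F} {B : Set E}
    (hf : ContinuousOn f B)
    (hG : StronglyMeasurable G) {x y : E} {R : ℝ} {K : ℝ}
    (hx : Good μ f G B x) (hy : Good μ f G B y) (hbx : closedBall x R ⊆ B)
    (hby : closedBall y R ⊆ B) (hxy : 2 * dist x y ≤ R)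
    (Hx : ∀ ρ, 0 < ρ → ρ ≤ R →
      ∫⁻ u in closedBall x ρ, ‖G u‖ₑ ∂μ ≤ ENNReal.ofReal K * μ (closedBall (0:E) ρ))
    (Hy : ∀ ρ, 0 < ρ → ρ ≤ R →
      ∫⁻ u in closedBall y ρ, ‖G u‖ₑ ∂μ ≤ ENNReal.ofReal K * μ (closedBall (0:E) ρ)) :
    ‖f x - f y‖ₑ ≤ ENNReal.ofReal (4 * 2 ^ finrank ℝ E * K * dist x y) := by
  rcases eq_or_ne x y with rfl | hne
  · simp
  set r := dist x y with hr
  have hr0 : 0 < r := dist_pos.2 hne
  set m : E := midpoint ℝ x y with hm
  have hmx : dist m x = r / 2 := by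
    rw [hm, dist_midpoint_left]
    simp [hr]; ring
  have hmy : dist m y = r / 2 := by
    rw [hm, dist_midpoint_right]
    simp [hr]; ring
  have hsx : closedBall m r ⊆ closedBall x (2 * r) := by
    apply closedBall_subset_closedBall'
    rw [hmx]; linarith
  have hsy : closedBall m r ⊆ closedBall y (2 * r) := by
    apply closedBall_subset_closedBall'
    rw [hmy]; linarith
  have hR2 : (0:ℝ) < 2 * r := by linarith
  have ex := ball_est (μ := μ) (F := F) hG hx hR2 ((closedBall_subset_closedBall hxy).trans hbx) 0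
    (δ := ENNReal.ofReal K) (fun ρ h1 h2 => by simpa using Hx ρ h1 (h2.trans hxy))
  have ey := ball_est (μ := μ) (F := F) hG hy hR2 ((closedBall_subset_closedBall hxy).trans hby) 0
    (δ := ENNReal.ofReal K) (fun ρ h1 h2 => by simpa using Hy ρ h1 (h2.trans hxy))
  simp only [zero_apply, sub_zero] at ex ey
  have hmB : closedBall m r ⊆ B := hsx.trans ((closedBall_subset_closedBall hxy).trans hbx)
  have hfm : AEMeasurable f (μ.restrict (closedBall m r)) :=
    (hf.mono hmB).aemeasurable measurableSet_closedBall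
  have hmeas : AEMeasurable (fun u => ‖f u - f x‖ₑ) (μ.restrict (closedBall m r)) :=
    (hfm.sub_const _).enorm
  have key : ‖f x - f y‖ₑ * μ (closedBall m r) ≤
      2 * (ENNReal.ofReal (2 * r) * (ENNReal.ofReal K * μ (closedBall (0:E) (2 * r)))) := by
    calc ‖f x - f y‖ₑ * μ (closedBall m r) = ∫⁻ _ in closedBall m r, ‖f x - f y‖ₑ ∂μ := by
          rw [setLIntegral_const]
      _ ≤ ∫⁻ u in closedBall m r, (‖f u - f x‖ₑ + ‖f u - f y‖ₑ) ∂μ := by
          apply lintegral_mono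
          intro u
          have h1 : f x - f y = (f u - f y) - (f u - f x) := by abel
          calc ‖f x - f y‖ₑ = ‖(f u - f y) - (f u - f x)‖ₑ := by rw [h1]
            _ ≤ ‖f u - f y‖ₑ + ‖f u - f x‖ₑ := enorm_sub_le
            _ = _ := add_comm _ _
      _ = (∫⁻ u in closedBall m r, ‖f u - f x‖ₑ ∂μ) + ∫⁻ u in closedBall m r, ‖f u - f y‖ₑ ∂μ :=
          lintegral_add_left' hmeas _
      _ ≤ (∫⁻ u in closedBall x (2 * r), ‖f u - f x‖ₑ ∂μ) +
            ∫⁻ u in closedBall y (2 * r), ‖f u - f y‖ₑ ∂μ := by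
          gcongr
      _ ≤ _ := by
          rw [two_mul (ENNReal.ofReal (2 * r) * _)]
          exact add_le_add ex ey
  rw [mu_two_mul, mu_center m] at key
  have h0 := mu_pos (μ := μ) hr0 (0:E)
  have hfin := mu_fin (μ := μ) (0:E) r
  have hK : ENNReal.ofReal (4 * 2 ^ finrank ℝ E * K * r) =
      2 * (ENNReal.ofReal (2 * r) * (ENNReal.ofReal K * ENNReal.ofReal (2 ^ finrank ℝ E))) := by
    rcases le_or_gt 0 K with hK | hK
    · rw [← ENNReal.ofReal_mul hK, ← ENNReal.ofReal_mul (by positivity),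
        show (2:ℝ≥0∞) = ENNReal.ofReal 2 by simp, ← ENNReal.ofReal_mul (by norm_num)]
      congr 1
      ring
    · rw [ENNReal.ofReal_of_nonpos hK.le, ENNReal.ofReal_of_nonpos]
      · simp
      · have : (0:ℝ) < 4 * 2 ^ finrank ℝ E * r := by positivity
        nlinarith
  rw [hK]
  have key2 : ‖f x - f y‖ₑ * μ (closedBall (0:E) r) ≤
      (2 * (ENNReal.ofReal (2 * r) * (ENNReal.ofReal K * ENNReal.ofReal (2 ^ finrank ℝ E)))) *
        μ (closedBall (0:E) r) := by
    refine key.trans (le_of_eq ?_)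
    ring
  exact (ENNReal.mul_le_mul_iff_left h0 hfin).1 key2

/-- from averages to `lintegral` -/
theorem leb_lintegral {G : E → E →L[ℝ] F} (hG : LocallyIntegrable G μ) {x : E}
    (h : Tendsto (fun ρ : ℝ => ⨍ y in closedBall x ρ, ‖G y - G x‖ ∂μ) (𝓝[>] 0) (𝓝 0))
    {ε : ℝ} (hε : 0 < ε) :
    ∃ R > 0, ∀ ρ, 0 < ρ → ρ ≤ R →
      ∫⁻ u in closedBall x ρ, ‖G u - G x‖ₑ ∂μ ≤ ENNReal.ofReal ε * μ (closedBall (0:E) ρ) := by
  have h1 : ∀ᶠ ρ in 𝓝[>] (0:ℝ), (⨍ y in closedBall x ρ, ‖G y - G x‖ ∂μ) < ε :=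
    h.eventually (eventually_lt_nhds hε)
  obtain ⟨R, hR, hR2⟩ := mem_nhdsGT_iff_exists_Ioc_subset.1 h1
  refine ⟨R, hR, fun ρ h0 hρ => ?_⟩
  have h2 : (⨍ y in closedBall x ρ, ‖G y - G x‖ ∂μ) < ε := hR2 ⟨h0, hρ⟩
  rw [setAverage_eq, smul_eq_mul] at h2
  have hpos : 0 < μ.real (closedBall x ρ) := by
    rw [measureReal_def]
    exact ENNReal.toReal_pos (mu_pos h0 x) (mu_fin x ρ)
  have hint : IntegrableOn (fun y => G y - G x) (closedBall x ρ) μ := by
    apply Integrable.sub
    · exact (hG.integrableOn_isCompact (isCompact_closedBall x ρ))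
    · exact integrableOn_const (mu_fin x ρ)
  have h3 : ∫ y in closedBall x ρ, ‖G y - G x‖ ∂μ ≤ ε * μ.real (closedBall x ρ) := by
    have := mul_lt_mul_of_pos_left h2 hpos
    rw [← mul_assoc, mul_inv_cancel₀ hpos.ne', one_mul] at this
    linarith
  rw [← ofReal_integral_norm_eq_lintegral_enorm hint, ← mu_center x]
  refine (ENNReal.ofReal_le_ofReal h3).trans (le_of_eq ?_)
  rw [ENNReal.ofReal_mul hε.le, ofReal_measureReal (mu_fin x ρ)]

/-- off-centre density at `x` -/
def Dens (μ : Measure E) (A : Set E) (x : E) : Prop :=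
  ∀ K : ℕ, Tendsto (fun y => μ (A ∩ closedBall y (‖y - x‖ / (K + 1))) /
    μ (closedBall y (‖y - x‖ / (K + 1)))) (𝓝[≠] x) (𝓝 1)

theorem ae_dens (A : Set E) : ∀ᵐ x ∂(μ.restrict A), Dens μ A x := by
  unfold Dens
  rw [ae_all_iff]
  intro K
  filter_upwards [IsUnifLocDoublingMeasure.ae_tendsto_measure_inter_div μ A ((K:ℝ) + 1)] with x hx
  apply hx (fun y => y) (fun y => ‖y - x‖ / (K + 1))
  · rw [tendsto_nhdsWithin_iff]
    constructor
    · have h1 : Tendsto (fun y : E => ‖y - x‖ / ((K:ℝ) + 1)) (𝓝 x) (𝓝 (‖x - x‖ / ((K:ℝ) + 1))) := by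
        apply Continuous.tendsto
        fun_prop
      rw [sub_self, norm_zero, zero_div] at h1
      exact h1.mono_left nhdsWithin_le_nhds
    · filter_upwards [self_mem_nhdsWithin] with y hy
      have : y ≠ x := hy
      have h2 : 0 < ‖y - x‖ := norm_pos_iff.2 (sub_ne_zero.2 this)
      exact div_pos h2 (by positivity)
  · filter_upwards with y
    rw [mem_closedBall, mul_div_cancel₀ _ (by positivity : ((K:ℝ) + 1) ≠ 0), dist_comm,
      dist_eq_norm]

/-- derivative within `A` at a good, Lebesgue, density point -/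
theorem hasFDerivWithinAt_of {f : E → F} {G : E → E →L[ℝ] F} {B A : Set E} (hA : MeasurableSet A)
    (hG : StronglyMeasurable G) {x : E} (hx : Good μ f G B x) (hBx : B ∈ 𝓝 x)
    (hL : ∀ ε > 0, ∃ R > 0, ∀ ρ, 0 < ρ → ρ ≤ R →
      ∫⁻ u in closedBall x ρ, ‖G u - G x‖ₑ ∂μ ≤ ENNReal.ofReal ε * μ (closedBall (0:E) ρ))
    (hD : Dens μ A x) {L r0 : ℝ} (hL0 : 0 ≤ L) (hr0 : 0 < r0)
    (hLip : ∀ u ∈ A, ∀ y ∈ A, dist u y ≤ r0 → ‖f u - f y‖ ≤ L * dist u y) :
    HasFDerivWithinAt f (G x) A x := by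
  rw [hasFDerivWithinAt_iff_isLittleO]
  rw [Asymptotics.isLittleO_iff]
  intro c hc
  set n := finrank ℝ E with hn
  -- choice of η
  obtain ⟨K, hK⟩ := exists_nat_gt ((L + ‖G x‖) * 2 / c)
  set η : ℝ := 1 / ((K:ℝ) + 1) with hη
  have hη0 : 0 < η := by positivity
  have hη1 : η ≤ 1 := by
    rw [hη, div_le_one (by positivity)]
    have : (0:ℝ) ≤ K := Nat.cast_nonneg K
    linarith
  have hηc : (L + ‖G x‖) * η ≤ c / 2 := by
    have h1 : (L + ‖G x‖) * 2 < c * (K + 1) := by
      rw [div_lt_iff₀ hc] at hK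
      nlinarith
    rw [hη, mul_one_div, div_le_iff₀ (by positivity)]
    linarith
  set κ : ℝ := c * (η / 2) ^ n / 16 with hκ
  have hκ0 : 0 < κ := by positivity
  obtain ⟨R, hR, hRL⟩ := hL κ hκ0
  obtain ⟨R', hR', hR'B⟩ := Metric.nhds_basis_closedBall.mem_iff.1 hBx
  have hdens := hD K
  have hev : ∀ᶠ y in 𝓝[≠] x, (1/2 : ℝ≥0∞) ≤ μ (A ∩ closedBall y (‖y - x‖ / (K + 1))) /
      μ (closedBall y (‖y - x‖ / (K + 1))) := by
    have : (1/2 : ℝ≥0∞) < 1 := by
      simp
    filter_upwards [hdens.eventually (eventually_gt_nhds this)] with y hy using hy.le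
  have hsmall : ∀ᶠ y in 𝓝 x, 2 * ‖y - x‖ < min (min R R') r0 := by
    have h1 : Tendsto (fun y : E => 2 * ‖y - x‖) (𝓝 x) (𝓝 (2 * ‖x - x‖)) := by
      apply Continuous.tendsto
      fun_prop
    rw [sub_self, norm_zero, mul_zero] at h1
    exact h1.eventually (eventually_lt_nhds (by positivity))
  rw [eventually_nhdsWithin_iff] at hev
  rw [eventually_nhdsWithin_iff]
  filter_upwards [hev, hsmall] with y hy1 hy2 hyA
  rcases eq_or_ne y x with rfl | hne
  · simp
  have hden := hy1 hne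
  set r := ‖y - x‖ with hr
  have hr0' : 0 < r := norm_pos_iff.2 (sub_ne_zero.2 hne)
  have h2R : 2 * r ≤ R := (hy2.le.trans (min_le_left _ _)).trans (min_le_left _ _)
  have h2R' : 2 * r ≤ R' := (hy2.le.trans (min_le_left _ _)).trans (min_le_right _ _)
  have h2r0 : 2 * r ≤ r0 := hy2.le.trans (min_le_right _ _)
  by_contra hcon
  rw [not_le] at hcon
  have e1 := ball_est (μ := μ) hG hx (by linarith : (0:ℝ) < 2 * r)
    ((closedBall_subset_closedBall h2R').trans hR'B) (G x) (δ := ENNReal.ofReal κ)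
    (fun ρ h1 h2 => hRL ρ h1 (h2.trans h2R))
  have hηr : r / ((K:ℝ) + 1) = η * r := by rw [hη]; ring
  rw [hηr] at hden
  set S : Set E := A ∩ closedBall y (η * r) with hS
  have hSm : MeasurableSet S := hA.inter measurableSet_closedBall
  have hSsub : S ⊆ closedBall x (2 * r) := by
    rintro u ⟨-, hu⟩
    rw [mem_closedBall] at hu ⊢
    have h3 : dist y x = r := by rw [dist_eq_norm]
    calc dist u x ≤ dist u y + dist y x := dist_triangle _ _ _
      _ ≤ η * r + r := by rw [h3]; linarith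
      _ ≤ 2 * r := by nlinarith
  have e2 : ENNReal.ofReal (c * r / 2) * μ S ≤
      ∫⁻ u in closedBall x (2 * r), ‖f u - f x - G x (u - x)‖ₑ ∂μ := by
    calc ENNReal.ofReal (c * r / 2) * μ S = ∫⁻ _ in S, ENNReal.ofReal (c * r / 2) ∂μ := by
          rw [setLIntegral_const]
      _ ≤ ∫⁻ u in S, ‖f u - f x - G x (u - x)‖ₑ ∂μ := by
          apply setLIntegral_mono' hSm
          intro u hu
          rw [← ofReal_norm]
          apply ENNReal.ofReal_le_ofReal
          have hud : dist u y ≤ η * r := hu.2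
          have hud0 : dist u y ≤ r0 := by nlinarith
          have l1 := hLip u hu.1 y hyA hud0
          have l2 : ‖G x (u - y)‖ ≤ ‖G x‖ * (η * r) := by
            refine (ContinuousLinearMap.le_opNorm _ _).trans ?_
            rw [← dist_eq_norm]
            gcongr
          have l3 : f y - f x - G x (y - x) =
              (f u - f x - G x (u - x)) - (f u - f y) + G x (u - y) := by
            have : u - x = (u - y) + (y - x) := by abel
            rw [this, map_add]
            abel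
          have l4 : ‖f y - f x - G x (y - x)‖ ≤
              ‖f u - f x - G x (u - x)‖ + ‖f u - f y‖ + ‖G x (u - y)‖ := by
            rw [l3]
            exact (norm_add_le _ _).trans (by gcongr; exact norm_sub_le _ _)
          have l5 : L * dist u y ≤ L * (η * r) := by gcongr
          have l6 : (L + ‖G x‖) * η * r ≤ c / 2 * r := by gcongr
          nlinarith
      _ ≤ _ := lintegral_mono_set hSsub
  have hmy : μ (closedBall y (η * r)) = ENNReal.ofReal ((η / 2) ^ n) * μ (closedBall (0:E) (2 * r)) := by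
    have h3 : η * r = (η / 2) * (2 * r) := by ring
    rw [mu_center, h3, Measure.addHaar_closedBall_mul_of_pos μ (0:E) (by positivity) (2 * r)]
  have hSlow : (1/2 : ℝ≥0∞) * (ENNReal.ofReal ((η / 2) ^ n) * μ (closedBall (0:E) (2 * r))) ≤ μ S := by
    rw [← hmy]
    have h4 := mu_pos (μ := μ) (mul_pos hη0 hr0') y
    have h5 := mu_fin (μ := μ) y (η * r)
    exact (ENNReal.le_div_iff_mul_le (Or.inl h4) (Or.inl h5)).1 hden
  set V := μ (closedBall (0:E) (2 * r)) with hV
  have hV0 : V ≠ 0 := mu_pos (by linarith) 0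
  have hVf : V ≠ ∞ := mu_fin 0 _
  have e3 : ENNReal.ofReal (c * r / 2) * ((1/2 : ℝ≥0∞) * (ENNReal.ofReal ((η / 2) ^ n) * V)) ≤
      ENNReal.ofReal (2 * r) * (ENNReal.ofReal κ * V) :=
    (mul_le_mul_right hSlow _).trans (e2.trans e1)
  have e4 : ENNReal.ofReal (c * r / 2 * (1/2 * (η / 2) ^ n)) * V ≤
      ENNReal.ofReal (2 * r * κ) * V := by
    have h5 : (1/2 : ℝ≥0∞) = ENNReal.ofReal (1/2) := by
      rw [ENNReal.ofReal_div_of_pos (by norm_num)]; simp
    rw [h5] at e3
    calc ENNReal.ofReal (c * r / 2 * (1/2 * (η / 2) ^ n)) * V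
        = ENNReal.ofReal (c * r / 2) * (ENNReal.ofReal (1/2) * (ENNReal.ofReal ((η / 2) ^ n) * V)) := by
          rw [ENNReal.ofReal_mul (by positivity), ENNReal.ofReal_mul (by positivity)]
          ring
      _ ≤ _ := e3
      _ = _ := by
          rw [ENNReal.ofReal_mul (show (0:ℝ) ≤ 2 * r by positivity)]
          ring
  have e5 := (ENNReal.mul_le_mul_iff_left hV0 hVf).1 e4
  rw [ENNReal.ofReal_le_ofReal_iff (by positivity)] at e5
  have h6 : 0 < (η / 2) ^ n := by positivity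
  rw [hκ] at e5
  have h7 : 0 < c * r * (η / 2) ^ n := by positivity
  nlinarith

end

end Crest.Agent.R96.Lu_538
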