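/-
helper538, row 96, leaf P6-LUSIN, part 3: decomposition into Lipschitz/differentiability pieces.
-/
import Mathlib
import Crest.Agent.R96.Lu2_538

set_option autoImplicit false
set_option linter.unusedSectionVars false

open MeasureTheory Set Filter Metric Module
open scoped ENNReal NNReal Topology

namespace Crest.Agent.R96.Lu_538

noncomputable section

variable {E : Type*} [NormedAddCommGroup E] [NormedSpace ℝ E] [FiniteDimensional ℝ E]
  [MeasurableSpace E] [BorelSpace E] {μ : Measure E} [μ.IsAddHaarMeasure]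
variable {F : Type*} [NormedAddCommGroup F] [NormedSpace ℝ F] [FiniteDimensional ℝ F]
  [MeasurableSpace F] [BorelSpace F]

theorem measurable_ballInt {g : E → ℝ≥0∞} (hg : Measurable g) (ρ : ℝ) :
    Measurable (fun x => ∫⁻ u in closedBall x ρ, g u ∂μ) := by
  have h1 : MeasurableSet {p : E × E | dist p.2 p.1 ≤ ρ} :=
    measurableSet_le (by fun_prop) measurable_const
  have h2 : Measurable (indicator {p : E × E | dist p.2 p.1 ≤ ρ} (fun p => g p.2)) :=
    (hg.comp measurable_snd).indicator h1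
  have h3 := h2.lintegral_prod_right' (ν := μ)
  convert h3 using 2 with x
  rw [← lintegral_indicator measurableSet_closedBall]
  rfl

/-- bounded maximal function at dyadic scales below `2^{-k}` -/
def ASet (μ : Measure E) (G : E → E →L[ℝ] F) (z : E) (r : ℝ) (k : ℕ) : Set E :=
  {x | x ∈ ball z r ∧ ∀ j, k ≤ j → ∫⁻ u in closedBall x ((1/2 : ℝ) ^ j), ‖G u‖ₑ ∂μ ≤
    k * μ (closedBall (0:E) ((1/2 : ℝ) ^ j))}

theorem measurableSet_ASet {G : E → E →L[ℝ] F} (hG : StronglyMeasurable G) (z : E) (r : ℝ) (k : ℕ) :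
    MeasurableSet (ASet μ G z r k) := by
  have h1 : ASet μ G z r k = ball z r ∩ ⋂ j : ℕ, ⋂ _ : k ≤ j,
      {x | ∫⁻ u in closedBall x ((1/2 : ℝ) ^ j), ‖G u‖ₑ ∂μ ≤
        k * μ (closedBall (0:E) ((1/2 : ℝ) ^ j))} := by
    ext x
    simp [ASet]
  rw [h1]
  refine measurableSet_ball.inter (MeasurableSet.iInter fun j => MeasurableSet.iInter fun _ => ?_)
  exact measurableSet_le (measurable_ballInt hG.enorm _) measurable_const

theorem ASet_bound {G : E → E →L[ℝ] F} {z x : E} {r : ℝ} {k : ℕ} (hx : x ∈ ASet μ G z r k)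
    {ρ : ℝ} (h0 : 0 < ρ) (hρ : ρ ≤ (1/2 : ℝ) ^ k) :
    ∫⁻ u in closedBall x ρ, ‖G u‖ₑ ∂μ ≤
      ENNReal.ofReal (k * 2 ^ finrank ℝ E) * μ (closedBall (0:E) ρ) := by
  have hρ1 : ρ ≤ 1 := hρ.trans (pow_le_one₀ (by norm_num) (by norm_num))
  obtain ⟨j, hj1, hj2⟩ := exists_nat_pow_near_of_lt_one h0 hρ1 (by norm_num : (0:ℝ) < 1/2)
    (by norm_num)
  have hkj : k ≤ j := by
    by_contra hlt
    push Not at hlt
    have h3 : (1/2 : ℝ) ^ k ≤ (1/2 : ℝ) ^ (j + 1) :=
      pow_le_pow_of_le_one (by norm_num) (by norm_num) hlt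
    linarith
  have h4 : (1/2 : ℝ) ^ j ≤ 2 * ρ := by
    rw [pow_succ] at hj1
    linarith
  calc ∫⁻ u in closedBall x ρ, ‖G u‖ₑ ∂μ
      ≤ ∫⁻ u in closedBall x ((1/2 : ℝ) ^ j), ‖G u‖ₑ ∂μ :=
        lintegral_mono_set (closedBall_subset_closedBall hj2)
    _ ≤ k * μ (closedBall (0:E) ((1/2 : ℝ) ^ j)) := hx.2 j hkj
    _ ≤ k * μ (closedBall (0:E) (2 * ρ)) := by
        gcongr
    _ = _ := by
        rw [mu_two_mul, ENNReal.ofReal_mul (by positivity), ENNReal.ofReal_natCast]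
        ring

theorem dens_diff_null {A N : Set E} (hN : μ N = 0) {x : E} (h : Dens μ A x) :
    Dens μ (A \ N) x := by
  intro K
  have h1 : ∀ C : Set E, μ ((A \ N) ∩ C) = μ (A ∩ C) := by
    intro C
    have : (A \ N) ∩ C = (A ∩ C) \ N := by
      ext y; simp only [mem_inter_iff, Set.mem_sdiff]; tauto
    rw [this, measure_sdiff_null hN]
  simp_rw [h1]
  exact h K

/-- local decomposition -/
theorem pieces_local {f : E → F} {G : E → E →L[ℝ] F} {z : E} {R0 : ℝ} (hR0 : 0 < R0)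
    (hf : ContinuousOn f (ball z R0)) (hGm : StronglyMeasurable G) (hGi : Integrable G μ)
    (H : ∀ w : E, ∀ᵐ x ∂μ, x ∈ ball z R0 → x + w ∈ ball z R0 →
      f (x + w) - f x = ∫ τ in (0:ℝ)..1, G (x + τ • w) w) :
    ∃ s : ℕ → Set E, (∀ k, MeasurableSet (s k)) ∧ (∀ k, s k ⊆ ball z (R0 / 2)) ∧
      μ (ball z (R0 / 2) \ ⋃ k, s k) = 0 ∧
      (∀ k, ∃ C : ℝ, 0 ≤ C ∧ ∃ r > 0, ∀ u ∈ s k, ∀ y ∈ s k, dist u y ≤ r →
        ‖f u - f y‖ ≤ C * dist u y) ∧
      ∀ k, ∀ x ∈ s k, HasFDerivWithinAt f (G x) (s k) x := by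
  have hgood := ae_good isOpen_ball hf hGm H
  have hleb : ∀ᵐ x ∂μ, Tendsto (fun ρ : ℝ => ⨍ y in closedBall x ρ, ‖G y - G x‖ ∂μ)
      (𝓝[>] 0) (𝓝 0) := by
    filter_upwards [IsUnifLocDoublingMeasure.ae_tendsto_average_norm_sub (μ := μ)
      hGi.locallyIntegrable 1] with x hx
    apply hx (fun _ => x) (fun ρ => ρ) tendsto_id
    filter_upwards [self_mem_nhdsWithin] with ρ hρ
    have : (0:ℝ) < ρ := hρ
    exact mem_closedBall_self (by linarith)
  have hden : ∀ᵐ x ∂μ, ∀ k, x ∈ ASet μ G z (R0/2) k → Dens μ (ASet μ G z (R0/2) k) x := by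
    rw [ae_all_iff]
    intro k
    exact (ae_restrict_iff' (measurableSet_ASet hGm z (R0/2) k)).1 (ae_dens _)
  set Bad : Set E := {x | ¬ (Good μ f G (ball z R0) x ∧
    Tendsto (fun ρ : ℝ => ⨍ y in closedBall x ρ, ‖G y - G x‖ ∂μ) (𝓝[>] 0) (𝓝 0) ∧
    ∀ k, x ∈ ASet μ G z (R0/2) k → Dens μ (ASet μ G z (R0/2) k) x)} with hBad
  have hBad0 : μ Bad = 0 := by
    have : ∀ᵐ x ∂μ, x ∉ Bad := by
      filter_upwards [hgood, hleb, hden] with x h1 h2 h3
      simp only [hBad, mem_ofPred_eq, not_not]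
      exact ⟨h1, h2, h3⟩
    simpa [ae_iff] using this
  set N := toMeasurable μ Bad with hN
  have hNm : MeasurableSet N := measurableSet_toMeasurable μ Bad
  have hN0 : μ N = 0 := by rw [hN, measure_toMeasurable, hBad0]
  have hNgood : ∀ x, x ∉ N → x ∉ Bad := fun x hx hb => hx (subset_toMeasurable μ Bad hb)
  obtain ⟨k0, hk0⟩ := exists_pow_lt_of_lt_one (show (0:ℝ) < R0 / 2 by linarith)
    (show (1/2 : ℝ) < 1 by norm_num)
  have hpow : ∀ k, (1/2 : ℝ) ^ (k + k0) ≤ R0 / 2 := by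
    intro k
    refine le_trans ?_ hk0.le
    exact pow_le_pow_of_le_one (by norm_num) (by norm_num) (Nat.le_add_left k0 k)
  have hball : ∀ k, ∀ x ∈ ball z (R0/2), closedBall x ((1/2 : ℝ) ^ (k + k0)) ⊆ ball z R0 := by
    intro k x hx u hu
    rw [mem_closedBall] at hu
    rw [mem_ball] at hx ⊢
    have := hpow k
    calc dist u z ≤ dist u x + dist x z := dist_triangle _ _ _
      _ < R0 := by linarith
  have hLip : ∀ k, ∀ u ∈ ASet μ G z (R0/2) (k + k0) \ N, ∀ y ∈ ASet μ G z (R0/2) (k + k0) \ N,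
      dist u y ≤ (1/2 : ℝ) ^ (k + k0) / 2 →
      ‖f u - f y‖ ≤ (4 * 2 ^ finrank ℝ E * (((k + k0 : ℕ) : ℝ) * 2 ^ finrank ℝ E)) * dist u y := by
    intro k u hu y hy huy
    have gu : Good μ f G (ball z R0) u := by
      have := hNgood u hu.2
      simp only [hBad, mem_ofPred_eq, not_not] at this
      exact this.1
    have gy : Good μ f G (ball z R0) y := by
      have := hNgood y hy.2
      simp only [hBad, mem_ofPred_eq, not_not] at this
      exact this.1
    have := lip_est (μ := μ) (R := (1/2 : ℝ) ^ (k + k0))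
      (K := ((k + k0 : ℕ) : ℝ) * 2 ^ finrank ℝ E) hf hGm gu gy
      (hball k u hu.1.1) (hball k y hy.1.1) (by linarith)
      (fun ρ h1 h2 => ASet_bound hu.1 h1 h2) (fun ρ h1 h2 => ASet_bound hy.1 h1 h2)
    rw [← ofReal_norm, ENNReal.ofReal_le_ofReal_iff (by positivity)] at this
    exact this
  refine ⟨fun k => ASet μ G z (R0/2) (k + k0) \ N, ?_, ?_, ?_, ?_, ?_⟩
  · intro k
    exact (measurableSet_ASet hGm z _ _).diff hNm
  · rintro k x ⟨hx, -⟩
    exact hx.1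
  · refine measure_mono_null (t := N) ?_ hN0
    rintro x ⟨hxb, hxU⟩
    by_contra hxN
    apply hxU
    have hxg := hNgood x hxN
    simp only [hBad, mem_ofPred_eq, not_not] at hxg
    obtain ⟨R, hR, hRb⟩ := leb_lintegral hGi.locallyIntegrable hxg.2.1 one_pos
    obtain ⟨k1, hk1⟩ := exists_pow_lt_of_lt_one hR (show (1/2 : ℝ) < 1 by norm_num)
    obtain ⟨k2, hk2⟩ := exists_nat_gt (1 + ‖G x‖)
    rw [mem_iUnion]
    refine ⟨k1 + k2, ⟨⟨hxb, ?_⟩, hxN⟩⟩
    intro j hj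
    set ρ := (1/2 : ℝ) ^ j with hρ
    have hρ0 : 0 < ρ := by positivity
    have hρR : ρ ≤ R := by
      refine le_trans ?_ hk1.le
      exact pow_le_pow_of_le_one (by norm_num) (by norm_num) (by omega)
    have h5 := hRb ρ hρ0 hρR
    have h6 : ∀ u, ‖G u‖ₑ ≤ ‖G u - G x‖ₑ + ‖G x‖ₑ := by
      intro u
      have h7 : ‖G u‖ ≤ ‖G u - G x‖ + ‖G x‖ := by
        calc ‖G u‖ = ‖(G u - G x) + G x‖ := by rw [sub_add_cancel]
          _ ≤ _ := norm_add_le _ _
      rw [← ofReal_norm, ← ofReal_norm, ← ofReal_norm, ← ENNReal.ofReal_add (norm_nonneg _)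
        (norm_nonneg _)]
      exact ENNReal.ofReal_le_ofReal h7
    calc ∫⁻ u in closedBall x ρ, ‖G u‖ₑ ∂μ
        ≤ ∫⁻ u in closedBall x ρ, (‖G u - G x‖ₑ + ‖G x‖ₑ) ∂μ := lintegral_mono h6
      _ = (∫⁻ u in closedBall x ρ, ‖G u - G x‖ₑ ∂μ) + ‖G x‖ₑ * μ (closedBall x ρ) := by
          rw [lintegral_add_right _ measurable_const, setLIntegral_const]
      _ ≤ ENNReal.ofReal 1 * μ (closedBall (0:E) ρ) + ‖G x‖ₑ * μ (closedBall (0:E) ρ) := by
          rw [mu_center x]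
          gcongr
      _ = ENNReal.ofReal (1 + ‖G x‖) * μ (closedBall (0:E) ρ) := by
          rw [ENNReal.ofReal_add zero_le_one (norm_nonneg _), ofReal_norm]
          ring
      _ ≤ ((k1 + k2 + k0 : ℕ) : ℝ≥0∞) * μ (closedBall (0:E) ρ) := by
          gcongr
          rw [← ENNReal.ofReal_natCast]
          apply ENNReal.ofReal_le_ofReal
          push_cast
          have : (0:ℝ) ≤ k1 := Nat.cast_nonneg _
          have : (0:ℝ) ≤ k0 := Nat.cast_nonneg _
          linarith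
  · intro k
    refine ⟨4 * 2 ^ finrank ℝ E * (((k + k0 : ℕ) : ℝ) * 2 ^ finrank ℝ E), by positivity,
      (1/2 : ℝ) ^ (k + k0) / 2, by positivity, ?_⟩
    exact hLip k
  · intro k x hx
    have hxg := hNgood x hx.2
    simp only [hBad, mem_ofPred_eq, not_not] at hxg
    refine hasFDerivWithinAt_of (μ := μ) (B := ball z R0)
      ((measurableSet_ASet hGm z _ _).diff hNm) hGm hxg.1 ?_
      (fun ε hε => leb_lintegral hGi.locallyIntegrable hxg.2.1 hε)
      (dens_diff_null hN0 (hxg.2.2 _ hx.1)) (L := 4 * 2 ^ finrank ℝ E *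
        (((k + k0 : ℕ) : ℝ) * 2 ^ finrank ℝ E)) (r0 := (1/2 : ℝ) ^ (k + k0) / 2)
      (by positivity) (by positivity) (hLip k)
    apply isOpen_ball.mem_nhds
    have := hx.1.1
    exact ball_subset_ball (by linarith) this

end

end Crest.Agent.R96.Lu_538
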