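/-
helper538, row 96, leaf P6-LUSIN, part 4: global decomposition on an open set.
-/
import Mathlib
import Crest.Agent.R96.Lu3_538

set_option autoImplicit false
set_option linter.unusedSectionVars false

open MeasureTheory Set Filter Metric Module
open scoped ENNReal NNReal Topology

namespace Crest.Agent.R96.Lu_538

noncomputable section

variable {E : Type*} [NormedAddCommGroup E] [NormedSpace ℝ E] [FiniteDimensional ℝ E]
  [MeasurableSpace E] [BorelSpace E] {μ : Measure E} [μ.IsAddHaarMeasure]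
variable {F : Type*} [NormedAddCommGroup F] [NormedSpace ℝ F] [FiniteDimensional ℝ F]
  [MeasurableSpace F] [BorelSpace F]

/-- a null set is avoided at a.e. time by a.e. translate of a segment -/
theorem ae_ae_segment {P : E → Prop} (h : ∀ᵐ x ∂μ, P x) (w : E) :
    ∀ᵐ x ∂μ, ∀ᵐ τ : ℝ, P (x + τ • w) := by
  set N := toMeasurable μ {x | ¬ P x} with hN
  have hNm : MeasurableSet N := measurableSet_toMeasurable _ _
  have hN0 : μ N = 0 := by rw [hN, measure_toMeasurable]; exact h
  have hNP : ∀ x, x ∉ N → P x := fun x hx => by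
    by_contra hb
    exact hx (subset_toMeasurable μ _ hb)
  have h1 : MeasurableSet {q : E × ℝ | q.1 + q.2 • w ∈ N} := by
    apply hNm.preimage
    fun_prop
  have h2 : (μ.prod volume) {q : E × ℝ | q.1 + q.2 • w ∈ N} = 0 := by
    rw [Measure.prod_apply_symm h1]
    simp only [preimage_ofPred_eq]
    have : ∀ τ : ℝ, μ {x | x + τ • w ∈ N} = 0 := by
      intro τ
      have := measure_preimage_add_right μ (τ • w) N
      rw [← hN0, ← this]
      rfl
    simp [this]
  have h3 := Measure.ae_ae_of_ae_prod (μ := μ) (ν := (volume : Measure ℝ))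
    (p := fun q : E × ℝ => q.1 + q.2 • w ∉ N) (by
      rw [ae_iff]
      simpa using h2)
  filter_upwards [h3] with x hx
  filter_upwards [hx] with τ hτ using hNP _ hτ

/-- fundamental theorem of calculus along a.e. translate of every segment -/
def SegH (Ω : Set E) (μ : Measure E) (f : E → F) (G : E → E →L[ℝ] F) : Prop :=
  ∀ w : E, ∀ᵐ x ∂μ, (∀ τ ∈ Icc (0:ℝ) 1, x + τ • w ∈ Ω) →
    f (x + w) - f x = ∫ τ in (0:ℝ)..1, G (x + τ • w) w

/-- a piece -/
structure Piece (Ω : Set E) (f : E → F) (G : E → E →L[ℝ] F) (s : Set E) : Prop where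
  meas : MeasurableSet s
  sub : s ⊆ Ω
  lip : ∃ C : ℝ≥0, LipschitzOnWith C f s
  der : ∀ x ∈ s, HasFDerivWithinAt f (G x) s x

theorem Piece.mono {Ω : Set E} {f : E → F} {G : E → E →L[ℝ] F} {s t : Set E}
    (h : Piece Ω f G s) (ht : MeasurableSet t) (hts : t ⊆ s) : Piece Ω f G t where
  meas := ht
  sub := hts.trans h.sub
  lip := h.lip.imp fun _ hC => hC.mono hts
  der := fun x hx => (h.der x (hts hx)).mono hts

theorem Piece.empty {Ω : Set E} {f : E → F} {G : E → E →L[ℝ] F} : Piece Ω f G ∅ where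
  meas := MeasurableSet.empty
  sub := empty_subset _
  lip := ⟨0, by simp⟩
  der := fun x hx => absurd hx (notMem_empty x)

/-- countable family of pieces covering a ball up to a null set -/
theorem pieces_ball {Ω : Set E} {f : E → F} {G : E → E →L[ℝ] F} (hf : ContinuousOn f Ω)
    (hG : LocallyIntegrableOn G Ω μ) (H : SegH Ω μ f G) {z : E} {R : ℝ} (hR : 0 < R)
    (hz : closedBall z R ⊆ Ω) :
    ∃ 𝒮 : Set (Set E), 𝒮.Countable ∧ (∀ s ∈ 𝒮, Piece Ω f G s) ∧
      μ (ball z (R / 2) \ ⋃₀ 𝒮) = 0 := by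
  have hbz : ball z R ⊆ Ω := ball_subset_closedBall.trans hz
  have h1 : IntegrableOn G (closedBall z R) μ :=
    (hG.mono_set hz).integrableOn_isCompact (isCompact_closedBall z R)
  have h2 : Integrable (indicator (closedBall z R) G) μ := by
    have := h1.integrable_indicator (ε' := E →L[ℝ] F) measurableSet_closedBall
    exact this
  set G₁ := h2.aestronglyMeasurable.mk _ with hG₁
  have hG₁m : StronglyMeasurable G₁ := h2.aestronglyMeasurable.stronglyMeasurable_mk
  have hG₁e : indicator (closedBall z R) G =ᵐ[μ] G₁ := h2.aestronglyMeasurable.ae_eq_mk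
  have hG₁i : Integrable G₁ μ := h2.congr hG₁e
  have H1 : ∀ w : E, ∀ᵐ x ∂μ, x ∈ ball z R → x + w ∈ ball z R →
      f (x + w) - f x = ∫ τ in (0:ℝ)..1, G₁ (x + τ • w) w := by
    intro w
    filter_upwards [H w, ae_ae_segment hG₁e w] with x hx hx2 hxb hxw
    have hseg : ∀ τ ∈ Icc (0:ℝ) 1, x + τ • w ∈ ball z R := by
      intro τ hτ
      exact (convex_ball z R).add_smul_mem hxb hxw hτ
    rw [hx fun τ hτ => hbz (hseg τ hτ)]
    apply intervalIntegral.integral_congr_ae
    filter_upwards [hx2] with τ hτ hτI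
    rw [uIoc_of_le zero_le_one] at hτI
    rw [← hτ, indicator_of_mem (ball_subset_closedBall (hseg τ ⟨hτI.1.le, hτI.2⟩))]
  obtain ⟨s, hsm, hss, hs0, hsl, hsd⟩ := pieces_local hR (hf.mono hbz) hG₁m hG₁i H1
  choose C hC0 r hr0 hCr using hsl
  set N := toMeasurable μ {x | ¬ (indicator (closedBall z R) G x = G₁ x)} with hN
  have hNm : MeasurableSet N := measurableSet_toMeasurable _ _
  have hN0 : μ N = 0 := by rw [hN, measure_toMeasurable]; exact hG₁e
  have hNP : ∀ x, x ∉ N → indicator (closedBall z R) G x = G₁ x := fun x hx => by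
    by_contra hb
    exact hx (subset_toMeasurable μ _ hb)
  have hhalf : ball z (R/2) ⊆ closedBall z R :=
    (ball_subset_ball (by linarith)).trans ball_subset_closedBall
  set 𝒮 : Set (Set E) := range fun q : ℕ × ℕ =>
    (s q.1 \ N) ∩ ball (TopologicalSpace.denseSeq E q.2) (r q.1 / 2) with h𝒮
  refine ⟨𝒮, countable_range _, ?_, ?_⟩
  · rintro _ ⟨⟨k, n⟩, rfl⟩
    refine ⟨((hsm k).diff hNm).inter measurableSet_ball, ?_, ?_, ?_⟩
    · rintro x ⟨⟨hx, -⟩, -⟩
      exact hz (hhalf (hss k hx))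
    · refine ⟨⟨C k, hC0 k⟩, ?_⟩
      apply LipschitzOnWith.of_dist_le_mul
      rintro x ⟨⟨hx, -⟩, hxb⟩ y ⟨⟨hy, -⟩, hyb⟩
      rw [dist_eq_norm (f x)]
      apply hCr k x hx y hy
      simp only [mem_ball] at hxb hyb
      have := dist_triangle_right x y (TopologicalSpace.denseSeq E n)
      linarith
    · rintro x ⟨⟨hx, hxN⟩, hxb⟩
      have h3 := hsd k x hx
      rw [← hNP x hxN, indicator_of_mem (hhalf (hss k hx))] at h3
      exact h3.mono (inter_subset_left.trans sdiff_subset)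
  · refine measure_mono_null (t := (ball z (R/2) \ ⋃ k, s k) ∪ N) ?_ (measure_union_null hs0 hN0)
    rintro x ⟨hx, hxU⟩
    by_contra hcon
    rw [mem_union, not_or] at hcon
    obtain ⟨h4, h5⟩ := hcon
    have h6 : x ∈ ⋃ k, s k := by
      by_contra h7
      exact h4 ⟨hx, h7⟩
    obtain ⟨k, hk⟩ := mem_iUnion.1 h6
    apply hxU
    obtain ⟨n, hn⟩ := (TopologicalSpace.denseRange_denseSeq E).exists_dist_lt x
      (half_pos (hr0 k))
    exact ⟨_, ⟨(k, n), rfl⟩, ⟨hk, h5⟩, hn⟩

/-- **Lusin decomposition**: the open set `Ω` is, up to a null set, a countable disjoint union of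
measurable pieces on which `f` is Lipschitz and differentiable with derivative `G` (within the
piece). -/
theorem pieces {Ω : Set E} (hΩ : IsOpen Ω) {f : E → F} {G : E → E →L[ℝ] F}
    (hf : ContinuousOn f Ω) (hG : LocallyIntegrableOn G Ω μ) (H : SegH Ω μ f G) :
    ∃ s : ℕ → Set E, (∀ k, Piece Ω f G (s k)) ∧ Pairwise (Function.onFun Disjoint s) ∧
      μ (Ω \ ⋃ k, s k) = 0 := by
  have h1 : ∀ x ∈ Ω, ∃ R > 0, closedBall x R ⊆ Ω := fun x hx =>
    Metric.nhds_basis_closedBall.mem_iff.1 (hΩ.mem_nhds hx)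
  choose! R hR0 hR using h1
  obtain ⟨T, hTΩ, hTc, hTcov⟩ := TopologicalSpace.countable_cover_nhdsWithin (s := Ω)
    (f := fun x => ball x (R x / 2))
    (fun x hx => mem_nhdsWithin_of_mem_nhds (ball_mem_nhds x (half_pos (hR0 x hx))))
  have h2 : ∀ x ∈ T, ∃ 𝒮 : Set (Set E), 𝒮.Countable ∧ (∀ s ∈ 𝒮, Piece Ω f G s) ∧
      μ (ball x (R x / 2) \ ⋃₀ 𝒮) = 0 := fun x hx =>
    pieces_ball hf hG H (hR0 x (hTΩ hx)) (hR x (hTΩ hx))
  choose! 𝒮 hc hp h0 using h2
  set 𝒯 : Set (Set E) := insert ∅ (⋃ x ∈ T, 𝒮 x) with h𝒯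
  have h𝒯c : 𝒯.Countable := (hTc.biUnion hc).insert _
  obtain ⟨t, ht⟩ := h𝒯c.exists_eq_range ⟨∅, mem_insert _ _⟩
  have htp : ∀ k, Piece Ω f G (t k) := by
    intro k
    have : t k ∈ 𝒯 := by rw [ht]; exact mem_range_self k
    rcases this with h | h
    · rw [h]; exact Piece.empty
    · simp only [mem_iUnion] at h
      obtain ⟨x, hx, hk⟩ := h
      exact hp x hx _ hk
  refine ⟨disjointed t, fun k => (htp k).mono ?_ (disjointed_subset t k), disjoint_disjointed t, ?_⟩
  · exact MeasurableSet.disjointed (fun k => (htp k).meas) k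
  · rw [iUnion_disjointed]
    refine measure_mono_null (t := ⋃ x ∈ T, (ball x (R x / 2) \ ⋃₀ 𝒮 x)) ?_ ?_
    · rintro x ⟨hx, hxU⟩
      have h3 := hTcov hx
      simp only [mem_iUnion] at h3 ⊢
      obtain ⟨y, hy, hxy⟩ := h3
      refine ⟨y, hy, hxy, ?_⟩
      rintro ⟨s, hs, hxs⟩
      apply hxU
      have : s ∈ 𝒯 := mem_insert_of_mem _ (mem_biUnion hy hs)
      rw [ht] at this
      obtain ⟨k, rfl⟩ := this
      exact mem_iUnion.2 ⟨k, hxs⟩
    · exact (measure_biUnion_null_iff hTc).2 h0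

end

end Crest.Agent.R96.Lu_538
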