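/-
helper538, row 96, leaf P6-LUSIN, part 5: area formula for injective maps with a Lusin
decomposition; the critical set; consequences.
-/
import Mathlib
import Crest.Agent.R96.Lu4_538

set_option autoImplicit false
set_option linter.unusedSectionVars false

open MeasureTheory Set Filter Metric Module
open scoped ENNReal NNReal Topology

namespace Crest.Agent.R96.Lu_538

noncomputable section

variable {E : Type*} [NormedAddCommGroup E] [NormedSpace ℝ E] [FiniteDimensional ℝ E]
  [MeasurableSpace E] [BorelSpace E] {μ : Measure E} [μ.IsAddHaarMeasure]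
variable {F : Type*} [NormedAddCommGroup F] [NormedSpace ℝ F] [FiniteDimensional ℝ F]
  [MeasurableSpace F] [BorelSpace F]

/-- Lusin data for `(f, G)` on `Ω` -/
structure Lus (Ω : Set E) (μ : Measure E) (f : E → F) (G : E → E →L[ℝ] F) (s : ℕ → Set E) :
    Prop where
  piece : ∀ k, Piece Ω f G (s k)
  disj : Pairwise (Function.onFun Disjoint s)
  null : μ (Ω \ ⋃ k, s k) = 0

theorem exists_lus {Ω : Set E} (hΩ : IsOpen Ω) {f : E → F} {G : E → E →L[ℝ] F}
    (hf : ContinuousOn f Ω) (hG : LocallyIntegrableOn G Ω μ) (H : SegH Ω μ f G) :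
    ∃ s : ℕ → Set E, Lus Ω μ f G s := by
  obtain ⟨s, h1, h2, h3⟩ := pieces hΩ hf hG H
  exact ⟨s, h1, h2, h3⟩

namespace Lus

variable {Ω : Set E} {f : E → F} {G : E → E →L[ℝ] F} {s : ℕ → Set E}

theorem measU (h : Lus Ω μ f G s) : MeasurableSet (⋃ k, s k) :=
  MeasurableSet.iUnion fun k => (h.piece k).meas

theorem subU (h : Lus Ω μ f G s) : (⋃ k, s k) ⊆ Ω := iUnion_subset fun k => (h.piece k).sub

theorem ae_mem (h : Lus Ω μ f G s) : ∀ᵐ x ∂μ, x ∈ Ω → x ∈ ⋃ k, s k := by
  have := h.null
  rw [ae_iff]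
  convert this using 2
  ext x
  simp

/-- a.e. point of a measurable subset lies in the pieces -/
theorem ae_eq (h : Lus Ω μ f G s) {A : Set E} (hA : A ⊆ Ω) :
    (A ∩ ⋃ k, s k : Set E) =ᵐ[μ] A := by
  filter_upwards [h.ae_mem] with x hx
  apply propext
  exact ⟨fun h1 => h1.1, fun h1 => ⟨h1, hx (hA h1)⟩⟩

end Lus

/-! ### area formula -/

section area

variable {Ω : Set E} {f : E → E} {G : E → E →L[ℝ] E} {s : ℕ → Set E}

theorem image_inter_iUnion {A : Set E} {s : ℕ → Set E} (hAs : A ⊆ ⋃ k, s k) :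
    f '' A = ⋃ k, f '' (A ∩ s k) := by
  rw [← image_iUnion, ← inter_iUnion, inter_eq_self_of_subset_left hAs]

theorem Piece.der_inter {k : Set E} (h : Piece Ω f G k) (A : Set E) :
    ∀ x ∈ A ∩ k, HasFDerivWithinAt f (G x) (A ∩ k) x :=
  fun x hx => (h.der x hx.2).mono inter_subset_right

theorem measurable_image (h : Lus Ω μ f G s) (hinj : InjOn f Ω) {A : Set E}
    (hA : MeasurableSet A) (hAs : A ⊆ ⋃ k, s k) : MeasurableSet (f '' A) := by
  rw [image_inter_iUnion hAs]
  refine MeasurableSet.iUnion fun k => ?_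
  exact measurable_image_of_fderivWithin (hA.inter (h.piece k).meas)
    ((h.piece k).der_inter A)
    (hinj.mono (inter_subset_right.trans (h.piece k).sub))

theorem lintegral_image (h : Lus Ω μ f G s) (hinj : InjOn f Ω) {A : Set E}
    (hA : MeasurableSet A) (hAs : A ⊆ ⋃ k, s k) (g : E → ℝ≥0∞) :
    ∫⁻ y in f '' A, g y ∂μ = ∫⁻ x in A, ENNReal.ofReal |(G x).det| * g (f x) ∂μ := by
  have hm : ∀ k, MeasurableSet (A ∩ s k) := fun k => hA.inter (h.piece k).meas
  have hAΩ : A ⊆ Ω := hAs.trans h.subU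
  have h1 : A = ⋃ k, A ∩ s k := by
    rw [← inter_iUnion, inter_eq_self_of_subset_left hAs]
  rw [image_inter_iUnion hAs, lintegral_iUnion (fun k => measurable_image h hinj (hm k)
    (inter_subset_left.trans hAs))]
  · conv_rhs => rw [h1]
    rw [lintegral_iUnion hm]
    · congr 1
      ext k
      exact lintegral_image_eq_lintegral_abs_det_fderiv_mul μ (hm k) ((h.piece k).der_inter A)
        (hinj.mono (inter_subset_left.trans hAΩ)) g
    · intro i j hij
      exact (h.disj hij).mono inter_subset_right inter_subset_right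
  · intro i j hij
    rw [Function.onFun, Set.disjoint_left]
    rintro _ ⟨x, hx, rfl⟩ ⟨y, hy, hxy⟩
    have : y = x := hinj (hAΩ hy.1) (hAΩ hx.1) hxy
    subst this
    exact Set.disjoint_left.1 (h.disj hij) hx.2 hy.2

/-- **area formula** -/
theorem area (h : Lus Ω μ f G s) (hinj : InjOn f Ω) {A : Set E}
    (hA : MeasurableSet A) (hAs : A ⊆ ⋃ k, s k) :
    ∫⁻ x in A, ENNReal.ofReal |(G x).det| ∂μ = μ (f '' A) := by
  have := lintegral_image h hinj hA hAs (fun _ => 1)
  simpa using this.symm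

theorem area_le (h : Lus Ω μ f G s) (hinj : InjOn f Ω) {A : Set E}
    (hA : MeasurableSet A) (hAΩ : A ⊆ Ω) :
    ∫⁻ x in A, ENNReal.ofReal |(G x).det| ∂μ ≤ μ (f '' A) := by
  rw [← setLIntegral_congr (h.ae_eq hAΩ), area h hinj (hA.inter h.measU) inter_subset_right]
  exact measure_mono (image_mono inter_subset_left)

/-- integral of the Jacobian over a preimage -/
theorem area_preimage_le (h : Lus Ω μ f G s) (hinj : InjOn f Ω) {A U : Set E}
    (hA : MeasurableSet A) (hAΩ : A ⊆ Ω) (hU : MapsTo f A U) :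
    ∫⁻ x in A, ENNReal.ofReal |(G x).det| ∂μ ≤ μ U :=
  (area_le h hinj hA hAΩ).trans (measure_mono hU.image_subset)

/-- without injectivity -/
theorem image_le (h : Lus Ω μ f G s) {A : Set E} (hA : MeasurableSet A) (hAs : A ⊆ ⋃ k, s k) :
    μ (f '' A) ≤ ∫⁻ x in A, ENNReal.ofReal |(G x).det| ∂μ := by
  have hm : ∀ k, MeasurableSet (A ∩ s k) := fun k => hA.inter (h.piece k).meas
  have h1 : A = ⋃ k, A ∩ s k := by
    rw [← inter_iUnion, inter_eq_self_of_subset_left hAs]
  rw [image_inter_iUnion hAs]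
  refine (measure_iUnion_le _).trans ?_
  conv_rhs => rw [h1]
  rw [lintegral_iUnion hm]
  · refine ENNReal.tsum_le_tsum fun k => ?_
    exact addHaar_image_le_lintegral_abs_det_fderiv μ (hm k) ((h.piece k).der_inter A)
  · intro i j hij
    exact (h.disj hij).mono inter_subset_right inter_subset_right

/-- **Sard**: the image of the critical part of the pieces is null (no injectivity) -/
theorem crit_null (h : Lus Ω μ f G s) {A : Set E} (hAs : A ⊆ ⋃ k, s k)
    (hA0 : ∀ x ∈ A, (G x).det = 0) : μ (f '' A) = 0 := by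
  rw [image_inter_iUnion hAs, measure_iUnion_null_iff]
  intro k
  exact addHaar_image_eq_zero_of_det_fderivWithin_eq_zero μ ((h.piece k).der_inter A)
    (fun x hx => hA0 x hx.1)

/-- Lusin's (N) on the pieces -/
theorem image_null (h : Lus Ω μ f G s) {A : Set E} (hAs : A ⊆ ⋃ k, s k) (hA0 : μ A = 0) :
    μ (f '' A) = 0 := by
  rw [image_inter_iUnion hAs, measure_iUnion_null_iff]
  intro k
  refine addHaar_image_eq_zero_of_differentiableOn_of_addHaar_eq_zero μ
    (fun x hx => ((h.piece k).der_inter A x hx).differentiableWithinAt)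
    (measure_mono_null inter_subset_left hA0)

end area

end

end Crest.Agent.R96.Lu_538
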