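/-
helper538, row 96, leaf P6-LUSIN, part 6: Lusin's theorem (sets and functions) and the compact
Lusin package.
-/
import Mathlib
import Crest.Agent.R96.Lu5_538

set_option autoImplicit false
set_option linter.unusedSectionVars false

open MeasureTheory Set Filter Metric Module
open scoped ENNReal NNReal Topology

namespace Crest.Agent.R96.Lu_538

noncomputable section

/-! ### Lusin's theorem -/

section lusin

variable {X : Type*} [TopologicalSpace X] [T2Space X] [MeasurableSpace X] [BorelSpace X]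
  {m : Measure X} [IsFiniteMeasure m] [m.OuterRegular] [m.InnerRegularCompactLTTop]

/-- Lusin's theorem for a sequence of measurable sets -/
theorem lusin_sets {A : Set X} (hA : MeasurableSet A) {B : ℕ → Set X}
    (hB : ∀ n, MeasurableSet (B n)) {ε : ℝ≥0∞} (hε : ε ≠ 0) :
    ∃ K ⊆ A, IsCompact K ∧ m (A \ K) < ε ∧ ∀ n, ∃ U, IsOpen U ∧ B n ∩ K = U ∩ K := by
  obtain ⟨δ, hδ0, hδ⟩ := ENNReal.exists_pos_sum_of_countable' (ENNReal.half_pos hε).ne' ℕ
  have h1 : ∀ n, ∃ U ⊇ B n, IsOpen U ∧ m U < ∞ ∧ m (U \ B n) < δ n := fun n =>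
    (hB n).exists_isOpen_sdiff_lt (measure_ne_top m _) (hδ0 n).ne'
  choose U hBU hUo _ hUm using h1
  set N := ⋃ n, U n \ B n with hN
  have hNm : MeasurableSet N := MeasurableSet.iUnion fun n => (hUo n).measurableSet.diff (hB n)
  have hNs : m N ≤ ε / 2 := by
    refine (measure_iUnion_le _).trans ((ENNReal.tsum_le_tsum fun n => (hUm n).le).trans hδ.le)
  obtain ⟨K, hKA, hKc, hKm⟩ := (hA.diff hNm).exists_isCompact_sdiff_lt (measure_ne_top m _)
    (ENNReal.half_pos hε).ne'
  refine ⟨K, hKA.trans sdiff_subset, hKc, ?_, fun n => ⟨U n, hUo n, ?_⟩⟩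
  · calc m (A \ K) ≤ m (N ∪ ((A \ N) \ K)) := by
          apply measure_mono
          rintro x ⟨hx, hxK⟩
          by_cases hxN : x ∈ N
          · exact Or.inl hxN
          · exact Or.inr ⟨⟨hx, hxN⟩, hxK⟩
      _ ≤ m N + m ((A \ N) \ K) := measure_union_le _ _
      _ < ε / 2 + ε / 2 := ENNReal.add_lt_add_of_le_of_lt (measure_ne_top m _) hNs hKm
      _ = ε := ENNReal.add_halves ε
  · ext x
    constructor
    · rintro ⟨h1, h2⟩
      exact ⟨hBU n h1, h2⟩
    · rintro ⟨h1, h2⟩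
      refine ⟨?_, h2⟩
      by_contra h3
      exact (hKA h2).2 (mem_iUnion.2 ⟨n, h1, h3⟩)

/-- Lusin's theorem for a measurable function and a sequence of measurable sets -/
theorem lusin_fun {H : Type*} [TopologicalSpace H] [SecondCountableTopology H]
    [MeasurableSpace H] [BorelSpace H] {g : X → H} (hg : Measurable g)
    {A : Set X} (hA : MeasurableSet A) {B : ℕ → Set X}
    (hB : ∀ n, MeasurableSet (B n)) {ε : ℝ≥0∞} (hε : ε ≠ 0) :
    ∃ K ⊆ A, IsCompact K ∧ m (A \ K) < ε ∧ ContinuousOn g K ∧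
      ∀ n, ∃ U, IsOpen U ∧ B n ∩ K = U ∩ K := by
  obtain ⟨b, hbc, hb0, hb⟩ := TopologicalSpace.exists_countable_basis H
  have hc : (insert ∅ b).Countable := hbc.insert _
  obtain ⟨c, hc⟩ := hc.exists_eq_range ⟨∅, mem_insert _ _⟩
  have hco : ∀ n, IsOpen (c n) := by
    intro n
    have : c n ∈ insert ∅ b := by rw [hc]; exact mem_range_self n
    rcases this with h | h
    · rw [h]; exact isOpen_empty
    · exact hb.isOpen h
  obtain ⟨K, hKA, hKc, hKm, hK⟩ := lusin_sets (m := m) hA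
    (B := fun n => if n % 2 = 0 then g ⁻¹' (c (n / 2)) else B (n / 2)) (fun n => by
      by_cases h : n % 2 = 0
      · simp only [h, if_true]
        exact hg (hco _).measurableSet
      · simp only [h, if_false]
        exact hB _) hε
  refine ⟨K, hKA, hKc, hKm, ?_, ?_⟩
  · rw [continuousOn_iff_continuous_domRestrict, hb.continuous_iff]
    intro s hs
    have : s ∈ insert ∅ b := mem_insert_of_mem _ hs
    rw [hc] at this
    obtain ⟨n, rfl⟩ := this
    obtain ⟨U, hU, hUK⟩ := hK (2 * n)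
    have h1 : (2 * n) % 2 = 0 := by omega
    have h2 : (2 * n) / 2 = n := by omega
    simp only [h1, h2, if_true] at hUK
    refine ⟨U, hU, ?_⟩
    ext ⟨x, hx⟩
    simp only [mem_preimage, domRestrict_apply]
    have h3 : x ∈ g ⁻¹' (c n) ∩ K ↔ x ∈ U ∩ K := by rw [hUK]
    simp only [mem_inter_iff, hx, and_true, mem_preimage] at h3
    exact h3.symm
  · intro n
    obtain ⟨U, hU, hUK⟩ := hK (2 * n + 1)
    have h1 : ¬ (2 * n + 1) % 2 = 0 := by omega
    have h2 : (2 * n + 1) / 2 = n := by omega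
    simp only [h1, h2, if_false] at hUK
    exact ⟨U, hU, hUK⟩

end lusin

/-! ### Uniform differentiability on compact sets -/

section unif

variable {E : Type*} [NormedAddCommGroup E] [NormedSpace ℝ E]
variable {F : Type*} [NormedAddCommGroup F] [NormedSpace ℝ F]

theorem closed_cond {f : E → F} {G : E → E →L[ℝ] F} {K : Set E} (hK : IsCompact K)
    (hf : ContinuousOn f K) (hG : ContinuousOn G K) (η δ : ℝ) :
    IsClosed {x | x ∈ K ∧ ∀ y ∈ K, dist y x < δ → ‖f y - f x - G x (y - x)‖ ≤ η * ‖y - x‖} := by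
  apply IsSeqClosed.isClosed
  intro u x hu hx
  have hxK : x ∈ K := hK.isClosed.mem_of_tendsto hx (Eventually.of_forall fun n => (hu n).1)
  refine ⟨hxK, fun y hy hyx => ?_⟩
  have huK : Tendsto u atTop (𝓝[K] x) :=
    tendsto_nhdsWithin_iff.2 ⟨hx, Eventually.of_forall fun n => (hu n).1⟩
  have h1 : Tendsto (fun n => f (u n)) atTop (𝓝 (f x)) := (hf x hxK).tendsto.comp huK
  have h2 : Tendsto (fun n => G (u n)) atTop (𝓝 (G x)) := (hG x hxK).tendsto.comp huK
  have hb : Continuous fun p : (E →L[ℝ] F) × E => p.1 p.2 := isBoundedBilinearMap_apply.continuous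
  have h3 : Tendsto (fun n => G (u n) (y - u n)) atTop (𝓝 (G x (y - x))) :=
    (hb.tendsto (G x, y - x)).comp (h2.prodMk_nhds (tendsto_const_nhds.sub hx))
  have h4 : Tendsto (fun n => ‖f y - f (u n) - G (u n) (y - u n)‖) atTop
      (𝓝 ‖f y - f x - G x (y - x)‖) := ((tendsto_const_nhds.sub h1).sub h3).norm
  have h5 : Tendsto (fun n => η * ‖y - u n‖) atTop (𝓝 (η * ‖y - x‖)) :=
    ((tendsto_const_nhds.sub hx).norm).const_mul η
  refine le_of_tendsto_of_tendsto h4 h5 ?_
  have h6 : ∀ᶠ n in atTop, dist y (u n) < δ :=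
    (tendsto_const_nhds.dist hx).eventually_lt_const hyx
  filter_upwards [h6] with n hn using (hu n).2 y hy hn

theorem closed_lip {f : E → F} {K : Set E} (hK : IsCompact K)
    (hf : ContinuousOn f K) (C : ℝ) :
    IsClosed {x | x ∈ K ∧ ∀ y ∈ K, ‖f y - f x‖ ≤ C * ‖y - x‖} := by
  apply IsSeqClosed.isClosed
  intro u x hu hx
  have hxK : x ∈ K := hK.isClosed.mem_of_tendsto hx (Eventually.of_forall fun n => (hu n).1)
  refine ⟨hxK, fun y hy => ?_⟩
  have huK : Tendsto u atTop (𝓝[K] x) :=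
    tendsto_nhdsWithin_iff.2 ⟨hx, Eventually.of_forall fun n => (hu n).1⟩
  have h1 : Tendsto (fun n => f (u n)) atTop (𝓝 (f x)) := (hf x hxK).tendsto.comp huK
  have h4 : Tendsto (fun n => ‖f y - f (u n)‖) atTop
      (𝓝 ‖f y - f x‖) := (tendsto_const_nhds.sub h1).norm
  have h5 : Tendsto (fun n => C * ‖y - u n‖) atTop (𝓝 (C * ‖y - x‖)) :=
    ((tendsto_const_nhds.sub hx).norm).const_mul C
  exact le_of_tendsto_of_tendsto h4 h5 (Eventually.of_forall fun n => (hu n).2 y hy)

variable [MeasurableSpace E] [BorelSpace E]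

/-- on a compact set where `f` is differentiable (within the set) with continuous derivative `G`,
a large compact subset has Lipschitz `f` and uniform differentiability -/
theorem exists_unif {m : Measure E} [IsFiniteMeasure m] {f : E → F} {G : E → E →L[ℝ] F}
    {K : Set E} (hK : IsCompact K) (hf : ContinuousOn f K) (hG : ContinuousOn G K)
    (hd : ∀ x ∈ K, HasFDerivWithinAt f (G x) K x) {ε : ℝ≥0∞} (hε : ε ≠ 0) :
    ∃ K' ⊆ K, IsCompact K' ∧ m (K \ K') < ε ∧ (∃ C : ℝ≥0, LipschitzOnWith C f K') ∧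
      ∀ η > 0, ∃ δ > 0, ∀ x ∈ K', ∀ y ∈ K, dist y x < δ →
        ‖f y - f x - G x (y - x)‖ ≤ η * ‖y - x‖ := by
  obtain ⟨δ, hδ0, hδ⟩ := ENNReal.exists_pos_sum_of_countable' (ENNReal.half_pos hε).ne' ℕ
  -- uniform differentiability sets
  set D : ℝ → ℕ → Set E := fun η n => {x | x ∈ K ∧ ∀ y ∈ K, dist y x < 1 / ((n:ℝ) + 1) →
    ‖f y - f x - G x (y - x)‖ ≤ η * ‖y - x‖} with hD
  have hDc : ∀ η n, IsClosed (D η n) := fun η n => closed_cond hK hf hG η _
  have hDmono : ∀ η, Monotone (D η) := by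
    intro η i j hij x hx
    refine ⟨hx.1, fun y hy hyx => hx.2 y hy (hyx.trans_le ?_)⟩
    apply one_div_le_one_div_of_le (by positivity)
    have : (i:ℝ) ≤ j := by exact_mod_cast hij
    linarith
  have hDU : ∀ η > 0, ⋃ n, D η n = K := by
    intro η hη
    apply Subset.antisymm (iUnion_subset fun n x hx => hx.1)
    intro x hx
    have h1 := (hd x hx).isLittleO.def hη
    rw [eventually_nhdsWithin_iff, Metric.eventually_nhds_iff] at h1
    obtain ⟨r, hr, h2⟩ := h1
    obtain ⟨n, hn⟩ := exists_nat_one_div_lt hr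
    refine mem_iUnion.2 ⟨n, hx, fun y hy hyx => ?_⟩
    exact h2 (hyx.trans hn) hy
  have hDex : ∀ i : ℕ, ∃ n, m (K \ D (1 / ((i:ℝ) + 1)) n) < δ i := by
    intro i
    have hη : (0:ℝ) < 1 / ((i:ℝ) + 1) := by positivity
    have h1 : Tendsto (fun n => m (K \ D (1 / ((i:ℝ) + 1)) n)) atTop
        (𝓝 (m (⋂ n, K \ D (1 / ((i:ℝ) + 1)) n))) := by
      apply tendsto_measure_iInter_atTop
      · intro n
        exact (hK.isClosed.measurableSet.diff (hDc _ n).measurableSet).nullMeasurableSet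
      · intro a b hab
        exact sdiff_subset_sdiff_right (hDmono _ hab)
      · exact ⟨0, measure_ne_top m _⟩
    have h2 : ⋂ n, K \ D (1 / ((i:ℝ) + 1)) n = ∅ := by
      rw [← sdiff_iUnion, hDU _ hη, Set.sdiff_self]
    rw [h2, measure_empty] at h1
    exact (h1.eventually_lt_const (hδ0 i)).exists
  choose n hn using hDex
  -- Lipschitz sets
  set L : ℕ → Set E := fun n => {x | x ∈ K ∧ ∀ y ∈ K, ‖f y - f x‖ ≤ (n:ℝ) * ‖y - x‖} with hL
  have hLc : ∀ n, IsClosed (L n) := fun n => closed_lip hK hf _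
  have hLmono : Monotone L := by
    intro i j hij x hx
    refine ⟨hx.1, fun y hy => (hx.2 y hy).trans ?_⟩
    have : (i:ℝ) ≤ j := by exact_mod_cast hij
    gcongr
  have hLU : ⋃ n, L n = K := by
    apply Subset.antisymm (iUnion_subset fun n x hx => hx.1)
    intro x hx
    obtain ⟨M, hM⟩ := (hK.image_of_continuousOn hf).isBounded.exists_norm_le
    have hM' : ∀ y ∈ K, ‖f y‖ ≤ M := fun y hy => hM _ (mem_image_of_mem f hy)
    have h1 := (hd x hx).isLittleO.def one_pos
    rw [eventually_nhdsWithin_iff, Metric.eventually_nhds_iff] at h1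
    obtain ⟨r, hr, h2⟩ := h1
    obtain ⟨k, hk⟩ := exists_nat_ge (max (1 + ‖G x‖) (2 * M / r))
    refine mem_iUnion.2 ⟨k, hx, fun y hy => ?_⟩
    rcases lt_or_ge (dist y x) r with h3 | h3
    · have h4 := h2 h3 hy
      have h5 := (G x).le_opNorm (y - x)
      calc ‖f y - f x‖ = ‖(f y - f x - G x (y - x)) + G x (y - x)‖ := by rw [sub_add_cancel]
        _ ≤ ‖f y - f x - G x (y - x)‖ + ‖G x (y - x)‖ := norm_add_le _ _
        _ ≤ 1 * ‖y - x‖ + ‖G x‖ * ‖y - x‖ := add_le_add h4 h5
        _ = (1 + ‖G x‖) * ‖y - x‖ := by ring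
        _ ≤ k * ‖y - x‖ := by
            gcongr
            exact (le_max_left _ _).trans hk
    · have h4 : 2 * M / r ≤ k := (le_max_right _ _).trans hk
      rw [dist_eq_norm] at h3
      calc ‖f y - f x‖ ≤ ‖f y‖ + ‖f x‖ := norm_sub_le _ _
        _ ≤ M + M := add_le_add (hM' y hy) (hM' x hx)
        _ = 2 * M / r * r := by field_simp; ring
        _ ≤ k * ‖y - x‖ := by
            have : 0 ≤ 2 * M / r := by
              have := (norm_nonneg _).trans (hM' x hx)
              positivity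
            gcongr
  have hLex : ∃ n, m (K \ L n) < ε / 2 := by
    have h1 : Tendsto (fun n => m (K \ L n)) atTop (𝓝 (m (⋂ n, K \ L n))) := by
      apply tendsto_measure_iInter_atTop
      · intro n
        exact (hK.isClosed.measurableSet.diff (hLc n).measurableSet).nullMeasurableSet
      · intro a b hab
        exact sdiff_subset_sdiff_right (hLmono hab)
      · exact ⟨0, measure_ne_top m _⟩
    have h2 : ⋂ n, K \ L n = ∅ := by
      rw [← sdiff_iUnion, hLU, Set.sdiff_self]
    rw [h2, measure_empty] at h1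
    exact (h1.eventually_lt_const (ENNReal.half_pos hε)).exists
  obtain ⟨k, hk⟩ := hLex
  set K' := L k ∩ ⋂ i : ℕ, D (1 / ((i:ℝ) + 1)) (n i) with hK'
  have hK'K : K' ⊆ K := fun x hx => hx.1.1
  have hK'c : IsClosed K' := (hLc k).inter (isClosed_iInter fun i => hDc _ _)
  refine ⟨K', hK'K, hK.of_isClosed_subset hK'c hK'K, ?_, ⟨k, ?_⟩, ?_⟩
  · have h1 : K \ K' ⊆ (K \ L k) ∪ ⋃ i : ℕ, K \ D (1 / ((i:ℝ) + 1)) (n i) := by
      rintro x ⟨hx, hxK'⟩
      by_contra h2
      simp only [mem_union, mem_iUnion, not_or, not_exists, Set.mem_sdiff, not_and, not_not] at h2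
      exact hxK' ⟨h2.1 hx, mem_iInter.2 fun i => h2.2 i hx⟩
    calc m (K \ K') ≤ m ((K \ L k) ∪ ⋃ i : ℕ, K \ D (1 / ((i:ℝ) + 1)) (n i)) := measure_mono h1
      _ ≤ m (K \ L k) + m (⋃ i : ℕ, K \ D (1 / ((i:ℝ) + 1)) (n i)) := measure_union_le _ _
      _ < ε / 2 + ε / 2 := by
          refine ENNReal.add_lt_add_of_lt_of_le ?_ hk ?_
          · exact measure_ne_top m _
          · exact (measure_iUnion_le _).trans
              ((ENNReal.tsum_le_tsum fun i => (hn i).le).trans hδ.le)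
      _ = ε := ENNReal.add_halves ε
  · apply LipschitzOnWith.of_dist_le_mul
    intro x hx y hy
    rw [dist_eq_norm, dist_eq_norm]
    exact hy.1.2 x (hK'K hx)
  · intro η hη
    obtain ⟨i, hi⟩ := exists_nat_one_div_lt hη
    refine ⟨1 / (((n i : ℕ):ℝ) + 1), by positivity, fun x hx y hy hyx => ?_⟩
    have h1 := (mem_iInter.1 hx.2 i).2 y hy hyx
    refine h1.trans ?_
    gcongr

end unif

end

end Crest.Agent.R96.Lu_538
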