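/-
helper538, row 96, leaf P6-LUSIN, part 7: the compact Lusin package; critical set; R3 instance.
-/
import Mathlib
import Crest.Prelude.Def_SobolevMap
import Crest.Agent.R96.Acl3_392
import Crest.Agent.R96.Lu6_538

set_option autoImplicit false
set_option linter.unusedSectionVars false

open MeasureTheory Set Filter Metric Module
open scoped ENNReal NNReal Topology

namespace Crest.Agent.R96.Lu_538

noncomputable section

section gen

variable {E : Type*} [NormedAddCommGroup E] [NormedSpace ℝ E] [FiniteDimensional ℝ E]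
  [MeasurableSpace E] [BorelSpace E] {μ : Measure E} [μ.IsAddHaarMeasure]
variable {F : Type*} [NormedAddCommGroup F] [NormedSpace ℝ F] [FiniteDimensional ℝ F]
  [MeasurableSpace F] [BorelSpace F]

/-- **Compact Lusin package.** Every measurable `A ⊆ Ω` contains, up to small `m` measure
(`m` finite, absolutely continuous, e.g. the energy of `f`), a compact set on which `f` is
Lipschitz, `G` is continuous and `f` is uniformly differentiable with derivative `G`. -/
theorem Lus.exists_compact {Ω : Set E} {f : E → F} {G : E → E →L[ℝ] F} {s : ℕ → Set E}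
    (h : Lus Ω μ f G s) (hf : ContinuousOn f Ω) (hΩ : MeasurableSet Ω)
    (hG : AEStronglyMeasurable G (μ.restrict Ω))
    {m : Measure E} [IsFiniteMeasure m] (hm : m ≪ μ) {A : Set E} (hA : MeasurableSet A)
    (hAΩ : A ⊆ Ω) {ε : ℝ≥0∞} (hε : ε ≠ 0) :
    ∃ K ⊆ A, IsCompact K ∧ m (A \ K) < ε ∧ K ⊆ (⋃ k, s k) ∧ ContinuousOn G K ∧
      (∃ C : ℝ≥0, LipschitzOnWith C f K) ∧
      ∀ η > 0, ∃ δ > 0, ∀ x ∈ K, ∀ y ∈ K, dist y x < δ →
        ‖f y - f x - G x (y - x)‖ ≤ η * ‖y - x‖ := by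
  set G₁ := hG.mk G with hG₁
  have hG₁m : StronglyMeasurable G₁ := hG.stronglyMeasurable_mk
  have hG₁e : ∀ᵐ x ∂μ, x ∈ Ω → G x = G₁ x := (ae_restrict_iff' hΩ).1 hG.ae_eq_mk
  set N := toMeasurable μ {x | ¬ (x ∈ Ω → G x = G₁ x)} with hN
  have hNm : MeasurableSet N := measurableSet_toMeasurable _ _
  have hN0 : μ N = 0 := by rw [hN, measure_toMeasurable]; exact hG₁e
  have hNP : ∀ x, x ∉ N → x ∈ Ω → G x = G₁ x := fun x hx => by
    by_contra hb
    exact hx (subset_toMeasurable μ _ hb)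
  set A' := (A ∩ ⋃ k, s k) \ N with hA'
  have hA'm : MeasurableSet A' := (hA.inter h.measU).diff hNm
  have hAA' : m (A \ A') = 0 := by
    apply hm
    refine measure_mono_null (t := (Ω \ ⋃ k, s k) ∪ N) ?_ (measure_union_null h.null hN0)
    rintro x ⟨hx, hx'⟩
    by_contra hcon
    simp only [mem_union, Set.mem_sdiff, not_or, not_and, not_not] at hcon
    exact hx' ⟨⟨hx, hcon.1 (hAΩ hx)⟩, hcon.2⟩
  obtain ⟨K₁, hK₁A, hK₁c, hK₁m, hK₁G, hK₁s⟩ := lusin_fun (m := m) hG₁m.measurable hA'm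
    (B := s) (fun k => (h.piece k).meas) (ENNReal.half_pos hε).ne'
  have hK₁Ω : K₁ ⊆ Ω := fun x hx => hAΩ (hK₁A hx).1.1
  have hGc : ContinuousOn G K₁ := by
    apply hK₁G.congr
    intro x hx
    exact hNP x (hK₁A hx).2 (hK₁Ω hx)
  have hd : ∀ x ∈ K₁, HasFDerivWithinAt f (G x) K₁ x := by
    intro x hx
    obtain ⟨k, hk⟩ := mem_iUnion.1 (hK₁A hx).1.2
    obtain ⟨U, hU, hUK⟩ := hK₁s k
    have hxU : x ∈ U := by
      have : x ∈ s k ∩ K₁ := ⟨hk, hx⟩
      rw [hUK] at this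
      exact this.1
    rw [← hasFDerivWithinAt_inter (hU.mem_nhds hxU), inter_comm, ← hUK]
    exact ((h.piece k).der x hk).mono inter_subset_left
  obtain ⟨K, hKK₁, hKc, hKm, hKl, hKu⟩ := exists_unif (m := m) hK₁c (hf.mono hK₁Ω) hGc hd
    (ENNReal.half_pos hε).ne'
  refine ⟨K, fun x hx => (hK₁A (hKK₁ hx)).1.1, hKc, ?_, fun x hx => (hK₁A (hKK₁ hx)).1.2,
    hGc.mono hKK₁, hKl, ?_⟩
  · calc m (A \ K) ≤ m ((A \ A') ∪ ((A' \ K₁) ∪ (K₁ \ K))) := by
          apply measure_mono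
          rintro x ⟨hx, hxK⟩
          by_cases h1 : x ∈ A'
          · by_cases h2 : x ∈ K₁
            · exact Or.inr (Or.inr ⟨h2, hxK⟩)
            · exact Or.inr (Or.inl ⟨h1, h2⟩)
          · exact Or.inl ⟨hx, h1⟩
      _ ≤ m (A \ A') + (m (A' \ K₁) + m (K₁ \ K)) :=
          (measure_union_le _ _).trans (add_le_add le_rfl (measure_union_le _ _))
      _ = m (A' \ K₁) + m (K₁ \ K) := by rw [hAA', zero_add]
      _ < ε / 2 + ε / 2 := ENNReal.add_lt_add hK₁m hKm
      _ = ε := ENNReal.add_halves ε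
  · intro η hη
    obtain ⟨δ, hδ, h1⟩ := hKu η hη
    exact ⟨δ, hδ, fun x hx y hy => h1 x hx y (hKK₁ hy)⟩

/-- a.e. point of the critical set is sent into an open set of small measure -/
theorem Lus.crit_open {Ω : Set E} {f : E → E} {G : E → E →L[ℝ] E} {s : ℕ → Set E}
    (h : Lus Ω μ f G s) {ε : ℝ≥0∞} (hε : ε ≠ 0) :
    ∃ U, IsOpen U ∧ μ U < ε ∧ ∀ᵐ x ∂μ, x ∈ Ω → (G x).det = 0 → f x ∈ U := by
  have h1 : μ (f '' {x | x ∈ (⋃ k, s k) ∧ (G x).det = 0}) = 0 :=
    crit_null h (fun x hx => hx.1) (fun x hx => hx.2)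
  obtain ⟨U, hU, hUo, hUm⟩ := Set.exists_isOpen_lt_of_lt
    (f '' {x | x ∈ (⋃ k, s k) ∧ (G x).det = 0}) ε (by rw [h1]; exact pos_iff_ne_zero.2 hε)
  refine ⟨U, hUo, hUm, ?_⟩
  filter_upwards [h.ae_mem] with x hx hxΩ hx0
  exact hU (mem_image_of_mem f ⟨hx hxΩ, hx0⟩)

/-- a.e. point of a null preimage condition: if `V` is null then a.e. `x` with `f x ∈ V` is
critical -/
theorem Lus.ae_crit_of_null {Ω : Set E} {f : E → E} {G : E → E →L[ℝ] E} {s : ℕ → Set E}
    (h : Lus Ω μ f G s) (hinj : InjOn f Ω) (hf : ContinuousOn f Ω) (hΩ : MeasurableSet Ω)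
    (hG : AEStronglyMeasurable G (μ.restrict Ω)) {V : Set E}
    (hV : μ V = 0) : ∀ᵐ x ∂μ, x ∈ Ω → f x ∈ V → (G x).det = 0 := by
  set V' := toMeasurable μ V with hV'
  have hV'm : MeasurableSet V' := measurableSet_toMeasurable _ _
  have hV'0 : μ V' = 0 := by rw [hV', measure_toMeasurable, hV]
  have hΩV : MeasurableSet (Ω ∩ f ⁻¹' V') := by
    have h1 : Measurable (fun x : Ω => f x) := hf.domRestrict.measurable
    have h2 := (h1 hV'm)
    have h3 := hΩ.subtype_image h2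
    convert h3 using 1
    ext x
    simp [and_comm]
  have h4 := area_le h hinj hΩV inter_subset_left
  have h5 : μ (f '' (Ω ∩ f ⁻¹' V')) = 0 :=
    measure_mono_null (by rintro _ ⟨x, hx, rfl⟩; exact hx.2) hV'0
  rw [h5, nonpos_iff_eq_zero] at h4
  have h6 : AEMeasurable (fun x => ENNReal.ofReal |(G x).det|) (μ.restrict Ω) := by
    have h7 : Continuous fun A : E →L[ℝ] E => ENNReal.ofReal |A.det| :=
      ENNReal.continuous_ofReal.comp (continuous_abs.comp ContinuousLinearMap.continuous_det)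
    exact h7.measurable.comp_aemeasurable hG.aemeasurable
  rw [lintegral_eq_zero_iff' (h6.mono_measure (Measure.restrict_mono inter_subset_left le_rfl)),
    Filter.EventuallyEq, ae_restrict_iff' hΩV] at h4
  filter_upwards [h4] with x hx hxΩ hxV
  have := hx ⟨hxΩ, subset_toMeasurable μ V hxV⟩
  simp only [Pi.zero_apply, ENNReal.ofReal_eq_zero] at this
  exact abs_nonpos_iff.1 this

end gen

/-! ### `R3` instance -/

section R3

open Crest.AnalysisR.VecCalc3 Crest.AnalysisR.Sobolev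
open Crest.Agent.R96.Acl_392

/-- the matrix with rows `g j` -/
def gmatL : (Fin 3 → R3) →ₗ[ℝ] (R3 →L[ℝ] R3) where
  toFun g := ((PiLp.continuousLinearEquiv 2 ℝ (fun _ : Fin 3 => ℝ)).symm :
      (Fin 3 → ℝ) →L[ℝ] R3).comp (ContinuousLinearMap.pi fun j => innerSL ℝ (g j))
  map_add' g g' := by
    ext w j
    simp
  map_smul' c g := by
    ext w j
    simp

/-- the weak differential -/
def Gmat (G : Fin 3 → R3 → R3) (x : R3) : R3 →L[ℝ] R3 := gmatL fun j => G j x

theorem gmatL_apply (g : Fin 3 → R3) (w : R3) (j : Fin 3) : gmatL g w j = inner ℝ (g j) w := rfl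

theorem Gmat_apply (G : Fin 3 → R3 → R3) (x w : R3) (j : Fin 3) :
    Gmat G x w j = inner ℝ (G j x) w := rfl

theorem norm_gmatL_le (g : Fin 3 → R3) : ‖gmatL g‖ ≤ Real.sqrt (∑ j, ‖g j‖ ^ 2) := by
  apply ContinuousLinearMap.opNorm_le_bound _ (Real.sqrt_nonneg _)
  intro w
  rw [EuclideanSpace.norm_eq]
  apply Real.sqrt_le_iff.2
  constructor
  · positivity
  · rw [mul_pow, Real.sq_sqrt (by positivity), Finset.sum_mul]
    apply Finset.sum_le_sum
    intro j _
    rw [gmatL_apply, ← mul_pow]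
    rw [Real.norm_eq_abs, sq_abs, sq_le_sq, abs_mul, abs_norm, abs_norm]
    exact abs_real_inner_le_norm _ _

theorem norm_row_le (g : Fin 3 → R3) (j : Fin 3) : ‖g j‖ ≤ ‖gmatL g‖ := by
  rcases eq_or_ne (g j) 0 with h | h
  · rw [h, norm_zero]; exact norm_nonneg _
  · have h1 := (gmatL g).le_opNorm (g j)
    have h2 : |gmatL g (g j) j| ≤ ‖gmatL g (g j)‖ := by
      have := EuclideanSpace.norm_eq (gmatL g (g j))
      rw [this]
      apply Real.abs_le_sqrt
      have h3 : ‖gmatL g (g j) j‖ ^ 2 ≤ ∑ i, ‖gmatL g (g j) i‖ ^ 2 :=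
        Finset.single_le_sum (f := fun i => ‖gmatL g (g j) i‖ ^ 2) (fun i _ => by positivity)
          (Finset.mem_univ j)
      simpa using h3
    rw [gmatL_apply, real_inner_self_eq_norm_sq, abs_of_nonneg (by positivity)] at h2
    have h3 : 0 < ‖g j‖ := norm_pos_iff.2 h
    have h4 : ‖g j‖ * ‖g j‖ ≤ ‖gmatL g‖ * ‖g j‖ := by nlinarith
    exact le_of_mul_le_mul_right h4 h3

theorem continuous_gmatL : Continuous gmatL := gmatL.continuous_of_finiteDimensional

theorem aesm_Gmat {G : Fin 3 → R3 → R3} {m : Measure R3}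
    (h : ∀ j, AEStronglyMeasurable (G j) m) : AEStronglyMeasurable (Gmat G) m := by
  have h1 : AEStronglyMeasurable (fun x => fun j => G j x) m :=
    (aemeasurable_pi_lambda _ fun j => (h j).aemeasurable).aestronglyMeasurable
  exact continuous_gmatL.comp_aestronglyMeasurable h1

theorem locInt_Gmat {Ω : Set R3} (hΩ : IsOpen Ω) {G : Fin 3 → R3 → R3}
    (h : ∀ j, LocallyIntegrableOn (G j) Ω) : LocallyIntegrableOn (Gmat G) Ω := by
  rw [locallyIntegrableOn_iff hΩ.isLocallyClosed]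
  intro K hK hKc
  have h1 : ∀ j, IntegrableOn (G j) K := fun j =>
    ((locallyIntegrableOn_iff hΩ.isLocallyClosed).1 (h j)) K hK hKc
  have h2 : Integrable (fun x => ∑ j, ‖G j x‖) (volume.restrict K) :=
    integrable_finsetSum _ fun j _ => (h1 j).norm
  refine h2.mono' (aesm_Gmat fun j => (h1 j).aestronglyMeasurable) ?_
  refine Eventually.of_forall fun x => ?_
  refine (norm_gmatL_le _).trans ?_
  apply Real.sqrt_le_iff.2
  refine ⟨Finset.sum_nonneg fun _ _ => norm_nonneg _, ?_⟩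
  exact Finset.sum_sq_le_sq_sum_of_nonneg (s := Finset.univ) fun j _ => norm_nonneg (G j x)

theorem segH_of_weak {Ω : Set R3} (hΩ : IsOpen Ω) {f : R3 → R3} {G : Fin 3 → R3 → R3}
    (hG : ∀ j, HasWeakGradOn Ω (fun x => f x j) (G j)) (hf : ContinuousOn f Ω) :
    SegH Ω volume f (Gmat G) := by
  intro w
  have hfj : ∀ j : Fin 3, ContinuousOn (fun x => f x j) Ω := fun j =>
    (EuclideanSpace.proj (𝕜 := ℝ) j).continuous.comp_continuousOn hf
  have h1 : ∀ᵐ x : R3, ∀ j : Fin 3, ACLat Ω (fun x => f x j) (fun x => inner ℝ (G j x) w) w x := by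
    rw [ae_all_iff]
    intro j
    exact acl_grad hΩ (hG j) (hfj j) w
  filter_upwards [h1] with x hx hseg
  have h2 : ∀ j, IntegrableOn (fun τ : ℝ => inner ℝ (G j (x + τ • w)) w) (Icc 0 1) ∧
      f (x + w) j - f x j = ∫ τ in (0:ℝ)..1, inner ℝ (G j (x + τ • w)) w := by
    intro j
    have := hx j 0 1 zero_le_one hseg
    simpa using this
  ext j
  rw [intervalIntegral.integral_of_le zero_le_one]
  have h3 : ∀ j, Integrable (fun τ : ℝ => Gmat G (x + τ • w) w j) (volume.restrict (Ioc 0 1)) :=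
    fun j => ((h2 j).1).mono_set Ioc_subset_Icc_self
  have h4 := eval_integral_piLp h3 j
  rw [h4, ← intervalIntegral.integral_of_le zero_le_one]
  exact (h2 j).2

/-- **Lusin decomposition of a Sobolev map** of `R3` (literal hypotheses of S0127). -/
theorem exists_lus_R3 {Ω : Set R3} (hΩ : IsOpen Ω) {f : R3 → R3} {G : Fin 3 → R3 → R3}
    (hG : ∀ j, HasWeakGradOn Ω (fun x => f x j) (G j)) (hf : ContinuousOn f Ω) :
    ∃ s : ℕ → Set R3, Lus Ω volume f (Gmat G) s :=
  exists_lus hΩ hf (locInt_Gmat hΩ fun j => (hG j).2.1) (segH_of_weak hΩ hG hf)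

end R3

end

end Crest.Agent.R96.Lu_538
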