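/-
helper538, row 96, leaf INTR (335 #6511 (a)), part 1: cells, parallelepipeds, determinants,
filling of the image parallelepiped by the image of the good part of a cell.
-/
import Mathlib
import Crest.Agent.R96.Lu7_538

set_option autoImplicit false
set_option linter.unusedSectionVars false

open MeasureTheory Set Filter Metric Module
open scoped ENNReal NNReal Topology

namespace Crest.Agent.R96.Intr_538

open Crest.Agent.R96.Lu_538

noncomputable section

variable {E : Type*} [NormedAddCommGroup E] [NormedSpace ℝ E] [FiniteDimensional ℝ E]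
  [MeasurableSpace E] [BorelSpace E] {μ : Measure E} [μ.IsAddHaarMeasure]

/-! ### linear algebra -/

theorem inj_of_low {κ : ℝ} (hκ : 0 < κ) {L : E →L[ℝ] E} (hL : ∀ v, κ * ‖v‖ ≤ ‖L v‖) :
    Function.Injective L := by
  rw [injective_iff_map_eq_zero]
  intro v hv
  have := hL v
  rw [hv, norm_zero] at this
  have h1 : ‖v‖ ≤ 0 := by nlinarith [norm_nonneg v]
  exact norm_le_zero_iff.1 h1

theorem exists_pre {κ : ℝ} (hκ : 0 < κ) {L : E →L[ℝ] E} (hL : ∀ v, κ * ‖v‖ ≤ ‖L v‖) (w : E) :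
    ∃ v, L v = w ∧ κ * ‖v‖ ≤ ‖w‖ := by
  have h1 : Function.Surjective (L : E →ₗ[ℝ] E) :=
    LinearMap.surjective_of_injective (inj_of_low hκ hL)
  obtain ⟨v, hv⟩ := h1 w
  refine ⟨v, hv, ?_⟩
  have := hL v
  have h2 : L v = w := hv
  rw [h2] at this
  exact this

theorem det_low (μ : Measure E) [μ.IsAddHaarMeasure] {κ : ℝ} (hκ : 0 < κ) {L : E →L[ℝ] E}
    (hL : ∀ v, κ * ‖v‖ ≤ ‖L v‖) : κ ^ finrank ℝ E ≤ |L.det| := by
  have h1 : closedBall (0:E) κ ⊆ L '' closedBall (0:E) 1 := by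
    intro w hw
    obtain ⟨v, hv, hvn⟩ := exists_pre hκ hL w
    refine ⟨v, ?_, hv⟩
    rw [mem_closedBall_zero_iff] at hw ⊢
    have : κ * ‖v‖ ≤ κ * 1 := by linarith
    exact le_of_mul_le_mul_left this hκ
  have h2 := measure_mono (μ := μ) h1
  rw [Measure.addHaar_image_continuousLinearMap, Measure.addHaar_closedBall' μ 0 hκ.le] at h2
  have h3 : μ (closedBall (0:E) 1) ≠ 0 := Lu_538.mu_pos one_pos 0
  have h4 : μ (closedBall (0:E) 1) ≠ ∞ := Lu_538.mu_fin 0 1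
  have h5 := (ENNReal.mul_le_mul_iff_left h3 h4).1 h2
  exact (ENNReal.ofReal_le_ofReal_iff (abs_nonneg _)).1 h5

theorem det_bound (κ : ℝ) : ∃ D : ℝ, 0 < D ∧ ∀ L : E →L[ℝ] E, ‖L‖ ≤ κ⁻¹ → |L.det| ≤ D := by
  have h1 : IsCompact (closedBall (0 : E →L[ℝ] E) κ⁻¹) := isCompact_closedBall _ _
  obtain ⟨D, hD⟩ := (h1.image (ContinuousLinearMap.continuous_det (𝕜 := ℝ)
    (E := E))).isBounded.exists_norm_le
  refine ⟨max D 1, by positivity, fun L hL => ?_⟩
  refine le_trans ?_ (le_max_left _ _)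
  exact hD _ (mem_image_of_mem _ (mem_closedBall_zero_iff.2 hL))

theorem det_unif (κ : ℝ) {η : ℝ} (hη : 0 < η) :
    ∃ e > 0, ∀ L G : E →L[ℝ] E, ‖L‖ ≤ κ⁻¹ → ‖G - L‖ ≤ e → |G.det - L.det| ≤ η := by
  have h1 : IsCompact (closedBall (0 : E →L[ℝ] E) (κ⁻¹ + 1)) := isCompact_closedBall _ _
  have h2 := h1.uniformContinuousOn_of_continuous
    (ContinuousLinearMap.continuous_det (𝕜 := ℝ) (E := E)).continuousOn
  rw [Metric.uniformContinuousOn_iff] at h2
  obtain ⟨δ, hδ, h3⟩ := h2 η hη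
  refine ⟨min (δ / 2) 1, by positivity, fun L G hL hG => ?_⟩
  have h4 : ‖G - L‖ < δ := lt_of_le_of_lt (hG.trans (min_le_left _ _)) (by linarith)
  have h5 : ‖G‖ ≤ κ⁻¹ + 1 := by
    calc ‖G‖ = ‖L + (G - L)‖ := by rw [add_sub_cancel]
      _ ≤ ‖L‖ + ‖G - L‖ := norm_add_le _ _
      _ ≤ κ⁻¹ + 1 := add_le_add hL (hG.trans (min_le_right _ _))
  have h6 := h3 G (mem_closedBall_zero_iff.2 h5) L (mem_closedBall_zero_iff.2 (by linarith))
    (by rwa [dist_eq_norm])
  rw [Real.dist_eq] at h6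
  exact h6.le

/-! ### cells -/

/-- the cell `z + t C` -/
def cel (C : Set E) (z : E) (t : ℝ) : Set E := (fun u => z + t • u) '' C

/-- the parallelepiped `b + t L C` -/
def par (C : Set E) (L : E →L[ℝ] E) (b : E) (t : ℝ) : Set E := (fun u => b + t • L u) '' C

/-- reference cell -/
structure Ref (C : Set E) (a : ℝ) : Prop where
  conv : Convex ℝ C
  cpt : IsCompact C
  pos : 0 < a
  ball : closedBall (0:E) a ⊆ C

theorem Ref.zero_mem {C : Set E} {a : ℝ} (hC : Ref C a) : (0:E) ∈ C :=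
  hC.ball (mem_closedBall_self hC.pos.le)

theorem Ref.mu_pos {C : Set E} {a : ℝ} (hC : Ref C a) : 0 < μ C :=
  lt_of_lt_of_le (pos_iff_ne_zero.2 (Lu_538.mu_pos hC.pos 0)) (measure_mono hC.ball)

theorem Ref.mu_fin {C : Set E} {a : ℝ} (hC : Ref C a) : μ C < ∞ := hC.cpt.measure_lt_top

theorem isCompact_cel {C : Set E} (hC : IsCompact C) (z : E) (t : ℝ) : IsCompact (cel C z t) :=
  hC.image (by fun_prop)

theorem isCompact_par {C : Set E} (hC : IsCompact C) (L : E →L[ℝ] E) (b : E) (t : ℝ) :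
    IsCompact (par C L b t) := hC.image (by fun_prop)

theorem mu_par (C : Set E) (L : E →L[ℝ] E) (b : E) {t : ℝ} (ht : 0 ≤ t) :
    μ (par C L b t) = ENNReal.ofReal (t ^ finrank ℝ E * |L.det|) * μ C := by
  have h1 : par C L b t = (fun x => b + x) '' ((t • L) '' C) := by
    rw [par, image_image]
    rfl
  rw [h1, image_add_left, measure_preimage_add, Measure.addHaar_image_continuousLinearMap]
  congr 2
  have h2 : LinearMap.det ((t • L : E →L[ℝ] E) : E →ₗ[ℝ] E) = t ^ finrank ℝ E * L.det := by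
    rw [ContinuousLinearMap.toLinearMap_smul, LinearMap.det_smul]
  rw [h2, abs_mul, abs_of_nonneg (by positivity)]

theorem mu_cel (C : Set E) (z : E) {t : ℝ} (ht : 0 ≤ t) :
    μ (cel C z t) = ENNReal.ofReal (t ^ finrank ℝ E) * μ C := by
  have h1 : cel C z t = par C (ContinuousLinearMap.id ℝ E) z t := rfl
  rw [h1, mu_par C _ _ ht]
  congr 2
  simp [ContinuousLinearMap.det]

theorem cel_mono {C : Set E} {a : ℝ} (hC : Ref C a) (z : E) {s t : ℝ} (hs : 0 ≤ s) (hst : s ≤ t) :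
    cel C z s ⊆ cel C z t := by
  rcases eq_or_lt_of_le hs with h0 | h0
  · rintro _ ⟨u, -, rfl⟩
    rw [← h0]
    exact ⟨0, hC.zero_mem, by simp⟩
  · have ht : 0 < t := h0.trans_le hst
    rintro _ ⟨u, hu, rfl⟩
    refine ⟨(s / t) • u, ?_, ?_⟩
    · have := hC.conv.smul_mem_of_zero_mem hC.zero_mem hu
        (t := s / t) ⟨by positivity, (div_le_one ht).2 hst⟩
      exact this
    · simp only [smul_smul]
      congr 2
      field_simp

/-- thickening of a shrunk parallelepiped -/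
theorem par_thick {C : Set E} {a : ℝ} (hC : Ref C a) {κ : ℝ} (hκ : 0 < κ) {L : E →L[ℝ] E}
    (hL : ∀ v, κ * ‖v‖ ≤ ‖L v‖) {b : E} {r σ : ℝ} (hr : 0 < r) (hσ : 0 < σ) (hσ1 : σ ≤ 1)
    {y y' : E} (hy : y ∈ par C L b ((1 - σ) * r)) (hyy : ‖y' - y‖ ≤ κ * a * σ * r) :
    y' ∈ par C L b r := by
  obtain ⟨u, hu, rfl⟩ := hy
  obtain ⟨v, hv, hvn⟩ := exists_pre hκ hL (y' - (b + ((1 - σ) * r) • L u))
  have h1 : ‖v‖ ≤ a * σ * r := by
    have : κ * ‖v‖ ≤ κ * (a * σ * r) := by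
      calc κ * ‖v‖ ≤ _ := hvn
        _ ≤ κ * a * σ * r := hyy
        _ = _ := by ring
    exact le_of_mul_le_mul_left this hκ
  have h2 : (σ * r)⁻¹ • v ∈ C := by
    apply hC.ball
    rw [mem_closedBall_zero_iff, norm_smul, Real.norm_eq_abs, abs_of_pos (by positivity)]
    rw [inv_mul_le_iff₀ (by positivity)]
    linarith
  refine ⟨(1 - σ) • u + σ • ((σ * r)⁻¹ • v), hC.conv hu h2 (by linarith) hσ.le (by ring), ?_⟩
  have h3 : y' = b + ((1 - σ) * r) • L u + L v := by rw [hv]; abel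
  rw [h3]
  simp only [map_add, map_smul, smul_add, smul_smul]
  have h4 : r * σ * (σ * r)⁻¹ = 1 := by field_simp
  have h5 : r * (σ * (σ * r)⁻¹) = 1 := by rw [← mul_assoc]; exact h4
  rw [h5, one_smul, mul_comm r (1 - σ), add_assoc]

/-- diameter of a parallelepiped -/
theorem par_dist {C : Set E} {R : ℝ} (hCR : C ⊆ closedBall 0 R) {M : ℝ} {L : E →L[ℝ] E}
    (hL : ‖L‖ ≤ M) {b : E} {r : ℝ} (hr : 0 ≤ r) {y y' : E} (hy : y ∈ par C L b r)
    (hy' : y' ∈ par C L b r) : dist y' y ≤ 2 * R * M * r := by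
  obtain ⟨u, hu, rfl⟩ := hy
  obtain ⟨u', hu', rfl⟩ := hy'
  have h1 := mem_closedBall_zero_iff.1 (hCR hu)
  have h2 := mem_closedBall_zero_iff.1 (hCR hu')
  have hM : 0 ≤ M := (norm_nonneg L).trans hL
  rw [dist_eq_norm]
  have h3 : b + r • L u' - (b + r • L u) = r • L (u' - u) := by
    rw [map_sub, smul_sub]; abel
  rw [h3, norm_smul, Real.norm_eq_abs, abs_of_nonneg hr]
  have h4 : ‖L (u' - u)‖ ≤ M * (R + R) := by
    calc ‖L (u' - u)‖ ≤ ‖L‖ * ‖u' - u‖ := L.le_opNorm _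
      _ ≤ M * (R + R) := by
          have := norm_sub_le u' u
          gcongr
          linarith
  calc r * ‖L (u' - u)‖ ≤ r * (M * (R + R)) := by gcongr
    _ = _ := by ring

end

end Crest.Agent.R96.Intr_538
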