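/-
helper538, row 96, leaf INTR (335 #6511 (a)), part 2: good cells, filling, disjointness of the
shrunk image parallelepipeds.
-/
import Mathlib
import Crest.Agent.R96.Intr1_538

set_option autoImplicit false
set_option linter.unusedSectionVars false

open MeasureTheory Set Filter Metric Module
open scoped ENNReal NNReal Topology

namespace Crest.Agent.R96.Intr_538

open Crest.Agent.R96.Lu_538

noncomputable section

variable {E : Type*} [NormedAddCommGroup E] [NormedSpace ℝ E] [FiniteDimensional ℝ E]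
  [MeasurableSpace E] [BorelSpace E] {μ : Measure E} [μ.IsAddHaarMeasure]

/-- a good cell: `f ~ A`, `Df ~ L` off a small part, `A x = b + L (x - z)` -/
structure GC (Ω : Set E) (μ : Measure E) (f : E → E) (G : E → E →L[ℝ] E) (C : Set E)
    (κ e r : ℝ) (z b : E) (L : E →L[ℝ] E) (S : Set E) : Prop where
  sub : cel C z r ⊆ Ω
  low : ∀ v, κ * ‖v‖ ≤ ‖L v‖
  up : ‖L‖ ≤ κ⁻¹
  meas : MeasurableSet S
  sS : S ⊆ cel C z r
  big : μ (cel C z r \ S) ≤ ENNReal.ofReal (e * r ^ finrank ℝ E)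
  cf : ∀ x ∈ S, ‖f x - (b + L (x - z))‖ ≤ e * r
  cG : ∀ x ∈ S, ‖G x - L‖ ≤ e

/-- the good core of a cell -/
def core (C : Set E) (r : ℝ) (z : E) (S : Set E) (s : ℕ → Set E) (σ : ℝ) : Set E :=
  (S ∩ cel C z ((1 - σ) * r)) ∩ ⋃ k, s k

theorem core_sub {C : Set E} {r : ℝ} {z : E} {S : Set E} {s : ℕ → Set E} {σ : ℝ} :
    core C r z S s σ ⊆ S := fun _ hx => hx.1.1

theorem core_image {Ω : Set E} {f : E → E} {G : E → E →L[ℝ] E} {s : ℕ → Set E} {C : Set E}
    {a κ e r : ℝ} {z b : E} {L : E →L[ℝ] E} {S : Set E} (hC : Ref C a) (hκ : 0 < κ) (hr : 0 < r)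
    (hc : GC Ω μ f G C κ e r z b L S) {σ : ℝ} (hσ : 0 < σ) (hσ1 : σ ≤ 1) (he : e ≤ κ * a * σ) :
    f '' core C r z S s σ ⊆ par C L b r := by
  rintro _ ⟨x, ⟨⟨hxS, ⟨u, hu, rfl⟩⟩, -⟩, rfl⟩
  have h1 := hc.cf _ hxS
  refine par_thick hC hκ hc.low hr hσ hσ1 (y := b + ((1 - σ) * r) • L u) ⟨u, hu, rfl⟩ ?_
  have h2 : b + L (z + ((1 - σ) * r) • u - z) = b + ((1 - σ) * r) • L u := by
    rw [add_sub_cancel_left, map_smul]
  rw [← h2]
  refine h1.trans ?_
  gcongr

theorem core_big {Ω : Set E} {f : E → E} {G : E → E →L[ℝ] E} {s : ℕ → Set E} {C : Set E}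
    {a κ e r : ℝ} {z b : E} {L : E →L[ℝ] E} {S : Set E} (hC : Ref C a)
    (h : Lus Ω μ f G s) (hr : 0 < r) (he0 : 0 ≤ e)
    (hc : GC Ω μ f G C κ e r z b L S) {σ : ℝ} (hσ : 0 < σ) (hσ1 : σ ≤ 1) :
    ((1 - σ) ^ finrank ℝ E * (μ C).toReal - e) * r ^ finrank ℝ E ≤
      (μ (core C r z S s σ)).toReal := by
  set n := finrank ℝ E with hn
  have hsub : cel C z ((1 - σ) * r) ⊆ cel C z r :=
    cel_mono hC z (by nlinarith) (by nlinarith)
  have h1 : μ (cel C z ((1 - σ) * r)) ≤ μ (core C r z S s σ) + μ (cel C z r \ S) := by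
    have h2 : cel C z ((1 - σ) * r) ⊆
        (core C r z S s σ ∪ (cel C z r \ S)) ∪ (Ω \ ⋃ k, s k) := by
      intro x hx
      by_cases hxS : x ∈ S
      · by_cases hxU : x ∈ ⋃ k, s k
        · exact Or.inl (Or.inl ⟨⟨hxS, hx⟩, hxU⟩)
        · exact Or.inr ⟨hc.sub (hsub hx), hxU⟩
      · exact Or.inl (Or.inr ⟨hsub hx, hxS⟩)
    calc μ (cel C z ((1 - σ) * r))
        ≤ μ ((core C r z S s σ ∪ (cel C z r \ S)) ∪ (Ω \ ⋃ k, s k)) := measure_mono h2
      _ ≤ μ (core C r z S s σ ∪ (cel C z r \ S)) + μ (Ω \ ⋃ k, s k) := measure_union_le _ _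
      _ = μ (core C r z S s σ ∪ (cel C z r \ S)) := by rw [h.null, add_zero]
      _ ≤ _ := measure_union_le _ _
  have hfin : μ (core C r z S s σ) ≠ ∞ := by
    refine ((measure_mono (core_sub.trans hc.sS)).trans_lt ?_).ne
    exact (isCompact_cel hC.cpt z r).measure_lt_top
  have h3 := h1.trans (add_le_add le_rfl hc.big)
  rw [mu_cel C z (by nlinarith : 0 ≤ (1 - σ) * r)] at h3
  have h4 := ENNReal.toReal_mono (ENNReal.add_ne_top.2 ⟨hfin, ENNReal.ofReal_ne_top⟩) h3
  rw [ENNReal.toReal_mul, ENNReal.toReal_ofReal (by positivity),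
    ENNReal.toReal_add hfin ENNReal.ofReal_ne_top, ENNReal.toReal_ofReal (by positivity),
    mul_pow] at h4
  linarith

/-- **filling** -/
theorem fill {C : Set E} {a : ℝ} (hC : Ref C a) {κ : ℝ} (hκ : 0 < κ) {η : ℝ} (hη : 0 < η) :
    ∃ σ, 0 < σ ∧ σ < 1 ∧ ∃ e₀ > 0, ∀ {Ω : Set E} {f : E → E} {G : E → E →L[ℝ] E} {s : ℕ → Set E},
      Lus Ω μ f G s → InjOn f Ω → ∀ {e r : ℝ} {z b : E} {L : E →L[ℝ] E} {S : Set E},
      0 ≤ e → e ≤ e₀ → 0 < r → GC Ω μ f G C κ e r z b L S →
      MeasurableSet (core C r z S s σ) ∧ MeasurableSet (f '' core C r z S s σ) ∧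
        f '' core C r z S s σ ⊆ par C L b r ∧
        μ (par C L b r \ f '' core C r z S s σ) ≤ ENNReal.ofReal (η * r ^ finrank ℝ E) := by
  set n := finrank ℝ E with hn
  set m := (μ C).toReal with hm
  have hm0 : 0 < m := ENNReal.toReal_pos hC.mu_pos.ne' hC.mu_fin.ne
  obtain ⟨D, hD0, hD⟩ := det_bound (E := E) κ
  obtain ⟨e₁, he₁, hdu⟩ := det_unif (E := E) κ (η := min (κ ^ n) (η / (3 * m))) (by positivity)
  set σ := min (1 / 2) (η / (3 * D * m * (n + 1))) with hσd
  have hσ0 : 0 < σ := by positivity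
  have hσ1 : σ < 1 := lt_of_le_of_lt (min_le_left _ _) (by norm_num)
  have hσ2 : D * m * (1 - (1 - σ) ^ n) ≤ η / 3 := by
    have h1 : 1 + (n:ℝ) * (-σ) ≤ (1 + (-σ)) ^ n := one_add_mul_le_pow (by linarith) n
    have h2 : σ ≤ η / (3 * D * m * (n + 1)) := min_le_right _ _
    have h3 : 1 - (1 - σ) ^ n ≤ (n + 1) * σ := by
      have : (1 + (-σ)) ^ n = (1 - σ) ^ n := by ring
      rw [this] at h1
      nlinarith
    calc D * m * (1 - (1 - σ) ^ n) ≤ D * m * ((n + 1) * σ) := by gcongr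
      _ ≤ D * m * ((n + 1) * (η / (3 * D * m * (n + 1)))) := by gcongr
      _ = η / 3 := by field_simp
  refine ⟨σ, hσ0, hσ1, min e₁ (min (κ * a * σ) (η / (3 * D))), ?_, ?_⟩
  · have := hC.pos
    positivity
  intro Ω f G s h hinj e r z b L S he0 he hr hc
  have hee₁ : e ≤ e₁ := he.trans (min_le_left _ _)
  have heσ : e ≤ κ * a * σ := he.trans ((min_le_right _ _).trans (min_le_left _ _))
  have heD : e ≤ η / (3 * D) := he.trans ((min_le_right _ _).trans (min_le_right _ _))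
  have hcm : MeasurableSet (core C r z S s σ) :=
    (hc.meas.inter (isCompact_cel hC.cpt z _).isClosed.measurableSet).inter h.measU
  have hcU : core C r z S s σ ⊆ ⋃ k, s k := inter_subset_right
  have hfm := measurable_image h hinj hcm hcU
  have hfs : f '' core C r z S s σ ⊆ par C L b r := core_image hC hκ hr hc hσ0 hσ1.le heσ
  refine ⟨hcm, hfm, hfs, ?_⟩
  have hPfin : μ (par C L b r) ≠ ∞ := (isCompact_par hC.cpt L b r).measure_lt_top.ne
  have hFfin : μ (f '' core C r z S s σ) ≠ ∞ :=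
    ((measure_mono hfs).trans_lt hPfin.lt_top).ne
  rw [measure_sdiff hfs hfm.nullMeasurableSet hFfin]
  have hLD : |L.det| ≤ D := hD L hc.up
  have hLlow : κ ^ n ≤ |L.det| := det_low μ hκ hc.low
  set η₁ := min (κ ^ n) (η / (3 * m)) with hη₁
  have hη₁κ : η₁ ≤ κ ^ n := min_le_left _ _
  have hη₁m : η₁ * m ≤ η / 3 := by
    calc η₁ * m ≤ η / (3 * m) * m := by
          gcongr
          exact min_le_right _ _
      _ = η / 3 := by field_simp
  -- lower bound of the image
  have h1 : ENNReal.ofReal (|L.det| - η₁) * μ (core C r z S s σ) ≤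
      μ (f '' core C r z S s σ) := by
    rw [← area h hinj hcm hcU, ← setLIntegral_const]
    apply setLIntegral_mono_ae' hcm
    filter_upwards with x hx
    apply ENNReal.ofReal_le_ofReal
    have h2 := hdu L (G x) hc.up ((hc.cG x (core_sub hx)).trans hee₁)
    have h3 : |L.det| - |(G x).det| ≤ |(G x).det - L.det| := by
      have := abs_sub_abs_le_abs_sub L.det (G x).det
      rwa [abs_sub_comm] at this
    linarith
  have h2 := ENNReal.toReal_mono hFfin h1
  rw [ENNReal.toReal_mul, ENNReal.toReal_ofReal (by linarith)] at h2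
  have h3 := core_big hC h hr he0 hc hσ0 hσ1.le
  have h4 : (μ (par C L b r)).toReal = r ^ n * |L.det| * m := by
    rw [mu_par C L b hr.le, ENNReal.toReal_mul, ENNReal.toReal_ofReal (by positivity)]
  have h5 : (μ (par C L b r)).toReal - (μ (f '' core C r z S s σ)).toReal ≤ η * r ^ n := by
    have hrn : 0 < r ^ n := by positivity
    set Q := (1 - σ) ^ n with hQ
    have hQ0 : 0 ≤ Q := by have := hσ1.le; positivity
    have hQ1 : Q ≤ 1 := pow_le_one₀ (by linarith) (by linarith)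
    have h6 : (|L.det| - η₁) * ((Q * m - e) * r ^ n) ≤ (μ (f '' core C r z S s σ)).toReal := by
      refine le_trans ?_ h2
      apply mul_le_mul_of_nonneg_left h3
      linarith
    rw [h4]
    have h7 : r ^ n * |L.det| * m - (|L.det| - η₁) * ((Q * m - e) * r ^ n) ≤ η * r ^ n := by
      have h8 : r ^ n * |L.det| * m - (|L.det| - η₁) * ((Q * m - e) * r ^ n) =
          (|L.det| * m * (1 - Q) + |L.det| * e + η₁ * (Q * m - e)) * r ^ n := by ring
      rw [h8]
      apply mul_le_mul_of_nonneg_right _ hrn.le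
      have h9 : |L.det| * m * (1 - Q) ≤ η / 3 := by
        refine le_trans ?_ hσ2
        gcongr
      have h10 : |L.det| * e ≤ η / 3 := by
        calc |L.det| * e ≤ D * (η / (3 * D)) := by gcongr
          _ = η / 3 := by field_simp
      have h11 : η₁ * (Q * m - e) ≤ η / 3 := by
        refine le_trans ?_ hη₁m
        have hη₁0 : 0 ≤ η₁ := by positivity
        apply mul_le_mul_of_nonneg_left _ hη₁0
        nlinarith
      linarith
    linarith
  have h6 : μ (f '' core C r z S s σ) ≤ μ (par C L b r) := measure_mono hfs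
  rw [← ENNReal.ofReal_toReal (a := μ (par C L b r) - μ (f '' core C r z S s σ))
    (ne_top_of_le_ne_top hPfin tsub_le_self)]
  apply ENNReal.ofReal_le_ofReal
  rw [ENNReal.toReal_sub_of_le h6 hPfin]
  exact h5

/-- images of the cores of cells with null intersection are disjoint up to a null set -/
theorem inter_null {Ω : Set E} {f : E → E} {G : E → E →L[ℝ] E} {s : ℕ → Set E}
    (h : Lus Ω μ f G s) (hinj : InjOn f Ω) {A B : Set E} (hA : A ⊆ ⋃ k, s k)
    (hB : B ⊆ ⋃ k, s k) (hAB : μ (A ∩ B) = 0) : μ (f '' A ∩ f '' B) = 0 := by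
  have h1 : f '' A ∩ f '' B = f '' (A ∩ B) :=
    (hinj.image_inter (hA.trans h.subU) (hB.trans h.subU)).symm
  rw [h1]
  exact image_null h (inter_subset_left.trans hA) hAB

/-- **(i) disjointness of the shrunk parallelepipeds** -/
theorem disj {C : Set E} {a : ℝ} (hC : Ref C a) {κ : ℝ} (hκ : 0 < κ) {τ : ℝ} (hτ : 0 < τ)
    (hτ1 : τ ≤ 1) : ∃ e₀ > 0, ∀ {Ω : Set E} {f : E → E} {G : E → E →L[ℝ] E} {s : ℕ → Set E},
      Lus Ω μ f G s → InjOn f Ω → ∀ {e r : ℝ} {z b : E} {L : E →L[ℝ] E} {S : Set E}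
      {z' b' : E} {L' : E →L[ℝ] E} {S' : Set E},
      0 ≤ e → e ≤ e₀ → 0 < r → GC Ω μ f G C κ e r z b L S → GC Ω μ f G C κ e r z' b' L' S' →
      μ (cel C z r ∩ cel C z' r) = 0 →
      Disjoint (par C L b ((1 - τ) * r)) (par C L' b' ((1 - τ) * r)) := by
  set n := finrank ℝ E with hn
  set m := (μ (closedBall (0:E) 1)).toReal with hm
  have hm0 : 0 < m := ENNReal.toReal_pos (Lu_538.mu_pos one_pos 0) (Lu_538.mu_fin 0 1)
  have ha := hC.pos
  obtain ⟨σ, hσ0, hσ1, e₀, he₀, hfill⟩ := fill (μ := μ) hC hκ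
    (η := (κ * a * τ) ^ n * m / 4) (by positivity)
  refine ⟨e₀, he₀, ?_⟩
  intro Ω f G s h hinj e r z b L S z' b' L' S' he0 he hr hc hc' hnull
  obtain ⟨-, -, hs1, hf1⟩ := hfill h hinj he0 he hr hc
  obtain ⟨-, -, hs2, hf2⟩ := hfill h hinj he0 he hr hc'
  rw [Set.disjoint_left]
  intro y hy hy'
  have hball : closedBall y (κ * a * τ * r) ⊆ par C L b r ∩ par C L' b' r := by
    intro w hw
    rw [mem_closedBall, dist_eq_norm] at hw
    exact ⟨par_thick hC hκ hc.low hr hτ hτ1 hy hw, par_thick hC hκ hc'.low hr hτ hτ1 hy' hw⟩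
  have h1 : μ (closedBall y (κ * a * τ * r)) ≤
      ENNReal.ofReal ((κ * a * τ) ^ n * m / 4 * r ^ n) +
        ENNReal.ofReal ((κ * a * τ) ^ n * m / 4 * r ^ n) := by
    have h2 : closedBall y (κ * a * τ * r) ⊆
        ((par C L b r \ f '' core C r z S s σ) ∪ (par C L' b' r \ f '' core C r z' S' s σ)) ∪
          (f '' core C r z S s σ ∩ f '' core C r z' S' s σ) := by
      intro w hw
      obtain ⟨hw1, hw2⟩ := hball hw
      by_cases hw3 : w ∈ f '' core C r z S s σ
      · by_cases hw4 : w ∈ f '' core C r z' S' s σ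
        · exact Or.inr ⟨hw3, hw4⟩
        · exact Or.inl (Or.inr ⟨hw2, hw4⟩)
      · exact Or.inl (Or.inl ⟨hw1, hw3⟩)
    have h3 : μ (f '' core C r z S s σ ∩ f '' core C r z' S' s σ) = 0 := by
      apply inter_null h hinj inter_subset_right inter_subset_right
      refine measure_mono_null ?_ hnull
      rintro x ⟨hx, hx'⟩
      exact ⟨hc.sS (core_sub hx), hc'.sS (core_sub hx')⟩
    refine (measure_mono h2).trans ((measure_union_le _ _).trans ?_)
    rw [h3, add_zero]
    exact (measure_union_le _ _).trans (add_le_add hf1 hf2)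
  rw [Measure.addHaar_closedBall' μ y (by positivity), ← ENNReal.ofReal_add (by positivity)
    (by positivity)] at h1
  have h2 : ENNReal.ofReal ((κ * a * τ * r) ^ n) * μ (closedBall (0:E) 1) =
      ENNReal.ofReal ((κ * a * τ * r) ^ n * m) := by
    rw [ENNReal.ofReal_mul (by positivity), ENNReal.ofReal_toReal (Lu_538.mu_fin 0 1)]
  rw [h2, ENNReal.ofReal_le_ofReal_iff (by positivity), mul_pow] at h1
  have h3 : 0 < (κ * a * τ) ^ n * r ^ n * m := by positivity
  nlinarith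

end

end Crest.Agent.R96.Intr_538
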