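/-
helper538, row 96, leaf INTR (335 #6511 (a)), part 3: push forward of an absolutely continuous
finite measure under an injective Sobolev map: absolutely continuous part and singular part with
density zero.
-/
import Mathlib
import Crest.Agent.R96.Intr2_538

set_option autoImplicit false
set_option linter.unusedSectionVars false

open MeasureTheory Set Filter Metric Module
open scoped ENNReal NNReal Topology

namespace Crest.Agent.R96.Intr_538

open Crest.Agent.R96.Lu_538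

noncomputable section

variable {E : Type*} [NormedAddCommGroup E] [NormedSpace ℝ E] [FiniteDimensional ℝ E]
  [MeasurableSpace E] [BorelSpace E] {μ : Measure E} [μ.IsAddHaarMeasure]

/-- a measurable version of the critical set -/
theorem exists_crit {Ω : Set E} (hΩ : MeasurableSet Ω) {f : E → E} {G : E → E →L[ℝ] E}
    {s : ℕ → Set E} (h : Lus Ω μ f G s) (hG : AEStronglyMeasurable G (μ.restrict Ω)) :
    ∃ Z ⊆ ⋃ k, s k, MeasurableSet Z ∧ (∀ x ∈ Z, (G x).det = 0) ∧
      ∀ᵐ x ∂μ, x ∈ Ω → (G x).det = 0 → x ∈ Z := by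
  have h6 : AEMeasurable (fun x => (G x).det) (μ.restrict Ω) :=
    (ContinuousLinearMap.continuous_det (𝕜 := ℝ) (E := E)).measurable.comp_aemeasurable
      hG.aemeasurable
  have h7 : NullMeasurableSet {x | x ∈ (⋃ k, s k) ∧ (G x).det = 0} μ := by
    have h8 : NullMeasurableSet ((fun x => (G x).det) ⁻¹' {0}) (μ.restrict Ω) :=
      h6.nullMeasurable (measurableSet_singleton (0:ℝ))
    have h9 := (nullMeasurableSet_restrict hΩ.nullMeasurableSet).1 h8
    have h10 := h9.inter h.measU.nullMeasurableSet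
    convert h10 using 1
    ext x
    constructor
    · rintro ⟨h1, h2⟩
      exact ⟨⟨h2, h.subU h1⟩, h1⟩
    · rintro ⟨⟨h1, h2⟩, h3⟩
      exact ⟨h3, h1⟩
  obtain ⟨Z, hZ1, hZ2, hZ3⟩ := h7.exists_measurable_subset_ae_eq
  refine ⟨Z, fun x hx => (hZ1 hx).1, hZ2, fun x hx => (hZ1 hx).2, ?_⟩
  filter_upwards [hZ3.mem_iff, h.ae_mem] with x hx hx2 hxΩ hx0
  exact hx.2 ⟨hx2 hxΩ, hx0⟩

theorem aem_f {Ω : Set E} (hΩ : MeasurableSet Ω) {f : E → E} (hf : ContinuousOn f Ω)
    {m : Measure E} {A : Set E} (hA : A ⊆ Ω) : AEMeasurable f (m.restrict A) :=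
  (hf.aemeasurable hΩ).mono_measure (Measure.restrict_mono hA le_rfl)

/-- absolutely continuous part -/
theorem ac_part {Ω : Set E} (hΩ : MeasurableSet Ω) {f : E → E} {G : E → E →L[ℝ] E}
    {s : ℕ → Set E} (h : Lus Ω μ f G s) (hinj : InjOn f Ω) (hf : ContinuousOn f Ω)
    (hG : AEStronglyMeasurable G (μ.restrict Ω)) {m : Measure E} [IsFiniteMeasure m]
    (hm : m ≪ μ) {Z : Set E} (hZm : MeasurableSet Z)
    (hZ : ∀ᵐ x ∂μ, x ∈ Ω → (G x).det = 0 → x ∈ Z) {ε : ℝ≥0∞} (hε : ε ≠ 0) :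
    ∃ δ > 0, ∀ B : Set E, μ B < δ → m ((Ω \ Z) ∩ f ⁻¹' B) < ε := by
  have hfm : AEMeasurable f (m.restrict (Ω \ Z)) := aem_f hΩ hf sdiff_subset
  set ν : Measure E := Measure.map f (m.restrict (Ω \ Z)) with hν
  have hνf : IsFiniteMeasure ν := by rw [hν]; infer_instance
  have hac : ν ≪ μ := by
    apply Measure.AbsolutelyContinuous.mk
    intro V hV hV0
    rw [hν, Measure.map_apply_of_aemeasurable hfm hV]
    have h1 := h.ae_crit_of_null hinj hf hΩ hG hV0
    have h2 : ∀ᵐ x ∂m, x ∈ Ω → f x ∈ V → x ∈ Z := by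
      apply hm.ae_le
      filter_upwards [h1, hZ] with x h3 h4 h5 h6
      exact h4 h5 (h3 h5 h6)
    rw [Measure.restrict_apply₀' (hΩ.diff hZm).nullMeasurableSet]
    apply measure_mono_null _ (ae_iff.1 h2)
    rintro x ⟨hx1, hx2, hx3⟩
    simp only [mem_ofPred_eq, not_forall]
    exact ⟨hx2, hx1, hx3⟩
  have h1 : μ.withDensity (ν.rnDeriv μ) = ν := Measure.withDensity_rnDeriv_eq ν μ hac
  have h2 : ∫⁻ x, ν.rnDeriv μ x ∂μ ≠ ∞ := (Measure.lintegral_rnDeriv_lt_top ν μ).ne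
  obtain ⟨δ, hδ, h3⟩ := exists_pos_setLIntegral_lt_of_measure_lt h2 hε
  refine ⟨δ, hδ, fun B hB => ?_⟩
  set B' := toMeasurable μ B with hB'
  have hB'm : MeasurableSet B' := measurableSet_toMeasurable _ _
  have h4 : μ B' < δ := by rw [hB', measure_toMeasurable]; exact hB
  have h5 := h3 B' h4
  rw [← withDensity_apply _ hB'm, h1, hν, Measure.map_apply_of_aemeasurable hfm hB'm,
    Measure.restrict_apply₀' (hΩ.diff hZm).nullMeasurableSet] at h5
  refine lt_of_le_of_lt (measure_mono ?_) h5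
  rintro x ⟨hx1, hx2⟩
  exact ⟨subset_toMeasurable μ B hx2, hx1⟩

/-- singular part has density zero -/
theorem sing_part {Ω : Set E} (hΩ : MeasurableSet Ω) {f : E → E} {G : E → E →L[ℝ] E}
    {s : ℕ → Set E} (h : Lus Ω μ f G s) (hinj : InjOn f Ω) (hf : ContinuousOn f Ω)
    {m : Measure E} [IsFiniteMeasure m] {Z : Set E} (hZs : Z ⊆ ⋃ k, s k)
    (hZm : MeasurableSet Z) (hZ0 : ∀ x ∈ Z, (G x).det = 0) :
    ∃ ν : Measure E, IsFiniteMeasure ν ∧ (∀ B : Set E, MeasurableSet B →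
      ν B = m (Z ∩ f ⁻¹' B)) ∧ ν ⟂ₘ μ := by
  have hZΩ : Z ⊆ Ω := hZs.trans h.subU
  have hfm : AEMeasurable f (m.restrict Z) := aem_f hΩ hf hZΩ
  refine ⟨Measure.map f (m.restrict Z), inferInstance, ?_, ?_⟩
  · intro B hB
    rw [Measure.map_apply_of_aemeasurable hfm hB,
      Measure.restrict_apply₀' hZm.nullMeasurableSet, inter_comm]
  · have h1 : MeasurableSet (f '' Z) := measurable_image h hinj hZm hZs
    have h2 : μ (f '' Z) = 0 := crit_null h hZs hZ0
    refine Measure.MutuallySingular.symm ⟨f '' Z, h1, h2, ?_⟩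
    rw [Measure.map_apply_of_aemeasurable hfm h1.compl,
      Measure.restrict_apply₀' hZm.nullMeasurableSet]
    convert measure_empty (μ := m)
    ext x
    simp only [mem_inter_iff, mem_preimage, mem_compl_iff, mem_empty_iff_false, iff_false, not_and]
    intro hx hxZ
    exact hx (mem_image_of_mem f hxZ)

/-- the bad set at scale `ρ` -/
def Bad (μ ν : Measure E) (ε : ℝ≥0∞) (ρ : ℝ) : Set E :=
  {y | ε * μ (closedBall (0:E) ρ) < ν (closedBall y ρ)}

theorem measurableSet_Bad (μ ν : Measure E) [IsFiniteMeasure ν] (ε : ℝ≥0∞) (ρ : ℝ) :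
    MeasurableSet (Bad μ ν ε ρ) := by
  have h1 : MeasurableSet {p : E × E | dist p.2 p.1 ≤ ρ} :=
    measurableSet_le (by fun_prop) measurable_const
  have h2 : Measurable fun y : E => ν (Prod.mk y ⁻¹' {p : E × E | dist p.2 p.1 ≤ ρ}) :=
    measurable_measure_prodMk_left h1
  exact measurableSet_lt measurable_const h2

/-- the bad set disappears -/
theorem tendsto_bad {ν : Measure E} [IsFiniteMeasure ν] (hν : ν ⟂ₘ μ) {ε : ℝ≥0∞} (hε : ε ≠ 0)
    {Λ : Set E} (hΛ : MeasurableSet Λ) (hΛf : μ Λ ≠ ∞) :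
    Tendsto (fun ρ : ℝ => μ (Bad μ ν ε ρ ∩ Λ)) (𝓝[>] 0) (𝓝 0) := by
  have h1 : ∀ᵐ y ∂μ, Tendsto (fun r => ν (closedBall y r) / μ (closedBall y r)) (𝓝[>] 0) (𝓝 0) := by
    filter_upwards [Besicovitch.ae_tendsto_rnDeriv ν μ, hν.rnDeriv_ae_eq_zero] with y h2 h3
    rw [h3] at h2
    exact h2
  have h2 : ∀ᵐ y ∂μ, Tendsto (fun ρ : ℝ => (Bad μ ν ε ρ ∩ Λ).indicator (fun _ => (1:ℝ≥0∞)) y)
      (𝓝[>] 0) (𝓝 0) := by
    filter_upwards [h1] with y hy
    have h3 : ∀ᶠ r in 𝓝[>] (0:ℝ), ν (closedBall y r) / μ (closedBall y r) < ε :=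
      hy.eventually_lt_const (pos_iff_ne_zero.2 hε)
    apply tendsto_const_nhds.congr'
    filter_upwards [h3, self_mem_nhdsWithin] with r hr hr0
    have hr0' : (0:ℝ) < r := hr0
    rw [indicator_of_notMem]
    rintro ⟨hb, -⟩
    have h4 : ε * μ (closedBall (0:E) r) < ν (closedBall y r) := hb
    rw [← mu_center y] at h4
    rw [ENNReal.div_lt_iff (Or.inl (Lu_538.mu_pos hr0' y)) (Or.inl (Lu_538.mu_fin y r))] at hr
    exact absurd h4 (not_lt.2 hr.le)
  have h3 := tendsto_lintegral_filter_of_dominated_convergence (μ := μ) (l := 𝓝[>] (0:ℝ))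
    (F := fun ρ : ℝ => (Bad μ ν ε ρ ∩ Λ).indicator (fun _ => (1:ℝ≥0∞))) (f := fun _ => 0)
    (Λ.indicator fun _ => 1)
    (Eventually.of_forall fun ρ => measurable_const.indicator
      ((measurableSet_Bad μ ν ε ρ).inter hΛ))
    (Eventually.of_forall fun ρ => Eventually.of_forall fun y =>
      indicator_le_indicator_of_subset inter_subset_right (fun _ => zero_le_one) y)
    (by rw [lintegral_indicator_const hΛ, one_mul]; exact hΛf) h2
  simp only [lintegral_zero] at h3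
  refine h3.congr fun ρ => ?_
  rw [lintegral_indicator_const ((measurableSet_Bad μ ν ε ρ).inter hΛ), one_mul]

end

end Crest.Agent.R96.Intr_538
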