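/-
helper538, row 96, leaf INTR (335 #6511 (a)), part 4: NO INTRUDERS.
-/
import Mathlib
import Crest.Agent.R96.Intr3_538

set_option autoImplicit false
set_option linter.unusedSectionVars false

open MeasureTheory Set Filter Metric Module
open scoped ENNReal NNReal Topology

namespace Crest.Agent.R96.Intr_538

open Crest.Agent.R96.Lu_538

noncomputable section

universe u

variable {E : Type*} [NormedAddCommGroup E] [NormedSpace ℝ E] [FiniteDimensional ℝ E]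
  [MeasurableSpace E] [BorelSpace E] {μ : Measure E} [μ.IsAddHaarMeasure]

theorem card_bound {ι : Type*} (Q : Finset ι) {F : ι → Set E} {B : Set E} {c : ℝ} (hc : 0 ≤ c)
    (hF : ∀ i ∈ Q, MeasurableSet (F i)) (hd : ∀ i ∈ Q, ∀ j ∈ Q, i ≠ j → μ (F i ∩ F j) = 0)
    (hl : ∀ i ∈ Q, ENNReal.ofReal c ≤ μ (F i)) (hB : ∀ i ∈ Q, F i ⊆ B) (hBf : μ B ≠ ∞) :
    (Q.card : ℝ) * c ≤ (μ B).toReal := by
  have h1 : ∑ i ∈ Q, ENNReal.ofReal c ≤ μ B := by
    calc ∑ i ∈ Q, ENNReal.ofReal c ≤ ∑ i ∈ Q, μ (F i) := Finset.sum_le_sum hl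
      _ = μ (⋃ i ∈ Q, F i) := by
          rw [measure_biUnion_finset₀]
          · intro i hi j hj hij
            exact hd i hi j hj hij
          · exact fun i hi => (hF i hi).nullMeasurableSet
      _ ≤ μ B := measure_mono (iUnion₂_subset hB)
  rw [Finset.sum_const, nsmul_eq_mul] at h1
  have h2 := ENNReal.toReal_mono hBf h1
  rw [ENNReal.toReal_mul, ENNReal.toReal_natCast, ENNReal.toReal_ofReal hc] at h2
  exact h2

/-- the image of the core of a good cell has measure bounded below -/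
theorem image_low {C : Set E} {a : ℝ} (hC : Ref C a) {κ : ℝ} (hκ : 0 < κ) {L : E →L[ℝ] E}
    (hL : ∀ v, κ * ‖v‖ ≤ ‖L v‖) {b : E} {r η c : ℝ} (hr : 0 < r) (hη : 0 ≤ η) (hc : 0 ≤ c)
    (hcη : c + η ≤ κ ^ finrank ℝ E * (μ C).toReal) {F : Set E}
    (hf : μ (par C L b r \ F) ≤ ENNReal.ofReal (η * r ^ finrank ℝ E)) :
    ENNReal.ofReal (c * r ^ finrank ℝ E) ≤ μ F := by
  set n := finrank ℝ E
  have h1 : ENNReal.ofReal ((c + η) * r ^ n) ≤ μ (par C L b r) := by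
    rw [mu_par C L b hr.le, ← ENNReal.ofReal_toReal hC.mu_fin.ne,
      ← ENNReal.ofReal_mul (by positivity)]
    apply ENNReal.ofReal_le_ofReal
    have h2 := det_low μ hκ hL
    calc (c + η) * r ^ n ≤ (κ ^ n * (μ C).toReal) * r ^ n := by gcongr
      _ ≤ (|L.det| * (μ C).toReal) * r ^ n := by gcongr
      _ = _ := by ring
  have h2 : μ (par C L b r) ≤ μ F + ENNReal.ofReal (η * r ^ n) := by
    calc μ (par C L b r) ≤ μ (F ∪ (par C L b r \ F)) := measure_mono (by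
          intro x hx
          by_cases h : x ∈ F
          · exact Or.inl h
          · exact Or.inr ⟨hx, h⟩)
      _ ≤ μ F + μ (par C L b r \ F) := measure_union_le _ _
      _ ≤ _ := add_le_add le_rfl hf
  have h3 := h1.trans h2
  rw [add_mul, ENNReal.ofReal_add (by positivity) (by positivity)] at h3
  exact (ENNReal.add_le_add_iff_right ENNReal.ofReal_ne_top).1 h3

/-- number of good cells -/
theorem card_le {C : Set E} {a : ℝ} (hC : Ref C a) {κ : ℝ} (hκ : 0 < κ) :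
    ∃ c₀ > 0, ∃ e₀ > 0, ∀ {Ω Λ : Set E} {f : E → E} {G : E → E →L[ℝ] E} {s : ℕ → Set E},
      Lus Ω μ f G s → InjOn f Ω → MapsTo f Ω Λ → μ Λ ≠ ∞ → ∀ {e r : ℝ}, 0 ≤ e → e ≤ e₀ → 0 < r →
      ∀ {ι : Type u} (Q : Finset ι) (z b : ι → E) (L : ι → E →L[ℝ] E) (S : ι → Set E),
      (∀ i ∈ Q, GC Ω μ f G C κ e r (z i) (b i) (L i) (S i)) →
      (∀ i ∈ Q, ∀ j ∈ Q, i ≠ j → μ (cel C (z i) r ∩ cel C (z j) r) = 0) →
      (Q.card : ℝ) * (c₀ * r ^ finrank ℝ E) ≤ (μ Λ).toReal := by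
  set n := finrank ℝ E with hn
  have hmC : 0 < (μ C).toReal := ENNReal.toReal_pos hC.mu_pos.ne' hC.mu_fin.ne
  set c₀ := κ ^ n * (μ C).toReal / 2 with hc₀
  have hc₀0 : 0 < c₀ := by positivity
  obtain ⟨σ, hσ0, hσ1, e₀, he₀, hfill⟩ := fill (μ := μ) hC hκ (η := c₀) hc₀0
  refine ⟨c₀, hc₀0, e₀, he₀, ?_⟩
  intro Ω Λ f G s h hinj hfΛ hΛ e r he0 he hr ι Q z b L S hQ hdis
  have h1 := fun i (hi : i ∈ Q) => hfill h hinj he0 he hr (hQ i hi)
  refine card_bound (μ := μ) Q (F := fun i => f '' core C r (z i) (S i) s σ) (B := Λ)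
    (by positivity) (fun i hi => (h1 i hi).2.1) ?_ ?_ ?_ hΛ
  · intro i hi j hj hij
    apply inter_null h hinj inter_subset_right inter_subset_right
    refine measure_mono_null ?_ (hdis i hi j hj hij)
    rintro x ⟨hx, hx'⟩
    exact ⟨(hQ i hi).sS (core_sub hx), (hQ j hj).sS (core_sub hx')⟩
  · intro i hi
    exact image_low hC hκ (hQ i hi).low hr hc₀0.le hc₀0.le (by rw [hc₀]; linarith) (h1 i hi).2.2.2
  · intro i hi
    rintro _ ⟨x, hx, rfl⟩
    exact hfΛ (h.subU hx.2)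

/-- **(iii) NO INTRUDERS.** `m` is any finite measure absolutely continuous with respect to `μ`
(e.g. energy + volume). For small cells, off few cells, the mass of the points which `f` sends
into the parallelepipeds but which are not in the cells is small. -/
theorem intr {Ω Λ : Set E} (hΩ : MeasurableSet Ω) {f : E → E} {G : E → E →L[ℝ] E}
    {s : ℕ → Set E} (h : Lus Ω μ f G s) (hinj : InjOn f Ω) (hf : ContinuousOn f Ω)
    (hG : AEStronglyMeasurable G (μ.restrict Ω)) (hΛ : MeasurableSet Λ) (hΛf : μ Λ ≠ ∞)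
    (hfΛ : MapsTo f Ω Λ) {m : Measure E} [IsFiniteMeasure m] (hm : m ≪ μ) {C : Set E} {a : ℝ}
    (hC : Ref C a) {κ : ℝ} (hκ : 0 < κ) {ε : ℝ} (hε : 0 < ε) :
    ∃ e₀ > 0, ∃ r₀ > 0, ∀ {e r : ℝ}, 0 ≤ e → e ≤ e₀ → 0 < r → r < r₀ →
      ∀ {ι : Type u} (Q : Finset ι) (z b : ι → E) (L : ι → E →L[ℝ] E) (S : ι → Set E),
      (∀ i ∈ Q, GC Ω μ f G C κ e r (z i) (b i) (L i) (S i)) →
      (∀ i ∈ Q, ∀ j ∈ Q, i ≠ j → μ (cel C (z i) r ∩ cel C (z j) r) = 0) →
      ∃ Q1 ⊆ Q, (Q.card - Q1.card : ℝ) * r ^ finrank ℝ E ≤ ε ∧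
        m ((Ω ∩ f ⁻¹' (⋃ i ∈ Q1, par C (L i) (b i) r)) \ ⋃ i ∈ Q1, cel C (z i) r) ≤
          ENNReal.ofReal ε := by
  classical
  set n := finrank ℝ E with hn
  have hmC : 0 < (μ C).toReal := ENNReal.toReal_pos hC.mu_pos.ne' hC.mu_fin.ne
  set mB := (μ (closedBall (0:E) 1)).toReal with hmB
  have hmB0 : 0 < mB := ENNReal.toReal_pos (Lu_538.mu_pos one_pos 0) (Lu_538.mu_fin 0 1)
  set c₀ := κ ^ n * (μ C).toReal / 2 with hc₀
  have hc₀0 : 0 < c₀ := by positivity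
  set M := (μ Λ).toReal / c₀ + 1 with hM
  have hM0 : 0 < M := by positivity
  obtain ⟨Z, hZs, hZm, hZ0, hZae⟩ := exists_crit hΩ h hG
  obtain ⟨δ, hδ0, hδ⟩ := ac_part hΩ h hinj hf hG hm hZm hZae
    (ε := ENNReal.ofReal (ε / 2)) (by
      rw [Ne, ENNReal.ofReal_eq_zero, not_le]; positivity)
  obtain ⟨δ', hδ'0, hδ'⟩ : ∃ δ' : ℝ, 0 < δ' ∧ ENNReal.ofReal δ' < δ := by
    obtain ⟨q, hq1, hq2⟩ := ENNReal.lt_iff_exists_nnreal_btwn.1 hδ0
    refine ⟨q, by exact_mod_cast hq1, by rwa [ENNReal.ofReal_coe_nnreal]⟩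
  obtain ⟨ν, hνf, hν, hνs⟩ := sing_part (m := m) hΩ h hinj hf hZs hZm hZ0
  obtain ⟨R, hR⟩ := hC.cpt.isBounded.subset_closedBall 0
  set R' := max R 1 with hR'
  have hR'0 : 0 < R' := by positivity
  have hCR : C ⊆ closedBall 0 R' := hR.trans (closedBall_subset_closedBall (le_max_left _ _))
  set cρ := 2 * R' * κ⁻¹ with hcρ
  have hcρ0 : 0 < cρ := by positivity
  set ε₁ := ε / (2 * M * cρ ^ n * mB) with hε₁
  have hε₁0 : 0 < ε₁ := by positivity
  have ht := tendsto_bad (μ := μ) hνs (ε := ENNReal.ofReal ε₁) (by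
    rw [Ne, ENNReal.ofReal_eq_zero, not_le]; positivity) hΛ hΛf
  have ht2 := ht.eventually_lt_const (u := ENNReal.ofReal (c₀ * ε)) (by
    rw [ENNReal.ofReal_pos]; positivity)
  obtain ⟨ρ₀, hρ₀, hρ₀2⟩ := (mem_nhdsGT_iff_exists_Ioo_subset).1 ht2
  have hρ₀0 : (0:ℝ) < ρ₀ := hρ₀
  obtain ⟨σ, hσ0, hσ1, e₀, he₀, hfill⟩ := fill (μ := μ) hC hκ (η := min c₀ (δ' / (2 * M)))
    (by positivity)
  refine ⟨e₀, he₀, ρ₀ / cρ, by positivity, ?_⟩
  intro e r he0 he hr hrr ι Q z b L S hQ hdis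
  set η := min c₀ (δ' / (2 * M)) with hη
  have hη0 : 0 < η := by positivity
  set F : ι → Set E := fun i => f '' core C r (z i) (S i) s σ with hF
  set P : ι → Set E := fun i => par C (L i) (b i) r with hP
  set ρ := cρ * r with hρ
  have hρ0 : 0 < ρ := by positivity
  have hρρ : ρ < ρ₀ := by rw [hρ, mul_comm]; exact (lt_div_iff₀ hcρ0).1 hrr
  have h1 := fun i (hi : i ∈ Q) => hfill h hinj he0 he hr (hQ i hi)
  have hFm : ∀ i ∈ Q, MeasurableSet (F i) := fun i hi => (h1 i hi).2.1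
  have hFP : ∀ i ∈ Q, F i ⊆ P i := fun i hi => (h1 i hi).2.2.1
  have hPF : ∀ i ∈ Q, μ (P i \ F i) ≤ ENNReal.ofReal (η * r ^ n) := fun i hi => (h1 i hi).2.2.2
  have hPm : ∀ i, MeasurableSet (P i) := fun i =>
    (isCompact_par hC.cpt _ _ _).isClosed.measurableSet
  have hFΛ : ∀ i ∈ Q, F i ⊆ Λ := by
    intro i hi
    rintro _ ⟨x, hx, rfl⟩
    exact hfΛ (h.subU hx.2)
  have hFd : ∀ i ∈ Q, ∀ j ∈ Q, i ≠ j → μ (F i ∩ F j) = 0 := by
    intro i hi j hj hij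
    apply inter_null h hinj inter_subset_right inter_subset_right
    refine measure_mono_null ?_ (hdis i hi j hj hij)
    rintro x ⟨hx, hx'⟩
    exact ⟨(hQ i hi).sS (core_sub hx), (hQ j hj).sS (core_sub hx')⟩
  have hFl : ∀ i ∈ Q, ENNReal.ofReal (c₀ * r ^ n) ≤ μ (F i) := fun i hi =>
    image_low hC hκ (hQ i hi).low hr hη0.le hc₀0.le
      (by
        have : η ≤ c₀ := min_le_left _ _
        rw [hc₀] at this ⊢; linarith) (hPF i hi)
  have hrn : 0 < r ^ n := by positivity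
  have hcard : (Q.card : ℝ) * r ^ n ≤ M := by
    have h2 := card_bound (μ := μ) Q (by positivity) hFm hFd hFl hFΛ hΛf
    have h3 : (Q.card : ℝ) * r ^ n * c₀ ≤ (μ Λ).toReal := by linarith
    have h4 := (le_div_iff₀ hc₀0).2 h3
    rw [hM]; linarith
  set Q1 := Q.filter (fun i => ν (P i) ≤ ENNReal.ofReal ε₁ * μ (closedBall (0:E) ρ)) with hQ1
  have hQ1Q : Q1 ⊆ Q := Finset.filter_subset _ _
  have hcard1 : (Q1.card : ℝ) * r ^ n ≤ M := by
    refine le_trans ?_ hcard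
    have : (Q1.card : ℝ) ≤ Q.card := by exact_mod_cast Finset.card_le_card hQ1Q
    gcongr
  refine ⟨Q1, hQ1Q, ?_, ?_⟩
  · -- few bad cells
    set Q2 := Q.filter (fun i => ¬ ν (P i) ≤ ENNReal.ofReal ε₁ * μ (closedBall (0:E) ρ)) with hQ2
    have hQ2Q : Q2 ⊆ Q := Finset.filter_subset _ _
    have h2 : Q1.card + Q2.card = Q.card := Finset.card_filter_add_card_filter_not _
    have h3 : ∀ i ∈ Q2, F i ⊆ Bad μ ν (ENNReal.ofReal ε₁) ρ ∩ Λ := by
      intro i hi y hy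
      rw [hQ2, Finset.mem_filter] at hi
      refine ⟨?_, hFΛ i hi.1 hy⟩
      show ENNReal.ofReal ε₁ * μ (closedBall (0:E) ρ) < ν (closedBall y ρ)
      refine lt_of_lt_of_le (not_le.1 hi.2) (measure_mono ?_)
      intro y' hy'
      rw [mem_closedBall]
      exact par_dist hCR (hQ i hi.1).up hr.le (hFP i hi.1 hy) hy'
    have h4 : μ (Bad μ ν (ENNReal.ofReal ε₁) ρ ∩ Λ) < ENNReal.ofReal (c₀ * ε) :=
      hρ₀2 ⟨hρ0, hρρ⟩
    have h5 := card_bound (μ := μ) Q2 (c := c₀ * r ^ n) (by positivity)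
      (fun i hi => hFm i (hQ2Q hi))
      (fun i hi j hj => hFd i (hQ2Q hi) j (hQ2Q hj)) (fun i hi => hFl i (hQ2Q hi)) h3
      (h4.trans ENNReal.ofReal_lt_top).ne
    have h6 : (μ (Bad μ ν (ENNReal.ofReal ε₁) ρ ∩ Λ)).toReal ≤ c₀ * ε := by
      have := ENNReal.toReal_mono ENNReal.ofReal_ne_top h4.le
      rwa [ENNReal.toReal_ofReal (by positivity)] at this
    have h7 : (Q2.card : ℝ) * r ^ n * c₀ ≤ ε * c₀ := by linarith
    have h8 := le_of_mul_le_mul_right h7 hc₀0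
    have h9 : (Q.card - Q1.card : ℝ) = Q2.card := by
      have : (Q1.card : ℝ) + Q2.card = Q.card := by exact_mod_cast h2
      linarith
    rw [h9]
    exact h8
  · -- the mass of intruders
    set Zη := ⋃ i ∈ Q1, (P i \ F i) with hZη
    have hsub : (Ω ∩ f ⁻¹' (⋃ i ∈ Q1, P i)) \ ⋃ i ∈ Q1, cel C (z i) r ⊆
        ((Ω \ Z) ∩ f ⁻¹' Zη) ∪ (Z ∩ f ⁻¹' (⋃ i ∈ Q1, P i)) := by
      rintro x ⟨⟨hxΩ, hxP⟩, hxc⟩
      by_cases hxZ : x ∈ Z
      · exact Or.inr ⟨hxZ, hxP⟩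
      · refine Or.inl ⟨⟨hxΩ, hxZ⟩, ?_⟩
        rw [mem_preimage, mem_iUnion₂] at hxP
        obtain ⟨i, hi, hxi⟩ := hxP
        refine mem_iUnion₂.2 ⟨i, hi, hxi, ?_⟩
        rintro ⟨x', hx', hxx'⟩
        have h2 : x' = x := hinj (h.subU hx'.2) hxΩ hxx'
        subst h2
        exact hxc (mem_iUnion₂.2 ⟨i, hi, (hQ i (hQ1Q hi)).sS (core_sub hx')⟩)
    have hA : m ((Ω \ Z) ∩ f ⁻¹' Zη) ≤ ENNReal.ofReal (ε / 2) := by
      apply (hδ Zη _).le
      refine lt_of_le_of_lt ?_ hδ'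
      calc μ Zη ≤ ∑ i ∈ Q1, μ (P i \ F i) := measure_biUnion_finset_le _ _
        _ ≤ ∑ i ∈ Q1, ENNReal.ofReal (η * r ^ n) :=
            Finset.sum_le_sum fun i hi => hPF i (hQ1Q hi)
        _ = ENNReal.ofReal (Q1.card * (η * r ^ n)) := by
            rw [Finset.sum_const, nsmul_eq_mul, ENNReal.ofReal_mul (Nat.cast_nonneg _),
              ENNReal.ofReal_natCast]
        _ ≤ ENNReal.ofReal δ' := by
            apply ENNReal.ofReal_le_ofReal
            have h2 : η ≤ δ' / (2 * M) := min_le_right _ _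
            calc (Q1.card : ℝ) * (η * r ^ n) = (Q1.card * r ^ n) * η := by ring
              _ ≤ M * (δ' / (2 * M)) := by gcongr
              _ = δ' / 2 := by field_simp
              _ ≤ δ' := by linarith
    have hB : m (Z ∩ f ⁻¹' (⋃ i ∈ Q1, P i)) ≤ ENNReal.ofReal (ε / 2) := by
      rw [← hν _ (Finset.measurableSet_biUnion _ fun i _ => hPm i)]
      calc ν (⋃ i ∈ Q1, P i) ≤ ∑ i ∈ Q1, ν (P i) := measure_biUnion_finset_le _ _
        _ ≤ ∑ i ∈ Q1, ENNReal.ofReal ε₁ * μ (closedBall (0:E) ρ) :=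
            Finset.sum_le_sum fun i hi => (Finset.mem_filter.1 hi).2
        _ = ENNReal.ofReal (Q1.card * (ε₁ * (ρ ^ n * mB))) := by
            rw [Finset.sum_const, nsmul_eq_mul, ENNReal.ofReal_mul (Nat.cast_nonneg _),
              ENNReal.ofReal_natCast, ENNReal.ofReal_mul hε₁0.le,
              Measure.addHaar_closedBall' μ 0 hρ0.le, ENNReal.ofReal_mul (by positivity),
              ENNReal.ofReal_toReal (Lu_538.mu_fin 0 1)]
        _ ≤ ENNReal.ofReal (ε / 2) := by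
            apply ENNReal.ofReal_le_ofReal
            calc (Q1.card : ℝ) * (ε₁ * (ρ ^ n * mB))
                = (Q1.card * r ^ n) * (ε₁ * cρ ^ n * mB) := by rw [hρ, mul_pow]; ring
              _ ≤ M * (ε₁ * cρ ^ n * mB) := by gcongr
              _ = ε / 2 := by rw [hε₁]; field_simp
    calc m ((Ω ∩ f ⁻¹' (⋃ i ∈ Q1, P i)) \ ⋃ i ∈ Q1, cel C (z i) r)
        ≤ m (((Ω \ Z) ∩ f ⁻¹' Zη) ∪ (Z ∩ f ⁻¹' (⋃ i ∈ Q1, P i))) := measure_mono hsub
      _ ≤ m ((Ω \ Z) ∩ f ⁻¹' Zη) + m (Z ∩ f ⁻¹' (⋃ i ∈ Q1, P i)) := measure_union_le _ _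
      _ ≤ ENNReal.ofReal (ε / 2) + ENNReal.ofReal (ε / 2) := add_le_add hA hB
      _ = ENNReal.ofReal ε := by
          rw [← ENNReal.ofReal_add (by positivity) (by positivity), add_halves]

end

end Crest.Agent.R96.Intr_538
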