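/-
helper538, row 96, leaf INTR (335 #6511 (a)), part 5: uniform versions: the reference cells (frames)
and the sizes vary from cell to cell.
-/
import Mathlib
import Crest.Agent.R96.Intr4_538

set_option autoImplicit false
set_option linter.unusedSectionVars false

open MeasureTheory Set Filter Metric Module
open scoped ENNReal NNReal Topology

namespace Crest.Agent.R96.Intr_538

open Crest.Agent.R96.Lu_538

noncomputable section

universe u

variable {E : Type*} [NormedAddCommGroup E] [NormedSpace ℝ E] [FiniteDimensional ℝ E]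
  [MeasurableSpace E] [BorelSpace E] {μ : Measure E} [μ.IsAddHaarMeasure]

/-- **filling**, uniform in the reference cell -/
theorem fillU (μ : Measure E) [μ.IsAddHaarMeasure] {a R : ℝ} (ha : 0 < a) (haR : a ≤ R) {κ : ℝ}
    (hκ : 0 < κ) {η : ℝ} (hη : 0 < η) :
    ∃ σ, 0 < σ ∧ σ < 1 ∧ ∃ e₀ > 0, ∀ {C : Set E}, Ref C a → C ⊆ closedBall 0 R →
      ∀ {Ω : Set E} {f : E → E} {G : E → E →L[ℝ] E} {s : ℕ → Set E},
      Lus Ω μ f G s → InjOn f Ω → ∀ {e r : ℝ} {z b : E} {L : E →L[ℝ] E} {S : Set E},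
      0 ≤ e → e ≤ e₀ → 0 < r → GC Ω μ f G C κ e r z b L S →
      MeasurableSet (core C r z S s σ) ∧ MeasurableSet (f '' core C r z S s σ) ∧
        f '' core C r z S s σ ⊆ par C L b r ∧
        μ (par C L b r \ f '' core C r z S s σ) ≤ ENNReal.ofReal (η * r ^ finrank ℝ E) := by
  set n := finrank ℝ E with hn
  have hR : 0 < R := ha.trans_le haR
  set m := (μ (closedBall (0:E) R)).toReal with hm
  have hm0 : 0 < m := ENNReal.toReal_pos (Lu_538.mu_pos hR 0) (Lu_538.mu_fin 0 R)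
  obtain ⟨D, hD0, hD⟩ := det_bound (E := E) κ
  obtain ⟨e₁, he₁, hdu⟩ := det_unif (E := E) κ (η := min (κ ^ n) (η / (3 * m))) (by positivity)
  set σ := min (1 / 2) (η / (3 * D * m * (n + 1))) with hσd
  have hσ0 : 0 < σ := by positivity
  have hσ1 : σ < 1 := lt_of_le_of_lt (min_le_left _ _) (by norm_num)
  have hσ2 : D * m * (1 - (1 - σ) ^ n) ≤ η / 3 := by
    have h1 : 1 + (n:ℝ) * (-σ) ≤ (1 + (-σ)) ^ n := one_add_mul_le_pow (by linarith) n
    have h2 : σ ≤ η / (3 * D * m * (n + 1)) := min_le_right _ _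
    have h3 : 1 - (1 - σ) ^ n ≤ (n + 1) * σ := by
      have : (1 + (-σ)) ^ n = (1 - σ) ^ n := by ring
      rw [this] at h1
      nlinarith
    calc D * m * (1 - (1 - σ) ^ n) ≤ D * m * ((n + 1) * σ) := by gcongr
      _ ≤ D * m * ((n + 1) * (η / (3 * D * m * (n + 1)))) := by gcongr
      _ = η / 3 := by field_simp
  refine ⟨σ, hσ0, hσ1, min e₁ (min (κ * a * σ) (η / (3 * D))), by positivity, ?_⟩
  intro C hC hCR Ω f G s h hinj e r z b L S he0 he hr hc
  set mC := (μ C).toReal with hmC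
  have hmC0 : 0 < mC := ENNReal.toReal_pos hC.mu_pos.ne' hC.mu_fin.ne
  have hmCm : mC ≤ m := ENNReal.toReal_mono (Lu_538.mu_fin 0 R) (measure_mono hCR)
  have hee₁ : e ≤ e₁ := he.trans (min_le_left _ _)
  have heσ : e ≤ κ * a * σ := he.trans ((min_le_right _ _).trans (min_le_left _ _))
  have heD : e ≤ η / (3 * D) := he.trans ((min_le_right _ _).trans (min_le_right _ _))
  have hcm : MeasurableSet (core C r z S s σ) :=
    (hc.meas.inter (isCompact_cel hC.cpt z _).isClosed.measurableSet).inter h.measU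
  have hcU : core C r z S s σ ⊆ ⋃ k, s k := inter_subset_right
  have hfm := measurable_image h hinj hcm hcU
  have hfs : f '' core C r z S s σ ⊆ par C L b r := core_image hC hκ hr hc hσ0 hσ1.le heσ
  refine ⟨hcm, hfm, hfs, ?_⟩
  have hPfin : μ (par C L b r) ≠ ∞ := (isCompact_par hC.cpt L b r).measure_lt_top.ne
  have hFfin : μ (f '' core C r z S s σ) ≠ ∞ :=
    ((measure_mono hfs).trans_lt hPfin.lt_top).ne
  rw [measure_sdiff hfs hfm.nullMeasurableSet hFfin]
  have hLD : |L.det| ≤ D := hD L hc.up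
  have hLlow : κ ^ n ≤ |L.det| := det_low μ hκ hc.low
  set η₁ := min (κ ^ n) (η / (3 * m)) with hη₁
  have hη₁κ : η₁ ≤ κ ^ n := min_le_left _ _
  have hη₁m : η₁ * m ≤ η / 3 := by
    calc η₁ * m ≤ η / (3 * m) * m := by
          gcongr
          exact min_le_right _ _
      _ = η / 3 := by field_simp
  have h1 : ENNReal.ofReal (|L.det| - η₁) * μ (core C r z S s σ) ≤
      μ (f '' core C r z S s σ) := by
    rw [← area h hinj hcm hcU, ← setLIntegral_const]
    apply setLIntegral_mono_ae' hcm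
    filter_upwards with x hx
    apply ENNReal.ofReal_le_ofReal
    have h2 := hdu L (G x) hc.up ((hc.cG x (core_sub hx)).trans hee₁)
    have h3 : |L.det| - |(G x).det| ≤ |(G x).det - L.det| := by
      have := abs_sub_abs_le_abs_sub L.det (G x).det
      rwa [abs_sub_comm] at this
    linarith
  have h2 := ENNReal.toReal_mono hFfin h1
  rw [ENNReal.toReal_mul, ENNReal.toReal_ofReal (by linarith)] at h2
  have h3 := core_big hC h hr he0 hc hσ0 hσ1.le
  have h4 : (μ (par C L b r)).toReal = r ^ n * |L.det| * mC := by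
    rw [mu_par C L b hr.le, ENNReal.toReal_mul, ENNReal.toReal_ofReal (by positivity)]
  have h5 : (μ (par C L b r)).toReal - (μ (f '' core C r z S s σ)).toReal ≤ η * r ^ n := by
    have hrn : 0 < r ^ n := by positivity
    set Q := (1 - σ) ^ n with hQ
    have hQ0 : 0 ≤ Q := by have := hσ1.le; positivity
    have hQ1 : Q ≤ 1 := pow_le_one₀ (by linarith) (by linarith)
    have h6 : (|L.det| - η₁) * ((Q * mC - e) * r ^ n) ≤ (μ (f '' core C r z S s σ)).toReal := by
      refine le_trans ?_ h2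
      apply mul_le_mul_of_nonneg_left h3
      linarith
    rw [h4]
    have h7 : r ^ n * |L.det| * mC - (|L.det| - η₁) * ((Q * mC - e) * r ^ n) ≤ η * r ^ n := by
      have h8 : r ^ n * |L.det| * mC - (|L.det| - η₁) * ((Q * mC - e) * r ^ n) =
          (|L.det| * mC * (1 - Q) + |L.det| * e + η₁ * (Q * mC - e)) * r ^ n := by ring
      rw [h8]
      apply mul_le_mul_of_nonneg_right _ hrn.le
      have h9 : |L.det| * mC * (1 - Q) ≤ η / 3 := by
        refine le_trans ?_ hσ2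
        gcongr
      have h10 : |L.det| * e ≤ η / 3 := by
        calc |L.det| * e ≤ D * (η / (3 * D)) := by gcongr
          _ = η / 3 := by field_simp
      have h11 : η₁ * (Q * mC - e) ≤ η / 3 := by
        refine le_trans ?_ hη₁m
        have hη₁0 : 0 ≤ η₁ := by positivity
        apply mul_le_mul_of_nonneg_left _ hη₁0
        nlinarith
      linarith
    linarith
  have h6 : μ (f '' core C r z S s σ) ≤ μ (par C L b r) := measure_mono hfs
  rw [← ENNReal.ofReal_toReal (a := μ (par C L b r) - μ (f '' core C r z S s σ))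
    (ne_top_of_le_ne_top hPfin tsub_le_self)]
  apply ENNReal.ofReal_le_ofReal
  rw [ENNReal.toReal_sub_of_le h6 hPfin]
  exact h5

/-- **(i) disjointness**, different frames, comparable sizes `r' ≤ T r`, `r ≤ T r'` -/
theorem disjU (μ : Measure E) [μ.IsAddHaarMeasure] {a R : ℝ} (ha : 0 < a) (haR : a ≤ R) {κ : ℝ}
    (hκ : 0 < κ) {τ : ℝ} (hτ : 0 < τ) (hτ1 : τ ≤ 1) {T : ℝ} (hT : 1 ≤ T) :
    ∃ e₀ > 0, ∀ {Ω : Set E} {f : E → E} {G : E → E →L[ℝ] E} {s : ℕ → Set E},
      Lus Ω μ f G s → InjOn f Ω → ∀ {C : Set E} {e r : ℝ} {z b : E} {L : E →L[ℝ] E} {S : Set E}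
      {C' : Set E} {e' r' : ℝ} {z' b' : E} {L' : E →L[ℝ] E} {S' : Set E},
      Ref C a → C ⊆ closedBall 0 R → Ref C' a → C' ⊆ closedBall 0 R →
      0 ≤ e → e ≤ e₀ → 0 ≤ e' → e' ≤ e₀ → 0 < r → 0 < r' → r' ≤ T * r → r ≤ T * r' →
      GC Ω μ f G C κ e r z b L S → GC Ω μ f G C' κ e' r' z' b' L' S' →
      μ (cel C z r ∩ cel C' z' r') = 0 →
      Disjoint (par C L b ((1 - τ) * r)) (par C' L' b' ((1 - τ) * r')) := by
  set n := finrank ℝ E with hn
  set m := (μ (closedBall (0:E) 1)).toReal with hm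
  have hm0 : 0 < m := ENNReal.toReal_pos (Lu_538.mu_pos one_pos 0) (Lu_538.mu_fin 0 1)
  have hT0 : 0 < T := by linarith
  obtain ⟨σ, hσ0, hσ1, e₀, he₀, hfill⟩ := fillU μ ha haR hκ
    (η := (κ * a * τ / T) ^ n * m / 4) (by positivity)
  refine ⟨e₀, he₀, ?_⟩
  -- wlog the first cell is the smaller one
  have main : ∀ {Ω : Set E} {f : E → E} {G : E → E →L[ℝ] E} {s : ℕ → Set E},
      Lus Ω μ f G s → InjOn f Ω → ∀ {C : Set E} {e r : ℝ} {z b : E} {L : E →L[ℝ] E} {S : Set E}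
      {C' : Set E} {e' r' : ℝ} {z' b' : E} {L' : E →L[ℝ] E} {S' : Set E},
      Ref C a → C ⊆ closedBall 0 R → Ref C' a → C' ⊆ closedBall 0 R →
      0 ≤ e → e ≤ e₀ → 0 ≤ e' → e' ≤ e₀ → 0 < r → 0 < r' → r ≤ r' → r' ≤ T * r →
      GC Ω μ f G C κ e r z b L S → GC Ω μ f G C' κ e' r' z' b' L' S' →
      μ (cel C z r ∩ cel C' z' r') = 0 →
      Disjoint (par C L b ((1 - τ) * r)) (par C' L' b' ((1 - τ) * r')) := by
    intro Ω f G s h hinj C e r z b L S C' e' r' z' b' L' S' hC hCR hC' hCR' he0 he he0' he' hr hr'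
      hrr' hTr hc hc' hnull
    obtain ⟨-, -, hs1, hf1⟩ := hfill hC hCR h hinj he0 he hr hc
    obtain ⟨-, -, hs2, hf2⟩ := hfill hC' hCR' h hinj he0' he' hr' hc'
    rw [Set.disjoint_left]
    intro y hy hy'
    have hball : closedBall y (κ * a * τ * r) ⊆ par C L b r ∩ par C' L' b' r' := by
      intro w hw
      rw [mem_closedBall, dist_eq_norm] at hw
      refine ⟨par_thick hC hκ hc.low hr hτ hτ1 hy hw,
        par_thick hC' hκ hc'.low hr' hτ hτ1 hy' (hw.trans ?_)⟩
      gcongr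
    have h1 : μ (closedBall y (κ * a * τ * r)) ≤
        ENNReal.ofReal ((κ * a * τ / T) ^ n * m / 4 * r ^ n) +
          ENNReal.ofReal ((κ * a * τ / T) ^ n * m / 4 * r' ^ n) := by
      have h2 : closedBall y (κ * a * τ * r) ⊆
          ((par C L b r \ f '' core C r z S s σ) ∪ (par C' L' b' r' \ f '' core C' r' z' S' s σ)) ∪
            (f '' core C r z S s σ ∩ f '' core C' r' z' S' s σ) := by
        intro w hw
        obtain ⟨hw1, hw2⟩ := hball hw
        by_cases hw3 : w ∈ f '' core C r z S s σ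
        · by_cases hw4 : w ∈ f '' core C' r' z' S' s σ
          · exact Or.inr ⟨hw3, hw4⟩
          · exact Or.inl (Or.inr ⟨hw2, hw4⟩)
        · exact Or.inl (Or.inl ⟨hw1, hw3⟩)
      have h3 : μ (f '' core C r z S s σ ∩ f '' core C' r' z' S' s σ) = 0 := by
        apply inter_null h hinj inter_subset_right inter_subset_right
        refine measure_mono_null ?_ hnull
        rintro x ⟨hx, hx'⟩
        exact ⟨hc.sS (core_sub hx), hc'.sS (core_sub hx')⟩
      refine (measure_mono h2).trans ((measure_union_le _ _).trans ?_)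
      rw [h3, add_zero]
      exact (measure_union_le _ _).trans (add_le_add hf1 hf2)
    rw [Measure.addHaar_closedBall' μ y (by positivity), ← ENNReal.ofReal_add (by positivity)
      (by positivity)] at h1
    have h2 : ENNReal.ofReal ((κ * a * τ * r) ^ n) * μ (closedBall (0:E) 1) =
        ENNReal.ofReal ((κ * a * τ * r) ^ n * m) := by
      rw [ENNReal.ofReal_mul (by positivity), ENNReal.ofReal_toReal (Lu_538.mu_fin 0 1)]
    rw [h2, ENNReal.ofReal_le_ofReal_iff (by positivity)] at h1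
    have h3 : (κ * a * τ / T) ^ n * r' ^ n ≤ (κ * a * τ * r) ^ n := by
      rw [← mul_pow]
      apply pow_le_pow_left₀ (by positivity)
      calc κ * a * τ / T * r' ≤ κ * a * τ / T * (T * r) := by gcongr
        _ = κ * a * τ * r := by field_simp
    have h4 : (κ * a * τ / T) ^ n * r ^ n ≤ (κ * a * τ * r) ^ n := by
      rw [← mul_pow]
      apply pow_le_pow_left₀ (by positivity)
      calc κ * a * τ / T * r ≤ κ * a * τ * r := by
            gcongr
            exact div_le_self (by positivity) hT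
        _ = κ * a * τ * r := rfl
    have h5 : 0 < (κ * a * τ * r) ^ n * m := by positivity
    nlinarith
  intro Ω f G s h hinj C e r z b L S C' e' r' z' b' L' S' hC hCR hC' hCR' he0 he he0' he' hr hr'
    hrr hrr' hc hc' hnull
  rcases le_total r r' with hle | hle
  · exact main h hinj hC hCR hC' hCR' he0 he he0' he' hr hr' hle hrr hc hc' hnull
  · exact (main h hinj hC' hCR' hC hCR he0' he' he0 he hr' hr hle hrr' hc' hc
      (by rwa [inter_comm])).symm

/-! ### the bad set at all small scales -/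

/-- the bad set at all scales below `ρ₀` -/
def BadU (μ ν : Measure E) (ε : ℝ≥0∞) (ρ₀ : ℝ) : Set E :=
  {y | ∃ ρ, 0 < ρ ∧ ρ < ρ₀ ∧ ε * μ (closedBall (0:E) ρ) < ν (ball y ρ)}

theorem isOpen_lt_ball (ν : Measure E) (c : ℝ≥0∞) (ρ : ℝ) : IsOpen {y : E | c < ν (ball y ρ)} := by
  rw [Metric.isOpen_iff]
  intro y hy
  have hy' : c < ν (ball y ρ) := hy
  have h1 : ball y ρ = ⋃ k : ℕ, ball y (ρ - 1 / ((k:ℝ) + 1)) := by
    ext x
    simp only [mem_ball, mem_iUnion]
    constructor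
    · intro hx
      obtain ⟨k, hk⟩ := exists_nat_one_div_lt (sub_pos.2 hx)
      exact ⟨k, by linarith⟩
    · rintro ⟨k, hk⟩
      have : (0:ℝ) < 1 / ((k:ℝ) + 1) := by positivity
      linarith
  have hmono : Monotone fun k : ℕ => ball y (ρ - 1 / ((k:ℝ) + 1)) := by
    intro i j hij
    apply ball_subset_ball
    have h2 : 1 / ((j:ℝ) + 1) ≤ 1 / ((i:ℝ) + 1) := by
      apply one_div_le_one_div_of_le (by positivity)
      have : (i:ℝ) ≤ j := by exact_mod_cast hij
      linarith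
    linarith
  rw [h1] at hy'
  have h2 := (tendsto_measure_iUnion_atTop (μ := ν) hmono).eventually_const_lt hy'
  obtain ⟨k, hk⟩ := h2.exists
  refine ⟨1 / ((k:ℝ) + 1), by positivity, fun y' hy'' => ?_⟩
  show c < ν (ball y' ρ)
  refine lt_of_lt_of_le hk (measure_mono ?_)
  apply ball_subset_ball'
  rw [mem_ball, dist_comm] at hy''
  linarith

theorem isOpen_BadU (μ ν : Measure E) (ε : ℝ≥0∞) (ρ₀ : ℝ) : IsOpen (BadU μ ν ε ρ₀) := by
  have h1 : BadU μ ν ε ρ₀ = ⋃ ρ : ℝ, ⋃ _ : 0 < ρ ∧ ρ < ρ₀,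
      {y : E | ε * μ (closedBall (0:E) ρ) < ν (ball y ρ)} := by
    ext y
    simp [BadU, and_assoc]
  rw [h1]
  exact isOpen_iUnion fun ρ => isOpen_iUnion fun _ => isOpen_lt_ball ν _ ρ

theorem exists_badU {ν : Measure E} [IsFiniteMeasure ν] (hν : ν ⟂ₘ μ) {ε : ℝ≥0∞} (hε : ε ≠ 0)
    {Λ : Set E} (hΛ : MeasurableSet Λ) (hΛf : μ Λ ≠ ∞) {t : ℝ≥0∞} (ht : t ≠ 0) :
    ∃ ρ₀ > 0, μ (BadU μ ν ε ρ₀ ∩ Λ) < t := by
  have h1 : ∀ᵐ y ∂μ, Tendsto (fun r => ν (closedBall y r) / μ (closedBall y r)) (𝓝[>] 0) (𝓝 0) := by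
    filter_upwards [Besicovitch.ae_tendsto_rnDeriv ν μ, hν.rnDeriv_ae_eq_zero] with y h2 h3
    rw [h3] at h2
    exact h2
  have h2 : μ (⋂ k : ℕ, (BadU μ ν ε (1 / ((k:ℝ) + 1)) ∩ Λ)) = 0 := by
    apply measure_mono_null _ (ae_iff.1 h1)
    intro y hy hcon
    have h3 : ∀ᶠ r in 𝓝[>] (0:ℝ), ν (closedBall y r) / μ (closedBall y r) < ε :=
      hcon.eventually_lt_const (pos_iff_ne_zero.2 hε)
    obtain ⟨u, hu, hu2⟩ := (mem_nhdsGT_iff_exists_Ioo_subset).1 h3
    have hu0 : (0:ℝ) < u := hu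
    obtain ⟨k, hk⟩ := exists_nat_one_div_lt hu0
    obtain ⟨⟨ρ, hρ0, hρ1, hρ2⟩, -⟩ := mem_iInter.1 hy k
    have h4 : ν (closedBall y ρ) / μ (closedBall y ρ) < ε := hu2 ⟨hρ0, hρ1.trans hk⟩
    rw [ENNReal.div_lt_iff (Or.inl (Lu_538.mu_pos hρ0 y)) (Or.inl (Lu_538.mu_fin y ρ)),
      mu_center (μ := μ) y] at h4
    exact absurd (lt_of_lt_of_le hρ2 (measure_mono ball_subset_closedBall)) (not_lt.2 h4.le)
  have h3 : Tendsto (fun k : ℕ => μ (BadU μ ν ε (1 / ((k:ℝ) + 1)) ∩ Λ)) atTop (𝓝 0) := by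
    rw [← h2]
    apply tendsto_measure_iInter_atTop
    · intro k
      exact ((isOpen_BadU μ ν ε _).measurableSet.inter hΛ).nullMeasurableSet
    · intro i j hij
      rintro y ⟨⟨ρ, hρ0, hρ1, hρ2⟩, hyΛ⟩
      refine ⟨⟨ρ, hρ0, hρ1.trans_le ?_, hρ2⟩, hyΛ⟩
      apply one_div_le_one_div_of_le (by positivity)
      have : (i:ℝ) ≤ j := by exact_mod_cast hij
      linarith
    · exact ⟨0, ((measure_mono inter_subset_right).trans_lt hΛf.lt_top).ne⟩
  obtain ⟨k, hk⟩ := (h3.eventually_lt_const (pos_iff_ne_zero.2 ht)).exists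
  exact ⟨1 / ((k:ℝ) + 1), by positivity, hk⟩

end

end Crest.Agent.R96.Intr_538
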