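/-
helper538, row 96, leaf INTR (335 #6511 (a)), part 6: NO INTRUDERS, uniform version (frames and
sizes vary), Chebyshev production of good cells, parallelepipeds inside `Λ`.
-/
import Mathlib
import Crest.Agent.R96.Intr5_538

set_option autoImplicit false
set_option linter.unusedSectionVars false

open MeasureTheory Set Filter Metric Module
open scoped ENNReal NNReal Topology

namespace Crest.Agent.R96.Intr_538

open Crest.Agent.R96.Lu_538

noncomputable section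

universe u

variable {E : Type*} [NormedAddCommGroup E] [NormedSpace ℝ E] [FiniteDimensional ℝ E]
  [MeasurableSpace E] [BorelSpace E] {μ : Measure E} [μ.IsAddHaarMeasure]

theorem sum_bound {ι : Type*} (Q : Finset ι) {F : ι → Set E} {B : Set E} {c : ι → ℝ}
    (hc : ∀ i ∈ Q, 0 ≤ c i)
    (hF : ∀ i ∈ Q, MeasurableSet (F i)) (hd : ∀ i ∈ Q, ∀ j ∈ Q, i ≠ j → μ (F i ∩ F j) = 0)
    (hl : ∀ i ∈ Q, ENNReal.ofReal (c i) ≤ μ (F i)) (hB : ∀ i ∈ Q, F i ⊆ B) (hBf : μ B ≠ ∞) :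
    ∑ i ∈ Q, c i ≤ (μ B).toReal := by
  have h1 : ∑ i ∈ Q, ENNReal.ofReal (c i) ≤ μ B := by
    calc ∑ i ∈ Q, ENNReal.ofReal (c i) ≤ ∑ i ∈ Q, μ (F i) := Finset.sum_le_sum hl
      _ = μ (⋃ i ∈ Q, F i) := by
          rw [measure_biUnion_finset₀]
          · intro i hi j hj hij
            exact hd i hi j hj hij
          · exact fun i hi => (hF i hi).nullMeasurableSet
      _ ≤ μ B := measure_mono (iUnion₂_subset hB)
  rw [← ENNReal.ofReal_sum_of_nonneg hc] at h1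
  have h2 := ENNReal.toReal_mono hBf h1
  rwa [ENNReal.toReal_ofReal (Finset.sum_nonneg hc)] at h2

/-- **(iii) NO INTRUDERS**, uniform version. -/
theorem intrU {Ω Λ : Set E} (hΩ : MeasurableSet Ω) {f : E → E} {G : E → E →L[ℝ] E}
    {s : ℕ → Set E} (h : Lus Ω μ f G s) (hinj : InjOn f Ω) (hf : ContinuousOn f Ω)
    (hG : AEStronglyMeasurable G (μ.restrict Ω)) (hΛ : MeasurableSet Λ) (hΛf : μ Λ ≠ ∞)
    (hfΛ : MapsTo f Ω Λ) {m : Measure E} [IsFiniteMeasure m] (hm : m ≪ μ)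
    {a R : ℝ} (ha : 0 < a) (haR : a ≤ R) {κ : ℝ} (hκ : 0 < κ) {ε : ℝ} (hε : 0 < ε) :
    ∃ e₀ > 0, ∃ r₀ > 0, ∀ {ι : Type u} (Q : Finset ι) (C : ι → Set E) (e r : ι → ℝ)
      (z b : ι → E) (L : ι → E →L[ℝ] E) (S : ι → Set E),
      (∀ i ∈ Q, Ref (C i) a) → (∀ i ∈ Q, C i ⊆ closedBall 0 R) →
      (∀ i ∈ Q, 0 ≤ e i) → (∀ i ∈ Q, e i ≤ e₀) → (∀ i ∈ Q, 0 < r i) → (∀ i ∈ Q, r i < r₀) →
      (∀ i ∈ Q, GC Ω μ f G (C i) κ (e i) (r i) (z i) (b i) (L i) (S i)) →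
      (∀ i ∈ Q, ∀ j ∈ Q, i ≠ j → μ (cel (C i) (z i) (r i) ∩ cel (C j) (z j) (r j)) = 0) →
      ∃ Q1 ⊆ Q, (∀ Q2 ⊆ Q, Disjoint Q1 Q2 → ∑ i ∈ Q2, r i ^ finrank ℝ E ≤ ε) ∧
        m ((Ω ∩ f ⁻¹' (⋃ i ∈ Q1, par (C i) (L i) (b i) (r i))) \
          ⋃ i ∈ Q1, cel (C i) (z i) (r i)) ≤ ENNReal.ofReal ε := by
  classical
  set n := finrank ℝ E with hn
  have hR : 0 < R := ha.trans_le haR
  set mC := (μ (closedBall (0:E) a)).toReal with hmCd
  have hmC : 0 < mC := ENNReal.toReal_pos (Lu_538.mu_pos ha 0) (Lu_538.mu_fin 0 a)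
  set mB := (μ (closedBall (0:E) 1)).toReal with hmB
  have hmB0 : 0 < mB := ENNReal.toReal_pos (Lu_538.mu_pos one_pos 0) (Lu_538.mu_fin 0 1)
  set c₀ := κ ^ n * mC / 2 with hc₀
  have hc₀0 : 0 < c₀ := by positivity
  set M := (μ Λ).toReal / c₀ + 1 with hM
  have hM0 : 0 < M := by positivity
  obtain ⟨Z, hZs, hZm, hZ0, hZae⟩ := exists_crit hΩ h hG
  obtain ⟨δ, hδ0, hδ⟩ := ac_part hΩ h hinj hf hG hm hZm hZae
    (ε := ENNReal.ofReal (ε / 2)) (by
      rw [Ne, ENNReal.ofReal_eq_zero, not_le]; positivity)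
  obtain ⟨δ', hδ'0, hδ'⟩ : ∃ δ' : ℝ, 0 < δ' ∧ ENNReal.ofReal δ' < δ := by
    obtain ⟨q, hq1, hq2⟩ := ENNReal.lt_iff_exists_nnreal_btwn.1 hδ0
    refine ⟨q, by exact_mod_cast hq1, by rwa [ENNReal.ofReal_coe_nnreal]⟩
  obtain ⟨ν, hνf, hν, hνs⟩ := sing_part (m := m) hΩ h hinj hf hZs hZm hZ0
  set cρ := 4 * R * κ⁻¹ with hcρ
  have hcρ0 : 0 < cρ := by positivity
  set ε₁ := ε / (2 * M * cρ ^ n * mB) with hε₁
  have hε₁0 : 0 < ε₁ := by positivity
  obtain ⟨ρ₀, hρ₀0, hρ₀⟩ := exists_badU (μ := μ) hνs (ε := ENNReal.ofReal ε₁) (by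
    rw [Ne, ENNReal.ofReal_eq_zero, not_le]; positivity) hΛ hΛf
    (t := ENNReal.ofReal (c₀ * ε)) (by rw [Ne, ENNReal.ofReal_eq_zero, not_le]; positivity)
  obtain ⟨σ, hσ0, hσ1, e₀, he₀, hfill⟩ := fillU μ ha haR hκ (η := min c₀ (δ' / (2 * M)))
    (by positivity)
  refine ⟨e₀, he₀, ρ₀ / cρ, by positivity, ?_⟩
  intro ι Q C e r z b L S hC hCR he0 he hr hrr hQ hdis
  set η := min c₀ (δ' / (2 * M)) with hη
  have hη0 : 0 < η := by positivity
  set F : ι → Set E := fun i => f '' core (C i) (r i) (z i) (S i) s σ with hF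
  set P : ι → Set E := fun i => par (C i) (L i) (b i) (r i) with hP
  have h1 := fun i (hi : i ∈ Q) => hfill (hC i hi) (hCR i hi) h hinj (he0 i hi) (he i hi)
    (hr i hi) (hQ i hi)
  have hFm : ∀ i ∈ Q, MeasurableSet (F i) := fun i hi => (h1 i hi).2.1
  have hFP : ∀ i ∈ Q, F i ⊆ P i := fun i hi => (h1 i hi).2.2.1
  have hPF : ∀ i ∈ Q, μ (P i \ F i) ≤ ENNReal.ofReal (η * r i ^ n) := fun i hi => (h1 i hi).2.2.2
  have hPm : ∀ i ∈ Q, MeasurableSet (P i) := fun i hi =>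
    (isCompact_par (hC i hi).cpt _ _ _).isClosed.measurableSet
  have hFΛ : ∀ i ∈ Q, F i ⊆ Λ := by
    intro i hi
    rintro _ ⟨x, hx, rfl⟩
    exact hfΛ (h.subU hx.2)
  have hFd : ∀ i ∈ Q, ∀ j ∈ Q, i ≠ j → μ (F i ∩ F j) = 0 := by
    intro i hi j hj hij
    apply inter_null h hinj inter_subset_right inter_subset_right
    refine measure_mono_null ?_ (hdis i hi j hj hij)
    rintro x ⟨hx, hx'⟩
    exact ⟨(hQ i hi).sS (core_sub hx), (hQ j hj).sS (core_sub hx')⟩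
  have hmCi : ∀ i ∈ Q, mC ≤ (μ (C i)).toReal := fun i hi =>
    ENNReal.toReal_mono (hC i hi).mu_fin.ne (measure_mono (hC i hi).ball)
  have hFl : ∀ i ∈ Q, ENNReal.ofReal (c₀ * r i ^ n) ≤ μ (F i) := fun i hi =>
    image_low (hC i hi) hκ (hQ i hi).low (hr i hi) hη0.le hc₀0.le
      (by
        have h2 : η ≤ c₀ := min_le_left _ _
        have h3 : κ ^ n * mC ≤ κ ^ n * (μ (C i)).toReal := by
          have := hmCi i hi
          gcongr
        rw [hc₀] at h2 ⊢; linarith) (hPF i hi)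
  have hcard : ∀ Q' ⊆ Q, ∑ i ∈ Q', r i ^ n ≤ M := by
    intro Q' hQ'
    have h2 := sum_bound (μ := μ) Q' (c := fun i => c₀ * r i ^ n)
      (fun i hi => by have := hr i (hQ' hi); positivity) (fun i hi => hFm i (hQ' hi))
      (fun i hi j hj => hFd i (hQ' hi) j (hQ' hj)) (fun i hi => hFl i (hQ' hi))
      (fun i hi => hFΛ i (hQ' hi)) hΛf
    rw [← Finset.mul_sum] at h2
    have h4 := (le_div_iff₀' hc₀0).2 h2
    rw [hM]; linarith
  set Q1 := Q.filter (fun i => ν (P i) ≤ ENNReal.ofReal ε₁ * μ (closedBall (0:E) (cρ * r i)))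
    with hQ1
  have hQ1Q : Q1 ⊆ Q := Finset.filter_subset _ _
  refine ⟨Q1, hQ1Q, ?_, ?_⟩
  · intro Q2 hQ2 hdisj
    have h3 : ∀ i ∈ Q2, F i ⊆ BadU μ ν (ENNReal.ofReal ε₁) ρ₀ ∩ Λ := by
      intro i hi y hy
      have hi1 : i ∉ Q1 := fun h => (Finset.disjoint_left.1 hdisj) h hi
      have hi2 : ¬ ν (P i) ≤ ENNReal.ofReal ε₁ * μ (closedBall (0:E) (cρ * r i)) := by
        intro hcon
        exact hi1 (Finset.mem_filter.2 ⟨hQ2 hi, hcon⟩)
      have hri := hr i (hQ2 hi)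
      refine ⟨⟨cρ * r i, by positivity, ?_, ?_⟩, hFΛ i (hQ2 hi) hy⟩
      · rw [mul_comm]; exact (lt_div_iff₀ hcρ0).1 (hrr i (hQ2 hi))
      · refine lt_of_lt_of_le (not_le.1 hi2) (measure_mono ?_)
        intro y' hy'
        rw [mem_ball]
        refine lt_of_le_of_lt (par_dist (hCR i (hQ2 hi)) (hQ i (hQ2 hi)).up hri.le
          (hFP i (hQ2 hi) hy) hy') ?_
        rw [hcρ]
        have : 0 < R * κ⁻¹ * r i := by positivity
        nlinarith
    have h5 := sum_bound (μ := μ) Q2 (c := fun i => c₀ * r i ^ n)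
      (fun i hi => by have := hr i (hQ2 hi); positivity) (fun i hi => hFm i (hQ2 hi))
      (fun i hi j hj => hFd i (hQ2 hi) j (hQ2 hj)) (fun i hi => hFl i (hQ2 hi)) h3
      (hρ₀.trans ENNReal.ofReal_lt_top).ne
    rw [← Finset.mul_sum] at h5
    have h6 : (μ (BadU μ ν (ENNReal.ofReal ε₁) ρ₀ ∩ Λ)).toReal ≤ c₀ * ε := by
      have := ENNReal.toReal_mono ENNReal.ofReal_ne_top hρ₀.le
      rwa [ENNReal.toReal_ofReal (by positivity)] at this
    exact le_of_mul_le_mul_left (h5.trans h6) hc₀0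
  · set Zη := ⋃ i ∈ Q1, (P i \ F i) with hZη
    have hsub : (Ω ∩ f ⁻¹' (⋃ i ∈ Q1, P i)) \ ⋃ i ∈ Q1, cel (C i) (z i) (r i) ⊆
        ((Ω \ Z) ∩ f ⁻¹' Zη) ∪ (Z ∩ f ⁻¹' (⋃ i ∈ Q1, P i)) := by
      rintro x ⟨⟨hxΩ, hxP⟩, hxc⟩
      by_cases hxZ : x ∈ Z
      · exact Or.inr ⟨hxZ, hxP⟩
      · refine Or.inl ⟨⟨hxΩ, hxZ⟩, ?_⟩
        rw [mem_preimage, mem_iUnion₂] at hxP
        obtain ⟨i, hi, hxi⟩ := hxP
        refine mem_iUnion₂.2 ⟨i, hi, hxi, ?_⟩
        rintro ⟨x', hx', hxx'⟩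
        have h2 : x' = x := hinj (h.subU hx'.2) hxΩ hxx'
        subst h2
        exact hxc (mem_iUnion₂.2 ⟨i, hi, (hQ i (hQ1Q hi)).sS (core_sub hx')⟩)
    have hr0 : ∀ i ∈ Q1, 0 ≤ r i ^ n := fun i hi => by
      have := hr i (hQ1Q hi); positivity
    have hA : m ((Ω \ Z) ∩ f ⁻¹' Zη) ≤ ENNReal.ofReal (ε / 2) := by
      apply (hδ Zη _).le
      refine lt_of_le_of_lt ?_ hδ'
      calc μ Zη ≤ ∑ i ∈ Q1, μ (P i \ F i) := measure_biUnion_finset_le _ _
        _ ≤ ∑ i ∈ Q1, ENNReal.ofReal (η * r i ^ n) :=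
            Finset.sum_le_sum fun i hi => hPF i (hQ1Q hi)
        _ = ENNReal.ofReal (∑ i ∈ Q1, η * r i ^ n) := by
            rw [ENNReal.ofReal_sum_of_nonneg fun i hi => mul_nonneg hη0.le (hr0 i hi)]
        _ ≤ ENNReal.ofReal δ' := by
            apply ENNReal.ofReal_le_ofReal
            have h2 : η ≤ δ' / (2 * M) := min_le_right _ _
            rw [← Finset.mul_sum]
            calc η * ∑ i ∈ Q1, r i ^ n ≤ (δ' / (2 * M)) * M := by
                  have := hcard Q1 hQ1Q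
                  have h5 : 0 ≤ ∑ i ∈ Q1, r i ^ n := Finset.sum_nonneg hr0
                  gcongr
              _ = δ' / 2 := by field_simp
              _ ≤ δ' := by linarith
    have hB : m (Z ∩ f ⁻¹' (⋃ i ∈ Q1, P i)) ≤ ENNReal.ofReal (ε / 2) := by
      rw [← hν _ (Finset.measurableSet_biUnion _ fun i hi => hPm i (hQ1Q hi))]
      calc ν (⋃ i ∈ Q1, P i) ≤ ∑ i ∈ Q1, ν (P i) := measure_biUnion_finset_le _ _
        _ ≤ ∑ i ∈ Q1, ENNReal.ofReal ε₁ * μ (closedBall (0:E) (cρ * r i)) :=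
            Finset.sum_le_sum fun i hi => (Finset.mem_filter.1 hi).2
        _ = ∑ i ∈ Q1, ENNReal.ofReal (ε₁ * cρ ^ n * mB * r i ^ n) := by
            apply Finset.sum_congr rfl
            intro i hi
            have hri := hr i (hQ1Q hi)
            rw [Measure.addHaar_closedBall' μ 0 (by positivity), ← ENNReal.ofReal_toReal
              (Lu_538.mu_fin (μ := μ) 0 1), ← ENNReal.ofReal_mul (by positivity),
              ← ENNReal.ofReal_mul (by positivity)]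
            congr 1
            rw [mul_pow]
            ring
        _ = ENNReal.ofReal (∑ i ∈ Q1, ε₁ * cρ ^ n * mB * r i ^ n) := by
            rw [ENNReal.ofReal_sum_of_nonneg fun i hi => mul_nonneg (by positivity) (hr0 i hi)]
        _ ≤ ENNReal.ofReal (ε / 2) := by
            apply ENNReal.ofReal_le_ofReal
            rw [← Finset.mul_sum]
            calc ε₁ * cρ ^ n * mB * ∑ i ∈ Q1, r i ^ n ≤ ε₁ * cρ ^ n * mB * M := by
                  have := hcard Q1 hQ1Q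
                  gcongr
              _ = ε / 2 := by rw [hε₁]; field_simp
    calc m ((Ω ∩ f ⁻¹' (⋃ i ∈ Q1, P i)) \ ⋃ i ∈ Q1, cel (C i) (z i) (r i))
        ≤ m (((Ω \ Z) ∩ f ⁻¹' Zη) ∪ (Z ∩ f ⁻¹' (⋃ i ∈ Q1, P i))) := measure_mono hsub
      _ ≤ m ((Ω \ Z) ∩ f ⁻¹' Zη) + m (Z ∩ f ⁻¹' (⋃ i ∈ Q1, P i)) := measure_union_le _ _
      _ ≤ ENNReal.ofReal (ε / 2) + ENNReal.ofReal (ε / 2) := add_le_add hA hB
      _ = ENNReal.ofReal ε := by
          rw [← ENNReal.ofReal_add (by positivity) (by positivity), add_halves]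

/-! ### production of good cells -/

/-- Chebyshev: `L^p` closeness of `f` to `A` and of `G` to `L` gives a good cell. -/
theorem exists_GC {Ω : Set E} {f : E → E} {G : E → E →L[ℝ] E}
    (hf : ContinuousOn f Ω) (hG : AEStronglyMeasurable G (μ.restrict Ω)) {p : ℝ} (hp : 0 < p)
    {C : Set E} (hC : IsCompact C) {κ e r : ℝ} (he : 0 < e) (hr : 0 < r) {z b : E} {L : E →L[ℝ] E}
    (hsub : cel C z r ⊆ Ω) (hlow : ∀ v, κ * ‖v‖ ≤ ‖L v‖) (hup : ‖L‖ ≤ κ⁻¹)
    (h1 : ∫⁻ x in cel C z r, ‖f x - (b + L (x - z))‖ₑ ^ p ∂μ ≤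
      ENNReal.ofReal ((e * r) ^ p * (e / 2 * r ^ finrank ℝ E)))
    (h2 : ∫⁻ x in cel C z r, ‖G x - L‖ₑ ^ p ∂μ ≤
      ENNReal.ofReal (e ^ p * (e / 2 * r ^ finrank ℝ E))) :
    ∃ S, GC Ω μ f G C κ e r z b L S := by
  set q := cel C z r with hq
  have hqm : MeasurableSet q := (isCompact_cel hC z r).isClosed.measurableSet
  have hfm : AEMeasurable (fun x => ‖f x - (b + L (x - z))‖ₑ ^ p) (μ.restrict q) := by
    have h3 : ContinuousOn (fun x => f x - (b + L (x - z))) q :=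
      (hf.mono hsub).sub (by fun_prop)
    exact ((h3.aemeasurable hqm).enorm).pow_const p
  have hGm : AEMeasurable (fun x => ‖G x - L‖ₑ ^ p) (μ.restrict q) := by
    have h3 : AEStronglyMeasurable G (μ.restrict q) :=
      hG.mono_measure (Measure.restrict_mono hsub le_rfl)
    exact ((h3.sub aestronglyMeasurable_const).enorm).pow_const p
  -- the two bad sets
  set B1 := {x | x ∈ q ∧ e * r < ‖f x - (b + L (x - z))‖} with hB1
  set B2 := {x | x ∈ q ∧ e < ‖G x - L‖} with hB2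
  have key : ∀ {g : E → ℝ} {t : ℝ}, 0 < t → (∀ x, 0 ≤ g x) →
      AEMeasurable (fun x => ENNReal.ofReal (g x) ^ p) (μ.restrict q) →
      ∫⁻ x in q, ENNReal.ofReal (g x) ^ p ∂μ ≤ ENNReal.ofReal (t ^ p * (e / 2 * r ^ finrank ℝ E)) →
      μ {x | x ∈ q ∧ t < g x} ≤ ENNReal.ofReal (e / 2 * r ^ finrank ℝ E) := by
    intro g t ht hg hgm hint
    have h3 := mul_meas_ge_le_lintegral₀ hgm (ENNReal.ofReal (t ^ p))
    have h4 : μ {x | x ∈ q ∧ t < g x} ≤
        (μ.restrict q) {x | ENNReal.ofReal (t ^ p) ≤ ENNReal.ofReal (g x) ^ p} := by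
      rw [Measure.restrict_apply' hqm]
      apply measure_mono
      rintro x ⟨hx, hx2⟩
      refine ⟨?_, hx⟩
      show ENNReal.ofReal (t ^ p) ≤ ENNReal.ofReal (g x) ^ p
      rw [ENNReal.ofReal_rpow_of_nonneg (hg x) hp.le]
      apply ENNReal.ofReal_le_ofReal
      exact Real.rpow_le_rpow ht.le hx2.le hp.le
    have h5 := (mul_le_mul_right h4 (ENNReal.ofReal (t ^ p))).trans (h3.trans hint)
    rw [ENNReal.ofReal_mul (by positivity)] at h5
    exact (ENNReal.mul_le_mul_iff_right (by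
      rw [Ne, ENNReal.ofReal_eq_zero, not_le]; positivity) ENNReal.ofReal_ne_top).1 h5
  have hb1 : μ B1 ≤ ENNReal.ofReal (e / 2 * r ^ finrank ℝ E) := by
    apply key (g := fun x => ‖f x - (b + L (x - z))‖) (by positivity) (fun x => norm_nonneg _)
    · simpa only [ofReal_norm] using hfm
    · simpa only [ofReal_norm] using h1
  have hb2 : μ B2 ≤ ENNReal.ofReal (e / 2 * r ^ finrank ℝ E) := by
    apply key (g := fun x => ‖G x - L‖) he (fun x => norm_nonneg _)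
    · simpa only [ofReal_norm] using hGm
    · simpa only [ofReal_norm] using h2
  refine ⟨q \ toMeasurable μ (B1 ∪ B2), hsub, hlow, hup, hqm.diff (measurableSet_toMeasurable _ _),
    sdiff_subset, ?_, ?_, ?_⟩
  · rw [sdiff_sdiff_right_self]
    calc μ (q ∩ toMeasurable μ (B1 ∪ B2)) ≤ μ (toMeasurable μ (B1 ∪ B2)) :=
          measure_mono inter_subset_right
      _ = μ (B1 ∪ B2) := measure_toMeasurable _
      _ ≤ μ B1 + μ B2 := measure_union_le _ _
      _ ≤ ENNReal.ofReal (e / 2 * r ^ finrank ℝ E) + ENNReal.ofReal (e / 2 * r ^ finrank ℝ E) :=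
          add_le_add hb1 hb2
      _ = ENNReal.ofReal (e * r ^ finrank ℝ E) := by
          rw [← ENNReal.ofReal_add (by positivity) (by positivity)]
          congr 1
          ring
  · rintro x ⟨hx, hx2⟩
    by_contra hcon
    exact hx2 (subset_toMeasurable μ _ (Or.inl ⟨hx, not_le.1 hcon⟩))
  · rintro x ⟨hx, hx2⟩
    by_contra hcon
    exact hx2 (subset_toMeasurable μ _ (Or.inr ⟨hx, not_le.1 hcon⟩))

/-- the parallelepiped of a good cell lies in `Λ` as soon as one good point has image far from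
the complement -/
theorem par_sub {Ω Λ : Set E} {f : E → E} {G : E → E →L[ℝ] E} {C : Set E} {κ e r R : ℝ}
    {z b : E} {L : E →L[ℝ] E} {S : Set E} (hr : 0 < r) (hCR : C ⊆ closedBall 0 R)
    (hc : GC Ω μ f G C κ e r z b L S) {x : E} (hx : x ∈ S)
    (hΛ : closedBall (f x) (2 * R * κ⁻¹ * r + e * r) ⊆ Λ) : par C L b r ⊆ Λ := by
  intro y hy
  apply hΛ
  obtain ⟨u, hu, rfl⟩ := hc.sS hx
  have h1 := hc.cf _ hx
  simp only [add_sub_cancel_left, map_smul] at h1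
  have h2 := par_dist hCR hc.up (b := b) hr.le (⟨u, hu, rfl⟩ : b + r • L u ∈ par C L b r) hy
  rw [mem_closedBall]
  calc dist y (f (z + r • u)) ≤ dist y (b + r • L u) + dist (b + r • L u) (f (z + r • u)) :=
        dist_triangle _ _ _
    _ ≤ 2 * R * κ⁻¹ * r + e * r := by
        refine add_le_add h2 ?_
        rw [dist_comm, dist_eq_norm]
        exact h1

end

end Crest.Agent.R96.Intr_538
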