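/-
helper538, row 96, leaf INTR (335 #6511 (a)), part 7: strong disjointness and the sum form of
NO INTRUDERS: the shrunk parallelepiped of a good cell receives almost nothing from outside the
cell, not even from the other good cells.
-/
import Mathlib
import Crest.Agent.R96.Intr6_538

set_option autoImplicit false
set_option linter.unusedSectionVars false

open MeasureTheory Set Filter Metric Module
open scoped ENNReal NNReal Topology

namespace Crest.Agent.R96.Intr_538

open Crest.Agent.R96.Lu_538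

noncomputable section

universe u

variable {E : Type*} [NormedAddCommGroup E] [NormedSpace ℝ E] [FiniteDimensional ℝ E]
  [MeasurableSpace E] [BorelSpace E] {μ : Measure E} [μ.IsAddHaarMeasure]

/-- general thickening: `s ↦ s + t` -/
theorem par_thick' {C : Set E} {a : ℝ} (hC : Ref C a) {κ : ℝ} (hκ : 0 < κ) {L : E →L[ℝ] E}
    (hL : ∀ v, κ * ‖v‖ ≤ ‖L v‖) {b : E} {s t : ℝ} (hs : 0 ≤ s) (ht : 0 < t)
    {y y' : E} (hy : y ∈ par C L b s) (hyy : ‖y' - y‖ ≤ κ * a * t) :
    y' ∈ par C L b (s + t) := by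
  have hst : 0 < s + t := by linarith
  have h1 : (1 - t / (s + t)) * (s + t) = s := by field_simp; ring
  refine par_thick hC hκ hL hst (σ := t / (s + t)) (by positivity)
    ((div_le_one hst).2 (by linarith)) (y := y) (by rwa [h1]) ?_
  refine hyy.trans (le_of_eq ?_)
  field_simp

/-- the neighbourhood of size `ρ` of a point of a parallelepiped contains a ball of comparable
size inside the parallelepiped -/
theorem par_ball {C : Set E} {a R : ℝ} (hC : Ref C a) (hCR : C ⊆ closedBall 0 R) (haR : a ≤ R)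
    {κ : ℝ} (hκ : 0 < κ)
    {L : E →L[ℝ] E} (hL : ∀ v, κ * ‖v‖ ≤ ‖L v‖) (hup : ‖L‖ ≤ κ⁻¹) {b : E} {r ρ : ℝ} (hr : 0 < r)
    (hρ : 0 < ρ) (hρr : ρ ≤ (κ⁻¹ * R + κ * a) * r) {y : E} (hy : y ∈ par C L b r) :
    ∃ w, closedBall w (κ * a * (ρ / (κ⁻¹ * R + κ * a))) ⊆ par C L b r ∧
      closedBall w (κ * a * (ρ / (κ⁻¹ * R + κ * a))) ⊆ closedBall y ρ := by
  have ha := hC.pos
  have hR : 0 < R := ha.trans_le haR
  set k := κ⁻¹ * R + κ * a with hk
  have hk0 : 0 < k := by positivity
  obtain ⟨u, hu, rfl⟩ := hy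
  set lam := ρ / k / r with hlam
  have hlam0 : 0 < lam := by positivity
  have hlam1 : lam ≤ 1 := by
    rw [hlam, div_div, div_le_one (by positivity)]
    exact hρr
  refine ⟨b + ((1 - lam) * r) • L u, ?_, ?_⟩
  · intro w hw
    rw [mem_closedBall, dist_eq_norm] at hw
    refine par_thick hC hκ hL hr hlam0 hlam1 (y := b + ((1 - lam) * r) • L u) ⟨u, hu, rfl⟩
      (hw.trans (le_of_eq ?_))
    rw [hlam]
    field_simp
  · apply closedBall_subset_closedBall'
    rw [dist_eq_norm]
    have h1 : b + ((1 - lam) * r) • L u - (b + r • L u) = -((lam * r) • L u) := by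
      have : (1 - lam) * r = r - lam * r := by ring
      rw [this, sub_smul]
      abel
    rw [h1, norm_neg, norm_smul, Real.norm_eq_abs, abs_of_pos (by positivity)]
    have h2 : ‖L u‖ ≤ κ⁻¹ * R := by
      have h3 := mem_closedBall_zero_iff.1 (hCR hu)
      calc ‖L u‖ ≤ ‖L‖ * ‖u‖ := L.le_opNorm u
        _ ≤ κ⁻¹ * R := by gcongr
    have h3 : lam * r = ρ / k := by rw [hlam]; field_simp
    rw [h3]
    calc κ * a * (ρ / k) + ρ / k * ‖L u‖ ≤ κ * a * (ρ / k) + ρ / k * (κ⁻¹ * R) := by gcongr
      _ = ρ / k * k := by rw [hk]; ring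
      _ = ρ := by field_simp

/-- **strong disjointness**: the full parallelepiped of one cell does not meet the shrunk
parallelepiped of another one. -/
theorem disjS (μ : Measure E) [μ.IsAddHaarMeasure] {a R : ℝ} (ha : 0 < a) (haR : a ≤ R) {κ : ℝ}
    (hκ : 0 < κ) {τ : ℝ} (hτ : 0 < τ) (hτ1 : τ ≤ 1) {T : ℝ} (hT : 1 ≤ T) :
    ∃ e₀ > 0, ∀ {Ω : Set E} {f : E → E} {G : E → E →L[ℝ] E} {s : ℕ → Set E},
      Lus Ω μ f G s → InjOn f Ω → ∀ {C : Set E} {e r : ℝ} {z b : E} {L : E →L[ℝ] E} {S : Set E}
      {C' : Set E} {e' r' : ℝ} {z' b' : E} {L' : E →L[ℝ] E} {S' : Set E},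
      Ref C a → C ⊆ closedBall 0 R → Ref C' a → C' ⊆ closedBall 0 R →
      0 ≤ e → e ≤ e₀ → 0 ≤ e' → e' ≤ e₀ → 0 < r → 0 < r' → r' ≤ T * r → r ≤ T * r' →
      GC Ω μ f G C κ e r z b L S → GC Ω μ f G C' κ e' r' z' b' L' S' →
      μ (cel C z r ∩ cel C' z' r') = 0 →
      Disjoint (par C L b ((1 - τ) * r)) (par C' L' b' r') ∧
        ∀ x ∈ S', f x ∉ par C L b ((1 - τ) * r) := by
  set n := finrank ℝ E with hn
  set m := (μ (closedBall (0:E) 1)).toReal with hm
  have hm0 : 0 < m := ENNReal.toReal_pos (Lu_538.mu_pos one_pos 0) (Lu_538.mu_fin 0 1)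
  have hT0 : 0 < T := by linarith
  have hR : 0 < R := ha.trans_le haR
  set k := κ⁻¹ * R + κ * a with hk
  have hk0 : 0 < k := by positivity
  -- radius of the ball in units of r
  set c := κ * a * (κ * a * (τ / 2) / T / k) with hc_def
  have hc0 : 0 < c := by positivity
  obtain ⟨σ, hσ0, hσ1, e₀, he₀, hfill⟩ := fillU μ ha haR hκ
    (η := (c / T) ^ n * m / 4) (by positivity)
  refine ⟨min e₀ (κ * a * (τ / 2) / T), by positivity, ?_⟩
  intro Ω f G s h hinj C e r z b L S C' e' r' z' b' L' S' hC hCR hC' hCR' he0 he he0' he' hr hr'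
    hTr hTr' hc hc' hnull
  obtain ⟨-, -, hs1, hf1⟩ := hfill hC hCR h hinj he0 (he.trans (min_le_left _ _)) hr hc
  obtain ⟨-, -, hs2, hf2⟩ := hfill hC' hCR' h hinj he0' (he'.trans (min_le_left _ _)) hr' hc'
  -- main claim with τ / 2
  have main : Disjoint (par C L b ((1 - τ / 2) * r)) (par C' L' b' r') := by
    rw [Set.disjoint_left]
    intro y hy hy'
    obtain ⟨w, hw1, hw2⟩ := par_ball hC' hCR' haR hκ hc'.low hc'.up hr'
      (ρ := κ * a * (τ / 2) / T * r) (by positivity) (by
        calc κ * a * (τ / 2) / T * r ≤ κ * a * (τ / 2) / T * (T * r') := by gcongr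
          _ = κ * a * (τ / 2) * r' := by field_simp
          _ ≤ (κ⁻¹ * R + κ * a) * r' := by
              have h1 : κ * a * (τ / 2) ≤ κ * a * 1 := by gcongr; linarith
              have h2 : 0 ≤ κ⁻¹ * R := by positivity
              gcongr
              linarith) hy'
    have hw3 : closedBall w (c * r) ⊆ par C L b r ∩ par C' L' b' r' := by
      have h3 : c * r = κ * a * (κ * a * (τ / 2) / T * r / (κ⁻¹ * R + κ * a)) := by
        rw [hc_def, hk]; ring
      rw [h3]
      intro x hx
      refine ⟨?_, hw1 hx⟩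
      have h4 := hw2 hx
      rw [mem_closedBall, dist_eq_norm] at h4
      refine par_thick hC hκ hc.low hr (σ := τ / 2) (by positivity) (by linarith) hy (h4.trans ?_)
      have : κ * a * (τ / 2) / T ≤ κ * a * (τ / 2) := div_le_self (by positivity) hT
      gcongr
    have h1 : μ (closedBall w (c * r)) ≤
        ENNReal.ofReal ((c / T) ^ n * m / 4 * r ^ n) +
          ENNReal.ofReal ((c / T) ^ n * m / 4 * r' ^ n) := by
      have h2 : closedBall w (c * r) ⊆
          ((par C L b r \ f '' core C r z S s σ) ∪ (par C' L' b' r' \ f '' core C' r' z' S' s σ)) ∪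
            (f '' core C r z S s σ ∩ f '' core C' r' z' S' s σ) := by
        intro x hx
        obtain ⟨hx1, hx2⟩ := hw3 hx
        by_cases hx3 : x ∈ f '' core C r z S s σ
        · by_cases hx4 : x ∈ f '' core C' r' z' S' s σ
          · exact Or.inr ⟨hx3, hx4⟩
          · exact Or.inl (Or.inr ⟨hx2, hx4⟩)
        · exact Or.inl (Or.inl ⟨hx1, hx3⟩)
      have h3 : μ (f '' core C r z S s σ ∩ f '' core C' r' z' S' s σ) = 0 := by
        apply inter_null h hinj inter_subset_right inter_subset_right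
        refine measure_mono_null ?_ hnull
        rintro x ⟨hx, hx'⟩
        exact ⟨hc.sS (core_sub hx), hc'.sS (core_sub hx')⟩
      refine (measure_mono h2).trans ((measure_union_le _ _).trans ?_)
      rw [h3, add_zero]
      exact (measure_union_le _ _).trans (add_le_add hf1 hf2)
    rw [Measure.addHaar_closedBall' μ w (by positivity), ← ENNReal.ofReal_add (by positivity)
      (by positivity)] at h1
    have h2 : ENNReal.ofReal ((c * r) ^ n) * μ (closedBall (0:E) 1) =
        ENNReal.ofReal ((c * r) ^ n * m) := by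
      rw [ENNReal.ofReal_mul (by positivity), ENNReal.ofReal_toReal (Lu_538.mu_fin 0 1)]
    rw [h2, ENNReal.ofReal_le_ofReal_iff (by positivity)] at h1
    have h3 : (c / T) ^ n * r' ^ n ≤ (c * r) ^ n := by
      rw [← mul_pow]
      apply pow_le_pow_left₀ (by positivity)
      calc c / T * r' ≤ c / T * (T * r) := by gcongr
        _ = c * r := by field_simp
    have h4 : (c / T) ^ n * r ^ n ≤ (c * r) ^ n := by
      rw [← mul_pow]
      apply pow_le_pow_left₀ (by positivity)
      have : c / T ≤ c := div_le_self hc0.le hT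
      gcongr
    have h5 : 0 < (c * r) ^ n * m := by positivity
    nlinarith
  refine ⟨?_, ?_⟩
  · rw [Set.disjoint_left] at main ⊢
    intro y hy hy'
    refine main ?_ hy'
    have h1 := par_thick' hC hκ hc.low (s := (1 - τ) * r) (t := τ / 2 * r) (by nlinarith)
      (by positivity) (y' := y) hy (by rw [sub_self, norm_zero]; positivity)
    have h2 : (1 - τ) * r + τ / 2 * r = (1 - τ / 2) * r := by ring
    rwa [h2] at h1
  · intro x hx hxP
    obtain ⟨u, hu, rfl⟩ := hc'.sS hx
    have h0 := hc'.cf _ hx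
    simp only [add_sub_cancel_left, map_smul] at h0
    have h1 : b' + r' • L' u ∈ par C' L' b' r' := ⟨u, hu, rfl⟩
    have h3 := par_thick' hC hκ hc.low (s := (1 - τ) * r) (t := τ / 2 * r) (by nlinarith)
      (by positivity) (y' := b' + r' • L' u) hxP (by
        rw [norm_sub_rev]
        refine h0.trans ?_
        calc e' * r' ≤ κ * a * (τ / 2) / T * (T * r) := by
              have := he'.trans (min_le_right _ _)
              gcongr
          _ = κ * a * (τ / 2 * r) := by field_simp)
    have h2 : (1 - τ) * r + τ / 2 * r = (1 - τ / 2) * r := by ring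
    rw [h2] at h3
    exact Set.disjoint_left.1 main h3 h1

end

end Crest.Agent.R96.Intr_538
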