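/-
helper538, row 96, leaf INTR (335 #6511 (a)), part 8: the sum form of NO INTRUDERS.
-/
import Mathlib
import Crest.Agent.R96.Intr7_538

set_option autoImplicit false
set_option linter.unusedSectionVars false

open MeasureTheory Set Filter Metric Module
open scoped ENNReal NNReal Topology

namespace Crest.Agent.R96.Intr_538

open Crest.Agent.R96.Lu_538

noncomputable section

universe u

variable {E : Type*} [NormedAddCommGroup E] [NormedSpace ℝ E] [FiniteDimensional ℝ E]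
  [MeasurableSpace E] [BorelSpace E] {μ : Measure E} [μ.IsAddHaarMeasure]

theorem meas_pre {Ω : Set E} (hΩ : MeasurableSet Ω) {f : E → E} (hf : ContinuousOn f Ω)
    {B : Set E} (hB : MeasurableSet B) : MeasurableSet (Ω ∩ f ⁻¹' B) := by
  have h1 : Measurable (fun x : Ω => f x) := hf.domRestrict.measurable
  have h3 := hΩ.subtype_image (h1 hB)
  convert h3 using 1
  ext x
  simp [and_comm]

/-- `ε-δ` absolute continuity -/
theorem exists_ac {m : Measure E} [IsFiniteMeasure m] (hm : m ≪ μ) {ε : ℝ≥0∞} (hε : ε ≠ 0) :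
    ∃ δ : ℝ, 0 < δ ∧ ∀ B : Set E, μ B ≤ ENNReal.ofReal δ → m B < ε := by
  have h1 : μ.withDensity (m.rnDeriv μ) = m := Measure.withDensity_rnDeriv_eq m μ hm
  have h2 : ∫⁻ x, m.rnDeriv μ x ∂μ ≠ ∞ := (Measure.lintegral_rnDeriv_lt_top m μ).ne
  obtain ⟨δ, hδ, h3⟩ := exists_pos_setLIntegral_lt_of_measure_lt h2 hε
  obtain ⟨q, hq1, hq2⟩ := ENNReal.lt_iff_exists_nnreal_btwn.1 hδ
  refine ⟨q, by exact_mod_cast hq1, fun B hB => ?_⟩
  rw [ENNReal.ofReal_coe_nnreal] at hB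
  set B' := toMeasurable μ B with hB'
  have hB'm : MeasurableSet B' := measurableSet_toMeasurable _ _
  have h4 : μ B' < δ := by rw [hB', measure_toMeasurable]; exact hB.trans_lt hq2
  have h5 := h3 B' h4
  rw [← withDensity_apply _ hB'm, h1] at h5
  exact lt_of_le_of_lt (measure_mono (subset_toMeasurable μ B)) h5

/-- total size of a family of good cells -/
theorem sum_le {Ω Λ : Set E} {f : E → E} {G : E → E →L[ℝ] E}
    {s : ℕ → Set E} (h : Lus Ω μ f G s) (hinj : InjOn f Ω) (hΛf : μ Λ ≠ ∞)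
    (hfΛ : MapsTo f Ω Λ) {a R : ℝ} (ha : 0 < a) (haR : a ≤ R) {κ : ℝ} (hκ : 0 < κ) :
    ∃ M > 0, ∃ e₀ > 0, ∀ {ι : Type u} (Q : Finset ι) (C : ι → Set E) (e r : ι → ℝ)
      (z b : ι → E) (L : ι → E →L[ℝ] E) (S : ι → Set E),
      (∀ i ∈ Q, Ref (C i) a) → (∀ i ∈ Q, C i ⊆ closedBall 0 R) →
      (∀ i ∈ Q, 0 ≤ e i) → (∀ i ∈ Q, e i ≤ e₀) → (∀ i ∈ Q, 0 < r i) →
      (∀ i ∈ Q, GC Ω μ f G (C i) κ (e i) (r i) (z i) (b i) (L i) (S i)) →
      (∀ i ∈ Q, ∀ j ∈ Q, i ≠ j → μ (cel (C i) (z i) (r i) ∩ cel (C j) (z j) (r j)) = 0) →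
      ∑ i ∈ Q, r i ^ finrank ℝ E ≤ M := by
  set n := finrank ℝ E with hn
  have hR : 0 < R := ha.trans_le haR
  set mC := (μ (closedBall (0:E) a)).toReal with hmCd
  have hmC : 0 < mC := ENNReal.toReal_pos (Lu_538.mu_pos ha 0) (Lu_538.mu_fin 0 a)
  set c₀ := κ ^ n * mC / 2 with hc₀
  have hc₀0 : 0 < c₀ := by positivity
  obtain ⟨σ, hσ0, hσ1, e₀, he₀, hfill⟩ := fillU μ ha haR hκ (η := c₀) hc₀0
  refine ⟨(μ Λ).toReal / c₀ + 1, by positivity, e₀, he₀, ?_⟩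
  intro ι Q C e r z b L S hC hCR he0 he hr hQ hdis
  have h1 := fun i (hi : i ∈ Q) => hfill (hC i hi) (hCR i hi) h hinj (he0 i hi) (he i hi)
    (hr i hi) (hQ i hi)
  have h2 := sum_bound (μ := μ) Q (F := fun i => f '' core (C i) (r i) (z i) (S i) s σ)
    (B := Λ) (c := fun i => c₀ * r i ^ n)
    (fun i hi => by have := hr i hi; positivity) (fun i hi => (h1 i hi).2.1) ?_ ?_ ?_ hΛf
  · rw [← Finset.mul_sum] at h2
    have h4 := (le_div_iff₀' hc₀0).2 h2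
    linarith
  · intro i hi j hj hij
    apply inter_null h hinj inter_subset_right inter_subset_right
    refine measure_mono_null ?_ (hdis i hi j hj hij)
    rintro x ⟨hx, hx'⟩
    exact ⟨(hQ i hi).sS (core_sub hx), (hQ j hj).sS (core_sub hx')⟩
  · intro i hi
    refine image_low (hC i hi) hκ (hQ i hi).low (hr i hi) hc₀0.le hc₀0.le ?_ (h1 i hi).2.2.2
    have h3 : κ ^ n * mC ≤ κ ^ n * (μ (C i)).toReal := by
      have : mC ≤ (μ (C i)).toReal :=
        ENNReal.toReal_mono (hC i hi).mu_fin.ne (measure_mono (hC i hi).ball)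
      gcongr
    rw [hc₀]; linarith
  · intro i hi
    rintro _ ⟨x, hx, rfl⟩
    exact hfΛ (h.subU hx.2)

/-- **NO INTRUDERS, sum form.** -/
theorem intrSum {Ω Λ : Set E} (hΩ : MeasurableSet Ω) {f : E → E} {G : E → E →L[ℝ] E}
    {s : ℕ → Set E} (h : Lus Ω μ f G s) (hinj : InjOn f Ω) (hf : ContinuousOn f Ω)
    (hG : AEStronglyMeasurable G (μ.restrict Ω)) (hΛ : MeasurableSet Λ) (hΛf : μ Λ ≠ ∞)
    (hfΛ : MapsTo f Ω Λ) {m : Measure E} [IsFiniteMeasure m] (hm : m ≪ μ)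
    {a R : ℝ} (ha : 0 < a) (haR : a ≤ R) {κ : ℝ} (hκ : 0 < κ) {τ : ℝ} (hτ : 0 < τ) (hτ1 : τ ≤ 1)
    {T : ℝ} (hT : 1 ≤ T) {ε : ℝ} (hε : 0 < ε) :
    ∃ e₀ > 0, ∃ r₀ > 0, ∀ {ι : Type u} (Q : Finset ι) (C : ι → Set E) (e r : ι → ℝ)
      (z b : ι → E) (L : ι → E →L[ℝ] E) (S : ι → Set E),
      (∀ i ∈ Q, Ref (C i) a) → (∀ i ∈ Q, C i ⊆ closedBall 0 R) →
      (∀ i ∈ Q, 0 ≤ e i) → (∀ i ∈ Q, e i ≤ e₀) → (∀ i ∈ Q, 0 < r i) → (∀ i ∈ Q, r i < r₀) →
      (∀ i ∈ Q, ∀ j ∈ Q, r i ≤ T * r j) →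
      (∀ i ∈ Q, GC Ω μ f G (C i) κ (e i) (r i) (z i) (b i) (L i) (S i)) →
      (∀ i ∈ Q, ∀ j ∈ Q, i ≠ j → μ (cel (C i) (z i) (r i) ∩ cel (C j) (z j) (r j)) = 0) →
      (∀ i ∈ Q, ∀ j ∈ Q, i ≠ j →
        Disjoint (par (C i) (L i) (b i) ((1 - τ) * r i)) (par (C j) (L j) (b j) (r j))) ∧
      ∃ Q1 ⊆ Q, (∀ Q2 ⊆ Q, Disjoint Q1 Q2 → ∑ i ∈ Q2, r i ^ finrank ℝ E ≤ ε) ∧
        ∑ i ∈ Q1, m ((Ω ∩ f ⁻¹' par (C i) (L i) (b i) ((1 - τ) * r i)) \
          cel (C i) (z i) (r i)) ≤ ENNReal.ofReal ε := by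
  classical
  set n := finrank ℝ E with hn
  obtain ⟨e₁, he₁, r₁, hr₁, H1⟩ := intrU.{u} hΩ h hinj hf hG hΛ hΛf hfΛ hm ha haR hκ
    (half_pos hε)
  obtain ⟨e₂, he₂, H2⟩ := disjS μ ha haR hκ hτ hτ1 hT
  obtain ⟨M, hM, e₃, he₃, H3⟩ := sum_le.{u} h hinj hΛf hfΛ ha haR hκ
  obtain ⟨δ, hδ, H4⟩ := exists_ac hm (ε := ENNReal.ofReal (ε / 2)) (by
    rw [Ne, ENNReal.ofReal_eq_zero, not_le]; positivity)
  refine ⟨min (min e₁ e₂) (min e₃ (δ / M)), by positivity, r₁, hr₁, ?_⟩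
  intro ι Q C e r z b L S hC hCR he0 he hr hrr hTr hQ hdis
  have he1 : ∀ i ∈ Q, e i ≤ e₁ := fun i hi =>
    (he i hi).trans ((min_le_left _ _).trans (min_le_left _ _))
  have he2 : ∀ i ∈ Q, e i ≤ e₂ := fun i hi =>
    (he i hi).trans ((min_le_left _ _).trans (min_le_right _ _))
  have he3 : ∀ i ∈ Q, e i ≤ e₃ := fun i hi =>
    (he i hi).trans ((min_le_right _ _).trans (min_le_left _ _))
  have he4 : ∀ i ∈ Q, e i ≤ δ / M := fun i hi =>
    (he i hi).trans ((min_le_right _ _).trans (min_le_right _ _))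
  have hD : ∀ i ∈ Q, ∀ j ∈ Q, i ≠ j →
      Disjoint (par (C i) (L i) (b i) ((1 - τ) * r i)) (par (C j) (L j) (b j) (r j)) ∧
        ∀ x ∈ S j, f x ∉ par (C i) (L i) (b i) ((1 - τ) * r i) := fun i hi j hj hij =>
    H2 h hinj (hC i hi) (hCR i hi) (hC j hj) (hCR j hj) (he0 i hi) (he2 i hi) (he0 j hj)
      (he2 j hj) (hr i hi) (hr j hj) (hTr j hj i hi) (hTr i hi j hj) (hQ i hi) (hQ j hj)
      (hdis i hi j hj hij)
  refine ⟨fun i hi j hj hij => (hD i hi j hj hij).1, ?_⟩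
  obtain ⟨Q1, hQ1, hQ1a, hQ1b⟩ := H1 Q C e r z b L S hC hCR he0 he1 hr hrr hQ hdis
  refine ⟨Q1, hQ1, fun Q2 hQ2 hdj => (hQ1a Q2 hQ2 hdj).trans (by linarith), ?_⟩
  set P : ι → Set E := fun i => par (C i) (L i) (b i) ((1 - τ) * r i) with hP
  set q : ι → Set E := fun i => cel (C i) (z i) (r i) with hq
  have hPm : ∀ i ∈ Q, MeasurableSet (P i) := fun i hi =>
    (isCompact_par (hC i hi).cpt _ _ _).isClosed.measurableSet
  have hqm : ∀ i ∈ Q, MeasurableSet (q i) := fun i hi =>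
    (isCompact_cel (hC i hi).cpt _ _).isClosed.measurableSet
  have hPP : ∀ i ∈ Q, P i ⊆ par (C i) (L i) (b i) (r i) := by
    intro i hi y hy
    have hri := hr i hi
    have h1 := par_thick' (hC i hi) hκ (hQ i hi).low (s := (1 - τ) * r i) (t := τ * r i)
      (by nlinarith) (by positivity) (y' := y) hy (by
        rw [sub_self, norm_zero]; positivity)
    have h2 : (1 - τ) * r i + τ * r i = r i := by ring
    rwa [h2] at h1
  rw [← measure_biUnion_finset₀]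
  · have hsub : (⋃ i ∈ Q1, (Ω ∩ f ⁻¹' P i) \ q i) ⊆
        ((Ω ∩ f ⁻¹' (⋃ i ∈ Q1, par (C i) (L i) (b i) (r i))) \ ⋃ i ∈ Q1, q i) ∪
          ⋃ j ∈ Q1, (q j \ S j) := by
      intro x hx
      obtain ⟨i, hi, ⟨hxΩ, hxP⟩, hxq⟩ := mem_iUnion₂.1 hx
      by_cases hxU : x ∈ ⋃ i ∈ Q1, q i
      · obtain ⟨j, hj, hxj⟩ := mem_iUnion₂.1 hxU
        refine Or.inr (mem_iUnion₂.2 ⟨j, hj, hxj, ?_⟩)
        have hij : i ≠ j := by rintro rfl; exact hxq hxj
        intro hxS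
        exact (hD i (hQ1 hi) j (hQ1 hj) hij).2 x hxS hxP
      · exact Or.inl ⟨⟨hxΩ, mem_iUnion₂.2 ⟨i, hi, hPP i (hQ1 hi) hxP⟩⟩, hxU⟩
    have hS : m (⋃ j ∈ Q1, (q j \ S j)) ≤ ENNReal.ofReal (ε / 2) := by
      apply (H4 _ _).le
      calc μ (⋃ j ∈ Q1, (q j \ S j)) ≤ ∑ j ∈ Q1, μ (q j \ S j) := measure_biUnion_finset_le _ _
        _ ≤ ∑ j ∈ Q1, ENNReal.ofReal (e j * r j ^ n) :=
            Finset.sum_le_sum fun j hj => (hQ j (hQ1 hj)).big
        _ = ENNReal.ofReal (∑ j ∈ Q1, e j * r j ^ n) := by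
            rw [ENNReal.ofReal_sum_of_nonneg]
            intro j hj
            have := hr j (hQ1 hj)
            have := he0 j (hQ1 hj)
            positivity
        _ ≤ ENNReal.ofReal δ := by
            apply ENNReal.ofReal_le_ofReal
            calc ∑ j ∈ Q1, e j * r j ^ n ≤ ∑ j ∈ Q1, δ / M * r j ^ n := by
                  apply Finset.sum_le_sum
                  intro j hj
                  have := hr j (hQ1 hj)
                  have := he4 j (hQ1 hj)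
                  gcongr
              _ = δ / M * ∑ j ∈ Q1, r j ^ n := by rw [Finset.mul_sum]
              _ ≤ δ / M * M := by
                  have h5 : ∑ j ∈ Q1, r j ^ n ≤ ∑ j ∈ Q, r j ^ n := by
                    apply Finset.sum_le_sum_of_subset_of_nonneg hQ1
                    intro j hj _
                    have := hr j hj
                    positivity
                  have h6 := H3 Q C e r z b L S hC hCR he0 he3 hr hQ hdis
                  gcongr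
                  exact h5.trans h6
              _ = δ := by field_simp
    refine (measure_mono hsub).trans ((measure_union_le _ _).trans ((add_le_add hQ1b hS).trans
      (le_of_eq ?_)))
    rw [← ENNReal.ofReal_add (by positivity) (by positivity), add_halves]
  · intro i hi j hj hij
    have h1 := (hD i (hQ1 hi) j (hQ1 hj) hij).1
    refine Disjoint.aedisjoint ?_
    rw [Set.disjoint_left] at h1 ⊢
    rintro x ⟨⟨-, hx1⟩, -⟩ ⟨⟨-, hx2⟩, -⟩
    exact h1 hx1 (hPP j (hQ1 hj) hx2)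
  · intro i hi
    exact ((meas_pre hΩ hf (hPm i (hQ1 hi))).diff (hqm i (hQ1 hi))).nullMeasurableSet

end

end Crest.Agent.R96.Intr_538
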