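/-
helper538, row 96, leaf COARSE, part 12: absolute continuity of a Sobolev map on almost every
translate of countably many lines (vector form), the reference cube of R3, boxes.
-/
import Mathlib
import Crest.Agent.R96.Intr8_538
import Crest.Agent.R96.Intr11_538

set_option autoImplicit false
set_option linter.unusedSectionVars false

open MeasureTheory Set Filter Metric
open scoped ENNReal NNReal Topology

namespace Crest.Agent.R96.Coarse_538

open Crest.AnalysisR.VecCalc3 Crest.AnalysisR.Sobolev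
open Crest.Agent.R96.Acl_392 Crest.Agent.R96.Lu_538 Crest.Agent.R96.Intr_538

noncomputable section

/-- `f` is absolutely continuous along `x + ℝ e` in `Ω` with derivative `D (x + τ e) e`. -/
def ACV (Ω : Set R3) (f : R3 → R3) (D : R3 → R3 →L[ℝ] R3) (e x : R3) : Prop :=
  ∀ s t : ℝ, s ≤ t → x ∈ segIn Ω e s t →
    IntegrableOn (fun τ : ℝ => D (x + τ • e) e) (Icc s t) ∧
      f (x + t • e) - f (x + s • e) = ∫ τ in s..t, D (x + τ • e) e

theorem acv_countable {Ω : Set R3} (hΩ : IsOpen Ω) {f : R3 → R3} {G : Fin 3 → R3 → R3}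
    (hG : ∀ j, HasWeakGradOn Ω (fun x => f x j) (G j)) (hf : ContinuousOn f Ω)
    {ι : Type*} [Countable ι] (c e : ι → R3) :
    ∀ᵐ x : R3, ∀ i, ACV Ω f (Gmat G) (e i) (x + c i) := by
  have hfj : ∀ j : Fin 3, ContinuousOn (fun x => f x j) Ω := fun j =>
    (EuclideanSpace.proj (𝕜 := ℝ) j).continuous.comp_continuousOn hf
  have h1 : ∀ᵐ x : R3, ∀ j : Fin 3, ∀ i, ACLat Ω (fun x => f x j)
      (fun x => inner ℝ (G j x) (e i)) (e i) (x + c i) := by
    rw [ae_all_iff]
    intro j
    exact acl_grad_countable hΩ (hG j) (hfj j) c e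
  filter_upwards [h1] with x hx i s t hst hseg
  have h2 : ∀ j, IntegrableOn (fun τ : ℝ => inner ℝ (G j (x + c i + τ • e i)) (e i)) (Icc s t) ∧
      f (x + c i + t • e i) j - f (x + c i + s • e i) j =
        ∫ τ in s..t, inner ℝ (G j (x + c i + τ • e i)) (e i) := by
    intro j
    exact hx j i s t hst hseg
  have h5 : ∀ j, IntegrableOn (fun τ : ℝ => Gmat G (x + c i + τ • e i) (e i) j) (Icc s t) :=
    fun j => (h2 j).1
  have h6 : IntegrableOn (fun τ : ℝ => Gmat G (x + c i + τ • e i) (e i)) (Icc s t) :=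
    Integrable.of_eval_piLp h5
  refine ⟨h6, ?_⟩
  ext j
  rw [intervalIntegral.integral_of_le hst]
  have h3 : ∀ j, Integrable (fun τ : ℝ => Gmat G (x + c i + τ • e i) (e i) j)
      (volume.restrict (Ioc s t)) :=
    fun j => (h5 j).mono_set Ioc_subset_Icc_self
  have h4 := eval_integral_piLp h3 j
  rw [h4, ← intervalIntegral.integral_of_le hst]
  exact (h2 j).2

/-- increments of `f - A` -/
theorem ACV.diff_le {Ω : Set R3} {f : R3 → R3} {D : R3 → R3 →L[ℝ] R3} {e x : R3}
    (h : ACV Ω f D e x) (L : R3 →L[ℝ] R3) {s t : ℝ} (hst : s ≤ t) (hx : x ∈ segIn Ω e s t) :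
    ‖(f (x + t • e) - L (x + t • e)) - (f (x + s • e) - L (x + s • e))‖ₑ ≤
      ∫⁻ τ in Ioc s t, ‖D (x + τ • e) - L‖ₑ * ‖e‖ₑ := by
  obtain ⟨h1, h2⟩ := h s t hst hx
  have h3 : (f (x + t • e) - L (x + t • e)) - (f (x + s • e) - L (x + s • e)) =
      ∫ τ in s..t, (D (x + τ • e) - L) e := by
    have h4 : IntervalIntegrable (fun τ : ℝ => D (x + τ • e) e) volume s t := by
      rw [intervalIntegrable_iff_integrableOn_Icc_of_le hst]
      exact h1
    have h5 : (fun τ : ℝ => (D (x + τ • e) - L) e) = fun τ : ℝ => D (x + τ • e) e - L e := rfl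
    rw [h5, intervalIntegral.integral_sub h4 intervalIntegrable_const, ← h2,
      intervalIntegral.integral_const]
    simp only [map_add, map_smul]
    rw [sub_smul]
    abel
  rw [h3, intervalIntegral.integral_of_le hst]
  refine (enorm_integral_le_lintegral_enorm _).trans ?_
  apply lintegral_mono
  intro τ
  exact (D (x + τ • e) - L).le_opNorm_enorm e

/-- reference cube -/
def Cb : Set R3 := {x | ∀ i, |x i| ≤ 1}

theorem mem_cel {z x : R3} {s : ℝ} (hs : 0 < s) : x ∈ cel Cb z s ↔ ∀ i, |x i - z i| ≤ s := by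
  constructor
  · rintro ⟨u, hu, rfl⟩ i
    have h1 : (z + s • u) i - z i = s * u i := by simp
    rw [h1, abs_mul, abs_of_pos hs]
    have := hu i
    nlinarith
  · intro h
    refine ⟨s⁻¹ • (x - z), ?_, ?_⟩
    · intro i
      have h1 : (s⁻¹ • (x - z)) i = s⁻¹ * (x i - z i) := by simp
      rw [h1, abs_mul, abs_of_pos (inv_pos.2 hs), inv_mul_le_iff₀ hs, mul_one]
      exact h i
    · show z + s • s⁻¹ • (x - z) = x
      rw [smul_smul, mul_inv_cancel₀ hs.ne', one_smul]; abel

theorem norm_coord_le (x : R3) (i : Fin 3) : |x i| ≤ ‖x‖ := by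
  rw [EuclideanSpace.norm_eq]
  apply Real.abs_le_sqrt
  have h3 : ‖x i‖ ^ 2 ≤ ∑ i, ‖x i‖ ^ 2 :=
    Finset.single_le_sum (f := fun i => ‖x i‖ ^ 2) (fun i _ => by positivity) (Finset.mem_univ i)
  simpa using h3

theorem norm_le_of_coord {x : R3} {c : ℝ} (hc : 0 ≤ c) (h : ∀ i, |x i| ≤ c) : ‖x‖ ≤ 2 * c := by
  rw [EuclideanSpace.norm_eq]
  apply Real.sqrt_le_iff.2
  refine ⟨by positivity, ?_⟩
  rw [Fin.sum_univ_three]
  have h1 : ∀ i, ‖x i‖ ^ 2 ≤ c ^ 2 := fun i => by
    rw [Real.norm_eq_abs]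
    exact pow_le_pow_left₀ (abs_nonneg _) (h i) 2
  nlinarith [h1 0, h1 1, h1 2, sq_nonneg c]

theorem ref_Cb : Ref Cb 1 := by
  have hcl : IsClosed Cb := by
    have : Cb = ⋂ i : Fin 3, {x : R3 | |x i| ≤ 1} := by ext x; simp [Cb]
    rw [this]
    refine isClosed_iInter fun i => isClosed_le ?_ continuous_const
    fun_prop
  refine ⟨?_, ?_, one_pos, ?_⟩
  · intro x hx y hy a b ha hb hab i
    have h1 : (a • x + b • y) i = a * x i + b * y i := by simp
    rw [h1]
    calc |a * x i + b * y i| ≤ |a * x i| + |b * y i| := abs_add_le _ _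
      _ = a * |x i| + b * |y i| := by rw [abs_mul, abs_mul, abs_of_nonneg ha, abs_of_nonneg hb]
      _ ≤ a * 1 + b * 1 := by
          have := hx i; have := hy i
          gcongr <;> assumption
      _ = 1 := by linarith
  · refine Metric.isCompact_of_isClosed_isBounded hcl ?_
    refine (isBounded_iff_forall_norm_le).2 ⟨2 * 1, fun x hx => norm_le_of_coord zero_le_one hx⟩
  · intro x hx i
    rw [mem_closedBall_zero_iff] at hx
    exact (norm_coord_le x i).trans hx

theorem Cb_sub : Cb ⊆ closedBall (0:R3) 2 := by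
  intro x hx
  rw [mem_closedBall_zero_iff]
  have := norm_le_of_coord (x := x) zero_le_one hx
  linarith

theorem vol_cel {z : R3} {s : ℝ} (hs : 0 < s) :
    volume (cel Cb z s) = ENNReal.ofReal ((2 * s) ^ 3) := by
  have h1 : cel Cb z s = {x : R3 | ∀ i, x i ∈ (fun i : Fin 3 => Icc (z i - s) (z i + s)) i} := by
    ext x
    rw [mem_cel hs]
    simp only [mem_ofPred_eq, mem_Icc, abs_le]
    refine forall_congr' fun i => ?_
    constructor
    · rintro ⟨h1, h2⟩; constructor <;> linarith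
    · rintro ⟨h1, h2⟩; constructor <;> linarith
  rw [h1, vol_box fun _ => measurableSet_Icc]
  simp only [Real.volume_Icc]
  have h2 : ∀ i : Fin 3, z i + s - (z i - s) = 2 * s := fun i => by ring
  simp only [h2, Finset.prod_const, Finset.card_univ, Fintype.card_fin]
  rw [ENNReal.ofReal_pow (by positivity)]

/-- half-open cube -/
def hcel (z : R3) (s : ℝ) : Set R3 := {x | ∀ i, x i ∈ Ico (z i - s) (z i + s)}

theorem hcel_sub {z : R3} {s : ℝ} (hs : 0 < s) : hcel z s ⊆ cel Cb z s := by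
  intro x hx
  rw [mem_cel hs]
  intro i
  have := hx i
  rw [abs_le]
  constructor <;> linarith [this.1, this.2]

theorem meas_hcel (z : R3) (s : ℝ) : MeasurableSet (hcel z s) := by
  have : hcel z s = ⋂ i : Fin 3, {x : R3 | x i ∈ Ico (z i - s) (z i + s)} := by
    ext x; simp [hcel]
  rw [this]
  refine MeasurableSet.iInter fun i => ?_
  have h1 : Measurable (fun a : R3 => a i) := by fun_prop
  exact measurableSet_Ico.preimage h1

theorem vol_hcel {z : R3} {s : ℝ} (hs : 0 < s) :
    volume (hcel z s) = ENNReal.ofReal ((2 * s) ^ 3) := by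
  rw [hcel, vol_box (I := fun i => Ico (z i - s) (z i + s)) fun _ => measurableSet_Ico]
  simp only [Real.volume_Ico]
  have h2 : ∀ i : Fin 3, z i + s - (z i - s) = 2 * s := fun i => by ring
  simp only [h2, Finset.prod_const, Finset.card_univ, Fintype.card_fin]
  rw [ENNReal.ofReal_pow (by positivity)]

theorem isClosed_cel (z : R3) (s : ℝ) : IsClosed (cel Cb z s) :=
  (isCompact_cel ref_Cb.cpt z s).isClosed

theorem hcel_ae {z : R3} {s : ℝ} (hs : 0 < s) : hcel z s =ᵐ[volume] cel Cb z s := by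
  refine ae_eq_of_subset_of_measure_ge (hcel_sub hs) ?_ (meas_hcel z s).nullMeasurableSet ?_
  · rw [vol_cel hs, vol_hcel hs]
  · rw [vol_cel hs]; exact ENNReal.ofReal_ne_top

/-- centres of the cubes of a grid of mesh `2s` -/
theorem hcel_disj {s : ℝ} (hs : 0 < s) (a : R3) {k l : Fin 3 → ℤ} (hkl : k ≠ l) :
    Disjoint (hcel (vt (2 * s) a k) s) (hcel (vt (2 * s) a l) s) := by
  rw [Set.disjoint_left]
  intro x hx hy
  apply hkl
  funext i
  have h1 := hx i
  have h2 := hy i
  simp only [mem_Ico, vt_apply] at h1 h2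
  have h3 : (2 * s) * (k i : ℝ) < (2 * s) * (l i + 1) := by linarith [h1.1, h2.2]
  have h4 : (2 * s) * (l i : ℝ) < (2 * s) * (k i + 1) := by linarith [h2.1, h1.2]
  have h5 : (k i : ℝ) < l i + 1 := lt_of_mul_lt_mul_left h3 (by positivity)
  have h6 : (l i : ℝ) < k i + 1 := lt_of_mul_lt_mul_left h4 (by positivity)
  have h7 : k i < l i + 1 := by exact_mod_cast h5
  have h8 : l i < k i + 1 := by exact_mod_cast h6
  omega

theorem cel_null {s : ℝ} (hs : 0 < s) (a : R3) {k l : Fin 3 → ℤ} (hkl : k ≠ l) :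
    volume (cel Cb (vt (2 * s) a k) s ∩ cel Cb (vt (2 * s) a l) s) = 0 := by
  have h1 := (hcel_ae (z := vt (2 * s) a k) hs).inter (hcel_ae (z := vt (2 * s) a l) hs)
  rw [← measure_congr h1, (hcel_disj hs a hkl).inter_eq, measure_empty]

theorem exists_hcel {s : ℝ} (hs : 0 < s) (a x : R3) : ∃ k, x ∈ hcel (vt (2 * s) a k) s := by
  refine ⟨fun i => ⌊(x i - a i + s) / (2 * s)⌋, fun i => ?_⟩
  have h1 := Int.floor_le ((x i - a i + s) / (2 * s))
  have h2 := Int.lt_floor_add_one ((x i - a i + s) / (2 * s))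
  rw [le_div_iff₀ (by positivity)] at h1
  rw [div_lt_iff₀ (by positivity)] at h2
  rw [vt_apply, mem_Ico]
  constructor <;> nlinarith

end

end Crest.Agent.R96.Coarse_538
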