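/-
helper392, row 96, leaf P6-POINC (B1): Poincaré inequality on bounded convex sets for functions
with a weak gradient, `1 ≤ p < ∞`, by the translation argument (only ACL is used).
-/
import Mathlib
import Crest.Agent.R96.Acl3_392
import Crest.Agent.R96.Grid1_392

set_option autoImplicit false
set_option linter.unusedSectionVars false

open MeasureTheory Set Filter
open scoped ENNReal Topology Pointwise

namespace Crest.Agent.R96.Poi_392

open Crest.Agent.R96.Acl_392 Crest.Agent.R96.Grid_392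

noncomputable section

/-- Jensen's inequality for powers, lower integrals. -/
theorem jensen {α : Type*} [MeasurableSpace α] {ν : Measure α} [IsProbabilityMeasure ν] {p : ℝ}
    (hp : 1 ≤ p) {f : α → ℝ≥0∞} (hf : AEMeasurable f ν) :
    (∫⁻ a, f a ∂ν) ^ p ≤ ∫⁻ a, f a ^ p ∂ν := by
  rcases eq_or_lt_of_le hp with h1 | h1
  · rw [← h1]; simp
  · have hpq : p.HolderConjugate (Real.conjExponent p) := Real.HolderConjugate.conjExponent h1
    have h2 := ENNReal.lintegral_mul_le_Lp_mul_Lq ν hpq hf (aemeasurable_const (b := (1:ℝ≥0∞)))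
    simp only [Pi.mul_apply, mul_one, ENNReal.one_rpow, lintegral_const, measure_univ] at h2
    have h3 := ENNReal.rpow_le_rpow h2 (by linarith : (0:ℝ) ≤ p)
    rw [← ENNReal.rpow_mul, one_div, inv_mul_cancel₀ (by linarith : p ≠ 0), ENNReal.rpow_one] at h3
    exact h3

variable {E : Type*} [NormedAddCommGroup E] [InnerProductSpace ℝ E] [FiniteDimensional ℝ E]
  [MeasurableSpace E] [BorelSpace E] {μ : Measure E} [μ.IsAddHaarMeasure]

/-- `G` is the weak gradient of `v` on `Ω` (all directions), abstract form. -/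
structure WG (Ω : Set E) (μ : Measure E) (v : E → ℝ) (G : E → E) : Prop where
  lG : LocallyIntegrableOn G Ω μ
  wd : ∀ e : E, WD Ω μ v (fun x => inner ℝ (G x) e) e

/-- the increment in direction `e` on a convex set -/
theorem increment {Ω : Set E} (hΩ : IsOpen Ω) {v : E → ℝ} {G : E → E} (h : WG Ω μ v G)
    {Q : Set E} (hQc : Convex ℝ Q) (hQo : IsOpen Q) (hQΩ : Q ⊆ Ω) {p : ℝ} (hp : 1 ≤ p) (e : E) :
    ∀ᵐ x ∂μ, x ∈ Q → x + e ∈ Q → ‖v (x + e) - v x‖ₑ ^ p ≤
      ‖e‖ₑ ^ p * pc (volume.restrict (Icc (0:ℝ) 1)) (fun τ : ℝ => τ • e)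
        (Q.indicator fun y => ‖G y‖ₑ ^ p) x := by
  have h1 := acl_fix hΩ (h.wd e) (zero_le_one' ℝ)
  have hGm : AEStronglyMeasurable G (μ.restrict Q) :=
    (h.lG.mono_set hQΩ).aestronglyMeasurable
  have hF : AEMeasurable (Q.indicator fun y => ‖G y‖ₑ) μ :=
    (aemeasurable_indicator_iff hQo.measurableSet).2 hGm.enorm
  have h2 : ∀ᵐ x ∂μ, AEMeasurable (fun τ : ℝ => Q.indicator (fun y => ‖G y‖ₑ) (x + τ • e))
      (volume.restrict (Icc (0:ℝ) 1)) := by
    have h3 := aemeasurable_shear (ν := volume.restrict (Icc (0:ℝ) 1)) (μ := μ)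
      (γ := fun τ : ℝ => τ • e) (measurable_id.smul_const e) hF
    have h4 : AEMeasurable (fun q : E × ℝ => Q.indicator (fun y => ‖G y‖ₑ) (q.1 + q.2 • e))
        (μ.prod (volume.restrict (Icc (0:ℝ) 1))) := h3.prod_swap
    filter_upwards [h4.aestronglyMeasurable.prodMk_left] with x hx using hx.aemeasurable
  filter_upwards [h1, h2] with x hx hxm hxQ hxeQ
  have hseg : ∀ τ ∈ Icc (0:ℝ) 1, x + τ • e ∈ Q := by
    intro τ hτ
    have h5 := hQc.add_smul_mem hxQ hxeQ hτ
    exact h5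
  obtain ⟨-, h6⟩ := hx (fun τ hτ => hQΩ (hseg τ hτ))
  rw [one_smul, zero_smul, add_zero] at h6
  rw [h6]
  have hprob : IsProbabilityMeasure (volume.restrict (Icc (0:ℝ) 1)) := by
    constructor
    rw [Measure.restrict_apply_univ, Real.volume_Icc]
    simp
  have h7 : ‖∫ τ in (0:ℝ)..1, inner ℝ (G (x + τ • e)) e‖ₑ ≤
      ‖e‖ₑ * ∫⁻ τ in Icc (0:ℝ) 1, Q.indicator (fun y => ‖G y‖ₑ) (x + τ • e) := by
    rw [intervalIntegral.integral_of_le zero_le_one, ← integral_Icc_eq_integral_Ioc]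
    calc ‖∫ τ in Icc (0:ℝ) 1, inner ℝ (G (x + τ • e)) e‖ₑ
        ≤ ∫⁻ τ in Icc (0:ℝ) 1, ‖inner ℝ (G (x + τ • e)) e‖ₑ := enorm_integral_le_lintegral_enorm _
      _ ≤ ∫⁻ τ in Icc (0:ℝ) 1, ‖e‖ₑ * Q.indicator (fun y => ‖G y‖ₑ) (x + τ • e) := by
          apply setLIntegral_mono_ae' measurableSet_Icc
          filter_upwards with τ hτ
          rw [indicator_of_mem (hseg τ hτ)]
          have h8 : ‖(inner ℝ (G (x + τ • e)) e : ℝ)‖ ≤ ‖e‖ * ‖G (x + τ • e)‖ := by
            rw [mul_comm]; exact norm_inner_le_norm _ _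
          rw [← ofReal_norm, ← ofReal_norm, ← ofReal_norm,
            ← ENNReal.ofReal_mul (norm_nonneg _)]
          exact ENNReal.ofReal_le_ofReal h8
      _ = ‖e‖ₑ * ∫⁻ τ in Icc (0:ℝ) 1, Q.indicator (fun y => ‖G y‖ₑ) (x + τ • e) :=
          lintegral_const_mul'' _ hxm
  calc ‖∫ τ in (0:ℝ)..1, inner ℝ (G (x + τ • e)) e‖ₑ ^ p
      ≤ (‖e‖ₑ * ∫⁻ τ in Icc (0:ℝ) 1, Q.indicator (fun y => ‖G y‖ₑ) (x + τ • e)) ^ p :=
        ENNReal.rpow_le_rpow h7 (by linarith)
    _ = ‖e‖ₑ ^ p * (∫⁻ τ in Icc (0:ℝ) 1, Q.indicator (fun y => ‖G y‖ₑ) (x + τ • e)) ^ p :=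
        ENNReal.mul_rpow_of_nonneg _ _ (by linarith)
    _ ≤ ‖e‖ₑ ^ p * ∫⁻ τ in Icc (0:ℝ) 1, (Q.indicator (fun y => ‖G y‖ₑ) (x + τ • e)) ^ p := by
        gcongr
        exact jensen hp hxm
    _ = _ := by
        congr 1
        apply lintegral_congr
        intro τ
        by_cases hτ : x + τ • e ∈ Q
        · rw [indicator_of_mem hτ, indicator_of_mem hτ]
        · rw [indicator_of_notMem hτ, indicator_of_notMem hτ, ENNReal.zero_rpow_of_pos (by linarith)]

/-- **(B1) Poincaré inequality**, double integral form, on bounded convex open sets. -/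
theorem poincare {Ω : Set E} (hΩ : IsOpen Ω) {v : E → ℝ} {G : E → E} (h : WG Ω μ v G)
    (hvc : ContinuousOn v Ω) {Q : Set E} (hQc : Convex ℝ Q) (hQo : IsOpen Q) (hQΩ : Q ⊆ Ω)
    {p : ℝ} (hp : 1 ≤ p) :
    ∫⁻ x in Q, ∫⁻ y in Q, ‖v y - v x‖ₑ ^ p ∂μ ∂μ ≤
      μ (Q - Q) * Metric.ediam Q ^ p * ∫⁻ x in Q, ‖G x‖ₑ ^ p ∂μ := by
  have hQm := hQo.measurableSet
  set u : E → ℝ := Q.indicator v with hu
  have hum : Measurable u := by
    classical
    have h1 := ContinuousOn.measurable_piecewise (hvc.mono hQΩ)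
      (continuousOn_const (c := (0:ℝ)) (s := Qᶜ)) hQm
    have h2 : Q.piecewise v (fun _ => (0:ℝ)) = Q.indicator v := by
      funext x
      by_cases hx : x ∈ Q
      · rw [piecewise_eq_of_mem _ _ _ hx, indicator_of_mem hx]
      · rw [piecewise_eq_of_notMem _ _ _ hx, indicator_of_notMem hx]
    rw [hu, ← h2]
    exact h1
  set W : E → E → ℝ≥0∞ := fun x e =>
    Q.indicator 1 x * (Q.indicator 1 (x + e) * ‖u (x + e) - u x‖ₑ ^ p) with hW
  have hWm : Measurable (Function.uncurry W) := by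
    have hi : Measurable (Q.indicator (1 : E → ℝ≥0∞)) := measurable_one.indicator hQm
    apply Measurable.mul (hi.comp measurable_fst)
    apply Measurable.mul (hi.comp (measurable_fst.add measurable_snd))
    apply Measurable.pow_const
    exact ((hum.comp (measurable_fst.add measurable_snd)).sub (hum.comp measurable_fst)).enorm
  have hstep1 : ∫⁻ x in Q, ∫⁻ y in Q, ‖v y - v x‖ₑ ^ p ∂μ ∂μ = ∫⁻ x, ∫⁻ e, W x e ∂μ ∂μ := by
    rw [← lintegral_indicator hQm]
    apply lintegral_congr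
    intro x
    by_cases hx : x ∈ Q
    · rw [indicator_of_mem hx]
      have h3 : ∫⁻ e, W x e ∂μ = ∫⁻ e, Q.indicator (fun y => ‖v y - v x‖ₑ ^ p) (x + e) ∂μ := by
        apply lintegral_congr
        intro e
        simp only [hW, indicator_of_mem hx, Pi.one_apply, one_mul]
        by_cases hxe : x + e ∈ Q
        · rw [indicator_of_mem hxe, indicator_of_mem hxe, Pi.one_apply, one_mul, hu,
            indicator_of_mem hxe, indicator_of_mem hx]
        · rw [indicator_of_notMem hxe, indicator_of_notMem hxe, zero_mul]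
      rw [h3, lintegral_add_left_eq_self (μ := μ) (fun y => Q.indicator (fun y => ‖v y - v x‖ₑ ^ p) y) x,
        lintegral_indicator hQm]
    · rw [indicator_of_notMem hx]
      simp [hW, indicator_of_notMem hx]
  rw [hstep1, lintegral_lintegral_swap hWm.aemeasurable]
  have hGm : AEStronglyMeasurable G (μ.restrict Q) := (h.lG.mono_set hQΩ).aestronglyMeasurable
  have hF : AEMeasurable (Q.indicator fun y => ‖G y‖ₑ ^ p) μ :=
    (aemeasurable_indicator_iff hQm).2 (hGm.enorm.pow_const p)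
  have hprob : (volume.restrict (Icc (0:ℝ) 1)) univ = 1 := by
    rw [Measure.restrict_apply_univ, Real.volume_Icc]
    simp
  have hstep2 : ∀ e, ∫⁻ x, W x e ∂μ ≤
      (Q - Q).indicator (fun _ => Metric.ediam Q ^ p * ∫⁻ x in Q, ‖G x‖ₑ ^ p ∂μ) e := by
    intro e
    by_cases he : e ∈ Q - Q
    · rw [indicator_of_mem he]
      obtain ⟨a, ha, b, hb, hab⟩ := Set.mem_sub.1 he
      have hed : ‖e‖ₑ ≤ Metric.ediam Q := by
        rw [← hab, ← edist_eq_enorm_sub]
        exact Metric.edist_le_ediam_of_mem ha hb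
      have h4 : ∫⁻ x, W x e ∂μ ≤ ∫⁻ x, Metric.ediam Q ^ p *
          pc (volume.restrict (Icc (0:ℝ) 1)) (fun τ : ℝ => τ • e)
            (Q.indicator fun y => ‖G y‖ₑ ^ p) x ∂μ := by
        apply lintegral_mono_ae
        filter_upwards [increment hΩ h hQc hQo hQΩ hp e] with x hx
        by_cases hxQ : x ∈ Q
        · by_cases hxe : x + e ∈ Q
          · have h5 := hx hxQ hxe
            simp only [hW, indicator_of_mem hxQ, indicator_of_mem hxe, Pi.one_apply, one_mul, hu]
            refine h5.trans ?_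
            gcongr
          · simp [hW, indicator_of_notMem hxe]
        · simp [hW, indicator_of_notMem hxQ]
      refine h4.trans ?_
      have hγ : Measurable (fun τ : ℝ => τ • e) := measurable_id.smul_const e
      rw [lintegral_const_mul'' _ (aemeasurable_pc hγ hF), lintegral_pc hγ hF, hprob, one_mul,
        lintegral_indicator hQm]
    · rw [indicator_of_notMem he]
      rw [nonpos_iff_eq_zero]
      have : (fun x => W x e) = fun _ => 0 := by
        funext x
        by_cases hxQ : x ∈ Q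
        · have hxe : x + e ∉ Q := by
            intro hxe
            apply he
            exact Set.mem_sub.2 ⟨x + e, hxe, x, hxQ, by abel⟩
          simp [hW, indicator_of_notMem hxe]
        · simp [hW, indicator_of_notMem hxQ]
      rw [this, lintegral_zero]
  calc ∫⁻ e, ∫⁻ x, W x e ∂μ ∂μ
      ≤ ∫⁻ e, (Q - Q).indicator
        (fun _ => Metric.ediam Q ^ p * ∫⁻ x in Q, ‖G x‖ₑ ^ p ∂μ) e ∂μ := lintegral_mono hstep2
    _ = μ (Q - Q) * Metric.ediam Q ^ p * ∫⁻ x in Q, ‖G x‖ₑ ^ p ∂μ := by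
        rw [lintegral_indicator (hQo.sub_right).measurableSet, lintegral_const,
          Measure.restrict_apply_univ]
        ring

end

end Crest.Agent.R96.Poi_392
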