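/-
helper392, row 96, leaf P6-POINC (B3): averages over small cells converge in `L^p`, uniformly over
all countable families of disjoint cells of small diameter (any shape, any position).
-/
import Mathlib
import Crest.Agent.R96.Poi1_392

set_option autoImplicit false
set_option linter.unusedSectionVars false

open MeasureTheory Set Filter
open scoped ENNReal Topology NNReal

namespace Crest.Agent.R96.Poi_392

noncomputable section

variable {E : Type*} [NormedAddCommGroup E] [NormedSpace ℝ E] [FiniteDimensional ℝ E]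
  [MeasurableSpace E] [BorelSpace E] {μ : Measure E} [μ.IsAddHaarMeasure]
  {F : Type*} [NormedAddCommGroup F] [NormedSpace ℝ F] [CompleteSpace F]

theorem isProb {Q : Set E} (h0 : μ Q ≠ 0) (h1 : μ Q ≠ ∞) :
    IsProbabilityMeasure ((μ Q)⁻¹ • μ.restrict Q) := by
  constructor
  rw [Measure.smul_apply, Measure.restrict_apply_univ, smul_eq_mul, ENNReal.inv_mul_cancel h0 h1]

/-- Jensen: the `p`-energy of the average is at most the `p`-energy. -/
theorem lintegral_average_le {Q : Set E} (h0 : μ Q ≠ 0) (h1 : μ Q ≠ ∞) {p : ℝ} (hp : 1 ≤ p)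
    {H : E → F} (hH : AEStronglyMeasurable H (μ.restrict Q)) :
    μ Q * ‖⨍ y in Q, H y ∂μ‖ₑ ^ p ≤ ∫⁻ x in Q, ‖H x‖ₑ ^ p ∂μ := by
  have := isProb (μ := μ) h0 h1
  rw [setAverage_eq']
  have h2 : ‖∫ x, H x ∂((μ Q)⁻¹ • μ.restrict Q)‖ₑ ^ p ≤
      ∫⁻ x, ‖H x‖ₑ ^ p ∂((μ Q)⁻¹ • μ.restrict Q) := by
    refine le_trans (ENNReal.rpow_le_rpow (enorm_integral_le_lintegral_enorm _) (by linarith)) ?_
    exact jensen hp (hH.enorm.smul_measure _)
  calc μ Q * ‖∫ x, H x ∂((μ Q)⁻¹ • μ.restrict Q)‖ₑ ^ p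
      ≤ μ Q * ∫⁻ x, ‖H x‖ₑ ^ p ∂((μ Q)⁻¹ • μ.restrict Q) := by gcongr
    _ = ∫⁻ x in Q, ‖H x‖ₑ ^ p ∂μ := by
        rw [lintegral_smul_measure, smul_eq_mul, ← mul_assoc, ENNReal.mul_inv_cancel h0 h1, one_mul]

theorem add_three_rpow_le {p : ℝ} (hp : 0 ≤ p) (a b c : ℝ≥0∞) :
    (a + b + c) ^ p ≤ 3 ^ p * (a ^ p + b ^ p + c ^ p) := by
  have h1 : a + b + c ≤ 3 * max a (max b c) := by
    have ha : a ≤ max a (max b c) := le_max_left _ _
    have hb : b ≤ max a (max b c) := le_trans (le_max_left _ _) (le_max_right _ _)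
    have hc : c ≤ max a (max b c) := le_trans (le_max_right _ _) (le_max_right _ _)
    calc a + b + c ≤ max a (max b c) + max a (max b c) + max a (max b c) := by gcongr
      _ = 3 * max a (max b c) := by ring
  calc (a + b + c) ^ p ≤ (3 * max a (max b c)) ^ p := ENNReal.rpow_le_rpow h1 hp
    _ = 3 ^ p * (max a (max b c)) ^ p := ENNReal.mul_rpow_of_nonneg _ _ hp
    _ ≤ 3 ^ p * (a ^ p + b ^ p + c ^ p) := by
        gcongr
        rcases max_choice a (max b c) with h | h
        · rw [h, add_assoc]; exact le_self_add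
        · rw [h]
          rcases max_choice b c with h' | h'
          · rw [h']
            calc b ^ p ≤ a ^ p + b ^ p := le_add_self
              _ ≤ _ := le_self_add
          · rw [h']; exact le_add_self

/-- **(B3)** cell averages converge in `L^p`. -/
theorem cell_average {p : ℝ} (hp : 1 ≤ p) {G : E → F} (hG : MemLp G (ENNReal.ofReal p) μ)
    {ε : ℝ≥0∞} (hε : ε ≠ 0) (ι : Type*) [Countable ι] :
    ∃ r : ℝ, 0 < r ∧ ∀ Q : ι → Set E, (∀ i, MeasurableSet (Q i)) →
      Pairwise (fun i j => Disjoint (Q i) (Q j)) → (∀ i, μ (Q i) ≠ 0) → (∀ i, μ (Q i) ≠ ∞) →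
      (∀ i, ∀ x ∈ Q i, ∀ y ∈ Q i, dist x y ≤ r) →
      ∑' i, ∫⁻ x in Q i, ‖G x - ⨍ y in Q i, G y ∂μ‖ₑ ^ p ∂μ ≤ ε := by
  have hp0 : 0 < p := by linarith
  have hpt : ENNReal.ofReal p ≠ ∞ := ENNReal.ofReal_ne_top
  have hp0' : ENNReal.ofReal p ≠ 0 := by simpa using hp0
  have htoR : (ENNReal.ofReal p).toReal = p := ENNReal.toReal_ofReal hp0.le
  by_cases hεt : ε = ∞
  · exact ⟨1, one_pos, fun Q _ _ _ _ _ => by rw [hεt]; exact le_top⟩
  -- constants
  have h3 : (3 : ℝ≥0∞) ^ p ≠ ∞ := ENNReal.rpow_ne_top_of_nonneg hp0.le (by norm_num)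
  have h30 : (3 : ℝ≥0∞) ^ p ≠ 0 := by
    have : (0:ℝ≥0∞) < 3 ^ p := ENNReal.rpow_pos (by norm_num) (by norm_num)
    exact this.ne'
  set δ₀ : ℝ≥0∞ := ε / (3 ^ p) / 3 with hδ₀
  have hδ₀0 : δ₀ ≠ 0 := by
    rw [hδ₀]
    exact (ENNReal.div_pos (ENNReal.div_pos hε h3).ne' (by norm_num)).ne'
  have hδ₀t : δ₀ ≠ ∞ := by
    rw [hδ₀]
    exact ENNReal.div_ne_top (ENNReal.div_ne_top hεt h30) (by norm_num)
  have hsum : (3:ℝ≥0∞) ^ p * (δ₀ + δ₀ + δ₀) = ε := by
    have : δ₀ + δ₀ + δ₀ = ε / 3 ^ p := by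
      rw [hδ₀]
      exact ENNReal.add_thirds _
    rw [this, ENNReal.mul_div_cancel h30 h3]
  obtain ⟨g, hgc, hgd, hgcont, hgL⟩ := hG.exists_hasCompactSupport_eLpNorm_sub_le hpt
    (ε := δ₀ ^ (1 / p)) (by
      have : 0 < δ₀ ^ (1 / p) := ENNReal.rpow_pos (pos_iff_ne_zero.2 hδ₀0) hδ₀t
      exact this.ne')
  -- total difference
  have hdiff : ∫⁻ x, ‖G x - g x‖ₑ ^ p ∂μ ≤ δ₀ := by
    have h4 : eLpNorm (G - g) (ENNReal.ofReal p) μ ^ p ≤ δ₀ := by
      have := ENNReal.rpow_le_rpow hgd hp0.le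
      rwa [← ENNReal.rpow_mul, one_div, inv_mul_cancel₀ hp0.ne', ENNReal.rpow_one] at this
    rw [eLpNorm_eq_lintegral_rpow_enorm_toReal hp0' hpt, htoR, ← ENNReal.rpow_mul, one_div,
      inv_mul_cancel₀ hp0.ne', ENNReal.rpow_one] at h4
    exact h4
  -- uniform continuity
  set K : Set E := Metric.cthickening 1 (tsupport g) with hK
  have hKc : IsCompact K := hgc.isCompact.cthickening
  have hKt : μ K ≠ ∞ := hKc.measure_lt_top.ne
  obtain ⟨η, hη0, hη⟩ : ∃ η : ℝ, 0 < η ∧ ENNReal.ofReal η ^ p * μ K ≤ δ₀ := by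
    have h5 : Tendsto (fun η : ℝ => ENNReal.ofReal η ^ p * μ K) (𝓝[>] 0) (𝓝 0) := by
      have h6 : Tendsto (fun η : ℝ => ENNReal.ofReal η ^ p * μ K) (𝓝[>] 0)
          (𝓝 (ENNReal.ofReal 0 ^ p * μ K)) := by
        apply ENNReal.Tendsto.mul_const
        · have : Continuous fun η : ℝ => ENNReal.ofReal η ^ p :=
            (ENNReal.continuous_rpow_const).comp ENNReal.continuous_ofReal
          exact (this.tendsto 0).mono_left nhdsWithin_le_nhds
        · exact Or.inr hKt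
      rwa [ENNReal.ofReal_zero, ENNReal.zero_rpow_of_pos hp0, zero_mul] at h6
    have h7 : ∀ᶠ η : ℝ in 𝓝[>] 0, ENNReal.ofReal η ^ p * μ K ≤ δ₀ :=
      h5.eventually (ge_mem_nhds (pos_iff_ne_zero.2 hδ₀0))
    obtain ⟨η, h8, h9⟩ := (h7.and self_mem_nhdsWithin).exists
    exact ⟨η, h9, h8⟩
  have huc : UniformContinuous g := hgcont.uniformContinuous_of_tendsto_cocompact
    (hgc.is_zero_at_infty)
  obtain ⟨r₀, hr₀, hr⟩ := Metric.uniformContinuous_iff.1 huc η hη0
  refine ⟨min 1 (r₀ / 2), by positivity, ?_⟩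
  intro Q hQm hQd hQ0 hQt hQr
  -- pointwise estimate of `g - g_Q`
  have hgint : ∀ i, IntegrableOn g (Q i) μ := fun i => by
    have : MemLp g (ENNReal.ofReal p) (μ.restrict (Q i)) := hgL.restrict _
    have hfin : IsFiniteMeasure (μ.restrict (Q i)) := ⟨by
      rw [Measure.restrict_apply_univ]; exact lt_top_iff_ne_top.2 (hQt i)⟩
    exact this.integrable (by simpa using ENNReal.ofReal_le_ofReal hp)
  have hGint : ∀ i, IntegrableOn G (Q i) μ := fun i => by
    have : MemLp G (ENNReal.ofReal p) (μ.restrict (Q i)) := hG.restrict _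
    have hfin : IsFiniteMeasure (μ.restrict (Q i)) := ⟨by
      rw [Measure.restrict_apply_univ]; exact lt_top_iff_ne_top.2 (hQt i)⟩
    exact this.integrable (by simpa using ENNReal.ofReal_le_ofReal hp)
  have hgQ : ∀ i, ∀ x ∈ Q i, ‖g x - ⨍ y in Q i, g y ∂μ‖ₑ ≤ K.indicator (fun _ => ENNReal.ofReal η) x := by
    intro i x hx
    have hb : ∀ y ∈ Q i, ‖g y - g x‖ ≤ η := by
      intro y hy
      have h10 := hQr i y hy x hx
      have h11 : dist y x < r₀ := by
        have := min_le_right (1:ℝ) (r₀ / 2)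
        linarith
      have := hr h11
      rw [dist_eq_norm] at this
      exact this.le
    by_cases hxK : x ∈ K
    · rw [indicator_of_mem hxK]
      have hmem : ⨍ y in Q i, g y ∂μ ∈ Metric.closedBall (g x) η := by
        refine (convex_closedBall (g x) η).set_average_mem Metric.isClosed_closedBall (hQ0 i) (hQt i) ?_
          (hgint i)
        filter_upwards [ae_restrict_mem (hQm i)] with y hy
        rw [mem_closedBall_iff_norm]
        exact hb y hy
      rw [mem_closedBall_iff_norm, norm_sub_rev] at hmem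
      rw [← ofReal_norm]
      exact ENNReal.ofReal_le_ofReal hmem
    · rw [indicator_of_notMem hxK]
      have hz : ∀ y ∈ Q i, g y = 0 := by
        intro y hy
        by_contra hne
        apply hxK
        have h12 : y ∈ tsupport g := subset_tsupport _ hne
        apply Metric.mem_cthickening_of_dist_le x y 1 _ h12
        have := hQr i x hx y hy
        exact this.trans (min_le_left _ _)
      have h13 : ⨍ y in Q i, g y ∂μ = 0 := by
        have h14 : ∫ y in Q i, g y ∂μ = 0 := by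
          rw [setIntegral_congr_fun (hQm i) hz]; simp
        rw [setAverage_eq, h14, smul_zero]
      rw [h13, hz x hx]
      simp
  have hcell : ∀ i, ∫⁻ x in Q i, ‖G x - ⨍ y in Q i, G y ∂μ‖ₑ ^ p ∂μ ≤
      3 ^ p * (∫⁻ x in Q i, ‖G x - g x‖ₑ ^ p ∂μ +
        ∫⁻ x in Q i, (K.indicator (fun _ => ENNReal.ofReal η) x) ^ p ∂μ +
        ∫⁻ x in Q i, ‖G x - g x‖ₑ ^ p ∂μ) := by
    intro i
    have hm1 : AEMeasurable (fun x => ‖G x - g x‖ₑ ^ p) (μ.restrict (Q i)) :=
      (((hGint i).sub (hgint i)).aestronglyMeasurable.enorm.pow_const p)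
    have hm2 : AEMeasurable (fun x => (K.indicator (fun _ => ENNReal.ofReal η) x) ^ p)
        (μ.restrict (Q i)) :=
      ((measurable_const.indicator hKc.measurableSet).pow_const p).aemeasurable
    have hm12 : AEMeasurable (fun x => ‖G x - g x‖ₑ ^ p +
        (K.indicator (fun _ => ENNReal.ofReal η) x) ^ p) (μ.restrict (Q i)) := hm1.add hm2
    calc ∫⁻ x in Q i, ‖G x - ⨍ y in Q i, G y ∂μ‖ₑ ^ p ∂μ
        ≤ ∫⁻ x in Q i, 3 ^ p * (‖G x - g x‖ₑ ^ p +
            (K.indicator (fun _ => ENNReal.ofReal η) x) ^ p +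
            ‖⨍ y in Q i, (g y - G y) ∂μ‖ₑ ^ p) ∂μ := by
          apply setLIntegral_mono_ae' (hQm i)
          filter_upwards with x hx
          refine le_trans (ENNReal.rpow_le_rpow ?_ hp0.le) (add_three_rpow_le hp0.le _ _ _)
          have h15 : G x - ⨍ y in Q i, G y ∂μ = (G x - g x) + (g x - ⨍ y in Q i, g y ∂μ) +
              ⨍ y in Q i, (g y - G y) ∂μ := by
            have h16 : ⨍ y in Q i, (g y - G y) ∂μ = ⨍ y in Q i, g y ∂μ - ⨍ y in Q i, G y ∂μ := by
              rw [setAverage_eq, setAverage_eq, setAverage_eq, integral_sub (hgint i) (hGint i),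
                smul_sub]
            rw [h16]; abel
          rw [h15]
          refine (enorm_add_le _ _).trans ?_
          gcongr
          refine (enorm_add_le _ _).trans ?_
          gcongr
          exact hgQ i x hx
      _ = 3 ^ p * (∫⁻ x in Q i, ‖G x - g x‖ₑ ^ p ∂μ +
            ∫⁻ x in Q i, (K.indicator (fun _ => ENNReal.ofReal η) x) ^ p ∂μ +
            ‖⨍ y in Q i, (g y - G y) ∂μ‖ₑ ^ p * μ (Q i)) := by
          rw [lintegral_const_mul' _ _ h3, lintegral_add_left' hm12,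
            lintegral_add_left' hm1, lintegral_const, Measure.restrict_apply_univ]
      _ ≤ _ := by
          gcongr
          rw [mul_comm]
          refine (lintegral_average_le (hQ0 i) (hQt i) hp
            ((hgint i).sub (hGint i)).aestronglyMeasurable).trans (le_of_eq ?_)
          apply lintegral_congr
          intro x
          show ‖g x - G x‖ₑ ^ p = _
          rw [← enorm_neg, neg_sub]
  have hS : ∀ f : E → ℝ≥0∞, ∑' i, ∫⁻ x in Q i, f x ∂μ ≤ ∫⁻ x, f x ∂μ := by
    intro f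
    rw [← lintegral_iUnion hQm hQd]
    exact setLIntegral_le_lintegral _ _
  calc ∑' i, ∫⁻ x in Q i, ‖G x - ⨍ y in Q i, G y ∂μ‖ₑ ^ p ∂μ
      ≤ ∑' i, 3 ^ p * (∫⁻ x in Q i, ‖G x - g x‖ₑ ^ p ∂μ +
        ∫⁻ x in Q i, (K.indicator (fun _ => ENNReal.ofReal η) x) ^ p ∂μ +
        ∫⁻ x in Q i, ‖G x - g x‖ₑ ^ p ∂μ) := ENNReal.tsum_le_tsum hcell
    _ = 3 ^ p * (∑' i, ∫⁻ x in Q i, ‖G x - g x‖ₑ ^ p ∂μ +
        ∑' i, ∫⁻ x in Q i, (K.indicator (fun _ => ENNReal.ofReal η) x) ^ p ∂μ +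
        ∑' i, ∫⁻ x in Q i, ‖G x - g x‖ₑ ^ p ∂μ) := by
        rw [ENNReal.tsum_mul_left, ENNReal.tsum_add, ENNReal.tsum_add]
    _ ≤ 3 ^ p * (δ₀ + δ₀ + δ₀) := by
        gcongr
        · exact (hS _).trans hdiff
        · refine (hS _).trans ?_
          have h17 : (fun x => (K.indicator (fun _ => ENNReal.ofReal η) x) ^ p) =
              K.indicator (fun _ => ENNReal.ofReal η ^ p) := by
            funext x
            by_cases hx : x ∈ K
            · rw [indicator_of_mem hx, indicator_of_mem hx]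
            · rw [indicator_of_notMem hx, indicator_of_notMem hx, ENNReal.zero_rpow_of_pos hp0]
          rw [h17, lintegral_indicator hKc.measurableSet, lintegral_const,
            Measure.restrict_apply_univ]
          exact hη
        · exact (hS _).trans hdiff
    _ = ε := hsum

end

end Crest.Agent.R96.Poi_392
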