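/-
helper392, row 96, leaf P6-POINC: mean-value form of Poincaré, affine approximation on a convex
cell, weak gradients of affine functions.
-/
import Mathlib
import Crest.Agent.R96.Poi2_392

set_option autoImplicit false
set_option linter.unusedSectionVars false

open MeasureTheory Set Filter
open scoped ENNReal Topology Pointwise ContDiff

namespace Crest.Agent.R96.Poi_392

open Crest.Agent.R96.Acl_392 Crest.Agent.R96.Grid_392

noncomputable section

variable {E : Type*} [NormedAddCommGroup E] [InnerProductSpace ℝ E] [FiniteDimensional ℝ E]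
  [MeasurableSpace E] [BorelSpace E] {μ : Measure E} [μ.IsAddHaarMeasure]

/-- integrability of (locally integrable) times (continuous, compactly supported in Ω) -/
theorem integrable_mul_test {Ω : Set E} {u : E → ℝ} (hu : LocallyIntegrableOn u Ω μ) {φ : E → ℝ}
    (hφ : Continuous φ) (hc : HasCompactSupport φ) (hs : tsupport φ ⊆ Ω) :
    Integrable (fun x => u x * φ x) μ := by
  have h1 : IntegrableOn u (tsupport φ) μ := hu.integrableOn_compact_subset hs hc
  obtain ⟨C, hC⟩ := hφ.bounded_above_of_compact_support hc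
  have h2 : Integrable ((tsupport φ).indicator u) μ :=
    h1.integrable_indicator (isClosed_tsupport φ).measurableSet
  have h3 := h2.bdd_mul hφ.aestronglyMeasurable (Eventually.of_forall hC)
  refine h3.congr (Eventually.of_forall fun x => ?_)
  by_cases hx : x ∈ tsupport φ
  · simp only [indicator_of_mem hx]; ring
  · have : φ x = 0 := image_eq_zero_of_notMem_tsupport hx
    simp [this]

theorem fderiv_test {φ : E → ℝ} (hφ : ContDiff ℝ ∞ φ) (hc : HasCompactSupport φ) (e : E) :
    Continuous (fun x => fderiv ℝ φ x e) ∧ HasCompactSupport (fun x => fderiv ℝ φ x e) ∧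
      tsupport (fun x => fderiv ℝ φ x e) ⊆ tsupport φ := by
  have h1 : Continuous (fderiv ℝ φ) := hφ.continuous_fderiv (by simp)
  have h2 : tsupport (fun x => fderiv ℝ φ x e) ⊆ tsupport φ := by
    apply closure_minimal _ (isClosed_tsupport φ)
    intro x hx
    have h3 : fderiv ℝ φ x ≠ 0 := by
      intro h0
      apply hx
      show fderiv ℝ φ x _ = 0
      rw [h0]; rfl
    exact tsupport_fderiv_subset ℝ (subset_tsupport _ h3)
  exact ⟨h1.clm_apply continuous_const, hc.of_isClosed_subset (isClosed_tsupport _) h2, h2⟩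

/-- `WD` is linear -/
theorem wd_sub {Ω : Set E} {v w g k : E → ℝ} {e : E} (h : WD Ω μ v g e) (h' : WD Ω μ w k e) :
    WD Ω μ (fun x => v x - w x) (fun x => g x - k x) e := by
  refine ⟨h.lv.sub h'.lv, h.lg.sub h'.lg, ?_⟩
  intro φ hφ hc hs
  obtain ⟨f1, f2, f3⟩ := fderiv_test hφ hc e
  have i1 := integrable_mul_test h.lv f1 f2 (f3.trans hs)
  have i2 := integrable_mul_test h'.lv f1 f2 (f3.trans hs)
  have i3 := integrable_mul_test h.lg hφ.continuous hc hs
  have i4 := integrable_mul_test h'.lg hφ.continuous hc hs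
  have e1 : ∫ x, (v x - w x) * fderiv ℝ φ x e ∂μ =
      ∫ x, v x * fderiv ℝ φ x e ∂μ - ∫ x, w x * fderiv ℝ φ x e ∂μ := by
    rw [← integral_sub i1 i2]
    congr 1; funext x; ring
  have e2 : ∫ x, (g x - k x) * φ x ∂μ = ∫ x, g x * φ x ∂μ - ∫ x, k x * φ x ∂μ := by
    rw [← integral_sub i3 i4]
    congr 1; funext x; ring
  rw [e1, e2, h.weak φ hφ hc hs, h'.weak φ hφ hc hs]
  ring

/-- a linear function has its weak derivative -/
theorem wd_linear (Ω : Set E) (A e : E) :
    WD Ω μ (fun x => inner ℝ A x) (fun _ => inner ℝ A e) e := by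
  have hcont : Continuous (fun x : E => (inner ℝ A x : ℝ)) := continuous_const.inner continuous_id
  refine ⟨hcont.locallyIntegrable.locallyIntegrableOn _,
    (locallyIntegrable_const _).locallyIntegrableOn _, ?_⟩
  intro φ hφ hc hs
  obtain ⟨f1, f2, f3⟩ := fderiv_test hφ hc e
  have hd : Differentiable ℝ (fun x : E => (inner ℝ A x : ℝ)) := (innerSL ℝ A).differentiable
  have hfd : ∀ x, fderiv ℝ (fun x : E => (inner ℝ A x : ℝ)) x e = inner ℝ A e := by
    intro x
    have : (fun x : E => (inner ℝ A x : ℝ)) = innerSL ℝ A := rfl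
    rw [this, ContinuousLinearMap.fderiv]
    rfl
  have hl1 : LocallyIntegrableOn (fun x : E => (inner ℝ A x : ℝ)) univ μ :=
    hcont.locallyIntegrable.locallyIntegrableOn _
  have hl2 : LocallyIntegrableOn (fun _ : E => (inner ℝ A e : ℝ)) univ μ :=
    (locallyIntegrable_const _).locallyIntegrableOn _
  have h1 := integral_mul_fderiv_eq_neg_fderiv_mul_of_integrable (μ := μ) (v := e)
    (f := fun x : E => (inner ℝ A x : ℝ)) (g := φ)
    (by simp only [hfd]; exact integrable_mul_test hl2 hφ.continuous hc (subset_univ _))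
    (integrable_mul_test hl1 f1 f2 (subset_univ _))
    (integrable_mul_test hl1 hφ.continuous hc (subset_univ _)) (fun x _ => hd x)
    (fun x _ => hφ.differentiable (by simp) x)
  rw [h1]
  simp only [hfd]

/-- subtracting a linear function from a function with weak gradient -/
theorem wg_sub_linear {Ω : Set E} {v : E → ℝ} {G : E → E} (h : WG Ω μ v G) (A : E) :
    WG Ω μ (fun x => v x - inner ℝ A x) (fun x => G x - A) := by
  refine ⟨h.lG.sub ((locallyIntegrable_const A).locallyIntegrableOn _), ?_⟩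
  intro e
  have := wd_sub (h.wd e) (wd_linear (μ := μ) Ω A e)
  convert! this using 1
  funext x
  rw [inner_sub_left]

/-- **Poincaré, mean value form**, on a bounded convex open set. -/
theorem poincare_mean {Ω : Set E} (hΩ : IsOpen Ω) {v : E → ℝ} {G : E → E} (h : WG Ω μ v G)
    (hvc : ContinuousOn v Ω) {Q : Set E} (hQc : Convex ℝ Q) (hQo : IsOpen Q) (hQΩ : Q ⊆ Ω)
    (hQ0 : μ Q ≠ 0) (hQ1 : μ Q ≠ ⊤) (hvi : IntegrableOn v Q μ) {p : ℝ} (hp : 1 ≤ p) :
    μ Q * ∫⁻ x in Q, ‖v x - ⨍ y in Q, v y ∂μ‖ₑ ^ p ∂μ ≤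
      μ (Q - Q) * Metric.ediam Q ^ p * ∫⁻ x in Q, ‖G x‖ₑ ^ p ∂μ := by
  refine le_trans ?_ (poincare hΩ h hvc hQc hQo hQΩ hp)
  have hfin : IsFiniteMeasure (μ.restrict Q) := ⟨by
    rw [Measure.restrict_apply_univ]; exact lt_top_iff_ne_top.2 hQ1⟩
  rw [← lintegral_const_mul' _ _ hQ1]
  apply lintegral_mono
  intro x
  have hi : Integrable (fun y => v y - v x) (μ.restrict Q) := hvi.sub (integrable_const _)
  have h1 := lintegral_average_le (μ := μ) hQ0 hQ1 hp hi.aestronglyMeasurable
  have h2 : ⨍ y in Q, (v y - v x) ∂μ = (⨍ y in Q, v y ∂μ) - v x := by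
    have := isProb (μ := μ) hQ0 hQ1
    have hi' : Integrable v ((μ Q)⁻¹ • μ.restrict Q) :=
      hvi.smul_measure (ENNReal.inv_ne_top.2 hQ0)
    rw [setAverage_eq', setAverage_eq', integral_sub hi' (integrable_const _), integral_const]
    simp
  rw [h2] at h1
  have h3 : ‖v x - ⨍ y in Q, v y ∂μ‖ₑ = ‖(⨍ y in Q, v y ∂μ) - v x‖ₑ := by
    rw [← enorm_neg, neg_sub]
  simp only [h3]
  exact h1

/-- **affine approximation** on a bounded convex cell -/
theorem affine_approx {Ω : Set E} (hΩ : IsOpen Ω) {v : E → ℝ} {G : E → E} (h : WG Ω μ v G)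
    (hvc : ContinuousOn v Ω) {Q : Set E} (hQc : Convex ℝ Q) (hQo : IsOpen Q) (hQΩ : Q ⊆ Ω)
    (hQ0 : μ Q ≠ 0) (hQb : Bornology.IsBounded Q) (hvi : IntegrableOn v Q μ) {p : ℝ} (hp : 1 ≤ p)
    (A : E) :
    ∃ c : ℝ, μ Q * ∫⁻ x in Q, ‖v x - (inner ℝ A x + c)‖ₑ ^ p ∂μ ≤
      μ (Q - Q) * Metric.ediam Q ^ p * ∫⁻ x in Q, ‖G x - A‖ₑ ^ p ∂μ := by
  have hQ1 : μ Q ≠ ⊤ := hQb.measure_lt_top.ne
  have hcont : Continuous (fun x : E => (inner ℝ A x : ℝ)) := continuous_const.inner continuous_id
  have hli : IntegrableOn (fun x : E => (inner ℝ A x : ℝ)) Q μ :=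
    (hcont.continuousOn.integrableOn_compact hQb.isCompact_closure).mono_set subset_closure
  have h1 := poincare_mean hΩ (wg_sub_linear h A) (hvc.sub hcont.continuousOn) hQc hQo hQΩ hQ0 hQ1
    (hvi.sub hli) hp
  refine ⟨⨍ y in Q, (v y - inner ℝ A y) ∂μ, ?_⟩
  refine le_trans (le_of_eq ?_) h1
  congr 1
  apply lintegral_congr
  intro x
  rw [sub_add_eq_sub_sub]

end

end Crest.Agent.R96.Poi_392
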