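/-
helper538, row 96, leaf COARSE, part 13: affine approximation of a Sobolev map on cubes of R3 with
a prescribed linear part; the quantitative nondegeneracy set.
-/
import Mathlib
import Crest.Agent.R96.Intr12_538
import Crest.Agent.R96.Poi3_392

set_option autoImplicit false
set_option linter.unusedSectionVars false

open MeasureTheory Set Filter Metric
open scoped ENNReal NNReal Topology Pointwise

namespace Crest.Agent.R96.Coarse_538

open Crest.AnalysisR.VecCalc3 Crest.AnalysisR.Sobolev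
open Crest.Agent.R96.Acl_392 Crest.Agent.R96.Lu_538 Crest.Agent.R96.Intr_538
open Crest.Agent.R96.Poi_392

noncomputable section

theorem wg_of_grad {Ω : Set R3} (hΩ : IsOpen Ω) {v : R3 → ℝ} {G : R3 → R3}
    (h : HasWeakGradOn Ω v G) : WG Ω volume v G :=
  ⟨h.2.1, fun e => wd_of_grad hΩ h e⟩

/-- the open cube -/
def ocel (z : R3) (s : ℝ) : Set R3 := {x | ∀ i, x i ∈ Ioo (z i - s) (z i + s)}

theorem ocel_sub {z : R3} {s : ℝ} (hs : 0 < s) : ocel z s ⊆ cel Cb z s := by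
  intro x hx
  rw [mem_cel hs]
  intro i
  have := hx i
  rw [abs_le]
  constructor <;> linarith [this.1, this.2]

theorem isOpen_ocel (z : R3) (s : ℝ) : IsOpen (ocel z s) := by
  have : ocel z s = ⋂ i : Fin 3, {x : R3 | x i ∈ Ioo (z i - s) (z i + s)} := by
    ext x; simp [ocel]
  rw [this]
  refine isOpen_iInter_of_finite fun i => ?_
  have h1 : Continuous (fun a : R3 => a i) := by fun_prop
  exact isOpen_Ioo.preimage h1

theorem convex_ocel (z : R3) (s : ℝ) : Convex ℝ (ocel z s) := by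
  have : ocel z s = ⋂ i : Fin 3, (EuclideanSpace.proj (𝕜 := ℝ) i : R3 →L[ℝ] ℝ) ⁻¹'
      (Ioo (z i - s) (z i + s)) := by
    ext x; simp [ocel]
  rw [this]
  exact convex_iInter fun i =>
    (convex_Ioo _ _).is_linear_preimage (EuclideanSpace.proj (𝕜 := ℝ) i : R3 →L[ℝ] ℝ).isLinear

theorem vol_ocel {z : R3} {s : ℝ} (hs : 0 < s) :
    volume (ocel z s) = ENNReal.ofReal ((2 * s) ^ 3) := by
  rw [ocel, vol_box (I := fun i => Ioo (z i - s) (z i + s)) fun _ => measurableSet_Ioo]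
  simp only [Real.volume_Ioo]
  have h2 : ∀ i : Fin 3, z i + s - (z i - s) = 2 * s := fun i => by ring
  simp only [h2, Finset.prod_const, Finset.card_univ, Fintype.card_fin]
  rw [ENNReal.ofReal_pow (by positivity)]

theorem ocel_ae {z : R3} {s : ℝ} (hs : 0 < s) : ocel z s =ᵐ[volume] cel Cb z s := by
  refine ae_eq_of_subset_of_measure_ge (ocel_sub hs) ?_
    (isOpen_ocel z s).measurableSet.nullMeasurableSet ?_
  · rw [vol_cel hs, vol_ocel hs]
  · rw [vol_cel hs]; exact ENNReal.ofReal_ne_top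

theorem dist_cel {z x y : R3} {s : ℝ} (hs : 0 < s) (hx : x ∈ cel Cb z s) (hy : y ∈ cel Cb z s) :
    dist x y ≤ 4 * s := by
  rw [mem_cel hs] at hx hy
  have h1 := norm_le_of_coord (x := x - y) (c := 2 * s) (by positivity) (fun i => by
    have h1 := abs_le.1 (hx i)
    have h2 := abs_le.1 (hy i)
    rw [PiLp.sub_apply, abs_le]
    constructor <;> linarith [h1.1, h1.2, h2.1, h2.2])
  rw [dist_eq_norm]
  linarith

/-- rows of a linear map -/
theorem exists_rows (L : R3 →L[ℝ] R3) : ∃ A : Fin 3 → R3, gmatL A = L := by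
  refine ⟨fun j => (InnerProductSpace.toDual ℝ R3).symm
    ((EuclideanSpace.proj (𝕜 := ℝ) j : R3 →L[ℝ] ℝ).comp L), ?_⟩
  ext w j
  rw [gmatL_apply, InnerProductSpace.toDual_symm_apply]
  rfl

/-- constant in `exists_aff` -/
def Caff (p : ℝ) : ℝ≥0∞ := (3 : ℝ≥0∞) ^ (p - 1) * (3 * (8 * 4 ^ p))

theorem Caff_ne_top {p : ℝ} (hp : 1 ≤ p) : Caff p ≠ ∞ := by
  have h1 : (3 : ℝ≥0∞) ^ (p - 1) ≠ ∞ := ENNReal.rpow_ne_top_of_nonneg (by linarith) (by simp)
  have h2 : (4 : ℝ≥0∞) ^ p ≠ ∞ := ENNReal.rpow_ne_top_of_nonneg (by linarith) (by simp)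
  exact ENNReal.mul_ne_top h1 (ENNReal.mul_ne_top (by simp) (ENNReal.mul_ne_top (by simp) h2))

theorem exists_aff {Ω : Set R3} (hΩ : IsOpen Ω) {f : R3 → R3} {G : Fin 3 → R3 → R3}
    (hG : ∀ j, HasWeakGradOn Ω (fun x => f x j) (G j)) (hf : ContinuousOn f Ω) {p : ℝ}
    (hp : 1 ≤ p) {z : R3} {s : ℝ} (hs : 0 < s) (hsub : cel Cb z s ⊆ Ω) (L : R3 →L[ℝ] R3) :
    ∃ b : R3, ∫⁻ x in cel Cb z s, ‖f x - (b + L (x - z))‖ₑ ^ p ≤
      Caff p * ENNReal.ofReal s ^ p * ∫⁻ x in cel Cb z s, ‖Gmat G x - L‖ₑ ^ p := by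
  have hp0 : 0 < p := by linarith
  obtain ⟨A, hA⟩ := exists_rows L
  set Q := ocel z s with hQ
  have hQΩ : Q ⊆ Ω := (ocel_sub hs).trans hsub
  have hQ0 : volume Q ≠ 0 := by
    rw [hQ, vol_ocel hs, Ne, ENNReal.ofReal_eq_zero, not_le]; positivity
  have hQt : volume Q ≠ ∞ := by rw [hQ, vol_ocel hs]; exact ENNReal.ofReal_ne_top
  have hQb : Bornology.IsBounded Q :=
    (isCompact_cel ref_Cb.cpt z s).isBounded.subset (ocel_sub hs)
  have hvol : volume (Q - Q) ≤ 8 * volume Q := by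
    have h1 : Q - Q ⊆ cel Cb 0 (2 * s) := by
      rintro _ ⟨x, hx, y, hy, rfl⟩
      rw [mem_cel (by positivity)]
      intro i
      have h1 := hx i
      have h2 := hy i
      simp only [PiLp.sub_apply, PiLp.zero_apply, sub_zero, abs_le]
      constructor <;> linarith [h1.1, h1.2, h2.1, h2.2]
    refine (measure_mono h1).trans ?_
    rw [vol_cel (by positivity), hQ, vol_ocel hs]
    have h8 : (8:ℝ≥0∞) = ENNReal.ofReal 8 := by simp
    rw [h8, ← ENNReal.ofReal_mul (by norm_num)]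
    apply ENNReal.ofReal_le_ofReal
    nlinarith
  have hdiam : Metric.ediam Q ≤ 4 * ENNReal.ofReal s := by
    refine ediam_le fun x hx y hy => ?_
    rw [edist_dist]
    have h4 : (4:ℝ≥0∞) = ENNReal.ofReal 4 := by simp
    rw [h4, ← ENNReal.ofReal_mul (by norm_num)]
    exact ENNReal.ofReal_le_ofReal (dist_cel hs (ocel_sub hs hx) (ocel_sub hs hy))
  have key : ∀ j : Fin 3, ∃ c : ℝ, ∫⁻ x in Q, ‖f x j - (inner ℝ (A j) x + c)‖ₑ ^ p ≤
      (8 * 4 ^ p) * ENNReal.ofReal s ^ p * ∫⁻ x in Q, ‖Gmat G x - L‖ₑ ^ p := by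
    intro j
    have hfj : ContinuousOn (fun x => f x j) Ω :=
      (EuclideanSpace.proj (𝕜 := ℝ) j).continuous.comp_continuousOn hf
    have hint : IntegrableOn (fun x => f x j) Q :=
      ((hfj.mono hsub).integrableOn_compact (isCompact_cel ref_Cb.cpt z s)).mono_set (ocel_sub hs)
    obtain ⟨c, hc⟩ := affine_approx hΩ (wg_of_grad hΩ (hG j)) hfj (convex_ocel z s)
      (isOpen_ocel z s) hQΩ hQ0 hQb hint hp (A j)
    refine ⟨c, ?_⟩
    have h1 : ∫⁻ x in Q, ‖G j x - A j‖ₑ ^ p ≤ ∫⁻ x in Q, ‖Gmat G x - L‖ₑ ^ p := by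
      apply lintegral_mono
      intro x
      apply ENNReal.rpow_le_rpow _ hp0.le
      have h2 : Gmat G x - L = gmatL (fun j => G j x - A j) := by
        rw [← hA, Gmat, ← map_sub]; rfl
      rw [h2]
      have h3 := norm_row_le (fun j => G j x - A j) j
      rw [← ofReal_norm, ← ofReal_norm]
      exact ENNReal.ofReal_le_ofReal h3
    have h2 : volume Q * ∫⁻ x in Q, ‖f x j - (inner ℝ (A j) x + c)‖ₑ ^ p ≤
        volume Q * ((8 * 4 ^ p) * ENNReal.ofReal s ^ p * ∫⁻ x in Q, ‖Gmat G x - L‖ₑ ^ p) := by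
      refine hc.trans ?_
      calc volume (Q - Q) * ediam Q ^ p * ∫⁻ x in Q, ‖G j x - A j‖ₑ ^ p
          ≤ (8 * volume Q) * (4 * ENNReal.ofReal s) ^ p * ∫⁻ x in Q, ‖Gmat G x - L‖ₑ ^ p := by
            gcongr
        _ = _ := by rw [ENNReal.mul_rpow_of_nonneg _ _ hp0.le]; ring
    exact (ENNReal.mul_le_mul_iff_right hQ0 hQt).1 h2
  choose c hc using key
  refine ⟨WithLp.toLp 2 c + L z, ?_⟩
  have hr : ∀ g : R3 → ℝ≥0∞, ∫⁻ x in cel Cb z s, g x = ∫⁻ x in Q, g x := fun g =>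
    setLIntegral_congr (ocel_ae hs).symm
  rw [hr, hr]
  have hcont : ∀ j : Fin 3, ContinuousOn (fun x => f x j - (inner ℝ (A j) x + c j)) Q := by
    intro j
    have hfj : ContinuousOn (fun x => f x j) Ω :=
      (EuclideanSpace.proj (𝕜 := ℝ) j).continuous.comp_continuousOn hf
    exact (hfj.mono hQΩ).sub (by fun_prop)
  calc ∫⁻ x in Q, ‖f x - (WithLp.toLp 2 c + L z + L (x - z))‖ₑ ^ p
      ≤ ∫⁻ x in Q, (3 : ℝ≥0∞) ^ (p - 1) * ∑ j, ‖f x j - (inner ℝ (A j) x + c j)‖ₑ ^ p := by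
        apply lintegral_mono
        intro x
        have h1 : ‖f x - (WithLp.toLp 2 c + L z + L (x - z))‖ₑ ≤
            ∑ j, ‖f x j - (inner ℝ (A j) x + c j)‖ₑ := by
          set y : R3 := f x - (WithLp.toLp 2 c + L z + L (x - z)) with hy
          have h2 : ∀ j, y j = f x j - (inner ℝ (A j) x + c j) := by
            intro j
            have h3 : L x j = inner ℝ (A j) x := by rw [← hA, gmatL_apply]
            rw [hy, map_sub]
            simp only [PiLp.sub_apply, PiLp.add_apply]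
            rw [h3]; ring
          have h3 : ‖y‖ ≤ ∑ j, ‖y j‖ := by
            rw [EuclideanSpace.norm_eq]
            apply Real.sqrt_le_iff.2
            refine ⟨Finset.sum_nonneg fun _ _ => norm_nonneg _, ?_⟩
            exact Finset.sum_sq_le_sq_sum_of_nonneg (s := Finset.univ) fun j _ => norm_nonneg (y j)
          rw [← ofReal_norm]
          refine (ENNReal.ofReal_le_ofReal h3).trans ?_
          rw [ENNReal.ofReal_sum_of_nonneg fun _ _ => norm_nonneg _]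
          apply Finset.sum_le_sum
          intro j _
          rw [ofReal_norm, h2 j]
        refine (ENNReal.rpow_le_rpow h1 hp0.le).trans ?_
        have h2 := ENNReal.rpow_sum_le_const_mul_sum_rpow Finset.univ
          (fun j : Fin 3 => ‖f x j - (inner ℝ (A j) x + c j)‖ₑ) hp
        simpa using h2
    _ = (3 : ℝ≥0∞) ^ (p - 1) * ∑ j, ∫⁻ x in Q, ‖f x j - (inner ℝ (A j) x + c j)‖ₑ ^ p := by
        rw [lintegral_const_mul' _ _ (ENNReal.rpow_ne_top_of_nonneg (by linarith) (by simp)),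
          lintegral_finsetSum']
        intro j _
        exact (((hcont j).aemeasurable (isOpen_ocel z s).measurableSet).enorm).pow_const p
    _ ≤ (3 : ℝ≥0∞) ^ (p - 1) * ∑ j : Fin 3, ((8 * 4 ^ p) * ENNReal.ofReal s ^ p *
          ∫⁻ x in Q, ‖Gmat G x - L‖ₑ ^ p) := by
        gcongr with j
        exact hc j
    _ = Caff p * ENNReal.ofReal s ^ p * ∫⁻ x in Q, ‖Gmat G x - L‖ₑ ^ p := by
        rw [Finset.sum_const, Finset.card_univ, Fintype.card_fin, nsmul_eq_mul, Caff]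
        push_cast
        ring

theorem exists_kappa {m : Measure R3} [IsFiniteMeasure m] {D : R3 → R3 →L[ℝ] R3}
    (hD : AEStronglyMeasurable D m) {ε : ℝ≥0∞} (hε : ε ≠ 0) :
    ∃ κ : ℝ, 0 < κ ∧ κ ≤ 1 ∧ m {x | (D x).det ≠ 0 ∧
      ¬ ((∀ v, 2 * κ * ‖v‖ ≤ ‖D x v‖) ∧ ‖D x‖ ≤ (2 * κ)⁻¹)} ≤ ε := by
  set B : ℕ → Set (R3 →L[ℝ] R3) := fun n => {A | A.det ≠ 0 ∧
    ¬ ((∀ v, 2 * (1 / ((n:ℝ) + 1)) * ‖v‖ ≤ ‖A v‖) ∧ ‖A‖ ≤ (2 * (1 / ((n:ℝ) + 1)))⁻¹)} with hB
  have hBm : ∀ n, MeasurableSet (B n) := by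
    intro n
    have h1 : IsClosed {A : R3 →L[ℝ] R3 | A.det = 0} :=
      isClosed_eq (ContinuousLinearMap.continuous_det (𝕜 := ℝ) (E := R3)) continuous_const
    have h2 : IsClosed {A : R3 →L[ℝ] R3 | ∀ v, 2 * (1 / ((n:ℝ) + 1)) * ‖v‖ ≤ ‖A v‖} := by
      have : {A : R3 →L[ℝ] R3 | ∀ v, 2 * (1 / ((n:ℝ) + 1)) * ‖v‖ ≤ ‖A v‖} =
          ⋂ v : R3, {A : R3 →L[ℝ] R3 | 2 * (1 / ((n:ℝ) + 1)) * ‖v‖ ≤ ‖A v‖} := by
        ext A; simp
      rw [this]
      refine isClosed_iInter fun v => isClosed_le continuous_const ?_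
      exact (ContinuousLinearMap.apply ℝ R3 v).continuous.norm
    have h3 : IsClosed {A : R3 →L[ℝ] R3 | ‖A‖ ≤ (2 * (1 / ((n:ℝ) + 1)))⁻¹} :=
      isClosed_le continuous_norm continuous_const
    exact h1.measurableSet.compl.inter ((h2.inter h3).measurableSet.compl)
  have hanti : Antitone B := by
    intro n k hnk A hA
    have hc : (1:ℝ) / ((k:ℝ) + 1) ≤ 1 / ((n:ℝ) + 1) := by
      have : (n:ℝ) ≤ k := by exact_mod_cast hnk
      gcongr
    refine ⟨hA.1, fun h => hA.2 ⟨fun v => ?_, ?_⟩⟩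
    · refine le_trans ?_ (h.1 v)
      gcongr
    · refine h.2.trans ?_
      gcongr
  have hint : ⋂ n, B n = ∅ := by
    rw [eq_empty_iff_forall_notMem]
    intro A hA
    rw [mem_iInter] at hA
    have hdet := (hA 0).1
    have hker : (A : R3 →ₗ[ℝ] R3).ker = ⊥ := by
      have h0 : LinearMap.det (A : R3 →ₗ[ℝ] R3) ≠ 0 := hdet
      have := (LinearMap.equivOfDetNeZero (A : R3 →ₗ[ℝ] R3) h0).injective
      rw [LinearMap.ker_eq_bot]
      exact this
    obtain ⟨K, hK, hKA⟩ := LinearMap.exists_antilipschitzWith (A : R3 →ₗ[ℝ] R3) hker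
    have hK0 : (0:ℝ) < K := by exact_mod_cast hK
    have hlow : ∀ v, ‖v‖ ≤ K * ‖A v‖ := by
      intro v
      have := hKA.le_mul_dist v 0
      simpa using this
    obtain ⟨n, hn⟩ := exists_nat_gt (max (2 * (K:ℝ)) (2 * ‖A‖))
    have hn1 : 2 * (K:ℝ) < n := (le_max_left _ _).trans_lt hn
    have hn2 : 2 * ‖A‖ < n := (le_max_right _ _).trans_lt hn
    refine (hA n).2 ⟨fun v => ?_, ?_⟩
    · have h1 := hlow v
      have h2 : (0:ℝ) < (n:ℝ) + 1 := by positivity
      rw [mul_one_div, div_mul_eq_mul_div, div_le_iff₀ h2]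
      nlinarith [norm_nonneg (A v), norm_nonneg v]
    · rw [mul_one_div, inv_div, le_div_iff₀ (by norm_num)]
      nlinarith
  have h1 : Tendsto (fun n => m (D ⁻¹' B n)) atTop (𝓝 (m (⋂ n, D ⁻¹' B n))) := by
    apply tendsto_measure_iInter_atTop
    · intro n
      exact hD.aemeasurable.nullMeasurable (hBm n)
    · intro n k hnk x hx
      exact hanti hnk hx
    · exact ⟨0, measure_ne_top _ _⟩
  have h2 : ⋂ n, D ⁻¹' B n = ∅ := by
    rw [← preimage_iInter, hint, preimage_empty]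
  rw [h2, measure_empty] at h1
  have h3 := (ENNReal.tendsto_nhds_zero.1 h1) ε (pos_iff_ne_zero.2 hε)
  obtain ⟨n, hn⟩ := h3.exists
  refine ⟨1 / ((n:ℝ) + 1), by positivity, ?_, hn⟩
  rw [div_le_one (by positivity)]
  linarith [Nat.cast_nonneg (α := ℝ) n]

end

end Crest.Agent.R96.Coarse_538
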