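/-
helper538, row 96, leaf COARSE, part 14: good cubes of any grid of small mesh fill `{det G ≠ 0}`.
-/
import Mathlib
import Crest.Agent.R96.Intr13_538

set_option autoImplicit false
set_option linter.unusedSectionVars false
set_option maxHeartbeats 400000

open MeasureTheory Set Filter Metric Module
open scoped ENNReal NNReal Topology

namespace Crest.Agent.R96.Coarse_538

open Crest.AnalysisR.VecCalc3 Crest.AnalysisR.Sobolev
open Crest.Agent.R96.Acl_392 Crest.Agent.R96.Lu_538 Crest.Agent.R96.Intr_538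
open Crest.Agent.R96.Poi_392

noncomputable section

theorem fr3 : finrank ℝ R3 = 3 := finrank_euclideanSpace_fin

theorem memLp_Gmat {m : Measure R3} {q : ℝ≥0∞} {G : Fin 3 → R3 → R3}
    (h : ∀ j, MemLp (G j) q m) : MemLp (Gmat G) q m := by
  have h1 : MemLp (fun x => ∑ j, ‖G j x‖) q m := by
    apply memLp_finsetSum
    intro j _
    exact (h j).norm
  refine h1.of_le (aesm_Gmat fun j => (h j).1) (Eventually.of_forall fun x => ?_)
  rw [Real.norm_of_nonneg (Finset.sum_nonneg fun _ _ => norm_nonneg _)]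
  refine (norm_gmatL_le _).trans ?_
  apply Real.sqrt_le_iff.2
  refine ⟨Finset.sum_nonneg fun _ _ => norm_nonneg _, ?_⟩
  exact Finset.sum_sq_le_sq_sum_of_nonneg (s := Finset.univ) fun j _ => norm_nonneg (G j x)

theorem GC.mono_e {Ω : Set R3} {f : R3 → R3} {D : R3 → R3 →L[ℝ] R3} {C : Set R3}
    {κ e e' r : ℝ} {z b : R3} {L : R3 →L[ℝ] R3} {S : Set R3} (hr : 0 < r) (hee : e' ≤ e)
    (h : GC Ω volume f D C κ e' r z b L S) : GC Ω volume f D C κ e r z b L S :=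
  ⟨h.sub, h.low, h.up, h.meas, h.sS, h.big.trans (ENNReal.ofReal_le_ofReal (by gcongr)),
    fun x hx => (h.cf x hx).trans (by gcongr), fun x hx => (h.cG x hx).trans hee⟩

theorem finite_inside {Ω : Set R3} (hΩb : Bornology.IsBounded Ω) {s : ℝ} (hs : 0 < s) (a : R3) :
    {k : Fin 3 → ℤ | cel Cb (vt (2 * s) a k) s ⊆ Ω}.Finite := by
  obtain ⟨R, hR⟩ := hΩb.exists_norm_le
  set M : ℤ := ⌈(R + ‖a‖) / (2 * s)⌉ with hM
  refine (Set.finite_Icc (fun _ : Fin 3 => -M) (fun _ => M)).subset ?_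
  intro k hk
  have h0 : vt (2 * s) a k ∈ Ω := by
    apply hk
    rw [mem_cel hs]
    intro i; simp [hs.le]
  have h1 := hR _ h0
  have h2 : ∀ i, |(k i : ℝ)| ≤ M := by
    intro i
    have h3 := (norm_coord_le (vt (2 * s) a k) i).trans h1
    rw [vt_apply] at h3
    have h4 := norm_coord_le a i
    have h5 : |2 * s * (k i : ℝ)| ≤ R + ‖a‖ := by
      have h6 : 2 * s * (k i : ℝ) = (a i + 2 * s * k i) - a i := by ring
      rw [h6]
      exact (abs_sub _ _).trans (by linarith)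
    rw [abs_mul, abs_of_pos (by positivity : 0 < 2 * s)] at h5
    have h7 : |(k i : ℝ)| ≤ (R + ‖a‖) / (2 * s) := by
      rw [le_div_iff₀ (by positivity)]; linarith
    exact h7.trans (Int.le_ceil _)
  rw [Set.mem_Icc, Pi.le_def, Pi.le_def]
  constructor
  · intro i
    have := (abs_le.1 (h2 i)).1
    exact_mod_cast this
  · intro i
    have := (abs_le.1 (h2 i)).2
    exact_mod_cast this

theorem card_inside {Ω : Set R3} (hΩf : volume Ω ≠ ∞) {s : ℝ} (hs : 0 < s) (a : R3)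
    (T : Finset (Fin 3 → ℤ)) (hT : ∀ k ∈ T, cel Cb (vt (2 * s) a k) s ⊆ Ω) :
    (T.card : ℝ) * (2 * s) ^ 3 ≤ (volume Ω).toReal := by
  apply card_bound (μ := volume) T (F := fun k => cel Cb (vt (2 * s) a k) s) (by positivity)
  · exact fun k _ => (isClosed_cel _ _).measurableSet
  · exact fun k _ l _ hkl => cel_null hs a hkl
  · exact fun k _ => (vol_cel hs).ge
  · exact hT
  · exact hΩf

theorem low_of_close {κ e : ℝ} (he1 : e ≤ κ) (he2 : e ≤ (2 * κ)⁻¹)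
    {A L : R3 →L[ℝ] R3} (h1 : ∀ v, 2 * κ * ‖v‖ ≤ ‖A v‖) (h2 : ‖A‖ ≤ (2 * κ)⁻¹)
    (h3 : ‖A - L‖ ≤ e) : (∀ v, κ * ‖v‖ ≤ ‖L v‖) ∧ ‖L‖ ≤ κ⁻¹ := by
  constructor
  · intro v
    have h4 := h1 v
    have h5 : ‖(A - L) v‖ ≤ κ * ‖v‖ := by
      refine ((A - L).le_opNorm v).trans ?_
      have := h3.trans he1
      gcongr
    have h6 : ‖A v‖ ≤ ‖L v‖ + ‖(A - L) v‖ := by
      have : A v = L v + (A - L) v := by simp
      rw [this]
      exact norm_add_le _ _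
    linarith
  · have h4 : ‖L‖ ≤ ‖A‖ + ‖A - L‖ := by
      have : L = A - (A - L) := by abel
      calc ‖L‖ = ‖A - (A - L)‖ := by rw [← this]
        _ ≤ _ := norm_sub_le _ _
    have h5 : (2 * κ)⁻¹ + (2 * κ)⁻¹ = κ⁻¹ := by
      rw [mul_inv]; ring
    linarith [h3.trans he2]

/-- the not quantitatively invertible part -/
def NN (G : Fin 3 → R3 → R3) (κ : ℝ) : Set R3 := {x | (Gmat G x).det ≠ 0 ∧
  ¬ ((∀ v, 2 * κ * ‖v‖ ≤ ‖Gmat G x v‖) ∧ ‖Gmat G x‖ ≤ (2 * κ)⁻¹)}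

/-- Chebyshev on a cube -/
theorem markov_cube {p : ℝ} (hp0 : 0 < p) {Ω : Set R3} {G : Fin 3 → R3 → R3}
    (hGm : AEStronglyMeasurable (Gmat G) (volume.restrict Ω)) {e s c : ℝ} (he0 : 0 < e)
    {z : R3} {L : R3 →L[ℝ] R3} (hsub : cel Cb z s ⊆ Ω)
    (hI : ∫⁻ x in cel Cb z s, ‖Gmat G x - L‖ₑ ^ p ≤ ENNReal.ofReal (e ^ p * c)) :
    volume {x | x ∈ cel Cb z s ∧ e < ‖Gmat G x - L‖} ≤ ENNReal.ofReal c := by
  have hm : AEMeasurable (fun x => ‖Gmat G x - L‖ₑ ^ p) (volume.restrict (cel Cb z s)) := by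
    have h3 : AEStronglyMeasurable (Gmat G) (volume.restrict (cel Cb z s)) :=
      hGm.mono_measure (Measure.restrict_mono hsub le_rfl)
    exact ((h3.sub aestronglyMeasurable_const).enorm).pow_const p
  have h1 := mul_meas_ge_le_lintegral₀ hm (ENNReal.ofReal (e ^ p))
  have h2 : volume {x | x ∈ cel Cb z s ∧ e < ‖Gmat G x - L‖} ≤
      (volume.restrict (cel Cb z s)) {x | ENNReal.ofReal (e ^ p) ≤ ‖Gmat G x - L‖ₑ ^ p} := by
    rw [Measure.restrict_apply₀' (isClosed_cel _ _).measurableSet.nullMeasurableSet]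
    apply measure_mono
    rintro x ⟨hx1, hx2⟩
    refine ⟨?_, hx1⟩
    show ENNReal.ofReal (e ^ p) ≤ ‖Gmat G x - L‖ₑ ^ p
    rw [← ENNReal.ofReal_rpow_of_pos he0, ← ofReal_norm]
    apply ENNReal.rpow_le_rpow _ hp0.le
    exact ENNReal.ofReal_le_ofReal hx2.le
  have hep0 : ENNReal.ofReal (e ^ p) ≠ 0 := by
    rw [Ne, ENNReal.ofReal_eq_zero, not_le]; positivity
  have h3 : ENNReal.ofReal (e ^ p) * volume {x | x ∈ cel Cb z s ∧ e < ‖Gmat G x - L‖} ≤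
      ENNReal.ofReal (e ^ p) * ENNReal.ofReal c := by
    calc _ ≤ ENNReal.ofReal (e ^ p) * (volume.restrict (cel Cb z s))
          {x | ENNReal.ofReal (e ^ p) ≤ ‖Gmat G x - L‖ₑ ^ p} := by gcongr
      _ ≤ _ := h1
      _ ≤ ENNReal.ofReal (e ^ p * c) := hI
      _ = _ := ENNReal.ofReal_mul (by positivity)
  exact (ENNReal.mul_le_mul_iff_right hep0 ENNReal.ofReal_ne_top).1 h3

/-- one cube: good, or small part in `K₀ ∩ {det ≠ 0}` -/
theorem cube_dich {p : ℝ} (hp0 : 0 < p) {Ω : Set R3} {f : R3 → R3} {G : Fin 3 → R3 → R3}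
    (hf : ContinuousOn f Ω) (hGm : AEStronglyMeasurable (Gmat G) (volume.restrict Ω))
    {κ e s : ℝ} (heκ : e ≤ κ) (heκ' : e ≤ (2 * κ)⁻¹) (he0 : 0 < e)
    (hs : 0 < s) {z b : R3} {L : R3 →L[ℝ] R3} (hsub : cel Cb z s ⊆ Ω)
    (hJ : ∫⁻ x in cel Cb z s, ‖f x - (b + L (x - z))‖ₑ ^ p ≤
      ENNReal.ofReal ((e * s) ^ p * (e / 2 * s ^ 3)))
    (hI : ∫⁻ x in cel Cb z s, ‖Gmat G x - L‖ₑ ^ p ≤ ENNReal.ofReal (e ^ p * (e / 2 * s ^ 3)))
    (K₀ : Set R3) :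
    (∃ S, GC Ω volume f (Gmat G) Cb κ e s z b L S ∧ (S ∩ K₀).Nonempty) ∨
      ∃ E : Set R3, volume E ≤ ENNReal.ofReal (e * s ^ 3) ∧
        cel Cb z s ∩ K₀ ∩ {x | (Gmat G x).det ≠ 0} ⊆ E ∪ (Ω ∩ NN G κ) := by
  by_cases hgood : (∀ v, κ * ‖v‖ ≤ ‖L v‖) ∧ ‖L‖ ≤ κ⁻¹
  · obtain ⟨S', hS'⟩ := exists_GC (μ := volume) (z := z) (b := b) hf hGm hp0 ref_Cb.cpt he0
      hs hsub hgood.1 hgood.2 (by rw [fr3]; exact hJ) (by rw [fr3]; exact hI)
    by_cases hne : (S' ∩ K₀).Nonempty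
    · exact Or.inl ⟨S', hS', hne⟩
    · right
      refine ⟨cel Cb z s \ S', ?_, ?_⟩
      · have := hS'.big
        rwa [fr3] at this
      · rintro x ⟨⟨hx1, hx2⟩, -⟩
        left
        exact ⟨hx1, fun hxS => hne ⟨x, hxS, hx2⟩⟩
  · right
    refine ⟨{x | x ∈ cel Cb z s ∧ e < ‖Gmat G x - L‖}, ?_, ?_⟩
    · refine (markov_cube hp0 hGm he0 hsub hI).trans ?_
      apply ENNReal.ofReal_le_ofReal
      have : e / 2 ≤ e := by linarith
      gcongr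
    · rintro x ⟨⟨hx1, -⟩, hx3⟩
      by_cases hxe : e < ‖Gmat G x - L‖
      · left; exact ⟨hx1, hxe⟩
      · right
        refine ⟨hsub hx1, hx3, fun hg => hgood ?_⟩
        exact low_of_close heκ heκ' hg.1 hg.2 (not_lt.1 hxe)

/-- the cell average -/
def Lav (Ω : Set R3) (G : Fin 3 → R3 → R3) (s : ℝ) (z : R3) : R3 →L[ℝ] R3 :=
  ⨍ y in hcel z s, Ω.indicator (Gmat G) y

theorem cell_sum {p : ℝ} (hp : 1 ≤ p) {Ω : Set R3} (hΩ : IsOpen Ω) {G : Fin 3 → R3 → R3}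
    (hGp : ∀ j, MemLp (G j) (ENNReal.ofReal p) (volume.restrict Ω)) {ε₁ : ℝ} (hε₁ : 0 < ε₁) :
    ∃ r : ℝ, 0 < r ∧ ∀ s : ℝ, 0 < s → 4 * s ≤ r → ∀ (a : R3) (T : Finset (Fin 3 → ℤ)),
      (∀ k ∈ T, cel Cb (vt (2 * s) a k) s ⊆ Ω) →
      ∑ k ∈ T, ∫⁻ x in cel Cb (vt (2 * s) a k) s, ‖Gmat G x - Lav Ω G s (vt (2 * s) a k)‖ₑ ^ p ≤
        ENNReal.ofReal ε₁ := by
  have hGp' : MemLp (Ω.indicator (Gmat G)) (ENNReal.ofReal p) volume :=
    (memLp_indicator_iff_restrict (f := Gmat G) hΩ.measurableSet).2 (memLp_Gmat hGp)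
  obtain ⟨r, hr, hcell⟩ := cell_average hp hGp' (ε := ENNReal.ofReal ε₁) (by
    rw [Ne, ENNReal.ofReal_eq_zero, not_le]; positivity) (Fin 3 → ℤ)
  refine ⟨r, hr, fun s hs hs1 a T hTΩ => ?_⟩
  have h1 := hcell (fun k => hcel (vt (2 * s) a k) s) (fun k => meas_hcel _ _)
    (fun k l hkl => hcel_disj hs a hkl)
    (fun k => by rw [vol_hcel hs, Ne, ENNReal.ofReal_eq_zero, not_le]; positivity)
    (fun k => by rw [vol_hcel hs]; exact ENNReal.ofReal_ne_top)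
    (fun k x hx y hy => (dist_cel hs (hcel_sub hs hx) (hcel_sub hs hy)).trans hs1)
  refine le_trans ?_ h1
  refine le_trans (le_of_eq ?_) (ENNReal.sum_le_tsum T)
  apply Finset.sum_congr rfl
  intro k hk
  rw [setLIntegral_congr (hcel_ae hs).symm]
  apply setLIntegral_congr_fun (meas_hcel _ _)
  intro x hx
  have hxΩ : x ∈ Ω := hTΩ k hk (hcel_sub hs hx)
  simp only [indicator_of_mem hxΩ, Lav]

end

end Crest.Agent.R96.Coarse_538
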