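/-
helper538, row 96, leaf COARSE, part 15: good cubes of any grid of small mesh fill `{det G ≠ 0}`.
-/
import Mathlib
import Crest.Agent.R96.Intr14_538

set_option autoImplicit false
set_option linter.unusedSectionVars false
set_option maxHeartbeats 400000

open MeasureTheory Set Filter Metric Module
open scoped ENNReal NNReal Topology

namespace Crest.Agent.R96.Coarse_538

open Crest.AnalysisR.VecCalc3 Crest.AnalysisR.Sobolev
open Crest.Agent.R96.Acl_392 Crest.Agent.R96.Lu_538 Crest.Agent.R96.Intr_538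
open Crest.Agent.R96.Poi_392

noncomputable section

/-- volume of the union of few cubes -/
theorem vol_bad_le {s θ ε₁ c : ℝ} (hs : 0 < s) (hθ : 0 < θ) (hc : 8 * ε₁ / θ ≤ c)
    {a : R3} (B : Finset (Fin 3 → ℤ)) {I : (Fin 3 → ℤ) → ℝ≥0∞} (hε₁ : 0 ≤ ε₁)
    (h1 : ∀ k ∈ B, ENNReal.ofReal (θ * s ^ 3) ≤ I k) (h2 : ∑ k ∈ B, I k ≤ ENNReal.ofReal ε₁) :
    volume (⋃ k ∈ B, cel Cb (vt (2 * s) a k) s) ≤ ENNReal.ofReal c := by
  have h3 : (B.card : ℝ≥0∞) * ENNReal.ofReal (θ * s ^ 3) ≤ ENNReal.ofReal ε₁ := by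
    calc (B.card : ℝ≥0∞) * ENNReal.ofReal (θ * s ^ 3)
        = ∑ k ∈ B, ENNReal.ofReal (θ * s ^ 3) := by rw [Finset.sum_const, nsmul_eq_mul]
      _ ≤ ∑ k ∈ B, I k := Finset.sum_le_sum h1
      _ ≤ _ := h2
  calc volume (⋃ k ∈ B, cel Cb (vt (2 * s) a k) s)
      ≤ ∑ k ∈ B, volume (cel Cb (vt (2 * s) a k) s) := measure_biUnion_finset_le _ _
    _ = (B.card : ℝ≥0∞) * ENNReal.ofReal ((2 * s) ^ 3) := by
        simp only [vol_cel hs, Finset.sum_const, nsmul_eq_mul]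
    _ = ((B.card : ℝ≥0∞) * ENNReal.ofReal (θ * s ^ 3)) * ENNReal.ofReal (8 / θ) := by
        rw [mul_assoc, ← ENNReal.ofReal_mul (by positivity)]
        congr 2
        field_simp
        ring
    _ ≤ ENNReal.ofReal ε₁ * ENNReal.ofReal (8 / θ) := by gcongr
    _ = ENNReal.ofReal (8 * ε₁ / θ) := by
        rw [← ENNReal.ofReal_mul hε₁]
        congr 1
        ring
    _ ≤ ENNReal.ofReal c := ENNReal.ofReal_le_ofReal hc

theorem vol_small_le {Ω : Set R3} (hΩf : volume Ω ≠ ∞) {s e c : ℝ} (hs : 0 < s) (he : 0 ≤ e)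
    (hc : e * (volume Ω).toReal ≤ c) {a : R3} (T : Finset (Fin 3 → ℤ))
    (hT : ∀ k ∈ T, cel Cb (vt (2 * s) a k) s ⊆ Ω) {E : (Fin 3 → ℤ) → Set R3}
    (hE : ∀ k ∈ T, volume (E k) ≤ ENNReal.ofReal (e * s ^ 3)) :
    volume (⋃ k ∈ T, E k) ≤ ENNReal.ofReal c := by
  have hcard := card_inside hΩf hs a T hT
  set V := (volume Ω).toReal
  calc volume (⋃ k ∈ T, E k) ≤ ∑ k ∈ T, volume (E k) := measure_biUnion_finset_le _ _
    _ ≤ ∑ k ∈ T, ENNReal.ofReal (e * s ^ 3) := Finset.sum_le_sum hE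
    _ = ENNReal.ofReal (T.card * (e * s ^ 3)) := by
        rw [Finset.sum_const, nsmul_eq_mul, ENNReal.ofReal_mul (Nat.cast_nonneg _),
          ENNReal.ofReal_natCast]
    _ ≤ ENNReal.ofReal c := by
        apply ENNReal.ofReal_le_ofReal
        have h1 : (T.card : ℝ) * s ^ 3 ≤ V := by
          have h2 : (2 * s) ^ 3 = 8 * s ^ 3 := by ring
          rw [h2] at hcard
          have h3 : 0 ≤ (T.card : ℝ) * s ^ 3 := by positivity
          nlinarith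
        calc (T.card : ℝ) * (e * s ^ 3) = e * (T.card * s ^ 3) := by ring
          _ ≤ e * V := by gcongr
          _ ≤ c := hc

/-- the covering of `{det ≠ 0}` at a fixed scale -/
theorem cover_step {p : ℝ} (hp : 1 ≤ p) {Ω : Set R3} (hΩ : IsOpen Ω)
    (hΩb : Bornology.IsBounded Ω) {f : R3 → R3} {G : Fin 3 → R3 → R3}
    (hf : ContinuousOn f Ω) (hG : ∀ j, HasWeakGradOn Ω (fun x => f x j) (G j))
    (hGm : AEStronglyMeasurable (Gmat G) (volume.restrict Ω))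
    {κ e s ρ θ ε₁ c : ℝ} (heκ : e ≤ κ) (heκ' : e ≤ (2 * κ)⁻¹) (he0 : 0 < e) (hs : 0 < s)
    (hρ : 4 * s ≤ ρ) (hθ0 : 0 < θ) (hε₁ : 0 ≤ ε₁) (hc : 8 * ε₁ / θ ≤ c)
    (hc' : e * (volume Ω).toReal ≤ c)
    (hθ1 : θ ≤ e ^ p * (e / 2)) (hθ2 : Caff p * ENNReal.ofReal θ ≤ ENNReal.ofReal (e ^ p * (e / 2)))
    {K₀ : Set R3} (hρΩ : cthickening ρ K₀ ⊆ Ω) {a : R3}
    (hsum : ∀ T : Finset (Fin 3 → ℤ), (∀ k ∈ T, cel Cb (vt (2 * s) a k) s ⊆ Ω) →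
      ∑ k ∈ T, ∫⁻ x in cel Cb (vt (2 * s) a k) s, ‖Gmat G x - Lav Ω G s (vt (2 * s) a k)‖ₑ ^ p ≤
        ENNReal.ofReal ε₁) :
    ∃ (Q : Finset (Fin 3 → ℤ)) (b : (Fin 3 → ℤ) → R3) (S : (Fin 3 → ℤ) → Set R3),
      (∀ k ∈ Q, GC Ω volume f (Gmat G) Cb κ e s (vt (2 * s) a k) (b k)
        (Lav Ω G s (vt (2 * s) a k)) (S k) ∧ (S k ∩ K₀).Nonempty) ∧
      (∀ k ∈ Q, ∫⁻ x in cel Cb (vt (2 * s) a k) s,
        ‖f x - (b k + Lav Ω G s (vt (2 * s) a k) (x - vt (2 * s) a k))‖ₑ ^ p ≤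
        Caff p * ENNReal.ofReal s ^ p * ∫⁻ x in cel Cb (vt (2 * s) a k) s,
          ‖Gmat G x - Lav Ω G s (vt (2 * s) a k)‖ₑ ^ p) ∧
      volume ((Ω ∩ {x | (Gmat G x).det ≠ 0}) \ ⋃ k ∈ Q, cel Cb (vt (2 * s) a k) s) ≤
        (volume (Ω \ K₀) + ENNReal.ofReal c) + (ENNReal.ofReal c + volume (Ω ∩ NN G κ)) := by
  classical
  have hp0 : 0 < p := by linarith
  have hΩf : volume Ω ≠ ∞ := hΩb.measure_lt_top.ne
  set T := (finite_inside hΩb hs a).toFinset with hT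
  have hTΩ : ∀ k ∈ T, cel Cb (vt (2 * s) a k) s ⊆ Ω := fun k hk =>
    (Set.Finite.mem_toFinset _).1 hk
  have hTI := hsum T hTΩ
  have hb : ∀ k, ∃ b : R3, cel Cb (vt (2 * s) a k) s ⊆ Ω →
      ∫⁻ x in cel Cb (vt (2 * s) a k) s,
        ‖f x - (b + Lav Ω G s (vt (2 * s) a k) (x - vt (2 * s) a k))‖ₑ ^ p ≤
        Caff p * ENNReal.ofReal s ^ p * ∫⁻ x in cel Cb (vt (2 * s) a k) s,
          ‖Gmat G x - Lav Ω G s (vt (2 * s) a k)‖ₑ ^ p := by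
    intro k
    by_cases hk : cel Cb (vt (2 * s) a k) s ⊆ Ω
    · obtain ⟨b, hb⟩ := exists_aff hΩ hG hf hp hs hk (Lav Ω G s (vt (2 * s) a k))
      exact ⟨b, fun _ => hb⟩
    · exact ⟨0, fun h => absurd h hk⟩
  choose b hb using hb
  obtain ⟨Q, hQ⟩ : ∃ Q : Finset (Fin 3 → ℤ), ∀ k, k ∈ Q ↔ k ∈ T ∧
      ∃ S, GC Ω volume f (Gmat G) Cb κ e s (vt (2 * s) a k) (b k)
        (Lav Ω G s (vt (2 * s) a k)) S ∧ (S ∩ K₀).Nonempty :=
    ⟨T.filter fun k => ∃ S, GC Ω volume f (Gmat G) Cb κ e s (vt (2 * s) a k) (b k)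
        (Lav Ω G s (vt (2 * s) a k)) S ∧ (S ∩ K₀).Nonempty, fun k => Finset.mem_filter⟩
  have hS : ∀ k, ∃ S, k ∈ Q → GC Ω volume f (Gmat G) Cb κ e s (vt (2 * s) a k) (b k)
      (Lav Ω G s (vt (2 * s) a k)) S ∧ (S ∩ K₀).Nonempty := by
    intro k
    by_cases hk : k ∈ Q
    · obtain ⟨S, hS⟩ := ((hQ k).1 hk).2
      exact ⟨S, fun _ => hS⟩
    · exact ⟨∅, fun h => absurd h hk⟩
  choose S hS using hS
  refine ⟨Q, b, S, hS, fun k hk => hb k (hTΩ k ((hQ k).1 hk).1), ?_⟩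
  set B1 := T.filter fun k => ENNReal.ofReal (θ * s ^ 3) <
    ∫⁻ x in cel Cb (vt (2 * s) a k) s, ‖Gmat G x - Lav Ω G s (vt (2 * s) a k)‖ₑ ^ p with hB1
  have hvB1 : volume (⋃ k ∈ B1, cel Cb (vt (2 * s) a k) s) ≤ ENNReal.ofReal c := by
    apply vol_bad_le hs hθ0 hc B1 hε₁
    · intro k hk
      exact (Finset.mem_filter.1 hk).2.le
    · exact (Finset.sum_le_sum_of_subset (Finset.filter_subset _ _)).trans hTI
  have key : ∀ k, ∃ E : Set R3, k ∈ T → k ∉ B1 → k ∉ Q →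
      volume E ≤ ENNReal.ofReal (e * s ^ 3) ∧
        cel Cb (vt (2 * s) a k) s ∩ K₀ ∩ {x | (Gmat G x).det ≠ 0} ⊆ E ∪ (Ω ∩ NN G κ) := by
    intro k
    by_cases hkT : k ∈ T
    swap
    · exact ⟨∅, fun h => absurd h hkT⟩
    by_cases hkB : k ∈ B1
    · exact ⟨∅, fun _ h => absurd hkB h⟩
    by_cases hkQ : k ∈ Q
    · exact ⟨∅, fun _ _ h => absurd hkQ h⟩
    have hIk : ∫⁻ x in cel Cb (vt (2 * s) a k) s, ‖Gmat G x - Lav Ω G s (vt (2 * s) a k)‖ₑ ^ p ≤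
        ENNReal.ofReal (θ * s ^ 3) := by
      by_contra h
      exact hkB (Finset.mem_filter.2 ⟨hkT, not_le.1 h⟩)
    have hsub := hTΩ k hkT
    have hJ : ∫⁻ x in cel Cb (vt (2 * s) a k) s,
        ‖f x - (b k + Lav Ω G s (vt (2 * s) a k) (x - vt (2 * s) a k))‖ₑ ^ p ≤
        ENNReal.ofReal ((e * s) ^ p * (e / 2 * s ^ 3)) := by
      refine (hb k hsub).trans ?_
      calc Caff p * ENNReal.ofReal s ^ p * ∫⁻ x in cel Cb (vt (2 * s) a k) s,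
            ‖Gmat G x - Lav Ω G s (vt (2 * s) a k)‖ₑ ^ p
          ≤ Caff p * ENNReal.ofReal s ^ p * ENNReal.ofReal (θ * s ^ 3) := by gcongr
        _ = (Caff p * ENNReal.ofReal θ) * ENNReal.ofReal (s ^ p * s ^ 3) := by
            rw [ENNReal.ofReal_rpow_of_pos hs, ENNReal.ofReal_mul hθ0.le,
              ENNReal.ofReal_mul (by positivity : 0 ≤ s ^ p)]
            ring
        _ ≤ ENNReal.ofReal (e ^ p * (e / 2)) * ENNReal.ofReal (s ^ p * s ^ 3) := by gcongr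
        _ = ENNReal.ofReal ((e * s) ^ p * (e / 2 * s ^ 3)) := by
            rw [← ENNReal.ofReal_mul (by positivity), Real.mul_rpow he0.le hs.le]
            congr 1
            ring
    have hI : ∫⁻ x in cel Cb (vt (2 * s) a k) s,
        ‖Gmat G x - Lav Ω G s (vt (2 * s) a k)‖ₑ ^ p ≤
        ENNReal.ofReal (e ^ p * (e / 2 * s ^ 3)) := by
      refine hIk.trans (ENNReal.ofReal_le_ofReal ?_)
      calc θ * s ^ 3 ≤ e ^ p * (e / 2) * s ^ 3 := by gcongr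
        _ = _ := by ring
    rcases cube_dich hp0 hf hGm heκ heκ' he0 hs hsub hJ hI K₀ with h | ⟨E, hE1, hE2⟩
    · exact absurd ((hQ k).2 ⟨hkT, h⟩) hkQ
    · exact ⟨E, fun _ _ _ => ⟨hE1, hE2⟩⟩
  choose E hE using key
  set T' := (T.filter fun k => k ∉ B1).filter fun k => k ∉ Q with hT'
  have hT'm : ∀ k, k ∈ T' ↔ (k ∈ T ∧ k ∉ B1) ∧ k ∉ Q := by
    intro k
    rw [hT', Finset.mem_filter, Finset.mem_filter]
  have hvE : volume (⋃ k ∈ T', E k) ≤ ENNReal.ofReal c := by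
    apply vol_small_le hΩf hs he0.le hc' T'
    · intro k hk
      exact hTΩ k ((hT'm k).1 hk).1.1
    · intro k hk
      have h := (hT'm k).1 hk
      exact (hE k h.1.1 h.1.2 h.2).1
  have hcov : (Ω ∩ {x | (Gmat G x).det ≠ 0}) \ ⋃ k ∈ Q, cel Cb (vt (2 * s) a k) s ⊆
      ((Ω \ K₀) ∪ (⋃ k ∈ B1, cel Cb (vt (2 * s) a k) s)) ∪
        ((⋃ k ∈ T', E k) ∪ (Ω ∩ NN G κ)) := by
    rintro x ⟨⟨hxΩ, hxd⟩, hxQ⟩
    by_cases hxK : x ∈ K₀
    swap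
    · left; left; exact ⟨hxΩ, hxK⟩
    obtain ⟨k, hk⟩ := exists_hcel hs a x
    have hxk : x ∈ cel Cb (vt (2 * s) a k) s := hcel_sub hs hk
    have hkT : k ∈ T := by
      rw [hT, Set.Finite.mem_toFinset]
      intro y hy
      apply hρΩ
      exact mem_cthickening_of_dist_le y x ρ K₀ hxK ((dist_cel hs hy hxk).trans hρ)
    have hkQ : k ∉ Q := fun h => hxQ (mem_iUnion₂.2 ⟨k, h, hxk⟩)
    by_cases hkB : k ∈ B1
    · left; right; exact mem_iUnion₂.2 ⟨k, hkB, hxk⟩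
    · right
      rcases (hE k hkT hkB hkQ).2 ⟨⟨hxk, hxK⟩, hxd⟩ with h | h
      · left
        exact mem_iUnion₂.2 ⟨k, (hT'm k).2 ⟨⟨hkT, hkB⟩, hkQ⟩, h⟩
      · right; exact h
  refine (measure_mono hcov).trans ((measure_union_le _ _).trans ?_)
  refine add_le_add ((measure_union_le _ _).trans ?_) ((measure_union_le _ _).trans ?_)
  · gcongr
  · gcongr

theorem good_cubes {p : ℝ} (hp : 1 ≤ p) {Ω Λ : Set R3} (hΩ : IsOpen Ω)
    (hΩb : Bornology.IsBounded Ω) (hΛ : IsOpen Λ) {f : R3 → R3} {G : Fin 3 → R3 → R3}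
    (hf : ContinuousOn f Ω) (hfΛ : MapsTo f Ω Λ)
    (hG : ∀ j, HasWeakGradOn Ω (fun x => f x j) (G j))
    (hGp : ∀ j, MemLp (G j) (ENNReal.ofReal p) (volume.restrict Ω)) {ε : ℝ} (hε : 0 < ε) :
    ∃ κ : ℝ, 0 < κ ∧ κ ≤ 1 ∧ ∃ K ⊆ Ω, IsCompact K ∧ ∃ K' ⊆ Λ, IsCompact K' ∧
      ∀ e : ℝ, 0 < e → ∀ δ : ℝ, 0 < δ → ∃ s₀ : ℝ, 0 < s₀ ∧ ∀ s : ℝ, 0 < s → s < s₀ → ∀ a : R3,
        ∃ (Q : Finset (Fin 3 → ℤ)) (b : (Fin 3 → ℤ) → R3) (L : (Fin 3 → ℤ) → R3 →L[ℝ] R3)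
          (S : (Fin 3 → ℤ) → Set R3),
          (∀ k ∈ Q, GC Ω volume f (Gmat G) Cb κ e s (vt (2 * s) a k) (b k) (L k) (S k)) ∧
          (∀ k ∈ Q, cel Cb (vt (2 * s) a k) s ⊆ K) ∧ (∀ k ∈ Q, par Cb (L k) (b k) s ⊆ K') ∧
          ∑ k ∈ Q, ∫⁻ x in cel Cb (vt (2 * s) a k) s, ‖Gmat G x - L k‖ₑ ^ p ≤
            ENNReal.ofReal δ ∧
          ∑ k ∈ Q, ∫⁻ x in cel Cb (vt (2 * s) a k) s,
            ‖f x - (b k + L k (x - vt (2 * s) a k))‖ₑ ^ p ≤ ENNReal.ofReal (δ * s ^ p) ∧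
          volume ((Ω ∩ {x | (Gmat G x).det ≠ 0}) \ ⋃ k ∈ Q, cel Cb (vt (2 * s) a k) s) ≤
            ENNReal.ofReal ε := by
  have hp0 : 0 < p := by linarith
  have hΩf : volume Ω ≠ ∞ := hΩb.measure_lt_top.ne
  have hfin : IsFiniteMeasure (volume.restrict Ω) := ⟨by
    rw [Measure.restrict_apply_univ]; exact hΩb.measure_lt_top⟩
  have hGm : AEStronglyMeasurable (Gmat G) (volume.restrict Ω) := aesm_Gmat fun j => (hGp j).1
  set V := (volume Ω).toReal with hV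
  have hV0 : 0 ≤ V := ENNReal.toReal_nonneg
  obtain ⟨κ, hκ, hκ1, hN⟩ := exists_kappa hGm (ε := ENNReal.ofReal (ε / 5)) (by
    rw [Ne, ENNReal.ofReal_eq_zero, not_le]; positivity)
  have hN' : volume (Ω ∩ NN G κ) ≤ ENNReal.ofReal (ε / 5) := by
    rw [inter_comm, ← Measure.restrict_apply₀' hΩ.measurableSet.nullMeasurableSet]
    exact hN
  obtain ⟨K₀, hK₀Ω, hK₀, hK₀v⟩ := hΩ.measurableSet.exists_isCompact_sdiff_lt hΩf
    (ε := ENNReal.ofReal (ε / 5)) (by rw [Ne, ENNReal.ofReal_eq_zero, not_le]; positivity)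
  obtain ⟨ρ, hρ, hρΩ⟩ := hK₀.exists_cthickening_subset_open hΩ hK₀Ω
  have hfK : IsCompact (f '' K₀) := hK₀.image_of_continuousOn (hf.mono hK₀Ω)
  obtain ⟨ρ', hρ', hρ'Λ⟩ := hfK.exists_cthickening_subset_open hΛ (by
    rintro _ ⟨x, hx, rfl⟩; exact hfΛ (hK₀Ω hx))
  refine ⟨κ, hκ, hκ1, cthickening ρ K₀, hρΩ, hK₀.cthickening, cthickening ρ' (f '' K₀), hρ'Λ,
    hfK.cthickening, ?_⟩
  intro e₁ he₁ δ hδ
  obtain ⟨e, he0, hee1, heκ, heκ', heV⟩ : ∃ e : ℝ, 0 < e ∧ e ≤ e₁ ∧ e ≤ κ ∧ e ≤ (2 * κ)⁻¹ ∧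
      e * V ≤ ε / 5 := by
    refine ⟨min (min e₁ κ) (min ((2 * κ)⁻¹) (ε / (5 * (V + 1)))), by positivity,
      (min_le_left _ _).trans (min_le_left _ _), (min_le_left _ _).trans (min_le_right _ _),
      (min_le_right _ _).trans (min_le_left _ _), ?_⟩
    have h1 : min (min e₁ κ) (min ((2 * κ)⁻¹) (ε / (5 * (V + 1)))) ≤ ε / (5 * (V + 1)) :=
      (min_le_right _ _).trans (min_le_right _ _)
    calc min (min e₁ κ) (min ((2 * κ)⁻¹) (ε / (5 * (V + 1)))) * V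
        ≤ ε / (5 * (V + 1)) * (V + 1) := by
          have : V ≤ V + 1 := by linarith
          gcongr
      _ = ε / 5 := by field_simp
  obtain ⟨Cp, hCp1, hCpC⟩ : ∃ Cp : ℝ, 1 ≤ Cp ∧ Caff p ≤ ENNReal.ofReal Cp := by
    refine ⟨(Caff p).toReal + 1, ?_, ?_⟩
    · have : 0 ≤ (Caff p).toReal := ENNReal.toReal_nonneg
      linarith
    · rw [← ENNReal.ofReal_toReal (Caff_ne_top hp)]
      exact ENNReal.ofReal_le_ofReal (by simp)
  have hCp0 : 0 < Cp := by linarith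
  obtain ⟨θ, hθ0, hθ1, hθ2⟩ : ∃ θ : ℝ, 0 < θ ∧ θ ≤ e ^ p * (e / 2) ∧
      Caff p * ENNReal.ofReal θ ≤ ENNReal.ofReal (e ^ p * (e / 2)) := by
    refine ⟨e ^ p * (e / 2) / Cp, by positivity, div_le_self (by positivity) hCp1, ?_⟩
    calc Caff p * ENNReal.ofReal (e ^ p * (e / 2) / Cp)
        ≤ ENNReal.ofReal Cp * ENNReal.ofReal (e ^ p * (e / 2) / Cp) := by gcongr
      _ = ENNReal.ofReal (e ^ p * (e / 2)) := by
          rw [← ENNReal.ofReal_mul hCp0.le]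
          congr 1
          field_simp
  obtain ⟨ε₁, hε₁0, hε₁δ, hε₁θ⟩ : ∃ ε₁ : ℝ, 0 < ε₁ ∧ ε₁ ≤ δ / Cp ∧ 8 * ε₁ / θ ≤ ε / 5 := by
    refine ⟨min (δ / Cp) (θ * ε / 40), by positivity, min_le_left _ _, ?_⟩
    rw [div_le_iff₀ hθ0]
    have := min_le_right (δ / Cp) (θ * ε / 40)
    linarith
  obtain ⟨r, hr, hcell⟩ := cell_sum hp hΩ hGp hε₁0
  refine ⟨min (min (r / 4) (ρ / 4)) (ρ' / (2 * 2 * κ⁻¹ + e)), by positivity, ?_⟩
  intro s hs hss a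
  have hs1 : 4 * s ≤ r := by
    have := hss.le.trans ((min_le_left _ _).trans (min_le_left _ _)); linarith
  have hs2 : 4 * s ≤ ρ := by
    have := hss.le.trans ((min_le_left _ _).trans (min_le_right _ _)); linarith
  have hs3 : 2 * 2 * κ⁻¹ * s + e * s ≤ ρ' := by
    have h1 := hss.le.trans (min_le_right _ _)
    rw [le_div_iff₀ (by positivity)] at h1
    linarith
  obtain ⟨Q, b, S, hQ1, hQ2, hQ3⟩ := cover_step hp hΩ hΩb hf hG hGm heκ heκ' he0 hs hs2 hθ0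
    hε₁0.le hε₁θ heV hθ1 hθ2 hρΩ (a := a) (hcell s hs hs1 a)
  have hQΩ : ∀ k ∈ Q, cel Cb (vt (2 * s) a k) s ⊆ Ω := fun k hk => (hQ1 k hk).1.sub
  refine ⟨Q, b, fun k => Lav Ω G s (vt (2 * s) a k), S,
    fun k hk => GC.mono_e hs hee1 (hQ1 k hk).1, ?_, ?_, ?_, ?_, ?_⟩
  · intro k hk x hx
    obtain ⟨hgc, y, hyS, hyK⟩ := hQ1 k hk
    refine mem_cthickening_of_dist_le x y ρ K₀ hyK ?_
    exact (dist_cel hs hx (hgc.sS hyS)).trans hs2
  · intro k hk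
    obtain ⟨hgc, y, hyS, hyK⟩ := hQ1 k hk
    refine par_sub (R := 2) hs Cb_sub hgc hyS ?_
    intro w hw
    refine mem_cthickening_of_dist_le w (f y) ρ' _ ⟨y, hyK, rfl⟩ ?_
    exact (mem_closedBall.1 hw).trans hs3
  · refine (hcell s hs hs1 a Q hQΩ).trans (ENNReal.ofReal_le_ofReal ?_)
    exact hε₁δ.trans (div_le_self hδ.le hCp1)
  · calc ∑ k ∈ Q, ∫⁻ x in cel Cb (vt (2 * s) a k) s,
          ‖f x - (b k + Lav Ω G s (vt (2 * s) a k) (x - vt (2 * s) a k))‖ₑ ^ p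
        ≤ ∑ k ∈ Q, Caff p * ENNReal.ofReal s ^ p * ∫⁻ x in cel Cb (vt (2 * s) a k) s,
          ‖Gmat G x - Lav Ω G s (vt (2 * s) a k)‖ₑ ^ p := Finset.sum_le_sum hQ2
      _ ≤ ENNReal.ofReal Cp * ENNReal.ofReal s ^ p * ENNReal.ofReal (δ / Cp) := by
          rw [← Finset.mul_sum]
          gcongr
          exact (hcell s hs hs1 a Q hQΩ).trans (ENNReal.ofReal_le_ofReal hε₁δ)
      _ = ENNReal.ofReal (δ * s ^ p) := by
          rw [ENNReal.ofReal_rpow_of_pos hs, ← ENNReal.ofReal_mul hCp0.le,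
            ← ENNReal.ofReal_mul (by positivity)]
          congr 1
          field_simp
  · refine hQ3.trans ?_
    calc (volume (Ω \ K₀) + ENNReal.ofReal (ε / 5)) +
          (ENNReal.ofReal (ε / 5) + volume (Ω ∩ NN G κ))
        ≤ (ENNReal.ofReal (ε / 5) + ENNReal.ofReal (ε / 5)) +
          (ENNReal.ofReal (ε / 5) + ENNReal.ofReal (ε / 5)) := by
          gcongr
      _ ≤ ENNReal.ofReal ε := by
          rw [← ENNReal.ofReal_add (by positivity) (by positivity),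
            ← ENNReal.ofReal_add (by positivity) (by positivity)]
          apply ENNReal.ofReal_le_ofReal
          linarith

end

end Crest.Agent.R96.Coarse_538
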