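/-
helper538, row 96, leaf INTR / COARSE, part 9: a connected union of segments whose total variation
inside `f ⁻¹ P` is smaller than the distance from `P'` to the complement of `P` cannot meet `P'`
without being contained in `P`.
-/
import Mathlib

set_option autoImplicit false
set_option linter.unusedSectionVars false

open MeasureTheory Set Filter Metric
open scoped ENNReal NNReal Topology

namespace Crest.Agent.R96.Intr_538

noncomputable section

/-- measure of the image of a compact set under a function with an integrable upper gradient -/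
theorem volume_image_le {u : ℝ → ℝ} {h : ℝ → ℝ≥0∞}
    (hu : ∀ s t, 0 ≤ s → s ≤ t → t ≤ 1 → edist (u s) (u t) ≤ ∫⁻ τ in Ioc s t, h τ)
    (hfin : ∫⁻ τ in Ioc (0:ℝ) 1, h τ ≠ ∞) {K : Set ℝ} (hK : IsCompact K) (hK1 : K ⊆ Icc 0 1) :
    volume (u '' K) ≤ ∫⁻ τ in Ioc (0:ℝ) 1 ∩ K, h τ := by
  set ν : Measure ℝ := (volume.restrict (Ioc (0:ℝ) 1)).withDensity h with hν
  have hνf : IsFiniteMeasure ν := isFiniteMeasure_withDensity hfin
  have hνA : ∀ A : Set ℝ, MeasurableSet A → ν A = ∫⁻ τ in Ioc (0:ℝ) 1 ∩ A, h τ := by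
    intro A hA
    rw [hν, withDensity_apply _ hA, Measure.restrict_restrict hA, inter_comm]
  rw [← hνA K hK.isClosed.measurableSet]
  refine ENNReal.le_of_forall_pos_le_add fun ε hε _ => ?_
  obtain ⟨O, hKO, hO, hνO⟩ := K.exists_isOpen_le_add ν (ε := (ε : ℝ≥0∞)) (by positivity)
  refine le_trans ?_ hνO
  obtain ⟨δ, hδ, hδO⟩ := hK.exists_thickening_subset_open hO hKO
  obtain ⟨n, hn⟩ := exists_nat_one_div_lt hδ
  set N : ℕ := n + 1 with hN
  have hN0 : (0:ℝ) < N := by positivity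
  have hNδ : 1 / (N:ℝ) < δ := by rw [hN]; push_cast; exact hn
  classical
  set I : Finset ℕ := (Finset.range N).filter fun k => (Icc ((k:ℝ) / N) ((k+1:ℝ) / N) ∩ K).Nonempty
    with hI
  have hcov : u '' K ⊆ ⋃ k ∈ I, u '' Icc ((k:ℝ) / N) ((k+1:ℝ) / N) := by
    rintro _ ⟨x, hx, rfl⟩
    obtain ⟨hx0, hx1⟩ := hK1 hx
    -- index
    obtain ⟨k, hkN, hk1, hk2⟩ : ∃ k : ℕ, k < N ∧ (k:ℝ) / N ≤ x ∧ x ≤ (k + 1:ℝ) / N := by
      rcases eq_or_lt_of_le hx1 with h1 | h1
      · refine ⟨n, by omega, ?_, ?_⟩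
        · rw [h1, div_le_one hN0, hN]; push_cast; linarith
        · rw [h1, le_div_iff₀ hN0, hN]; push_cast; linarith
      · refine ⟨⌊x * N⌋₊, ?_, ?_, ?_⟩
        · rw [Nat.floor_lt (by positivity)]
          calc x * N < 1 * N := by gcongr
            _ = N := one_mul _
        · rw [div_le_iff₀ hN0]
          exact Nat.floor_le (by positivity)
        · rw [le_div_iff₀ hN0]
          exact (Nat.lt_floor_add_one _).le
    refine mem_iUnion₂.2 ⟨k, ?_, mem_image_of_mem u ⟨hk1, hk2⟩⟩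
    rw [hI, Finset.mem_filter, Finset.mem_range]
    exact ⟨hkN, x, ⟨hk1, hk2⟩, hx⟩
  have hbd : ∀ k ∈ I, volume (u '' Icc ((k:ℝ) / N) ((k+1:ℝ) / N)) ≤
      ν (Ioc ((k:ℝ) / N) ((k+1:ℝ) / N)) := by
    intro k hk
    have hkN : k < N := Finset.mem_range.1 (Finset.mem_filter.1 hk).1
    have hk1 : ((k:ℝ) + 1) / N ≤ 1 := by
      rw [div_le_one hN0]
      exact_mod_cast hkN
    have hk0 : (0:ℝ) ≤ (k:ℝ) / N := by positivity
    refine (Real.volume_le_diam _).trans (ediam_le ?_)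
    rintro _ ⟨s, hs, rfl⟩ _ ⟨t, ht, rfl⟩
    have key : ∀ {s t : ℝ}, s ∈ Icc ((k:ℝ) / N) ((k+1:ℝ) / N) →
        t ∈ Icc ((k:ℝ) / N) ((k+1:ℝ) / N) → s ≤ t →
        edist (u s) (u t) ≤ ν (Ioc ((k:ℝ) / N) ((k+1:ℝ) / N)) := by
      intro s t hs ht hst
      refine (hu s t (hk0.trans hs.1) hst (ht.2.trans hk1)).trans ?_
      rw [hνA _ measurableSet_Ioc]
      apply lintegral_mono_set
      intro τ hτ
      exact ⟨⟨hk0.trans_lt (hs.1.trans_lt hτ.1), hτ.2.trans (ht.2.trans hk1)⟩,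
        hs.1.trans_lt hτ.1, hτ.2.trans ht.2⟩
    rcases le_total s t with h1 | h1
    · exact key hs ht h1
    · rw [edist_comm]; exact key ht hs h1
  calc volume (u '' K) ≤ volume (⋃ k ∈ I, u '' Icc ((k:ℝ) / N) ((k+1:ℝ) / N)) :=
        measure_mono hcov
    _ ≤ ∑ k ∈ I, volume (u '' Icc ((k:ℝ) / N) ((k+1:ℝ) / N)) := measure_biUnion_finset_le _ _
    _ ≤ ∑ k ∈ I, ν (Ioc ((k:ℝ) / N) ((k+1:ℝ) / N)) := Finset.sum_le_sum hbd
    _ = ν (⋃ k ∈ I, Ioc ((k:ℝ) / N) ((k+1:ℝ) / N)) := by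
        rw [measure_biUnion_finset]
        · intro i _ j _ hij
          rw [Function.onFun, Set.disjoint_left]
          intro τ h1 h2
          apply hij
          have h3 : ∀ {i j : ℕ}, τ ∈ Ioc ((i:ℝ) / N) ((i+1:ℝ) / N) →
              τ ∈ Ioc ((j:ℝ) / N) ((j+1:ℝ) / N) → i ≤ j := by
            intro i j h1 h2
            have h4 : (i:ℝ) / N < (j + 1:ℝ) / N := h1.1.trans_le h2.2
            rw [div_lt_div_iff_of_pos_right hN0] at h4
            have h5 : i < j + 1 := by exact_mod_cast h4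
            omega
          exact le_antisymm (h3 h1 h2) (h3 h2 h1)
        · exact fun i _ => measurableSet_Ioc
    _ ≤ ν O := by
        apply measure_mono
        apply iUnion₂_subset
        intro k hk τ hτ
        apply hδO
        obtain ⟨-, y, hy, hyK⟩ := Finset.mem_filter.1 hk
        rw [mem_thickening_iff]
        refine ⟨y, hyK, lt_of_le_of_lt ?_ hNδ⟩
        rw [Real.dist_eq, abs_le]
        have h6 : ((k:ℝ) + 1) / N = k / N + 1 / N := by ring
        have h7 := hτ.1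
        have h8 := hτ.2
        have h9 := hy.1
        have h10 := hy.2
        constructor <;> linarith

/-- **PATH LEMMA.** -/
theorem path_lemma {E F : Type*} [NormedAddCommGroup E] [NormedSpace ℝ E] [PseudoMetricSpace F]
    {ι : Type*} (J : Finset ι) (x v : ι → E) {f : E → F} {g : E → ℝ≥0∞} {P P' : Set F} {ρ : ℝ}
    (hρ : 0 < ρ) (hP : IsClosed P) (hball : ∀ y ∈ P', ball y ρ ⊆ P)
    (hU : IsPreconnected (⋃ i ∈ J, (fun τ : ℝ => x i + τ • v i) '' Icc 0 1))
    (hf : ContinuousOn f (⋃ i ∈ J, (fun τ : ℝ => x i + τ • v i) '' Icc 0 1))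
    (hgrad : ∀ i ∈ J, ∀ s t : ℝ, 0 ≤ s → s ≤ t → t ≤ 1 →
      edist (f (x i + s • v i)) (f (x i + t • v i)) ≤ ∫⁻ τ in Ioc s t, g (x i + τ • v i))
    (hfin : ∀ i ∈ J, ∫⁻ τ in Ioc (0:ℝ) 1, g (x i + τ • v i) ≠ ∞)
    (hsum : ∑ i ∈ J, ∫⁻ τ in Ioc (0:ℝ) 1 ∩ {τ | f (x i + τ • v i) ∈ P}, g (x i + τ • v i) <
      ENNReal.ofReal ρ)
    (hmeet : (f '' (⋃ i ∈ J, (fun τ : ℝ => x i + τ • v i) '' Icc 0 1) ∩ P').Nonempty) :
    f '' (⋃ i ∈ J, (fun τ : ℝ => x i + τ • v i) '' Icc 0 1) ⊆ P := by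
  set U := ⋃ i ∈ J, (fun τ : ℝ => x i + τ • v i) '' Icc 0 1 with hUdef
  obtain ⟨y₀, ⟨x₀, hx₀, rfl⟩, hy₀⟩ := hmeet
  rintro _ ⟨x₁, hx₁, rfl⟩
  by_contra hx₁P
  have hP'ne : P'.Nonempty := ⟨_, hy₀⟩
  set φ : F → ℝ := fun y => min ρ (infDist y P') with hφ
  have hφc : Continuous φ := continuous_const.min (continuous_infDist_pt P')
  have hφL : ∀ y y', edist (φ y) (φ y') ≤ edist y y' := by
    intro y y'
    have h1 : LipschitzWith 1 φ := (lipschitz_infDist_pt P').const_min ρ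
    simpa using h1 y y'
  have hφoff : ∀ y, y ∉ P → φ y = ρ := by
    intro y hy
    apply min_eq_left
    rw [le_infDist hP'ne]
    intro y' hy'
    by_contra hlt
    exact hy (hball y' hy' (not_le.1 hlt))
  have hφon : ∀ y ∈ P', φ y = 0 := by
    intro y hy
    rw [hφ]
    simp only [infDist_zero_of_mem hy]
    exact min_eq_right hρ.le
  -- the image contains [0, ρ]
  have hconn : IsPreconnected ((fun z => φ (f z)) '' U) :=
    hU.image _ (hφc.comp_continuousOn hf)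
  have hIcc : Icc 0 ρ ⊆ (fun z => φ (f z)) '' U := by
    apply hconn.Icc_subset
    · exact ⟨x₀, hx₀, hφon _ hy₀⟩
    · exact ⟨x₁, hx₁, hφoff _ hx₁P⟩
  set K : ι → Set ℝ := fun i => Icc 0 1 ∩ {τ | f (x i + τ • v i) ∈ P} with hK
  have hcov : (fun z => φ (f z)) '' U ⊆ {ρ} ∪ ⋃ i ∈ J, (fun τ => φ (f (x i + τ • v i))) '' K i := by
    rintro _ ⟨z, hz, rfl⟩
    by_cases hzP : f z ∈ P
    · right
      obtain ⟨i, hi, τ, hτ, rfl⟩ := mem_iUnion₂.1 hz
      exact mem_iUnion₂.2 ⟨i, hi, τ, ⟨hτ, hzP⟩, rfl⟩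
    · left
      exact hφoff _ hzP
  have hvol : ENNReal.ofReal ρ ≤ ∑ i ∈ J,
      ∫⁻ τ in Ioc (0:ℝ) 1 ∩ {τ | f (x i + τ • v i) ∈ P}, g (x i + τ • v i) := by
    calc ENNReal.ofReal ρ = volume (Icc 0 ρ) := by rw [Real.volume_Icc, sub_zero]
      _ ≤ volume ({ρ} ∪ ⋃ i ∈ J, (fun τ => φ (f (x i + τ • v i))) '' K i) :=
          measure_mono (hIcc.trans hcov)
      _ ≤ volume {ρ} + volume (⋃ i ∈ J, (fun τ => φ (f (x i + τ • v i))) '' K i) :=
          measure_union_le _ _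
      _ = volume (⋃ i ∈ J, (fun τ => φ (f (x i + τ • v i))) '' K i) := by
          rw [Real.volume_singleton, zero_add]
      _ ≤ ∑ i ∈ J, volume ((fun τ => φ (f (x i + τ • v i))) '' K i) :=
          measure_biUnion_finset_le _ _
      _ ≤ ∑ i ∈ J, ∫⁻ τ in Ioc (0:ℝ) 1 ∩ {τ | f (x i + τ • v i) ∈ P}, g (x i + τ • v i) := by
          apply Finset.sum_le_sum
          intro i hi
          have hci : ContinuousOn (fun τ : ℝ => f (x i + τ • v i)) (Icc 0 1) := by
            apply hf.comp (by fun_prop)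
            intro τ hτ
            exact mem_iUnion₂.2 ⟨i, hi, τ, hτ, rfl⟩
          have hKc : IsCompact (K i) :=
            isCompact_Icc.of_isClosed_subset
              (hci.preimage_isClosed_of_isClosed isClosed_Icc hP) inter_subset_left
          have h1 := volume_image_le (u := fun τ => φ (f (x i + τ • v i)))
            (h := fun τ => g (x i + τ • v i))
            (fun s t hs hst ht => (hφL _ _).trans (hgrad i hi s t hs hst ht)) (hfin i hi) hKc
            inter_subset_left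
          refine h1.trans (lintegral_mono_set ?_)
          rintro τ ⟨h2, h3⟩
          exact ⟨h2, h3.2⟩
  exact absurd hsum (not_lt.2 hvol)

end

end Crest.Agent.R96.Intr_538
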