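/-
helper538, row 96, leaf COARSE, part 16: path lemma for arbitrary connected sets which near
`f ⁻¹ P` consist of (countably many) segments; closeness on the part of a grid inside a cube.
-/
import Mathlib
import Crest.Agent.R96.Intr9_538
import Crest.Agent.R96.Intr13_538

set_option autoImplicit false
set_option linter.unusedSectionVars false
set_option maxHeartbeats 400000

open MeasureTheory Set Filter Metric
open scoped ENNReal NNReal Topology

namespace Crest.Agent.R96.Intr_538

noncomputable section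

theorem path_lemma₃ {E F : Type*} [NormedAddCommGroup E] [NormedSpace ℝ E] [PseudoMetricSpace F]
    {ι : Type*} [Countable ι] (x v : ι → E) {f : E → F} {g : E → ℝ≥0∞} {P P' : Set F}
    {Z U : Set E} {ρ : ℝ}
    (hρ : 0 < ρ) (hP : IsClosed P) (hball : ∀ y ∈ P', ball y ρ ⊆ P)
    (hU : IsPreconnected U) (hf : ContinuousOn f U) (hZ : IsClosed Z)
    (hseg : ∀ i, ∀ τ ∈ Icc (0:ℝ) 1, x i + τ • v i ∈ U)
    (hcov : ∀ z ∈ U, z ∉ Z → f z ∈ P → ∃ i, ∃ τ ∈ Icc (0:ℝ) 1, z = x i + τ • v i)
    (hgrad : ∀ i, ∀ s t : ℝ, 0 ≤ s → s ≤ t → t ≤ 1 →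
      edist (f (x i + s • v i)) (f (x i + t • v i)) ≤ ∫⁻ τ in Ioc s t, g (x i + τ • v i))
    (hfin : ∀ i, ∫⁻ τ in Ioc (0:ℝ) 1, g (x i + τ • v i) ≠ ∞)
    (hfr : ∀ z ∈ U, z ∈ Z → z ∈ closure (U \ Z) → f z ∉ P)
    (hsum : ∑' i, ∫⁻ τ in Ioc (0:ℝ) 1 ∩ {τ | f (x i + τ • v i) ∈ P ∧ x i + τ • v i ∉ Z},
      g (x i + τ • v i) < ENNReal.ofReal ρ)
    {x₀ : E} (hx₀ : x₀ ∈ U) (hx₀Z : x₀ ∉ Z) (hy₀ : f x₀ ∈ P') :
    f '' U ⊆ P ∧ Disjoint U Z := by
  classical
  have hP'ne : P'.Nonempty := ⟨_, hy₀⟩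
  set φ : F → ℝ := fun y => min ρ (infDist y P') with hφ
  have hφc : Continuous φ := continuous_const.min (continuous_infDist_pt P')
  have hφL : ∀ y y', edist (φ y) (φ y') ≤ edist y y' := by
    intro y y'
    have h1 : LipschitzWith 1 φ := (lipschitz_infDist_pt P').const_min ρ
    simpa using h1 y y'
  have hφoff : ∀ y, y ∉ P → φ y = ρ := by
    intro y hy
    apply min_eq_left
    rw [le_infDist hP'ne]
    intro y' hy'
    by_contra hlt
    exact hy (hball y' hy' (not_le.1 hlt))
  have hφon : ∀ y ∈ P', φ y = 0 := by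
    intro y hy
    rw [hφ]
    simp only [infDist_zero_of_mem hy]
    exact min_eq_right hρ.le
  set ψ : E → ℝ := fun z => if z ∈ Z then ρ else φ (f z) with hψ
  have hψc : ContinuousOn ψ U := by
    intro z hz
    have h0 : ContinuousWithinAt (fun z => φ (f z)) U z :=
      hφc.continuousAt.comp_continuousWithinAt (hf z hz)
    by_cases hzZ : z ∈ Z
    · by_cases hcl : z ∈ closure (U \ Z)
      · have h1 : φ (f z) = ρ := hφoff _ (hfr z hz hzZ hcl)
        have h2 : ψ z = ρ := if_pos hzZ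
        rw [ContinuousWithinAt, h2]
        rw [ContinuousWithinAt, h1] at h0
        rw [Metric.tendsto_nhds] at h0 ⊢
        intro ε hε
        filter_upwards [h0 ε hε] with y hy
        by_cases hyZ : y ∈ Z
        · have : ψ y = ρ := if_pos hyZ
          rw [this, dist_self]; exact hε
        · have : ψ y = φ (f y) := if_neg hyZ
          rw [this]; exact hy
      · have h2 : ψ =ᶠ[𝓝[U] z] fun _ => ρ := by
          have h3 : (closure (U \ Z))ᶜ ∈ 𝓝 z := isClosed_closure.isOpen_compl.mem_nhds hcl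
          filter_upwards [mem_nhdsWithin_of_mem_nhds h3, self_mem_nhdsWithin] with y hy hyU
          have : y ∈ Z := by
            by_contra hyZ
            exact hy (subset_closure ⟨hyU, hyZ⟩)
          exact if_pos this
        have h4 : ψ z = ρ := if_pos hzZ
        exact (continuousWithinAt_const (b := ρ)).congr_of_eventuallyEq h2 h4
    · have h2 : ψ =ᶠ[𝓝[U] z] fun z => φ (f z) := by
        have h3 : Zᶜ ∈ 𝓝 z := hZ.isOpen_compl.mem_nhds hzZ
        filter_upwards [mem_nhdsWithin_of_mem_nhds h3] with y hy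
        exact if_neg hy
      exact h0.congr_of_eventuallyEq h2 (if_neg hzZ)
  have hψ0 : ψ x₀ = 0 := by
    rw [hψ]; simp only [if_neg hx₀Z]; exact hφon _ hy₀
  -- main claim
  have claim : ∀ x₁ ∈ U, ψ x₁ ≠ ρ := by
    intro x₁ hx₁ hx₁ρ
    have hconn : IsPreconnected (ψ '' U) := hU.image _ hψc
    have hIcc : Icc 0 ρ ⊆ ψ '' U := by
      apply hconn.Icc_subset
      · exact ⟨x₀, hx₀, hψ0⟩
      · exact ⟨x₁, hx₁, hx₁ρ⟩
    set K : ι → Set ℝ := fun i => Icc 0 1 ∩ {τ | f (x i + τ • v i) ∈ P ∧ x i + τ • v i ∉ Z}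
      with hK
    have hcov' : ψ '' U ⊆ {ρ} ∪ ⋃ i, (fun τ => φ (f (x i + τ • v i))) '' K i := by
      rintro _ ⟨z, hz, rfl⟩
      by_cases hzZ : z ∈ Z
      · left; exact if_pos hzZ
      · have h1 : ψ z = φ (f z) := if_neg hzZ
        by_cases hzP : f z ∈ P
        · right
          rw [h1]
          obtain ⟨i, τ, hτ, rfl⟩ := hcov z hz hzZ hzP
          exact mem_iUnion.2 ⟨i, τ, ⟨hτ, hzP, hzZ⟩, rfl⟩
        · left
          rw [h1]
          exact hφoff _ hzP
    have hvol : ENNReal.ofReal ρ ≤ ∑' i,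
        ∫⁻ τ in Ioc (0:ℝ) 1 ∩ {τ | f (x i + τ • v i) ∈ P ∧ x i + τ • v i ∉ Z},
          g (x i + τ • v i) := by
      calc ENNReal.ofReal ρ = volume (Icc 0 ρ) := by rw [Real.volume_Icc, sub_zero]
        _ ≤ volume ({ρ} ∪ ⋃ i, (fun τ => φ (f (x i + τ • v i))) '' K i) :=
            measure_mono (hIcc.trans hcov')
        _ ≤ volume {ρ} + volume (⋃ i, (fun τ => φ (f (x i + τ • v i))) '' K i) :=
            measure_union_le _ _
        _ = volume (⋃ i, (fun τ => φ (f (x i + τ • v i))) '' K i) := by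
            rw [Real.volume_singleton, zero_add]
        _ ≤ ∑' i, volume ((fun τ => φ (f (x i + τ • v i))) '' K i) :=
            measure_iUnion_le _
        _ ≤ ∑' i, ∫⁻ τ in Ioc (0:ℝ) 1 ∩ {τ | f (x i + τ • v i) ∈ P ∧ x i + τ • v i ∉ Z},
              g (x i + τ • v i) := by
            apply ENNReal.tsum_le_tsum
            intro i
            have hmU : ∀ τ ∈ Icc (0:ℝ) 1, x i + τ • v i ∈ U := hseg i
            have hci : ContinuousOn (fun τ : ℝ => f (x i + τ • v i)) (Icc 0 1) := by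
              apply hf.comp (by fun_prop)
              intro τ hτ
              exact hmU τ hτ
            have hA : IsClosed (Icc (0:ℝ) 1 ∩ {τ | f (x i + τ • v i) ∈ P}) :=
              hci.preimage_isClosed_of_isClosed isClosed_Icc hP
            have hKcl : IsClosed (K i) := by
              apply isClosed_of_closure_subset
              intro τ hτ
              have h1 : τ ∈ Icc (0:ℝ) 1 ∩ {τ | f (x i + τ • v i) ∈ P} := by
                apply closure_minimal _ hA hτ
                rintro σ ⟨h1, h2, -⟩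
                exact ⟨h1, h2⟩
              refine ⟨h1.1, h1.2, fun hzZ => ?_⟩
              refine hfr _ (hmU τ h1.1) hzZ ?_ h1.2
              have hγ : Continuous (fun τ : ℝ => x i + τ • v i) := by fun_prop
              refine map_mem_closure (f := fun τ : ℝ => x i + τ • v i) hγ hτ ?_
              rintro σ ⟨h3, -, h4⟩
              exact ⟨hmU σ h3, h4⟩
            have hKc : IsCompact (K i) :=
              isCompact_Icc.of_isClosed_subset hKcl inter_subset_left
            have h1 := volume_image_le (u := fun τ => φ (f (x i + τ • v i)))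
              (h := fun τ => g (x i + τ • v i))
              (fun s t hs hst ht => (hφL _ _).trans (hgrad i s t hs hst ht)) (hfin i) hKc
              inter_subset_left
            refine h1.trans (lintegral_mono_set ?_)
            rintro τ ⟨h2, h3⟩
            exact ⟨h2, h3.2⟩
    exact absurd hsum (not_lt.2 hvol)
  have hZd : ∀ z ∈ U, z ∉ Z := fun z hz hzZ => claim z hz (if_pos hzZ)
  refine ⟨?_, ?_⟩
  · rintro _ ⟨x₁, hx₁, rfl⟩
    by_contra hx₁P
    apply claim x₁ hx₁
    have : ψ x₁ = φ (f x₁) := if_neg (hZd x₁ hx₁)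
    rw [this]
    exact hφoff _ hx₁P
  · exact Set.disjoint_left.2 hZd

end

end Crest.Agent.R96.Intr_538

namespace Crest.Agent.R96.Coarse_538

open Crest.AnalysisR.VecCalc3 Crest.AnalysisR.Sobolev
open Crest.Agent.R96.Acl_392 Crest.Agent.R96.Lu_538 Crest.Agent.R96.Intr_538

noncomputable section

/-- the edge in direction `i` at the vertex `k` of the grid of mesh `t` through `a` -/
def edge (t : ℝ) (a : R3) (k : Fin 3 → ℤ) (i : Fin 3) : Set R3 :=
  (fun τ : ℝ => vt t a k + τ • (t • ed i)) '' Icc 0 1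

/-- the 1-skeleton of the grid -/
def skel (t : ℝ) (a : R3) : Set R3 := ⋃ k, ⋃ i, edge t a k i

/-- vector valued Jensen on an edge -/
theorem jensen_edge {p : ℝ} (hp : 1 ≤ p) {h : ℝ → ℝ≥0∞} {η : ℝ≥0∞}
    (hh : AEMeasurable h (volume.restrict (Ioc (0:ℝ) 1)))
    (h1 : ∫⁻ τ in Ioc (0:ℝ) 1, h τ ^ p ≤ η ^ p) : ∫⁻ τ in Ioc (0:ℝ) 1, h τ ≤ η := by
  have hp0 : 0 < p := by linarith
  rcases eq_or_lt_of_le hp with h1p | h1p
  · rw [← h1p] at h1
    simpa using h1
  have hpq := Real.HolderConjugate.conjExponent h1p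
  have h2 := ENNReal.lintegral_mul_le_Lp_mul_Lq (volume.restrict (Ioc (0:ℝ) 1)) hpq
    hh (aemeasurable_const (b := (1:ℝ≥0∞)))
  simp only [Pi.mul_apply, mul_one, ENNReal.one_rpow, lintegral_const,
    Measure.restrict_apply MeasurableSet.univ, univ_inter, Real.volume_Ioc, sub_zero,
    ENNReal.ofReal_one] at h2
  refine h2.trans ?_
  calc (∫⁻ τ in Ioc (0:ℝ) 1, h τ ^ p) ^ (1 / p) ≤ (η ^ p) ^ (1 / p) :=
        ENNReal.rpow_le_rpow h1 (by positivity)
    _ = η := by
        rw [← ENNReal.rpow_mul, mul_one_div_cancel hp0.ne', ENNReal.rpow_one]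

end

end Crest.Agent.R96.Coarse_538
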