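/-
helper538, row 96, leaf COARSE, part 17: perfect cubes: closeness to the affine map on the fine
1-skeleton, no intruders on the 1-skeleton.
-/
import Mathlib
import Crest.Agent.R96.Intr16_538
import Crest.Agent.R96.Intr7_538

set_option autoImplicit false
set_option linter.unusedSectionVars false
set_option maxHeartbeats 400000

open MeasureTheory Set Filter Metric
open scoped ENNReal NNReal Topology

namespace Crest.Agent.R96.Coarse_538

open Crest.AnalysisR.VecCalc3 Crest.AnalysisR.Sobolev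
open Crest.Agent.R96.Acl_392 Crest.Agent.R96.Lu_538 Crest.Agent.R96.Intr_538

noncomputable section

theorem le_young {p η : ℝ} (hp : 1 ≤ p) (hη : 0 < η) (h : ℝ≥0∞) :
    h ≤ ENNReal.ofReal η + ENNReal.ofReal (η ^ (1 - p)) * h ^ p := by
  have hp0 : 0 < p := by linarith
  rcases eq_or_ne h ∞ with rfl | hh
  · rw [ENNReal.top_rpow_of_pos hp0, ENNReal.mul_top]
    · simp
    · rw [Ne, ENNReal.ofReal_eq_zero, not_le]; positivity
  · obtain ⟨x, hx⟩ : ∃ x : ℝ≥0, (x : ℝ≥0∞) = h := ⟨h.toNNReal, ENNReal.coe_toNNReal hh⟩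
    have hx' : h = ENNReal.ofReal (x : ℝ) := by rw [← hx, ENNReal.ofReal_coe_nnreal]
    rw [hx', ENNReal.ofReal_rpow_of_nonneg x.coe_nonneg hp0.le, ← ENNReal.ofReal_mul (by positivity),
      ← ENNReal.ofReal_add hη.le (by positivity)]
    apply ENNReal.ofReal_le_ofReal
    rcases le_or_gt (x : ℝ) η with hxη | hxη
    · have : 0 ≤ η ^ (1 - p) * (x:ℝ) ^ p := by positivity
      linarith
    · have hx0 : (0:ℝ) < x := hη.trans hxη
      have h1 : η ^ (1 - p) * (x:ℝ) ^ p = x * ((x:ℝ) / η) ^ (p - 1) := by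
        rw [Real.div_rpow hx0.le hη.le, Real.rpow_sub hη, Real.rpow_one, Real.rpow_sub hx0,
          Real.rpow_sub hη, Real.rpow_one, Real.rpow_one]
        field_simp
      have h2 : 1 ≤ ((x:ℝ) / η) ^ (p - 1) := by
        apply Real.one_le_rpow _ (by linarith)
        rw [le_div_iff₀ hη]; linarith
      rw [h1]
      nlinarith

/-- Jensen without measurability, constant 2 -/
theorem jensen2 {p η : ℝ} (hp : 1 ≤ p) (hη : 0 < η) {h : ℝ → ℝ≥0∞}
    (h1 : ∫⁻ τ in Ioc (0:ℝ) 1, h τ ^ p ≤ ENNReal.ofReal (η ^ p)) :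
    ∫⁻ τ in Ioc (0:ℝ) 1, h τ ≤ ENNReal.ofReal (2 * η) := by
  calc ∫⁻ τ in Ioc (0:ℝ) 1, h τ
      ≤ ∫⁻ τ in Ioc (0:ℝ) 1, (ENNReal.ofReal η + ENNReal.ofReal (η ^ (1 - p)) * h τ ^ p) :=
        lintegral_mono fun τ => le_young hp hη (h τ)
    _ = ENNReal.ofReal η + ENNReal.ofReal (η ^ (1 - p)) * ∫⁻ τ in Ioc (0:ℝ) 1, h τ ^ p := by
        rw [lintegral_add_left measurable_const, lintegral_const_mul' _ _ ENNReal.ofReal_ne_top]
        simp
    _ ≤ ENNReal.ofReal η + ENNReal.ofReal (η ^ (1 - p)) * ENNReal.ofReal (η ^ p) := by gcongr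
    _ = ENNReal.ofReal (2 * η) := by
        rw [← ENNReal.ofReal_mul (by positivity), ← Real.rpow_add hη,
          ← ENNReal.ofReal_add hη.le (by positivity)]
        congr 1
        have : (1 - p) + p = 1 := by ring
        rw [this, Real.rpow_one]
        ring

theorem vt_shift (t : ℝ) (a : R3) (k : Fin 3 → ℤ) (i : Fin 3) (j : ℤ) :
    vt t a (k + Pi.single i j) = vt t a k + (j : ℝ) • (t • ed i) := by
  ext l
  rw [vt_apply, PiLp.add_apply, vt_apply, PiLp.smul_apply, PiLp.smul_apply, ed]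
  by_cases h : l = i
  · subst h
    simp
    ring
  · simp [h]

theorem pt_apply (w : R3) (i l : Fin 3) (t σ : ℝ) :
    (w + σ • (t • ed i)) l = w l + if l = i then σ * t else 0 := by
  rw [PiLp.add_apply, PiLp.smul_apply, PiLp.smul_apply, ed]
  by_cases h : l = i
  · subst h
    simp
  · simp [h]

theorem norm_dir {t : ℝ} (ht : 0 < t) (i : Fin 3) : ‖t • ed i‖ₑ = ENNReal.ofReal t := by
  rw [← ofReal_norm, norm_smul, Real.norm_eq_abs, abs_of_pos ht, ed, PiLp.norm_single]
  simp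

theorem shift_lintegral (h : ℝ → ℝ≥0∞) (j : ℤ) :
    ∫⁻ σ in Ioc (j:ℝ) (j + 1), h σ = ∫⁻ τ in Ioc (0:ℝ) 1, h (j + τ) := by
  have h1 := (measurePreserving_add_left (volume : Measure ℝ) (j:ℝ)).setLIntegral_comp_preimage_emb
    (measurableEmbedding_addLeft (j:ℝ)) h (Ioc (j:ℝ) (j+1))
  rw [← h1]
  congr 2
  ext τ
  simp [add_comm]

/-- closeness on the skeleton -/
theorem near_skel {p : ℝ} (hp : 1 ≤ p) {Ω : Set R3} {f : R3 → R3} {D : R3 → R3 →L[ℝ] R3}
    {t s η : ℝ} (ht : 0 < t) (hts : t ≤ s) (hη : 0 < η) {a z b : R3} {L : R3 →L[ℝ] R3}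
    (hA : ∀ k i, ACV Ω f D (t • ed i) (vt t a k)) (hsub : cel Cb z s ⊆ Ω)
    (hI : ∀ k i, ∫⁻ τ in Ioc (0:ℝ) 1, (cel Cb z s).indicator (fun x => ‖D x - L‖ₑ ^ p)
      (vt t a k + τ • (t • ed i)) ≤ ENNReal.ofReal (η ^ p))
    (hJ : ∀ k i, ∫⁻ τ in Ioc (0:ℝ) 1, (cel Cb z s).indicator
      (fun x => ‖f x - (b + L (x - z))‖ₑ ^ p)
      (vt t a k + τ • (t • ed i)) ≤ ENNReal.ofReal ((η * t) ^ p))
    {x : R3} (hx : x ∈ skel t a) (hxq : x ∈ cel Cb z s) :
    ‖f x - (b + L (x - z))‖ ≤ 9 * η * t := by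
  have hs : 0 < s := ht.trans_le hts
  have hp0 : 0 < p := by linarith
  obtain ⟨k, i, τ₀, hτ₀, rfl⟩ : ∃ k i, x ∈ edge t a k i := by
    simpa [skel] using hx
  set w := vt t a k with hw
  simp only at hxq ⊢
  -- membership on the line
  have hmem : ∀ σ : ℝ, |w i + σ * t - z i| ≤ s → w + σ • (t • ed i) ∈ cel Cb z s := by
    intro σ hσ
    rw [mem_cel hs] at hxq ⊢
    intro l
    have h1 := hxq l
    rw [pt_apply] at h1 ⊢
    by_cases hl : l = i
    · subst hl; simpa using hσ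
    · simpa [hl] using h1
  have hxi : |w i + τ₀ * t - z i| ≤ s := by
    have h1 := (mem_cel hs).1 hxq i
    rw [pt_apply] at h1
    simpa using h1
  rw [abs_le] at hxi
  -- the full edge
  obtain ⟨m, hm, hmq⟩ : ∃ m : ℤ, (m = -1 ∨ m = 0 ∨ m = 1) ∧ ∀ σ ∈ Icc (m:ℝ) (m + 1),
      |w i + σ * t - z i| ≤ s := by
    have h0 := hτ₀.1
    have h1 := hτ₀.2
    have h2 : 0 ≤ τ₀ * t := by positivity
    have h3 : τ₀ * t ≤ t := by nlinarith
    by_cases c1 : z i - s ≤ w i
    · by_cases c2 : w i + t ≤ z i + s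
      · refine ⟨0, by simp, ?_⟩
        rintro σ ⟨hσ0, hσ1⟩
        push_cast at hσ0 hσ1
        rw [abs_le]
        constructor <;> nlinarith
      · refine ⟨-1, by simp, ?_⟩
        rintro σ ⟨hσ0, hσ1⟩
        push_cast at hσ0 hσ1
        rw [abs_le]
        push Not at c2
        constructor <;> nlinarith
    · refine ⟨1, by simp, ?_⟩
      rintro σ ⟨hσ0, hσ1⟩
      push_cast at hσ0 hσ1
      rw [abs_le]
      push Not at c1
      constructor <;> nlinarith
  -- oscillation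
  set q := cel Cb z s with hq
  set h : ℝ → ℝ≥0∞ := fun σ => q.indicator (fun x => ‖D x - L‖ₑ) (w + σ • (t • ed i)) with hh
  have hind : ∀ y : R3, q.indicator (fun x => ‖D x - L‖ₑ) y ^ p =
      q.indicator (fun x => ‖D x - L‖ₑ ^ p) y := by
    intro y
    by_cases hy : y ∈ q
    · simp [indicator_of_mem hy]
    · simp [indicator_of_notMem hy, ENNReal.zero_rpow_of_pos hp0]
  have hedge : ∀ j : ℤ, ∫⁻ σ in Ioc (j:ℝ) (j + 1), h σ ≤ ENNReal.ofReal (2 * η) := by
    intro j
    rw [shift_lintegral]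
    apply jensen2 hp hη
    refine le_trans (le_of_eq ?_) (hI (k + Pi.single i j) i)
    apply lintegral_congr
    intro τ
    rw [hh]
    simp only
    rw [hind, vt_shift, add_smul, ← add_assoc]
  have hosc : ∀ σ₁ σ₂ : ℝ, -1 ≤ σ₁ → σ₁ ≤ σ₂ → σ₂ ≤ 2 → |w i + σ₁ * t - z i| ≤ s →
      |w i + σ₂ * t - z i| ≤ s →
      ‖(f (w + σ₂ • (t • ed i)) - L (w + σ₂ • (t • ed i))) -
        (f (w + σ₁ • (t • ed i)) - L (w + σ₁ • (t • ed i)))‖ ≤ 6 * η * t := by
    intro σ₁ σ₂ h1 h12 h2 hq1 hq2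
    have hin : ∀ σ ∈ Icc σ₁ σ₂, w + σ • (t • ed i) ∈ q := by
      intro σ hσ
      apply hmem
      rw [abs_le] at hq1 hq2 ⊢
      constructor <;> nlinarith [hσ.1, hσ.2, hq1.1, hq1.2, hq2.1, hq2.2]
    have h3 := (hA k i).diff_le L h12 (fun σ hσ => hsub (hin σ hσ))
    have h4 : ∫⁻ τ in Ioc σ₁ σ₂, ‖D (w + τ • (t • ed i)) - L‖ₑ * ‖t • ed i‖ₑ ≤
        ENNReal.ofReal (6 * η * t) := by
      calc ∫⁻ τ in Ioc σ₁ σ₂, ‖D (w + τ • (t • ed i)) - L‖ₑ * ‖t • ed i‖ₑ
          = ∫⁻ τ in Ioc σ₁ σ₂, h τ * ENNReal.ofReal t := by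
            apply setLIntegral_congr_fun measurableSet_Ioc
            intro τ hτ
            rw [hh]
            simp only
            rw [indicator_of_mem (hin τ ⟨hτ.1.le, hτ.2⟩), norm_dir ht]
        _ = (∫⁻ τ in Ioc σ₁ σ₂, h τ) * ENNReal.ofReal t :=
            lintegral_mul_const' _ _ ENNReal.ofReal_ne_top
        _ ≤ (∫⁻ τ in Ioc ((-1:ℤ):ℝ) (((-1:ℤ):ℝ) + 1) ∪ (Ioc ((0:ℤ):ℝ) (((0:ℤ):ℝ) + 1) ∪
              Ioc ((1:ℤ):ℝ) (((1:ℤ):ℝ) + 1)), h τ) * ENNReal.ofReal t := by
            gcongr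
            intro τ hτ
            have h5 := hτ.1
            have h6 := hτ.2
            push_cast
            by_cases c1 : τ ≤ 0
            · left; constructor <;> linarith
            · right
              by_cases c2 : τ ≤ 1
              · left; constructor <;> linarith
              · right; constructor <;> linarith
        _ ≤ (ENNReal.ofReal (2 * η) + (ENNReal.ofReal (2 * η) + ENNReal.ofReal (2 * η))) *
              ENNReal.ofReal t := by
            gcongr
            refine (lintegral_union_le _ _ _).trans ?_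
            refine add_le_add (hedge (-1)) ?_
            refine (lintegral_union_le _ _ _).trans ?_
            exact add_le_add (hedge 0) (hedge 1)
        _ = ENNReal.ofReal (6 * η * t) := by
            rw [← ENNReal.ofReal_add (by positivity) (by positivity),
              ← ENNReal.ofReal_add (by positivity) (by positivity),
              ← ENNReal.ofReal_mul (by positivity)]
            congr 1
            ring
    have h5 := h3.trans h4
    rw [← ofReal_norm] at h5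
    exact (ENNReal.ofReal_le_ofReal_iff (by positivity)).1 h5
  -- a good point on the full edge
  obtain ⟨σ, hσ, hσb⟩ : ∃ σ ∈ Icc (m:ℝ) (m + 1),
      ‖f (w + σ • (t • ed i)) - (b + L (w + σ • (t • ed i) - z))‖ ≤ 3 * η * t := by
    by_contra hcon
    push Not at hcon
    have h1 : ∫⁻ τ in Ioc (0:ℝ) 1, q.indicator (fun x => ‖f x - (b + L (x - z))‖ₑ)
        (vt t a (k + Pi.single i m) + τ • (t • ed i)) ≤ ENNReal.ofReal (2 * (η * t)) := by
      apply jensen2 hp (by positivity)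
      refine le_trans (le_of_eq ?_) (hJ (k + Pi.single i m) i)
      apply lintegral_congr
      intro τ
      by_cases hy : vt t a (k + Pi.single i m) + τ • (t • ed i) ∈ q
      · simp [indicator_of_mem hy]
      · simp [indicator_of_notMem hy, ENNReal.zero_rpow_of_pos hp0]
    have h2 : ENNReal.ofReal (3 * η * t) ≤ ∫⁻ τ in Ioc (0:ℝ) 1,
        q.indicator (fun x => ‖f x - (b + L (x - z))‖ₑ)
        (vt t a (k + Pi.single i m) + τ • (t • ed i)) := by
      calc ENNReal.ofReal (3 * η * t) = ∫⁻ τ in Ioc (0:ℝ) 1, ENNReal.ofReal (3 * η * t) := by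
            simp
        _ ≤ _ := by
            apply setLIntegral_mono' measurableSet_Ioc
            intro τ hτ
            have hσ : ((m:ℝ) + τ) ∈ Icc (m:ℝ) (m + 1) := ⟨by linarith [hτ.1], by linarith [hτ.2]⟩
            have h3 : vt t a (k + Pi.single i m) + τ • (t • ed i) = w + ((m:ℝ) + τ) • (t • ed i) := by
              rw [vt_shift, add_smul, ← add_assoc]
            rw [h3, indicator_of_mem (hmem _ (hmq _ hσ)), ← ofReal_norm]
            exact ENNReal.ofReal_le_ofReal (hcon _ hσ).le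
    have h3 := (ENNReal.ofReal_le_ofReal_iff (by positivity)).1 (h2.trans h1)
    have : 0 < η * t := by positivity
    nlinarith
  have hm' : -1 ≤ (m:ℝ) ∧ (m:ℝ) ≤ 1 := by
    rcases hm with rfl | rfl | rfl <;> norm_num
  have hσ' : |w i + σ * t - z i| ≤ s := hmq σ hσ
  have hτ' : |w i + τ₀ * t - z i| ≤ s := by rw [abs_le]; exact hxi
  have hfinal : ‖(f (w + τ₀ • (t • ed i)) - L (w + τ₀ • (t • ed i))) -
        (f (w + σ • (t • ed i)) - L (w + σ • (t • ed i)))‖ ≤ 6 * η * t := by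
    rcases le_total σ τ₀ with h1 | h1
    · exact hosc σ τ₀ (by linarith [hσ.1, hm'.1]) h1 (by linarith [hτ₀.2]) hσ' hτ'
    · rw [norm_sub_rev]
      exact hosc τ₀ σ (by linarith [hτ₀.1]) h1 (by linarith [hσ.2, hm'.2]) hτ' hσ'
  have heq : f (w + τ₀ • (t • ed i)) - (b + L (w + τ₀ • (t • ed i) - z)) =
      ((f (w + τ₀ • (t • ed i)) - L (w + τ₀ • (t • ed i))) -
        (f (w + σ • (t • ed i)) - L (w + σ • (t • ed i)))) +
      (f (w + σ • (t • ed i)) - (b + L (w + σ • (t • ed i) - z))) := by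
    rw [map_sub, map_sub]
    abel
  rw [heq]
  refine (norm_add_le _ _).trans ?_
  linarith

/-- on the frontier of a perfect cube the image is outside the shrunken parallelepiped -/
theorem frontier_off {f : R3 → R3} {κ τ s : ℝ} (hκ : 0 < κ) (hτ : 0 < τ) (hτ1 : τ ≤ 1) (hs : 0 < s)
    {z b : R3} {L : R3 →L[ℝ] R3} (hL : ∀ v, κ * ‖v‖ ≤ ‖L v‖) {U : Set R3} {y : R3}
    (hyc : y ∈ closure (U \ cel Cb z s))
    (hclose : ‖f y - (b + L (y - z))‖ ≤ κ * (τ / 2 * s)) :
    f y ∉ par Cb L b ((1 - τ) * s) := by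
  intro hP
  have h1 : b + L (y - z) ∈ par Cb L b ((1 - τ) * s + τ / 2 * s) := by
    apply par_thick' ref_Cb hκ hL (by
      have : 0 ≤ 1 - τ := by linarith
      positivity) (by positivity) hP
    rw [norm_sub_rev, mul_one]
    exact hclose
  obtain ⟨u, hu, hu'⟩ := h1
  have h2 : L (((1 - τ) * s + τ / 2 * s) • u) = L (y - z) := by
    rw [map_smul]
    exact add_left_cancel hu'
  have h3 := inj_of_low hκ hL h2
  have h4 : y ∈ ocel z s := by
    intro i
    have h5 : y i - z i = ((1 - τ) * s + τ / 2 * s) * u i := by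
      have := congrArg (fun v : R3 => v i) h3
      simp only [PiLp.smul_apply, PiLp.sub_apply, smul_eq_mul] at this
      exact this.symm
    have h6 : |u i| ≤ 1 := hu i
    have h7 : |y i - z i| ≤ (1 - τ / 2) * s := by
      rw [h5, abs_mul]
      have h8 : (1 - τ) * s + τ / 2 * s = (1 - τ / 2) * s := by ring
      have h9 : 0 ≤ (1 - τ / 2) * s := by
        have : 0 ≤ 1 - τ / 2 := by linarith
        positivity
      rw [h8, abs_of_nonneg h9]
      nlinarith
    have h8 : (1 - τ / 2) * s < s := by nlinarith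
    rw [abs_le] at h7
    constructor <;> linarith [h7.1, h7.2]
  have h5 : ocel z s ∈ 𝓝 y := (isOpen_ocel z s).mem_nhds h4
  obtain ⟨y', hy'1, hy'2⟩ := mem_closure_iff_nhds.1 hyc _ h5
  exact hy'2.2 (ocel_sub hs hy'1)

end

end Crest.Agent.R96.Coarse_538
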