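/-
helper538, row 96, leaf COARSE, part 18: perfect cubes, no intruders on the 1-skeleton.
-/
import Mathlib
import Crest.Agent.R96.Intr17_538

set_option autoImplicit false
set_option linter.unusedSectionVars false
set_option maxHeartbeats 400000

open MeasureTheory Set Filter Metric
open scoped ENNReal NNReal Topology

namespace Crest.Agent.R96.Coarse_538

open Crest.AnalysisR.VecCalc3 Crest.AnalysisR.Sobolev
open Crest.Agent.R96.Acl_392 Crest.Agent.R96.Lu_538 Crest.Agent.R96.Intr_538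

noncomputable section

/-- the intruder density of the cube: `‖D‖` on the part of `Ω` outside the cube which is sent into
the shrunken parallelepiped. -/
def Fin1 (Ω : Set R3) (f : R3 → R3) (D : R3 → R3 →L[ℝ] R3) (z b : R3) (L : R3 →L[ℝ] R3)
    (s τ : ℝ) : R3 → ℝ≥0∞ :=
  ((Ω ∩ f ⁻¹' par Cb L b ((1 - τ) * s)) \ cel Cb z s).indicator fun x => ‖D x‖ₑ

theorem sum_edges (t : ℝ) (a : R3) (F : R3 → ℝ≥0∞) :
    ∑' q : (Fin 3 → ℤ) × Fin 3, ∫⁻ τ in Ioc (0:ℝ) 1, F (vt t a q.1 + τ • (t • ed q.2)) =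
      ∑ i, ske t F i a := by
  have h1 := ENNReal.tsum_prod (f := fun (k : Fin 3 → ℤ) (i : Fin 3) =>
    ∫⁻ τ in Ioc (0:ℝ) 1, F (vt t a k + τ • (t • ed i)))
  rw [h1, ENNReal.tsum_comm, tsum_fintype]
  rfl

theorem noint_of {Ω : Set R3} {f : R3 → R3} {D : R3 → R3 →L[ℝ] R3} (hf : ContinuousOn f Ω)
    {κ τ s t : ℝ} (hκ : 0 < κ) (hτ : 0 < τ) (hτ1 : 2 * τ ≤ 1) (ht : 0 < t) (hs : 0 < s)
    {a z b : R3} {L : R3 →L[ℝ] R3} (hL : ∀ v, κ * ‖v‖ ≤ ‖L v‖)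
    (hA : ∀ k i, ACV Ω f D (t • ed i) (vt t a k))
    (hfinD : ∀ k i, ∫⁻ τ in Ioc (0:ℝ) 1, Ω.indicator (fun x => ‖D x‖ₑ)
      (vt t a k + τ • (t • ed i)) ≠ ∞)
    (hnear : ∀ x ∈ skel t a, x ∈ cel Cb z s → ‖f x - (b + L (x - z))‖ ≤ κ * (τ / 2 * s))
    (hF : (∑ i, ske t (Fin1 Ω f D z b L s τ) i a) * ENNReal.ofReal t <
      ENNReal.ofReal (κ * (τ * s)))
    {U : Set R3} (hUΩ : U ⊆ Ω) (hU : IsPreconnected U)
    (hcov : ∀ x ∈ U, f x ∈ par Cb L b ((1 - τ) * s) → ∃ k i, edge t a k i ⊆ U ∧ x ∈ edge t a k i)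
    (hy : ∃ y ∈ U, y ∈ cel Cb z s ∨ f y ∉ par Cb L b ((1 - τ) * s)) {x : R3} (hx : x ∈ U)
    (hxP : f x ∈ par Cb L b ((1 - 2 * τ) * s)) : x ∈ cel Cb z s := by
  by_contra hxq
  have hτ1' : τ ≤ 1 := by linarith
  set P := par Cb L b ((1 - τ) * s) with hP
  have hPc : IsClosed P := (isCompact_par ref_Cb.cpt L b _).isClosed
  have hZc : IsClosed (cel Cb z s) := isClosed_cel z s
  have hfU : ContinuousOn f U := hf.mono hUΩ
  have hseg : ∀ i : {q : (Fin 3 → ℤ) × Fin 3 // edge t a q.1 q.2 ⊆ U}, ∀ τ ∈ Icc (0:ℝ) 1,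
      vt t a i.1.1 + τ • (t • ed i.1.2) ∈ U := fun i σ hσ => i.2 ⟨σ, hσ, rfl⟩
  have key := path_lemma₃ (ι := {q : (Fin 3 → ℤ) × Fin 3 // edge t a q.1 q.2 ⊆ U})
    (fun i => vt t a i.1.1) (fun i => t • ed i.1.2) (f := f)
    (g := fun x => ‖D x‖ₑ * ENNReal.ofReal t) (P := P) (P' := par Cb L b ((1 - 2 * τ) * s))
    (Z := cel Cb z s) (U := U) (ρ := κ * (τ * s)) (by positivity) hPc ?_ hU hfU hZc hseg ?_ ?_ ?_
    ?_ ?_ hx hxq hxP
  · obtain ⟨y, hyU, hy1 | hy1⟩ := hy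
    · exact Set.disjoint_left.1 key.2 hyU hy1
    · exact hy1 (key.1 (mem_image_of_mem f hyU))
  · intro y hy y' hy'
    have h1 : (1 - 2 * τ) * s + τ * s = (1 - τ) * s := by ring
    rw [hP, ← h1]
    apply par_thick' ref_Cb hκ hL (by
      have : 0 ≤ 1 - 2 * τ := by linarith
      positivity) (by positivity) hy
    rw [mul_one, ← dist_eq_norm]
    exact (mem_ball.1 hy').le
  · intro z' hz' _ hz'P
    obtain ⟨k, i, h1, σ, hσ, rfl⟩ := hcov z' hz' hz'P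
    exact ⟨⟨(k, i), h1⟩, σ, hσ, rfl⟩
  · rintro ⟨⟨k, i⟩, hki⟩ s' t' hs' hst' ht'
    simp only
    have h1 := (hA k i).diff_le 0 hst' (fun σ hσ => hUΩ (hki ⟨σ, ⟨hs'.trans hσ.1, hσ.2.trans ht'⟩,
      rfl⟩))
    rw [edist_comm, edist_eq_enorm_sub]
    simp only [zero_apply, sub_zero] at h1
    refine h1.trans (le_of_eq ?_)
    rw [norm_dir ht]
  · rintro ⟨⟨k, i⟩, hki⟩
    simp only
    have h1 : ∫⁻ σ in Ioc (0:ℝ) 1, ‖D (vt t a k + σ • (t • ed i))‖ₑ * ENNReal.ofReal t =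
        (∫⁻ σ in Ioc (0:ℝ) 1, Ω.indicator (fun x => ‖D x‖ₑ) (vt t a k + σ • (t • ed i))) *
          ENNReal.ofReal t := by
      rw [← lintegral_mul_const' _ _ ENNReal.ofReal_ne_top]
      apply setLIntegral_congr_fun measurableSet_Ioc
      intro σ hσ
      simp only
      rw [indicator_of_mem]
      exact hUΩ (hki ⟨σ, ⟨hσ.1.le, hσ.2⟩, rfl⟩)
    rw [h1]
    exact ENNReal.mul_ne_top (hfinD k i) ENNReal.ofReal_ne_top
  · intro z' hz' hz'q hz'c hz'P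
    obtain ⟨k, i, h1, h2⟩ := hcov z' hz' hz'P
    refine frontier_off hκ hτ hτ1' hs hL hz'c (hnear z' ?_ hz'q) hz'P
    exact mem_iUnion.2 ⟨k, mem_iUnion.2 ⟨i, h2⟩⟩
  · refine lt_of_le_of_lt ?_ hF
    rw [← sum_edges, ← ENNReal.tsum_mul_right]
    refine le_trans ?_ (ENNReal.tsum_comp_le_tsum_of_injective
      (f := fun i : {q : (Fin 3 → ℤ) × Fin 3 // edge t a q.1 q.2 ⊆ U} => i.1)
      Subtype.val_injective _)
    apply ENNReal.tsum_le_tsum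
    rintro ⟨⟨k, i⟩, hki⟩
    simp only
    set γ : ℝ → R3 := fun σ => vt t a k + σ • (t • ed i) with hγ
    have hγc : Continuous γ := by fun_prop
    have hγU : ∀ σ ∈ Icc (0:ℝ) 1, γ σ ∈ U := fun σ hσ => hki ⟨σ, hσ, rfl⟩
    have hSm : MeasurableSet (Ioc (0:ℝ) 1 ∩ {σ | f (γ σ) ∈ P ∧ γ σ ∉ cel Cb z s}) := by
      have h1 : IsClosed (Icc (0:ℝ) 1 ∩ {σ | f (γ σ) ∈ P}) := by
        have hci : ContinuousOn (fun σ => f (γ σ)) (Icc 0 1) :=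
          hfU.comp hγc.continuousOn hγU
        exact hci.preimage_isClosed_of_isClosed isClosed_Icc hPc
      have h2 : Ioc (0:ℝ) 1 ∩ {σ | f (γ σ) ∈ P ∧ γ σ ∉ cel Cb z s} =
          (Ioc (0:ℝ) 1 ∩ (Icc (0:ℝ) 1 ∩ {σ | f (γ σ) ∈ P})) ∩ (γ ⁻¹' (cel Cb z s)ᶜ) := by
        ext σ
        simp only [mem_inter_iff, mem_ofPred_eq, mem_preimage, mem_compl_iff, mem_Ioc, mem_Icc]
        constructor
        · rintro ⟨⟨h3, h4⟩, h5, h6⟩
          exact ⟨⟨⟨h3, h4⟩, ⟨h3.le, h4⟩, h5⟩, h6⟩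
        · rintro ⟨⟨⟨h3, h4⟩, -, h5⟩, h6⟩
          exact ⟨⟨h3, h4⟩, h5, h6⟩
      rw [h2]
      exact (measurableSet_Ioc.inter h1.measurableSet).inter
        (hZc.isOpen_compl.preimage hγc).measurableSet
    calc ∫⁻ σ in Ioc (0:ℝ) 1 ∩ {σ | f (γ σ) ∈ P ∧ γ σ ∉ cel Cb z s},
          ‖D (γ σ)‖ₑ * ENNReal.ofReal t
        = ∫⁻ σ in Ioc (0:ℝ) 1 ∩ {σ | f (γ σ) ∈ P ∧ γ σ ∉ cel Cb z s},
          Fin1 Ω f D z b L s τ (γ σ) * ENNReal.ofReal t := by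
          apply setLIntegral_congr_fun hSm
          rintro σ ⟨h1, h2, h3⟩
          simp only
          rw [Fin1, indicator_of_mem]
          exact ⟨⟨hUΩ (hγU σ ⟨h1.1.le, h1.2⟩), h2⟩, h3⟩
      _ ≤ ∫⁻ σ in Ioc (0:ℝ) 1, Fin1 Ω f D z b L s τ (γ σ) * ENNReal.ofReal t :=
          lintegral_mono_set inter_subset_left
      _ = (∫⁻ σ in Ioc (0:ℝ) 1, Fin1 Ω f D z b L s τ (γ σ)) * ENNReal.ofReal t :=
          lintegral_mul_const' _ _ ENNReal.ofReal_ne_top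

/-- **perfect cube** for the grid of mesh `t` through `a`. -/
structure Perf (p : ℝ) (Ω : Set R3) (f : R3 → R3) (D : R3 → R3 →L[ℝ] R3) (κ τ η t s : ℝ)
    (a z b : R3) (L : R3 →L[ℝ] R3) : Prop where
  sub : cel Cb z s ⊆ Ω
  low : ∀ v, κ * ‖v‖ ≤ ‖L v‖
  up : ‖L‖ ≤ κ⁻¹
  /-- the map is close to `x ↦ b + L (x - z)` on the fine 1-skeleton in the cube -/
  near : ∀ x ∈ skel t a, x ∈ cel Cb z s → ‖f x - (b + L (x - z))‖ ≤ η * t
  /-- near-optimal energy on the edges (and parts of edges) in the cube -/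
  edgeD : ∀ k i, ∫⁻ σ in Ioc (0:ℝ) 1, (cel Cb z s).indicator (fun x => ‖D x - L‖ₑ ^ p)
    (vt t a k + σ • (t • ed i)) ≤ ENNReal.ofReal (η ^ p)
  /-- no intruders on any connected set which near `f ⁻¹ (par (1-τ)s)` is a union of edges -/
  noint : ∀ U ⊆ Ω, IsPreconnected U →
    (∀ x ∈ U, f x ∈ par Cb L b ((1 - τ) * s) → ∃ k i, edge t a k i ⊆ U ∧ x ∈ edge t a k i) →
    (∃ y ∈ U, y ∈ cel Cb z s ∨ f y ∉ par Cb L b ((1 - τ) * s)) →
    ∀ x ∈ U, f x ∈ par Cb L b ((1 - 2 * τ) * s) → x ∈ cel Cb z s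

theorem perf_of {p : ℝ} (hp : 1 ≤ p) {Ω : Set R3} {f : R3 → R3} {D : R3 → R3 →L[ℝ] R3}
    (hf : ContinuousOn f Ω)
    {κ τ s t η : ℝ} (hκ : 0 < κ) (hτ : 0 < τ) (hτ1 : 2 * τ ≤ 1) (ht : 0 < t) (hts : t ≤ s)
    (hη : 0 < η) (hηκ : η * t ≤ κ * (τ / 2 * s))
    {a z b : R3} {L : R3 →L[ℝ] R3} (hL : ∀ v, κ * ‖v‖ ≤ ‖L v‖) (hLu : ‖L‖ ≤ κ⁻¹)
    (hsub : cel Cb z s ⊆ Ω)
    (hA : ∀ k i, ACV Ω f D (t • ed i) (vt t a k))
    (hfinD : ∀ k i, ∫⁻ τ in Ioc (0:ℝ) 1, Ω.indicator (fun x => ‖D x‖ₑ)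
      (vt t a k + τ • (t • ed i)) ≠ ∞)
    (hF1 : ∀ i, ske t (Fin1 Ω f D z b L s τ) i a < ENNReal.ofReal (κ * (τ * s) / (3 * t)))
    (hF2 : ∀ i, ske t ((cel Cb z s).indicator (fun x => ‖D x - L‖ₑ ^ p)) i a ≤
      ENNReal.ofReal ((η / 9) ^ p))
    (hF3 : ∀ i, ske t ((cel Cb z s).indicator (fun x => ‖f x - (b + L (x - z))‖ₑ ^ p)) i a ≤
      ENNReal.ofReal ((η / 9 * t) ^ p)) :
    Perf p Ω f D κ τ η t s a z b L := by
  have hs : 0 < s := ht.trans_le hts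
  have hp0 : 0 < p := by linarith
  have hI : ∀ k i, ∫⁻ τ in Ioc (0:ℝ) 1, (cel Cb z s).indicator (fun x => ‖D x - L‖ₑ ^ p)
      (vt t a k + τ • (t • ed i)) ≤ ENNReal.ofReal ((η / 9) ^ p) := fun k i =>
    (ENNReal.le_tsum k).trans (hF2 i)
  have hJ : ∀ k i, ∫⁻ τ in Ioc (0:ℝ) 1, (cel Cb z s).indicator
      (fun x => ‖f x - (b + L (x - z))‖ₑ ^ p)
      (vt t a k + τ • (t • ed i)) ≤ ENNReal.ofReal ((η / 9 * t) ^ p) := fun k i =>
    (ENNReal.le_tsum k).trans (hF3 i)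
  have hnear : ∀ x ∈ skel t a, x ∈ cel Cb z s → ‖f x - (b + L (x - z))‖ ≤ η * t := by
    intro x hx hxq
    refine (near_skel hp ht hts (η := η / 9) (by positivity) hA hsub hI hJ hx hxq).trans ?_
    apply le_of_eq
    ring
  refine ⟨hsub, hL, hLu, hnear, ?_, ?_⟩
  · intro k i
    refine (hI k i).trans (ENNReal.ofReal_le_ofReal ?_)
    apply Real.rpow_le_rpow (by positivity) _ hp0.le
    linarith
  · intro U hUΩ hU hcov hy x hx hxP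
    refine noint_of hf hκ hτ hτ1 ht hs hL hA hfinD
      (fun x hx hxq => (hnear x hx hxq).trans hηκ) ?_ hUΩ hU hcov hy hx hxP
    have h1 : ∑ i, ske t (Fin1 Ω f D z b L s τ) i a <
        ∑ _i : Fin 3, ENNReal.ofReal (κ * (τ * s) / (3 * t)) := by
      apply ENNReal.sum_lt_sum_of_nonempty Finset.univ_nonempty
      intro i _
      exact hF1 i
    have ht0 : ENNReal.ofReal t ≠ 0 := by
      rw [Ne, ENNReal.ofReal_eq_zero, not_le]; exact ht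
    calc (∑ i, ske t (Fin1 Ω f D z b L s τ) i a) * ENNReal.ofReal t
        < (∑ _i : Fin 3, ENNReal.ofReal (κ * (τ * s) / (3 * t))) * ENNReal.ofReal t :=
          ENNReal.mul_lt_mul_left ht0 ENNReal.ofReal_ne_top h1
      _ = ENNReal.ofReal (κ * (τ * s)) := by
          rw [Finset.sum_const, Finset.card_univ, Fintype.card_fin, nsmul_eq_mul]
          have h3 : ((3:ℕ):ℝ≥0∞) = ENNReal.ofReal 3 := by simp
          rw [h3, ← ENNReal.ofReal_mul (by norm_num), ← ENNReal.ofReal_mul (by positivity)]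
          congr 1
          field_simp

end

end Crest.Agent.R96.Coarse_538
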