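/-
helper538, row 96, leaf COARSE, part 19: few bad cubes for most translates of the fine grid.
-/
import Mathlib
import Crest.Agent.R96.Intr15_538
import Crest.Agent.R96.Intr18_538

set_option autoImplicit false
set_option linter.unusedSectionVars false
set_option maxHeartbeats 400000

open MeasureTheory Set Filter Metric Module
open scoped ENNReal NNReal Topology

namespace Crest.Agent.R96.Coarse_538

open Crest.AnalysisR.VecCalc3 Crest.AnalysisR.Sobolev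
open Crest.Agent.R96.Acl_392 Crest.Agent.R96.Lu_538 Crest.Agent.R96.Intr_538
open Crest.Agent.R96.Poi_392

noncomputable section

open Classical in
/-- for most translates few functionals are large -/
theorem few_bad {t : ℝ} (ht : 0 < t) {ι : Type*} (J : Finset ι) {F : ι → R3 → ℝ≥0∞}
    (hF : ∀ j ∈ J, AEMeasurable (F j) volume) {c : ι → ℝ≥0∞} (hc0 : ∀ j ∈ J, c j ≠ 0)
    (hc1 : ∀ j ∈ J, c j ≠ ∞) {m : ℝ≥0∞} (hm0 : m ≠ 0) (hm1 : m ≠ ∞) :
    ∃ B : Set R3, volume B ≤ (3 * ∑ j ∈ J, (∫⁻ x, F j x) / c j) / m ∧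
      ∀ a ∈ Dt t, a ∉ B →
        ((J.filter fun j => ∃ i, c j ≤ ske t (F j) i a).card : ℝ≥0∞) ≤ m := by
  set n : R3 → ℝ≥0∞ := fun a => ∑ j ∈ J, ∑ i : Fin 3, (c j)⁻¹ * ske t (F j) i a with hn
  have hnm : AEMeasurable n volume := by
    apply Finset.aemeasurable_fun_sum
    intro j hj
    apply Finset.aemeasurable_fun_sum
    intro i _
    exact (aemeasurable_ske ht (hF j hj) i).const_mul _
  have hint : ∫⁻ a in Dt t, n a = 3 * ∑ j ∈ J, (∫⁻ x, F j x) / c j := by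
    rw [hn]
    rw [lintegral_finsetSum' _ (fun j hj => by
      apply Finset.aemeasurable_fun_sum
      intro i _
      exact ((aemeasurable_ske ht (hF j hj) i).const_mul _).restrict), Finset.mul_sum]
    apply Finset.sum_congr rfl
    intro j hj
    rw [lintegral_finsetSum' _ (fun i _ => ((aemeasurable_ske ht (hF j hj) i).const_mul _).restrict)]
    have h1 : ∀ i : Fin 3, ∫⁻ a in Dt t, (c j)⁻¹ * ske t (F j) i a = (c j)⁻¹ * ∫⁻ x, F j x := by
      intro i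
      rw [lintegral_const_mul' _ _ (ENNReal.inv_ne_top.2 (hc0 j hj)), lint_ske ht (hF j hj) i]
    simp only [h1, Finset.sum_const, Finset.card_univ, Fintype.card_fin, nsmul_eq_mul]
    rw [ENNReal.div_eq_inv_mul]
    push_cast
    ring
  refine ⟨Dt t ∩ {a | m ≤ n a}, ?_, ?_⟩
  · rw [← hint]
    have h1 := mul_meas_ge_le_lintegral₀ (hnm.restrict (s := Dt t)) m
    rw [Measure.restrict_apply₀' (meas_Dt t).nullMeasurableSet, inter_comm] at h1
    rw [ENNReal.le_div_iff_mul_le (Or.inl hm0) (Or.inl hm1), mul_comm]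
    exact h1
  · intro a ha haB
    have h1 : n a < m := by
      by_contra h
      exact haB ⟨ha, not_lt.1 h⟩
    refine le_trans ?_ h1.le
    calc ((J.filter fun j => ∃ i, c j ≤ ske t (F j) i a).card : ℝ≥0∞)
        = ∑ j ∈ J.filter fun j => ∃ i, c j ≤ ske t (F j) i a, 1 := by
          rw [Finset.sum_const, nsmul_eq_mul, mul_one]
      _ ≤ ∑ j ∈ J.filter fun j => ∃ i, c j ≤ ske t (F j) i a,
            ∑ i : Fin 3, (c j)⁻¹ * ske t (F j) i a := by
          apply Finset.sum_le_sum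
          intro j hj
          obtain ⟨hjJ, i, hi⟩ := Finset.mem_filter.1 hj
          calc (1 : ℝ≥0∞) = (c j)⁻¹ * c j := (ENNReal.inv_mul_cancel (hc0 j hjJ) (hc1 j hjJ)).symm
            _ ≤ (c j)⁻¹ * ske t (F j) i a := by gcongr
            _ ≤ _ := Finset.single_le_sum (f := fun i => (c j)⁻¹ * ske t (F j) i a)
                (fun _ _ => zero_le) (Finset.mem_univ i)
      _ ≤ n a := Finset.sum_le_sum_of_subset (Finset.filter_subset _ _)

/-- almost every translate is ACL on all edges, with finite energy -/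
theorem ae_good {Ω : Set R3} (hΩ : IsOpen Ω) {f : R3 → R3} {G : Fin 3 → R3 → R3}
    (hG : ∀ j, HasWeakGradOn Ω (fun x => f x j) (G j)) (hf : ContinuousOn f Ω)
    (hGm : AEStronglyMeasurable (Gmat G) (volume.restrict Ω))
    (hGi : ∫⁻ x in Ω, ‖Gmat G x‖ₑ ≠ ∞) {t : ℝ} (ht : 0 < t) :
    ∀ᵐ a : R3, a ∈ Dt t → (∀ k i, ACV Ω f (Gmat G) (t • ed i) (vt t a k)) ∧
      ∀ k i, ∫⁻ τ in Ioc (0:ℝ) 1, Ω.indicator (fun x => ‖Gmat G x‖ₑ)
        (vt t a k + τ • (t • ed i)) ≠ ∞ := by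
  have h1 := acv_countable hΩ hG hf (fun q : (Fin 3 → ℤ) × Fin 3 => ihom t q.1)
    (fun q => t • ed q.2)
  have hm : AEMeasurable (Ω.indicator fun x => ‖Gmat G x‖ₑ) volume :=
    (aemeasurable_indicator_iff hΩ.measurableSet).2 hGm.enorm
  have h2 : ∀ i, ∀ᵐ a ∂(volume.restrict (Dt t)),
      ske t (Ω.indicator fun x => ‖Gmat G x‖ₑ) i a < ∞ := by
    intro i
    apply ae_lt_top' (aemeasurable_ske ht hm i).restrict
    rw [lint_ske ht hm i, lintegral_indicator hΩ.measurableSet]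
    exact hGi
  have h3 := (ae_restrict_iff' (meas_Dt t)).1 (ae_all_iff.2 h2)
  filter_upwards [h1, h3] with a ha1 ha3 haD
  refine ⟨fun k i => ha1 (k, i), fun k i => ?_⟩
  exact ((ENNReal.le_tsum k).trans_lt (ha3 haD i)).ne

theorem aem_Fin1 {Ω : Set R3} (hΩ : IsOpen Ω) {f : R3 → R3} (hf : ContinuousOn f Ω)
    {D : R3 → R3 →L[ℝ] R3} (hD : AEStronglyMeasurable D (volume.restrict Ω)) (z b : R3)
    (L : R3 →L[ℝ] R3) (s τ : ℝ) :
    MeasurableSet ((Ω ∩ f ⁻¹' par Cb L b ((1 - τ) * s)) \ cel Cb z s) ∧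
      AEMeasurable (Fin1 Ω f D z b L s τ) volume := by
  have hX : MeasurableSet ((Ω ∩ f ⁻¹' par Cb L b ((1 - τ) * s)) \ cel Cb z s) :=
    (meas_pre hΩ.measurableSet hf
      (isCompact_par ref_Cb.cpt L b _).isClosed.measurableSet).diff
      (isClosed_cel z s).measurableSet
  refine ⟨hX, (aemeasurable_indicator_iff hX).2 ?_⟩
  have h1 : AEStronglyMeasurable D
      (volume.restrict ((Ω ∩ f ⁻¹' par Cb L b ((1 - τ) * s)) \ cel Cb z s)) :=
    hD.mono_measure (Measure.restrict_mono (fun x hx => hx.1.1) le_rfl)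
  exact h1.enorm

theorem aem_F2 {p : ℝ} {Ω : Set R3} {D : R3 → R3 →L[ℝ] R3}
    (hD : AEStronglyMeasurable D (volume.restrict Ω)) {z : R3} {s : ℝ} (hsub : cel Cb z s ⊆ Ω)
    (L : R3 →L[ℝ] R3) :
    AEMeasurable ((cel Cb z s).indicator (fun x => ‖D x - L‖ₑ ^ p)) volume := by
  refine (aemeasurable_indicator_iff (isClosed_cel z s).measurableSet).2 ?_
  have h1 : AEStronglyMeasurable D (volume.restrict (cel Cb z s)) :=
    hD.mono_measure (Measure.restrict_mono hsub le_rfl)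
  exact ((h1.sub aestronglyMeasurable_const).enorm).pow_const p

theorem aem_F3 {p : ℝ} {Ω : Set R3} {f : R3 → R3} (hf : ContinuousOn f Ω) {z : R3} {s : ℝ}
    (hsub : cel Cb z s ⊆ Ω) (b : R3) (L : R3 →L[ℝ] R3) :
    AEMeasurable ((cel Cb z s).indicator (fun x => ‖f x - (b + L (x - z))‖ₑ ^ p)) volume := by
  refine (aemeasurable_indicator_iff (isClosed_cel z s).measurableSet).2 ?_
  have h3 : ContinuousOn (fun x => f x - (b + L (x - z))) (cel Cb z s) :=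
    (hf.mono hsub).sub (by fun_prop)
  exact ((h3.aemeasurable (isClosed_cel z s).measurableSet).enorm).pow_const p

/-- **one scale**: perfect cubes for most translates of the fine grid -/
theorem one_scale {p : ℝ} (hp : 1 ≤ p) {Ω : Set R3} (hΩ : IsOpen Ω) {f : R3 → R3}
    {G : Fin 3 → R3 → R3} (hf : ContinuousOn f Ω)
    (hG : ∀ j, HasWeakGradOn Ω (fun x => f x j) (G j))
    (hGm : AEStronglyMeasurable (Gmat G) (volume.restrict Ω))
    (hGi : ∫⁻ x in Ω, ‖Gmat G x‖ₑ ≠ ∞)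
    {κ τ η s t : ℝ} (hκ : 0 < κ) (hτ : 0 < τ) (hτ1 : 2 * τ ≤ 1) (ht : 0 < t) (hts : t ≤ s)
    (hη : 0 < η) (hηκ : η * t ≤ κ * (τ / 2 * s)) {a₀ : R3}
    (Q₀ : Finset (Fin 3 → ℤ)) (b : (Fin 3 → ℤ) → R3) (L : (Fin 3 → ℤ) → R3 →L[ℝ] R3)
    (hsub : ∀ k ∈ Q₀, cel Cb (vt (2 * s) a₀ k) s ⊆ Ω)
    (hL : ∀ k ∈ Q₀, ∀ v, κ * ‖v‖ ≤ ‖L k v‖) (hLu : ∀ k ∈ Q₀, ‖L k‖ ≤ κ⁻¹)
    {m : ℝ≥0∞} (hm0 : m ≠ 0) (hm1 : m ≠ ∞) :
    ∃ B : Set R3, volume B ≤ (3 * ((∑ k ∈ Q₀, ∫⁻ x, Fin1 Ω f (Gmat G) (vt (2 * s) a₀ k) (b k) (L k)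
        s τ x) / ENNReal.ofReal (κ * (τ * s) / (3 * t)) +
      ((∑ k ∈ Q₀, ∫⁻ x in cel Cb (vt (2 * s) a₀ k) s, ‖Gmat G x - L k‖ₑ ^ p) /
        ENNReal.ofReal ((η / 9) ^ p) +
      (∑ k ∈ Q₀, ∫⁻ x in cel Cb (vt (2 * s) a₀ k) s,
        ‖f x - (b k + L k (x - vt (2 * s) a₀ k))‖ₑ ^ p) /
        ENNReal.ofReal ((η / 9 * t) ^ p)))) / m ∧
      ∀ a ∈ Dt t, a ∉ B → ∃ Q ⊆ Q₀, ((Q₀ \ Q).card : ℝ≥0∞) ≤ m ∧
        ∀ k ∈ Q, Perf p Ω f (Gmat G) κ τ η t s a (vt (2 * s) a₀ k) (b k) (L k) := by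
  classical
  have hs : 0 < s := ht.trans_le hts
  -- the functionals
  set F : (Fin 3 → ℤ) × Fin 3 → R3 → ℝ≥0∞ := fun q =>
    match q.2 with
    | 0 => Fin1 Ω f (Gmat G) (vt (2 * s) a₀ q.1) (b q.1) (L q.1) s τ
    | 1 => (cel Cb (vt (2 * s) a₀ q.1) s).indicator (fun x => ‖Gmat G x - L q.1‖ₑ ^ p)
    | 2 => (cel Cb (vt (2 * s) a₀ q.1) s).indicator
        (fun x => ‖f x - (b q.1 + L q.1 (x - vt (2 * s) a₀ q.1))‖ₑ ^ p) with hFdef
  set c : (Fin 3 → ℤ) × Fin 3 → ℝ≥0∞ := fun q =>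
    match q.2 with
    | 0 => ENNReal.ofReal (κ * (τ * s) / (3 * t))
    | 1 => ENNReal.ofReal ((η / 9) ^ p)
    | 2 => ENNReal.ofReal ((η / 9 * t) ^ p) with hcdef
  set J : Finset ((Fin 3 → ℤ) × Fin 3) := Q₀ ×ˢ Finset.univ with hJ
  have hF : ∀ j ∈ J, AEMeasurable (F j) volume := by
    rintro ⟨k, l⟩ hj
    have hk : k ∈ Q₀ := (Finset.mem_product.1 hj).1
    fin_cases l
    · exact (aem_Fin1 hΩ hf hGm _ _ _ _ _).2
    · exact aem_F2 hGm (hsub k hk) _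
    · exact aem_F3 hf (hsub k hk) _ _
  have hc0 : ∀ j ∈ J, c j ≠ 0 := by
    rintro ⟨k, l⟩ -
    fin_cases l
    · show ENNReal.ofReal (κ * (τ * s) / (3 * t)) ≠ 0
      rw [Ne, ENNReal.ofReal_eq_zero, not_le]; positivity
    · show ENNReal.ofReal ((η / 9) ^ p) ≠ 0
      rw [Ne, ENNReal.ofReal_eq_zero, not_le]; positivity
    · show ENNReal.ofReal ((η / 9 * t) ^ p) ≠ 0
      rw [Ne, ENNReal.ofReal_eq_zero, not_le]; positivity
  have hc1 : ∀ j ∈ J, c j ≠ ∞ := by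
    rintro ⟨k, l⟩ -
    fin_cases l
    · exact ENNReal.ofReal_ne_top
    · exact ENNReal.ofReal_ne_top
    · exact ENNReal.ofReal_ne_top
  obtain ⟨B, hB1, hB2⟩ := few_bad ht J hF hc0 hc1 hm0 hm1
  have hae := ae_good hΩ hG hf hGm hGi ht
  set N : Set R3 := {a | ¬ (a ∈ Dt t → (∀ k i, ACV Ω f (Gmat G) (t • ed i) (vt t a k)) ∧
      ∀ k i, ∫⁻ τ in Ioc (0:ℝ) 1, Ω.indicator (fun x => ‖Gmat G x‖ₑ)
        (vt t a k + τ • (t • ed i)) ≠ ∞)} with hN
  have hN0 : volume N = 0 := hae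
  refine ⟨B ∪ N, ?_, ?_⟩
  · refine (measure_union_le _ _).trans ?_
    rw [hN0, add_zero]
    refine hB1.trans (le_of_eq ?_)
    congr 2
    rw [hJ, Finset.sum_product]
    have h1 : ∀ k ∈ Q₀, ∑ l : Fin 3, (∫⁻ x, F (k, l) x) / c (k, l) =
        (∫⁻ x, Fin1 Ω f (Gmat G) (vt (2 * s) a₀ k) (b k) (L k) s τ x) /
          ENNReal.ofReal (κ * (τ * s) / (3 * t)) +
        ((∫⁻ x in cel Cb (vt (2 * s) a₀ k) s, ‖Gmat G x - L k‖ₑ ^ p) /
          ENNReal.ofReal ((η / 9) ^ p) +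
        (∫⁻ x in cel Cb (vt (2 * s) a₀ k) s,
          ‖f x - (b k + L k (x - vt (2 * s) a₀ k))‖ₑ ^ p) / ENNReal.ofReal ((η / 9 * t) ^ p)) := by
      intro k _
      rw [Fin.sum_univ_three, add_assoc]
      congr 2
      · congr 1
        exact lintegral_indicator (isClosed_cel _ _).measurableSet _
      · congr 1
        exact lintegral_indicator (isClosed_cel _ _).measurableSet _
    rw [Finset.sum_congr rfl h1]
    simp only [Finset.sum_add_distrib, ENNReal.div_eq_inv_mul, Finset.mul_sum]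
  · intro a haD haB
    rw [mem_union, not_or] at haB
    have hgood := (not_not.1 haB.2) haD
    have hcard := hB2 a haD haB.1
    set Q := Q₀.filter fun k => ∀ l i, ske t (F (k, l)) i a < c (k, l) with hQ
    refine ⟨Q, Finset.filter_subset _ _, ?_, ?_⟩
    · refine le_trans ?_ hcard
      have h1 : Q₀ \ Q ⊆ (J.filter fun j => ∃ i, c j ≤ ske t (F j) i a).image Prod.fst := by
        intro k hk
        rw [Finset.mem_sdiff, hQ, Finset.mem_filter] at hk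
        have h2 : ∃ l i, c (k, l) ≤ ske t (F (k, l)) i a := by
          by_contra h
          push Not at h
          exact hk.2 ⟨hk.1, h⟩
        obtain ⟨l, i, hi⟩ := h2
        exact Finset.mem_image.2 ⟨(k, l), Finset.mem_filter.2
          ⟨Finset.mem_product.2 ⟨hk.1, Finset.mem_univ _⟩, i, hi⟩, rfl⟩
      exact_mod_cast (Finset.card_le_card h1).trans Finset.card_image_le
    · intro k hk
      obtain ⟨hk0, hk1⟩ := Finset.mem_filter.1 hk
      exact perf_of hp hf hκ hτ hτ1 ht hts hη hηκ (hL k hk0) (hLu k hk0) (hsub k hk0)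
        hgood.1 hgood.2 (fun i => hk1 0 i) (fun i => (hk1 1 i).le) (fun i => (hk1 2 i).le)

end

end Crest.Agent.R96.Coarse_538
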