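/-
helper538, row 96, leaf COARSE, part 20: **coarse selection**: perfect cubes for most translates of
the fine grid fill `{det G ≠ 0}`.
-/
import Mathlib
import Crest.Agent.R96.Intr19_538

set_option autoImplicit false
set_option linter.unusedSectionVars false
set_option maxHeartbeats 400000

open MeasureTheory Set Filter Metric Module
open scoped ENNReal NNReal Topology

namespace Crest.Agent.R96.Coarse_538

open Crest.AnalysisR.VecCalc3 Crest.AnalysisR.Sobolev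
open Crest.Agent.R96.Acl_392 Crest.Agent.R96.Lu_538 Crest.Agent.R96.Intr_538
open Crest.Agent.R96.Poi_392

noncomputable section

theorem Perf.mono {p : ℝ} (hp : 0 < p) {Ω : Set R3} {f : R3 → R3} {D : R3 → R3 →L[ℝ] R3}
    {κ τ η η' t s : ℝ} {a z b : R3} {L : R3 →L[ℝ] R3} (ht : 0 ≤ t) (hη' : 0 ≤ η')
    (hηη : η' ≤ η) (h : Perf p Ω f D κ τ η' t s a z b L) : Perf p Ω f D κ τ η t s a z b L :=
  ⟨h.sub, h.low, h.up, fun x hx hxq => (h.near x hx hxq).trans (by gcongr), fun k i =>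
    (h.edgeD k i).trans (ENNReal.ofReal_le_ofReal (Real.rpow_le_rpow hη' hηη hp.le)), h.noint⟩

theorem lint_Gmat {p : ℝ} (hp : 1 ≤ p) {Ω : Set R3} (hΩf : volume Ω ≠ ∞)
    {G : Fin 3 → R3 → R3}
    (hGp : ∀ j, MemLp (G j) (ENNReal.ofReal p) (volume.restrict Ω)) :
    ∫⁻ x in Ω, ‖Gmat G x‖ₑ ≠ ∞ := by
  have hfin : IsFiniteMeasure (volume.restrict Ω) := ⟨by
    rw [Measure.restrict_apply_univ]; exact lt_top_iff_ne_top.2 hΩf⟩
  have h1 : MemLp (Gmat G) (ENNReal.ofReal p) (volume.restrict Ω) := memLp_Gmat hGp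
  have h2 : 1 ≤ ENNReal.ofReal p := by
    rw [← ENNReal.ofReal_one]; exact ENNReal.ofReal_le_ofReal hp
  have h3 : Integrable (Gmat G) (volume.restrict Ω) := h1.integrable h2
  exact h3.2.ne

/-- arithmetic of the bad set -/
theorem arith_bad {p : ℝ} {X1 X2 X3 : ℝ≥0∞} {κ τ η s N θ δ ε₁ δ₁ : ℝ} (hκ : 0 < κ)
    (hτ : 0 < τ) (hη : 0 < η) (hs : 0 < s) (hN : 0 < N) (hδ : 0 < δ) (hδ₁ : 0 < δ₁)
    (hε₁ : 0 < ε₁)
    (h1 : X1 ≤ ENNReal.ofReal ε₁) (h2 : X2 ≤ ENNReal.ofReal δ₁)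
    (h3 : X3 ≤ ENNReal.ofReal (δ₁ * s ^ p))
    (hε : ε₁ * (6 / (κ * τ * N)) ≤ θ * δ / (6 * N ^ 3))
    (hδd : δ₁ * ((1 + (N / 2) ^ p) / (η / 9) ^ p) ≤ θ * δ / (6 * N ^ 3)) :
    (3 * (X1 / ENNReal.ofReal (κ * (τ * s) / (3 * (2 * s / N))) +
      (X2 / ENNReal.ofReal ((η / 9) ^ p) + X3 / ENNReal.ofReal ((η / 9 * (2 * s / N)) ^ p)))) /
      ENNReal.ofReal (δ / (2 * s) ^ 3) ≤ ENNReal.ofReal (θ * (2 * s / N) ^ 3) := by
  have hA : X1 / ENNReal.ofReal (κ * (τ * s) / (3 * (2 * s / N))) ≤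
      ENNReal.ofReal (ε₁ * (6 / (κ * τ * N))) := by
    calc X1 / ENNReal.ofReal (κ * (τ * s) / (3 * (2 * s / N)))
        ≤ ENNReal.ofReal ε₁ / ENNReal.ofReal (κ * (τ * s) / (3 * (2 * s / N))) := by gcongr
      _ = ENNReal.ofReal (ε₁ * (6 / (κ * τ * N))) := by
          rw [← ENNReal.ofReal_div_of_pos (by positivity)]
          congr 1
          field_simp
          norm_num
  have hB : X2 / ENNReal.ofReal ((η / 9) ^ p) ≤ ENNReal.ofReal (δ₁ / (η / 9) ^ p) := by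
    calc X2 / ENNReal.ofReal ((η / 9) ^ p) ≤ ENNReal.ofReal δ₁ / ENNReal.ofReal ((η / 9) ^ p) := by
          gcongr
      _ = _ := by rw [← ENNReal.ofReal_div_of_pos (by positivity)]
  have hC : X3 / ENNReal.ofReal ((η / 9 * (2 * s / N)) ^ p) ≤
      ENNReal.ofReal (δ₁ * (N / 2) ^ p / (η / 9) ^ p) := by
    calc X3 / ENNReal.ofReal ((η / 9 * (2 * s / N)) ^ p)
        ≤ ENNReal.ofReal (δ₁ * s ^ p) / ENNReal.ofReal ((η / 9 * (2 * s / N)) ^ p) := by gcongr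
      _ = _ := by
          rw [← ENNReal.ofReal_div_of_pos (by positivity)]
          congr 1
          have h4 : s = (2 * s / N) * (N / 2) := by field_simp
          have h5 : s ^ p = (2 * s / N) ^ p * (N / 2) ^ p := by
            rw [← Real.mul_rpow (by positivity) (by positivity), ← h4]
          rw [h5, Real.mul_rpow (by positivity) (by positivity)]
          have h6 : 0 < (2 * s / N) ^ p := by positivity
          field_simp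
  calc (3 * (X1 / ENNReal.ofReal (κ * (τ * s) / (3 * (2 * s / N))) +
      (X2 / ENNReal.ofReal ((η / 9) ^ p) + X3 / ENNReal.ofReal ((η / 9 * (2 * s / N)) ^ p)))) /
      ENNReal.ofReal (δ / (2 * s) ^ 3)
      ≤ (3 * (ENNReal.ofReal (ε₁ * (6 / (κ * τ * N))) + (ENNReal.ofReal (δ₁ / (η / 9) ^ p) +
          ENNReal.ofReal (δ₁ * (N / 2) ^ p / (η / 9) ^ p)))) /
        ENNReal.ofReal (δ / (2 * s) ^ 3) := by gcongr
    _ = ENNReal.ofReal (3 * (ε₁ * (6 / (κ * τ * N)) + (δ₁ / (η / 9) ^ p +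
          δ₁ * (N / 2) ^ p / (η / 9) ^ p)) / (δ / (2 * s) ^ 3)) := by
        have h33 : (3:ℝ≥0∞) = ENNReal.ofReal 3 := by simp
        rw [← ENNReal.ofReal_add (by positivity) (by positivity),
          ← ENNReal.ofReal_add (by positivity) (by positivity), h33,
          ← ENNReal.ofReal_mul (by norm_num)]
        exact (ENNReal.ofReal_div_of_pos (by positivity)).symm
    _ ≤ ENNReal.ofReal (θ * (2 * s / N) ^ 3) := by
        apply ENNReal.ofReal_le_ofReal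
        rw [div_le_iff₀ (by positivity)]
        have h7 : δ₁ / (η / 9) ^ p + δ₁ * (N / 2) ^ p / (η / 9) ^ p =
            δ₁ * ((1 + (N / 2) ^ p) / (η / 9) ^ p) := by ring
        rw [h7]
        calc 3 * (ε₁ * (6 / (κ * τ * N)) + δ₁ * ((1 + (N / 2) ^ p) / (η / 9) ^ p))
            ≤ 3 * (θ * δ / (6 * N ^ 3) + θ * δ / (6 * N ^ 3)) := by gcongr
          _ = θ * (2 * s / N) ^ 3 * (δ / (2 * s) ^ 3) := by
              field_simp
              ring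

/-- **COARSE SELECTION.** -/
theorem coarse {p : ℝ} (hp : 1 ≤ p) {Ω Λ : Set R3} (hΩ : IsOpen Ω)
    (hΩb : Bornology.IsBounded Ω) (hΛ : IsOpen Λ) (hΛf : volume Λ ≠ ∞) {f : R3 → R3}
    {G : Fin 3 → R3 → R3} (hinj : InjOn f Ω)
    (hf : ContinuousOn f Ω) (hfΛ : MapsTo f Ω Λ)
    (hG : ∀ j, HasWeakGradOn Ω (fun x => f x j) (G j))
    (hGp : ∀ j, MemLp (G j) (ENNReal.ofReal p) (volume.restrict Ω)) {ε : ℝ} (hε : 0 < ε) :
    ∃ κ : ℝ, 0 < κ ∧ κ ≤ 1 ∧ ∃ K ⊆ Ω, IsCompact K ∧ ∃ K' ⊆ Λ, IsCompact K' ∧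
      ∀ N : ℕ, 2 ≤ N → ∀ τ η θ δ : ℝ, 0 < τ → 2 * τ ≤ 1 → 0 < η → 0 < θ → 0 < δ →
        ∃ s₀ : ℝ, 0 < s₀ ∧ ∀ s : ℝ, 0 < s → s < s₀ → ∀ a₀ : R3,
        ∃ (Q₀ : Finset (Fin 3 → ℤ)) (b : (Fin 3 → ℤ) → R3) (L : (Fin 3 → ℤ) → R3 →L[ℝ] R3),
          (∀ k ∈ Q₀, cel Cb (vt (2 * s) a₀ k) s ⊆ K) ∧ (∀ k ∈ Q₀, par Cb (L k) (b k) s ⊆ K') ∧
          (∀ k ∈ Q₀, ∀ l ∈ Q₀, k ≠ l →
            Disjoint (par Cb (L k) (b k) ((1 - τ) * s)) (par Cb (L l) (b l) s)) ∧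
          volume ((Ω ∩ {x | (Gmat G x).det ≠ 0}) \ ⋃ k ∈ Q₀, cel Cb (vt (2 * s) a₀ k) s) ≤
            ENNReal.ofReal ε ∧
          ∃ B : Set R3, volume B ≤ ENNReal.ofReal (θ * (2 * s / N) ^ 3) ∧
            ∀ a ∈ Dt (2 * s / N), a ∉ B → ∃ Q ⊆ Q₀, ((Q₀ \ Q).card : ℝ) * (2 * s) ^ 3 ≤ δ ∧
              ∀ k ∈ Q, Perf p Ω f (Gmat G) κ τ η (2 * s / N) s a (vt (2 * s) a₀ k) (b k) (L k) := by
  classical
  have hp0 : 0 < p := by linarith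
  have hΩf : volume Ω ≠ ∞ := hΩb.measure_lt_top.ne
  have hGm : AEStronglyMeasurable (Gmat G) (volume.restrict Ω) := aesm_Gmat fun j => (hGp j).1
  have hGi := lint_Gmat hp hΩf hGp
  obtain ⟨κ, hκ, hκ1, K, hK, hKc, K', hK', hK'c, Hgood⟩ :=
    good_cubes hp hΩ hΩb hΛ hf hfΛ hG hGp (half_pos hε)
  refine ⟨κ, hκ, hκ1, K, hK, hKc, K', hK', hK'c, ?_⟩
  intro N hN τ η θ δ hτ hτ1 hη hθ hδ
  have hN0 : (0:ℝ) < N := by
    have : 0 < N := by omega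
    exact_mod_cast this
  have hN2 : (2:ℝ) ≤ N := by exact_mod_cast hN
  -- the measure
  set mm : Measure R3 := (volume.restrict Ω).withDensity (fun x => ‖Gmat G x‖ₑ) with hmm
  have hmmf : IsFiniteMeasure mm := isFiniteMeasure_withDensity hGi
  have hmmac : mm ≪ volume :=
    (withDensity_absolutelyContinuous _ _).trans Measure.absolutelyContinuous_restrict
  obtain ⟨sL, hLus⟩ := exists_lus_R3 hΩ hG hf
  -- tolerances
  obtain ⟨η', hη'0, hη'η, hη'κ⟩ : ∃ η' : ℝ, 0 < η' ∧ η' ≤ η ∧ η' ≤ κ * τ * N / 4 :=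
    ⟨min η (κ * τ * N / 4), by positivity, min_le_left _ _, min_le_right _ _⟩
  obtain ⟨ε₁, hε₁0, hε₁a, hε₁b⟩ : ∃ ε₁ : ℝ, 0 < ε₁ ∧
      ε₁ * (6 / (κ * τ * N)) ≤ θ * δ / (6 * N ^ 3) ∧ 8 * ε₁ ≤ ε / 2 := by
    refine ⟨min (θ * δ / (6 * N ^ 3) / (6 / (κ * τ * N))) (ε / 16), by positivity, ?_, ?_⟩
    · rw [← le_div_iff₀ (by positivity)]
      exact min_le_left _ _
    · have := min_le_right (θ * δ / (6 * (N:ℝ) ^ 3) / (6 / (κ * τ * N))) (ε / 16)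
      linarith
  obtain ⟨δ₁, hδ₁0, hδ₁a⟩ : ∃ δ₁ : ℝ, 0 < δ₁ ∧
      δ₁ * ((1 + ((N:ℝ) / 2) ^ p) / (η' / 9) ^ p) ≤ θ * δ / (6 * N ^ 3) := by
    refine ⟨θ * δ / (6 * N ^ 3) / ((1 + ((N:ℝ) / 2) ^ p) / (η' / 9) ^ p), by positivity, ?_⟩
    rw [← le_div_iff₀ (by positivity)]
  obtain ⟨e₀, he₀, r₀, hr₀, Hintr⟩ := intrSum.{0} hΩ.measurableSet hLus hinj hf hGm
    hΛ.measurableSet hΛf hfΛ hmmac (a := 1) (R := 2) one_pos (by norm_num) hκ hτ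
    (by linarith : τ ≤ 1) (T := 1) le_rfl hε₁0
  obtain ⟨s₁, hs₁, Hs⟩ := Hgood e₀ he₀ δ₁ hδ₁0
  refine ⟨min s₁ r₀, lt_min hs₁ hr₀, ?_⟩
  intro s hs hss a₀
  have hss1 : s < s₁ := hss.trans_le (min_le_left _ _)
  have hss2 : s < r₀ := hss.trans_le (min_le_right _ _)
  obtain ⟨Q, b, L, S, hQgc, hQK, hQK', hQD, hQF, hQl⟩ := Hs s hs hss1 a₀
  obtain ⟨hdisj, Q₀, hQ₀Q, hQ₀s, hQ₀m⟩ := Hintr Q (fun _ => Cb) (fun _ => e₀) (fun _ => s)
    (fun k => vt (2 * s) a₀ k) b L S (fun _ _ => ref_Cb) (fun _ _ => Cb_sub) (fun _ _ => he₀.le)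
    (fun _ _ => le_rfl) (fun _ _ => hs) (fun _ _ => hss2) (fun _ _ _ _ => by rw [one_mul])
    hQgc (fun k _ l _ hkl => cel_null hs a₀ hkl)
  set t := 2 * s / (N:ℝ) with ht
  have ht0 : 0 < t := by positivity
  have hts : t ≤ s := by
    rw [ht, div_le_iff₀ hN0]
    nlinarith
  have hηκ : η' * t ≤ κ * (τ / 2 * s) := by
    calc η' * t ≤ κ * τ * N / 4 * t := by gcongr
      _ = κ * (τ / 2 * s) := by rw [ht]; field_simp; norm_num
  refine ⟨Q₀, b, L, fun k hk => hQK k (hQ₀Q hk), fun k hk => hQK' k (hQ₀Q hk),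
    fun k hk l hl hkl => hdisj k (hQ₀Q hk) l (hQ₀Q hl) hkl, ?_, ?_⟩
  · -- leftover
    have h1 : (Ω ∩ {x | (Gmat G x).det ≠ 0}) \ ⋃ k ∈ Q₀, cel Cb (vt (2 * s) a₀ k) s ⊆
        ((Ω ∩ {x | (Gmat G x).det ≠ 0}) \ ⋃ k ∈ Q, cel Cb (vt (2 * s) a₀ k) s) ∪
          ⋃ k ∈ Q \ Q₀, cel Cb (vt (2 * s) a₀ k) s := by
      rintro x ⟨hx1, hx2⟩
      by_cases hxQ : x ∈ ⋃ k ∈ Q, cel Cb (vt (2 * s) a₀ k) s
      · right
        obtain ⟨k, hk, hxk⟩ := mem_iUnion₂.1 hxQ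
        refine mem_iUnion₂.2 ⟨k, Finset.mem_sdiff.2 ⟨hk, fun hk0 => ?_⟩, hxk⟩
        exact hx2 (mem_iUnion₂.2 ⟨k, hk0, hxk⟩)
      · left; exact ⟨hx1, hxQ⟩
    have h2 := hQ₀s (Q \ Q₀) Finset.sdiff_subset Finset.disjoint_sdiff
    rw [fr3, Finset.sum_const, nsmul_eq_mul] at h2
    have h3 : volume (⋃ k ∈ Q \ Q₀, cel Cb (vt (2 * s) a₀ k) s) ≤ ENNReal.ofReal (ε / 2) := by
      calc volume (⋃ k ∈ Q \ Q₀, cel Cb (vt (2 * s) a₀ k) s)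
          ≤ ∑ k ∈ Q \ Q₀, volume (cel Cb (vt (2 * s) a₀ k) s) := measure_biUnion_finset_le _ _
        _ = ENNReal.ofReal ((Q \ Q₀).card * (2 * s) ^ 3) := by
            simp only [vol_cel hs, Finset.sum_const, nsmul_eq_mul]
            rw [ENNReal.ofReal_mul (Nat.cast_nonneg _), ENNReal.ofReal_natCast]
        _ ≤ ENNReal.ofReal (ε / 2) := by
            apply ENNReal.ofReal_le_ofReal
            calc ((Q \ Q₀).card : ℝ) * (2 * s) ^ 3 = 8 * ((Q \ Q₀).card * s ^ 3) := by ring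
              _ ≤ 8 * ε₁ := by gcongr
              _ ≤ ε / 2 := hε₁b
    calc _ ≤ volume ((Ω ∩ {x | (Gmat G x).det ≠ 0}) \ ⋃ k ∈ Q, cel Cb (vt (2 * s) a₀ k) s) +
          volume (⋃ k ∈ Q \ Q₀, cel Cb (vt (2 * s) a₀ k) s) :=
          (measure_mono h1).trans (measure_union_le _ _)
      _ ≤ ENNReal.ofReal (ε / 2) + ENNReal.ofReal (ε / 2) := add_le_add hQl h3
      _ = ENNReal.ofReal ε := by
          rw [← ENNReal.ofReal_add (by positivity) (by positivity)]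
          congr 1; ring
  · -- translates
    have hm0 : ENNReal.ofReal (δ / (2 * s) ^ 3) ≠ 0 := by
      rw [Ne, ENNReal.ofReal_eq_zero, not_le]; positivity
    obtain ⟨B, hB, hB'⟩ := one_scale hp hΩ hf hG hGm hGi hκ hτ hτ1 ht0 hts hη'0 hηκ
      (a₀ := a₀) Q₀ b L (fun k hk => (hQgc k (hQ₀Q hk)).sub) (fun k hk => (hQgc k (hQ₀Q hk)).low)
      (fun k hk => (hQgc k (hQ₀Q hk)).up) hm0 ENNReal.ofReal_ne_top
    refine ⟨B, ?_, ?_⟩
    · refine hB.trans ?_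
      refine arith_bad hκ hτ hη'0 hs hN0 hδ hδ₁0 hε₁0 ?_ ?_ ?_ hε₁a hδ₁a
      · refine le_trans (le_of_eq ?_) hQ₀m
        apply Finset.sum_congr rfl
        intro k _
        obtain ⟨hX, -⟩ := aem_Fin1 hΩ hf hGm (vt (2 * s) a₀ k) (b k) (L k) s τ
        rw [hmm, withDensity_apply _ hX, Measure.restrict_restrict hX]
        have h1 : ((Ω ∩ f ⁻¹' par Cb (L k) (b k) ((1 - τ) * s)) \ cel Cb (vt (2 * s) a₀ k) s) ∩ Ω =
            (Ω ∩ f ⁻¹' par Cb (L k) (b k) ((1 - τ) * s)) \ cel Cb (vt (2 * s) a₀ k) s :=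
          inter_eq_left.2 fun x hx => hx.1.1
        rw [h1]
        exact lintegral_indicator hX _
      · exact (Finset.sum_le_sum_of_subset hQ₀Q).trans hQD
      · exact (Finset.sum_le_sum_of_subset hQ₀Q).trans hQF
    · intro a haD haB
      obtain ⟨Q', hQ'1, hQ'2, hQ'3⟩ := hB' a haD haB
      refine ⟨Q', hQ'1, ?_, fun k hk => (hQ'3 k hk).mono hp0 ht0.le hη'0.le hη'η⟩
      have h1 : ((Q₀ \ Q').card : ℝ≥0∞) = ENNReal.ofReal ((Q₀ \ Q').card : ℝ) := by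
        rw [ENNReal.ofReal_natCast]
      rw [h1] at hQ'2
      have h2 := (ENNReal.ofReal_le_ofReal_iff (by positivity)).1 hQ'2
      rwa [le_div_iff₀ (by positivity)] at h2

end

end Crest.Agent.R96.Coarse_538
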