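/-
helper538, row 96, leaf COARSE-G, part 21: arbitrary families of segments, rigidly translated:
Tonelli from a density bound, Markov, absolute continuity.
-/
import Mathlib
import Crest.Agent.R96.Intr20_538

set_option autoImplicit false
set_option linter.unusedSectionVars false
set_option maxHeartbeats 400000

open MeasureTheory Set Filter Metric Module
open scoped ENNReal NNReal Topology

namespace Crest.Agent.R96.Coarse_538

open Crest.AnalysisR.VecCalc3 Crest.AnalysisR.Sobolev
open Crest.Agent.R96.Acl_392 Crest.Agent.R96.Lu_538 Crest.Agent.R96.Intr_538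
open Crest.Agent.R96.Poi_392

noncomputable section

/-- the segment `e` of the family, translated by `a` -/
def seg {ι : Type*} (x v : ι → R3) (a : R3) (e : ι) : Set R3 :=
  (fun σ : ℝ => a + x e + σ • v e) '' Icc 0 1

/-- sum over all segments of the translated family -/
def skf {ι : Type*} (x v : ι → R3) (F : R3 → ℝ≥0∞) (a : R3) : ℝ≥0∞ :=
  ∑' e, ∫⁻ σ in Ioc (0:ℝ) 1, F (a + x e + σ • v e)

theorem skf_eq {ι : Type*} (x v : ι → R3) (F : R3 → ℝ≥0∞) (a : R3) (e : ι) :
    ∫⁻ σ in Ioc (0:ℝ) 1, F (a + x e + σ • v e) =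
      Grid_392.pc (volume.restrict (Ioc (0:ℝ) 1)) (fun σ : ℝ => x e + σ • v e) F a := by
  simp only [Grid_392.pc, add_assoc]

theorem aemeasurable_skf {ι : Type*} [Countable ι] (x v : ι → R3) {F : R3 → ℝ≥0∞}
    (hF : AEMeasurable F volume) : AEMeasurable (skf x v F) volume := by
  have h1 : ∀ e, AEMeasurable (fun a => ∫⁻ σ in Ioc (0:ℝ) 1, F (a + x e + σ • v e)) volume := by
    intro e
    simp only [skf_eq]
    exact Grid_392.aemeasurable_pc (ν := volume.restrict (Ioc (0:ℝ) 1))
      (γ := fun σ : ℝ => x e + σ • v e) (by fun_prop) hF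
  exact AEMeasurable.tsum h1

/-- **density** of a family of segments with respect to the set `D` of translates -/
def Dens {ι : Type*} (D : Set R3) (n : ℝ≥0∞) (x v : ι → R3) : Prop :=
  ∀ F : R3 → ℝ≥0∞, AEMeasurable F volume → ∫⁻ a in D, skf x v F a ≤ n * ∫⁻ y, F y

/-- the density of one segment -/
theorem tonelli_seg {D : Set R3} (hD : MeasurableSet D) (x v : R3) {F : R3 → ℝ≥0∞}
    (hF : AEMeasurable F volume) :
    ∫⁻ a in D, ∫⁻ σ in Ioc (0:ℝ) 1, F (a + x + σ • v) =
      ∫⁻ y, F y * ∫⁻ σ in Ioc (0:ℝ) 1, D.indicator 1 (y - (x + σ • v)) := by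
  set ν := (volume : Measure ℝ).restrict (Ioc (0:ℝ) 1) with hν
  have hγ : Measurable (fun σ : ℝ => x + σ • v) := by fun_prop
  have hF1 : AEMeasurable (fun p : ℝ × R3 => F (p.2 + (x + p.1 • v))) (ν.prod volume) :=
    Grid_392.aemeasurable_shear (ν := ν) (μ := volume) hγ hF
  have hF2 : AEMeasurable (fun p : R3 × ℝ => F (p.1 + (x + p.2 • v))) (volume.prod ν) :=
    hF1.prod_swap
  have hD1 : Measurable (fun p : R3 × ℝ => D.indicator (1 : R3 → ℝ≥0∞) p.1) :=
    (measurable_one.indicator hD).comp measurable_fst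
  calc ∫⁻ a in D, ∫⁻ σ in Ioc (0:ℝ) 1, F (a + x + σ • v)
      = ∫⁻ a, ∫⁻ σ, D.indicator (1 : R3 → ℝ≥0∞) a * F (a + (x + σ • v)) ∂ν := by
        rw [← lintegral_indicator hD]
        apply lintegral_congr
        intro a
        by_cases ha : a ∈ D
        · simp only [indicator_of_mem ha, Pi.one_apply, one_mul, add_assoc]
          rfl
        · simp [indicator_of_notMem ha]
    _ = ∫⁻ σ, (∫⁻ a, D.indicator (1 : R3 → ℝ≥0∞) a * F (a + (x + σ • v))) ∂ν := by
        apply lintegral_lintegral_swap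
        exact hD1.aemeasurable.mul hF2
    _ = ∫⁻ σ, (∫⁻ y, D.indicator (1 : R3 → ℝ≥0∞) (y - (x + σ • v)) * F y) ∂ν := by
        apply lintegral_congr
        intro σ
        rw [← lintegral_add_right_eq_self
          (fun y => D.indicator (1 : R3 → ℝ≥0∞) (y - (x + σ • v)) * F y) (x + σ • v)]
        simp only [add_sub_cancel_right]
    _ = ∫⁻ y, ∫⁻ σ, D.indicator (1 : R3 → ℝ≥0∞) (y - (x + σ • v)) * F y ∂ν := by
        apply lintegral_lintegral_swap
        have h1 : Measurable (fun p : ℝ × R3 => D.indicator (1 : R3 → ℝ≥0∞)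
            (p.2 - (x + p.1 • v))) :=
          (measurable_one.indicator hD).comp (by fun_prop)
        exact h1.aemeasurable.mul (hF.comp_quasiMeasurePreserving
          Measure.quasiMeasurePreserving_snd)
    _ = ∫⁻ y, F y * ∫⁻ σ in Ioc (0:ℝ) 1, D.indicator 1 (y - (x + σ • v)) := by
        apply lintegral_congr
        intro y
        rw [lintegral_mul_const'']
        · rw [mul_comm]
        · have h1 : Measurable (fun σ : ℝ => D.indicator (1 : R3 → ℝ≥0∞) (y - (x + σ • v))) :=
            (measurable_one.indicator hD).comp (by fun_prop)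
          exact h1.aemeasurable

/-- **criterion**: every point lies in at most `n` of the sets `x e + [0,1] v e + D`. -/
theorem dens_of {ι : Type*} [Countable ι] {D : Set R3} (hD : MeasurableSet D) {n : ℕ}
    {x v : ι → R3}
    (h : ∀ y : R3, {e | ∃ σ ∈ Icc (0:ℝ) 1, y - (x e + σ • v e) ∈ D}.encard ≤ n) :
    Dens D n x v := by
  intro F hF
  have h1 : ∀ e, AEMeasurable (fun a => ∫⁻ σ in Ioc (0:ℝ) 1, F (a + x e + σ • v e))
      (volume.restrict D) := by
    intro e
    simp only [skf_eq]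
    exact (Grid_392.aemeasurable_pc (ν := volume.restrict (Ioc (0:ℝ) 1))
      (γ := fun σ : ℝ => x e + σ • v e) (by fun_prop) hF).restrict
  simp only [skf]
  rw [lintegral_tsum h1]
  simp only [tonelli_seg hD _ _ hF]
  have hm : ∀ e, AEMeasurable (fun y => F y * ∫⁻ σ in Ioc (0:ℝ) 1,
      D.indicator (1 : R3 → ℝ≥0∞) (y - (x e + σ • v e))) volume := by
    intro e
    apply hF.mul
    have h2 : Measurable (fun p : R3 × ℝ => D.indicator (1 : R3 → ℝ≥0∞)
        (p.1 - (x e + p.2 • v e))) :=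
      (measurable_one.indicator hD).comp (by fun_prop)
    exact (h2.lintegral_prod_right').aemeasurable
  rw [← lintegral_tsum hm, ← lintegral_const_mul'' _ hF]
  apply lintegral_mono
  intro y
  simp only
  rw [ENNReal.tsum_mul_left, mul_comm]
  gcongr
  classical
  calc ∑' e, ∫⁻ σ in Ioc (0:ℝ) 1, D.indicator (1 : R3 → ℝ≥0∞) (y - (x e + σ • v e))
      ≤ ∑' e, {e | ∃ σ ∈ Icc (0:ℝ) 1, y - (x e + σ • v e) ∈ D}.indicator (1 : ι → ℝ≥0∞) e := by
        apply ENNReal.tsum_le_tsum
        intro e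
        by_cases he : ∃ σ ∈ Icc (0:ℝ) 1, y - (x e + σ • v e) ∈ D
        · have he' : e ∈ {e | ∃ σ ∈ Icc (0:ℝ) 1, y - (x e + σ • v e) ∈ D} := he
          rw [indicator_of_mem he']
          calc ∫⁻ σ in Ioc (0:ℝ) 1, D.indicator (1 : R3 → ℝ≥0∞) (y - (x e + σ • v e))
              ≤ ∫⁻ σ in Ioc (0:ℝ) 1, 1 := by
                apply lintegral_mono
                intro σ
                exact indicator_le_self' (fun _ _ => zero_le) _
            _ = (1 : ι → ℝ≥0∞) e := by simp
        · have he' : e ∉ {e | ∃ σ ∈ Icc (0:ℝ) 1, y - (x e + σ • v e) ∈ D} := he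
          rw [indicator_of_notMem he']
          rw [nonpos_iff_eq_zero]
          rw [setLIntegral_congr_fun (g := fun _ => 0) measurableSet_Ioc]
          · simp
          · intro σ hσ
            simp only
            rw [indicator_of_notMem]
            intro hm
            exact he ⟨σ, ⟨hσ.1.le, hσ.2⟩, hm⟩
    _ = ({e | ∃ σ ∈ Icc (0:ℝ) 1, y - (x e + σ • v e) ∈ D}.encard : ℝ≥0∞) := by
        rw [← tsum_subtype, Pi.one_def, ENNReal.tsum_set_one]
    _ ≤ ((n : ℕ∞) : ℝ≥0∞) := by
        exact_mod_cast h y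
    _ = (n : ℝ≥0∞) := by simp

end

end Crest.Agent.R96.Coarse_538
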