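/-
helper538, row 96, leaf COARSE-G, part 22: perfect cubes for an arbitrary family of segments.
-/
import Mathlib
import Crest.Agent.R96.Intr21_538

set_option autoImplicit false
set_option linter.unusedSectionVars false
set_option maxHeartbeats 400000

open MeasureTheory Set Filter Metric Module
open scoped ENNReal NNReal Topology

namespace Crest.Agent.R96.Coarse_538

open Crest.AnalysisR.VecCalc3 Crest.AnalysisR.Sobolev
open Crest.Agent.R96.Acl_392 Crest.Agent.R96.Lu_538 Crest.Agent.R96.Intr_538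
open Crest.Agent.R96.Poi_392

noncomputable section

/-- closeness on a segment inside a good cube -/
theorem near_seg {p : ℝ} (hp : 1 ≤ p) {Ω : Set R3} {f : R3 → R3} {D : R3 → R3 →L[ℝ] R3}
    {t η : ℝ} (ht : 0 < t) (hη : 0 < η) {q : Set R3} {w v z b : R3} {L : R3 →L[ℝ] R3}
    (hv : ‖v‖ ≤ t) (hA : ACV Ω f D v w) (hsub : q ⊆ Ω)
    (hin : ∀ σ ∈ Icc (0:ℝ) 1, w + σ • v ∈ q)
    (hI : ∫⁻ σ in Ioc (0:ℝ) 1, q.indicator (fun x => ‖D x - L‖ₑ ^ p) (w + σ • v) ≤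
      ENNReal.ofReal (η ^ p))
    (hJ : ∫⁻ σ in Ioc (0:ℝ) 1, q.indicator (fun x => ‖f x - (b + L (x - z))‖ₑ ^ p) (w + σ • v) ≤
      ENNReal.ofReal ((η * t) ^ p))
    {σ : ℝ} (hσ : σ ∈ Icc (0:ℝ) 1) :
    ‖f (w + σ • v) - (b + L (w + σ • v - z))‖ ≤ 5 * η * t := by
  have hp0 : 0 < p := by linarith
  have hI' : ∫⁻ τ in Ioc (0:ℝ) 1, ‖D (w + τ • v) - L‖ₑ ≤ ENNReal.ofReal (2 * η) := by
    apply jensen2 hp hη
    refine le_trans (le_of_eq ?_) hI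
    apply setLIntegral_congr_fun measurableSet_Ioc
    intro τ hτ
    simp only
    rw [indicator_of_mem (hin τ ⟨hτ.1.le, hτ.2⟩)]
  have hosc : ∀ σ₁ σ₂ : ℝ, 0 ≤ σ₁ → σ₁ ≤ σ₂ → σ₂ ≤ 1 →
      ‖(f (w + σ₂ • v) - L (w + σ₂ • v)) - (f (w + σ₁ • v) - L (w + σ₁ • v))‖ ≤ 2 * η * t := by
    intro σ₁ σ₂ h1 h12 h2
    have h3 := hA.diff_le L h12 (fun σ hσ => hsub (hin σ ⟨h1.trans hσ.1, hσ.2.trans h2⟩))
    have hv' : ‖v‖ₑ ≤ ENNReal.ofReal t := by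
      rw [← ofReal_norm]; exact ENNReal.ofReal_le_ofReal hv
    have h4 : ∫⁻ τ in Ioc σ₁ σ₂, ‖D (w + τ • v) - L‖ₑ * ‖v‖ₑ ≤ ENNReal.ofReal (2 * η * t) := by
      calc ∫⁻ τ in Ioc σ₁ σ₂, ‖D (w + τ • v) - L‖ₑ * ‖v‖ₑ
          ≤ ∫⁻ τ in Ioc (0:ℝ) 1, ‖D (w + τ • v) - L‖ₑ * ‖v‖ₑ := by
            apply lintegral_mono_set
            exact Ioc_subset_Ioc h1 h2
        _ = (∫⁻ τ in Ioc (0:ℝ) 1, ‖D (w + τ • v) - L‖ₑ) * ‖v‖ₑ :=
            lintegral_mul_const' _ _ enorm_ne_top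
        _ ≤ ENNReal.ofReal (2 * η) * ENNReal.ofReal t := by gcongr
        _ = ENNReal.ofReal (2 * η * t) := by rw [← ENNReal.ofReal_mul (by positivity)]
    have h5 := h3.trans h4
    rw [← ofReal_norm] at h5
    exact (ENNReal.ofReal_le_ofReal_iff (by positivity)).1 h5
  obtain ⟨σ', hσ', hσb⟩ : ∃ σ' ∈ Icc (0:ℝ) 1,
      ‖f (w + σ' • v) - (b + L (w + σ' • v - z))‖ ≤ 3 * η * t := by
    by_contra hcon
    push Not at hcon
    have h1 : ∫⁻ τ in Ioc (0:ℝ) 1, ‖f (w + τ • v) - (b + L (w + τ • v - z))‖ₑ ≤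
        ENNReal.ofReal (2 * (η * t)) := by
      apply jensen2 hp (by positivity)
      refine le_trans (le_of_eq ?_) hJ
      apply setLIntegral_congr_fun measurableSet_Ioc
      intro τ hτ
      simp only
      rw [indicator_of_mem (hin τ ⟨hτ.1.le, hτ.2⟩)]
    have h2 : ENNReal.ofReal (3 * η * t) ≤ ∫⁻ τ in Ioc (0:ℝ) 1,
        ‖f (w + τ • v) - (b + L (w + τ • v - z))‖ₑ := by
      calc ENNReal.ofReal (3 * η * t) = ∫⁻ τ in Ioc (0:ℝ) 1, ENNReal.ofReal (3 * η * t) := by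
            simp
        _ ≤ _ := by
            apply setLIntegral_mono' measurableSet_Ioc
            intro τ hτ
            rw [← ofReal_norm]
            exact ENNReal.ofReal_le_ofReal (hcon τ ⟨hτ.1.le, hτ.2⟩).le
    have h3 := (ENNReal.ofReal_le_ofReal_iff (by positivity)).1 (h2.trans h1)
    have : 0 < η * t := by positivity
    nlinarith
  have hfinal : ‖(f (w + σ • v) - L (w + σ • v)) - (f (w + σ' • v) - L (w + σ' • v))‖ ≤
      2 * η * t := by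
    rcases le_total σ' σ with h1 | h1
    · exact hosc σ' σ hσ'.1 h1 hσ.2
    · rw [norm_sub_rev]
      exact hosc σ σ' hσ.1 h1 hσ'.2
  have heq : f (w + σ • v) - (b + L (w + σ • v - z)) =
      ((f (w + σ • v) - L (w + σ • v)) - (f (w + σ' • v) - L (w + σ' • v))) +
      (f (w + σ' • v) - (b + L (w + σ' • v - z))) := by
    rw [map_sub, map_sub]
    abel
  rw [heq]
  refine (norm_add_le _ _).trans ?_
  linarith

/-- a short segment meeting the shrunken cube lies in the cube -/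
theorem seg_in {z w v : R3} {s t β : ℝ} (hs : 0 < s) (hβ : 0 < β) (hβt : β + t ≤ s)
    (hv : ‖v‖ ≤ t) {σ σ' : ℝ} (hσ : σ ∈ Icc (0:ℝ) 1) (hσ' : σ' ∈ Icc (0:ℝ) 1)
    (h : w + σ • v ∈ cel Cb z β) : w + σ' • v ∈ cel Cb z s := by
  rw [mem_cel hβ] at h
  rw [mem_cel hs]
  intro i
  have h1 := h i
  have h2 : |(σ' - σ) * v i| ≤ t := by
    rw [abs_mul]
    have h3 : |σ' - σ| ≤ 1 := by
      rw [abs_le]
      constructor <;> linarith [hσ.1, hσ.2, hσ'.1, hσ'.2]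
    have h4 := (norm_coord_le v i).trans hv
    calc |σ' - σ| * |v i| ≤ 1 * t := by gcongr
      _ = t := one_mul t
  have h3 : (w + σ' • v) i - z i = ((w + σ • v) i - z i) + (σ' - σ) * v i := by
    simp only [PiLp.add_apply, PiLp.smul_apply, smul_eq_mul]
    ring
  rw [h3]
  exact (abs_add_le _ _).trans (by linarith)

/-- frontier, general sizes -/
theorem frontier_off' {f : R3 → R3} {κ α β c : ℝ} (hκ : 0 < κ) (hα : 0 ≤ α) (hc : 0 < c)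
    (hβ : 0 < β) (hαβ : α + c < β)
    {z b : R3} {L : R3 →L[ℝ] R3} (hL : ∀ v, κ * ‖v‖ ≤ ‖L v‖) {U : Set R3} {y : R3}
    (hyc : y ∈ closure (U \ cel Cb z β))
    (hclose : ‖f y - (b + L (y - z))‖ ≤ κ * c) : f y ∉ par Cb L b α := by
  intro hP
  have h1 : b + L (y - z) ∈ par Cb L b (α + c) := by
    apply par_thick' ref_Cb hκ hL hα hc hP
    rw [norm_sub_rev, mul_one]
    exact hclose
  obtain ⟨u, hu, hu'⟩ := h1
  have h2 : L ((α + c) • u) = L (y - z) := by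
    rw [map_smul]
    exact add_left_cancel hu'
  have h3 := inj_of_low hκ hL h2
  have h4 : y ∈ ocel z β := by
    intro i
    have h5 : y i - z i = (α + c) * u i := by
      have := congrArg (fun v : R3 => v i) h3
      simp only [PiLp.smul_apply, PiLp.sub_apply, smul_eq_mul] at this
      exact this.symm
    have h6 : |u i| ≤ 1 := hu i
    have h7 : |y i - z i| ≤ α + c := by
      rw [h5, abs_mul, abs_of_nonneg (by linarith)]
      nlinarith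
    rw [abs_le] at h7
    constructor <;> linarith [h7.1, h7.2]
  obtain ⟨y', hy'1, hy'2⟩ := mem_closure_iff_nhds.1 hyc _ ((isOpen_ocel z β).mem_nhds h4)
  exact hy'2.2 (ocel_sub hβ hy'1)

/-- points near the affine image of the parallelepiped lie in the cube -/
theorem in_cel_of_par {f : R3 → R3} {κ α β c : ℝ} (hκ : 0 < κ) (hα : 0 ≤ α) (hc : 0 < c)
    (hβ : 0 < β) (hαβ : α + c ≤ β)
    {z b : R3} {L : R3 →L[ℝ] R3} (hL : ∀ v, κ * ‖v‖ ≤ ‖L v‖) {y : R3}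
    (hP : f y ∈ par Cb L b α) (hclose : ‖f y - (b + L (y - z))‖ ≤ κ * c) : y ∈ cel Cb z β := by
  have h1 : b + L (y - z) ∈ par Cb L b (α + c) := by
    apply par_thick' ref_Cb hκ hL hα hc hP
    rw [norm_sub_rev, mul_one]
    exact hclose
  obtain ⟨u, hu, hu'⟩ := h1
  have h2 : L ((α + c) • u) = L (y - z) := by
    rw [map_smul]
    exact add_left_cancel hu'
  have h3 := inj_of_low hκ hL h2
  rw [mem_cel hβ]
  intro i
  have h5 : y i - z i = (α + c) * u i := by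
    have := congrArg (fun v : R3 => v i) h3
    simp only [PiLp.smul_apply, PiLp.sub_apply, smul_eq_mul] at this
    exact this.symm
  have h6 : |u i| ≤ 1 := hu i
  rw [h5, abs_mul, abs_of_nonneg (by linarith)]
  nlinarith

/-- intruder density, general sizes -/
def FinG (Ω : Set R3) (f : R3 → R3) (D : R3 → R3 →L[ℝ] R3) (z b : R3) (L : R3 →L[ℝ] R3)
    (α β : ℝ) : R3 → ℝ≥0∞ :=
  ((Ω ∩ f ⁻¹' par Cb L b α) \ cel Cb z β).indicator fun x => ‖D x‖ₑ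

theorem noint_gen {ι : Type*} [Countable ι] {x v : ι → R3} {a : R3}
    {Ω : Set R3} {f : R3 → R3} {D : R3 → R3 →L[ℝ] R3} (hf : ContinuousOn f Ω)
    {κ α α' β c t : ℝ} (hκ : 0 < κ) (hα' : 0 ≤ α') (hαα' : α' < α) (hc : 0 < c) (hβ : 0 < β)
    (hαβ : α + c < β)
    {z b : R3} {L : R3 →L[ℝ] R3} (hL : ∀ v, κ * ‖v‖ ≤ ‖L v‖) (hv : ∀ e, ‖v e‖ ≤ t)
    (hA : ∀ e, ACV Ω f D (v e) (a + x e))
    (hfinD : ∀ e, ∫⁻ σ in Ioc (0:ℝ) 1, Ω.indicator (fun x => ‖D x‖ₑ) (a + x e + σ • v e) ≠ ∞)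
    (hnear : ∀ e, ∀ y ∈ seg x v a e, y ∈ cel Cb z β → ‖f y - (b + L (y - z))‖ ≤ κ * c)
    (hF : skf x v (FinG Ω f D z b L α β) a * ENNReal.ofReal t < ENNReal.ofReal (κ * (α - α')))
    {U : Set R3} (hUΩ : U ⊆ Ω) (hU : IsPreconnected U)
    (hcov : ∀ y ∈ U, f y ∈ par Cb L b α → ∃ e, seg x v a e ⊆ U ∧ y ∈ seg x v a e)
    (hy : ∃ y ∈ U, y ∈ cel Cb z β ∨ f y ∉ par Cb L b α) {y : R3} (hyU : y ∈ U)
    (hyP : f y ∈ par Cb L b α') : y ∈ cel Cb z β := by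
  by_contra hxq
  have hα : 0 ≤ α := by linarith
  have hPc : IsClosed (par Cb L b α) := (isCompact_par ref_Cb.cpt L b _).isClosed
  have hZc : IsClosed (cel Cb z β) := isClosed_cel z β
  have hfU : ContinuousOn f U := hf.mono hUΩ
  have hseg : ∀ i : {e // seg x v a e ⊆ U}, ∀ τ ∈ Icc (0:ℝ) 1,
      a + x i.1 + τ • v i.1 ∈ U := fun i σ hσ => i.2 ⟨σ, hσ, rfl⟩
  have key := path_lemma₃ (ι := {e // seg x v a e ⊆ U})
    (fun i => a + x i.1) (fun i => v i.1) (f := f)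
    (g := fun x => ‖D x‖ₑ * ENNReal.ofReal t) (P := par Cb L b α) (P' := par Cb L b α')
    (Z := cel Cb z β) (U := U) (ρ := κ * (α - α')) (mul_pos hκ (by linarith)) hPc ?_ hU hfU hZc
    hseg ?_ ?_ ?_ ?_ ?_ hyU hxq hyP
  · obtain ⟨y', hyU', hy1 | hy1⟩ := hy
    · exact Set.disjoint_left.1 key.2 hyU' hy1
    · exact hy1 (key.1 (mem_image_of_mem f hyU'))
  · intro y hy y' hy'
    have h1 : α' + (α - α') = α := by ring
    rw [← h1]
    apply par_thick' ref_Cb hκ hL hα' (by linarith) hy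
    rw [mul_one, ← dist_eq_norm]
    exact (mem_ball.1 hy').le
  · intro z' hz' _ hz'P
    obtain ⟨e, h1, σ, hσ, rfl⟩ := hcov z' hz' hz'P
    exact ⟨⟨e, h1⟩, σ, hσ, rfl⟩
  · rintro ⟨e, he⟩ s' t' hs' hst' ht'
    simp only
    have h1 := (hA e).diff_le 0 hst' (fun σ hσ => hUΩ (he ⟨σ, ⟨hs'.trans hσ.1, hσ.2.trans ht'⟩,
      rfl⟩))
    rw [edist_comm, edist_eq_enorm_sub]
    simp only [zero_apply, sub_zero] at h1
    refine h1.trans ?_
    have hv' : ‖v e‖ₑ ≤ ENNReal.ofReal t := by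
      rw [← ofReal_norm]; exact ENNReal.ofReal_le_ofReal (hv e)
    gcongr
  · rintro ⟨e, he⟩
    simp only
    have h1 : ∫⁻ σ in Ioc (0:ℝ) 1, ‖D (a + x e + σ • v e)‖ₑ * ENNReal.ofReal t =
        (∫⁻ σ in Ioc (0:ℝ) 1, Ω.indicator (fun x => ‖D x‖ₑ) (a + x e + σ • v e)) *
          ENNReal.ofReal t := by
      rw [← lintegral_mul_const' _ _ ENNReal.ofReal_ne_top]
      apply setLIntegral_congr_fun measurableSet_Ioc
      intro σ hσ
      simp only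
      rw [indicator_of_mem]
      exact hUΩ (he ⟨σ, ⟨hσ.1.le, hσ.2⟩, rfl⟩)
    rw [h1]
    exact ENNReal.mul_ne_top (hfinD e) ENNReal.ofReal_ne_top
  · intro z' hz' hz'q hz'c hz'P
    obtain ⟨e, h1, h2⟩ := hcov z' hz' hz'P
    exact frontier_off' hκ hα hc hβ hαβ hL hz'c (hnear e z' h2 hz'q) hz'P
  · refine lt_of_le_of_lt ?_ hF
    rw [skf, ← ENNReal.tsum_mul_right]
    refine le_trans ?_ (ENNReal.tsum_comp_le_tsum_of_injective
      (f := fun i : {e // seg x v a e ⊆ U} => i.1)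
      Subtype.val_injective _)
    apply ENNReal.tsum_le_tsum
    rintro ⟨e, he⟩
    simp only
    set γ : ℝ → R3 := fun σ => a + x e + σ • v e with hγ
    have hγc : Continuous γ := by fun_prop
    have hγU : ∀ σ ∈ Icc (0:ℝ) 1, γ σ ∈ U := fun σ hσ => he ⟨σ, hσ, rfl⟩
    have hSm : MeasurableSet (Ioc (0:ℝ) 1 ∩ {σ | f (γ σ) ∈ par Cb L b α ∧ γ σ ∉ cel Cb z β}) := by
      have h1 : IsClosed (Icc (0:ℝ) 1 ∩ {σ | f (γ σ) ∈ par Cb L b α}) := by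
        have hci : ContinuousOn (fun σ => f (γ σ)) (Icc 0 1) :=
          hfU.comp hγc.continuousOn hγU
        exact hci.preimage_isClosed_of_isClosed isClosed_Icc hPc
      have h2 : Ioc (0:ℝ) 1 ∩ {σ | f (γ σ) ∈ par Cb L b α ∧ γ σ ∉ cel Cb z β} =
          (Ioc (0:ℝ) 1 ∩ (Icc (0:ℝ) 1 ∩ {σ | f (γ σ) ∈ par Cb L b α})) ∩
            (γ ⁻¹' (cel Cb z β)ᶜ) := by
        ext σ
        simp only [mem_inter_iff, mem_ofPred_eq, mem_preimage, mem_compl_iff, mem_Ioc, mem_Icc]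
        constructor
        · rintro ⟨⟨h3, h4⟩, h5, h6⟩
          exact ⟨⟨⟨h3, h4⟩, ⟨h3.le, h4⟩, h5⟩, h6⟩
        · rintro ⟨⟨⟨h3, h4⟩, -, h5⟩, h6⟩
          exact ⟨⟨h3, h4⟩, h5, h6⟩
      rw [h2]
      exact (measurableSet_Ioc.inter h1.measurableSet).inter
        (hZc.isOpen_compl.preimage hγc).measurableSet
    calc ∫⁻ σ in Ioc (0:ℝ) 1 ∩ {σ | f (γ σ) ∈ par Cb L b α ∧ γ σ ∉ cel Cb z β},
          ‖D (γ σ)‖ₑ * ENNReal.ofReal t
        = ∫⁻ σ in Ioc (0:ℝ) 1 ∩ {σ | f (γ σ) ∈ par Cb L b α ∧ γ σ ∉ cel Cb z β},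
          FinG Ω f D z b L α β (γ σ) * ENNReal.ofReal t := by
          apply setLIntegral_congr_fun hSm
          rintro σ ⟨h1, h2, h3⟩
          simp only
          rw [FinG, indicator_of_mem]
          exact ⟨⟨hUΩ (hγU σ ⟨h1.1.le, h1.2⟩), h2⟩, h3⟩
      _ ≤ ∫⁻ σ in Ioc (0:ℝ) 1, FinG Ω f D z b L α β (γ σ) * ENNReal.ofReal t :=
          lintegral_mono_set inter_subset_left
      _ = (∫⁻ σ in Ioc (0:ℝ) 1, FinG Ω f D z b L α β (γ σ)) * ENNReal.ofReal t :=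
          lintegral_mul_const' _ _ ENNReal.ofReal_ne_top

/-- **perfect cube** for the family of segments `(x, v)` translated by `a`.
`0 < σ₀ < τ`: the inner cube is `cel Cb z ((1-σ₀)s)`, the target is shrunken by `τ`, `2τ`. -/
structure PerfG {ι : Type*} (x v : ι → R3) (p : ℝ) (Ω : Set R3) (f : R3 → R3)
    (D : R3 → R3 →L[ℝ] R3) (κ τ σ₀ η t s : ℝ) (a z b : R3) (L : R3 →L[ℝ] R3) : Prop where
  sub : cel Cb z s ⊆ Ω
  low : ∀ v, κ * ‖v‖ ≤ ‖L v‖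
  up : ‖L‖ ≤ κ⁻¹
  near : ∀ e, ∀ y ∈ seg x v a e, y ∈ cel Cb z ((1 - σ₀) * s) → ∀ y' ∈ seg x v a e,
    y' ∈ cel Cb z s ∧ ‖f y' - (b + L (y' - z))‖ ≤ η * t
  edgeD : ∀ e, ∫⁻ σ in Ioc (0:ℝ) 1, (cel Cb z s).indicator (fun x => ‖D x - L‖ₑ ^ p)
    (a + x e + σ • v e) ≤ ENNReal.ofReal (η ^ p)
  noint : ∀ U ⊆ Ω, IsPreconnected U →
    (∀ y ∈ U, f y ∈ par Cb L b ((1 - τ) * s) → ∃ e, seg x v a e ⊆ U ∧ y ∈ seg x v a e) →
    (∃ y ∈ U, y ∈ cel Cb z ((1 - σ₀) * s) ∨ f y ∉ par Cb L b ((1 - τ) * s)) →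
    ∀ y ∈ U, f y ∈ par Cb L b ((1 - 2 * τ) * s) → y ∈ cel Cb z ((1 - σ₀) * s)

theorem perfG_of {ι : Type*} [Countable ι] {x v : ι → R3} {p : ℝ} (hp : 1 ≤ p) {Ω : Set R3}
    {f : R3 → R3} {D : R3 → R3 →L[ℝ] R3} (hf : ContinuousOn f Ω)
    {κ τ σ₀ s t η : ℝ} (hκ : 0 < κ) (hτ : 0 < τ) (hτ1 : 2 * τ ≤ 1) (hσ₀τ : σ₀ < τ)
    (hσ₀ : 0 < σ₀) (ht : 0 < t)
    (hts : t ≤ σ₀ * s) (hs : 0 < s)
    (hη : 0 < η) (hηκ : η * t ≤ κ * ((τ - σ₀) / 2 * s))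
    {a z b : R3} {L : R3 →L[ℝ] R3} (hL : ∀ v, κ * ‖v‖ ≤ ‖L v‖) (hLu : ‖L‖ ≤ κ⁻¹)
    (hsub : cel Cb z s ⊆ Ω) (hv : ∀ e, ‖v e‖ ≤ t)
    (hA : ∀ e, ACV Ω f D (v e) (a + x e))
    (hfinD : ∀ e, ∫⁻ σ in Ioc (0:ℝ) 1, Ω.indicator (fun x => ‖D x‖ₑ) (a + x e + σ • v e) ≠ ∞)
    (hF1 : skf x v (FinG Ω f D z b L ((1 - τ) * s) ((1 - σ₀) * s)) a <
      ENNReal.ofReal (κ * (τ * s) / t))
    (hF2 : skf x v ((cel Cb z s).indicator (fun x => ‖D x - L‖ₑ ^ p)) a ≤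
      ENNReal.ofReal ((η / 5) ^ p))
    (hF3 : skf x v ((cel Cb z s).indicator (fun x => ‖f x - (b + L (x - z))‖ₑ ^ p)) a ≤
      ENNReal.ofReal ((η / 5 * t) ^ p)) :
    PerfG x v p Ω f D κ τ σ₀ η t s a z b L := by
  have hp0 : 0 < p := by linarith
  have hβ : 0 < (1 - σ₀) * s := mul_pos (by linarith) hs
  have hI : ∀ e, ∫⁻ σ in Ioc (0:ℝ) 1, (cel Cb z s).indicator (fun x => ‖D x - L‖ₑ ^ p)
      (a + x e + σ • v e) ≤ ENNReal.ofReal ((η / 5) ^ p) := fun e => (ENNReal.le_tsum e).trans hF2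
  have hJ : ∀ e, ∫⁻ σ in Ioc (0:ℝ) 1, (cel Cb z s).indicator
      (fun x => ‖f x - (b + L (x - z))‖ₑ ^ p)
      (a + x e + σ • v e) ≤ ENNReal.ofReal ((η / 5 * t) ^ p) := fun e =>
    (ENNReal.le_tsum e).trans hF3
  have hnear : ∀ e, ∀ y ∈ seg x v a e, y ∈ cel Cb z ((1 - σ₀) * s) → ∀ y' ∈ seg x v a e,
      y' ∈ cel Cb z s ∧ ‖f y' - (b + L (y' - z))‖ ≤ η * t := by
    rintro e _ ⟨σ, hσ, rfl⟩ hy _ ⟨σ', hσ', rfl⟩
    have hin : ∀ σ' ∈ Icc (0:ℝ) 1, a + x e + σ' • v e ∈ cel Cb z s := fun σ' hσ' =>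
      seg_in hs hβ (by nlinarith) (hv e) hσ hσ' hy
    refine ⟨hin σ' hσ', ?_⟩
    refine (near_seg hp ht (η := η / 5) (by positivity) (hv e) (hA e) hsub hin (hI e) (hJ e)
      hσ').trans (le_of_eq ?_)
    ring
  refine ⟨hsub, hL, hLu, hnear, ?_, ?_⟩
  · intro e
    refine (hI e).trans (ENNReal.ofReal_le_ofReal ?_)
    apply Real.rpow_le_rpow (by positivity) _ hp0.le
    linarith
  · intro U hUΩ hU hcov hy y hyU hyP
    refine noint_gen (α := (1 - τ) * s) (α' := (1 - 2 * τ) * s) (c := (τ - σ₀) / 2 * s) (t := t)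
      hf hκ (mul_nonneg (by linarith) hs.le) (by nlinarith) (mul_pos (by linarith) hs) hβ
      (by nlinarith) hL hv hA hfinD (fun e y hy hyβ => ((hnear e y hy hyβ y hy).2).trans hηκ)
      ?_ hUΩ hU hcov hy hyU hyP
    have ht0 : ENNReal.ofReal t ≠ 0 := by
      rw [Ne, ENNReal.ofReal_eq_zero, not_le]; exact ht
    calc skf x v (FinG Ω f D z b L ((1 - τ) * s) ((1 - σ₀) * s)) a * ENNReal.ofReal t
        < ENNReal.ofReal (κ * (τ * s) / t) * ENNReal.ofReal t :=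
          ENNReal.mul_lt_mul_left ht0 ENNReal.ofReal_ne_top hF1
      _ = ENNReal.ofReal (κ * ((1 - τ) * s - (1 - 2 * τ) * s)) := by
          rw [← ENNReal.ofReal_mul (by positivity)]
          congr 1
          field_simp
          ring

end

end Crest.Agent.R96.Coarse_538
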