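/-
helper538, row 96, leaf COARSE-G, part 23: few bad cubes for most translates of an arbitrary family
of segments.
-/
import Mathlib
import Crest.Agent.R96.Intr22_538

set_option autoImplicit false
set_option linter.unusedSectionVars false
set_option maxHeartbeats 400000

open MeasureTheory Set Filter Metric Module
open scoped ENNReal NNReal Topology

namespace Crest.Agent.R96.Coarse_538

open Crest.AnalysisR.VecCalc3 Crest.AnalysisR.Sobolev
open Crest.Agent.R96.Acl_392 Crest.Agent.R96.Lu_538 Crest.Agent.R96.Intr_538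
open Crest.Agent.R96.Poi_392

noncomputable section

open Classical in
/-- for most translates few functionals are large -/
theorem few_bad_G {κi : Type*} [Countable κi] {x v : κi → R3} {D : Set R3}
    (hD : MeasurableSet D) {n : ℝ≥0∞} (hn : Dens D n x v) {ι : Type*} (J : Finset ι)
    {F : ι → R3 → ℝ≥0∞}
    (hF : ∀ j ∈ J, AEMeasurable (F j) volume) {c : ι → ℝ≥0∞} (hc0 : ∀ j ∈ J, c j ≠ 0)
    (hc1 : ∀ j ∈ J, c j ≠ ∞) {m : ℝ≥0∞} (hm0 : m ≠ 0) (hm1 : m ≠ ∞) :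
    ∃ B : Set R3, volume B ≤ (n * ∑ j ∈ J, (∫⁻ x, F j x) / c j) / m ∧
      ∀ a ∈ D, a ∉ B →
        ((J.filter fun j => c j ≤ skf x v (F j) a).card : ℝ≥0∞) ≤ m := by
  set nn : R3 → ℝ≥0∞ := fun a => ∑ j ∈ J, (c j)⁻¹ * skf x v (F j) a with hnn
  have hnm : AEMeasurable nn volume := by
    apply Finset.aemeasurable_fun_sum
    intro j hj
    exact (aemeasurable_skf x v (hF j hj)).const_mul _
  have hint : ∫⁻ a in D, nn a ≤ n * ∑ j ∈ J, (∫⁻ x, F j x) / c j := by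
    rw [hnn]
    rw [lintegral_finsetSum' _ (fun j hj =>
      ((aemeasurable_skf x v (hF j hj)).const_mul _).restrict), Finset.mul_sum]
    apply Finset.sum_le_sum
    intro j hj
    rw [lintegral_const_mul' _ _ (ENNReal.inv_ne_top.2 (hc0 j hj)), ENNReal.div_eq_inv_mul]
    calc (c j)⁻¹ * ∫⁻ a in D, skf x v (F j) a ≤ (c j)⁻¹ * (n * ∫⁻ x, F j x) := by
          gcongr
          exact hn (F j) (hF j hj)
      _ = n * ((c j)⁻¹ * ∫⁻ x, F j x) := by ring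
  refine ⟨D ∩ {a | m ≤ nn a}, ?_, ?_⟩
  · have h1 := mul_meas_ge_le_lintegral₀ (hnm.restrict (s := D)) m
    rw [Measure.restrict_apply₀' hD.nullMeasurableSet, inter_comm] at h1
    rw [ENNReal.le_div_iff_mul_le (Or.inl hm0) (Or.inl hm1), mul_comm]
    exact h1.trans hint
  · intro a ha haB
    have h1 : nn a < m := by
      by_contra h
      exact haB ⟨ha, not_lt.1 h⟩
    refine le_trans ?_ h1.le
    calc ((J.filter fun j => c j ≤ skf x v (F j) a).card : ℝ≥0∞)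
        = ∑ j ∈ J.filter fun j => c j ≤ skf x v (F j) a, 1 := by
          rw [Finset.sum_const, nsmul_eq_mul, mul_one]
      _ ≤ ∑ j ∈ J.filter fun j => c j ≤ skf x v (F j) a, (c j)⁻¹ * skf x v (F j) a := by
          apply Finset.sum_le_sum
          intro j hj
          obtain ⟨hjJ, hi⟩ := Finset.mem_filter.1 hj
          calc (1 : ℝ≥0∞) = (c j)⁻¹ * c j := (ENNReal.inv_mul_cancel (hc0 j hjJ) (hc1 j hjJ)).symm
            _ ≤ (c j)⁻¹ * skf x v (F j) a := by gcongr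
      _ ≤ nn a := Finset.sum_le_sum_of_subset (Finset.filter_subset _ _)

/-- almost every translate is ACL on all segments, with finite energy -/
theorem ae_good_G {κi : Type*} [Countable κi] {x v : κi → R3} {DD : Set R3}
    (hDD : MeasurableSet DD) {n : ℝ≥0∞} (hnt : n ≠ ∞) (hn : Dens DD n x v)
    {Ω : Set R3} (hΩ : IsOpen Ω) {f : R3 → R3} {G : Fin 3 → R3 → R3}
    (hG : ∀ j, HasWeakGradOn Ω (fun x => f x j) (G j)) (hf : ContinuousOn f Ω)
    (hGm : AEStronglyMeasurable (Gmat G) (volume.restrict Ω))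
    (hGi : ∫⁻ x in Ω, ‖Gmat G x‖ₑ ≠ ∞) :
    ∀ᵐ a : R3, a ∈ DD → (∀ e, ACV Ω f (Gmat G) (v e) (a + x e)) ∧
      ∀ e, ∫⁻ σ in Ioc (0:ℝ) 1, Ω.indicator (fun x => ‖Gmat G x‖ₑ) (a + x e + σ • v e) ≠ ∞ := by
  have h1 := acv_countable hΩ hG hf x v
  have hm : AEMeasurable (Ω.indicator fun x => ‖Gmat G x‖ₑ) volume :=
    (aemeasurable_indicator_iff hΩ.measurableSet).2 hGm.enorm
  have h2 : ∀ᵐ a ∂(volume.restrict DD),
      skf x v (Ω.indicator fun x => ‖Gmat G x‖ₑ) a < ∞ := by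
    apply ae_lt_top' (aemeasurable_skf x v hm).restrict
    refine ne_top_of_le_ne_top ?_ (hn _ hm)
    rw [lintegral_indicator hΩ.measurableSet]
    exact ENNReal.mul_ne_top hnt hGi
  have h3 := (ae_restrict_iff' hDD).1 h2
  filter_upwards [h1, h3] with a ha1 ha3 haD
  exact ⟨ha1, fun e => ((ENNReal.le_tsum e).trans_lt (ha3 haD)).ne⟩

theorem aem_FinG {Ω : Set R3} (hΩ : IsOpen Ω) {f : R3 → R3} (hf : ContinuousOn f Ω)
    {D : R3 → R3 →L[ℝ] R3} (hD : AEStronglyMeasurable D (volume.restrict Ω)) (z b : R3)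
    (L : R3 →L[ℝ] R3) (α β : ℝ) :
    MeasurableSet ((Ω ∩ f ⁻¹' par Cb L b α) \ cel Cb z β) ∧
      AEMeasurable (FinG Ω f D z b L α β) volume := by
  have hX : MeasurableSet ((Ω ∩ f ⁻¹' par Cb L b α) \ cel Cb z β) :=
    (meas_pre hΩ.measurableSet hf
      (isCompact_par ref_Cb.cpt L b _).isClosed.measurableSet).diff
      (isClosed_cel z β).measurableSet
  refine ⟨hX, (aemeasurable_indicator_iff hX).2 ?_⟩
  have h1 : AEStronglyMeasurable D
      (volume.restrict ((Ω ∩ f ⁻¹' par Cb L b α) \ cel Cb z β)) :=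
    hD.mono_measure (Measure.restrict_mono (fun x hx => hx.1.1) le_rfl)
  exact h1.enorm

/-- the shell contributes only bad points -/
theorem shell_le {Ω : Set R3} {f : R3 → R3} {D : R3 → R3 →L[ℝ] R3} {κ e s τ σ₀ : ℝ}
    (hκ : 0 < κ) (he : 0 < e) (hs : 0 < s) (hτ1 : τ ≤ 1) (hσ₀ : σ₀ < 1) (heκ : e ≤ κ * (τ - σ₀))
    {z b : R3} {L : R3 →L[ℝ] R3} {S : Set R3} (hgc : GC Ω volume f D Cb κ e s z b L S) (y : R3) :
    FinG Ω f D z b L ((1 - τ) * s) ((1 - σ₀) * s) y ≤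
      Fin1 Ω f D z b L s τ y + (cel Cb z s \ S).indicator (fun x => ‖D x‖ₑ) y := by
  by_cases hy : y ∈ (Ω ∩ f ⁻¹' par Cb L b ((1 - τ) * s)) \ cel Cb z ((1 - σ₀) * s)
  swap
  · rw [FinG, indicator_of_notMem hy]; exact zero_le
  rw [FinG, indicator_of_mem hy]
  by_cases hyq : y ∈ cel Cb z s
  · have hyS : y ∉ S := by
      intro hyS
      apply hy.2
      refine in_cel_of_par (c := e * s / κ) hκ (mul_nonneg (by linarith) hs.le) (by positivity)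
        (mul_pos (by linarith) hs) ?_ hgc.low hy.1.2 ?_
      · have h1 : e * s / κ ≤ (τ - σ₀) * s := by
          rw [div_le_iff₀ hκ]
          nlinarith
        linarith
      · refine (hgc.cf y hyS).trans (le_of_eq ?_)
        field_simp
    have h2 : y ∈ cel Cb z s \ S := ⟨hyq, hyS⟩
    rw [indicator_of_mem h2]
    exact le_add_self
  · have h1 : y ∈ (Ω ∩ f ⁻¹' par Cb L b ((1 - τ) * s)) \ cel Cb z s := ⟨hy.1, hyq⟩
    rw [Fin1, indicator_of_mem h1]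
    exact le_self_add

/-- sum over the shells -/
theorem sum_shell {Ω : Set R3} (hΩf : volume Ω ≠ ∞) {D : R3 → R3 →L[ℝ] R3}
    {f : R3 → R3} {κ e s : ℝ} (he : 0 < e) (hs : 0 < s)
    {m : Measure R3} [IsFiniteMeasure m] (hm : m ≪ volume) {ε₁ : ℝ≥0∞} {δ' : ℝ}
    (hac : ∀ B : Set R3, volume B ≤ ENNReal.ofReal δ' → m B < ε₁)
    (heδ : e * (volume Ω).toReal ≤ δ') {a₀ : R3} (Q : Finset (Fin 3 → ℤ))
    {b : (Fin 3 → ℤ) → R3} {L : (Fin 3 → ℤ) → R3 →L[ℝ] R3} {S : (Fin 3 → ℤ) → Set R3}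
    (hgc : ∀ k ∈ Q, GC Ω volume f D Cb κ e s (vt (2 * s) a₀ k) (b k) (L k) (S k)) :
    ∑ k ∈ Q, m (cel Cb (vt (2 * s) a₀ k) s \ S k) ≤ ε₁ := by
  have h1 : volume (⋃ k ∈ Q, (cel Cb (vt (2 * s) a₀ k) s \ S k)) ≤ ENNReal.ofReal δ' := by
    apply vol_small_le hΩf hs he.le heδ Q (fun k hk => (hgc k hk).sub)
    intro k hk
    have := (hgc k hk).big
    rwa [fr3] at this
  have h2 : m (⋃ k ∈ Q, (cel Cb (vt (2 * s) a₀ k) s \ S k)) =
      ∑ k ∈ Q, m (cel Cb (vt (2 * s) a₀ k) s \ S k) := by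
    apply measure_biUnion_finset₀
    · intro k hk l hl hkl
      apply hm
      have h3 := cel_null hs a₀ hkl
      exact measure_mono_null (inter_subset_inter sdiff_subset sdiff_subset) h3
    · intro k hk
      exact ((isClosed_cel _ _).measurableSet.diff (hgc k hk).meas).nullMeasurableSet
  rw [← h2]
  exact (hac _ h1).le

/-- **one scale, arbitrary segments** -/
theorem one_scale_G {p : ℝ} (hp : 1 ≤ p) {Ω : Set R3} (hΩ : IsOpen Ω) {f : R3 → R3}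
    {G : Fin 3 → R3 → R3} (hf : ContinuousOn f Ω)
    (hG : ∀ j, HasWeakGradOn Ω (fun x => f x j) (G j))
    (hGm : AEStronglyMeasurable (Gmat G) (volume.restrict Ω))
    (hGi : ∫⁻ x in Ω, ‖Gmat G x‖ₑ ≠ ∞)
    {κ τ σ₀ η s t : ℝ} (hκ : 0 < κ) (hτ : 0 < τ) (hτ1 : 2 * τ ≤ 1) (hσ₀τ : σ₀ < τ)
    (hσ₀ : 0 < σ₀) (ht : 0 < t) (hts : t ≤ σ₀ * s) (hs : 0 < s)
    (hη : 0 < η) (hηκ : η * t ≤ κ * ((τ - σ₀) / 2 * s)) {a₀ : R3}
    (Q₀ : Finset (Fin 3 → ℤ)) (b : (Fin 3 → ℤ) → R3) (L : (Fin 3 → ℤ) → R3 →L[ℝ] R3)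
    (hsub : ∀ k ∈ Q₀, cel Cb (vt (2 * s) a₀ k) s ⊆ Ω)
    (hL : ∀ k ∈ Q₀, ∀ v, κ * ‖v‖ ≤ ‖L k v‖) (hLu : ∀ k ∈ Q₀, ‖L k‖ ≤ κ⁻¹)
    {κi : Type*} [Countable κi] {x v : κi → R3} {DD : Set R3}
    (hDD : MeasurableSet DD) {n : ℝ≥0∞} (hnt : n ≠ ∞) (hn : Dens DD n x v)
    (hv : ∀ e, ‖v e‖ ≤ t)
    {m : ℝ≥0∞} (hm0 : m ≠ 0) (hm1 : m ≠ ∞) :
    ∃ B : Set R3, volume B ≤ (n * ((∑ k ∈ Q₀, ∫⁻ x, FinG Ω f (Gmat G) (vt (2 * s) a₀ k) (b k) (L k)
        ((1 - τ) * s) ((1 - σ₀) * s) x) / ENNReal.ofReal (κ * (τ * s) / t) +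
      ((∑ k ∈ Q₀, ∫⁻ x in cel Cb (vt (2 * s) a₀ k) s, ‖Gmat G x - L k‖ₑ ^ p) /
        ENNReal.ofReal ((η / 5) ^ p) +
      (∑ k ∈ Q₀, ∫⁻ x in cel Cb (vt (2 * s) a₀ k) s,
        ‖f x - (b k + L k (x - vt (2 * s) a₀ k))‖ₑ ^ p) /
        ENNReal.ofReal ((η / 5 * t) ^ p)))) / m ∧
      ∀ a ∈ DD, a ∉ B → ∃ Q ⊆ Q₀, ((Q₀ \ Q).card : ℝ≥0∞) ≤ m ∧
        ∀ k ∈ Q, PerfG x v p Ω f (Gmat G) κ τ σ₀ η t s a (vt (2 * s) a₀ k) (b k) (L k) := by
  classical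
  -- the functionals
  set F : (Fin 3 → ℤ) × Fin 3 → R3 → ℝ≥0∞ := fun q =>
    match q.2 with
    | 0 => FinG Ω f (Gmat G) (vt (2 * s) a₀ q.1) (b q.1) (L q.1) ((1 - τ) * s) ((1 - σ₀) * s)
    | 1 => (cel Cb (vt (2 * s) a₀ q.1) s).indicator (fun x => ‖Gmat G x - L q.1‖ₑ ^ p)
    | 2 => (cel Cb (vt (2 * s) a₀ q.1) s).indicator
        (fun x => ‖f x - (b q.1 + L q.1 (x - vt (2 * s) a₀ q.1))‖ₑ ^ p) with hFdef
  set c : (Fin 3 → ℤ) × Fin 3 → ℝ≥0∞ := fun q =>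
    match q.2 with
    | 0 => ENNReal.ofReal (κ * (τ * s) / t)
    | 1 => ENNReal.ofReal ((η / 5) ^ p)
    | 2 => ENNReal.ofReal ((η / 5 * t) ^ p) with hcdef
  set J : Finset ((Fin 3 → ℤ) × Fin 3) := Q₀ ×ˢ Finset.univ with hJ
  have hF : ∀ j ∈ J, AEMeasurable (F j) volume := by
    rintro ⟨k, l⟩ hj
    have hk : k ∈ Q₀ := (Finset.mem_product.1 hj).1
    fin_cases l
    · exact (aem_FinG hΩ hf hGm _ _ _ _ _).2
    · exact aem_F2 hGm (hsub k hk) _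
    · exact aem_F3 hf (hsub k hk) _ _
  have hc0 : ∀ j ∈ J, c j ≠ 0 := by
    rintro ⟨k, l⟩ -
    fin_cases l
    · show ENNReal.ofReal (κ * (τ * s) / t) ≠ 0
      rw [Ne, ENNReal.ofReal_eq_zero, not_le]; positivity
    · show ENNReal.ofReal ((η / 5) ^ p) ≠ 0
      rw [Ne, ENNReal.ofReal_eq_zero, not_le]; positivity
    · show ENNReal.ofReal ((η / 5 * t) ^ p) ≠ 0
      rw [Ne, ENNReal.ofReal_eq_zero, not_le]; positivity
  have hc1 : ∀ j ∈ J, c j ≠ ∞ := by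
    rintro ⟨k, l⟩ -
    fin_cases l
    · exact ENNReal.ofReal_ne_top
    · exact ENNReal.ofReal_ne_top
    · exact ENNReal.ofReal_ne_top
  obtain ⟨B, hB1, hB2⟩ := few_bad_G hDD hn J hF hc0 hc1 hm0 hm1
  have hae := ae_good_G hDD hnt hn hΩ hG hf hGm hGi
  set N : Set R3 := {a | ¬ (a ∈ DD → (∀ e, ACV Ω f (Gmat G) (v e) (a + x e)) ∧
      ∀ e, ∫⁻ σ in Ioc (0:ℝ) 1, Ω.indicator (fun x => ‖Gmat G x‖ₑ) (a + x e + σ • v e) ≠ ∞)}
    with hN
  have hN0 : volume N = 0 := hae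
  refine ⟨B ∪ N, ?_, ?_⟩
  · refine (measure_union_le _ _).trans ?_
    rw [hN0, add_zero]
    refine hB1.trans (le_of_eq ?_)
    congr 2
    rw [hJ, Finset.sum_product]
    have h1 : ∀ k ∈ Q₀, ∑ l : Fin 3, (∫⁻ x, F (k, l) x) / c (k, l) =
        (∫⁻ x, FinG Ω f (Gmat G) (vt (2 * s) a₀ k) (b k) (L k) ((1 - τ) * s) ((1 - σ₀) * s) x) /
          ENNReal.ofReal (κ * (τ * s) / t) +
        ((∫⁻ x in cel Cb (vt (2 * s) a₀ k) s, ‖Gmat G x - L k‖ₑ ^ p) /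
          ENNReal.ofReal ((η / 5) ^ p) +
        (∫⁻ x in cel Cb (vt (2 * s) a₀ k) s,
          ‖f x - (b k + L k (x - vt (2 * s) a₀ k))‖ₑ ^ p) / ENNReal.ofReal ((η / 5 * t) ^ p)) := by
      intro k _
      rw [Fin.sum_univ_three, add_assoc]
      congr 2
      · congr 1
        exact lintegral_indicator (isClosed_cel _ _).measurableSet _
      · congr 1
        exact lintegral_indicator (isClosed_cel _ _).measurableSet _
    rw [Finset.sum_congr rfl h1]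
    simp only [Finset.sum_add_distrib, ENNReal.div_eq_inv_mul, Finset.mul_sum]
  · intro a haD haB
    rw [mem_union, not_or] at haB
    have hgood := (not_not.1 haB.2) haD
    have hcard := hB2 a haD haB.1
    set Q := Q₀.filter fun k => ∀ l, skf x v (F (k, l)) a < c (k, l) with hQ
    refine ⟨Q, Finset.filter_subset _ _, ?_, ?_⟩
    · refine le_trans ?_ hcard
      have h1 : Q₀ \ Q ⊆ (J.filter fun j => c j ≤ skf x v (F j) a).image Prod.fst := by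
        intro k hk
        rw [Finset.mem_sdiff, hQ, Finset.mem_filter] at hk
        have h2 : ∃ l, c (k, l) ≤ skf x v (F (k, l)) a := by
          by_contra h
          push Not at h
          exact hk.2 ⟨hk.1, h⟩
        obtain ⟨l, hi⟩ := h2
        exact Finset.mem_image.2 ⟨(k, l), Finset.mem_filter.2
          ⟨Finset.mem_product.2 ⟨hk.1, Finset.mem_univ _⟩, hi⟩, rfl⟩
      exact_mod_cast (Finset.card_le_card h1).trans Finset.card_image_le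
    · intro k hk
      obtain ⟨hk0, hk1⟩ := Finset.mem_filter.1 hk
      exact perfG_of hp hf hκ hτ hτ1 hσ₀τ hσ₀ ht hts hs hη hηκ (hL k hk0) (hLu k hk0)
        (hsub k hk0) hv hgood.1 hgood.2 (hk1 0) (hk1 1).le (hk1 2).le

end

end Crest.Agent.R96.Coarse_538
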