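/-
helper538, row 96, leaf COARSE-G, part 24: **coarse selection for arbitrary families of segments**.
-/
import Mathlib
import Crest.Agent.R96.Intr23_538

set_option autoImplicit false
set_option linter.unusedSectionVars false
set_option maxHeartbeats 400000

open MeasureTheory Set Filter Metric Module
open scoped ENNReal NNReal Topology

namespace Crest.Agent.R96.Coarse_538

open Crest.AnalysisR.VecCalc3 Crest.AnalysisR.Sobolev
open Crest.Agent.R96.Acl_392 Crest.Agent.R96.Lu_538 Crest.Agent.R96.Intr_538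
open Crest.Agent.R96.Poi_392

noncomputable section

theorem PerfG.mono {ι : Type*} {x v : ι → R3} {p : ℝ} (hp : 0 < p) {Ω : Set R3} {f : R3 → R3}
    {D : R3 → R3 →L[ℝ] R3}
    {κ τ σ₀ η η' t s : ℝ} {a z b : R3} {L : R3 →L[ℝ] R3} (ht : 0 ≤ t) (hη' : 0 ≤ η')
    (hηη : η' ≤ η) (h : PerfG x v p Ω f D κ τ σ₀ η' t s a z b L) :
    PerfG x v p Ω f D κ τ σ₀ η t s a z b L :=
  ⟨h.sub, h.low, h.up, fun e y hy hyq y' hy' => ⟨(h.near e y hy hyq y' hy').1,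
    (h.near e y hy hyq y' hy').2.trans (by gcongr)⟩, fun e =>
    (h.edgeD e).trans (ENNReal.ofReal_le_ofReal (Real.rpow_le_rpow hη' hηη hp.le)), h.noint⟩

/-- arithmetic of the bad set -/
theorem arith_bad_G {p : ℝ} {X1 X2 X3 VD : ℝ≥0∞} {κ τ η s N θ δ ε₁ δ₁ n : ℝ} (hκ : 0 < κ)
    (hτ : 0 < τ) (hη : 0 < η) (hs : 0 < s) (hN : 0 < N) (hδ : 0 < δ) (hδ₁ : 0 < δ₁)
    (hε₁ : 0 < ε₁) (hn : 0 < n) (hθ : 0 < θ) (hVD : ENNReal.ofReal ((s / N) ^ 3) ≤ VD)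
    (h1 : X1 ≤ ENNReal.ofReal (2 * ε₁)) (h2 : X2 ≤ ENNReal.ofReal δ₁)
    (h3 : X3 ≤ ENNReal.ofReal (δ₁ * s ^ p))
    (hε : 2 * ε₁ / (κ * τ * N) ≤ θ * δ / (16 * n * N ^ 3))
    (hδd : δ₁ * ((1 + N ^ p) / (η / 5) ^ p) ≤ θ * δ / (16 * n * N ^ 3)) :
    (ENNReal.ofReal n * (X1 / ENNReal.ofReal (κ * (τ * s) / (s / N)) +
      (X2 / ENNReal.ofReal ((η / 5) ^ p) + X3 / ENNReal.ofReal ((η / 5 * (s / N)) ^ p)))) /
      ENNReal.ofReal (δ / (2 * s) ^ 3) ≤ ENNReal.ofReal θ * VD := by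
  have hA : X1 / ENNReal.ofReal (κ * (τ * s) / (s / N)) ≤
      ENNReal.ofReal (2 * ε₁ / (κ * τ * N)) := by
    calc X1 / ENNReal.ofReal (κ * (τ * s) / (s / N))
        ≤ ENNReal.ofReal (2 * ε₁) / ENNReal.ofReal (κ * (τ * s) / (s / N)) := by gcongr
      _ = ENNReal.ofReal (2 * ε₁ / (κ * τ * N)) := by
          rw [← ENNReal.ofReal_div_of_pos (by positivity)]
          congr 1
          field_simp
  have hB : X2 / ENNReal.ofReal ((η / 5) ^ p) ≤ ENNReal.ofReal (δ₁ / (η / 5) ^ p) := by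
    calc X2 / ENNReal.ofReal ((η / 5) ^ p) ≤ ENNReal.ofReal δ₁ / ENNReal.ofReal ((η / 5) ^ p) := by
          gcongr
      _ = _ := by rw [← ENNReal.ofReal_div_of_pos (by positivity)]
  have hC : X3 / ENNReal.ofReal ((η / 5 * (s / N)) ^ p) ≤
      ENNReal.ofReal (δ₁ * N ^ p / (η / 5) ^ p) := by
    calc X3 / ENNReal.ofReal ((η / 5 * (s / N)) ^ p)
        ≤ ENNReal.ofReal (δ₁ * s ^ p) / ENNReal.ofReal ((η / 5 * (s / N)) ^ p) := by gcongr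
      _ = _ := by
          rw [← ENNReal.ofReal_div_of_pos (by positivity)]
          congr 1
          have h4 : s = (s / N) * N := by field_simp
          have h5 : s ^ p = (s / N) ^ p * N ^ p := by
            rw [← Real.mul_rpow (by positivity) (by positivity), ← h4]
          rw [h5, Real.mul_rpow (by positivity) (by positivity)]
          have h6 : 0 < (s / N) ^ p := by positivity
          field_simp
  calc (ENNReal.ofReal n * (X1 / ENNReal.ofReal (κ * (τ * s) / (s / N)) +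
      (X2 / ENNReal.ofReal ((η / 5) ^ p) + X3 / ENNReal.ofReal ((η / 5 * (s / N)) ^ p)))) /
      ENNReal.ofReal (δ / (2 * s) ^ 3)
      ≤ (ENNReal.ofReal n * (ENNReal.ofReal (2 * ε₁ / (κ * τ * N)) +
          (ENNReal.ofReal (δ₁ / (η / 5) ^ p) +
          ENNReal.ofReal (δ₁ * N ^ p / (η / 5) ^ p)))) /
        ENNReal.ofReal (δ / (2 * s) ^ 3) := by gcongr
    _ = ENNReal.ofReal (n * (2 * ε₁ / (κ * τ * N) + (δ₁ / (η / 5) ^ p +
          δ₁ * N ^ p / (η / 5) ^ p)) / (δ / (2 * s) ^ 3)) := by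
        rw [← ENNReal.ofReal_add (by positivity) (by positivity),
          ← ENNReal.ofReal_add (by positivity) (by positivity),
          ← ENNReal.ofReal_mul hn.le]
        exact (ENNReal.ofReal_div_of_pos (by positivity)).symm
    _ ≤ ENNReal.ofReal (θ * (s / N) ^ 3) := by
        apply ENNReal.ofReal_le_ofReal
        rw [div_le_iff₀ (by positivity)]
        have h7 : δ₁ / (η / 5) ^ p + δ₁ * N ^ p / (η / 5) ^ p =
            δ₁ * ((1 + N ^ p) / (η / 5) ^ p) := by ring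
        rw [h7]
        calc n * (2 * ε₁ / (κ * τ * N) + δ₁ * ((1 + N ^ p) / (η / 5) ^ p))
            ≤ n * (θ * δ / (16 * n * N ^ 3) + θ * δ / (16 * n * N ^ 3)) := by gcongr
          _ = θ * (s / N) ^ 3 * (δ / (2 * s) ^ 3) := by
              field_simp
              ring
    _ = ENNReal.ofReal θ * ENNReal.ofReal ((s / N) ^ 3) := by
        rw [← ENNReal.ofReal_mul hθ.le]
    _ ≤ ENNReal.ofReal θ * VD := by gcongr

/-- **COARSE SELECTION, ARBITRARY SEGMENTS.**  `t = s / N` bounds the length of the segments, `D` is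
the set of translates (`volume D ≥ t³`), `n` the density of the family with respect to `D`. -/
theorem coarse_G {p : ℝ} (hp : 1 ≤ p) {Ω Λ : Set R3} (hΩ : IsOpen Ω)
    (hΩb : Bornology.IsBounded Ω) (hΛ : IsOpen Λ) (hΛf : volume Λ ≠ ∞) {f : R3 → R3}
    {G : Fin 3 → R3 → R3} (hinj : InjOn f Ω)
    (hf : ContinuousOn f Ω) (hfΛ : MapsTo f Ω Λ)
    (hG : ∀ j, HasWeakGradOn Ω (fun x => f x j) (G j))
    (hGp : ∀ j, MemLp (G j) (ENNReal.ofReal p) (volume.restrict Ω)) {ε : ℝ} (hε : 0 < ε) :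
    ∃ κ : ℝ, 0 < κ ∧ κ ≤ 1 ∧ ∃ K ⊆ Ω, IsCompact K ∧ ∃ K' ⊆ Λ, IsCompact K' ∧
      ∀ N n τ σ₀ η θ δ e₁ : ℝ, 0 < N → 0 < n → 0 < σ₀ → σ₀ < τ → 2 * τ ≤ 1 → 1 ≤ σ₀ * N →
        0 < η → 0 < θ → 0 < δ → 0 < e₁ →
        ∃ s₀ : ℝ, 0 < s₀ ∧ ∀ s : ℝ, 0 < s → s < s₀ → ∀ a₀ : R3,
        ∃ (Q₀ : Finset (Fin 3 → ℤ)) (b : (Fin 3 → ℤ) → R3) (L : (Fin 3 → ℤ) → R3 →L[ℝ] R3)
          (S : (Fin 3 → ℤ) → Set R3),
          (∀ k ∈ Q₀, GC Ω volume f (Gmat G) Cb κ e₁ s (vt (2 * s) a₀ k) (b k) (L k) (S k)) ∧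
          (∀ k ∈ Q₀, cel Cb (vt (2 * s) a₀ k) s ⊆ K) ∧ (∀ k ∈ Q₀, par Cb (L k) (b k) s ⊆ K') ∧
          (∀ k ∈ Q₀, ∀ l ∈ Q₀, k ≠ l →
            Disjoint (par Cb (L k) (b k) ((1 - τ) * s)) (par Cb (L l) (b l) s)) ∧
          ∑ k ∈ Q₀, ∫⁻ x in cel Cb (vt (2 * s) a₀ k) s, ‖Gmat G x - L k‖ₑ ^ p ≤
            ENNReal.ofReal e₁ ∧
          volume ((Ω ∩ {x | (Gmat G x).det ≠ 0}) \ ⋃ k ∈ Q₀, cel Cb (vt (2 * s) a₀ k) s) ≤
            ENNReal.ofReal ε ∧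
          ∀ (κi : Type) [Countable κi] (x v : κi → R3) (D : Set R3), MeasurableSet D →
            ENNReal.ofReal ((s / N) ^ 3) ≤ volume D → (∀ e, ‖v e‖ ≤ s / N) →
            Dens D (ENNReal.ofReal n) x v →
            ∃ B : Set R3, volume B ≤ ENNReal.ofReal θ * volume D ∧
              ∀ a ∈ D, a ∉ B → ∃ Q ⊆ Q₀, ((Q₀ \ Q).card : ℝ) * (2 * s) ^ 3 ≤ δ ∧
                ∀ k ∈ Q, PerfG x v p Ω f (Gmat G) κ τ σ₀ η (s / N) s a (vt (2 * s) a₀ k)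
                  (b k) (L k) := by
  classical
  have hp0 : 0 < p := by linarith
  have hΩf : volume Ω ≠ ∞ := hΩb.measure_lt_top.ne
  have hGm : AEStronglyMeasurable (Gmat G) (volume.restrict Ω) := aesm_Gmat fun j => (hGp j).1
  have hGi := lint_Gmat hp hΩf hGp
  obtain ⟨κ, hκ, hκ1, K, hK, hKc, K', hK', hK'c, Hgood⟩ :=
    good_cubes hp hΩ hΩb hΛ hf hfΛ hG hGp (half_pos hε)
  refine ⟨κ, hκ, hκ1, K, hK, hKc, K', hK', hK'c, ?_⟩
  intro N n τ σ₀ η θ δ e₁ hN0 hn hσ₀ hσ₀τ hτ1 hσN hη hθ hδ he₁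
  have hτ : 0 < τ := hσ₀.trans hσ₀τ
  set mm : Measure R3 := (volume.restrict Ω).withDensity (fun x => ‖Gmat G x‖ₑ) with hmm
  have hmmf : IsFiniteMeasure mm := isFiniteMeasure_withDensity hGi
  have hmmac : mm ≪ volume :=
    (withDensity_absolutelyContinuous _ _).trans Measure.absolutelyContinuous_restrict
  have hmmA : ∀ A : Set R3, MeasurableSet A → A ⊆ Ω → mm A = ∫⁻ x in A, ‖Gmat G x‖ₑ := by
    intro A hA hAΩ
    rw [hmm, withDensity_apply _ hA, Measure.restrict_restrict hA, inter_eq_left.2 hAΩ]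
  obtain ⟨sL, hLus⟩ := exists_lus_R3 hΩ hG hf
  -- tolerances
  obtain ⟨η', hη'0, hη'η, hη'κ⟩ : ∃ η' : ℝ, 0 < η' ∧ η' ≤ η ∧ η' ≤ κ * ((τ - σ₀) / 2) * N := by
    have : 0 < κ * ((τ - σ₀) / 2) * N := mul_pos (mul_pos hκ (by linarith)) hN0
    exact ⟨min η (κ * ((τ - σ₀) / 2) * N), lt_min hη this, min_le_left _ _, min_le_right _ _⟩
  obtain ⟨ε₁, hε₁0, hε₁a, hε₁b⟩ : ∃ ε₁ : ℝ, 0 < ε₁ ∧
      2 * ε₁ / (κ * τ * N) ≤ θ * δ / (16 * n * N ^ 3) ∧ 8 * ε₁ ≤ ε / 2 := by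
    refine ⟨min (θ * δ / (16 * n * N ^ 3) * (κ * τ * N) / 2) (ε / 16), by positivity, ?_, ?_⟩
    · rw [div_le_iff₀ (by positivity)]
      have := min_le_left (θ * δ / (16 * n * N ^ 3) * (κ * τ * N) / 2) (ε / 16)
      linarith
    · have := min_le_right (θ * δ / (16 * n * N ^ 3) * (κ * τ * N) / 2) (ε / 16)
      linarith
  obtain ⟨δ₁, hδ₁0, hδ₁a, hδ₁e⟩ : ∃ δ₁ : ℝ, 0 < δ₁ ∧
      δ₁ * ((1 + N ^ p) / (η' / 5) ^ p) ≤ θ * δ / (16 * n * N ^ 3) ∧ δ₁ ≤ e₁ := by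
    refine ⟨min (θ * δ / (16 * n * N ^ 3) / ((1 + N ^ p) / (η' / 5) ^ p)) e₁, by positivity, ?_,
      min_le_right _ _⟩
    rw [← le_div_iff₀ (by positivity)]
    exact min_le_left _ _
  obtain ⟨e₀, he₀, r₀, hr₀, Hintr⟩ := intrSum.{0} hΩ.measurableSet hLus hinj hf hGm
    hΛ.measurableSet hΛf hfΛ hmmac (a := 1) (R := 2) one_pos (by norm_num) hκ hτ
    (by linarith : τ ≤ 1) (T := 1) le_rfl hε₁0
  obtain ⟨δ', hδ', hac⟩ := exists_ac hmmac (ε := ENNReal.ofReal ε₁) (by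
    rw [Ne, ENNReal.ofReal_eq_zero, not_le]; positivity)
  set V := (volume Ω).toReal with hV
  have hV0 : 0 ≤ V := ENNReal.toReal_nonneg
  obtain ⟨e, he0, hee₀, hee₁, heτ, heV⟩ : ∃ e : ℝ, 0 < e ∧ e ≤ e₀ ∧ e ≤ e₁ ∧
      e ≤ κ * (τ - σ₀) ∧ e * V ≤ δ' := by
    have h1 : 0 < κ * (τ - σ₀) := mul_pos hκ (by linarith)
    refine ⟨min (min e₀ e₁) (min (κ * (τ - σ₀)) (δ' / (V + 1))),
      lt_min (lt_min he₀ he₁) (lt_min h1 (by positivity)),
      (min_le_left _ _).trans (min_le_left _ _), (min_le_left _ _).trans (min_le_right _ _),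
      (min_le_right _ _).trans (min_le_left _ _), ?_⟩
    have h2 : min (min e₀ e₁) (min (κ * (τ - σ₀)) (δ' / (V + 1))) ≤ δ' / (V + 1) :=
      (min_le_right _ _).trans (min_le_right _ _)
    have h3 : 0 ≤ δ' / (V + 1) := by positivity
    calc min (min e₀ e₁) (min (κ * (τ - σ₀)) (δ' / (V + 1))) * V
        ≤ δ' / (V + 1) * (V + 1) := by
          have : V ≤ V + 1 := by linarith
          gcongr
      _ = δ' := by field_simp
  obtain ⟨s₁, hs₁, Hs⟩ := Hgood e he0 δ₁ hδ₁0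
  refine ⟨min s₁ r₀, lt_min hs₁ hr₀, ?_⟩
  intro s hs hss a₀
  have hss1 : s < s₁ := hss.trans_le (min_le_left _ _)
  have hss2 : s < r₀ := hss.trans_le (min_le_right _ _)
  obtain ⟨Q, b, L, S, hQgc, hQK, hQK', hQD, hQF, hQl⟩ := Hs s hs hss1 a₀
  obtain ⟨hdisj, Q₀, hQ₀Q, hQ₀s, hQ₀m⟩ := Hintr Q (fun _ => Cb) (fun _ => e) (fun _ => s)
    (fun k => vt (2 * s) a₀ k) b L S (fun _ _ => ref_Cb) (fun _ _ => Cb_sub) (fun _ _ => he0.le)
    (fun _ _ => hee₀) (fun _ _ => hs) (fun _ _ => hss2) (fun _ _ _ _ => by rw [one_mul])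
    hQgc (fun k _ l _ hkl => cel_null hs a₀ hkl)
  have hQ₀gc : ∀ k ∈ Q₀, GC Ω volume f (Gmat G) Cb κ e s (vt (2 * s) a₀ k) (b k) (L k) (S k) :=
    fun k hk => hQgc k (hQ₀Q hk)
  set t := s / N with ht
  have ht0 : 0 < t := by positivity
  have hts : t ≤ σ₀ * s := by
    rw [ht, div_le_iff₀ hN0]
    nlinarith
  have hηκ : η' * t ≤ κ * ((τ - σ₀) / 2 * s) := by
    calc η' * t ≤ κ * ((τ - σ₀) / 2) * N * t := by gcongr
      _ = κ * ((τ - σ₀) / 2 * s) := by rw [ht]; field_simp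
  refine ⟨Q₀, b, L, S, fun k hk => GC.mono_e hs hee₁ (hQ₀gc k hk), fun k hk => hQK k (hQ₀Q hk),
    fun k hk => hQK' k (hQ₀Q hk),
    fun k hk l hl hkl => hdisj k (hQ₀Q hk) l (hQ₀Q hl) hkl,
    ((Finset.sum_le_sum_of_subset hQ₀Q).trans hQD).trans (ENNReal.ofReal_le_ofReal hδ₁e), ?_, ?_⟩
  · -- leftover
    have h1 : (Ω ∩ {x | (Gmat G x).det ≠ 0}) \ ⋃ k ∈ Q₀, cel Cb (vt (2 * s) a₀ k) s ⊆
        ((Ω ∩ {x | (Gmat G x).det ≠ 0}) \ ⋃ k ∈ Q, cel Cb (vt (2 * s) a₀ k) s) ∪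
          ⋃ k ∈ Q \ Q₀, cel Cb (vt (2 * s) a₀ k) s := by
      rintro x ⟨hx1, hx2⟩
      by_cases hxQ : x ∈ ⋃ k ∈ Q, cel Cb (vt (2 * s) a₀ k) s
      · right
        obtain ⟨k, hk, hxk⟩ := mem_iUnion₂.1 hxQ
        refine mem_iUnion₂.2 ⟨k, Finset.mem_sdiff.2 ⟨hk, fun hk0 => ?_⟩, hxk⟩
        exact hx2 (mem_iUnion₂.2 ⟨k, hk0, hxk⟩)
      · left; exact ⟨hx1, hxQ⟩
    have h2 := hQ₀s (Q \ Q₀) Finset.sdiff_subset Finset.disjoint_sdiff
    rw [fr3, Finset.sum_const, nsmul_eq_mul] at h2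
    have h3 : volume (⋃ k ∈ Q \ Q₀, cel Cb (vt (2 * s) a₀ k) s) ≤ ENNReal.ofReal (ε / 2) := by
      calc volume (⋃ k ∈ Q \ Q₀, cel Cb (vt (2 * s) a₀ k) s)
          ≤ ∑ k ∈ Q \ Q₀, volume (cel Cb (vt (2 * s) a₀ k) s) := measure_biUnion_finset_le _ _
        _ = ENNReal.ofReal ((Q \ Q₀).card * (2 * s) ^ 3) := by
            simp only [vol_cel hs, Finset.sum_const, nsmul_eq_mul]
            rw [ENNReal.ofReal_mul (Nat.cast_nonneg _), ENNReal.ofReal_natCast]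
        _ ≤ ENNReal.ofReal (ε / 2) := by
            apply ENNReal.ofReal_le_ofReal
            calc ((Q \ Q₀).card : ℝ) * (2 * s) ^ 3 = 8 * ((Q \ Q₀).card * s ^ 3) := by ring
              _ ≤ 8 * ε₁ := by gcongr
              _ ≤ ε / 2 := hε₁b
    calc _ ≤ volume ((Ω ∩ {x | (Gmat G x).det ≠ 0}) \ ⋃ k ∈ Q, cel Cb (vt (2 * s) a₀ k) s) +
          volume (⋃ k ∈ Q \ Q₀, cel Cb (vt (2 * s) a₀ k) s) :=
          (measure_mono h1).trans (measure_union_le _ _)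
      _ ≤ ENNReal.ofReal (ε / 2) + ENNReal.ofReal (ε / 2) := add_le_add hQl h3
      _ = ENNReal.ofReal ε := by
          rw [← ENNReal.ofReal_add (by positivity) (by positivity)]
          congr 1; ring
  · -- translates
    intro κi _ x v D hD hVD hv hdens
    have hm0 : ENNReal.ofReal (δ / (2 * s) ^ 3) ≠ 0 := by
      rw [Ne, ENNReal.ofReal_eq_zero, not_le]; positivity
    obtain ⟨B, hB, hB'⟩ := one_scale_G hp hΩ hf hG hGm hGi hκ hτ hτ1 hσ₀τ hσ₀ ht0 hts hs hη'0 hηκ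
      (a₀ := a₀) Q₀ b L (fun k hk => (hQ₀gc k hk).sub) (fun k hk => (hQ₀gc k hk).low)
      (fun k hk => (hQ₀gc k hk).up) hD ENNReal.ofReal_ne_top hdens hv hm0 ENNReal.ofReal_ne_top
    refine ⟨B, ?_, ?_⟩
    · refine hB.trans ?_
      refine arith_bad_G hκ hτ hη'0 hs hN0 hδ hδ₁0 hε₁0 hn hθ hVD ?_ ?_ ?_ hε₁a hδ₁a
      · have h5 : ∀ k ∈ Q₀, ∫⁻ y, FinG Ω f (Gmat G) (vt (2 * s) a₀ k) (b k) (L k) ((1 - τ) * s)
            ((1 - σ₀) * s) y ≤ mm ((Ω ∩ f ⁻¹' par Cb (L k) (b k) ((1 - τ) * s)) \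
              cel Cb (vt (2 * s) a₀ k) s) + mm (cel Cb (vt (2 * s) a₀ k) s \ S k) := by
          intro k hk
          obtain ⟨hX, hXm⟩ := aem_Fin1 hΩ hf hGm (vt (2 * s) a₀ k) (b k) (L k) s τ
          have hS : MeasurableSet (cel Cb (vt (2 * s) a₀ k) s \ S k) :=
            (isClosed_cel _ _).measurableSet.diff (hQ₀gc k hk).meas
          rw [hmmA _ hX (fun x hx => hx.1.1),
            hmmA _ hS (sdiff_subset.trans (hQ₀gc k hk).sub)]
          calc ∫⁻ y, FinG Ω f (Gmat G) (vt (2 * s) a₀ k) (b k) (L k) ((1 - τ) * s)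
                ((1 - σ₀) * s) y
              ≤ ∫⁻ y, (Fin1 Ω f (Gmat G) (vt (2 * s) a₀ k) (b k) (L k) s τ y +
                (cel Cb (vt (2 * s) a₀ k) s \ S k).indicator (fun x => ‖Gmat G x‖ₑ) y) :=
                lintegral_mono fun y => shell_le hκ he0 hs (by linarith) (by linarith) heτ
                  (hQ₀gc k hk) y
            _ = _ := by
                rw [lintegral_add_left' hXm, lintegral_indicator hS, Fin1, lintegral_indicator hX]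
        refine (Finset.sum_le_sum h5).trans ?_
        rw [Finset.sum_add_distrib]
        have h6 := sum_shell hΩf he0 hs hmmac hac heV Q₀ hQ₀gc
        calc _ ≤ ENNReal.ofReal ε₁ + ENNReal.ofReal ε₁ := add_le_add hQ₀m h6
          _ = ENNReal.ofReal (2 * ε₁) := by
              rw [← ENNReal.ofReal_add hε₁0.le hε₁0.le]; congr 1; ring
      · exact (Finset.sum_le_sum_of_subset hQ₀Q).trans hQD
      · exact (Finset.sum_le_sum_of_subset hQ₀Q).trans hQF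
    · intro a haD haB
      obtain ⟨Q', hQ'1, hQ'2, hQ'3⟩ := hB' a haD haB
      refine ⟨Q', hQ'1, ?_, fun k hk => (hQ'3 k hk).mono hp0 ht0.le hη'0.le hη'η⟩
      have h1 : ((Q₀ \ Q').card : ℝ≥0∞) = ENNReal.ofReal ((Q₀ \ Q').card : ℝ) := by
        rw [ENNReal.ofReal_natCast]
      rw [h1] at hQ'2
      have h2 := (ENNReal.ofReal_le_ofReal_iff (by positivity)).1 hQ'2
      rwa [le_div_iff₀ (by positivity)] at h2

end

end Crest.Agent.R96.Coarse_538
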