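/-
helper538, row 96, 2SK tile version, leaf GOODT, part 4: perfect cubes of COARSE-G give good tiles.
-/
import Mathlib
import Crest.Agent.R96.Gdt3_538
import Crest.Agent.R96.Intr24_538
import Crest.Agent.R096.Cel1_715

set_option autoImplicit false
set_option linter.unusedSectionVars false
set_option maxHeartbeats 400000

open MeasureTheory Set Filter Metric
open scoped ENNReal NNReal Topology

namespace Crest.Agent.R96.Gdt_538

open Crest.Agent.R096.Msh_715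
open Crest.Agent.R096.Sk2_855 (sk1)
open Crest.Agent.R096.Sk3_812
open Crest.AnalysisR.VecCalc3 (R3)
open Crest.Agent.R96.Coarse_538 Crest.Agent.R96.Intr_538 Crest.Agent.R96.Lu_538

section skeleton

variable {E : Type*} [NormedAddCommGroup E] [NormedSpace ℝ E] [FiniteDimensional ℝ E]
variable {Om : Set E} {ι : Type*}

/-- the 1-skeleton of a connected union of cells is connected -/
theorem isPreconnected_sk1 (T : Tiling Om ι) {C : Set E} (hC : IsPreconnected C) (hCO : C ⊆ Om)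
    (hcc : ∀ x ∈ C, T.cc x ⊆ C) : IsPreconnected (sk1 T ∩ C) := by
  rcases (sk1 T ∩ C).eq_empty_or_nonempty with h0 | ⟨x0, hx0, hx0C⟩
  · rw [h0]; exact isPreconnected_empty
  obtain ⟨v0, hv0, hd0⟩ := T.exists_vertex (hCO hx0C)
  have hv0C : v0 ∈ C := hcc x0 hx0C hv0
  have hedge : ∀ e ∈ C, T.dim e = 1 → T.cc e ⊆ sk1 T ∩ C := fun e he h1 z hz =>
    ⟨⟨T.cc_sub_Om (hCO he) hz, by rw [← h1]; exact T.dim_le hz⟩, hcc e he hz⟩
  set φ : E → Prop := fun w => ∃ S ⊆ sk1 T ∩ C, v0 ∈ S ∧ w ∈ S ∧ IsPreconnected S with hφ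
  have hv0s : v0 ∈ sk1 T ∩ C := ⟨⟨hCO hv0C, by rw [hd0]; exact zero_le_one⟩, hv0C⟩
  have hφ0 : φ v0 := ⟨{v0}, by simpa using hv0s, rfl, rfl, isPreconnected_singleton⟩
  have step : ∀ e ∈ C, T.dim e = 1 → ∀ a ∈ T.cc e, ∀ b ∈ T.cc e, φ a → φ b := by
    rintro e he h1 a ha b hb ⟨S, hS, h2, h3, h4⟩
    exact ⟨S ∪ T.cc e, union_subset hS (hedge e he h1), Or.inl h2, Or.inr hb,
      IsPreconnected.union a h3 ha h4 (T.convex_cc e).isPreconnected⟩
  have hall : ∀ w ∈ C, T.dim w = 0 → φ w := by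
    intro w hw hw0
    have h1 := T.const_of_preconnected (φ := φ) hC hCO hcc (fun e he h1 a b hab => by
      have ha : a ∈ T.cc e := by rw [hab]; exact left_mem_segment _ _ _
      have hb : b ∈ T.cc e := by rw [hab]; exact right_mem_segment _ _ _
      exact propext ⟨step e he h1 a ha b hb, step e he h1 b hb a ha⟩) v0 hv0C w hw hd0 hw0
    exact h1 ▸ hφ0
  refine isPreconnected_of_forall v0 fun y hy => ?_
  have hy1 : T.dim y ≤ 1 := hy.1.2
  rcases Nat.eq_zero_or_pos (T.dim y) with h0 | h0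
  · obtain ⟨S, h1, h2, h3, h4⟩ := hall y hy.2 h0
    exact ⟨S, h1, h2, h3, h4⟩
  · have h1 : T.dim y = 1 := by omega
    obtain ⟨w, hw, hw0⟩ := T.exists_vertex (hCO hy.2)
    obtain ⟨S, h2, h3, h4, h5⟩ := step y hy.2 h1 w hw y (T.self_mem_cc y)
      (hall w (hcc y hy.2 hw) hw0)
    exact ⟨S, h2, h3, h4, h5⟩

/-- the ends of a segment -/
theorem seg_ends {p q p' q' : E} (hne : p' ≠ q') (h : segment ℝ p q = segment ℝ p' q') :
    (p = p' ∧ q = q') ∨ (p = q' ∧ q = p') := by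
  have hp : p ∈ segment ℝ p' q' := h ▸ left_mem_segment _ _ _
  have hq : q ∈ segment ℝ p' q' := h ▸ right_mem_segment _ _ _
  have hp' : p' ∈ segment ℝ p q := h ▸ left_mem_segment _ _ _
  have hq' : q' ∈ segment ℝ p q := h ▸ right_mem_segment _ _ _
  rw [segment_eq_image'] at hp hq hp' hq'
  obtain ⟨s, hs, rfl⟩ := hp
  obtain ⟨t, ht, rfl⟩ := hq
  obtain ⟨s', hs', e1⟩ := hp'
  obtain ⟨t', ht', e2⟩ := hq'
  simp only at e1 e2 ⊢
  set d := q' - p' with hd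
  have hd0 : d ≠ 0 := sub_ne_zero.2 hne.symm
  have e1' : (s + s' * (t - s)) • d = (0:ℝ) • d := by
    have h1 : p' + s • d + s' • (p' + t • d - (p' + s • d)) = p' + (s + s' * (t - s)) • d := by
      module
    rw [h1] at e1
    have h2 : (s + s' * (t - s)) • d = p' + (s + s' * (t - s)) • d - p' := by abel
    rw [h2, e1, zero_smul, sub_self]
  have e2' : (s + t' * (t - s)) • d = (1:ℝ) • d := by
    have h1 : p' + s • d + t' • (p' + t • d - (p' + s • d)) = p' + (s + t' * (t - s)) • d := by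
      module
    rw [h1] at e2
    have h2 : (s + t' * (t - s)) • d = p' + (s + t' * (t - s)) • d - p' := by abel
    rw [h2, e2, one_smul]
  have f1 : s + s' * (t - s) = 0 := smul_left_injective ℝ hd0 e1'
  have f2 : s + t' * (t - s) = 1 := smul_left_injective ℝ hd0 e2'
  have hs0 := hs.1
  have hs1 := hs.2
  have ht0 := ht.1
  have ht1 := ht.2
  have a1 := hs'.1
  have a2 := hs'.2
  have b1 := ht'.1
  have b2 := ht'.2
  have g1 : s = 0 ∨ t = 0 := by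
    by_contra hcon
    push Not at hcon
    have p1 : 0 < s := lt_of_le_of_ne hs0 (Ne.symm hcon.1)
    have p2 : 0 < t := lt_of_le_of_ne ht0 (Ne.symm hcon.2)
    have : 0 < (1 - s') * s + s' * t := by
      rcases a2.eq_or_lt with h3 | h3
      · rw [h3]; linarith
      · have := mul_pos (sub_pos.2 h3) p1
        have := mul_nonneg a1 p2.le
        linarith
    linarith [show (1 - s') * s + s' * t = s + s' * (t - s) by ring]
  have g2 : s = 1 ∨ t = 1 := by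
    by_contra hcon
    push Not at hcon
    have p1 : s < 1 := lt_of_le_of_ne hs1 hcon.1
    have p2 : t < 1 := lt_of_le_of_ne ht1 hcon.2
    have : (1 - t') * s + t' * t < 1 := by
      rcases b2.eq_or_lt with h3 | h3
      · rw [h3]; linarith
      · have := mul_lt_mul_of_pos_left p1 (sub_pos.2 h3)
        have := mul_le_mul_of_nonneg_left p2.le b1
        linarith
    linarith [show (1 - t') * s + t' * t = s + t' * (t - s) by ring]
  have z1 : p' + (1:ℝ) • d = q' := by rw [one_smul, hd]; abel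
  have z0 : p' + (0:ℝ) • d = p' := by rw [zero_smul, add_zero]
  rcases g1 with rfl | rfl
  · rcases g2 with h3 | rfl
    · exact absurd h3 (by norm_num)
    · exact Or.inl ⟨z0, z1⟩
  · rcases g2 with rfl | h3
    · exact Or.inr ⟨z1, z0⟩
    · exact absurd h3 (by norm_num)

end skeleton

/-- the affine map of a good cube -/
noncomputable def affE (L : R3 →L[ℝ] R3) (hL : Function.Injective L) (b z : R3) :
    R3 ≃ᵃ[ℝ] R3 :=
  AffineEquiv.mk' (fun y => b + L (y - z))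
    (LinearEquiv.ofInjectiveEndo (L : R3 →ₗ[ℝ] R3) hL) z (by
      intro y
      simp only [vsub_eq_sub, LinearEquiv.coe_ofInjectiveEndo, ContinuousLinearMap.coe_coe,
        vadd_eq_add, sub_self, map_zero, add_zero]
      abel)

theorem affE_apply (L : R3 →L[ℝ] R3) (hL : Function.Injective L) (b z y : R3) :
    affE L hL b z y = b + L (y - z) := rfl

theorem affE_linear (L : R3 →L[ℝ] R3) (hL : Function.Injective L) (b z y : R3) :
    (affE L hL b z).linear y = L y := rfl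

theorem inj_of_low {L : R3 →L[ℝ] R3} {κ : ℝ} (hκ : 0 < κ) (hL : ∀ v, κ * ‖v‖ ≤ ‖L v‖) :
    Function.Injective L := by
  rw [injective_iff_map_eq_zero]
  intro v hv
  have h1 := hL v
  rw [hv, norm_zero] at h1
  have h2 : ‖v‖ ≤ 0 := by
    by_contra h
    have : 0 < κ * ‖v‖ := mul_pos hκ (not_le.1 h)
    linarith
  exact norm_le_zero_iff.1 h2

/-- the deep part of the tiling consists of segments of the family -/
structure MeshG {Ω : Set R3} {ι κi : Type*} (T : Tiling Ω ι) (x v : κi → R3) (a : R3)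
    (W : Set R3) : Prop where
  edge : ∀ y ∈ sk1 T, y ∈ W → ∃ e, seg x v a e ⊆ sk1 T ∧ y ∈ seg x v a e
  cell : ∀ y ∈ Ω, T.dim y = 1 → T.cc y ⊆ W → ∃ e, T.cc y = seg x v a e

theorem seg_eq_segment {κi : Type*} (x v : κi → R3) (a : R3) (e : κi) :
    seg x v a e = segment ℝ (a + x e) (a + x e + v e) := by
  rw [segment_eq_image', seg]
  congr 1
  funext σ
  rw [add_sub_cancel_left]

variable {ι κi : Type*} {Ω La : Set R3} {T : Tiling Ω ι} {x v : κi → R3} {p : ℝ} {f fi : R3 → R3}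
  {D : R3 → R3 →L[ℝ] R3} {κ τ σ₀ η t s : ℝ} {a z b : R3} {L : R3 →L[ℝ] R3} {W : Set R3}

/-- **no intruders**, Ω arbitrary -/
theorem perf_out (hP : PerfG x v p Ω f D κ τ σ₀ η t s a z b L) (F : HF Ω La f fi)
    (hs : 0 < s) (hτ0 : 0 < τ) (hτ : 2 * τ ≤ 1) (hM : MeshG T x v a W)
    (hW : ∀ y ∈ Ω, f y ∈ par Cb L b ((1 - τ) * s) → y ∈ W)
    (hpar : par Cb L b ((1 - τ) * s) ⊆ La) {w : R3} (hw : w ∈ sk1 T)
    (hwN : w ∈ cel Cb z ((1 - σ₀) * s)) (hwP : f w ∈ par Cb L b ((1 - τ) * s)) {y : R3}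
    (hy : y ∈ sk1 T) (hyP : f y ∈ par Cb L b ((1 - 2 * τ) * s)) :
    y ∈ cel Cb z ((1 - σ₀) * s) := by
  set Q := par Cb L b ((1 - τ) * s) with hQ
  have hQc : IsPreconnected Q := by
    rw [hQ, par]
    refine (ref_Cb.conv.isPreconnected).image _ ?_
    exact (by fun_prop : Continuous fun u : R3 => b + ((1 - τ) * s) • L u).continuousOn
  have hyQ : f y ∈ Q := by
    obtain ⟨u, hu, hu'⟩ := hyP
    have h1 : 0 < (1 - τ) * s := mul_pos (by linarith) hs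
    refine ⟨((1 - 2 * τ) * s / ((1 - τ) * s)) • u, fun i => ?_, ?_⟩
    · rw [PiLp.smul_apply, smul_eq_mul, abs_mul]
      have h2 : |(1 - 2 * τ) * s / ((1 - τ) * s)| ≤ 1 := by
        rw [abs_of_nonneg (div_nonneg (mul_nonneg (by linarith) hs.le) h1.le), div_le_one h1]
        exact mul_le_mul_of_nonneg_right (by linarith) hs.le
      calc _ ≤ 1 * 1 := mul_le_mul h2 (hu i) (abs_nonneg _) zero_le_one
        _ = 1 := one_mul _
    · simp only at hu' ⊢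
      rw [map_smul, smul_smul, mul_div_cancel₀ _ h1.ne']
      exact hu'
  have hfiQ : IsPreconnected (fi '' Q) := hQc.image _ (F.conti.mono hpar)
  have hfiQΩ : fi '' Q ⊆ Ω := by
    rintro _ ⟨q, hq, rfl⟩
    exact F.mti (hpar hq)
  set C := connectedComponentIn Ω w with hC
  have hCΩ : C ⊆ Ω := connectedComponentIn_subset _ _
  have hCp : IsPreconnected C := isPreconnected_connectedComponentIn
  have hwQ : w ∈ fi '' Q := ⟨f w, hwP, F.li w hw.1⟩
  have hyQ' : y ∈ fi '' Q := ⟨f y, hyQ, F.li y hy.1⟩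
  have hyC : y ∈ C := (hfiQ.subset_connectedComponentIn hwQ hfiQΩ) hyQ'
  have hwC : w ∈ C := mem_connectedComponentIn hw.1
  have hsubC : ∀ S : Set R3, IsPreconnected S → S ⊆ Ω → ∀ u ∈ S, u ∈ C → S ⊆ C := by
    intro S hS hSΩ u hu huC
    rw [hC, connectedComponentIn_eq huC]
    exact hS.subset_connectedComponentIn hu hSΩ
  have hcc : ∀ u ∈ C, T.cc u ⊆ C := fun u hu =>
    hsubC _ (T.convex_cc u).isPreconnected (T.cc_sub_Om (hCΩ hu)) u (T.self_mem_cc u) hu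
  refine hP.noint (sk1 T ∩ C) (fun u hu => hCΩ hu.2) (isPreconnected_sk1 T hCp hCΩ hcc) ?_
    ⟨w, ⟨hw, hwC⟩, Or.inl hwN⟩ y ⟨hy, hyC⟩ hyP
  intro u hu huQ
  obtain ⟨e, he, hue⟩ := hM.edge u hu.1 (hW u (hCΩ hu.2) huQ)
  refine ⟨e, fun u' hu' => ⟨he hu', ?_⟩, hue⟩
  have hpre : IsPreconnected (seg x v a e) := by
    rw [seg_eq_segment]; exact (convex_segment _ _).isPreconnected
  exact hsubC _ hpre (fun u'' hu'' => (he hu'').1) u hue hu.2 hu'

theorem perf_near (hP : PerfG x v p Ω f D κ τ σ₀ η t s a z b L) (hM : MeshG T x v a W)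
    (hWc : cel Cb z ((1 - σ₀) * s) ⊆ W) {y : R3} (hy : y ∈ sk1 T)
    (hyN : y ∈ cel Cb z ((1 - σ₀) * s)) : ‖f y - (b + L (y - z))‖ ≤ η * t := by
  obtain ⟨e, he, hye⟩ := hM.edge y hy (hWc hyN)
  exact (hP.near e y hye hyN y hye).2

/-- bounded variation of `f - A` along one segment, both orientations -/
theorem perf_bv (hp : 1 ≤ p) (hη : 0 < η) (ht : 0 < t)
    (hP : PerfG x v p Ω f D κ τ σ₀ η t s a z b L)
    (hA : ∀ e, ACV Ω f D (v e) (a + x e)) (hv : ∀ e, ‖v e‖ ≤ t) {e : κi} (hve : v e ≠ 0)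
    (hsub : seg x v a e ⊆ cel Cb z s) {A : R3 → R3} (hAL : ∀ y, A y = b + L (y - z))
    {p₁ q₁ : R3} (h : segment ℝ p₁ q₁ = seg x v a e) :
    ∃ F : ℝ → ℝ, MonotoneOn F (Icc 0 1) ∧ F 1 - F 0 ≤ 2 * η * t ∧
      ∀ s₁ ∈ Icc (0:ℝ) 1, ∀ s₂ ∈ Icc (0:ℝ) 1, s₁ ≤ s₂ →
        ‖(f (p₁ + s₂ • (q₁ - p₁)) - A (p₁ + s₂ • (q₁ - p₁))) -
          (f (p₁ + s₁ • (q₁ - p₁)) - A (p₁ + s₁ • (q₁ - p₁)))‖ ≤ F s₂ - F s₁ := by
  set w := a + x e with hw
  have hin : ∀ σ ∈ Icc (0:ℝ) 1, w + σ • v e ∈ cel Cb z s := fun σ hσ => hsub ⟨σ, hσ, rfl⟩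
  have hI' : ∫⁻ τ in Ioc (0:ℝ) 1, ‖D (w + τ • v e) - L‖ₑ ≤ ENNReal.ofReal (2 * η) := by
    apply jensen2 hp hη
    refine le_trans (le_of_eq ?_) (hP.edgeD e)
    apply setLIntegral_congr_fun measurableSet_Ioc
    intro τ hτ
    simp only
    rw [indicator_of_mem (hin τ ⟨hτ.1.le, hτ.2⟩)]
  set J : ℝ → ℝ≥0∞ := fun σ => ∫⁻ τ in Ioc (0:ℝ) σ, ‖D (w + τ • v e) - L‖ₑ * ‖v e‖ₑ with hJ
  have hv' : ‖v e‖ₑ ≤ ENNReal.ofReal t := by
    rw [← ofReal_norm]; exact ENNReal.ofReal_le_ofReal (hv e)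
  have hJ1 : J 1 ≤ ENNReal.ofReal (2 * η * t) := by
    calc J 1 = (∫⁻ τ in Ioc (0:ℝ) 1, ‖D (w + τ • v e) - L‖ₑ) * ‖v e‖ₑ :=
          lintegral_mul_const' _ _ enorm_ne_top
      _ ≤ ENNReal.ofReal (2 * η) * ENNReal.ofReal t := mul_le_mul' hI' hv'
      _ = ENNReal.ofReal (2 * η * t) := (ENNReal.ofReal_mul (by positivity)).symm
  have hJle : ∀ σ ≤ (1:ℝ), J σ ≤ J 1 := fun σ hσ => lintegral_mono_set (Ioc_subset_Ioc_right hσ)
  have hJt : ∀ σ ≤ (1:ℝ), J σ ≠ ∞ := fun σ hσ =>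
    ne_top_of_le_ne_top ENNReal.ofReal_ne_top ((hJle σ hσ).trans hJ1)
  have hsplit : ∀ s₁ s₂ : ℝ, 0 ≤ s₁ → s₁ ≤ s₂ →
      J s₂ = J s₁ + ∫⁻ τ in Ioc s₁ s₂, ‖D (w + τ • v e) - L‖ₑ * ‖v e‖ₑ := by
    intro s₁ s₂ h0 h12
    simp only [hJ]
    rw [← Ioc_union_Ioc_eq_Ioc h0 h12, lintegral_union measurableSet_Ioc]
    exact Set.Ioc_disjoint_Ioc_of_le le_rfl
  set F : ℝ → ℝ := fun σ => (J σ).toReal with hF
  have hFm : ∀ s₁ s₂ : ℝ, 0 ≤ s₁ → s₁ ≤ s₂ → s₂ ≤ 1 → F s₁ ≤ F s₂ := by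
    intro s₁ s₂ h0 h12 h1
    apply ENNReal.toReal_mono (hJt s₂ h1)
    rw [hsplit s₁ s₂ h0 h12]
    exact le_self_add
  have hF0 : F 0 = 0 := by simp [hF, hJ]
  have hF1 : F 1 ≤ 2 * η * t := ENNReal.toReal_le_of_le_ofReal (by positivity) hJ1
  have hkey : ∀ s₁ s₂ : ℝ, 0 ≤ s₁ → s₁ ≤ s₂ → s₂ ≤ 1 →
      ‖(f (w + s₂ • v e) - A (w + s₂ • v e)) - (f (w + s₁ • v e) - A (w + s₁ • v e))‖ ≤
        F s₂ - F s₁ := by
    intro s₁ s₂ h0 h12 h1
    have h3 := (hA e).diff_le L h12 (fun σ hσ => hP.sub (hin σ ⟨h0.trans hσ.1, hσ.2.trans h1⟩))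
    have h4 : (f (w + s₂ • v e) - A (w + s₂ • v e)) - (f (w + s₁ • v e) - A (w + s₁ • v e)) =
        (f (w + s₂ • v e) - L (w + s₂ • v e)) - (f (w + s₁ • v e) - L (w + s₁ • v e)) := by
      simp only [hAL, map_sub]
      abel
    rw [h4]
    have h5 := hsplit s₁ s₂ h0 h12
    have h6 : (∫⁻ τ in Ioc s₁ s₂, ‖D (w + τ • v e) - L‖ₑ * ‖v e‖ₑ) ≠ ∞ :=
      ne_top_of_le_ne_top (hJt s₂ h1) (by rw [h5]; exact le_add_self)
    have h7 : F s₂ = F s₁ + (∫⁻ τ in Ioc s₁ s₂, ‖D (w + τ • v e) - L‖ₑ * ‖v e‖ₑ).toReal := by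
      simp only [hF]
      rw [h5, ENNReal.toReal_add (hJt s₁ (h12.trans h1)) h6]
    rw [h7, add_sub_cancel_left]
    have h8 := ENNReal.toReal_mono h6 h3
    rwa [toReal_enorm] at h8
  rw [seg_eq_segment, ← hw] at h
  have hne : w ≠ w + v e := by
    intro h0
    exact hve (by simpa using h0.symm)
  rcases seg_ends hne h with ⟨rfl, h2⟩ | ⟨h1, h2⟩
  · refine ⟨F, fun s₁ h₁ s₂ h₂ h12 => hFm s₁ s₂ h₁.1 h12 h₂.2, by rw [hF0]; linarith, ?_⟩
    intro s₁ h₁ s₂ h₂ h12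
    rw [h2, add_sub_cancel_left]
    exact hkey s₁ s₂ h₁.1 h12 h₂.2
  · refine ⟨fun σ => - F (1 - σ), ?_, ?_, ?_⟩
    · intro s₁ h₁ s₂ h₂ h12
      have := hFm (1 - s₂) (1 - s₁) (by linarith [h₂.2]) (by linarith) (by linarith [h₁.1])
      simp only
      linarith
    · simp only [sub_self, sub_zero, hF0]
      linarith
    · intro s₁ h₁ s₂ h₂ h12
      have h3 := hkey (1 - s₂) (1 - s₁) (by linarith [h₂.2]) (by linarith) (by linarith [h₁.1])
      have e1 : ∀ σ : ℝ, p₁ + σ • (q₁ - p₁) = w + (1 - σ) • v e := by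
        intro σ
        rw [h1, h2]
        module
      rw [e1, e1, norm_sub_rev]
      simp only
      linarith

/-- **COARSE-G ⟹ GOOD TILES.**  `A = b + L (· - z)`, levels `1 + β`, `1 + 3 β`. -/
theorem goodT_perf (hp : 1 ≤ p) (F : HF Ω La f fi) (hκ : 0 < κ) (hη : 0 < η) (ht : 0 < t)
    (hs : 0 < s) (hσ₀ : 0 < σ₀) (hσ₀τ : σ₀ < τ) (hτ : 2 * τ ≤ 1)
    (hP : PerfG x v p Ω f D κ τ σ₀ η t s a z b L)
    (hA : ∀ e, ACV Ω f D (v e) (a + x e)) (hv : ∀ e, ‖v e‖ ≤ t)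
    (hM : MeshG T x v a W) (hW : ∀ y ∈ Ω, f y ∈ par Cb L b ((1 - τ) * s) → y ∈ W)
    (hWc : cel Cb z ((1 - σ₀) * s) ⊆ W) (hpar : par Cb L b ((1 - τ) * s) ⊆ La)
    (hητ : η * t ≤ κ * (τ * s))
    {i : ι} (hne : (T.H i).Nonempty) {c : R3} (hc : c ∈ I (T.H i)) {β ρ : ℝ} (hβ : 0 < β)
    (hρ : 0 < ρ) (hB : closedBall c ρ ⊆ P (T.H i))
    (hin : ∀ y ∈ P (T.H i), c + (1 + 3 * β) • (y - c) ∈ cel Cb z ((1 - 2 * τ) * s))
    (hNc : ∀ y, Crs T i y → T.cc y ⊆ cel Cb z ((1 - σ₀) * s))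
    (gap : ∀ y ∈ sk1 T, y ∈ cel Cb z ((1 - σ₀) * s) → y ∉ P (T.H i) → ¬ Crs T i y →
      1 + 4 * β ≤ ug (T.H i) hne c (AffineEquiv.refl ℝ R3) y)
    (tg : Tg T i) (hη1 : 4 * ((κ * ρ)⁻¹ * (η * t)) ≤ β)
    (count : (Nat.card (KT T i) : ℝ) * (2 * ((κ * ρ)⁻¹ * (2 * η * t))) < 2 * β) :
    GoodT T La f i (ug (T.H i) hne c (affE L (inj_of_low hκ hP.low) b z))
      (affE L (inj_of_low hκ hP.low) b z c) (1 + β) (1 + 3 * β) := by
  set A := affE L (inj_of_low hκ hP.low) b z with hAdef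
  have hAL : ∀ y, A y = b + L (y - z) := fun y => rfl
  have hτ0 : 0 < τ := hσ₀.trans hσ₀τ
  have h12 : 0 ≤ (1 - 2 * τ) * s := mul_nonneg (by linarith) hs.le
  -- the target
  have hlev : ∀ y, ug (T.H i) hne c A y ≤ 1 + 3 * β → y ∈ par Cb L b ((1 - 2 * τ) * s) := by
    intro y hy
    have h1 : y ∈ {y | ug (T.H i) hne c A y ≤ 1 + 3 * β} := hy
    rw [ug_level hne hc A (by linarith)] at h1
    obtain ⟨y', hy', rfl⟩ := h1
    obtain ⟨u, hu, hu'⟩ := hin y' hy'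
    refine ⟨u, hu, ?_⟩
    simp only at hu' ⊢
    have h2 : A c + (1 + 3 * β) • (A y' - A c) = b + L (c + (1 + 3 * β) • (y' - c) - z) := by
      simp only [hAL, map_sub, map_add, map_smul]
      module
    rw [h2, ← hu', add_sub_cancel_left, map_smul]
  have hpm : par Cb L b ((1 - 2 * τ) * s) ⊆ par Cb L b ((1 - τ) * s) := by
    intro y hy
    have h1 := par_thick' ref_Cb hκ hP.low h12 (mul_pos hτ0 hs) hy (y' := y)
      (by rw [sub_self, norm_zero]; positivity)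
    have h2 : (1 - 2 * τ) * s + τ * s = (1 - τ) * s := by ring
    rwa [h2] at h1
  have hsub1 : ∀ r : ℝ, 0 ≤ r → r ≤ (1 - σ₀) * s → cel Cb z r ⊆ cel Cb z ((1 - σ₀) * s) := by
    intro r hr hrs y hy
    have h1 : 0 < (1 - σ₀) * s := mul_pos (by linarith) hs
    rw [mem_cel h1]
    obtain ⟨u, hu, rfl⟩ := hy
    intro j
    have h2 : (z + r • u) j - z j = r * u j := by simp
    rw [h2, abs_mul, abs_of_nonneg hr]
    calc r * |u j| ≤ r * 1 := mul_le_mul_of_nonneg_left (hu j) hr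
      _ ≤ (1 - σ₀) * s := by linarith
  have hconv : Convex ℝ (cel Cb z ((1 - 2 * τ) * s)) := by
    have h1 : cel Cb z ((1 - 2 * τ) * s) =
        (fun y : R3 => z + y) '' ((fun u : R3 => ((1 - 2 * τ) * s) • u) '' Cb) := by
      rw [image_image]; rfl
    rw [h1]
    exact (ref_Cb.conv.smul _).translate _
  have hcP : c ∈ P (T.H i) := hB (mem_closedBall_self hρ.le)
  have hPN0 : P (T.H i) ⊆ cel Cb z ((1 - 2 * τ) * s) := by
    intro y hy
    have h1 := hin y hy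
    have h2 := hin c hcP
    rw [sub_self, smul_zero, add_zero] at h2
    have h3 : (0:ℝ) < 1 + 3 * β := by linarith
    have h4 := hconv h2 h1 (a := 1 - (1 + 3 * β)⁻¹) (b := (1 + 3 * β)⁻¹)
      (by rw [sub_nonneg]; exact inv_le_one_of_one_le₀ (by linarith)) (by positivity) (by ring)
    have h5 : (1 - (1 + 3 * β)⁻¹) • c + (1 + 3 * β)⁻¹ • (c + (1 + 3 * β) • (y - c)) = y := by
      rw [smul_add, smul_smul, inv_mul_cancel₀ h3.ne', one_smul]
      module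
    rwa [h5] at h4
  have hPN : P (T.H i) ⊆ cel Cb z ((1 - σ₀) * s) := hPN0.trans (hsub1 _ h12
    (mul_le_mul_of_nonneg_right (by linarith) hs.le))
  -- a vertex of the tile
  have hcΩ : c ∈ Ω := T.sub i hcP
  obtain ⟨w, hw, hw0⟩ := T.exists_vertex hcΩ
  have hwi : w ∈ P (T.H i) := T.cc_sub_tile (i := i) hcP hw
  have hws : w ∈ sk1 T := ⟨T.sub i hwi, by rw [hw0]; exact zero_le_one⟩
  have hwnear := perf_near hP hM hWc hws (hPN hwi)
  have hwP : f w ∈ par Cb L b ((1 - τ) * s) := by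
    have h1 : b + L (w - z) ∈ par Cb L b ((1 - 2 * τ) * s) := by
      obtain ⟨u, hu, hu'⟩ := hPN0 hwi
      refine ⟨u, hu, ?_⟩
      simp only at hu' ⊢
      rw [← hu', add_sub_cancel_left, map_smul]
    have h2 := par_thick' ref_Cb hκ hP.low h12 (mul_pos hτ0 hs) h1 (y' := f w)
      (by rw [mul_one]; exact hwnear.trans hητ)
    have h3 : (1 - 2 * τ) * s + τ * s = (1 - τ) * s := by ring
    rwa [h3] at h2
  refine goodT_of hne hc A F.cont (N := cel Cb z ((1 - σ₀) * s)) (Λ := (κ * ρ)⁻¹)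
    (ε := η * t) (β := β) (η' := 2 * η * t) (by positivity)
    (GH_norm hc A hρ hκ hB fun u => hP.low u) (by positivity) hβ hη1 ?_ hPN hNc ?_ ?_ ?_ tg ?_ count
  · intro y hy
    exact hpar (hpm (hlev y hy))
  · intro y hy hyN
    exact perf_near hP hM hWc hy hyN
  · intro y hy hyu
    exact perf_out hP F hs hτ0 hτ hM hW hpar hws (hPN hwi) hwP hy (hlev _ hyu)
  · intro y hy hyN hyi hyc
    rw [ug_comp]
    exact gap y hy hyN hyi hyc
  · intro y hy p₁ q₁ hpq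
    obtain ⟨e, he⟩ := hM.cell y hy.1 hy.2.1 ((hNc y hy).trans hWc)
    have hve : v e ≠ 0 := by
      intro h0
      obtain ⟨p', q', hne', e1, -⟩ := T.edge_eq hy.1 hy.2.1
      have h1 : seg x v a e = {a + x e} := by
        rw [seg_eq_segment, h0, add_zero, segment_same]
      rw [he, h1] at e1
      have h2 : p' ∈ ({a + x e} : Set R3) := by rw [e1]; exact left_mem_segment _ _ _
      have h3 : q' ∈ ({a + x e} : Set R3) := by rw [e1]; exact right_mem_segment _ _ _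
      exact hne' (h2.trans h3.symm)
    have hsubs : seg x v a e ⊆ cel Cb z s := by
      intro u hu
      have h1 : u ∈ cel Cb z ((1 - σ₀) * s) := hNc y hy (by rw [he]; exact hu)
      exact (hP.near e u hu h1 u hu).1
    exact perf_bv hp hη ht hP hA hv hve hsubs hAL (hpq.symm.trans he)

end Crest.Agent.R96.Gdt_538
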