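/-
helper199, row 96, leaf ENERGY, part 3: Jensen on cells of the Whitney mesh of helper810,
counting of edges and cubes.
-/
import Mathlib
import Crest.Agent.R096.Msh4_810

set_option autoImplicit false

open MeasureTheory Set Filter
open scoped Topology ENNReal

namespace Crest.Agent.R96.En3_199

open Crest.Agent.R096.Msh_810

noncomputable section

/-- Jensen for a finite measure -/
theorem lintegral_rpow_le {α : Type*} [MeasurableSpace α] {ν : Measure α} [IsFiniteMeasure ν]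
    {f : α → ℝ≥0∞} (hf : AEMeasurable f ν) {p : ℝ} (hp : 1 ≤ p) :
    (∫⁻ x, f x ∂ν) ^ p ≤ (ν univ) ^ (p - 1) * ∫⁻ x, f x ^ p ∂ν := by
  rcases eq_or_lt_of_le hp with h | h
  · subst h; simp
  · set q : ℝ := p / (p - 1) with hq
    have hpq : p.HolderConjugate q := Real.HolderConjugate.conjExponent h
    have h2 := ENNReal.lintegral_mul_le_Lp_mul_Lq ν hpq hf
      (g := fun _ => 1) aemeasurable_const
    simp only [Pi.mul_apply, mul_one, ENNReal.one_rpow, lintegral_const, one_mul] at h2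
    have h3 := ENNReal.rpow_le_rpow h2 (by linarith : (0:ℝ) ≤ p)
    rw [ENNReal.mul_rpow_of_nonneg _ _ (by linarith : (0:ℝ) ≤ p), ← ENNReal.rpow_mul,
      ← ENNReal.rpow_mul, one_div, inv_mul_cancel₀ (by linarith : p ≠ 0), ENNReal.rpow_one] at h3
    have h4 : 1 / q * p = p - 1 := by
      rw [hq]
      have : p - 1 ≠ 0 := by linarith
      field_simp
    rw [h4, mul_comm] at h3
    exact h3

variable {n : ℕ}

/-- Jensen on one cell -/
theorem ic_rpow_le {g : (Fin n → ℝ) → ℝ≥0∞} (hg : Measurable g) (a : Fin n → ℝ) {σ : Idx n}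
    (hσ : σ.J.card = 1) {p : ℝ} (hp : 1 ≤ p) :
    ((2:ℝ≥0∞) ^ σ.k * ic g a σ) ^ p ≤ (2:ℝ≥0∞) ^ σ.k * ic (fun x => g x ^ p) a σ := by
  have h1 : ic g a σ ^ p ≤ (((2:ℝ≥0∞) ^ σ.k)⁻¹) ^ (p - 1) * ic (fun x => g x ^ p) a σ := by
    unfold ic
    have h2 := lintegral_rpow_le (ν := sm σ.k σ.J) (f := fun t => g (vx a σ.k σ.z + t))
      (hg.comp (measurable_id.const_add _)).aemeasurable hp
    rw [sm_univ, hσ, pow_one] at h2
    exact h2
  rw [ENNReal.mul_rpow_of_nonneg _ _ (by linarith : (0:ℝ) ≤ p)]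
  have h2 : ((2:ℝ≥0∞) ^ σ.k) ≠ 0 := by positivity
  have h3 : ((2:ℝ≥0∞) ^ σ.k) ≠ ∞ := ENNReal.pow_ne_top (by norm_num)
  calc ((2:ℝ≥0∞) ^ σ.k) ^ p * ic g a σ ^ p
      ≤ ((2:ℝ≥0∞) ^ σ.k) ^ p * ((((2:ℝ≥0∞) ^ σ.k)⁻¹) ^ (p - 1) *
        ic (fun x => g x ^ p) a σ) := by gcongr
    _ = (((2:ℝ≥0∞) ^ σ.k) ^ p * (((2:ℝ≥0∞) ^ σ.k)⁻¹) ^ (p - 1)) *
        ic (fun x => g x ^ p) a σ := by ring
    _ = (2:ℝ≥0∞) ^ σ.k * ic (fun x => g x ^ p) a σ := by
        congr 1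
        rw [ENNReal.inv_rpow, ← ENNReal.rpow_neg, ← ENNReal.rpow_add _ _ h2 h3]
        norm_num

variable {D : Dat n}

/-- the mesh edges below a cell -/
def edgesOf (τ : Cel D) : Set (Cel D) := {σ | σ ≤ τ ∧ σ.1.J.card = 1}

/-- the top cubes above a cell -/
def topsOf (σ : Cel D) : Set (Cel D) := {τ | σ ≤ τ ∧ τ.1.J = Finset.univ}

theorem finite_edgesOf (τ : Cel D) : (edgesOf τ).Finite :=
  (Cel.finite_below τ).subset fun _ h => h.1

theorem finite_topsOf (σ : Cel D) : (topsOf σ).Finite :=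
  (Cel.finite_touch σ).subset fun τ h => by
    obtain ⟨x, hx⟩ := σ.o_nonempty
    exact ⟨x, h.1 (σ.o_subset_c hx), σ.o_subset_c hx⟩

theorem scale_le_of_le {σ τ : Cel D} (h : σ ≤ τ) : τ.1.k ≤ σ.1.k ∧ σ.1.k ≤ τ.1.k + 1 := by
  refine ⟨Cel.scale_mono h, ?_⟩
  obtain ⟨x, hx⟩ := σ.o_nonempty
  exact Cel.scale_le (σ.o_subset_c hx) (h (σ.o_subset_c hx))

/-- the lower corner lies in the closed cell -/
theorem vx_mem (a : Fin n → ℝ) (σ : Idx n) : vx a σ.k σ.z ∈ Dc a σ := by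
  intro i
  have h := ps_vx a σ.k σ.z 0 i
  simp only [add_zero, Pi.zero_apply, mul_zero] at h
  rw [h]
  exact ⟨fun _ => ⟨le_rfl, by linarith⟩, fun _ => rfl⟩

/-- position of the lower corner of a smaller cell -/
theorem z_bounds {σ τ : Cel D} (h : σ ≤ τ) (i : Fin n) :
    2 ^ (σ.1.k - τ.1.k) * τ.1.z i ≤ σ.1.z i ∧
      σ.1.z i ≤ 2 ^ (σ.1.k - τ.1.k) * τ.1.z i + 2 ^ (σ.1.k - τ.1.k) := by
  have h1 : vx D.a σ.1.k σ.1.z ∈ Dc D.a τ.1 := h (vx_mem D.a σ.1)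
  have h2 := Dc_subset_Cu _ _ h1
  rw [mem_Cu] at h2
  obtain ⟨h3, h4⟩ := h2 i
  have h5 := ps_mul D.a (scale_le_of_le h).1 (vx D.a σ.1.k σ.1.z) i
  have h6 := ps_vx D.a σ.1.k σ.1.z 0 i
  simp only [add_zero, Pi.zero_apply, mul_zero] at h6
  rw [h6] at h5
  push_cast at h5
  have h7 : (0:ℝ) < 2 ^ (σ.1.k - τ.1.k) := by positivity
  have h8 := mul_le_mul_of_nonneg_left h3 h7.le
  have h9 := mul_le_mul_of_nonneg_left h4 h7.le
  rw [← h5] at h8 h9
  constructor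
  · have : ((2 ^ (σ.1.k - τ.1.k) * τ.1.z i : ℤ) : ℝ) ≤ (σ.1.z i : ℝ) := by push_cast; exact h8
    exact_mod_cast this
  · have : (σ.1.z i : ℝ) ≤ ((2 ^ (σ.1.k - τ.1.k) * τ.1.z i + 2 ^ (σ.1.k - τ.1.k) : ℤ) : ℝ) := by
      push_cast; linarith
    exact_mod_cast this

/-- number of mesh edges of a cell -/
def M1 (n : ℕ) : ℕ := 2 * (3 ^ n * 2 ^ n)

/-- number of mesh cubes at a cell -/
def M2 (n : ℕ) : ℕ := 2 * 3 ^ n

theorem encard_edgesOf (τ : Cel D) : (edgesOf τ).encard ≤ M1 n := by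
  classical
  let T : Finset (ℕ × (Fin n → ℤ) × Finset (Fin n)) :=
    (Finset.range 2) ×ˢ ((Fintype.piFinset fun _ => Finset.Icc (0:ℤ) 2) ×ˢ Finset.univ)
  have hT : T.card = M1 n := by
    simp only [T, Finset.card_product, Finset.card_range, Fintype.card_piFinset, Int.card_Icc,
      Finset.prod_const, Finset.card_univ, Fintype.card_fin, Fintype.card_finset, M1]
    norm_num
    rfl
  let f : Cel D → ℕ × (Fin n → ℤ) × Finset (Fin n) := fun σ =>
    (σ.1.k - τ.1.k, (fun i => σ.1.z i - 2 ^ (σ.1.k - τ.1.k) * τ.1.z i), σ.1.J)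
  have hmaps : MapsTo f (edgesOf τ) (T : Set (ℕ × (Fin n → ℤ) × Finset (Fin n))) := by
    rintro σ ⟨h, -⟩
    have h1 := scale_le_of_le h
    simp only [T, f, Finset.coe_product, mem_prod, Finset.mem_coe, Finset.mem_range,
      Fintype.mem_piFinset, Finset.mem_Icc, Finset.mem_univ, and_true]
    refine ⟨by omega, fun i => ?_⟩
    have h2 := z_bounds h i
    have h3 : (2:ℤ) ^ (σ.1.k - τ.1.k) ≤ 2 := by
      calc (2:ℤ) ^ (σ.1.k - τ.1.k) ≤ 2 ^ 1 := pow_le_pow_right₀ (by norm_num) (by omega)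
        _ = 2 := by norm_num
    constructor <;> linarith [h2.1, h2.2]
  have hinj : InjOn f (edgesOf τ) := by
    rintro σ ⟨h, -⟩ σ' ⟨h', -⟩ he
    simp only [f, Prod.mk.injEq] at he
    obtain ⟨h1, h2, h3⟩ := he
    have hs := scale_le_of_le h
    have hs' := scale_le_of_le h'
    have hk : σ.1.k = σ'.1.k := by omega
    apply Subtype.ext
    apply Idx.ext hk _ h3
    funext i
    have h4 : σ.1.z i - 2 ^ (σ.1.k - τ.1.k) * τ.1.z i =
        σ'.1.z i - 2 ^ (σ'.1.k - τ.1.k) * τ.1.z i := congrFun h2 i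
    rw [h1] at h4
    linarith
  calc (edgesOf τ).encard = (f '' edgesOf τ).encard := (hinj.encard_image).symm
    _ ≤ (T : Set (ℕ × (Fin n → ℤ) × Finset (Fin n))).encard := encard_le_encard hmaps.image_subset
    _ = M1 n := by rw [encard_coe_eq_coe_finsetCard, hT]

theorem encard_topsOf (σ : Cel D) : (topsOf σ).encard ≤ M2 n := by
  classical
  let T : Finset (ℕ × (Fin n → ℤ)) :=
    (Finset.range 2) ×ˢ (Fintype.piFinset fun _ => Finset.Icc (0:ℤ) 2)
  have hT : T.card = M2 n := by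
    simp only [T, Finset.card_product, Finset.card_range, Fintype.card_piFinset, Int.card_Icc,
      Finset.prod_const, Finset.card_univ, Fintype.card_fin, M2]
    norm_num
    rfl
  let f : Cel D → ℕ × (Fin n → ℤ) := fun τ =>
    (σ.1.k - τ.1.k, (fun i => σ.1.z i - 2 ^ (σ.1.k - τ.1.k) * τ.1.z i))
  have hmaps : MapsTo f (topsOf σ) (T : Set (ℕ × (Fin n → ℤ))) := by
    rintro τ ⟨h, -⟩
    have h1 := scale_le_of_le h
    simp only [T, f, Finset.coe_product, mem_prod, Finset.mem_coe, Finset.mem_range,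
      Fintype.mem_piFinset, Finset.mem_Icc]
    refine ⟨by omega, fun i => ?_⟩
    have h2 := z_bounds h i
    have h3 : (2:ℤ) ^ (σ.1.k - τ.1.k) ≤ 2 := by
      calc (2:ℤ) ^ (σ.1.k - τ.1.k) ≤ 2 ^ 1 := pow_le_pow_right₀ (by norm_num) (by omega)
        _ = 2 := by norm_num
    constructor <;> linarith [h2.1, h2.2]
  have hinj : InjOn f (topsOf σ) := by
    rintro τ ⟨h, hJ⟩ τ' ⟨h', hJ'⟩ he
    simp only [f, Prod.mk.injEq] at he
    obtain ⟨h1, h2⟩ := he
    have hs := scale_le_of_le h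
    have hs' := scale_le_of_le h'
    have hk : τ.1.k = τ'.1.k := by omega
    apply Subtype.ext
    apply Idx.ext hk _ (hJ.trans hJ'.symm)
    funext i
    have h4 : σ.1.z i - 2 ^ (σ.1.k - τ.1.k) * τ.1.z i =
        σ.1.z i - 2 ^ (σ.1.k - τ'.1.k) * τ'.1.z i := congrFun h2 i
    rw [h1] at h4
    have h5 : (0:ℤ) < 2 ^ (σ.1.k - τ'.1.k) := by positivity
    have h6 : (2:ℤ) ^ (σ.1.k - τ'.1.k) * τ.1.z i = 2 ^ (σ.1.k - τ'.1.k) * τ'.1.z i := by linarith
    exact mul_left_cancel₀ h5.ne' h6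
  calc (topsOf σ).encard = (f '' topsOf σ).encard := (hinj.encard_image).symm
    _ ≤ (T : Set (ℕ × (Fin n → ℤ))).encard := encard_le_encard hmaps.image_subset
    _ = M2 n := by rw [encard_coe_eq_coe_finsetCard, hT]

end

end Crest.Agent.R96.En3_199
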