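/-
helper199, row 96, ENERGY FOR ARBITRARY SEGMENTS, part 2: almost every translate, exact Tonelli
formula with the density of the segments, Jensen on a segment, choice of the translate.
-/
import Mathlib
import Crest.Agent.R96.Sg1_199
import Crest.Agent.R96.En3_199

set_option autoImplicit false

open MeasureTheory Set Filter
open scoped Topology ENNReal

namespace Crest.Agent.R96.Sg2_199

open Crest.Agent.R96.Acl_392 Crest.Agent.R96.Sob2_199 Crest.Agent.R96.Sob3_199
  Crest.Agent.R96.Sg1_199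

noncomputable section

variable {E : Type*} [NormedAddCommGroup E] [NormedSpace ℝ E] [FiniteDimensional ℝ E]
  [MeasurableSpace E] [BorelSpace E] {μ : Measure E} [μ.IsAddHaarMeasure]

/-- **almost every translate is good on all segments** -/
theorem ae_shift {Ω : Set E} (hΩ : IsOpen Ω) {ι 𝒞 : Type*} [Countable ι] [Countable 𝒞]
    (x v : ι → E) {u : 𝒞 → E → ℝ} {g : 𝒞 → ι → E → ℝ} (hu : ∀ c, ContinuousOn (u c) Ω)
    (h : ∀ c j, WD Ω μ (u c) (g c j) (v j)) :
    ∀ᵐ a ∂μ, ∀ c j, ACLat Ω (u c) (g c j) (v j) (x j + a) := by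
  rw [ae_all_iff]
  intro c
  rw [ae_all_iff]
  intro j
  exact (measurePreserving_add_left μ (x j)).quasiMeasurePreserving.ae (acl hΩ (h c j) (hu c))

/-- the density at `z` of the translates (by elements of `B`) of the segment -/
def dn (B : Set E) (x v z : E) : ℝ≥0∞ := volume {τ : ℝ | τ ∈ Icc (0:ℝ) 1 ∧ z - (x + τ • v) ∈ B}

omit [FiniteDimensional ℝ E] [BorelSpace E] [MeasurableSpace E] in
theorem dn_le_one (B : Set E) (x v z : E) : dn B x v z ≤ 1 := by
  refine (measure_mono (t := Icc (0:ℝ) 1) fun τ hτ => hτ.1).trans ?_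
  simp

omit [FiniteDimensional ℝ E] [BorelSpace E] [MeasurableSpace E] in
/-- the density vanishes away from the swept set -/
theorem dn_eq_zero {B : Set E} {x v z : E} (h : ∀ y ∈ sgm x v, z - y ∉ B) : dn B x v z = 0 := by
  have : {τ : ℝ | τ ∈ Icc (0:ℝ) 1 ∧ z - (x + τ • v) ∈ B} = ∅ := by
    rw [eq_empty_iff_forall_notMem]
    rintro τ ⟨h1, h2⟩
    exact h _ ⟨τ, h1, rfl⟩ h2
  unfold dn
  rw [this, measure_empty]

omit [FiniteDimensional ℝ E] [μ.IsAddHaarMeasure] in
theorem measurable_li {G : E → ℝ≥0∞} (hG : Measurable G) [SecondCountableTopology E] (x v : E) :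
    Measurable fun a => li G (x + a) v := by
  unfold li
  apply Measurable.lintegral_prod_right' (f := fun q : E × ℝ => G (x + q.1 + q.2 • v))
  apply hG.comp
  have : Continuous fun q : E × ℝ => x + q.1 + q.2 • v := by fun_prop
  exact this.measurable

/-- **exact Tonelli formula for one segment** -/
theorem tonelli_one {B : Set E} (hB : MeasurableSet B) {G : E → ℝ≥0∞} (hG : Measurable G)
    (x v : E) : ∫⁻ a in B, li G (x + a) v ∂μ = ∫⁻ z, G z * dn B x v z ∂μ := by
  have hc1 : Continuous fun q : E × ℝ => x + q.1 + q.2 • v := by fun_prop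
  have hc2 : Continuous fun q : ℝ × E => q.2 - (x + q.1 • v) := by fun_prop
  unfold li
  rw [lintegral_lintegral_swap (by exact (hG.comp hc1.measurable).aemeasurable)]
  have h1 : ∀ τ : ℝ, ∫⁻ a in B, G (x + a + τ • v) ∂μ =
      ∫⁻ z, G z * B.indicator 1 (z - (x + τ • v)) ∂μ := by
    intro τ
    rw [← lintegral_indicator hB,
      ← lintegral_sub_right_eq_self (μ := μ) (B.indicator fun a => G (x + a + τ • v)) (x + τ • v)]
    apply lintegral_congr
    intro z
    by_cases hz : z - (x + τ • v) ∈ B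
    · rw [indicator_of_mem hz, indicator_of_mem hz, Pi.one_apply, mul_one]
      congr 1
      abel
    · rw [indicator_of_notMem hz, indicator_of_notMem hz, mul_zero]
  simp only [h1]
  rw [lintegral_lintegral_swap]
  · apply lintegral_congr
    intro z
    rw [lintegral_const_mul]
    · congr 1
      have h2 : (fun τ : ℝ => B.indicator (1 : E → ℝ≥0∞) (z - (x + τ • v))) =
          {τ : ℝ | z - (x + τ • v) ∈ B}.indicator 1 := by
        funext τ
        by_cases hz : z - (x + τ • v) ∈ B
        · rw [indicator_of_mem hz, indicator_of_mem (by exact hz)]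
          rfl
        · rw [indicator_of_notMem hz, indicator_of_notMem (by exact hz)]
      have hm : MeasurableSet {τ : ℝ | z - (x + τ • v) ∈ B} := by
        have hc : Continuous fun τ : ℝ => z - (x + τ • v) := by fun_prop
        exact hc.measurable hB
      rw [h2, lintegral_indicator_one hm, Measure.restrict_apply hm]
      unfold dn
      congr 1
      ext τ
      simp only [mem_inter_iff, mem_ofPred_eq, and_comm]
    · have hc : Continuous fun τ : ℝ => z - (x + τ • v) := by fun_prop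
      exact (measurable_one.indicator hB).comp hc.measurable
  · have h3 : Measurable fun q : ℝ × E => G q.2 * B.indicator 1 (q.2 - (x + q.1 • v)) :=
      (hG.comp measurable_snd).mul ((measurable_one.indicator hB).comp hc2.measurable)
    exact h3.aemeasurable

/-- **exact Tonelli formula** for countably many segments with weights -/
theorem tonelli {ι : Type*} [Countable ι] {B : Set E} (hB : MeasurableSet B)
    {G : ι → E → ℝ≥0∞} (hG : ∀ j, Measurable (G j)) (W : ι → ℝ≥0∞) (x v : ι → E) :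
    ∫⁻ a in B, ∑' j, W j * li (G j) (x j + a) (v j) ∂μ =
      ∫⁻ z, ∑' j, W j * (G j z * dn B (x j) (v j) z) ∂μ := by
  have hd : ∀ j, Measurable fun z => dn B (x j) (v j) z := by
    intro j
    unfold dn
    have hc : Continuous fun q : E × ℝ => q.1 - (x j + q.2 • v j) := by fun_prop
    have hS : MeasurableSet {q : E × ℝ | q.2 ∈ Icc (0:ℝ) 1 ∧ q.1 - (x j + q.2 • v j) ∈ B} :=
      (measurable_snd measurableSet_Icc).inter (hc.measurable hB)
    exact measurable_measure_prodMk_left hS
  have hm : ∀ j, Measurable fun z => G j z * dn B (x j) (v j) z := fun j => (hG j).mul (hd j)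
  rw [lintegral_tsum fun j => ((measurable_li (hG j) (x j) (v j)).const_mul _).aemeasurable,
    lintegral_tsum fun j => ((hm j).const_mul (W j)).aemeasurable]
  congr 1
  funext j
  rw [lintegral_const_mul _ (measurable_li (hG j) (x j) (v j)),
    lintegral_const_mul _ (hm j), tonelli_one hB (hG j)]

/-- the average from a bound for the density -/
theorem tonelli_le {ι : Type*} [Countable ι] {B : Set E} (hB : MeasurableSet B)
    {G : ι → E → ℝ≥0∞} (hG : ∀ j, Measurable (G j)) (W : ι → ℝ≥0∞) (x v : ι → E)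
    {H : E → ℝ≥0∞} {c : ι → ℝ≥0∞} (hGH : ∀ᵐ z ∂μ, ∀ j, G j z ≤ c j * H z) {R : Set E}
    (hR : MeasurableSet R) (hzR : ∀ j, ∀ z ∉ R, W j ≠ 0 → dn B (x j) (v j) z = 0) {K : ℝ≥0∞}
    (hK : K ≠ ∞) (hd : ∀ z ∈ R, ∑' j, W j * (c j * dn B (x j) (v j) z) ≤ K) :
    ∫⁻ a in B, ∑' j, W j * li (G j) (x j + a) (v j) ∂μ ≤ K * ∫⁻ z in R, H z ∂μ := by
  rw [tonelli hB hG W x v, ← lintegral_const_mul' _ _ hK, ← lintegral_indicator hR]
  apply lintegral_mono_ae
  filter_upwards [hGH] with z hz
  by_cases hzz : z ∈ R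
  · rw [indicator_of_mem hzz]
    calc ∑' j, W j * (G j z * dn B (x j) (v j) z)
        ≤ ∑' j, (W j * (c j * dn B (x j) (v j) z)) * H z := by
          apply ENNReal.tsum_le_tsum
          intro j
          calc W j * (G j z * dn B (x j) (v j) z)
              ≤ W j * ((c j * H z) * dn B (x j) (v j) z) := by gcongr; exact hz j
            _ = _ := by ring
      _ = (∑' j, W j * (c j * dn B (x j) (v j) z)) * H z := ENNReal.tsum_mul_right
      _ ≤ K * H z := by gcongr; exact hd z hzz
  · rw [indicator_of_notMem hzz]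
    refine le_of_eq (ENNReal.tsum_eq_zero.2 fun j => ?_)
    by_cases hW : W j = 0
    · rw [hW, zero_mul]
    · rw [hzR j z hzz hW, mul_zero, mul_zero]

omit [FiniteDimensional ℝ E] [μ.IsAddHaarMeasure] in
/-- Jensen on a segment -/
theorem li_rpow_le {G : E → ℝ≥0∞} (hG : Measurable G) (x v : E) {p : ℝ} (hp : 1 ≤ p) :
    li G x v ^ p ≤ li (fun y => G y ^ p) x v := by
  unfold li
  have hc : Continuous fun τ : ℝ => x + τ • v := by fun_prop
  have h1 := En3_199.lintegral_rpow_le (ν := volume.restrict (Icc (0:ℝ) 1))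
    (hG.comp hc.measurable).aemeasurable hp
  have h2 : (volume.restrict (Icc (0:ℝ) 1)) univ = 1 := by simp
  rw [h2, ENNReal.one_rpow, one_mul] at h1
  exact h1

omit [NormedSpace ℝ E] [FiniteDimensional ℝ E] [BorelSpace E] [NormedAddCommGroup E]
  [μ.IsAddHaarMeasure] in
/-- **choice of the translate**: countably many quantities at most `κ i` times their average -/
theorem exists_translate {ι' : Type*} [Countable ι'] {B : Set E} (hB : MeasurableSet B)
    (hB0 : μ B ≠ 0) (hB1 : μ B ≠ ∞) {F : ι' → E → ℝ≥0∞}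
    (hF : ∀ i, AEMeasurable (F i) (μ.restrict B)) {κ : ι' → ℝ≥0∞} (hκ0 : ∀ i, κ i ≠ 0)
    (hκ : ∑' i, (κ i)⁻¹ < 1) {P : E → Prop} (hP : ∀ᵐ a ∂μ, a ∈ B → P a) :
    ∃ a ∈ B, P a ∧ ∀ i, F i a ≤ κ i * ((μ B)⁻¹ * ∫⁻ a in B, F i a ∂μ) := by
  by_contra hcon
  push Not at hcon
  have h1 : μ.restrict B univ ≤
      ∑' i, μ.restrict B {a | κ i * ((μ B)⁻¹ * ∫⁻ a in B, F i a ∂μ) < F i a} := by
    have h2 : ∀ᵐ a ∂(μ.restrict B),
        a ∈ ⋃ i, {a | κ i * ((μ B)⁻¹ * ∫⁻ a in B, F i a ∂μ) < F i a} := by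
      rw [ae_restrict_iff' hB]
      filter_upwards [hP] with a ha haB
      obtain ⟨i, hi⟩ := hcon a haB (ha haB)
      exact mem_iUnion.2 ⟨i, hi⟩
    rw [← measure_eq_measure_of_null_sdiff (subset_univ _) (by
      have := ae_iff.1 h2
      refine measure_mono_null ?_ this
      intro a ha
      exact ha.2)]
    exact measure_iUnion_le _
  have h3 : ∀ i, μ.restrict B {a | κ i * ((μ B)⁻¹ * ∫⁻ a in B, F i a ∂μ) < F i a} ≤
      μ B * (κ i)⁻¹ := by
    intro i
    set I : ℝ≥0∞ := ∫⁻ a in B, F i a ∂μ with hI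
    by_cases hI0 : I = 0
    · have h4 : F i =ᵐ[μ.restrict B] 0 := (lintegral_eq_zero_iff' (hF i)).1 hI0
      have h5 : μ.restrict B {a | κ i * ((μ B)⁻¹ * I) < F i a} = 0 := by
        rw [hI0, mul_zero, mul_zero]
        refine measure_mono_null ?_ (ae_iff.1 h4)
        intro a ha
        exact (ne_of_gt (by exact ha))
      rw [h5]
      exact zero_le
    set t : ℝ≥0∞ := κ i * ((μ B)⁻¹ * I) with ht
    have hinv : (μ B)⁻¹ ≠ 0 := ENNReal.inv_ne_zero.2 hB1
    have ht0 : t ≠ 0 := mul_ne_zero (hκ0 i) (mul_ne_zero hinv hI0)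
    by_cases htt : t = ∞
    · have h5 : {a | t < F i a} = ∅ := by
        rw [eq_empty_iff_forall_notMem]
        intro a ha
        rw [htt] at ha
        exact not_top_lt (show (⊤:ℝ≥0∞) < F i a from ha)
      rw [h5, measure_empty]
      exact zero_le
    have h4 : μ.restrict B {a | t < F i a} ≤ I / t := by
      have hsub : {a | t < F i a} ⊆ {a | t ≤ F i a} := fun a ha =>
        le_of_lt (show t < F i a from ha)
      exact (measure_mono hsub).trans (meas_ge_le_lintegral_div (hF i) ht0 htt)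
    refine h4.trans (ENNReal.div_le_of_le_mul ?_)
    have hκt : κ i ≠ ∞ := by
      intro h
      apply htt
      rw [ht, h, ENNReal.top_mul]
      exact mul_ne_zero hinv hI0
    calc I = (μ B * (μ B)⁻¹) * ((κ i)⁻¹ * κ i) * I := by
          rw [ENNReal.mul_inv_cancel hB0 hB1, ENNReal.inv_mul_cancel (hκ0 i) hκt, one_mul, one_mul]
      _ = μ B * (κ i)⁻¹ * t := by rw [ht]; ring
      _ ≤ _ := le_rfl
  have h6 : μ B ≤ μ B * ∑' i, (κ i)⁻¹ := by
    rw [← ENNReal.tsum_mul_left]
    refine le_trans ?_ (ENNReal.tsum_le_tsum h3)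
    refine le_trans ?_ h1
    rw [Measure.restrict_apply MeasurableSet.univ, univ_inter]
  have h7 : μ B * ∑' i, (κ i)⁻¹ < μ B * 1 :=
    (ENNReal.mul_lt_mul_iff_right hB0 hB1).2 hκ
  rw [mul_one] at h7
  exact absurd h6 (not_le.2 h7)

end

end Crest.Agent.R96.Sg2_199
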