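/-
helper199, row 96, leaf ENERGY, part 4: the sum over the Whitney mesh (helper810) and the choice
of the shift.
-/
import Mathlib
import Crest.Agent.R96.En3_199

set_option autoImplicit false

open MeasureTheory Set Filter
open scoped Topology ENNReal

namespace Crest.Agent.R96.En4_199

open Crest.Agent.R096.Msh_810 Crest.Agent.R96.En3_199

noncomputable section

variable {n : ℕ}

section Cells

variable (D : Dat n)

/-- integral of `g` over the mesh edges of the cell `τ` -/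
def eg (g : (Fin n → ℝ) → ℝ≥0∞) (τ : Cel D) : ℝ≥0∞ :=
  ∑' σ : {σ : Cel D // σ ∈ edgesOf τ}, ic g D.a σ.1.1

/-- volume of a mesh cube -/
def vol (τ : Cel D) : ℝ≥0∞ := (((2:ℝ≥0∞) ^ τ.1.k)⁻¹) ^ n

/-- the weights of the edges -/
def wt (n : ℕ) (k : ℕ) : ℝ≥0∞ := (((2:ℝ≥0∞) ^ k)⁻¹) ^ n * (2:ℝ≥0∞) ^ k

/-- the energy of the mesh -/
def S (p : ℝ) (g : (Fin n → ℝ) → ℝ≥0∞) : ℝ≥0∞ :=
  ∑' τ : {τ : Cel D // τ.1.J = Finset.univ}, vol D τ.1 * ((2:ℝ≥0∞) ^ τ.1.1.k * eg D g τ.1) ^ p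

variable {D}

theorem tsum_rpow_le {ι : Type*} {s : Set ι} (hs : s.Finite) {M : ℕ} (hM : s.encard ≤ M)
    (f : ι → ℝ≥0∞) {p : ℝ} (hp : 1 ≤ p) :
    (∑' i : s, f i) ^ p ≤ (M : ℝ≥0∞) ^ (p - 1) * ∑' i : s, f i ^ p := by
  classical
  have : Fintype s := hs.fintype
  rw [tsum_fintype, tsum_fintype]
  refine (ENNReal.rpow_sum_le_const_mul_sum_rpow Finset.univ (fun i : s => f i) hp).trans ?_
  gcongr
  rw [Finset.card_univ]
  have h2 : (Fintype.card s : ℕ∞) ≤ M := (Set.coe_fintypeCard s).le.trans hM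
  exact_mod_cast h2

/-- **Jensen on a cell** -/
theorem cell_le {g : (Fin n → ℝ) → ℝ≥0∞} (hg : Measurable g) {p : ℝ} (hp : 1 ≤ p) (τ : Cel D) :
    vol D τ * ((2:ℝ≥0∞) ^ τ.1.k * eg D g τ) ^ p ≤
      ((M1 n : ℝ≥0∞) ^ (p - 1) * 2 ^ n) *
        ∑' σ : {σ : Cel D // σ ∈ edgesOf τ}, wt n σ.1.1.k * ic (fun x => g x ^ p) D.a σ.1.1 := by
  have h1 : (2:ℝ≥0∞) ^ τ.1.k * eg D g τ ≤
      ∑' σ : (edgesOf τ), (2:ℝ≥0∞) ^ (σ : Cel D).1.k * ic g D.a (σ : Cel D).1 := by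
    rw [eg, ← ENNReal.tsum_mul_left]
    refine ENNReal.tsum_le_tsum fun σ => ?_
    gcongr
    · norm_num
    · exact (scale_le_of_le σ.2.1).1
  have h2 : ((2:ℝ≥0∞) ^ τ.1.k * eg D g τ) ^ p ≤ (M1 n : ℝ≥0∞) ^ (p - 1) *
      ∑' σ : (edgesOf τ), ((2:ℝ≥0∞) ^ (σ : Cel D).1.k * ic g D.a (σ : Cel D).1) ^ p :=
    (ENNReal.rpow_le_rpow h1 (by linarith)).trans
      (tsum_rpow_le (finite_edgesOf τ) (encard_edgesOf τ)
        (fun σ : Cel D => (2:ℝ≥0∞) ^ σ.1.k * ic g D.a σ.1) hp)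
  calc vol D τ * ((2:ℝ≥0∞) ^ τ.1.k * eg D g τ) ^ p
      ≤ vol D τ * ((M1 n : ℝ≥0∞) ^ (p - 1) *
        ∑' σ : (edgesOf τ), ((2:ℝ≥0∞) ^ (σ : Cel D).1.k * ic g D.a (σ : Cel D).1) ^ p) := by
          gcongr
    _ = (M1 n : ℝ≥0∞) ^ (p - 1) * ∑' σ : (edgesOf τ), vol D τ *
        ((2:ℝ≥0∞) ^ (σ : Cel D).1.k * ic g D.a (σ : Cel D).1) ^ p := by
          rw [ENNReal.tsum_mul_left]; ring
    _ ≤ (M1 n : ℝ≥0∞) ^ (p - 1) * ∑' σ : (edgesOf τ), 2 ^ n * (wt n (σ : Cel D).1.k *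
        ic (fun x => g x ^ p) D.a (σ : Cel D).1) := by
          refine mul_le_mul' le_rfl (ENNReal.tsum_le_tsum fun σ => ?_)
          have h3 := ic_rpow_le hg D.a (σ := (σ : Cel D).1) σ.2.2 hp
          have h4 : vol D τ ≤ 2 ^ n * (((2:ℝ≥0∞) ^ (σ : Cel D).1.k)⁻¹) ^ n := by
            rw [vol, ← mul_pow]
            gcongr
            have h5 := (scale_le_of_le σ.2.1).2
            rw [← div_eq_mul_inv, ENNReal.le_div_iff_mul_le
              (Or.inl (by positivity)) (Or.inl (ENNReal.pow_ne_top (by norm_num)))]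
            calc ((2:ℝ≥0∞) ^ τ.1.k)⁻¹ * 2 ^ (σ : Cel D).1.k
                ≤ ((2:ℝ≥0∞) ^ τ.1.k)⁻¹ * 2 ^ (τ.1.k + 1) := by
                  gcongr
                  norm_num
              _ = (((2:ℝ≥0∞) ^ τ.1.k)⁻¹ * 2 ^ τ.1.k) * 2 := by rw [pow_succ]; ring
              _ = 2 := by
                  rw [ENNReal.inv_mul_cancel (by positivity) (ENNReal.pow_ne_top (by norm_num)),
                    one_mul]
          calc vol D τ * ((2:ℝ≥0∞) ^ (σ : Cel D).1.k * ic g D.a (σ : Cel D).1) ^ p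
              ≤ (2 ^ n * (((2:ℝ≥0∞) ^ (σ : Cel D).1.k)⁻¹) ^ n) *
                ((2:ℝ≥0∞) ^ (σ : Cel D).1.k * ic (fun x => g x ^ p) D.a (σ : Cel D).1) := by
                gcongr
            _ = _ := by rw [wt]; ring
    _ = _ := by
          rw [ENNReal.tsum_mul_left]
          ring

/-- sum over the cubes of a sum over their edges -/
theorem swap_le (x : Cel D → ℝ≥0∞) :
    ∑' τ : {τ : Cel D // τ.1.J = Finset.univ}, ∑' σ : {σ : Cel D // σ ∈ edgesOf τ.1}, x σ.1 ≤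
      (M2 n : ℝ≥0∞) * ∑' σ : Cel D, ({σ : Cel D | σ.1.J.card = 1}).indicator x σ := by
  classical
  have h1 : ∀ τ : {τ : Cel D // τ.1.J = Finset.univ},
      ∑' σ : {σ : Cel D // σ ∈ edgesOf τ.1}, x σ.1 =
        ∑' σ : Cel D, (edgesOf τ.1).indicator x σ := fun τ => tsum_subtype (edgesOf τ.1) x
  simp only [h1]
  refine (tsum_subtype {τ : Cel D | τ.1.J = Finset.univ}
    (fun τ : Cel D => ∑' σ : Cel D, (edgesOf τ).indicator x σ)).trans_le ?_
  have h2 : ∀ τ : Cel D, ({τ : Cel D | τ.1.J = Finset.univ}).indicator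
      (fun τ : Cel D => ∑' σ : Cel D, (edgesOf τ).indicator x σ) τ =
      ∑' σ : Cel D, (topsOf σ).indicator (fun _ =>
        ({σ : Cel D | σ.1.J.card = 1}).indicator x σ) τ := by
    intro τ
    by_cases hτ : τ.1.J = Finset.univ
    · rw [indicator_of_mem (show τ ∈ {τ : Cel D | τ.1.J = Finset.univ} from hτ)]
      refine tsum_congr fun σ => ?_
      by_cases h3 : σ ≤ τ
      · rw [indicator_of_mem (show τ ∈ topsOf σ from ⟨h3, hτ⟩)]
        by_cases h4 : σ.1.J.card = 1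
        · rw [indicator_of_mem (show σ ∈ edgesOf τ from ⟨h3, h4⟩),
            indicator_of_mem (show σ ∈ {σ : Cel D | σ.1.J.card = 1} from h4)]
        · rw [indicator_of_notMem (fun h => h4 h.2),
            indicator_of_notMem (show σ ∉ {σ : Cel D | σ.1.J.card = 1} from h4)]
      · rw [indicator_of_notMem (fun h => h3 h.1), indicator_of_notMem (fun h => h3 h.1)]
    · rw [indicator_of_notMem (show τ ∉ {τ : Cel D | τ.1.J = Finset.univ} from hτ)]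
      symm
      rw [ENNReal.tsum_eq_zero]
      intro σ
      rw [indicator_of_notMem (fun h => hτ h.2)]
  simp only [h2]
  rw [ENNReal.tsum_comm, ← ENNReal.tsum_mul_left]
  refine ENNReal.tsum_le_tsum fun σ => ?_
  rw [← tsum_subtype, ENNReal.tsum_const]
  gcongr
  have h3 := encard_topsOf σ
  rw [← ENat.card_coe_set_eq] at h3
  have h4 := ENat.toENNReal_mono h3
  simpa using h4

/-- the energy of the mesh in terms of the edges -/
theorem S_le {g : (Fin n → ℝ) → ℝ≥0∞} (hg : Measurable g) {p : ℝ} (hp : 1 ≤ p) :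
    S D p g ≤ ((M1 n : ℝ≥0∞) ^ (p - 1) * 2 ^ n * M2 n) *
      ∑ i : Fin n, ∑' σ : {σ : Cel D // σ.1.J = {i}}, wt n σ.1.1.k *
        ic (fun x => g x ^ p) D.a σ.1.1 := by
  classical
  unfold S
  set x : Cel D → ℝ≥0∞ := fun σ => wt n σ.1.k * ic (fun x => g x ^ p) D.a σ.1 with hx
  calc ∑' τ : {τ : Cel D // τ.1.J = Finset.univ}, vol D τ.1 *
        ((2:ℝ≥0∞) ^ τ.1.1.k * eg D g τ.1) ^ p
      ≤ ∑' τ : {τ : Cel D // τ.1.J = Finset.univ}, ((M1 n : ℝ≥0∞) ^ (p - 1) * 2 ^ n) *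
        ∑' σ : {σ : Cel D // σ ∈ edgesOf τ.1}, x σ.1 :=
        ENNReal.tsum_le_tsum fun τ => cell_le hg hp τ.1
    _ = ((M1 n : ℝ≥0∞) ^ (p - 1) * 2 ^ n) * ∑' τ : {τ : Cel D // τ.1.J = Finset.univ},
        ∑' σ : {σ : Cel D // σ ∈ edgesOf τ.1}, x σ.1 := ENNReal.tsum_mul_left
    _ ≤ ((M1 n : ℝ≥0∞) ^ (p - 1) * 2 ^ n) * ((M2 n : ℝ≥0∞) *
        ∑' σ : Cel D, ({σ : Cel D | σ.1.J.card = 1}).indicator x σ) := by
        gcongr
        exact swap_le x
    _ ≤ ((M1 n : ℝ≥0∞) ^ (p - 1) * 2 ^ n) * ((M2 n : ℝ≥0∞) *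
        ∑ i : Fin n, ∑' σ : {σ : Cel D // σ.1.J = {i}}, x σ.1) := by
        gcongr
        have h1 : ∀ i : Fin n, ∑' σ : {σ : Cel D // σ.1.J = {i}}, x σ.1 =
            ∑' σ : Cel D, ({σ : Cel D | σ.1.J = {i}}).indicator x σ := fun i =>
          tsum_subtype {σ : Cel D | σ.1.J = {i}} x
        simp only [h1]
        rw [← Summable.tsum_finsetSum (fun i _ => ENNReal.summable)]
        refine ENNReal.tsum_le_tsum fun σ => ?_
        by_cases h2 : σ.1.J.card = 1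
        · rw [indicator_of_mem (show σ ∈ {σ : Cel D | σ.1.J.card = 1} from h2)]
          obtain ⟨i, hi⟩ := Finset.card_eq_one.1 h2
          refine le_trans (le_of_eq ?_) (Finset.single_le_sum
            (f := fun i => ({σ : Cel D | σ.1.J = {i}}).indicator x σ)
            (fun _ _ => zero_le) (Finset.mem_univ i))
          rw [indicator_of_mem (show σ ∈ {σ : Cel D | σ.1.J = {i}} from hi)]
        · rw [indicator_of_notMem (show σ ∉ {σ : Cel D | σ.1.J.card = 1} from h2)]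
          exact zero_le
    _ = _ := by ring

end Cells

end

end Crest.Agent.R96.En4_199
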