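/-
helper199, row 96, leaf ENERGY, part 5: choice of the shift, localisation, error terms, edges as
one dimensional integrals.
-/
import Mathlib
import Crest.Agent.R96.En4_199

set_option autoImplicit false

open MeasureTheory Set Filter
open scoped Topology ENNReal

namespace Crest.Agent.R96.En5_199

open Crest.Agent.R096.Msh_810 Crest.Agent.R96.En3_199 Crest.Agent.R96.En4_199

noncomputable section

variable {n : ℕ} (D : Dat n)

theorem reg_sub (k : ℕ) : D.reg k ⊆ D.Om := by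
  rintro x ⟨h1, -⟩
  have h2 := D.C_pos
  have h3 : (0:ℝ) < 2 ^ k := by positivity
  change 0 < D.ρ x
  by_contra h
  have h4 : D.ρ x ≤ 0 := not_lt.1 h
  nlinarith

/-- at most two scales at a point -/
theorem tsum_reg_le (x : Fin n → ℝ) :
    ∑' k : ℕ, (D.reg k).indicator (fun _ => (1:ℝ≥0∞)) x ≤ 2 := by
  classical
  by_cases hne : ∃ k, x ∈ D.reg k
  · set k0 := Nat.find hne with hk0
    have h0 : x ∈ D.reg k0 := Nat.find_spec hne
    have hsub : ∀ k ∉ ({k0, k0 + 1} : Finset ℕ),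
        (D.reg k).indicator (fun _ => (1:ℝ≥0∞)) x = 0 := by
      intro k hk
      apply indicator_of_notMem
      intro hxk
      have h1 : k0 ≤ k := Nat.find_min' hne hxk
      have h2 : k0 + 2 ≤ k := by
        simp only [Finset.mem_insert, Finset.mem_singleton, not_or] at hk
        omega
      have h3 : (2:ℝ) ^ (k0 + 2) ≤ 2 ^ k := pow_le_pow_right₀ one_le_two h2
      have h4 : (0:ℝ) ≤ D.ρ x := D.nonneg x
      have h5 := mul_le_mul_of_nonneg_right h3 h4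
      have h6 := h0.1
      have h7 := hxk.2
      have h8 := D.hC
      rw [pow_add] at h5
      nlinarith
    rw [tsum_eq_sum hsub]
    calc ∑ k ∈ ({k0, k0 + 1} : Finset ℕ), (D.reg k).indicator (fun _ => (1:ℝ≥0∞)) x
        ≤ ∑ _k ∈ ({k0, k0 + 1} : Finset ℕ), (1:ℝ≥0∞) := by
          apply Finset.sum_le_sum
          intro k _
          exact indicator_le_self' (fun _ _ => zero_le) x
      _ = (({k0, k0 + 1} : Finset ℕ).card : ℝ≥0∞) := by simp
      _ ≤ 2 := by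
          have : ({k0, k0 + 1} : Finset ℕ).card ≤ 2 := Finset.card_le_two
          exact_mod_cast this
  · have : ∀ k, (D.reg k).indicator (fun _ => (1:ℝ≥0∞)) x = 0 := fun k =>
      indicator_of_notMem (fun h => hne ⟨k, h⟩) _
    simp [this]

/-- the averaged energy is bounded by twice the integral -/
theorem Av_le {F : (Fin n → ℝ) → ℝ≥0∞} (hF : Measurable F) (i : Fin n) :
    Av D F {i} (wt n) ≤ 2 * ∫⁻ x in D.Om, F x := by
  have h1 : ∀ k : ℕ, wt n k * (((2 : ℝ≥0∞) ^ k) ^ n *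
      (((2 : ℝ≥0∞) ^ k)⁻¹) ^ ({i} : Finset (Fin n)).card) = 1 := by
    intro k
    have h2 : ((2:ℝ≥0∞) ^ k) ≠ 0 := by positivity
    have h3 : ((2:ℝ≥0∞) ^ k) ≠ ∞ := ENNReal.pow_ne_top (by norm_num)
    rw [wt, Finset.card_singleton, pow_one]
    calc (((2:ℝ≥0∞) ^ k)⁻¹) ^ n * (2:ℝ≥0∞) ^ k * (((2 : ℝ≥0∞) ^ k) ^ n * ((2 : ℝ≥0∞) ^ k)⁻¹)
        = ((((2:ℝ≥0∞) ^ k)⁻¹) * ((2:ℝ≥0∞) ^ k)) ^ n * ((2:ℝ≥0∞) ^ k * ((2:ℝ≥0∞) ^ k)⁻¹) := by
          rw [mul_pow]; ring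
      _ = 1 := by
          rw [ENNReal.inv_mul_cancel h2 h3, ENNReal.mul_inv_cancel h2 h3, one_pow, one_mul]
  unfold Av
  simp only [h1, one_mul]
  have hm : ∀ k, Measurable ((D.reg k).indicator F) := fun k =>
    hF.indicator (D.measurableSet_reg k)
  have h4 : ∀ k, ∫⁻ x in D.reg k, F x = ∫⁻ x in D.Om, (D.reg k).indicator F x := by
    intro k
    rw [setLIntegral_indicator (D.measurableSet_reg k),
      inter_eq_self_of_subset_left (reg_sub D k)]
  simp only [h4]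
  rw [← lintegral_tsum (fun k => (hm k).aemeasurable), ← lintegral_const_mul _ hF]
  apply lintegral_mono
  intro x
  have h5 : ∀ k, (D.reg k).indicator F x = (D.reg k).indicator (fun _ => (1:ℝ≥0∞)) x * F x := by
    intro k
    by_cases hx : x ∈ D.reg k <;> simp [hx]
  simp only [h5, ENNReal.tsum_mul_right]
  gcongr
  exact tsum_reg_le D x

/-- the constant of the energy inequality -/
def KE (n : ℕ) (p : ℝ) : ℝ≥0∞ := (M1 n : ℝ≥0∞) ^ (p - 1) * 2 ^ n * M2 n * n * 2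

theorem KE_ne_top {p : ℝ} (hp : 1 ≤ p) : KE n p ≠ ∞ := by
  unfold KE
  have h1 : ((M1 n : ℝ≥0∞) ^ (p - 1)) ≠ ∞ :=
    ENNReal.rpow_ne_top_of_nonneg (by linarith) (by simp)
  have h2 : ((2:ℝ≥0∞) ^ n) ≠ ∞ := ENNReal.pow_ne_top (by norm_num)
  finiteness

/-- **ENERGY OF THE MESH, choice of the shift** (countably many functions at once) -/
theorem volume_bad_S {ι : Type*} [Countable ι] {g : ι → (Fin n → ℝ) → ℝ≥0∞}
    (hg : ∀ i, Measurable (g i)) {p : ι → ℝ} (hp : ∀ i, 1 ≤ p i) {c : ι → ℝ≥0∞}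
    (hc : ∀ i, c i ≠ 0) :
    volume {a ∈ box n | ∃ i, c i * (KE n (p i) * ∫⁻ x in D.Om, g i x ^ p i) <
      S (D.sh a) (p i) (g i)} ≤ n * ∑' i, (c i)⁻¹ := by
  have hF : ∀ q : ι × Fin n, Measurable (fun x => g q.1 x ^ p q.1) := fun q =>
    (hg q.1).pow_const _
  have h1 := volume_bad_le (D := D) (fun q : ι × Fin n => fun x => g q.1 x ^ p q.1) hF
    (fun q => {q.2}) (fun _ => wt n) (fun q => c q.1) (fun q => hc q.1)
  have h2 : ∑' q : ι × Fin n, (c q.1)⁻¹ = n * ∑' i, (c i)⁻¹ := by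
    rw [ENNReal.tsum_prod', ← ENNReal.tsum_mul_left]
    refine tsum_congr fun i => ?_
    simp
  rw [← h2]
  refine le_trans (measure_mono ?_) h1
  rintro a ⟨ha, i, hi⟩
  refine ⟨ha, ?_⟩
  by_contra hcon
  push Not at hcon
  have h3 : ∀ j : Fin n, En D (fun x => g i x ^ p i) {j} (wt n) a ≤
      c i * (2 * ∫⁻ x in D.Om, g i x ^ p i) := fun j => by
    refine (hcon (i, j)).trans ?_
    gcongr
    exact Av_le D ((hg i).pow_const _) j
  have h4 : S (D.sh a) (p i) (g i) ≤ c i * (KE n (p i) * ∫⁻ x in D.Om, g i x ^ p i) := by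
    calc S (D.sh a) (p i) (g i) ≤ ((M1 n : ℝ≥0∞) ^ (p i - 1) * 2 ^ n * M2 n) *
          ∑ j : Fin n, ∑' σ : {σ : Cel (D.sh a) // σ.1.J = {j}}, wt n σ.1.1.k *
            ic (fun x => g i x ^ p i) (D.sh a).a σ.1.1 := S_le (hg i) (hp i)
      _ ≤ ((M1 n : ℝ≥0∞) ^ (p i - 1) * 2 ^ n * M2 n) *
          ∑ _j : Fin n, c i * (2 * ∫⁻ x in D.Om, g i x ^ p i) := by
          refine mul_le_mul' le_rfl (Finset.sum_le_sum fun j _ => ?_)
          exact (tsum_cells_le (D := D) (fun x => g i x ^ p i) {j} (wt n) a).trans (h3 j)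
      _ = _ := by
          rw [Finset.sum_const, Finset.card_univ, Fintype.card_fin, nsmul_eq_mul, KE]
          ring
  exact absurd hi (not_lt.2 h4)

/-! ### localisation -/

theorem ic_congr_on {g g' : (Fin n → ℝ) → ℝ≥0∞} {a : Fin n → ℝ} {σ : Idx n}
    (h : ∀ x ∈ Dc a σ, g x = g' x) : ic g a σ = ic g' a σ := by
  unfold ic
  apply lintegral_congr_ae
  filter_upwards [ae_mem_Dc a σ] with t ht
  exact h _ ht

theorem eg_congr_on {D : Dat n} {g g' : (Fin n → ℝ) → ℝ≥0∞} {τ : Cel D}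
    (h : ∀ x ∈ τ.c, g x = g' x) : eg D g τ = eg D g' τ := by
  unfold eg
  refine tsum_congr fun σ => ic_congr_on fun x hx => h x (σ.2.1 hx)

/-- the part of the energy in the cubes contained in `R` is bounded by the energy of
`R.indicator g` -/
theorem S_local {D : Dat n} (p : ℝ) (g : (Fin n → ℝ) → ℝ≥0∞) (R : Set (Fin n → ℝ)) :
    ∑' τ : {τ : Cel D // τ.1.J = Finset.univ ∧ τ.c ⊆ R},
      vol D τ.1 * ((2:ℝ≥0∞) ^ τ.1.1.k * eg D g τ.1) ^ p ≤ S D p (R.indicator g) := by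
  unfold S
  let f : {τ : Cel D // τ.1.J = Finset.univ ∧ τ.c ⊆ R} → {τ : Cel D // τ.1.J = Finset.univ} :=
    fun τ => ⟨τ.1, τ.2.1⟩
  have hf : Function.Injective f := fun τ τ' h => Subtype.ext (congrArg (fun x => x.1) h)
  refine le_trans (ENNReal.tsum_le_tsum fun τ => ?_)
    (ENNReal.tsum_comp_le_tsum_of_injective hf (fun τ : {τ : Cel D // τ.1.J = Finset.univ} =>
      vol D τ.1 * ((2:ℝ≥0∞) ^ τ.1.1.k * eg D (R.indicator g) τ.1) ^ p))
  have h1 : eg D g τ.1 = eg D (R.indicator g) τ.1 := by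
    apply eg_congr_on
    intro x hx
    rw [indicator_of_mem (τ.2.2 hx)]
  rw [h1]

/-! ### error terms -/

instance : Countable (Idx n) := by
  have hf : Function.Injective (fun σ : Idx n => (σ.k, σ.z, σ.J)) := fun σ τ h => by
    simp only [Prod.mk.injEq] at h
    exact Idx.ext h.1 h.2.1 h.2.2
  exact hf.countable

instance (D : Dat n) : Countable (Cel D) := by
  unfold Cel; infer_instance

/-- the sum of the energies with error terms on the edges -/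
theorem S_err {D : Dat n} {g : (Fin n → ℝ) → ℝ≥0∞} {p : ℝ} (hp : 1 ≤ p)
    {y e : Cel D → ℝ≥0∞} (hy : ∀ σ : Cel D, σ.1.J.card = 1 → y σ ≤ ic g D.a σ.1 + e σ) :
    ∑' τ : {τ : Cel D // τ.1.J = Finset.univ},
      vol D τ.1 * ((2:ℝ≥0∞) ^ τ.1.1.k * ∑' σ : {σ : Cel D // σ ∈ edgesOf τ.1}, y σ.1) ^ p ≤
      2 ^ (p - 1) * (S D p g + ∑' τ : {τ : Cel D // τ.1.J = Finset.univ},
      vol D τ.1 * ((2:ℝ≥0∞) ^ τ.1.1.k * ∑' σ : {σ : Cel D // σ ∈ edgesOf τ.1}, e σ.1) ^ p) := by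
  unfold S
  rw [← ENNReal.tsum_add, ← ENNReal.tsum_mul_left]
  refine ENNReal.tsum_le_tsum fun τ => ?_
  have h1 : ∑' σ : {σ : Cel D // σ ∈ edgesOf τ.1}, y σ.1 ≤
      eg D g τ.1 + ∑' σ : {σ : Cel D // σ ∈ edgesOf τ.1}, e σ.1 := by
    rw [eg, ← ENNReal.tsum_add]
    exact ENNReal.tsum_le_tsum fun σ => hy σ.1 σ.2.2
  calc vol D τ.1 * ((2:ℝ≥0∞) ^ τ.1.1.k * ∑' σ : {σ : Cel D // σ ∈ edgesOf τ.1}, y σ.1) ^ p
      ≤ vol D τ.1 * ((2:ℝ≥0∞) ^ τ.1.1.k * eg D g τ.1 +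
        (2:ℝ≥0∞) ^ τ.1.1.k * ∑' σ : {σ : Cel D // σ ∈ edgesOf τ.1}, e σ.1) ^ p := by
        rw [← mul_add]
        gcongr
    _ ≤ vol D τ.1 * (2 ^ (p - 1) * (((2:ℝ≥0∞) ^ τ.1.1.k * eg D g τ.1) ^ p +
        ((2:ℝ≥0∞) ^ τ.1.1.k * ∑' σ : {σ : Cel D // σ ∈ edgesOf τ.1}, e σ.1) ^ p)) := by
        gcongr
        exact ENNReal.rpow_add_le_mul_rpow_add_rpow _ _ hp
    _ = _ := by ring

/-- the error terms may be prescribed so that their total contribution is small -/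
theorem exists_err (D : Dat n) {p : ℝ} (hp : 1 ≤ p) {δ : ℝ≥0∞} (hδ : δ ≠ 0) :
    ∃ e : Cel D → ℝ, (∀ σ, 0 < e σ) ∧ ∑' τ : {τ : Cel D // τ.1.J = Finset.univ},
      vol D τ.1 * ((2:ℝ≥0∞) ^ τ.1.1.k *
        ∑' σ : {σ : Cel D // σ ∈ edgesOf τ.1}, ENNReal.ofReal (e σ.1)) ^ p ≤ δ := by
  classical
  obtain ⟨δ', hδ'0, hδ'⟩ := ENNReal.exists_pos_sum_of_countable hδ (Cel D)
  -- prescribed bound on each cube
  have hb : ∀ τ : Cel D, ∃ b : ℝ, 0 < b ∧
      vol D τ * ((2:ℝ≥0∞) ^ τ.1.k * ENNReal.ofReal b) ^ p ≤ δ' τ := by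
    intro τ
    have hv0 : vol D τ ≤ 1 := by
      unfold vol
      apply pow_le_one₀ (by positivity)
      rw [ENNReal.inv_le_one]
      exact one_le_pow₀ (by norm_num)
    set δ1 : ℝ := min (δ' τ : ℝ) 1 with hδ1
    have hδ1pos : 0 < δ1 := lt_min (by exact_mod_cast hδ'0 τ) one_pos
    refine ⟨δ1 / 2 ^ τ.1.k, by positivity, ?_⟩
    have h1 : (2:ℝ≥0∞) ^ τ.1.k * ENNReal.ofReal (δ1 / 2 ^ τ.1.k) = ENNReal.ofReal δ1 := by
      have h2 : (2:ℝ≥0∞) ^ τ.1.k = ENNReal.ofReal (2 ^ τ.1.k) := by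
        rw [ENNReal.ofReal_pow (by norm_num)]; norm_num
      rw [h2, ← ENNReal.ofReal_mul (by positivity)]
      congr 1
      field_simp
    rw [h1]
    calc vol D τ * ENNReal.ofReal δ1 ^ p ≤ 1 * ENNReal.ofReal δ1 ^ (1:ℝ) := by
          gcongr ?_ * ?_
          apply ENNReal.rpow_le_rpow_of_exponent_ge _ hp
          rw [ENNReal.ofReal_le_one]
          exact min_le_right _ _
      _ = ENNReal.ofReal δ1 := by rw [one_mul, ENNReal.rpow_one]
      _ ≤ ENNReal.ofReal (δ' τ : ℝ) := ENNReal.ofReal_le_ofReal (min_le_left _ _)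
      _ = δ' τ := ENNReal.ofReal_coe_nnreal
  choose b hb0 hb1 using hb
  -- the error on an edge: minimum over the cubes above it, divided by the number of edges
  have hne : ∀ σ : Cel D, (finite_topsOf σ).toFinset.Nonempty := by
    intro σ
    obtain ⟨τ, h1, -, h3⟩ := Cel.exists_top σ
    exact ⟨τ, by simpa using ⟨h3, h1⟩⟩
  let e : Cel D → ℝ := fun σ => ((finite_topsOf σ).toFinset.inf' (hne σ) b) / (M1 n + 1)
  have he0 : ∀ σ, 0 < e σ := by
    intro σ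
    have : 0 < (finite_topsOf σ).toFinset.inf' (hne σ) b := by
      rw [Finset.lt_inf'_iff]
      exact fun τ _ => hb0 τ
    positivity
  refine ⟨e, he0, ?_⟩
  have hle : ∀ τ : {τ : Cel D // τ.1.J = Finset.univ},
      ∑' σ : {σ : Cel D // σ ∈ edgesOf τ.1}, ENNReal.ofReal (e σ.1) ≤ ENNReal.ofReal (b τ.1) := by
    intro τ
    have h1 : ∀ σ : {σ : Cel D // σ ∈ edgesOf τ.1}, ENNReal.ofReal (e σ.1) ≤
        ENNReal.ofReal (b τ.1 / (M1 n + 1)) := by
      intro σ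
      apply ENNReal.ofReal_le_ofReal
      have h2 : (finite_topsOf σ.1).toFinset.inf' (hne σ.1) b ≤ b τ.1 := by
        apply Finset.inf'_le
        simpa using ⟨σ.2.1, τ.2⟩
      exact div_le_div_of_nonneg_right h2 (by positivity)
    calc ∑' σ : {σ : Cel D // σ ∈ edgesOf τ.1}, ENNReal.ofReal (e σ.1)
        ≤ ∑' _σ : {σ : Cel D // σ ∈ edgesOf τ.1}, ENNReal.ofReal (b τ.1 / (M1 n + 1)) :=
          ENNReal.tsum_le_tsum h1
      _ ≤ (M1 n : ℝ≥0∞) * ENNReal.ofReal (b τ.1 / (M1 n + 1)) := by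
          rw [ENNReal.tsum_const]
          gcongr
          have h3 := encard_edgesOf τ.1
          rw [← ENat.card_coe_set_eq] at h3
          have h4 := ENat.toENNReal_mono h3
          simpa using h4
      _ = ENNReal.ofReal (M1 n * (b τ.1 / (M1 n + 1))) := by
          rw [ENNReal.ofReal_mul (by positivity), ENNReal.ofReal_natCast]
      _ ≤ ENNReal.ofReal (b τ.1) := by
          apply ENNReal.ofReal_le_ofReal
          rw [mul_div_assoc', div_le_iff₀ (by positivity)]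
          nlinarith [hb0 τ.1, show (0:ℝ) ≤ M1 n by positivity]
  calc ∑' τ : {τ : Cel D // τ.1.J = Finset.univ}, vol D τ.1 * ((2:ℝ≥0∞) ^ τ.1.1.k *
        ∑' σ : {σ : Cel D // σ ∈ edgesOf τ.1}, ENNReal.ofReal (e σ.1)) ^ p
      ≤ ∑' τ : {τ : Cel D // τ.1.J = Finset.univ}, (δ' τ.1 : ℝ≥0∞) := by
        refine ENNReal.tsum_le_tsum fun τ => ?_
        refine le_trans ?_ (hb1 τ.1)
        gcongr
        exact hle τ
    _ ≤ ∑' τ : Cel D, (δ' τ : ℝ≥0∞) :=
        ENNReal.tsum_comp_le_tsum_of_injective Subtype.val_injective _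
    _ ≤ δ := hδ'.le

end

end Crest.Agent.R96.En5_199
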