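/-
helper199, row 96, leaf ENERGY, part 6: edges of the mesh as one dimensional integrals, volume of
the cubes, and the combination of levels and energy.
-/
import Mathlib
import Crest.Agent.R96.En5_199
import Crest.Agent.R96.En2_199

set_option autoImplicit false

open MeasureTheory Set Filter
open scoped Topology ENNReal

namespace Crest.Agent.R96.En6_199

open Crest.Agent.R096.Msh_810 Crest.Agent.R96.En3_199 Crest.Agent.R96.En4_199
  Crest.Agent.R96.En5_199 Crest.Agent.R96.En2_199

noncomputable section

variable {n : ℕ}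

/-- the measure of an edge is one dimensional Lebesgue measure -/
theorem sm_single (k : ℕ) (i : Fin n) :
    sm k {i} = Measure.map (fun s : ℝ => (Pi.single i s : Fin n → ℝ))
      (volume.restrict (Icc (0:ℝ) (1 / 2 ^ k))) := by
  classical
  unfold sm
  apply Measure.pi_eq
  intro s hs
  have hmeas : Measurable (fun t : ℝ => (Pi.single i t : Fin n → ℝ)) := by
    apply measurable_pi_lambda
    intro j
    by_cases hj : j = i
    · subst hj; simpa using measurable_id'
    · simp [Pi.single_eq_of_ne hj]
  rw [Measure.map_apply hmeas (MeasurableSet.univ_pi hs)]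
  have h1 : (fun t : ℝ => (Pi.single i t : Fin n → ℝ)) ⁻¹' (Set.pi univ s) =
      if (∀ j, j ≠ i → (0:ℝ) ∈ s j) then s i else ∅ := by
    ext t
    simp only [mem_preimage, Set.mem_pi, mem_univ, forall_true_left]
    split_ifs with h
    · constructor
      · intro h2
        simpa using h2 i
      · intro h2 j
        by_cases hj : j = i
        · subst hj; simpa using h2
        · rw [Pi.single_eq_of_ne hj]; exact h j hj
    · simp only [mem_empty_iff_false, iff_false]
      intro h2
      apply h
      intro j hj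
      have := h2 j
      rwa [Pi.single_eq_of_ne hj] at this
  rw [h1, ← Finset.mul_prod_erase Finset.univ _ (Finset.mem_univ i)]
  have h2 : sm1 k {i} i (s i) = (volume.restrict (Icc (0:ℝ) (1 / 2 ^ k))) (s i) := by
    simp [sm1]
  rw [h2]
  split_ifs with h
  · have h3 : ∏ j ∈ Finset.univ.erase i, sm1 k {i} j (s j) = 1 := by
      apply Finset.prod_eq_one
      intro j hj
      have hj' : j ≠ i := Finset.ne_of_mem_erase hj
      unfold sm1
      rw [if_neg (by simpa using hj'), Measure.dirac_apply' _ (hs j),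
        indicator_of_mem (h j hj')]
      rfl
    rw [h3, mul_one]
  · push Not at h
    obtain ⟨j, hj, hj0⟩ := h
    have h3 : ∏ j ∈ Finset.univ.erase i, sm1 k {i} j (s j) = 0 := by
      apply Finset.prod_eq_zero (Finset.mem_erase.2 ⟨hj, Finset.mem_univ j⟩)
      unfold sm1
      rw [if_neg (by simpa using hj), Measure.dirac_apply' _ (hs j), indicator_of_notMem hj0]
    rw [h3, mul_zero, measure_empty]

/-- **the integral over an edge** -/
theorem ic_single {g : (Fin n → ℝ) → ℝ≥0∞} (hg : Measurable g) (a : Fin n → ℝ) {σ : Idx n}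
    {i : Fin n} (hσ : σ.J = {i}) :
    ic g a σ = ∫⁻ s in Icc (0:ℝ) (1 / 2 ^ σ.k), g (vx a σ.k σ.z + Pi.single i s) := by
  unfold ic
  rw [hσ, sm_single]
  have hmeas : Measurable (fun t : ℝ => (Pi.single i t : Fin n → ℝ)) := by
    apply measurable_pi_lambda
    intro j
    by_cases hj : j = i
    · subst hj; simpa using measurable_id'
    · simp [Pi.single_eq_of_ne hj]
  exact lintegral_map (f := fun t => g (vx a σ.k σ.z + t)) (hg.comp (measurable_id.const_add _))
    hmeas

/-- the closed edge is the segment from its lower corner -/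
theorem mem_edge_iff {a : Fin n → ℝ} {σ : Idx n} {i : Fin n} (hσ : σ.J = {i}) (x : Fin n → ℝ) :
    x ∈ Dc a σ ↔ ∃ s ∈ Icc (0:ℝ) (1 / 2 ^ σ.k), x = vx a σ.k σ.z + Pi.single i s := by
  have h2 : (0:ℝ) < 2 ^ σ.k := by positivity
  constructor
  · intro hx
    refine ⟨x i - vx a σ.k σ.z i, ?_, ?_⟩
    · have h := (hx i).1 (by rw [hσ]; simp)
      unfold ps at h
      unfold vx
      constructor
      · have : (σ.z i : ℝ) / 2 ^ σ.k ≤ x i - a i := by
          rw [div_le_iff₀ h2]; linarith [h.1]
        linarith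
      · have : x i - a i ≤ ((σ.z i : ℝ) + 1) / 2 ^ σ.k := by
          rw [le_div_iff₀ h2]; linarith [h.2]
        rw [add_div] at this
        linarith
    · funext j
      by_cases hj : j = i
      · subst hj; simp
      · have h := (hx j).2 (by rw [hσ]; simpa using hj)
        unfold ps at h
        simp only [Pi.add_apply, Pi.single_eq_of_ne hj, add_zero, vx]
        have : x j - a j = σ.z j / 2 ^ σ.k := by rw [eq_div_iff h2.ne']; linarith
        linarith
  · rintro ⟨s, hs, rfl⟩ j
    rw [ps_vx, hσ]
    by_cases hj : j = i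
    · subst hj
      simp only [Finset.mem_singleton, Pi.single_eq_same, forall_true_left, not_true_eq_false,
        false_imp_iff, and_true]
      have h3 : 2 ^ σ.k * s ≤ 1 := by
        have := hs.2
        rw [le_div_iff₀ h2] at this
        linarith
      constructor
      · have := mul_nonneg h2.le hs.1; linarith
      · linarith
    · simp [hj]

/-- volume of a closed mesh cube -/
theorem volume_cube (a : Fin n → ℝ) {σ : Idx n} (hσ : σ.J = Finset.univ) :
    volume (Dc a σ) = (((2:ℝ≥0∞) ^ σ.k)⁻¹) ^ n := by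
  have h2 : (0:ℝ) < 2 ^ σ.k := by positivity
  have h1 : Dc a σ = Set.pi univ fun i => Icc (a i + σ.z i / 2 ^ σ.k)
      (a i + (σ.z i + 1) / 2 ^ σ.k) := by
    ext x
    simp only [Dc, hσ, Finset.mem_univ, forall_true_left, not_true_eq_false, false_imp_iff,
      and_true, mem_ofPred_eq, Set.mem_pi, mem_univ, mem_Icc, ps]
    apply forall_congr'
    intro i
    have e1 : a i + σ.z i / 2 ^ σ.k ≤ x i ↔ (σ.z i : ℝ) ≤ 2 ^ σ.k * (x i - a i) := by
      rw [← le_sub_iff_add_le', div_le_iff₀ h2, mul_comm]
    have e2 : x i ≤ a i + ((σ.z i : ℝ) + 1) / 2 ^ σ.k ↔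
        2 ^ σ.k * (x i - a i) ≤ (σ.z i : ℝ) + 1 := by
      rw [← sub_le_iff_le_add', le_div_iff₀ h2, mul_comm]
    rw [e1, e2]
  rw [h1, volume_pi_pi]
  have h3 : ∀ i, volume (Icc (a i + σ.z i / 2 ^ σ.k) (a i + (σ.z i + 1) / 2 ^ σ.k)) =
      ((2:ℝ≥0∞) ^ σ.k)⁻¹ := by
    intro i
    rw [Real.volume_Icc]
    have h4 : a i + (σ.z i + 1) / 2 ^ σ.k - (a i + σ.z i / 2 ^ σ.k) = (2 ^ σ.k)⁻¹ := by
      field_simp; ring
    rw [h4, ENNReal.ofReal_inv_of_pos h2, ENNReal.ofReal_pow (by norm_num)]
    norm_num
  simp [h3]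

end

end Crest.Agent.R96.En6_199
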