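/-
helper199, row 96, leaf ENERGY, part 7: levels for a countable family of functions on the edges of
the Whitney mesh; total number of crossings on every edge.
-/
import Mathlib
import Crest.Agent.R96.En6_199

set_option autoImplicit false

open MeasureTheory Set Filter
open scoped Topology ENNReal

namespace Crest.Agent.R96.En7_199

open Crest.Agent.R096.Msh_810 Crest.Agent.R096.Bas_731 Crest.Agent.R96.En3_199
  Crest.Agent.R96.En4_199 Crest.Agent.R96.En5_199 Crest.Agent.R96.En2_199 Crest.Agent.R96.En6_199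

noncomputable section

variable {n : ℕ}

/-- the line through the lower corner of the edge `σ` in direction `i` -/
def ln (a : Fin n → ℝ) (σ : Idx n) (i : Fin n) (s : ℝ) : Fin n → ℝ :=
  vx a σ.k σ.z + Pi.single i s

theorem ln_injective (a : Fin n → ℝ) (σ : Idx n) (i : Fin n) : Function.Injective (ln a σ i) := by
  intro s t h
  have := congrFun h i
  simpa [ln] using this

theorem continuous_ln (a : Fin n → ℝ) (σ : Idx n) (i : Fin n) : Continuous (ln a σ i) := by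
  unfold ln
  exact continuous_const.add (continuous_single (A := fun _ : Fin n => ℝ) i)

theorem edge_eq_image {a : Fin n → ℝ} {σ : Idx n} {i : Fin n} (hσ : σ.J = {i}) :
    Dc a σ = ln a σ i '' Icc (0:ℝ) (1 / 2 ^ σ.k) := by
  ext x
  rw [mem_edge_iff hσ]
  constructor
  · rintro ⟨s, hs, rfl⟩; exact ⟨s, hs, rfl⟩
  · rintro ⟨s, hs, rfl⟩; exact ⟨s, hs, rfl⟩

/-- number of points of the level `y` of `v` on the edge -/
def crs (v : (Fin n → ℝ) → ℝ) (a : Fin n → ℝ) (σ : Idx n) (y : ℝ) : ℝ≥0∞ :=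
  ((Dc a σ ∩ v ⁻¹' {y}).encard : ℝ≥0∞)

theorem crs_eq {v : (Fin n → ℝ) → ℝ} {a : Fin n → ℝ} {σ : Idx n} {i : Fin n} (hσ : σ.J = {i})
    (y : ℝ) : crs v a σ y = cnt (fun s => v (ln a σ i s)) (Icc (0:ℝ) (1 / 2 ^ σ.k)) y := by
  unfold crs cnt
  have h1 : Dc a σ ∩ v ⁻¹' {y} = ln a σ i '' (Icc (0:ℝ) (1 / 2 ^ σ.k) ∩
      (fun s => v (ln a σ i s)) ⁻¹' {y}) := by
    rw [edge_eq_image hσ]
    ext x
    constructor
    · rintro ⟨⟨s, hs, rfl⟩, h⟩; exact ⟨s, ⟨hs, h⟩, rfl⟩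
    · rintro ⟨s, ⟨hs, h⟩, rfl⟩; exact ⟨⟨s, hs, rfl⟩, h⟩
  rw [h1, (ln_injective a σ i).injOn.encard_image]

/-- upper gradient along the edge -/
def UGe (v : (Fin n → ℝ) → ℝ) (g : (Fin n → ℝ) → ℝ≥0∞) (a : Fin n → ℝ) (σ : Idx n) (i : Fin n) :
    Prop := ∀ x y : ℝ, 0 ≤ x → x ≤ y → y ≤ 1 / 2 ^ σ.k →
      ENNReal.ofReal |v (ln a σ i y) - v (ln a σ i x)| ≤ ∫⁻ s in Ioc x y, g (ln a σ i s)

/-- **levels for one function on finitely many edges** -/
theorem edges_one {κ : Type*} [Fintype κ] (a : Fin n → ℝ) (σ : κ → Idx n) (i : κ → Fin n)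
    (hσ : ∀ j, (σ j).J = {i j}) {v : (Fin n → ℝ) → ℝ} {g : (Fin n → ℝ) → ℝ≥0∞}
    (hg : Measurable g) (hv : ∀ j, ContinuousOn v (Dc a (σ j)))
    (hvg : ∀ j, UGe v g a (σ j) (i j)) (hfin : ∀ j, ic g a (σ j) ≠ ∞)
    {Z : Set ℝ} (hZ : volume Z = 0) {ε : ℝ} (hε : 0 < ε) :
    ∃ m0 : ℕ, ∀ m ≥ m0, 0 < m → ∃ c ∈ Ioo (0:ℝ) 1, (∀ k < m, (c + k) / m ∉ Z) ∧
      ∀ j, (m:ℝ≥0∞)⁻¹ * ∑ k ∈ Finset.range m, crs v a (σ j) ((c + k) / m) ≤
        ic g a (σ j) + ENNReal.ofReal ε := by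
  have hN : ∀ j, AEMeasurable (crs v a (σ j)) (volume.restrict (Icc (0:ℝ) 1)) := by
    intro j
    have h1 : crs v a (σ j) =
        cnt (fun s => v (ln a (σ j) (i j) s)) (Icc (0:ℝ) (1 / 2 ^ (σ j).k)) :=
      funext fun y => crs_eq (hσ j) y
    rw [h1]
    refine (aemeasurable_cnt_Icc ?_).restrict
    refine (hv j).comp (continuous_ln _ _ _).continuousOn ?_
    intro s hs
    rw [edge_eq_image (hσ j)]
    exact ⟨s, hs, rfl⟩
  have hI : ∀ j, ∫⁻ y in Icc (0:ℝ) 1, crs v a (σ j) y ≤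
      ENNReal.ofReal (ic g a (σ j)).toReal := by
    intro j
    rw [ENNReal.ofReal_toReal (hfin j)]
    refine (setLIntegral_le_lintegral _ _).trans ?_
    have h1 : crs v a (σ j) =
        cnt (fun s => v (ln a (σ j) (i j) s)) (Icc (0:ℝ) (1 / 2 ^ (σ j).k)) :=
      funext fun y => crs_eq (hσ j) y
    rw [h1]
    have hcont : ContinuousOn (fun s => v (ln a (σ j) (i j) s)) (Icc (0:ℝ) (1 / 2 ^ (σ j).k)) := by
      refine (hv j).comp (continuous_ln _ _ _).continuousOn ?_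
      intro s hs
      rw [edge_eq_image (hσ j)]
      exact ⟨s, hs, rfl⟩
    have hdom : Dom (fun s => v (ln a (σ j) (i j) s))
        ((volume.restrict (Icc (0:ℝ) (1 / 2 ^ (σ j).k))).withDensity
          fun s => g (ln a (σ j) (i j) s)) 0 (1 / 2 ^ (σ j).k) := by
      intro x y hx hxy hy
      have hsub : Ioc x y ⊆ Icc (0:ℝ) (1 / 2 ^ (σ j).k) := fun s hs =>
        ⟨hx.trans hs.1.le, hs.2.trans hy⟩
      rw [withDensity_apply _ measurableSet_Ioc, Measure.restrict_restrict measurableSet_Ioc,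
        inter_eq_self_of_subset_left hsub]
      exact hvg j x y hx hxy hy
    refine (lintegral_cnt_Icc_le hcont hdom).trans ?_
    rw [withDensity_apply _ measurableSet_Ioc, Measure.restrict_restrict measurableSet_Ioc,
      inter_eq_self_of_subset_left Ioc_subset_Icc_self, ic_single hg a (hσ j)]
    exact lintegral_mono_set Ioc_subset_Icc_self
  obtain ⟨m0, hm0⟩ := exists_good_offset hN (fun j => ENNReal.toReal_nonneg) hI hZ hε
  refine ⟨m0, fun m hm hmp => ?_⟩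
  obtain ⟨c, hc, h1, h2⟩ := hm0 m hm hmp
  refine ⟨c, hc, h1, fun j => ?_⟩
  have hm1 : (m:ℝ≥0∞) ≠ 0 := by positivity
  have hm2 : (m:ℝ≥0∞) ≠ ∞ := ENNReal.natCast_ne_top m
  calc (m:ℝ≥0∞)⁻¹ * ∑ k ∈ Finset.range m, crs v a (σ j) ((c + k) / m)
      ≤ (m:ℝ≥0∞)⁻¹ * ENNReal.ofReal (m * ((ic g a (σ j)).toReal + ε)) := by
        gcongr
        exact h2 j
    _ = (m:ℝ≥0∞)⁻¹ * (m * (ic g a (σ j) + ENNReal.ofReal ε)) := by
        rw [ENNReal.ofReal_mul (by positivity), ENNReal.ofReal_natCast,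
          ENNReal.ofReal_add ENNReal.toReal_nonneg hε.le, ENNReal.ofReal_toReal (hfin j)]
    _ = ic g a (σ j) + ENNReal.ofReal ε := by
        rw [← mul_assoc, ENNReal.inv_mul_cancel hm1 hm2, one_mul]

/-- **levels for countably many functions on the mesh**: `v c` (`c` in a countable set, e.g. the
functions `s_c ∘ F` of the foam cells) with upper gradients `g c` along the mesh edges, `Fc c` the
finitely many edges on which `v c` takes values in `(0,1)`. -/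
theorem edges_all {D : Dat n} {𝒞 : Type*} [Countable 𝒞] {v : 𝒞 → (Fin n → ℝ) → ℝ}
    {g : 𝒞 → (Fin n → ℝ) → ℝ≥0∞} (hg : ∀ c, Measurable (g c)) (Fc : 𝒞 → Finset (Cel D))
    (hF1 : ∀ c, ∀ σ ∈ Fc c, σ.1.J.card = 1)
    (hF2 : ∀ c, ∀ σ : Cel D, σ.1.J.card = 1 → σ ∉ Fc c → ∀ x ∈ σ.c, v c x ∉ Ioo (0:ℝ) 1)
    (hv : ∀ c, ∀ σ ∈ Fc c, ContinuousOn (v c) σ.c)
    (hvg : ∀ c, ∀ σ ∈ Fc c, ∀ i, σ.1.J = {i} → UGe (v c) (g c) D.a σ.1 i)
    (hfin : ∀ c, ∀ σ ∈ Fc c, ic (g c) D.a σ.1 ≠ ∞)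
    {Z : 𝒞 → Set ℝ} (hZ : ∀ c, volume (Z c) = 0) {e : Cel D → ℝ} (he : ∀ σ, 0 < e σ) :
    ∃ m0 : 𝒞 → ℕ, ∀ m : 𝒞 → ℕ, (∀ c, m0 c ≤ m c) → (∀ c, 0 < m c) → ∃ o : 𝒞 → ℝ,
      (∀ c, o c ∈ Ioo (0:ℝ) 1) ∧ (∀ c, ∀ k < m c, (o c + k) / m c ∉ Z c) ∧
      ∀ σ : Cel D, σ.1.J.card = 1 →
        ∑' c, (m c:ℝ≥0∞)⁻¹ * ∑ k ∈ Finset.range (m c), crs (v c) D.a σ.1 ((o c + k) / m c) ≤
          ic (fun x => ∑' c, g c x) D.a σ.1 + ENNReal.ofReal (e σ) := by
  classical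
  -- weights on the functions
  obtain ⟨δ, hδ0, hδ⟩ := ENNReal.exists_pos_sum_of_countable (ε := 1) one_ne_zero 𝒞
  -- the error for `c`
  have hε : ∀ c, ∃ ε : ℝ, 0 < ε ∧ ∀ σ ∈ Fc c, ε ≤ δ c * e σ := by
    intro c
    rcases (Fc c).eq_empty_or_nonempty with h | h
    · exact ⟨1, one_pos, fun σ hσ => by rw [h] at hσ; simp at hσ⟩
    · refine ⟨(Fc c).inf' h (fun σ => δ c * e σ), ?_, fun σ hσ => Finset.inf'_le _ hσ⟩
      rw [Finset.lt_inf'_iff]
      intro σ _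
      have : (0:ℝ) < δ c := by exact_mod_cast hδ0 c
      have h2 := he σ
      positivity
  choose ε hε0 hε1 using hε
  have hdir : ∀ c, ∀ σ : {σ // σ ∈ Fc c}, ∃ i, σ.1.1.J = {i} := fun c σ =>
    Finset.card_eq_one.1 (hF1 c σ.1 σ.2)
  choose dir hdir using hdir
  choose m0 hm0 using fun c => edges_one (κ := {σ // σ ∈ Fc c}) D.a (fun σ => σ.1.1) (dir c)
    (hdir c) (hg c) (fun σ => hv c σ.1 σ.2) (fun σ => hvg c σ.1 σ.2 _ (hdir c σ))
    (fun σ => hfin c σ.1 σ.2) (hZ c) (hε0 c)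
  refine ⟨m0, fun m hm hmp => ?_⟩
  choose o ho h1 h2 using fun c => hm0 c (m c) (hm c) (hmp c)
  refine ⟨o, ho, h1, fun σ hσ => ?_⟩
  -- every single term
  have hterm : ∀ c, (m c:ℝ≥0∞)⁻¹ * ∑ k ∈ Finset.range (m c),
      crs (v c) D.a σ.1 ((o c + k) / m c) ≤ ic (g c) D.a σ.1 + (δ c : ℝ≥0∞) * ENNReal.ofReal (e σ) := by
    intro c
    by_cases hσc : σ ∈ Fc c
    · refine (h2 c ⟨σ, hσc⟩).trans ?_
      gcongr
      have h3 := ENNReal.ofReal_le_ofReal (hε1 c σ hσc)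
      rw [ENNReal.ofReal_mul (by positivity), ENNReal.ofReal_coe_nnreal] at h3
      exact h3
    · have h3 : ∑ k ∈ Finset.range (m c), crs (v c) D.a σ.1 ((o c + k) / m c) = 0 := by
        apply Finset.sum_eq_zero
        intro k hk
        have hk' := Finset.mem_range.1 hk
        have hmR : (0:ℝ) < m c := by exact_mod_cast hmp c
        have hlev : (o c + k) / m c ∈ Ioo (0:ℝ) 1 := by
          have h4 := ho c
          have h5 : ((k:ℝ) + 1) ≤ m c := by exact_mod_cast hk'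
          constructor
          · have := h4.1; positivity
          · rw [div_lt_one hmR]; linarith [h4.2]
        unfold crs
        have h6 : σ.c ∩ v c ⁻¹' {(o c + k) / m c} = ∅ := by
          rw [eq_empty_iff_forall_notMem]
          rintro x ⟨hx1, hx2⟩
          apply hF2 c σ hσ hσc x hx1
          rw [mem_preimage, mem_singleton_iff] at hx2
          rw [hx2]; exact hlev
        have h7 : Dc D.a σ.1 ∩ v c ⁻¹' {(o c + k) / m c} = ∅ := h6
        rw [h7]; simp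
      rw [h3, mul_zero]
      exact zero_le
  calc ∑' c, (m c:ℝ≥0∞)⁻¹ * ∑ k ∈ Finset.range (m c), crs (v c) D.a σ.1 ((o c + k) / m c)
      ≤ ∑' c, (ic (g c) D.a σ.1 + (δ c : ℝ≥0∞) * ENNReal.ofReal (e σ)) :=
        ENNReal.tsum_le_tsum hterm
    _ = (∑' c, ic (g c) D.a σ.1) + (∑' c, (δ c : ℝ≥0∞)) * ENNReal.ofReal (e σ) := by
        rw [ENNReal.tsum_add, ENNReal.tsum_mul_right]
    _ ≤ ic (fun x => ∑' c, g c x) D.a σ.1 + 1 * ENNReal.ofReal (e σ) := by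
        gcongr
        · unfold ic
          rw [← lintegral_tsum]
          intro c
          exact ((hg c).comp (measurable_id.const_add _)).aemeasurable
    _ = _ := by rw [one_mul]

end

end Crest.Agent.R96.En7_199
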