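/-
helper199, row 96, leaf ENERGY, part 8: from weak derivatives to the edges of the mesh; the energy
inequality for the numbers of crossings.
-/
import Mathlib
import Crest.Agent.R96.En7_199
import Crest.Agent.R96.Sob3_199
import Crest.Agent.R96.Sob6_199

set_option autoImplicit false

open MeasureTheory Set Filter
open scoped Topology ENNReal

namespace Crest.Agent.R96.En8_199

open Crest.Agent.R096.Msh_810 Crest.Agent.R096.Bas_731 Crest.Agent.R96.En3_199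
  Crest.Agent.R96.En4_199 Crest.Agent.R96.En5_199 Crest.Agent.R96.En2_199 Crest.Agent.R96.En6_199
  Crest.Agent.R96.En7_199 Crest.Agent.R96.Acl_392 Crest.Agent.R96.Sob2_199
  Crest.Agent.R96.Sob3_199

noncomputable section

variable {n : ℕ}

theorem ln_eq (a : Fin n → ℝ) (σ : Idx n) (i : Fin n) (s : ℝ) :
    ln a σ i s = vx a σ.k σ.z + s • (Pi.single i (1:ℝ) : Fin n → ℝ) := by
  unfold ln
  congr 1
  funext j
  by_cases hj : j = i
  · subst hj; simp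
  · simp [hj]

/-- absolute continuity on the line of the edge gives the upper gradient on the edge -/
theorem uge_of_acl {Ω : Set (Fin n → ℝ)} {v g : (Fin n → ℝ) → ℝ} {a : Fin n → ℝ} {σ : Idx n}
    {i : Fin n} (hσ : σ.J = {i}) (hsub : Dc a σ ⊆ Ω)
    (h : ACLat Ω v g (Pi.single i (1:ℝ)) (vx a σ.k σ.z)) :
    UGe v (fun x => ‖g x‖ₑ) a σ i := by
  intro x y hx hxy hy
  have hseg : vx a σ.k σ.z ∈ segIn Ω (Pi.single i (1:ℝ)) x y := by
    intro τ hτ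
    apply hsub
    rw [edge_eq_image hσ]
    exact ⟨τ, ⟨hx.trans hτ.1, hτ.2.trans hy⟩, (ln_eq a σ i τ)⟩
  obtain ⟨h1, h2⟩ := h x y hxy hseg
  rw [ln_eq, ln_eq, h2, intervalIntegral.integral_of_le hxy, ← Real.norm_eq_abs,
    ofReal_norm]
  refine (enorm_integral_le_lintegral_enorm _).trans (le_of_eq ?_)
  apply lintegral_congr
  intro s
  rw [ln_eq]

theorem ic_ne_top {Ω : Set (Fin n → ℝ)} {g : (Fin n → ℝ) → ℝ} (hg : Measurable g)
    {a : Fin n → ℝ} {σ : Idx n} {i : Fin n} (hσ : σ.J = {i}) (hsub : Dc a σ ⊆ Ω)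
    (h : ∀ s t : ℝ, s ≤ t → vx a σ.k σ.z ∈ segIn Ω (Pi.single i (1:ℝ)) s t →
      IntegrableOn (fun τ : ℝ => g (vx a σ.k σ.z + τ • (Pi.single i (1:ℝ) : Fin n → ℝ))) (Icc s t)) :
    ic (fun x => ‖g x‖ₑ) a σ ≠ ∞ := by
  have hseg : vx a σ.k σ.z ∈ segIn Ω (Pi.single i (1:ℝ)) 0 (1 / 2 ^ σ.k) := by
    intro τ hτ
    apply hsub
    rw [edge_eq_image hσ]
    exact ⟨τ, hτ, (ln_eq a σ i τ)⟩
  have h1 := h 0 (1 / 2 ^ σ.k) (by positivity) hseg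
  rw [ic_single hg.enorm a hσ]
  have h2 := h1.2
  have h3 : ∫⁻ s in Icc (0:ℝ) (1 / 2 ^ σ.k), ‖g (vx a σ.k σ.z + Pi.single i s)‖ₑ =
      ∫⁻ s in Icc (0:ℝ) (1 / 2 ^ σ.k), ‖g (vx a σ.k σ.z + s • (Pi.single i (1:ℝ) : Fin n → ℝ))‖ₑ := by
    apply lintegral_congr
    intro s
    have := ln_eq a σ i s
    unfold ln at this
    rw [this]
  rw [h3]
  exact h2.ne

/-- a weak derivative has a measurable representative -/
theorem exists_measurable {E : Type*} [NormedAddCommGroup E] [NormedSpace ℝ E]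
    [FiniteDimensional ℝ E] [MeasurableSpace E] [BorelSpace E] {μ : Measure E}
    [μ.IsAddHaarMeasure] {Ω : Set E} (hΩ : IsOpen Ω) {v g : E → ℝ} {e : E} (h : WD Ω μ v g e) :
    ∃ g', Measurable g' ∧ WD Ω μ v g' e ∧ ∀ᵐ x ∂μ, x ∈ Ω → g x = g' x := by
  obtain ⟨g', h1, h2⟩ := (aemeas_of_loc h.lg).aemeasurable
  rw [Filter.EventuallyEq, ae_restrict_iff' hΩ.measurableSet] at h2
  exact ⟨g', h1, wd_congr hΩ h (Eventually.of_forall fun _ _ => rfl) h2, h2⟩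

/-- good lines through `x` for the functions `v c` with derivatives `g c i` -/
def Good {𝒞 : Type*} (Ω : Set (Fin n → ℝ)) (v : 𝒞 → (Fin n → ℝ) → ℝ)
    (g : 𝒞 → Fin n → (Fin n → ℝ) → ℝ) (x : Fin n → ℝ) : Prop :=
  ∀ (c : 𝒞) (i : Fin n), ACLat Ω (v c) (g c i) (Pi.single i (1:ℝ)) x ∧
    ∀ (j : Fin n) (s t : ℝ), s ≤ t → x ∈ segIn Ω (Pi.single j (1:ℝ)) s t →
      IntegrableOn (fun τ : ℝ => g c i (x + τ • (Pi.single j (1:ℝ) : Fin n → ℝ))) (Icc s t)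

/-- **almost every shift**: all mesh lines are good for countably many functions -/
theorem ae_shift {Ω : Set (Fin n → ℝ)} (hΩ : IsOpen Ω) {𝒞 : Type*} [Countable 𝒞]
    {v : 𝒞 → (Fin n → ℝ) → ℝ} {g : 𝒞 → Fin n → (Fin n → ℝ) → ℝ}
    (hv : ∀ c, ContinuousOn (v c) Ω)
    (h : ∀ c i, WD Ω volume (v c) (g c i) (Pi.single i (1:ℝ))) :
    ∀ᵐ a : Fin n → ℝ, ∀ (k : ℕ) (z : Fin n → ℤ), Good Ω v g (vx a k z) := by
  apply ae_vertices (P := Good Ω v g)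
  unfold Good
  rw [ae_all_iff]
  intro c
  rw [ae_all_iff]
  intro i
  have h1 : ∀ᵐ x : Fin n → ℝ, ∀ (j : Fin n) (s t : ℝ), s ≤ t →
      x ∈ segIn Ω (Pi.single j (1:ℝ)) s t →
      IntegrableOn (fun τ : ℝ => g c i (x + τ • (Pi.single j (1:ℝ) : Fin n → ℝ))) (Icc s t) := by
    rw [ae_all_iff]
    intro j
    exact Sob6_199.ae_line_integrable hΩ (h c i).lg (Pi.single j (1:ℝ))
  filter_upwards [acl hΩ (h c i) (hv c), h1] with x hx hx1
  exact ⟨hx, hx1⟩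

/-- the total crossing number of an edge -/
def tot {D : Dat n} {𝒞 : Type*} (v : 𝒞 → (Fin n → ℝ) → ℝ) (m : 𝒞 → ℕ) (o : 𝒞 → ℝ)
    (σ : Cel D) : ℝ≥0∞ :=
  ∑' c, (m c:ℝ≥0∞)⁻¹ * ∑ k ∈ Finset.range (m c), crs (v c) D.a σ.1 ((o c + k) / m c)

/-- the sum of the norms of all the partial derivatives -/
def GG {𝒞 : Type*} (g : 𝒞 → Fin n → (Fin n → ℝ) → ℝ) (x : Fin n → ℝ) : ℝ≥0∞ :=
  ∑' c, ∑ i, ‖g c i x‖ₑ

/-- **levels on the mesh from weak derivatives** (for a shift which is good in the sense of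
`ae_shift`) -/
theorem levels_mesh {D : Dat n} {𝒞 : Type*} [Countable 𝒞]
    {v : 𝒞 → (Fin n → ℝ) → ℝ} {g : 𝒞 → Fin n → (Fin n → ℝ) → ℝ}
    (hv : ∀ c, ContinuousOn (v c) D.Om) (hg : ∀ c i, Measurable (g c i))
    (hacl : ∀ (k : ℕ) (z : Fin n → ℤ), Good D.Om v g (vx D.a k z))
    {K : 𝒞 → Set (Fin n → ℝ)} (hK : ∀ c, IsCompact (K c)) (hKO : ∀ c, K c ⊆ D.Om)
    (hvK : ∀ c, ∀ x ∈ D.Om, v c x ∈ Ioo (0:ℝ) 1 → x ∈ K c)
    {Z : 𝒞 → Set ℝ} (hZ : ∀ c, volume (Z c) = 0) {e : Cel D → ℝ} (he : ∀ σ, 0 < e σ) :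
    ∃ m0 : 𝒞 → ℕ, ∀ m : 𝒞 → ℕ, (∀ c, m0 c ≤ m c) → (∀ c, 0 < m c) → ∃ o : 𝒞 → ℝ,
      (∀ c, o c ∈ Ioo (0:ℝ) 1) ∧ (∀ c, ∀ k < m c, (o c + k) / m c ∉ Z c) ∧
      ∀ σ : Cel D, σ.1.J.card = 1 → tot v m o σ ≤ ic (GG g) D.a σ.1 + ENNReal.ofReal (e σ) := by
  classical
  have hfin : ∀ c, {σ : Cel D | (σ.c ∩ K c).Nonempty}.Finite := fun c =>
    Cel.finite_of_compact (hK c) (hKO c)
  set Fc : 𝒞 → Finset (Cel D) := fun c => (hfin c).toFinset.filter fun σ => σ.1.J.card = 1 with hFc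
  have hg' : ∀ c, Measurable (fun x => ∑ i, ‖g c i x‖ₑ) := fun c =>
    Finset.measurable_sum _ fun i _ => (hg c i).enorm
  refine edges_all hg' Fc ?_ ?_ ?_ ?_ ?_ hZ he
  · intro c σ hσ
    exact (Finset.mem_filter.1 hσ).2
  · intro c σ hσ hσF x hx hxv
    apply hσF
    rw [hFc]
    simp only [Finset.mem_filter, Finite.mem_toFinset, mem_ofPred_eq]
    exact ⟨⟨x, hx, hvK c x (σ.c_subset_Om hx) hxv⟩, hσ⟩
  · intro c σ _
    exact (hv c).mono σ.c_subset_Om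
  · intro c σ _ i hi x y hx hxy hy
    refine (uge_of_acl hi σ.c_subset_Om (hacl σ.1.k σ.1.z c i).1 x y hx hxy hy).trans ?_
    apply lintegral_mono
    intro s
    change ‖g c i (ln D.a σ.1 i s)‖ₑ ≤ ∑ j, ‖g c j (ln D.a σ.1 i s)‖ₑ
    exact Finset.single_le_sum (f := fun j => ‖g c j (ln D.a σ.1 i s)‖ₑ) (fun _ _ => zero_le)
      (Finset.mem_univ i)
  · intro c σ hσ
    obtain ⟨i, hi⟩ := Finset.card_eq_one.1 (Finset.mem_filter.1 hσ).2
    have h1 : ic (fun x => ∑ j, ‖g c j x‖ₑ) D.a σ.1 = ∑ j, ic (fun x => ‖g c j x‖ₑ) D.a σ.1 := by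
      unfold ic
      rw [lintegral_finsetSum]
      intro j _
      exact (hg c j).enorm.comp (measurable_id.const_add _)
    rw [h1]
    apply ENNReal.sum_ne_top.2
    intro j _
    exact ic_ne_top (hg c j) hi σ.c_subset_Om ((hacl σ.1.k σ.1.z c j).2 i)

/-- **LEVELS WITH ENERGY** (for a good shift): the levels may be chosen such that the energy of the
numbers of crossings is at most the energy of the mesh, on every union of cubes. -/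
theorem levels_energy {D : Dat n} {𝒞 : Type*} [Countable 𝒞]
    {v : 𝒞 → (Fin n → ℝ) → ℝ} {g : 𝒞 → Fin n → (Fin n → ℝ) → ℝ}
    (hv : ∀ c, ContinuousOn (v c) D.Om) (hg : ∀ c i, Measurable (g c i))
    (hacl : ∀ (k : ℕ) (z : Fin n → ℤ), Good D.Om v g (vx D.a k z))
    {K : 𝒞 → Set (Fin n → ℝ)} (hK : ∀ c, IsCompact (K c)) (hKO : ∀ c, K c ⊆ D.Om)
    (hvK : ∀ c, ∀ x ∈ D.Om, v c x ∈ Ioo (0:ℝ) 1 → x ∈ K c)
    {Z : 𝒞 → Set ℝ} (hZ : ∀ c, volume (Z c) = 0) {p : ℝ} (hp : 1 ≤ p) {δ : ℝ≥0∞} (hδ : δ ≠ 0) :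
    ∃ m0 : 𝒞 → ℕ, ∀ m : 𝒞 → ℕ, (∀ c, m0 c ≤ m c) → (∀ c, 0 < m c) → ∃ o : 𝒞 → ℝ,
      (∀ c, o c ∈ Ioo (0:ℝ) 1) ∧ (∀ c, ∀ k < m c, (o c + k) / m c ∉ Z c) ∧
      ∀ R : Set (Fin n → ℝ), ∑' τ : {τ : Cel D // τ.1.J = Finset.univ ∧ τ.c ⊆ R},
        vol D τ.1 * ((2:ℝ≥0∞) ^ τ.1.1.k *
          ∑' σ : {σ : Cel D // σ ∈ edgesOf τ.1}, tot v m o σ.1) ^ p ≤
        2 ^ (p - 1) * (S D p (R.indicator (GG g)) + δ) := by
  classical
  obtain ⟨e, he0, he⟩ := exists_err D hp hδ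
  obtain ⟨m0, hm0⟩ := levels_mesh hv hg hacl hK hKO hvK hZ he0
  refine ⟨m0, fun m hm hmp => ?_⟩
  obtain ⟨o, ho, hoZ, h⟩ := hm0 m hm hmp
  refine ⟨o, ho, hoZ, fun R => ?_⟩
  -- only the edges of cubes in `R` count
  set y : Cel D → ℝ≥0∞ := fun σ => if σ.c ⊆ R then tot v m o σ else 0 with hy
  have hy1 : ∀ σ : Cel D, σ.1.J.card = 1 → y σ ≤ ic (R.indicator (GG g)) D.a σ.1 +
      ENNReal.ofReal (e σ) := by
    intro σ hσ
    by_cases hR : σ.c ⊆ R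
    · rw [hy]
      simp only [hR, if_true]
      have h1 : ic (R.indicator (GG g)) D.a σ.1 = ic (GG g) D.a σ.1 := by
        apply ic_congr_on
        intro x hx
        rw [indicator_of_mem (hR hx)]
      rw [h1]
      exact h σ hσ
    · rw [hy]
      simp only [hR, if_false]
      exact zero_le
  have h2 := S_err (D := D) (g := R.indicator (GG g)) hp hy1
  refine le_trans ?_ (h2.trans ?_)
  · let f : {τ : Cel D // τ.1.J = Finset.univ ∧ τ.c ⊆ R} → {τ : Cel D // τ.1.J = Finset.univ} :=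
      fun τ => ⟨τ.1, τ.2.1⟩
    have hf : Function.Injective f := fun τ τ' h => Subtype.ext (congrArg (fun x => x.1) h)
    refine le_trans (ENNReal.tsum_le_tsum fun τ => ?_)
      (ENNReal.tsum_comp_le_tsum_of_injective hf (fun τ : {τ : Cel D // τ.1.J = Finset.univ} =>
        vol D τ.1 * ((2:ℝ≥0∞) ^ τ.1.1.k *
          ∑' σ : {σ : Cel D // σ ∈ edgesOf τ.1}, y σ.1) ^ p))
    have h3 : ∀ σ : {σ : Cel D // σ ∈ edgesOf τ.1}, tot v m o σ.1 = y σ.1 := by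
      intro σ
      have h4 : σ.1.c ⊆ R := fun x hx => τ.2.2 (σ.2.1 hx)
      rw [hy]
      simp only [h4, if_true]
    simp only [h3]
    exact le_rfl
  · gcongr

/-- a shift which is good for countably many energies and has a given almost sure property -/
theorem exists_shift (D : Dat n) {ι : Type*} [Countable ι] {G : ι → (Fin n → ℝ) → ℝ≥0∞}
    (hG : ∀ i, Measurable (G i)) {p : ι → ℝ} (hp : ∀ i, 1 ≤ p i) {c : ι → ℝ≥0∞}
    (hc : ∀ i, c i ≠ 0) (hsum : n * ∑' i, (c i)⁻¹ < 1) {P : (Fin n → ℝ) → Prop}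
    (hP : ∀ᵐ a, P a) : ∃ a ∈ box n, P a ∧
      ∀ i, S (D.sh a) (p i) (G i) ≤ c i * (KE n (p i) * ∫⁻ x in D.Om, G i x ^ p i) := by
  have h1 := volume_bad_S (D := D) hG hp hc
  by_contra hcon
  push Not at hcon
  have hsub : box n ⊆ {a ∈ box n | ∃ i, c i * (KE n (p i) * ∫⁻ x in D.Om, G i x ^ p i) <
      S (D.sh a) (p i) (G i)} ∪ {a | ¬ P a} := by
    intro a ha
    by_cases hPa : P a
    · left
      exact ⟨ha, hcon a ha hPa⟩
    · right; exact hPa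
  have h2 := measure_mono (μ := (volume : Measure (Fin n → ℝ))) hsub
  have h3 := h2.trans (measure_union_le _ _)
  rw [volume_box, ae_iff.1 hP, add_zero] at h3
  exact absurd (h3.trans h1) (not_le.2 hsum)

end

end Crest.Agent.R96.En8_199
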