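/-
helper199, row 96, leaf ENERGY, part 9: levels with additional conditions (finitely many integrable
functions of the level for every `c`, e.g. the indicator function of the set of bad levels).
-/
import Mathlib
import Crest.Agent.R96.En8_199

set_option autoImplicit false

open MeasureTheory Set Filter
open scoped Topology ENNReal

namespace Crest.Agent.R96.En9_199

open Crest.Agent.R096.Msh_810 Crest.Agent.R096.Bas_731 Crest.Agent.R96.En3_199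
  Crest.Agent.R96.En4_199 Crest.Agent.R96.En5_199 Crest.Agent.R96.En2_199 Crest.Agent.R96.En6_199
  Crest.Agent.R96.En7_199 Crest.Agent.R96.En8_199 Crest.Agent.R96.Acl_392
  Crest.Agent.R96.Sob2_199 Crest.Agent.R96.Sob3_199

noncomputable section

variable {n : ℕ}

/-- the counting function of an edge is a.e. measurable with integral at most the integral of the
upper gradient -/
theorem crs_facts {v : (Fin n → ℝ) → ℝ} {g : (Fin n → ℝ) → ℝ≥0∞} {a : Fin n → ℝ} {σ : Idx n}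
    {i : Fin n} (hσ : σ.J = {i}) (hg : Measurable g) (hv : ContinuousOn v (Dc a σ))
    (hvg : UGe v g a σ i) :
    AEMeasurable (crs v a σ) (volume.restrict (Icc (0:ℝ) 1)) ∧
      ∫⁻ y in Icc (0:ℝ) 1, crs v a σ y ≤ ic g a σ := by
  have h0 : crs v a σ = cnt (fun s => v (ln a σ i s)) (Icc (0:ℝ) (1 / 2 ^ σ.k)) :=
    funext fun y => crs_eq hσ y
  have hcont : ContinuousOn (fun s => v (ln a σ i s)) (Icc (0:ℝ) (1 / 2 ^ σ.k)) := by
    refine hv.comp (continuous_ln _ _ _).continuousOn ?_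
    intro s hs
    rw [edge_eq_image hσ]
    exact ⟨s, hs, rfl⟩
  constructor
  · rw [h0]
    exact (aemeasurable_cnt_Icc hcont).restrict
  · refine (setLIntegral_le_lintegral _ _).trans ?_
    rw [h0]
    have hdom : Dom (fun s => v (ln a σ i s))
        ((volume.restrict (Icc (0:ℝ) (1 / 2 ^ σ.k))).withDensity
          fun s => g (ln a σ i s)) 0 (1 / 2 ^ σ.k) := by
      intro x y hx hxy hy
      have hsub : Ioc x y ⊆ Icc (0:ℝ) (1 / 2 ^ σ.k) := fun s hs =>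
        ⟨hx.trans hs.1.le, hs.2.trans hy⟩
      rw [withDensity_apply _ measurableSet_Ioc, Measure.restrict_restrict measurableSet_Ioc,
        inter_eq_self_of_subset_left hsub]
      exact hvg x y hx hxy hy
    refine (lintegral_cnt_Icc_le hcont hdom).trans ?_
    rw [withDensity_apply _ measurableSet_Ioc, Measure.restrict_restrict measurableSet_Ioc,
      inter_eq_self_of_subset_left Ioc_subset_Icc_self, ic_single hg a hσ]
    exact lintegral_mono_set Ioc_subset_Icc_self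

/-- **levels for one function on finitely many edges, with extra conditions** -/
theorem edges_oneX {κ κ' : Type*} [Fintype κ] [Fintype κ'] (a : Fin n → ℝ) (σ : κ → Idx n)
    (i : κ → Fin n) (hσ : ∀ j, (σ j).J = {i j}) {v : (Fin n → ℝ) → ℝ} {g : (Fin n → ℝ) → ℝ≥0∞}
    (hg : Measurable g) (hv : ∀ j, ContinuousOn v (Dc a (σ j)))
    (hvg : ∀ j, UGe v g a (σ j) (i j)) (hfin : ∀ j, ic g a (σ j) ≠ ∞)
    {X : κ' → ℝ → ℝ≥0∞} (hX : ∀ j, AEMeasurable (X j) (volume.restrict (Icc (0:ℝ) 1)))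
    {J : κ' → ℝ} (hJ0 : ∀ j, 0 ≤ J j) (hJ : ∀ j, ∫⁻ y in Icc (0:ℝ) 1, X j y ≤ ENNReal.ofReal (J j))
    {Z : Set ℝ} (hZ : volume Z = 0) {ε : ℝ} (hε : 0 < ε) :
    ∃ m0 : ℕ, ∀ m ≥ m0, 0 < m → ∃ c ∈ Ioo (0:ℝ) 1, (∀ k < m, (c + k) / m ∉ Z) ∧
      (∀ j, (m:ℝ≥0∞)⁻¹ * ∑ k ∈ Finset.range m, crs v a (σ j) ((c + k) / m) ≤
        ic g a (σ j) + ENNReal.ofReal ε) ∧
      ∀ j, (m:ℝ≥0∞)⁻¹ * ∑ k ∈ Finset.range m, X j ((c + k) / m) ≤
        ENNReal.ofReal (J j) + ENNReal.ofReal ε := by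
  have hf : ∀ j, AEMeasurable (crs v a (σ j)) (volume.restrict (Icc (0:ℝ) 1)) ∧
      ∫⁻ y in Icc (0:ℝ) 1, crs v a (σ j) y ≤ ic g a (σ j) := fun j =>
    crs_facts (hσ j) hg (hv j) (hvg j)
  have hN : ∀ j : κ ⊕ κ', AEMeasurable (Sum.elim (fun j => crs v a (σ j)) X j)
      (volume.restrict (Icc (0:ℝ) 1)) := by
    rintro (j | j)
    · exact (hf j).1
    · exact hX j
  have hI0 : ∀ j : κ ⊕ κ', 0 ≤ Sum.elim (fun j => (ic g a (σ j)).toReal) J j := by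
    rintro (j | j)
    · exact ENNReal.toReal_nonneg
    · exact hJ0 j
  have hI : ∀ j : κ ⊕ κ', ∫⁻ y in Icc (0:ℝ) 1, Sum.elim (fun j => crs v a (σ j)) X j y ≤
      ENNReal.ofReal (Sum.elim (fun j => (ic g a (σ j)).toReal) J j) := by
    rintro (j | j)
    · simp only [Sum.elim_inl]
      rw [ENNReal.ofReal_toReal (hfin j)]
      exact (hf j).2
    · exact hJ j
  obtain ⟨m0, hm0⟩ := exists_good_offset hN hI0 hI hZ hε
  refine ⟨m0, fun m hm hmp => ?_⟩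
  obtain ⟨c, hc, h1, h2⟩ := hm0 m hm hmp
  have hm1 : (m:ℝ≥0∞) ≠ 0 := by positivity
  have hm2 : (m:ℝ≥0∞) ≠ ∞ := ENNReal.natCast_ne_top m
  have key : ∀ (x : ℝ≥0∞) (r : ℝ), 0 ≤ r → x ≤ ENNReal.ofReal (m * (r + ε)) →
      (m:ℝ≥0∞)⁻¹ * x ≤ ENNReal.ofReal r + ENNReal.ofReal ε := by
    intro x r hr hx
    calc (m:ℝ≥0∞)⁻¹ * x ≤ (m:ℝ≥0∞)⁻¹ * ENNReal.ofReal (m * (r + ε)) := by gcongr
      _ = (m:ℝ≥0∞)⁻¹ * (m * (ENNReal.ofReal r + ENNReal.ofReal ε)) := by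
          rw [ENNReal.ofReal_mul (by positivity), ENNReal.ofReal_natCast,
            ENNReal.ofReal_add hr hε.le]
      _ = ENNReal.ofReal r + ENNReal.ofReal ε := by
          rw [← mul_assoc, ENNReal.inv_mul_cancel hm1 hm2, one_mul]
  refine ⟨c, hc, h1, fun j => ?_, fun j => ?_⟩
  · have := key _ _ ENNReal.toReal_nonneg (h2 (Sum.inl j))
    rwa [ENNReal.ofReal_toReal (hfin j)] at this
  · exact key _ _ (hJ0 j) (h2 (Sum.inr j))

/-- **levels for countably many functions on the mesh, with extra conditions**: estimate for every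
single function and every edge, errors prescribed -/
theorem edges_allX {D : Dat n} {𝒞 : Type*} {v : 𝒞 → (Fin n → ℝ) → ℝ}
    {g : 𝒞 → (Fin n → ℝ) → ℝ≥0∞} (hg : ∀ c, Measurable (g c)) (Fc : 𝒞 → Finset (Cel D))
    (hF1 : ∀ c, ∀ σ ∈ Fc c, σ.1.J.card = 1)
    (hF2 : ∀ c, ∀ σ : Cel D, σ.1.J.card = 1 → σ ∉ Fc c → ∀ x ∈ σ.c, v c x ∉ Ioo (0:ℝ) 1)
    (hv : ∀ c, ∀ σ ∈ Fc c, ContinuousOn (v c) σ.c)
    (hvg : ∀ c, ∀ σ ∈ Fc c, ∀ i, σ.1.J = {i} → UGe (v c) (g c) D.a σ.1 i)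
    (hfin : ∀ c, ∀ σ ∈ Fc c, ic (g c) D.a σ.1 ≠ ∞)
    {κ : 𝒞 → Type*} [∀ c, Fintype (κ c)] {X : ∀ c, κ c → ℝ → ℝ≥0∞}
    (hX : ∀ c j, AEMeasurable (X c j) (volume.restrict (Icc (0:ℝ) 1)))
    {J : ∀ c, κ c → ℝ} (hJ0 : ∀ c j, 0 ≤ J c j)
    (hJ : ∀ c j, ∫⁻ y in Icc (0:ℝ) 1, X c j y ≤ ENNReal.ofReal (J c j))
    {Z : 𝒞 → Set ℝ} (hZ : ∀ c, volume (Z c) = 0) {e : 𝒞 → Cel D → ℝ} (he : ∀ c σ, 0 < e c σ)
    {e' : 𝒞 → ℝ} (he' : ∀ c, 0 < e' c) :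
    ∃ m0 : 𝒞 → ℕ, ∀ m : 𝒞 → ℕ, (∀ c, m0 c ≤ m c) → (∀ c, 0 < m c) → ∃ o : 𝒞 → ℝ,
      (∀ c, o c ∈ Ioo (0:ℝ) 1) ∧ (∀ c, ∀ k < m c, (o c + k) / m c ∉ Z c) ∧
      (∀ c, ∀ σ : Cel D, σ.1.J.card = 1 → (m c:ℝ≥0∞)⁻¹ * ∑ k ∈ Finset.range (m c),
        crs (v c) D.a σ.1 ((o c + k) / m c) ≤ ic (g c) D.a σ.1 + ENNReal.ofReal (e c σ)) ∧
      ∀ c j, (m c:ℝ≥0∞)⁻¹ * ∑ k ∈ Finset.range (m c), X c j ((o c + k) / m c) ≤
        ENNReal.ofReal (J c j) + ENNReal.ofReal (e' c) := by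
  classical
  -- the error for `c`
  have hε : ∀ c, ∃ ε : ℝ, 0 < ε ∧ ε ≤ e' c ∧ ∀ σ ∈ Fc c, ε ≤ e c σ := by
    intro c
    rcases (Fc c).eq_empty_or_nonempty with h | h
    · exact ⟨e' c, he' c, le_rfl, fun σ hσ => by rw [h] at hσ; simp at hσ⟩
    · refine ⟨min (e' c) ((Fc c).inf' h (fun σ => e c σ)), lt_min (he' c) ?_, min_le_left _ _,
        fun σ hσ => (min_le_right _ _).trans (Finset.inf'_le _ hσ)⟩
      rw [Finset.lt_inf'_iff]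
      intro σ _
      exact he c σ
  choose ε hε0 hε2 hε1 using hε
  have hdir : ∀ c, ∀ σ : {σ // σ ∈ Fc c}, ∃ i, σ.1.1.J = {i} := fun c σ =>
    Finset.card_eq_one.1 (hF1 c σ.1 σ.2)
  choose dir hdir using hdir
  choose m0 hm0 using fun c => edges_oneX (κ := {σ // σ ∈ Fc c}) D.a (fun σ => σ.1.1) (dir c)
    (hdir c) (hg c) (fun σ => hv c σ.1 σ.2) (fun σ => hvg c σ.1 σ.2 _ (hdir c σ))
    (fun σ => hfin c σ.1 σ.2) (hX c) (hJ0 c) (hJ c) (hZ c) (hε0 c)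
  refine ⟨m0, fun m hm hmp => ?_⟩
  choose o ho h1 h2 h2X using fun c => hm0 c (m c) (hm c) (hmp c)
  refine ⟨o, ho, h1, fun c σ hσ => ?_, fun c j => (h2X c j).trans ?_⟩
  swap
  · gcongr
    exact hε2 c
  by_cases hσc : σ ∈ Fc c
  · refine (h2 c ⟨σ, hσc⟩).trans ?_
    gcongr
    exact hε1 c σ hσc
  · have h3 : ∑ k ∈ Finset.range (m c), crs (v c) D.a σ.1 ((o c + k) / m c) = 0 := by
      apply Finset.sum_eq_zero
      intro k hk
      have hk' := Finset.mem_range.1 hk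
      have hmR : (0:ℝ) < m c := by exact_mod_cast hmp c
      have hlev : (o c + k) / m c ∈ Ioo (0:ℝ) 1 := by
        have h4 := ho c
        have h5 : ((k:ℝ) + 1) ≤ m c := by exact_mod_cast hk'
        constructor
        · have := h4.1; positivity
        · rw [div_lt_one hmR]; linarith [h4.2]
      unfold crs
      have h6 : σ.c ∩ v c ⁻¹' {(o c + k) / m c} = ∅ := by
        rw [eq_empty_iff_forall_notMem]
        rintro x ⟨hx1, hx2⟩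
        apply hF2 c σ hσ hσc x hx1
        rw [mem_preimage, mem_singleton_iff] at hx2
        rw [hx2]; exact hlev
      have h7 : Dc D.a σ.1 ∩ v c ⁻¹' {(o c + k) / m c} = ∅ := h6
      rw [h7]; simp
    rw [h3, mul_zero]
    exact zero_le

/-- the sum of the norms of the partial derivatives of one function -/
def G1 (g : Fin n → (Fin n → ℝ) → ℝ) (x : Fin n → ℝ) : ℝ≥0∞ := ∑ i, ‖g i x‖ₑ

theorem measurable_G1 {g : Fin n → (Fin n → ℝ) → ℝ} (hg : ∀ i, Measurable (g i)) :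
    Measurable (G1 g) := Finset.measurable_sum _ fun i _ => (hg i).enorm

/-- **levels on the mesh from weak derivatives, with extra conditions** -/
theorem levels_meshX {D : Dat n} {𝒞 : Type*}
    {v : 𝒞 → (Fin n → ℝ) → ℝ} {g : 𝒞 → Fin n → (Fin n → ℝ) → ℝ}
    (hv : ∀ c, ContinuousOn (v c) D.Om) (hg : ∀ c i, Measurable (g c i))
    (hacl : ∀ (k : ℕ) (z : Fin n → ℤ), Good D.Om v g (vx D.a k z))
    {K : 𝒞 → Set (Fin n → ℝ)} (hK : ∀ c, IsCompact (K c)) (hKO : ∀ c, K c ⊆ D.Om)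
    (hvK : ∀ c, ∀ x ∈ D.Om, v c x ∈ Ioo (0:ℝ) 1 → x ∈ K c)
    {κ : 𝒞 → Type*} [∀ c, Fintype (κ c)] {X : ∀ c, κ c → ℝ → ℝ≥0∞}
    (hX : ∀ c j, AEMeasurable (X c j) (volume.restrict (Icc (0:ℝ) 1)))
    {J : ∀ c, κ c → ℝ} (hJ0 : ∀ c j, 0 ≤ J c j)
    (hJ : ∀ c j, ∫⁻ y in Icc (0:ℝ) 1, X c j y ≤ ENNReal.ofReal (J c j))
    {Z : 𝒞 → Set ℝ} (hZ : ∀ c, volume (Z c) = 0) {e : 𝒞 → Cel D → ℝ} (he : ∀ c σ, 0 < e c σ)
    {e' : 𝒞 → ℝ} (he' : ∀ c, 0 < e' c) :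
    ∃ m0 : 𝒞 → ℕ, ∀ m : 𝒞 → ℕ, (∀ c, m0 c ≤ m c) → (∀ c, 0 < m c) → ∃ o : 𝒞 → ℝ,
      (∀ c, o c ∈ Ioo (0:ℝ) 1) ∧ (∀ c, ∀ k < m c, (o c + k) / m c ∉ Z c) ∧
      (∀ c, ∀ σ : Cel D, σ.1.J.card = 1 → (m c:ℝ≥0∞)⁻¹ * ∑ k ∈ Finset.range (m c),
        crs (v c) D.a σ.1 ((o c + k) / m c) ≤ ic (G1 (g c)) D.a σ.1 + ENNReal.ofReal (e c σ)) ∧
      ∀ c j, (m c:ℝ≥0∞)⁻¹ * ∑ k ∈ Finset.range (m c), X c j ((o c + k) / m c) ≤
        ENNReal.ofReal (J c j) + ENNReal.ofReal (e' c) := by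
  classical
  have hfin : ∀ c, {σ : Cel D | (σ.c ∩ K c).Nonempty}.Finite := fun c =>
    Cel.finite_of_compact (hK c) (hKO c)
  set Fc : 𝒞 → Finset (Cel D) := fun c => (hfin c).toFinset.filter fun σ => σ.1.J.card = 1 with hFc
  refine edges_allX (fun c => measurable_G1 (hg c)) Fc ?_ ?_ ?_ ?_ ?_ hX hJ0 hJ hZ he he'
  · intro c σ hσ
    exact (Finset.mem_filter.1 hσ).2
  · intro c σ hσ hσF x hx hxv
    apply hσF
    rw [hFc]
    simp only [Finset.mem_filter, Finite.mem_toFinset, mem_ofPred_eq]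
    exact ⟨⟨x, hx, hvK c x (σ.c_subset_Om hx) hxv⟩, hσ⟩
  · intro c σ _
    exact (hv c).mono σ.c_subset_Om
  · intro c σ _ i hi x y hx hxy hy
    refine (uge_of_acl hi σ.c_subset_Om (hacl σ.1.k σ.1.z c i).1 x y hx hxy hy).trans ?_
    apply lintegral_mono
    intro s
    change ‖g c i (ln D.a σ.1 i s)‖ₑ ≤ ∑ j, ‖g c j (ln D.a σ.1 i s)‖ₑ
    exact Finset.single_le_sum (f := fun j => ‖g c j (ln D.a σ.1 i s)‖ₑ) (fun _ _ => zero_le)
      (Finset.mem_univ i)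
  · intro c σ hσ
    obtain ⟨i, hi⟩ := Finset.card_eq_one.1 (Finset.mem_filter.1 hσ).2
    have h1 : ic (G1 (g c)) D.a σ.1 = ∑ j, ic (fun x => ‖g c j x‖ₑ) D.a σ.1 := by
      unfold ic G1
      rw [lintegral_finsetSum]
      intro j _
      exact (hg c j).enorm.comp (measurable_id.const_add _)
    rw [h1]
    apply ENNReal.sum_ne_top.2
    intro j _
    exact ic_ne_top (hg c j) hi σ.c_subset_Om ((hacl σ.1.k σ.1.z c j).2 i)

/-- the weighted crossing number of an edge (weight `w c` = size of the foam cell) -/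
def totw {D : Dat n} {𝒞 : Type*} (w : 𝒞 → ℝ≥0∞) (v : 𝒞 → (Fin n → ℝ) → ℝ) (m : 𝒞 → ℕ)
    (o : 𝒞 → ℝ) (σ : Cel D) : ℝ≥0∞ :=
  ∑' c, w c * ((m c:ℝ≥0∞)⁻¹ * ∑ k ∈ Finset.range (m c), crs (v c) D.a σ.1 ((o c + k) / m c))

/-- the weighted sum of the norms of all the partial derivatives -/
def GGw {𝒞 : Type*} (w : 𝒞 → ℝ≥0∞) (g : 𝒞 → Fin n → (Fin n → ℝ) → ℝ) (x : Fin n → ℝ) : ℝ≥0∞ :=
  ∑' c, w c * G1 (g c) x

/-- errors for the single functions from errors for the total -/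
theorem exists_errw (D : Dat n) {𝒞 : Type*} [Countable 𝒞] {w : 𝒞 → ℝ≥0∞} (hw : ∀ c, w c ≠ ∞)
    {e : Cel D → ℝ} (he : ∀ σ, 0 < e σ) : ∃ e1 : 𝒞 → Cel D → ℝ, (∀ c σ, 0 < e1 c σ) ∧
      ∀ σ, ∑' c, w c * ENNReal.ofReal (e1 c σ) ≤ ENNReal.ofReal (e σ) := by
  obtain ⟨δ, hδ0, hδ⟩ := ENNReal.exists_pos_sum_of_countable (ε := 1) one_ne_zero 𝒞
  refine ⟨fun c σ => δ c * e σ / ((w c).toReal + 1), fun c σ => ?_, fun σ => ?_⟩
  · have h1 : (0:ℝ) < δ c := by exact_mod_cast hδ0 c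
    have h2 := he σ
    have h3 : (0:ℝ) ≤ (w c).toReal := ENNReal.toReal_nonneg
    positivity
  · calc ∑' c, w c * ENNReal.ofReal (δ c * e σ / ((w c).toReal + 1))
        ≤ ∑' c, (δ c : ℝ≥0∞) * ENNReal.ofReal (e σ) := by
          refine ENNReal.tsum_le_tsum fun c => ?_
          have h3 : (0:ℝ) ≤ (w c).toReal := ENNReal.toReal_nonneg
          have h4 : w c = ENNReal.ofReal (w c).toReal := (ENNReal.ofReal_toReal (hw c)).symm
          calc w c * ENNReal.ofReal (δ c * e σ / ((w c).toReal + 1))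
              = ENNReal.ofReal ((w c).toReal * (δ c * e σ / ((w c).toReal + 1))) := by
                rw [ENNReal.ofReal_mul h3, ← h4]
            _ ≤ ENNReal.ofReal (δ c * e σ) := by
                apply ENNReal.ofReal_le_ofReal
                have h5 := (he σ).le
                have h6 : (0:ℝ) ≤ δ c := NNReal.coe_nonneg _
                have h7 : (0:ℝ) < (w c).toReal + 1 := by positivity
                rw [mul_div_assoc', div_le_iff₀ h7]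
                nlinarith [mul_nonneg h6 h5]
            _ = _ := by
                rw [ENNReal.ofReal_mul (NNReal.coe_nonneg _), ENNReal.ofReal_coe_nnreal]
      _ = (∑' c, (δ c : ℝ≥0∞)) * ENNReal.ofReal (e σ) := ENNReal.tsum_mul_right
      _ ≤ 1 * ENNReal.ofReal (e σ) := by gcongr
      _ = _ := one_mul _

/-- from the single functions to the weighted total -/
theorem totw_le {D : Dat n} {𝒞 : Type*} [Countable 𝒞] {w : 𝒞 → ℝ≥0∞}
    {v : 𝒞 → (Fin n → ℝ) → ℝ} {g : 𝒞 → Fin n → (Fin n → ℝ) → ℝ} (hg : ∀ c i, Measurable (g c i))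
    {m : 𝒞 → ℕ} {o : 𝒞 → ℝ} {e : Cel D → ℝ} {e1 : 𝒞 → Cel D → ℝ}
    (he1 : ∀ σ, ∑' c, w c * ENNReal.ofReal (e1 c σ) ≤ ENNReal.ofReal (e σ)) {σ : Cel D}
    (h : ∀ c, (m c:ℝ≥0∞)⁻¹ * ∑ k ∈ Finset.range (m c),
        crs (v c) D.a σ.1 ((o c + k) / m c) ≤ ic (G1 (g c)) D.a σ.1 + ENNReal.ofReal (e1 c σ)) :
    totw w v m o σ ≤ ic (GGw w g) D.a σ.1 + ENNReal.ofReal (e σ) := by
  calc totw w v m o σ
      ≤ ∑' c, (w c * ic (G1 (g c)) D.a σ.1 + w c * ENNReal.ofReal (e1 c σ)) := by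
        refine ENNReal.tsum_le_tsum fun c => ?_
        rw [← mul_add]
        gcongr
        exact h c
    _ = (∑' c, w c * ic (G1 (g c)) D.a σ.1) + ∑' c, w c * ENNReal.ofReal (e1 c σ) :=
        ENNReal.tsum_add
    _ ≤ ic (GGw w g) D.a σ.1 + ENNReal.ofReal (e σ) := by
        gcongr
        · unfold ic GGw
          rw [lintegral_tsum]
          · refine ENNReal.tsum_le_tsum fun c => ?_
            rw [lintegral_const_mul]
            exact (measurable_G1 (hg c)).comp (measurable_id.const_add _)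
          · intro c
            exact (((measurable_G1 (hg c)).comp (measurable_id.const_add _)).const_mul
              _).aemeasurable
        · exact he1 σ

/-- from the edges to the energy of the cubes -/
theorem energy_of_edges {D : Dat n} {p : ℝ} (hp : 1 ≤ p) {δ : ℝ≥0∞} {G : (Fin n → ℝ) → ℝ≥0∞}
    {e : Cel D → ℝ} (he : ∑' τ : {τ : Cel D // τ.1.J = Finset.univ},
      vol D τ.1 * ((2:ℝ≥0∞) ^ τ.1.1.k *
        ∑' σ : {σ : Cel D // σ ∈ edgesOf τ.1}, ENNReal.ofReal (e σ.1)) ^ p ≤ δ)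
    {y : Cel D → ℝ≥0∞}
    (h : ∀ σ : Cel D, σ.1.J.card = 1 → y σ ≤ ic G D.a σ.1 + ENNReal.ofReal (e σ))
    (R : Set (Fin n → ℝ)) : ∑' τ : {τ : Cel D // τ.1.J = Finset.univ ∧ τ.c ⊆ R},
        vol D τ.1 * ((2:ℝ≥0∞) ^ τ.1.1.k * ∑' σ : {σ : Cel D // σ ∈ edgesOf τ.1}, y σ.1) ^ p ≤
        2 ^ (p - 1) * (S D p (R.indicator G) + δ) := by
  classical
  set y' : Cel D → ℝ≥0∞ := fun σ => if σ.c ⊆ R then y σ else 0 with hy
  have hy1 : ∀ σ : Cel D, σ.1.J.card = 1 → y' σ ≤ ic (R.indicator G) D.a σ.1 +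
      ENNReal.ofReal (e σ) := by
    intro σ hσ
    by_cases hR : σ.c ⊆ R
    · rw [hy]
      simp only [hR, if_true]
      have h1 : ic (R.indicator G) D.a σ.1 = ic G D.a σ.1 := by
        apply ic_congr_on
        intro x hx
        rw [indicator_of_mem (hR hx)]
      rw [h1]
      exact h σ hσ
    · rw [hy]
      simp only [hR, if_false]
      exact zero_le
  have h2 := S_err (D := D) (g := R.indicator G) hp hy1
  refine le_trans ?_ (h2.trans ?_)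
  · let f : {τ : Cel D // τ.1.J = Finset.univ ∧ τ.c ⊆ R} → {τ : Cel D // τ.1.J = Finset.univ} :=
      fun τ => ⟨τ.1, τ.2.1⟩
    have hf : Function.Injective f := fun τ τ' h => Subtype.ext (congrArg (fun x => x.1) h)
    refine le_trans (ENNReal.tsum_le_tsum fun τ => ?_)
      (ENNReal.tsum_comp_le_tsum_of_injective hf (fun τ : {τ : Cel D // τ.1.J = Finset.univ} =>
        vol D τ.1 * ((2:ℝ≥0∞) ^ τ.1.1.k *
          ∑' σ : {σ : Cel D // σ ∈ edgesOf τ.1}, y' σ.1) ^ p))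
    have h3 : ∀ σ : {σ : Cel D // σ ∈ edgesOf τ.1}, y σ.1 = y' σ.1 := by
      intro σ
      have h4 : σ.1.c ⊆ R := fun x hx => τ.2.2 (σ.2.1 hx)
      rw [hy]
      simp only [h4, if_true]
    simp only [h3]
    exact le_rfl
  · gcongr

/-- **LEVELS WITH WEIGHTED ENERGY AND EXTRA CONDITIONS** -/
theorem levels_energyX {D : Dat n} {𝒞 : Type*} [Countable 𝒞] {w : 𝒞 → ℝ≥0∞}
    (hw : ∀ c, w c ≠ ∞) {v : 𝒞 → (Fin n → ℝ) → ℝ} {g : 𝒞 → Fin n → (Fin n → ℝ) → ℝ}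
    (hv : ∀ c, ContinuousOn (v c) D.Om) (hg : ∀ c i, Measurable (g c i))
    (hacl : ∀ (k : ℕ) (z : Fin n → ℤ), Good D.Om v g (vx D.a k z))
    {K : 𝒞 → Set (Fin n → ℝ)} (hK : ∀ c, IsCompact (K c)) (hKO : ∀ c, K c ⊆ D.Om)
    (hvK : ∀ c, ∀ x ∈ D.Om, v c x ∈ Ioo (0:ℝ) 1 → x ∈ K c)
    {κ : 𝒞 → Type*} [∀ c, Fintype (κ c)] {X : ∀ c, κ c → ℝ → ℝ≥0∞}
    (hX : ∀ c j, AEMeasurable (X c j) (volume.restrict (Icc (0:ℝ) 1)))
    {J : ∀ c, κ c → ℝ} (hJ0 : ∀ c j, 0 ≤ J c j)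
    (hJ : ∀ c j, ∫⁻ y in Icc (0:ℝ) 1, X c j y ≤ ENNReal.ofReal (J c j))
    {Z : 𝒞 → Set ℝ} (hZ : ∀ c, volume (Z c) = 0) {p : ℝ} (hp : 1 ≤ p) {δ : ℝ≥0∞} (hδ : δ ≠ 0)
    {e' : 𝒞 → ℝ} (he' : ∀ c, 0 < e' c) :
    ∃ m0 : 𝒞 → ℕ, ∀ m : 𝒞 → ℕ, (∀ c, m0 c ≤ m c) → (∀ c, 0 < m c) → ∃ o : 𝒞 → ℝ,
      (∀ c, o c ∈ Ioo (0:ℝ) 1) ∧ (∀ c, ∀ k < m c, (o c + k) / m c ∉ Z c) ∧
      (∀ R : Set (Fin n → ℝ), ∑' τ : {τ : Cel D // τ.1.J = Finset.univ ∧ τ.c ⊆ R},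
        vol D τ.1 * ((2:ℝ≥0∞) ^ τ.1.1.k *
          ∑' σ : {σ : Cel D // σ ∈ edgesOf τ.1}, totw w v m o σ.1) ^ p ≤
        2 ^ (p - 1) * (S D p (R.indicator (GGw w g)) + δ)) ∧
      ∀ c j, (m c:ℝ≥0∞)⁻¹ * ∑ k ∈ Finset.range (m c), X c j ((o c + k) / m c) ≤
        ENNReal.ofReal (J c j) + ENNReal.ofReal (e' c) := by
  obtain ⟨e, he0, he⟩ := exists_err D hp hδ
  obtain ⟨e1, he10, he1⟩ := exists_errw D hw he0
  obtain ⟨m0, hm0⟩ := levels_meshX hv hg hacl hK hKO hvK hX hJ0 hJ hZ he10 he'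
  refine ⟨m0, fun m hm hmp => ?_⟩
  obtain ⟨o, ho, hoZ, h, h'⟩ := hm0 m hm hmp
  exact ⟨o, ho, hoZ, fun R => energy_of_edges hp he
    (fun σ hσ => totw_le hg he1 fun c => h c σ hσ) R, h'⟩

/-- the extra function for a set of bad levels: the number of bad levels -/
theorem card_bad {B : Set ℝ} {m : ℕ} (hm : 0 < m) {o β e : ℝ} (hβ : 0 ≤ β) (he : 0 ≤ e)
    (h : (m:ℝ≥0∞)⁻¹ * ∑ k ∈ Finset.range m, B.indicator (fun _ => (1:ℝ≥0∞)) ((o + k) / m) ≤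
      ENNReal.ofReal β + ENNReal.ofReal e) :
    (({k : ℕ | k < m ∧ (o + k) / m ∈ B}.ncard : ℝ)) ≤ m * (β + e) := by
  classical
  have h1 : ∑ k ∈ Finset.range m, B.indicator (fun _ => (1:ℝ≥0∞)) ((o + k) / m) =
      ({k : ℕ | k < m ∧ (o + k) / m ∈ B}.ncard : ℝ≥0∞) := by
    have h2 : {k : ℕ | k < m ∧ (o + k) / m ∈ B} =
        ((Finset.range m).filter fun k : ℕ => (o + k) / m ∈ B : Finset ℕ) := by
      ext k; simp
    rw [h2, ncard_coe_finset, Finset.card_filter]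
    push_cast
    apply Finset.sum_congr rfl
    intro k _
    by_cases hk : (o + k) / m ∈ B
    · simp [hk]
    · simp [hk]
  rw [h1] at h
  have hm1 : (m:ℝ≥0∞) ≠ 0 := by positivity
  have hm2 : (m:ℝ≥0∞) ≠ ∞ := ENNReal.natCast_ne_top m
  have h3 : ({k : ℕ | k < m ∧ (o + k) / m ∈ B}.ncard : ℝ≥0∞) ≤
      ENNReal.ofReal (m * (β + e)) := by
    calc ({k : ℕ | k < m ∧ (o + k) / m ∈ B}.ncard : ℝ≥0∞)
        = m * ((m:ℝ≥0∞)⁻¹ * ({k : ℕ | k < m ∧ (o + k) / m ∈ B}.ncard : ℝ≥0∞)) := by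
          rw [← mul_assoc, ENNReal.mul_inv_cancel hm1 hm2, one_mul]
      _ ≤ m * (ENNReal.ofReal β + ENNReal.ofReal e) := by gcongr
      _ = _ := by
          rw [ENNReal.ofReal_mul (by positivity), ENNReal.ofReal_natCast,
            ENNReal.ofReal_add hβ he]
  have h4 : (0:ℝ) ≤ m * (β + e) := by positivity
  rw [← ENNReal.ofReal_natCast, ENNReal.ofReal_le_ofReal_iff h4] at h3
  exact h3

end

end Crest.Agent.R96.En9_199
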