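/-
helper199, row 96, leaf P6-SOB, part 7: the frozen language (`HasWeakGradOn` on R3), gluing,
gradients of locally Lipschitz and of locally piecewise affine maps.
-/
import Mathlib
import Crest.Agent.R96.Sob6_199

set_option autoImplicit false
set_option linter.unusedSectionVars false

open MeasureTheory Set Filter
open scoped ContDiff Topology NNReal Gradient

namespace Crest.Agent.R96.Sob7_199

open Crest.Agent.R96.Acl_392 Crest.Agent.R96.Sob1_199 Crest.Agent.R96.Sob2_199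
  Crest.Agent.R96.Sob3_199 Crest.Agent.R96.Sob4_199 Crest.Agent.R96.Sob5_199
  Crest.Agent.R96.Sob6_199

noncomputable section

section General

variable {E : Type*} [NormedAddCommGroup E] [NormedSpace ℝ E] [FiniteDimensional ℝ E]

/-! ### continuous selections of finitely many affine maps are Lipschitz -/

theorem seg_sel {F κ : Type*} [NormedAddCommGroup F] [Finite κ] {φ : ℝ → F} {ψ : κ → ℝ → F} {C : ℝ}
    (hφ : ContinuousOn φ (Icc 0 1)) (hψ : ∀ k s t, ‖ψ k t - ψ k s‖ ≤ C * |t - s|)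
    (h : ∀ τ ∈ Icc (0:ℝ) 1, ∃ k, φ τ = ψ k τ) : ‖φ 1 - φ 0‖ ≤ C := by
  have hψc : ∀ k, Continuous (ψ k) := by
    intro k
    have hL : LipschitzWith (Real.toNNReal C) (ψ k) := by
      apply LipschitzWith.of_dist_le_mul
      intro x y
      rw [dist_eq_norm, Real.dist_eq]
      refine (hψ k y x).trans ?_
      gcongr
      exact Real.le_coe_toNNReal C
    exact hL.continuous
  have hsub : Icc (0:ℝ) 1 ⊆ {τ | ‖φ τ - φ 0‖ ≤ C * τ} := by
    apply IsClosed.Icc_subset_of_forall_exists_gt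
    · have h1 : ContinuousOn (fun τ => ‖φ τ - φ 0‖ - C * τ) (Icc 0 1) :=
        ((hφ.sub continuousOn_const).norm).sub (by fun_prop)
      have h2 := h1.preimage_isClosed_of_isClosed isClosed_Icc (isClosed_Iic (a := (0:ℝ)))
      convert h2 using 1
      ext τ
      simp only [mem_inter_iff, mem_ofPred_eq, mem_Icc, mem_preimage, mem_Iic, sub_nonpos]
      tauto
    · simp
    · rintro τ ⟨hτ1, hτ2⟩ y hy
      -- near `τ` only the branches through `φ τ` matter
      have h1 : ∀ᶠ z in 𝓝[Icc 0 1] τ, ∀ k, ψ k τ ≠ φ τ → φ z ≠ ψ k z := by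
        rw [eventually_all]
        intro k
        by_cases hk : ψ k τ = φ τ
        · exact Eventually.of_forall fun z hz => absurd hk hz
        · have h3 : Tendsto (fun z => φ z - ψ k z) (𝓝[Icc 0 1] τ) (𝓝 (φ τ - ψ k τ)) :=
            (hφ τ ⟨hτ2.1, hτ2.2.le⟩).sub ((hψc k).continuousAt.mono_left nhdsWithin_le_nhds)
          have h4 : φ τ - ψ k τ ≠ 0 := fun h => hk (sub_eq_zero.1 h).symm
          filter_upwards [h3.eventually_ne h4] with z hz _ hz'
          exact hz (by rw [hz', sub_self])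
      have h2 : ∀ᶠ z in 𝓝[>] τ, z ∈ Icc (0:ℝ) 1 ∧ ∀ k, ψ k τ ≠ φ τ → φ z ≠ ψ k z := by
        have h5 : ∀ᶠ z in 𝓝[>] τ, z ∈ Icc (0:ℝ) 1 := by
          filter_upwards [Ioo_mem_nhdsGT hτ2.2] with z hz
          exact ⟨hτ2.1.trans hz.1.le, hz.2.le⟩
        have h6 : 𝓝[>] τ ≤ 𝓝[Icc 0 1] τ := by
          rw [nhdsWithin, nhdsWithin]
          refine le_inf inf_le_left ?_
          rw [le_principal_iff]
          exact h5
        exact h5.and (h1.filter_mono h6)
      obtain ⟨z, hz1, hz2⟩ := (h2.and (Ioc_mem_nhdsGT hy)).exists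
      refine ⟨z, ?_, hz2⟩
      obtain ⟨k, hk⟩ := h z hz1.1
      have hk2 : ψ k τ = φ τ := by
        by_contra hne
        exact hz1.2 k hne hk
      have h7 := hψ k τ z
      rw [hk2, ← hk, abs_of_pos (sub_pos.2 hz2.1)] at h7
      have h8 : ‖φ τ - φ 0‖ ≤ C * τ := hτ1
      simp only [mem_ofPred_eq]
      calc ‖φ z - φ 0‖ = ‖(φ z - φ τ) + (φ τ - φ 0)‖ := by congr 1; abel
        _ ≤ ‖φ z - φ τ‖ + ‖φ τ - φ 0‖ := norm_add_le _ _
        _ ≤ C * (z - τ) + C * τ := by gcongr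
        _ = C * z := by ring
  have := hsub (right_mem_Icc.2 zero_le_one)
  simpa using this

theorem lip_of_sel {F : Type*} [NormedAddCommGroup F] [NormedSpace ℝ F] {h : E → F} {s : Set E}
    (hs : Convex ℝ s) (hc : ContinuousOn h s) {S : Finset (E →ᵃ[ℝ] F)}
    (hS : ∀ y ∈ s, ∃ g ∈ S, h y = g y) : ∃ C : ℝ≥0, LipschitzOnWith C h s := by
  classical
  let c : (E →ᵃ[ℝ] F) → ℝ≥0 := fun g => ‖(LinearMap.toContinuousLinearMap g.linear)‖₊
  have hg : ∀ (g : E →ᵃ[ℝ] F) (y z : E), ‖g y - g z‖ ≤ c g * ‖y - z‖ := by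
    intro g y z
    have h1 : g y - g z = (LinearMap.toContinuousLinearMap g.linear) (y - z) := by
      have := g.linearMap_vsub y z
      simpa using this.symm
    rw [h1]
    exact (LinearMap.toContinuousLinearMap g.linear).le_opNorm _
  refine ⟨S.sup c, LipschitzOnWith.of_dist_le_mul fun y hy z hz => ?_⟩
  rw [dist_eq_norm, dist_eq_norm]
  have hseg : ∀ τ ∈ Icc (0:ℝ) 1, z + τ • (y - z) ∈ s := by
    intro τ hτ
    exact hs.add_smul_sub_mem hz hy hτ
  have h1 := seg_sel (κ := {g // g ∈ S}) (φ := fun τ : ℝ => h (z + τ • (y - z)))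
    (ψ := fun g τ => (g : E →ᵃ[ℝ] F) (z + τ • (y - z))) (C := (S.sup c : ℝ≥0) * ‖y - z‖) ?_ ?_ ?_
  · simpa using h1
  · apply hc.comp (by fun_prop)
    exact hseg
  · rintro ⟨g, hgS⟩ a b
    refine (hg g _ _).trans ?_
    have h2 : z + b • (y - z) - (z + a • (y - z)) = (b - a) • (y - z) := by
      rw [sub_smul]; abel
    rw [h2, norm_smul, Real.norm_eq_abs]
    have h3 : (c g : ℝ) ≤ (S.sup c : ℝ≥0) := by
      exact_mod_cast Finset.le_sup (f := c) hgS
    calc (c g : ℝ) * (|b - a| * ‖y - z‖) ≤ (S.sup c : ℝ≥0) * (|b - a| * ‖y - z‖) := by gcongr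
      _ = _ := by ring
  · intro τ hτ
    obtain ⟨g, hgS, hgy⟩ := hS _ (hseg τ hτ)
    exact ⟨⟨g, hgS⟩, hgy⟩

/-- locally piecewise affine (in the selection sense) implies locally Lipschitz -/
theorem locallyLipschitzOn_of_locPL {F : Type*} [NormedAddCommGroup F] [NormedSpace ℝ F]
    {h : E → F} {Ω : Set E} (hh : ∀ x ∈ Ω, ∃ r : ℝ, 0 < r ∧ ∃ S : Finset (E →ᵃ[ℝ] F),
      ContinuousOn h (Metric.ball x r) ∧ ∀ y ∈ Metric.ball x r, ∃ g ∈ S, h y = g y) :
    LocallyLipschitzOn Ω h := by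
  intro x hx
  obtain ⟨r, hr, S, h1, h2⟩ := hh x hx
  obtain ⟨C, hC⟩ := lip_of_sel (convex_ball x r) h1 h2
  exact ⟨C, Metric.ball x r, mem_nhdsWithin_of_mem_nhds (Metric.ball_mem_nhds x hr), hC⟩

theorem locallyLipschitzOn_of_contDiffOn {F : Type*} [NormedAddCommGroup F] [NormedSpace ℝ F]
    {h : E → F} {Ω : Set E} (hΩ : IsOpen Ω) (hh : ContDiffOn ℝ 1 h Ω) :
    LocallyLipschitzOn Ω h := by
  intro x hx
  obtain ⟨C, t, ht, hC⟩ := (hh.contDiffAt (hΩ.mem_nhds hx)).exists_lipschitzOnWith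
  exact ⟨C, t, mem_nhdsWithin_of_mem_nhds ht, hC⟩

variable [MeasurableSpace E] [BorelSpace E] {μ : Measure E} [μ.IsAddHaarMeasure]

/-- Rademacher for locally Lipschitz maps on open sets -/
theorem ae_differentiableAt {F : Type*} [NormedAddCommGroup F] [NormedSpace ℝ F]
    [FiniteDimensional ℝ F] {Ω : Set E} (hΩ : IsOpen Ω) {u : E → F}
    (hu : LocallyLipschitzOn Ω u) : ∀ᵐ x ∂μ, x ∈ Ω → DifferentiableAt ℝ u x := by
  obtain ⟨K, hKc, hKs, hKU, hKm⟩ := hΩ.exists_iUnion_isClosed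
  have h1 : ∀ n : ℕ, ∀ᵐ x ∂μ, x ∈ K n ∩ Metric.closedBall (0:E) n → DifferentiableAt ℝ u x := by
    intro n
    have hc : IsCompact (K n ∩ Metric.closedBall (0:E) n) :=
      (isCompact_closedBall (0:E) (n:ℝ)).inter_left (hKc n)
    obtain ⟨V, hV1, hV2, hV3, hV4⟩ := exists_nhd hΩ hc (inter_subset_left.trans (hKs n))
    obtain ⟨C, hC⟩ := exists_lipschitzOn hV3 (hu.mono hV4)
    have h2 := (hC.mono subset_closure).ae_differentiableWithinAt_of_mem (μ := μ)
    filter_upwards [h2] with x hx hxK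
    exact (hx (hV2 hxK)).differentiableAt (hV1.mem_nhds (hV2 hxK))
  filter_upwards [ae_all_iff.2 h1] with x hx hxΩ
  rw [← hKU] at hxΩ
  obtain ⟨m, hm⟩ := mem_iUnion.1 hxΩ
  obtain ⟨k, hk⟩ := exists_nat_ge ‖x‖
  refine hx (max m k) ⟨hKm (le_max_left m k) hm, ?_⟩
  rw [mem_closedBall_zero_iff]
  exact hk.trans (by exact_mod_cast le_max_right m k)

/-- weak derivative of a locally Lipschitz function -/
theorem loclip_wd {Ω : Set E} (hΩ : IsOpen Ω) {u : E → ℝ} (hu : LocallyLipschitzOn Ω u) (e : E) :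
    WD Ω μ u (fun x => fderiv ℝ u x e) e := by
  have h1 : WD Ω μ u (dq Ω u e) e := by
    apply wd_of_ug_local hΩ hu.continuousOn
    intro K hK hKc
    obtain ⟨V, hV1, hV2, hV3, hV4⟩ := exists_nhd hΩ hKc hK
    obtain ⟨C, hC⟩ := exists_lipschitzOn hV3 (hu.mono hV4)
    refine ⟨V, fun _ => C * ‖e‖, hV1, hV2, subset_closure.trans hV4, ?_, ?_⟩
    · exact (continuous_const.locallyIntegrable).locallyIntegrableOn _
    · refine Eventually.of_forall fun x s t hst hxs =>
        ⟨continuous_const.integrableOn_Icc, ?_⟩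
      have h2 := hC.dist_le_mul _ (subset_closure (hxs t (right_mem_Icc.2 hst)))
        _ (subset_closure (hxs s (left_mem_Icc.2 hst)))
      rw [Real.dist_eq, dist_eq_norm] at h2
      refine h2.trans (le_of_eq ?_)
      have h3 : x + t • e - (x + s • e) = (t - s) • e := by rw [sub_smul]; abel
      rw [h3, norm_smul, Real.norm_eq_abs, abs_of_nonneg (sub_nonneg.2 hst)]
      simp only [intervalIntegral.integral_const, smul_eq_mul]
      ring
  apply wd_congr hΩ h1 (Eventually.of_forall fun _ _ => rfl)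
  filter_upwards [ae_differentiableAt hΩ hu] with x hx hxΩ
  have h2 : HasDerivAt (fun s : ℝ => u (x + s • e)) (fderiv ℝ u x e) 0 := by
    have h3 : HasDerivAt (fun s : ℝ => x + s • e) e 0 := by
      have := (hasDerivAt_id (0:ℝ)).smul_const e
      simpa using this.const_add x
    have h4 := (hx hxΩ).hasFDerivAt
    have h5 : HasFDerivAt u (fderiv ℝ u x) (x + (0:ℝ) • e) := by simpa using h4
    exact h5.comp_hasDerivAt (0:ℝ) h3
  have h3 := dq_eq hΩ (by simpa using hxΩ) h2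
  simpa using h3

end General

section R3

open Crest.AnalysisR.VecCalc3 Crest.AnalysisR.Sobolev

theorem locInt_apply {Ω : Set R3} {G : R3 → R3} (hG : LocallyIntegrableOn G Ω) (i : Fin 3) :
    LocallyIntegrableOn (fun x => G x i) Ω := by
  intro x hx
  obtain ⟨t, ht1, ht2⟩ := hG x hx
  refine ⟨t, ht1, ?_⟩
  exact (EuclideanSpace.proj i : R3 →L[ℝ] ℝ).integrable_comp ht2

theorem locInt_of_apply {Ω : Set R3} {G : R3 → R3}
    (h : ∀ i, LocallyIntegrableOn (fun x => G x i) Ω) : LocallyIntegrableOn G Ω := by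
  intro x hx
  choose t ht1 ht2 using fun i => h i x hx
  refine ⟨⋂ i, t i, ?_, ?_⟩
  · rw [Filter.iInter_mem]
    exact ht1
  · have h3 : ∀ i, Integrable (fun y => G y i) (volume.restrict (⋂ i, t i)) := fun i =>
      (ht2 i).mono_set (iInter_subset _ _)
    have h4 : G = fun y => ∑ i, G y i • EuclideanSpace.single i (1:ℝ) := by
      funext y
      ext j
      simp [Pi.single_apply]
    rw [h4]
    apply integrable_finsetSum
    intro i _
    exact (h3 i).smul_const _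

/-- the frozen weak gradient from the coordinate directions -/
theorem grad_of_wd {Ω : Set R3} {v : R3 → ℝ} {G : R3 → R3}
    (h : ∀ i : Fin 3, WD Ω volume v (fun x => G x i) (EuclideanSpace.single i 1)) :
    HasWeakGradOn Ω v G := by
  refine ⟨(h 0).lv, locInt_of_apply fun i => (h i).lg, fun φ hφ hc hs i => ?_⟩
  have h1 := (h i).weak φ hφ hc hs
  have e1 : ∫ x in Ω, v x * pderiv φ i x = ∫ x, v x * fderiv ℝ φ x (EuclideanSpace.single i 1) := by
    apply setIntegral_eq_integral_of_forall_compl_eq_zero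
    intro x hx
    have : fderiv ℝ φ x (EuclideanSpace.single i 1) = 0 := by
      have := image_eq_zero_of_notMem_tsupport
        (f := fun x => fderiv ℝ φ x (EuclideanSpace.single i (1:ℝ))) (x := x)
        (fun hx' => hx (hs (tsupport_dir φ _ hx')))
      simpa using this
    simp only [pderiv, this, mul_zero]
  have e2 : ∫ x in Ω, G x i * φ x = ∫ x, G x i * φ x := by
    apply setIntegral_eq_integral_of_forall_compl_eq_zero
    intro x hx
    have : φ x = 0 := image_eq_zero_of_notMem_tsupport (fun hx' => hx (hs hx'))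
    simp [this]
  rw [e1, e2]
  exact h1

theorem wd_of_grad_coord {Ω : Set R3} (hΩ : IsOpen Ω) {v : R3 → ℝ} {G : R3 → R3}
    (h : HasWeakGradOn Ω v G) (i : Fin 3) :
    WD Ω volume v (fun x => G x i) (EuclideanSpace.single i 1) := by
  have h1 := wd_of_grad hΩ h (EuclideanSpace.single i 1)
  refine wd_congr hΩ h1 (Eventually.of_forall fun _ _ => rfl) (Eventually.of_forall fun x _ => ?_)
  simp [EuclideanSpace.inner_single_right]

theorem grad_iff {Ω : Set R3} (hΩ : IsOpen Ω) {v : R3 → ℝ} {G : R3 → R3} :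
    HasWeakGradOn Ω v G ↔ ∀ i : Fin 3, WD Ω volume v (fun x => G x i) (EuclideanSpace.single i 1) :=
  ⟨fun h i => wd_of_grad_coord hΩ h i, grad_of_wd⟩

theorem grad_mono {Ω U : Set R3} (hΩ : IsOpen Ω) {v : R3 → ℝ} {G : R3 → R3}
    (h : HasWeakGradOn Ω v G) (hU : U ⊆ Ω) : HasWeakGradOn U v G :=
  grad_of_wd fun i => wd_mono (wd_of_grad_coord hΩ h i) hU

theorem grad_congr {Ω : Set R3} (hΩ : IsOpen Ω) {v v' : R3 → ℝ} {G G' : R3 → R3}
    (h : HasWeakGradOn Ω v G) (hv : ∀ᵐ x, x ∈ Ω → v x = v' x) (hG : ∀ᵐ x, x ∈ Ω → G x = G' x) :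
    HasWeakGradOn Ω v' G' := by
  apply grad_of_wd
  intro i
  refine wd_congr hΩ (wd_of_grad_coord hΩ h i) hv ?_
  filter_upwards [hG] with x hx hxΩ
  rw [hx hxΩ]

theorem grad_unique {Ω : Set R3} (hΩ : IsOpen Ω) {v : R3 → ℝ} {G G' : R3 → R3}
    (h : HasWeakGradOn Ω v G) (h' : HasWeakGradOn Ω v G') : ∀ᵐ x, x ∈ Ω → G x = G' x := by
  have h1 : ∀ i : Fin 3, ∀ᵐ x, x ∈ Ω → G x i = G' x i := fun i =>
    wd_unique hΩ (wd_of_grad_coord hΩ h i) (wd_of_grad_coord hΩ h' i)
  filter_upwards [ae_all_iff.2 h1] with x hx hxΩ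
  ext i
  exact hx i hxΩ

theorem grad_sub {Ω : Set R3} (hΩ : IsOpen Ω) {v v' : R3 → ℝ} {G G' : R3 → R3}
    (h : HasWeakGradOn Ω v G) (h' : HasWeakGradOn Ω v' G') :
    HasWeakGradOn Ω (fun x => v x - v' x) (fun x => G x - G' x) :=
  grad_of_wd fun i => wd_sub (wd_of_grad_coord hΩ h i) (wd_of_grad_coord hΩ h' i)

theorem grad_add {Ω : Set R3} (hΩ : IsOpen Ω) {v v' : R3 → ℝ} {G G' : R3 → R3}
    (h : HasWeakGradOn Ω v G) (h' : HasWeakGradOn Ω v' G') :
    HasWeakGradOn Ω (fun x => v x + v' x) (fun x => G x + G' x) :=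
  grad_of_wd fun i => wd_add (wd_of_grad_coord hΩ h i) (wd_of_grad_coord hΩ h' i)

/-- **gluing in the frozen language**: `w = f'` on the open set `U`, `w = f` on `Ω \ U`, `w - f`
continuous on `Ω`. -/
theorem grad_glue {Ω U : Set R3} (hΩ : IsOpen Ω) (hU : IsOpen U) (hUΩ : U ⊆ Ω)
    {f f' w : R3 → ℝ} {G G' H : R3 → R3} (h : HasWeakGradOn Ω f G) (h' : HasWeakGradOn U f' G')
    (hw1 : ∀ x ∈ U, w x = f' x) (hw2 : ∀ x ∈ Ω, x ∉ U → w x = f x)
    (hG1 : ∀ x ∈ U, H x = G' x) (hG2 : ∀ x ∈ Ω, x ∉ U → H x = G x)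
    (hc : ContinuousOn (fun x => w x - f x) Ω) (hH : LocallyIntegrableOn H Ω) :
    HasWeakGradOn Ω w H := by
  apply grad_of_wd
  intro i
  refine wd_glue hΩ hU hUΩ (wd_of_grad_coord hΩ h i) (wd_of_grad_coord hU h' i) hw1 hw2
    (fun x hx => by rw [hG1 x hx]) (fun x hx hxU => by rw [hG2 x hx hxU]) hc ?_
  exact locInt_apply hH i

/-- **locally Lipschitz functions have their gradient as weak gradient** -/
theorem grad_of_loclip {Ω : Set R3} (hΩ : IsOpen Ω) {u : R3 → ℝ} (hu : LocallyLipschitzOn Ω u) :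
    HasWeakGradOn Ω u (fun x => ∇ u x) := by
  apply grad_of_wd
  intro i
  refine wd_congr hΩ (loclip_wd (μ := volume) hΩ hu (EuclideanSpace.single i 1))
    (Eventually.of_forall fun _ _ => rfl) (Eventually.of_forall fun x _ => ?_)
  have h1 : inner ℝ (∇ u x) (EuclideanSpace.single i 1) = fderiv ℝ u x (EuclideanSpace.single i 1) := by
    rw [← toDual_gradient]
    rfl
  have h2 : inner ℝ (∇ u x) (EuclideanSpace.single i (1:ℝ)) = (∇ u x) i := by
    rw [EuclideanSpace.inner_single_right]; simp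
  exact h1.symm.trans h2

theorem loclip_apply {Ω : Set R3} {f : R3 → R3} (hf : LocallyLipschitzOn Ω f) (j : Fin 3) :
    LocallyLipschitzOn Ω (fun x => f x j) := by
  intro y hy
  obtain ⟨C, t, ht, hC⟩ := hf hy
  refine ⟨C, t, ht, fun a ha b hb => ?_⟩
  refine le_trans ?_ (hC ha hb)
  rw [edist_dist, edist_dist]
  apply ENNReal.ofReal_le_ofReal
  rw [Real.dist_eq, dist_eq_norm]
  exact PiLp.norm_apply_le (p := 2) (f a - f b) j

theorem grad_of_loclip' {Ω : Set R3} (hΩ : IsOpen Ω) {f : R3 → R3} (hf : LocallyLipschitzOn Ω f)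
    (j : Fin 3) : HasWeakGradOn Ω (fun x => f x j) (fun x => ∇ (fun y => f y j) x) :=
  grad_of_loclip hΩ (loclip_apply hf j)

end R3

end

end Crest.Agent.R96.Sob7_199
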