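/-
helper199, row 96, leaf ENERGY, part 10: from weak gradients of `f : R3 → R3` to the derivatives of
the foam functions `s c ∘ f` in the coordinates `Fin 3 → ℝ` of the mesh.
-/
import Mathlib
import Crest.Agent.R96.En9_199
import Crest.Agent.R96.Sob7_199

set_option autoImplicit false

open MeasureTheory Set Filter
open scoped Topology ENNReal NNReal ContDiff

namespace Crest.Agent.R96.En10_199

open Crest.Agent.R96.Acl_392 Crest.Agent.R96.Sob2_199 Crest.Agent.R96.Sob3_199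
  Crest.Agent.R96.Sob4_199 Crest.Agent.R96.Sob5_199

noncomputable section

/-! ### the derivative vanishes on level sets -/

theorem level_line {φ d : ℝ → ℝ} {O : Set ℝ} (h : ∀ᵐ τ : ℝ, τ ∈ O → HasDerivAt φ (d τ) τ) (t : ℝ) :
    ∀ᵐ τ : ℝ, τ ∈ O → φ τ = t → d τ = 0 := by
  set s : Set ℝ := {τ | φ τ = t} with hs
  have hc : ({τ ∈ s | 𝓝[s ∩ Ioi τ] τ = ⊥} : Set ℝ).Countable :=
    countable_setOfPred_isolated_right_within
  have h0 : ∀ᵐ τ : ℝ, τ ∉ ({τ ∈ s | 𝓝[s ∩ Ioi τ] τ = ⊥} : Set ℝ) :=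
    measure_eq_zero_iff_ae_notMem.1 (hc.measure_zero _)
  filter_upwards [h, h0] with τ h1 h2 hτ hφ
  have h3 := hasDerivAt_iff_tendsto_slope.1 (h1 hτ)
  have hne : (𝓝[s ∩ Ioi τ] τ).NeBot := by
    rw [neBot_iff]
    intro hbot
    exact h2 ⟨hφ, hbot⟩
  have h4 : Tendsto (slope φ τ) (𝓝[s ∩ Ioi τ] τ) (𝓝 (d τ)) := by
    refine h3.mono_left (nhdsWithin_mono _ ?_)
    intro σ hσ
    exact ne_of_gt hσ.2
  have h5 : Tendsto (slope φ τ) (𝓝[s ∩ Ioi τ] τ) (𝓝 0) := by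
    refine tendsto_const_nhds.congr' ?_
    filter_upwards [self_mem_nhdsWithin] with σ hσ
    have h6 : φ σ = φ τ := hσ.1.trans hφ.symm
    rw [slope_def_field, h6, sub_self, zero_div]
  exact tendsto_nhds_unique h4 h5

variable {E : Type*} [NormedAddCommGroup E] [NormedSpace ℝ E] [FiniteDimensional ℝ E]
  [MeasurableSpace E] [BorelSpace E] {μ : Measure E} [μ.IsAddHaarMeasure]

/-- **weak derivatives vanish a.e. on level sets** -/
theorem wd_level {Ω : Set E} (hΩ : IsOpen Ω) {v g : E → ℝ} {e : E} (h : WD Ω μ v g e)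
    (hv : ContinuousOn v Ω) (t : ℝ) : ∀ᵐ x ∂μ, x ∈ Ω → v x = t → g x = 0 := by
  have hvm : AEMeasurable v (μ.restrict Ω) := hv.aemeasurable hΩ.measurableSet
  have hgm : AEMeasurable g (μ.restrict Ω) := (aemeas_of_loc h.lg).aemeasurable
  have hN : NullMeasurableSet (v ⁻¹' {t}) (μ.restrict Ω) :=
    hvm.nullMeasurableSet_preimage (measurableSet_singleton t)
  have h1 : AEMeasurable ((v ⁻¹' {t}).indicator g) (μ.restrict Ω) := hgm.indicator₀ hN
  have h2 := ae_eq_of_line (μ := μ) hΩ (e := e) h1 (aemeasurable_const (b := (0:ℝ))) (by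
    filter_upwards [(line_deriv hΩ h hv).1] with x hx
    filter_upwards [level_line (O := {τ : ℝ | x + τ • e ∈ Ω}) hx t] with τ hτ hxτ
    by_cases hl : v (x + τ • e) = t
    · rw [indicator_of_mem (by exact hl)]
      exact hτ hxτ hl
    · rw [indicator_of_notMem (by exact hl)])
  filter_upwards [h2] with x hx hxΩ hxt
  have := hx hxΩ
  rwa [indicator_of_mem (by exact hxt)] at this

/-! ### composition with a real function -/

variable {ι : Type*} [Fintype ι]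

theorem comp_real_bound {Ω : Set E} (hΩ : IsOpen Ω) {f D : E → EuclideanSpace ℝ ι} {e : E}
    (h : VWD Ω μ f D e) (hf : ContinuousOn f Ω) {S : Set (EuclideanSpace ℝ ι)}
    (hS : MapsTo f Ω S) {θ : EuclideanSpace ℝ ι → ℝ} (hθ : LocallyLipschitzOn S θ) {L : ℝ}
    (hL : ∀ y ∈ S, ∀ ε > 0, ∀ᶠ z in 𝓝[S] y, |θ z - θ y| ≤ (L + ε) * ‖z - y‖) :
    WD Ω μ (fun x => θ (f x)) (dq Ω (fun x => θ (f x)) e) e ∧
      Measurable (dq Ω (fun x => θ (f x)) e) ∧
      (∀ᵐ x ∂μ, x ∈ Ω → |dq Ω (fun x => θ (f x)) e x| ≤ L * ‖D x‖) ∧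
      ∀ t : ℝ, ∀ᵐ x ∂μ, x ∈ Ω → θ (f x) = t → dq Ω (fun x => θ (f x)) e x = 0 := by
  have hc : ContinuousOn (fun x => θ (f x)) Ω := hθ.continuousOn.comp hf hS
  have hwd := comp_real hΩ h hf hS hθ
  refine ⟨hwd, measurable_dq hΩ hc e, ?_, fun t => wd_level hΩ hwd hc t⟩
  apply ae_le_of_line hΩ (e := e) ((measurable_dq hΩ hc e).abs.aemeasurable)
    (h.aemeas.norm.const_mul L)
  filter_upwards [vline_deriv hΩ h hf, (line_deriv hΩ hwd hc).1] with x hx hx'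
  filter_upwards [hx, hx'] with τ h1 h2 hxτ
  have h3 : ∀ᶠ σ : ℝ in 𝓝 τ, f (x + σ • e) ∈ S := by
    have h4 : ContinuousAt (fun σ : ℝ => x + σ • e) τ := by fun_prop
    filter_upwards [h4 (hΩ.mem_nhds hxτ)] with σ hσ using hS hσ
  exact deriv_lip (h1 hxτ) (h2 hxτ) h3 (fun ε hε => hL _ (hS hxτ) ε hε)

/-! ### change of the space -/

omit [FiniteDimensional ℝ E] [μ.IsAddHaarMeasure] in
theorem wd_comp_equiv {E' : Type*} [NormedAddCommGroup E'] [NormedSpace ℝ E']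
    [FiniteDimensional ℝ E'] [MeasurableSpace E'] [BorelSpace E'] {μ' : Measure E'}
    {Ω : Set E} {v g : E → ℝ} {e : E} (h : WD Ω μ v g e) (P : E' ≃L[ℝ] E)
    (hP : MeasurePreserving P μ' μ) :
    WD (P ⁻¹' Ω) μ' (fun x => v (P x)) (fun x => g (P x)) (P.symm e) := by
  have hem : MeasurableEmbedding P := P.toHomeomorph.measurableEmbedding
  have hint : ∀ F : E → ℝ, ∫ x, F (P x) ∂μ' = ∫ y, F y ∂μ := fun F => by
    rw [← hP.map_eq, hem.integral_map]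
  have hloc : ∀ u : E → ℝ, LocallyIntegrableOn u Ω μ →
      LocallyIntegrableOn (fun x => u (P x)) (P ⁻¹' Ω) μ' := by
    intro u hu x hx
    obtain ⟨t, ht, hvt⟩ := hu _ hx
    refine ⟨P ⁻¹' t, ?_, ?_⟩
    · have h1 : Tendsto P (𝓝[P ⁻¹' Ω] x) (𝓝[Ω] (P x)) := by
        apply tendsto_nhdsWithin_iff.2
        exact ⟨P.continuous.continuousAt.mono_left nhdsWithin_le_nhds,
          eventually_nhdsWithin_of_forall fun y hy => hy⟩
      exact h1 ht
    · have h2 : IntegrableOn u t (Measure.map P μ') := by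
        rw [hP.map_eq]; exact hvt
      exact (hem.integrableOn_map_iff).1 h2
  refine ⟨hloc v h.lv, hloc g h.lg, fun φ hφ hc hs => ?_⟩
  set ψ : E → ℝ := fun y => φ (P.symm y) with hψ
  have h1 : ContDiff ℝ ∞ ψ := hφ.comp P.symm.contDiff
  have h2 : HasCompactSupport ψ := hc.comp_homeomorph P.symm.toHomeomorph
  have hts : tsupport ψ = P.symm ⁻¹' tsupport φ :=
    tsupport_comp_eq_preimage φ P.symm.toHomeomorph
  have h3 : tsupport ψ ⊆ Ω := by
    rw [hts]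
    intro y hy
    have := hs hy
    simpa using this
  have h4 := h.weak ψ h1 h2 h3
  have hd : ∀ x, fderiv ℝ φ x (P.symm e) = fderiv ℝ ψ (P x) e := by
    intro x
    have h7 : HasFDerivAt φ (fderiv ℝ φ x) (P.symm (P x)) := by
      rw [P.symm_apply_apply]
      exact (hφ.differentiable (by simp) x).hasFDerivAt
    have h8 := h7.comp (P x) (P.symm : E →L[ℝ] E').hasFDerivAt
    have h9 : fderiv ℝ ψ (P x) = (fderiv ℝ φ x).comp (P.symm : E →L[ℝ] E') := h8.fderiv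
    rw [h9]
    rfl
  have e1 := hint (fun y => v y * fderiv ℝ ψ y e)
  have e2 := hint (fun y => g y * ψ y)
  have e3 : ∫ x, v (P x) * fderiv ℝ φ x (P.symm e) ∂μ' =
      ∫ x, (fun y => v y * fderiv ℝ ψ y e) (P x) ∂μ' := by
    apply integral_congr_ae
    refine Eventually.of_forall fun x => ?_
    simp only [hd]
  have e4 : ∫ x, g (P x) * φ x ∂μ' = ∫ x, (fun y => g y * ψ y) (P x) ∂μ' := by
    apply integral_congr_ae
    refine Eventually.of_forall fun x => ?_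
    simp only [hψ, P.symm_apply_apply]
  rw [e3, e4, e1, e2, h4]

/-! ### R3 -/

section R3

open Crest.AnalysisR.VecCalc3 Crest.AnalysisR.Sobolev Crest.Agent.R96.Sob7_199
  Crest.Agent.R96.En9_199

/-- the identity `Fin 3 → ℝ` to `R3` -/
def P3 : (Fin 3 → ℝ) ≃L[ℝ] R3 := (PiLp.continuousLinearEquiv 2 ℝ (fun _ : Fin 3 => ℝ)).symm

@[simp] theorem P3_apply (x : Fin 3 → ℝ) (i : Fin 3) : P3 x i = x i := rfl

@[simp] theorem P3_symm_single (i : Fin 3) :
    P3.symm (EuclideanSpace.single i (1:ℝ)) = Pi.single i (1:ℝ) := by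
  funext j
  change (EuclideanSpace.single i (1:ℝ) : R3) j = _
  simp [Pi.single_apply]

theorem P3_mp : MeasurePreserving P3 (volume : Measure (Fin 3 → ℝ)) (volume : Measure R3) :=
  PiLp.volume_preserving_toLp (Fin 3)

/-- the partial derivative of the map `f` in direction `i` -/
def Di (G : Fin 3 → R3 → R3) (i : Fin 3) (x : R3) : R3 := WithLp.toLp 2 fun j => G j x i

theorem vwd_of_grad {Ω : Set R3} (hΩ : IsOpen Ω) {f : R3 → R3} {G : Fin 3 → R3 → R3}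
    (hG : ∀ j, HasWeakGradOn Ω (fun x => f x j) (G j)) (i : Fin 3) :
    VWD Ω volume f (Di G i) (EuclideanSpace.single i 1) := fun j =>
  wd_of_grad_coord hΩ (hG j) i

theorem norm_Di_le (G : Fin 3 → R3 → R3) (i : Fin 3) (x : R3) : ‖Di G i x‖ ≤ ∑ j, ‖G j x‖ := by
  have h1 : Di G i x = ∑ j, G j x i • EuclideanSpace.single j (1:ℝ) := by
    ext k
    simp [Di, Pi.single_apply]
  rw [h1]
  refine (norm_sum_le _ _).trans (Finset.sum_le_sum fun j _ => ?_)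
  rw [norm_smul]
  have h2 : ‖(EuclideanSpace.single j (1:ℝ) : R3)‖ = 1 := by simp
  rw [h2, mul_one]
  exact PiLp.norm_apply_le (p := 2) (G j x) i

/-- **the derivatives of the foam functions in the coordinates of the mesh.**
`f` continuous with weak gradients `G j`, `s c` (`c` countable) locally Lipschitz on `S ⊇ f(Ω)` with
pointwise constants `L c`, at most `N` of them different from `0` and `1` at a point, weights `w c`
with `w c * L c ≤ C`. -/
theorem exists_derivs {Ω : Set R3} (hΩ : IsOpen Ω) {f : R3 → R3} (hf : ContinuousOn f Ω)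
    {G : Fin 3 → R3 → R3} (hG : ∀ j, HasWeakGradOn Ω (fun x => f x j) (G j)) {S : Set R3}
    (hS : MapsTo f Ω S) {𝒞 : Type*} [Countable 𝒞] {s : 𝒞 → R3 → ℝ}
    (hs : ∀ c, LocallyLipschitzOn S (s c)) {L : 𝒞 → ℝ≥0}
    (hL : ∀ c, ∀ y ∈ S, ∀ ε > 0, ∀ᶠ z in 𝓝[S] y, |s c z - s c y| ≤ (L c + ε) * ‖z - y‖) :
    ∃ g : 𝒞 → Fin 3 → (Fin 3 → ℝ) → ℝ, (∀ c i, Measurable (g c i)) ∧
      (∀ c i, WD (P3 ⁻¹' Ω) volume (fun x => s c (f (P3 x))) (g c i) (Pi.single i (1:ℝ))) ∧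
      (∀ᵐ x, P3 x ∈ Ω → ∀ c, G1 (g c) x ≤ 3 * L c * ∑ j, ‖G j (P3 x)‖ₑ) ∧
      (∀ᵐ x, P3 x ∈ Ω → ∀ c, s c (f (P3 x)) = 0 ∨ s c (f (P3 x)) = 1 → G1 (g c) x = 0) := by
  have key := fun c i => comp_real_bound hΩ (vwd_of_grad hΩ hG i) hf hS (hs c) (hL c)
  have hq : Measure.QuasiMeasurePreserving P3 (volume : Measure (Fin 3 → ℝ))
    (volume : Measure R3) := P3_mp.quasiMeasurePreserving
  refine ⟨fun c i x => dq Ω (fun x => s c (f x)) (EuclideanSpace.single i 1) (P3 x), ?_, ?_, ?_, ?_⟩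
  · intro c i
    exact (key c i).2.1.comp P3.continuous.measurable
  · intro c i
    have h1 := wd_comp_equiv (key c i).1 P3 P3_mp
    rwa [P3_symm_single] at h1
  · have h1 : ∀ᵐ x : Fin 3 → ℝ, ∀ c i, P3 x ∈ Ω →
        |dq Ω (fun x => s c (f x)) (EuclideanSpace.single i 1) (P3 x)| ≤
          L c * ‖Di G i (P3 x)‖ := by
      rw [ae_all_iff]; intro c
      rw [ae_all_iff]; intro i
      exact hq.ae (key c i).2.2.1
    filter_upwards [h1] with x hx hxΩ c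
    unfold G1
    have h2 : ∀ i : Fin 3, ‖dq Ω (fun x => s c (f x)) (EuclideanSpace.single i 1) (P3 x)‖ₑ ≤
        L c * ∑ j, ‖G j (P3 x)‖ₑ := by
      intro i
      have h3 := (hx c i hxΩ).trans (mul_le_mul_of_nonneg_left (norm_Di_le G i (P3 x))
        (NNReal.coe_nonneg (L c)))
      rw [← ofReal_norm]
      refine (ENNReal.ofReal_le_ofReal h3).trans (le_of_eq ?_)
      rw [ENNReal.ofReal_mul (NNReal.coe_nonneg _), ENNReal.ofReal_coe_nnreal,
        ENNReal.ofReal_sum_of_nonneg (fun j _ => norm_nonneg _)]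
      simp only [ofReal_norm]
    calc ∑ i : Fin 3, ‖dq Ω (fun x => s c (f x)) (EuclideanSpace.single i 1) (P3 x)‖ₑ
        ≤ ∑ _i : Fin 3, (L c * ∑ j, ‖G j (P3 x)‖ₑ) := Finset.sum_le_sum fun i _ => h2 i
      _ = 3 * L c * ∑ j, ‖G j (P3 x)‖ₑ := by
          rw [Finset.sum_const, Finset.card_univ, Fintype.card_fin, nsmul_eq_mul]
          push_cast
          ring
  · have h1 : ∀ᵐ x : Fin 3 → ℝ, ∀ c i, (P3 x ∈ Ω → s c (f (P3 x)) = 0 →
        dq Ω (fun x => s c (f x)) (EuclideanSpace.single i 1) (P3 x) = 0) ∧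
        (P3 x ∈ Ω → s c (f (P3 x)) = 1 →
        dq Ω (fun x => s c (f x)) (EuclideanSpace.single i 1) (P3 x) = 0) := by
      rw [ae_all_iff]; intro c
      rw [ae_all_iff]; intro i
      exact (hq.ae ((key c i).2.2.2 0)).and (hq.ae ((key c i).2.2.2 1))
    filter_upwards [h1] with x hx hxΩ c hc
    unfold G1
    apply Finset.sum_eq_zero
    intro i _
    change ‖dq Ω (fun x => s c (f x)) (EuclideanSpace.single i 1) (P3 x)‖ₑ = 0
    rcases hc with hc | hc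
    · rw [(hx c i).1 hxΩ hc]; simp
    · rw [(hx c i).2 hxΩ hc]; simp

/-- the weighted sum of all derivatives is bounded by the derivative of `f` -/
theorem GGw_le {𝒞 : Type*} {g : 𝒞 → Fin 3 → (Fin 3 → ℝ) → ℝ} {w : 𝒞 → ℝ≥0∞} {L : 𝒞 → ℝ≥0}
    {C A : ℝ≥0∞} {N : ℕ} (hw : ∀ c, w c * L c ≤ C) {x : Fin 3 → ℝ}
    (h1 : ∀ c, G1 (g c) x ≤ 3 * L c * A) {T : Set 𝒞} (hT : T.encard ≤ N)
    (h2 : ∀ c ∉ T, G1 (g c) x = 0) : GGw w g x ≤ N * (3 * C * A) := by
  classical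
  have hfin : T.Finite := Set.finite_of_encard_le_coe hT
  have h3 : GGw w g x = ∑ c ∈ hfin.toFinset, w c * G1 (g c) x := by
    unfold GGw
    apply tsum_eq_sum
    intro c hc
    rw [h2 c (by simpa using hc), mul_zero]
  rw [h3]
  calc ∑ c ∈ hfin.toFinset, w c * G1 (g c) x ≤ ∑ _c ∈ hfin.toFinset, 3 * C * A := by
        apply Finset.sum_le_sum
        intro c _
        calc w c * G1 (g c) x ≤ w c * (3 * L c * A) := by gcongr; exact h1 c
          _ = 3 * (w c * L c) * A := by ring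
          _ ≤ 3 * C * A := by gcongr; exact hw c
    _ = (hfin.toFinset.card : ℝ≥0∞) * (3 * C * A) := by
        rw [Finset.sum_const, nsmul_eq_mul]
    _ ≤ N * (3 * C * A) := by
        gcongr
        have h4 : (T.encard : ℕ∞) = hfin.toFinset.card := hfin.encard_eq_coe_toFinset_card
        rw [h4] at hT
        exact_mod_cast hT

/-- the energy of the derivatives of the foam functions -/
theorem energy_GGw {𝒞 : Type*} {Ω : Set R3} (hΩ : IsOpen Ω) {R : Set R3} (hR : MeasurableSet R)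
    {g : 𝒞 → Fin 3 → (Fin 3 → ℝ) → ℝ} {w : 𝒞 → ℝ≥0∞} {B : ℝ≥0∞} (hB : B ≠ ⊤)
    {A : R3 → ℝ≥0∞} (h : ∀ᵐ x, P3 x ∈ Ω → GGw w g x ≤ B * A (P3 x)) {p : ℝ} (hp : 1 ≤ p) :
    ∫⁻ x in P3 ⁻¹' Ω, (P3 ⁻¹' R).indicator (GGw w g) x ^ p ≤
      B ^ p * ∫⁻ y in Ω ∩ R, A y ^ p := by
  have hem : MeasurableEmbedding P3 := P3.toHomeomorph.measurableEmbedding
  have hRm : MeasurableSet (P3 ⁻¹' R) := P3.continuous.measurable hR
  have hΩm : MeasurableSet (P3 ⁻¹' Ω) := (hΩ.preimage P3.continuous).measurableSet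
  have h1 : ∀ x, (P3 ⁻¹' R).indicator (GGw w g) x ^ p =
      (P3 ⁻¹' R).indicator (fun x => GGw w g x ^ p) x := by
    intro x
    by_cases hx : x ∈ P3 ⁻¹' R
    · rw [indicator_of_mem hx, indicator_of_mem hx]
    · rw [indicator_of_notMem hx, indicator_of_notMem hx, ENNReal.zero_rpow_of_pos (by linarith)]
  simp only [h1]
  rw [setLIntegral_indicator hRm, inter_comm, ← preimage_inter]
  calc ∫⁻ x in P3 ⁻¹' (Ω ∩ R), GGw w g x ^ p
      ≤ ∫⁻ x in P3 ⁻¹' (Ω ∩ R), B ^ p * A (P3 x) ^ p := by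
        apply lintegral_mono_ae
        rw [ae_restrict_iff' (P3.continuous.measurable (hΩ.measurableSet.inter hR))]
        filter_upwards [h] with x hx hxΩ
        rw [← ENNReal.mul_rpow_of_nonneg _ _ (by linarith)]
        exact ENNReal.rpow_le_rpow (hx hxΩ.1) (by linarith)
    _ = ∫⁻ y in Ω ∩ R, B ^ p * A y ^ p :=
        P3_mp.setLIntegral_comp_preimage_emb hem (fun y => B ^ p * A y ^ p) (Ω ∩ R)
    _ = B ^ p * ∫⁻ y in Ω ∩ R, A y ^ p :=
        lintegral_const_mul' _ _ (ENNReal.rpow_ne_top_of_nonneg (by linarith) hB)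

open Crest.Agent.R096.Msh_810 Crest.Agent.R96.En4_199 Crest.Agent.R96.En5_199
  Crest.Agent.R96.En8_199

theorem measurable_GGw {n : ℕ} {𝒞 : Type*} [Countable 𝒞] {g : 𝒞 → Fin n → (Fin n → ℝ) → ℝ}
    (hg : ∀ c i, Measurable (g c i)) (w : 𝒞 → ℝ≥0∞) : Measurable (GGw w g) :=
  Measurable.tsum fun c => (measurable_G1 (hg c)).const_mul _

/-- **ENERGY IN THE LANGUAGE OF THE STATEMENT: derivatives and shift.**
`f` continuous on `Ω` with weak gradients `G j`; `s c` (`c` countable) foam functions on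
`S ⊇ f(Ω)`, locally Lipschitz with pointwise constants `L c`, at most `N` of them different from
`0, 1` at a point; weights `w c` (sizes) with `w c * L c ≤ C`; `D` the Whitney data of `Ω` in
coordinates; countably many regions `R i`. There are measurable weak derivatives `g c i` of
`s c ∘ f` in the coordinates and a shift `a` of the mesh, good in every prescribed a.e. sense, all
mesh lines good (`Good`; feed it into `levels_energyX`), such that in every region the energy `S` of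
the mesh is bounded by the energy of `f`. -/
theorem shift_R3 {Ω : Set R3} (hΩ : IsOpen Ω) {f : R3 → R3} (hf : ContinuousOn f Ω)
    {G : Fin 3 → R3 → R3} (hG : ∀ j, HasWeakGradOn Ω (fun x => f x j) (G j)) {S : Set R3}
    (hS : MapsTo f Ω S) {𝒞 : Type*} [Countable 𝒞] {s : 𝒞 → R3 → ℝ}
    (hs : ∀ c, LocallyLipschitzOn S (s c)) {L : 𝒞 → ℝ≥0}
    (hL : ∀ c, ∀ y ∈ S, ∀ ε > 0, ∀ᶠ z in 𝓝[S] y, |s c z - s c y| ≤ (L c + ε) * ‖z - y‖)
    {w : 𝒞 → ℝ≥0∞} {C : ℝ≥0∞} (hC : C ≠ ⊤) (hw : ∀ c, w c * L c ≤ C) {N : ℕ}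
    (hN : ∀ y ∈ S, {c | s c y ≠ 0 ∧ s c y ≠ 1}.encard ≤ N)
    (D : Dat 3) (hD : D.Om = P3 ⁻¹' Ω) {ι : Type*} [Countable ι] {R : ι → Set R3}
    (hR : ∀ i, MeasurableSet (R i)) {p : ℝ} (hp : 1 ≤ p) {κ : ι → ℝ≥0∞} (hκ0 : ∀ i, κ i ≠ 0)
    (hκ : 3 * ∑' i, (κ i)⁻¹ < 1) {Q : (Fin 3 → ℝ) → Prop} (hQ : ∀ᵐ a, Q a) :
    ∃ g : 𝒞 → Fin 3 → (Fin 3 → ℝ) → ℝ, (∀ c i, Measurable (g c i)) ∧
      (∀ c i, WD (P3 ⁻¹' Ω) volume (fun x => s c (f (P3 x))) (g c i) (Pi.single i (1:ℝ))) ∧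
      (∀ᵐ x, P3 x ∈ Ω → GGw w g x ≤ N * 3 * C * ∑ j, ‖G j (P3 x)‖ₑ) ∧
      ∃ a ∈ box 3, Q a ∧
        (∀ (k : ℕ) (z : Fin 3 → ℤ), Good (P3 ⁻¹' Ω) (fun c x => s c (f (P3 x))) g (vx a k z)) ∧
        ∀ i, En4_199.S (D.sh a) p ((P3 ⁻¹' R i).indicator (GGw w g)) ≤
          κ i * (KE 3 p * ((N * 3 * C) ^ p * ∫⁻ y in Ω ∩ R i, (∑ j, ‖G j y‖ₑ) ^ p)) := by
  obtain ⟨g, hgm, hwd, hb, h0⟩ := exists_derivs hΩ hf hG hS hs hL
  have hGG : ∀ᵐ x, P3 x ∈ Ω → GGw w g x ≤ N * 3 * C * ∑ j, ‖G j (P3 x)‖ₑ := by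
    filter_upwards [hb, h0] with x h1 h2 hx
    have h3 := GGw_le (x := x) hw (h1 hx) (hN _ (hS hx)) (fun c hc => by
      apply h2 hx c
      by_contra hcon
      push Not at hcon
      exact hc hcon)
    refine h3.trans (le_of_eq ?_)
    ring
  have hΩ' : IsOpen (P3 ⁻¹' Ω) := hΩ.preimage P3.continuous
  have hcont : ∀ c, ContinuousOn (fun x => s c (f (P3 x))) (P3 ⁻¹' Ω) := by
    intro c
    have h1 : ContinuousOn (fun x => s c (f x)) Ω := (hs c).continuousOn.comp hf hS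
    exact h1.comp P3.continuous.continuousOn (fun x hx => hx)
  have hgood := ae_shift hΩ' hcont hwd
  have hGm : ∀ i, Measurable ((P3 ⁻¹' R i).indicator (GGw w g)) := fun i =>
    (measurable_GGw hgm w).indicator (P3.continuous.measurable (hR i))
  have hκ' : ((3:ℕ):ℝ≥0∞) * ∑' i, (κ i)⁻¹ < 1 := by exact_mod_cast hκ
  obtain ⟨a, ha, ⟨hQa, hga⟩, hS'⟩ := exists_shift D hGm (p := fun _ => p) (fun _ => hp) hκ0 hκ'
    (hQ.and hgood)
  refine ⟨g, hgm, hwd, hGG, a, ha, hQa, hga, fun i => (hS' i).trans ?_⟩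
  gcongr
  rw [hD]
  have hB : (N:ℝ≥0∞) * 3 * C ≠ ⊤ := by finiteness
  exact energy_GGw hΩ (hR i) hB hGG hp

end R3

end

end Crest.Agent.R96.En10_199
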