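/-
helper199, row 96, TILE-ENERGY: average over the translates of the sum over the tiles of
`volume * (β * Σ_edges line integral)^p`.
-/
import Mathlib
import Crest.Agent.R96.Sg2_199

set_option autoImplicit false

open MeasureTheory Set Filter Metric
open scoped Topology ENNReal

namespace Crest.Agent.R96.Sg3_199

open Crest.Agent.R96.Sg1_199 Crest.Agent.R96.Sg2_199

noncomputable section

variable {E : Type*} [NormedAddCommGroup E] [NormedSpace ℝ E] [FiniteDimensional ℝ E]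
  [MeasurableSpace E] [BorelSpace E] {μ : Measure E} [μ.IsAddHaarMeasure]

/-- the energy functional of a class of tiles: `Til i` the tiles, `Ed i` the edges of the tile `i`
(segments `x j, v j`), `β i` the norm of the frame -/
def EnF {τ η : Type*} (μ : Measure E) (Til : τ → Set E) (Ed : τ → Finset η) (β : τ → ℝ≥0∞)
    (t : η → ℝ≥0∞) (p : ℝ) : ℝ≥0∞ :=
  ∑' i, μ (Til i) * (β i * ∑ j ∈ Ed i, t j) ^ p

omit [NormedSpace ℝ E] [FiniteDimensional ℝ E] [BorelSpace E] [μ.IsAddHaarMeasure] in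
/-- tiles near a point have small total volume -/
theorem sum_vol_le {τ : Type*} [Countable τ] {Til : τ → Set E}
    (hm : ∀ i, MeasurableSet (Til i)) (hdis : Pairwise (Function.onFun (AEDisjoint μ) Til))
    {D r : ℝ} (hD : ∀ i, ∀ y ∈ Til i, ∀ y' ∈ Til i, dist y' y ≤ D) (z : E) {S : Set τ}
    (hS : ∀ i ∈ S, ∃ y ∈ Til i, dist y z ≤ r) :
    ∑' i : S, μ (Til i) ≤ μ (closedBall z (r + D)) := by
  rw [← measure_iUnion₀ (f := fun i : S => Til i) (fun i i' h => hdis fun e => h (Subtype.ext e))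
    fun i => (hm i).nullMeasurableSet]
  refine measure_mono (iUnion_subset fun i y hy => ?_)
  obtain ⟨y0, hy0, hz⟩ := hS i i.2
  rw [mem_closedBall]
  have h1 := hD i y0 hy0 y hy
  have h2 := dist_triangle y y0 z
  linarith

/-- **AVERAGE OF THE ENERGY OF A CLASS OF TILES** -/
theorem tile_avg {τ η : Type*} [Countable τ] [Countable η] {Til : τ → Set E}
    (hm : ∀ i, MeasurableSet (Til i)) (hdis : Pairwise (Function.onFun (AEDisjoint μ) Til))
    {D r : ℝ} (hD : ∀ i, ∀ y ∈ Til i, ∀ y' ∈ Til i, dist y' y ≤ D)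
    {B : Set E} (hB : MeasurableSet B) (hBr : ∀ w ∈ B, ‖w‖ ≤ r)
    (Ed : τ → Finset η) {n : ℕ} (hn : ∀ i, (Ed i).card ≤ n) (x v : η → E)
    (hsub : ∀ i, ∀ j ∈ Ed i, sgm (x j) (v j) ⊆ Til i) (β : τ → ℝ≥0∞)
    {G : η → E → ℝ≥0∞} (hG : ∀ j, Measurable (G j)) {H : E → ℝ≥0∞} {c : η → ℝ≥0∞}
    (hGH : ∀ᵐ z ∂μ, ∀ j, G j z ≤ c j * H z) {K : ℝ≥0∞} (hK : K ≠ ∞)
    (hβ : ∀ i, ∀ j ∈ Ed i, β i * c j ≤ K) {R : Set E} (hR : MeasurableSet R)
    (hRB : ∀ i, ∀ y ∈ Til i, ∀ w ∈ B, y + w ∈ R) {p : ℝ} (hp : 1 ≤ p) :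
    ∫⁻ a in B, EnF μ Til Ed β (fun j => li (G j) (x j + a) (v j)) p ∂μ ≤
      (n * K) ^ p * μ (closedBall (0:E) (r + D)) * ∫⁻ z in R, H z ^ p ∂μ := by
  have hp0 : 0 ≤ p := by linarith
  -- pointwise: powers inside
  have h1 : ∀ a, EnF μ Til Ed β (fun j => li (G j) (x j + a) (v j)) p ≤
      ∑' q : (Σ i : τ, {j // j ∈ Ed i}), (μ (Til q.1) * ((n:ℝ≥0∞) ^ (p - 1) * β q.1 ^ p)) *
        li (fun y => G q.2 y ^ p) (x q.2 + a) (v q.2) := by
    intro a
    rw [ENNReal.tsum_sigma']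
    refine ENNReal.tsum_le_tsum fun i => ?_
    rw [tsum_fintype]
    have h2 : (∑ j ∈ Ed i, li (G j) (x j + a) (v j)) ^ p ≤
        (n:ℝ≥0∞) ^ (p - 1) * ∑ j ∈ Ed i, li (fun y => G j y ^ p) (x j + a) (v j) := by
      refine (ENNReal.rpow_sum_le_const_mul_sum_rpow (Ed i) _ hp).trans ?_
      refine mul_le_mul' (ENNReal.rpow_le_rpow (by exact_mod_cast hn i) (by linarith)) ?_
      exact Finset.sum_le_sum fun j _ => li_rpow_le (hG j) _ _ hp
    calc μ (Til i) * (β i * ∑ j ∈ Ed i, li (G j) (x j + a) (v j)) ^ p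
        = μ (Til i) * (β i ^ p * (∑ j ∈ Ed i, li (G j) (x j + a) (v j)) ^ p) := by
          rw [ENNReal.mul_rpow_of_nonneg _ _ hp0]
      _ ≤ μ (Til i) * (β i ^ p * ((n:ℝ≥0∞) ^ (p - 1) *
            ∑ j ∈ Ed i, li (fun y => G j y ^ p) (x j + a) (v j))) := by gcongr
      _ = ∑ j ∈ Ed i, (μ (Til i) * ((n:ℝ≥0∞) ^ (p - 1) * β i ^ p)) *
            li (fun y => G j y ^ p) (x j + a) (v j) := by
          rw [← Finset.mul_sum]; ring
      _ = _ := (Finset.sum_coe_sort (Ed i) fun j => (μ (Til i) * ((n:ℝ≥0∞) ^ (p - 1) * β i ^ p)) *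
            li (fun y => G j y ^ p) (x j + a) (v j)).symm
  refine (lintegral_mono h1).trans ?_
  -- Tonelli
  have hfin : (n * K) ^ p * μ (closedBall (0:E) (r + D)) ≠ ∞ :=
    ENNReal.mul_ne_top (ENNReal.rpow_ne_top_of_nonneg hp0
      (ENNReal.mul_ne_top (ENNReal.natCast_ne_top n) hK)) measure_closedBall_lt_top.ne
  refine tonelli_le (ι := Σ i : τ, {j // j ∈ Ed i}) hB (G := fun q y => G q.2 y ^ p)
    (fun q => (hG q.2).pow_const p) (fun q => μ (Til q.1) * ((n:ℝ≥0∞) ^ (p - 1) * β q.1 ^ p))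
    (fun q => x q.2) (fun q => v q.2) (H := fun z => H z ^ p) (c := fun q => c q.2 ^ p) ?_ hR
    (fun q z hz _ => dn_eq_zero fun y hy hyB => hz ?_) hfin (fun z _ => ?_)
  · filter_upwards [hGH] with z hz q
    calc G q.2 z ^ p ≤ (c q.2 * H z) ^ p := ENNReal.rpow_le_rpow (hz q.2) hp0
      _ = _ := ENNReal.mul_rpow_of_nonneg _ _ hp0
  · have := hRB q.1 y (hsub q.1 q.2 q.2.2 hy) (z - y) hyB
    rwa [add_sub_cancel] at this
  · -- density
    set S : Set τ := {i | ∃ y ∈ Til i, dist y z ≤ r} with hS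
    have h3 : ∀ i, ∑ j : {j // j ∈ Ed i}, (μ (Til i) * ((n:ℝ≥0∞) ^ (p - 1) * β i ^ p)) *
        (c j ^ p * dn B (x j) (v j) z) ≤ S.indicator (fun i => (n * K) ^ p * μ (Til i)) i := by
      intro i
      by_cases hi : i ∈ S
      · rw [indicator_of_mem hi]
        have h4 : ∀ j : {j // j ∈ Ed i}, (μ (Til i) * ((n:ℝ≥0∞) ^ (p - 1) * β i ^ p)) *
            (c j ^ p * dn B (x j) (v j) z) ≤ (n:ℝ≥0∞) ^ (p - 1) * K ^ p * μ (Til i) := by
          intro j
          calc (μ (Til i) * ((n:ℝ≥0∞) ^ (p - 1) * β i ^ p)) * (c j ^ p * dn B (x j) (v j) z)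
              = (n:ℝ≥0∞) ^ (p - 1) * (β i ^ p * c j ^ p) * μ (Til i) * dn B (x j) (v j) z := by
                ring
            _ = (n:ℝ≥0∞) ^ (p - 1) * (β i * c j) ^ p * μ (Til i) * dn B (x j) (v j) z := by
                rw [ENNReal.mul_rpow_of_nonneg _ _ hp0]
            _ ≤ (n:ℝ≥0∞) ^ (p - 1) * K ^ p * μ (Til i) * 1 := by
                gcongr
                · exact hβ i j j.2
                · exact dn_le_one _ _ _ _
            _ = _ := mul_one _
        calc ∑ j : {j // j ∈ Ed i}, (μ (Til i) * ((n:ℝ≥0∞) ^ (p - 1) * β i ^ p)) *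
              (c j ^ p * dn B (x j) (v j) z)
            ≤ ∑ _j : {j // j ∈ Ed i}, (n:ℝ≥0∞) ^ (p - 1) * K ^ p * μ (Til i) :=
              Finset.sum_le_sum fun j _ => h4 j
          _ = (Ed i).card * ((n:ℝ≥0∞) ^ (p - 1) * K ^ p * μ (Til i)) := by
              rw [Finset.sum_const, nsmul_eq_mul]
              congr 1
              rw [Finset.card_univ, Fintype.card_coe]
          _ ≤ n * ((n:ℝ≥0∞) ^ (p - 1) * K ^ p * μ (Til i)) := by
              gcongr
              exact hn i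
          _ = (n * K) ^ p * μ (Til i) := by
              rw [ENNReal.mul_rpow_of_nonneg _ _ hp0]
              have h5 : (n:ℝ≥0∞) ^ p = n * (n:ℝ≥0∞) ^ (p - 1) := by
                rcases Nat.eq_zero_or_pos n with h | h
                · rw [h, Nat.cast_zero, zero_mul, ENNReal.zero_rpow_of_pos (by linarith)]
                · have hn0 : (n:ℝ≥0∞) ≠ 0 := by exact_mod_cast h.ne'
                  have : p = 1 + (p - 1) := by ring
                  conv_lhs => rw [this]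
                  rw [ENNReal.rpow_add _ _ hn0 (ENNReal.natCast_ne_top n), ENNReal.rpow_one]
              rw [h5]
              ring
      · rw [indicator_of_notMem hi]
        refine le_of_eq (Finset.sum_eq_zero fun j _ => ?_)
        rw [dn_eq_zero fun y hy hyB => hi ⟨y, hsub i j j.2 hy, ?_⟩, mul_zero, mul_zero]
        rw [dist_comm, dist_eq_norm]
        exact hBr _ hyB
    rw [ENNReal.tsum_sigma']
    calc ∑' i : τ, ∑' j : {j // j ∈ Ed i}, (μ (Til i) * ((n:ℝ≥0∞) ^ (p - 1) * β i ^ p)) *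
          (c j ^ p * dn B (x j) (v j) z)
        ≤ ∑' i : τ, S.indicator (fun i => (n * K) ^ p * μ (Til i)) i := by
          refine ENNReal.tsum_le_tsum fun i => ?_
          rw [tsum_fintype]
          exact h3 i
      _ = ∑' i : S, (n * K) ^ p * μ (Til i) :=
          (tsum_subtype S fun i => (n * K) ^ p * μ (Til i)).symm
      _ = (n * K) ^ p * ∑' i : S, μ (Til i) := ENNReal.tsum_mul_left
      _ ≤ (n * K) ^ p * μ (closedBall z (r + D)) := by
          gcongr
          exact sum_vol_le hm hdis hD z fun i hi => hi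
      _ = _ := by rw [Measure.addHaar_closedBall_center]

end

end Crest.Agent.R96.Sg3_199
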