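/-
helper199, row 96, TILE-ENERGY, part 2: measurability, errors, choice of the translate for
countably many classes of tiles.
-/
import Mathlib
import Crest.Agent.R96.Sg3_199

set_option autoImplicit false

open MeasureTheory Set Filter Metric
open scoped Topology ENNReal

namespace Crest.Agent.R96.Sg4_199

open Crest.Agent.R96.Sg1_199 Crest.Agent.R96.Sg2_199 Crest.Agent.R96.Sg3_199

noncomputable section

variable {E : Type*} [NormedAddCommGroup E] [NormedSpace ℝ E] [FiniteDimensional ℝ E]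
  [MeasurableSpace E] [BorelSpace E] {μ : Measure E} [μ.IsAddHaarMeasure]

omit [μ.IsAddHaarMeasure] in
theorem measurable_EnF {τ η : Type*} [Countable τ] (Til : τ → Set E) (Ed : τ → Finset η)
    (β : τ → ℝ≥0∞) (x v : η → E) {G : η → E → ℝ≥0∞} (hG : ∀ j, Measurable (G j)) (p : ℝ) :
    Measurable fun a => EnF μ Til Ed β (fun j => li (G j) (x j + a) (v j)) p := by
  unfold EnF
  refine Measurable.tsum fun i => ?_
  refine (Measurable.pow_const ?_ p).const_mul _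
  refine (Finset.measurable_sum _ fun j _ => ?_).const_mul _
  exact measurable_li (hG j) (x j) (v j)

/-! ### splitting off the errors -/

omit [NormedSpace ℝ E] [FiniteDimensional ℝ E] [BorelSpace E] [NormedAddCommGroup E]
  [μ.IsAddHaarMeasure] in
/-- **the energy with the measured numbers of crossings**: `t j ≤ l j + err j` -/
theorem EnF_split {τ η : Type*} (Til : τ → Set E) (Ed : τ → Finset η) (β C tol : τ → ℝ≥0∞)
    {t l err : η → ℝ≥0∞} (h : ∀ i, ∀ j ∈ Ed i, t j ≤ l j + err j) {p : ℝ} (hp : 1 ≤ p)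
    {M : ℝ≥0∞} (hC : ∀ i, C i ≤ M) :
    ∑' i, μ (Til i) * (C i * (β i * ∑ j ∈ Ed i, t j) + tol i) ^ p ≤
      (2:ℝ≥0∞) ^ (p - 1) * (M ^ p * EnF μ Til Ed β l p +
        ∑' i, μ (Til i) * (C i * (β i * ∑ j ∈ Ed i, err j) + tol i) ^ p) := by
  have hp0 : 0 ≤ p := by linarith
  unfold EnF
  rw [← ENNReal.tsum_mul_left, ← ENNReal.tsum_add, ← ENNReal.tsum_mul_left]
  refine ENNReal.tsum_le_tsum fun i => ?_
  have h1 : C i * (β i * ∑ j ∈ Ed i, t j) + tol i ≤
      C i * (β i * ∑ j ∈ Ed i, l j) + (C i * (β i * ∑ j ∈ Ed i, err j) + tol i) := by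
    rw [← add_assoc, ← mul_add, ← mul_add, ← Finset.sum_add_distrib]
    gcongr with j hj
    exact h i j hj
  calc μ (Til i) * (C i * (β i * ∑ j ∈ Ed i, t j) + tol i) ^ p
      ≤ μ (Til i) * (C i * (β i * ∑ j ∈ Ed i, l j) +
          (C i * (β i * ∑ j ∈ Ed i, err j) + tol i)) ^ p := by gcongr
    _ ≤ μ (Til i) * ((2:ℝ≥0∞) ^ (p - 1) * ((C i * (β i * ∑ j ∈ Ed i, l j)) ^ p +
          (C i * (β i * ∑ j ∈ Ed i, err j) + tol i) ^ p)) := by
        gcongr
        exact ENNReal.rpow_add_le_mul_rpow_add_rpow _ _ hp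
    _ ≤ μ (Til i) * ((2:ℝ≥0∞) ^ (p - 1) * (M ^ p * (β i * ∑ j ∈ Ed i, l j) ^ p +
          (C i * (β i * ∑ j ∈ Ed i, err j) + tol i) ^ p)) := by
        rw [ENNReal.mul_rpow_of_nonneg _ _ hp0]
        gcongr
        exact hC i
    _ = _ := by ring

/-- **choice of the errors**: positive errors of the edges and tolerances of the tiles whose total
contribution is at most `ε` -/
theorem exists_small {τ η : Type*} [Countable τ] {m : τ → ℝ≥0∞} (hm : ∀ i, m i ≠ ∞)
    (Ed : τ → Finset η) (hfin : ∀ j, {i | j ∈ Ed i}.Finite) {β C : τ → ℝ≥0∞}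
    (hβ : ∀ i, β i ≠ ∞) (hC : ∀ i, C i ≠ ∞) {ε : ℝ≥0∞} (hε : ε ≠ 0) {p : ℝ} (hp : 1 ≤ p) :
    ∃ (err : η → ℝ≥0∞) (tol : τ → ℝ), (∀ j, err j ≠ 0) ∧ (∀ j, err j ≠ ∞) ∧ (∀ i, 0 < tol i) ∧
      ∀ (err' : η → ℝ≥0∞) (tol' : τ → ℝ), (∀ j, err' j ≤ err j) → (∀ i, tol' i ≤ tol i) →
        ∑' i, m i * (C i * (β i * ∑ j ∈ Ed i, err' j) + ENNReal.ofReal (tol' i)) ^ p ≤ ε := by
  classical
  have hp0 : 0 < p := by linarith
  obtain ⟨δ, hδ0, hδ⟩ := ENNReal.exists_pos_sum_of_countable' hε τ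
  -- the allowed size of the bracket
  have h1 : ∀ i, ∃ s : ℝ, 0 < s ∧ m i * (ENNReal.ofReal s) ^ p ≤ δ i := by
    intro i
    have h2 : (0:ℝ≥0∞) < min 1 (δ i / (m i + 1)) :=
      lt_min one_pos (ENNReal.div_pos (hδ0 i).ne' (by simp [hm i]))
    obtain ⟨s, hs0, hs⟩ := ENNReal.lt_iff_exists_nnreal_btwn.1 h2
    have hs0' : 0 < s := by exact_mod_cast hs0
    have hs1 : (s:ℝ≥0∞) ≤ 1 := hs.le.trans (min_le_left _ _)
    refine ⟨s, by exact_mod_cast hs0', ?_⟩
    rw [ENNReal.ofReal_coe_nnreal]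
    calc m i * (s:ℝ≥0∞) ^ p ≤ m i * (s:ℝ≥0∞) ^ (1:ℝ) :=
          mul_le_mul' le_rfl (ENNReal.rpow_le_rpow_of_exponent_ge hs1 hp)
      _ ≤ (m i + 1) * (δ i / (m i + 1)) := by
          rw [ENNReal.rpow_one]
          gcongr
          · exact le_self_add
          · exact hs.le.trans (min_le_right _ _)
      _ ≤ δ i := ENNReal.mul_div_le
  choose s hs0 hs using h1
  -- the errors of one tile
  have h3 : ∀ i, ∃ e : ℝ, 0 < e ∧
      C i * (β i * ((Ed i).card * ENNReal.ofReal e)) ≤ ENNReal.ofReal (s i / 2) := by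
    intro i
    set A : ℝ≥0∞ := C i * (β i * (Ed i).card) with hA
    have hA1 : A ≠ ∞ := ENNReal.mul_ne_top (hC i) (ENNReal.mul_ne_top (hβ i)
      (ENNReal.natCast_ne_top _))
    refine ⟨(s i / 2) / (A.toReal + 1), by have := hs0 i; positivity, ?_⟩
    have h4 : C i * (β i * ((Ed i).card * ENNReal.ofReal ((s i / 2) / (A.toReal + 1)))) =
        A * ENNReal.ofReal ((s i / 2) / (A.toReal + 1)) := by rw [hA]; ring
    rw [h4, ← ENNReal.ofReal_toReal hA1, ← ENNReal.ofReal_mul ENNReal.toReal_nonneg]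
    apply ENNReal.ofReal_le_ofReal
    have h5 : 0 ≤ A.toReal := ENNReal.toReal_nonneg
    have h6 := hs0 i
    rw [ENNReal.toReal_ofReal h5, mul_div_assoc', div_le_iff₀ (by positivity)]
    nlinarith
  choose e he0 he using h3
  -- the error of an edge
  have h7 : ∀ j, ∃ r : ℝ, 0 < r ∧ ∀ i, j ∈ Ed i → r ≤ e i := by
    intro j
    have h8 : ∀ S : Finset τ, ∃ r : ℝ, 0 < r ∧ ∀ i ∈ S, r ≤ e i := by
      intro S
      induction S using Finset.induction_on with
      | empty => exact ⟨1, one_pos, fun i hi => absurd hi (Finset.notMem_empty i)⟩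
      | insert i S hi ih =>
        obtain ⟨r, hr, h⟩ := ih
        refine ⟨min r (e i), lt_min hr (he0 i), fun i' hi' => ?_⟩
        rcases Finset.mem_insert.1 hi' with rfl | h'
        · exact min_le_right _ _
        · exact (min_le_left _ _).trans (h i' h')
    obtain ⟨r, hr, h⟩ := h8 (hfin j).toFinset
    exact ⟨r, hr, fun i hi => h i ((hfin j).mem_toFinset.2 hi)⟩
  choose r hr0 hr using h7
  refine ⟨fun j => ENNReal.ofReal (r j), fun i => s i / 2, fun j => ?_, fun j =>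
    ENNReal.ofReal_ne_top, fun i => by have := hs0 i; positivity, fun err' tol' h1' h2' => ?_⟩
  · exact (ENNReal.ofReal_pos.2 (hr0 j)).ne'
  · refine (ENNReal.tsum_le_tsum fun i => ?_).trans hδ.le
    refine le_trans ?_ (hs i)
    gcongr
    calc C i * (β i * ∑ j ∈ Ed i, err' j) + ENNReal.ofReal (tol' i)
        ≤ C i * (β i * ∑ _j ∈ Ed i, ENNReal.ofReal (e i)) + ENNReal.ofReal (s i / 2) := by
          gcongr with j hj
          · exact (h1' j).trans (ENNReal.ofReal_le_ofReal (hr j i hj))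
          · exact h2' i
      _ ≤ ENNReal.ofReal (s i / 2) + ENNReal.ofReal (s i / 2) := by
          gcongr
          rw [Finset.sum_const, nsmul_eq_mul]
          exact he i
      _ = ENNReal.ofReal (s i) := by
          have := hs0 i
          rw [← ENNReal.ofReal_add (by positivity) (by positivity)]
          congr 1
          ring

/-! ### choice of the translate -/

/-- **CHOICE OF THE TRANSLATE**: countably many classes `k` of tiles, every class with its own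
ambient function `H k`, region `R k` and constants -/
theorem exists_translate_tiles {κ : Type*} [Countable κ] {τ : κ → Type*} [∀ k, Countable (τ k)]
    {η : Type*} [Countable η] {Til : ∀ k, τ k → Set E} (hm : ∀ k i, MeasurableSet (Til k i))
    (hdis : ∀ k, Pairwise (Function.onFun (AEDisjoint μ) (Til k)))
    {D : κ → ℝ} {r : ℝ} (hD : ∀ k i, ∀ y ∈ Til k i, ∀ y' ∈ Til k i, dist y' y ≤ D k)
    {B : Set E} (hB : MeasurableSet B) (hB0 : μ B ≠ 0) (hBr : ∀ w ∈ B, ‖w‖ ≤ r)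
    (Ed : ∀ k, τ k → Finset η) {n : κ → ℕ} (hn : ∀ k i, (Ed k i).card ≤ n k) (x v : η → E)
    (hsub : ∀ k i, ∀ j ∈ Ed k i, sgm (x j) (v j) ⊆ Til k i) (β : ∀ k, τ k → ℝ≥0∞)
    {G : η → E → ℝ≥0∞} (hG : ∀ j, Measurable (G j)) {H : κ → E → ℝ≥0∞} {c : η → ℝ≥0∞}
    (hGH : ∀ k, ∀ᵐ z ∂μ, ∀ j, G j z ≤ c j * H k z) {K : κ → ℝ≥0∞} (hK : ∀ k, K k ≠ ∞)
    (hβ : ∀ k i, ∀ j ∈ Ed k i, β k i * c j ≤ K k) {R : κ → Set E}
    (hR : ∀ k, MeasurableSet (R k)) (hRB : ∀ k i, ∀ y ∈ Til k i, ∀ w ∈ B, y + w ∈ R k) {p : ℝ}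
    (hp : 1 ≤ p) {lam : κ → ℝ≥0∞} (hl0 : ∀ k, lam k ≠ 0) (hl : ∑' k, (lam k)⁻¹ < 1)
    {P : E → Prop} (hP : ∀ᵐ a ∂μ, a ∈ B → P a) :
    ∃ a ∈ B, P a ∧ ∀ k, EnF μ (Til k) (Ed k) (β k) (fun j => li (G j) (x j + a) (v j)) p ≤
      lam k * ((μ B)⁻¹ * ((n k * K k) ^ p * μ (closedBall (0:E) (r + D k)) *
        ∫⁻ z in R k, H k z ^ p ∂μ)) := by
  have hB1 : μ B ≠ ∞ := by
    refine ((measure_mono (t := closedBall (0:E) r) fun w hw => ?_).trans_lt
      measure_closedBall_lt_top).ne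
    rw [mem_closedBall, dist_zero_right]
    exact hBr w hw
  obtain ⟨a, ha, hPa, h⟩ := exists_translate (μ := μ) hB hB0 hB1
    (F := fun k a => EnF μ (Til k) (Ed k) (β k) (fun j => li (G j) (x j + a) (v j)) p)
    (fun k => (measurable_EnF (Til k) (Ed k) (β k) x v hG p).aemeasurable) hl0 hl hP
  refine ⟨a, ha, hPa, fun k => (h k).trans ?_⟩
  gcongr
  exact tile_avg (hm k) (hdis k) (hD k) hB hBr (Ed k) (hn k) x v (hsub k) (β k) hG (hGH k) (hK k)
    (hβ k) (hR k) (hRB k) hp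

end

end Crest.Agent.R96.Sg4_199
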