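/-
helper199, row 96, TILE-ENERGY, part 3: derivatives in arbitrary directions on `Fin n → ℝ`, final
form of the choice of the translate.
-/
import Mathlib
import Crest.Agent.R96.Sg4_199
import Crest.Agent.R96.En10_199

set_option autoImplicit false

open MeasureTheory Set Filter Metric
open scoped Topology ENNReal

namespace Crest.Agent.R96.Sg5_199

open Crest.Agent.R96.Acl_392 Crest.Agent.R96.Sob2_199 Crest.Agent.R96.Sob3_199
  Crest.Agent.R96.Sg1_199 Crest.Agent.R96.Sg2_199 Crest.Agent.R96.Sg3_199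
  Crest.Agent.R96.Sg4_199 Crest.Agent.R96.En9_199 Crest.Agent.R96.En10_199

noncomputable section

variable {n : ℕ}

/-- the derivative in the direction `v` -/
def gdir (g : Fin n → (Fin n → ℝ) → ℝ) (v y : Fin n → ℝ) : ℝ := ∑ l, v l * g l y

theorem measurable_gdir {g : Fin n → (Fin n → ℝ) → ℝ} (hg : ∀ l, Measurable (g l))
    (v : Fin n → ℝ) : Measurable (gdir g v) := by
  unfold gdir
  exact Finset.measurable_sum _ fun l _ => (hg l).const_mul _

theorem wd_dir [NeZero n] {Ω : Set (Fin n → ℝ)} {μ : Measure (Fin n → ℝ)} [μ.IsAddHaarMeasure]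
    {u : (Fin n → ℝ) → ℝ} {g : Fin n → (Fin n → ℝ) → ℝ}
    (h : ∀ l, WD Ω μ u (g l) (Pi.single l (1:ℝ))) (v : Fin n → ℝ) :
    WD Ω μ u (gdir g v) v := by
  have hu0 : WD Ω μ u (fun _ => 0) 0 := by
    have h1 := wd_smul_dir (h 0) 0
    simpa using h1
  have key : ∀ S : Finset (Fin n), WD Ω μ u (fun y => ∑ l ∈ S, v l * g l y)
      (∑ l ∈ S, v l • Pi.single l (1:ℝ)) := by
    intro S
    induction S using Finset.induction_on with
    | empty => simpa using hu0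
    | insert l S hl ih =>
      simp only [Finset.sum_insert hl]
      exact wd_add_dir (wd_smul_dir (h l) (v l)) ih
  have h1 := key Finset.univ
  have h2 : (∑ l, v l • Pi.single l (1:ℝ) : Fin n → ℝ) = v := by
    funext m
    simp [Finset.sum_apply, Pi.single_apply]
  rw [h2] at h1
  exact h1

theorem Hs_dir_le {𝒞 : Type*} (w : 𝒞 → ℝ≥0∞) (g : 𝒞 → Fin n → (Fin n → ℝ) → ℝ)
    (v y : Fin n → ℝ) : Hs w (fun c => gdir (g c) v) y ≤ ‖v‖ₑ * GGw w g y := by
  unfold Hs GGw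
  rw [← ENNReal.tsum_mul_left]
  refine ENNReal.tsum_le_tsum fun c => ?_
  have h1 : ‖gdir (g c) v y‖ₑ ≤ ‖v‖ₑ * G1 (g c) y := by
    unfold gdir G1
    refine (enorm_sum_le _ _).trans ?_
    rw [Finset.mul_sum]
    refine Finset.sum_le_sum fun l _ => ?_
    rw [enorm_mul]
    gcongr
    rw [← ofReal_norm, ← ofReal_norm]
    exact ENNReal.ofReal_le_ofReal (norm_le_pi_norm v l)
  calc w c * ‖gdir (g c) v y‖ₑ ≤ w c * (‖v‖ₑ * G1 (g c) y) := by gcongr
    _ = _ := by ring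

theorem measurable_Hs {𝒞 : Type*} [Countable 𝒞] (w : 𝒞 → ℝ≥0∞) {g : 𝒞 → (Fin n → ℝ) → ℝ}
    (hg : ∀ c, Measurable (g c)) : Measurable (Hs w g) := by
  unfold Hs
  exact Measurable.tsum fun c => (hg c).enorm.const_mul _

/-- **TILE-ENERGY, FINAL FORM** on `E = Fin n → ℝ`: continuous functions `u c` on `Om` with weak
derivatives `g c l` in the coordinate directions, weights `w c`; a countable set `η` of edges
(segments `x j, v j`), countably many classes `k` of tiles. There is a translate `a ∈ B`, good in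
every prescribed a.e. sense, such that all functions are absolutely continuous on all edges
`x j + a` (`ACLat`: feed it into `segs_one` / `segs_levels`) and every class has small energy. -/
theorem tile_energy [NeZero n] {Om : Set (Fin n → ℝ)} (hO : IsOpen Om)
    {𝒞 : Type*} [Countable 𝒞] {u : 𝒞 → (Fin n → ℝ) → ℝ} (hu : ∀ c, ContinuousOn (u c) Om)
    {g : 𝒞 → Fin n → (Fin n → ℝ) → ℝ} (hgm : ∀ c l, Measurable (g c l))
    (hg : ∀ c l, WD Om volume (u c) (g c l) (Pi.single l (1:ℝ))) (w : 𝒞 → ℝ≥0∞)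
    {η : Type*} [Countable η] (x v : η → Fin n → ℝ)
    {κ : Type*} [Countable κ] {τ : κ → Type*} [∀ k, Countable (τ k)]
    {Til : ∀ k, τ k → Set (Fin n → ℝ)} (hm : ∀ k i, MeasurableSet (Til k i))
    (hdis : ∀ k, Pairwise (Function.onFun (AEDisjoint volume) (Til k)))
    {D : κ → ℝ} {r : ℝ} (hD : ∀ k i, ∀ y ∈ Til k i, ∀ y' ∈ Til k i, dist y' y ≤ D k)
    {B : Set (Fin n → ℝ)} (hB : MeasurableSet B) (hB0 : volume B ≠ 0) (hBr : ∀ b ∈ B, ‖b‖ ≤ r)
    (Ed : ∀ k, τ k → Finset η) {N : κ → ℕ} (hN : ∀ k i, (Ed k i).card ≤ N k)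
    (hsub : ∀ k i, ∀ j ∈ Ed k i, sgm (x j) (v j) ⊆ Til k i) (β : ∀ k, τ k → ℝ≥0∞)
    {K : κ → ℝ≥0∞} (hK : ∀ k, K k ≠ ∞) (hβ : ∀ k i, ∀ j ∈ Ed k i, β k i * ‖v j‖ₑ ≤ K k)
    {R : κ → Set (Fin n → ℝ)} (hR : ∀ k, MeasurableSet (R k))
    (hRB : ∀ k i, ∀ y ∈ Til k i, ∀ b ∈ B, y + b ∈ R k) {p : ℝ} (hp : 1 ≤ p)
    {lam : κ → ℝ≥0∞} (hl0 : ∀ k, lam k ≠ 0) (hl : ∑' k, (lam k)⁻¹ < 1)
    {P : (Fin n → ℝ) → Prop} (hP : ∀ᵐ a, a ∈ B → P a) :
    ∃ a ∈ B, P a ∧ (∀ c j, ACLat Om (u c) (gdir (g c) (v j)) (v j) (x j + a)) ∧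
      ∀ k, EnF volume (Til k) (Ed k) (β k)
        (fun j => li (Hs w fun c => gdir (g c) (v j)) (x j + a) (v j)) p ≤
        lam k * ((volume B)⁻¹ * ((N k * K k) ^ p *
          volume (closedBall (0 : Fin n → ℝ) (r + D k)) * ∫⁻ z in R k, GGw w g z ^ p)) := by
  have h1 : ∀ᵐ a : Fin n → ℝ, ∀ c j, ACLat Om (u c) (gdir (g c) (v j)) (v j) (x j + a) :=
    ae_shift hO x v hu (g := fun c j => gdir (g c) (v j)) fun c j => wd_dir (hg c) (v j)
  have h2 : ∀ᵐ a : Fin n → ℝ, a ∈ B → P a ∧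
      ∀ c j, ACLat Om (u c) (gdir (g c) (v j)) (v j) (x j + a) := by
    filter_upwards [h1, hP] with a h3 h4 ha
    exact ⟨h4 ha, h3⟩
  obtain ⟨a, ha, ⟨hPa, hA⟩, h3⟩ := exists_translate_tiles (μ := volume) hm hdis hD hB hB0 hBr Ed hN
    x v hsub β (G := fun j => Hs w fun c => gdir (g c) (v j))
    (fun j => measurable_Hs w fun c => measurable_gdir (hgm c) (v j)) (H := fun _ => GGw w g)
    (c := fun j => ‖v j‖ₑ) (fun _ => Eventually.of_forall fun z j => Hs_dir_le w g (v j) z) hK hβ hR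
    hRB hp hl0 hl h2
  exact ⟨a, ha, hPa, hA, h3⟩

end

end Crest.Agent.R96.Sg5_199
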