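import Mathlib

/-!
# Row 96, U2 PUSH (helper899), part 2: pointwise Lipschitz ⇒ Lipschitz; locally finite closed covers
-/

set_option autoImplicit false

open Set Filter Topology
open scoped NNReal

noncomputable section

namespace Crest.Agent.R96.Push_899

/-! ### pointwise Lipschitz implies Lipschitz on convex sets -/

/-- one-dimensional: a continuous function on `[0,1]` whose right increments are locally bounded
by `C` has total increment at most `C`. -/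
theorem incr_le_of_right {F : Type*} [NormedAddCommGroup F] {g : ℝ → F}
    {C : ℝ} (hg : ContinuousOn g (Icc 0 1))
    (h : ∀ x ∈ Ico (0:ℝ) 1, ∀ᶠ z in 𝓝[>] x, ‖g z - g x‖ ≤ C * (z - x)) :
    ‖g 1 - g 0‖ ≤ C := by
  have key := image_le_of_liminf_slope_right_le_deriv_boundary (f := fun x => ‖g x - g 0‖)
    (a := 0) (b := 1) (hg.sub continuousOn_const).norm
    (B := fun x => C * x) (B' := fun _ => C) (by simp) (by fun_prop) ?_ ?_
  · have h1 := key (x := 1) (right_mem_Icc.2 zero_le_one)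
    simpa using h1
  · intro x _
    have h1 : HasDerivAt (fun x : ℝ => C * x) (C * 1) x := (hasDerivAt_id x).const_mul C
    simpa using h1.hasDerivWithinAt
  · intro x hx r hr
    apply Eventually.frequently
    filter_upwards [h x hx, self_mem_nhdsWithin] with z hz hz2
    have hzx : 0 < z - x := sub_pos.2 hz2
    rw [slope_def_field, div_lt_iff₀ hzx]
    have h2 : ‖g z - g 0‖ - ‖g x - g 0‖ ≤ ‖g z - g x‖ := by
      have h3 := norm_sub_norm_le (g z - g 0) (g x - g 0)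
      simpa using h3
    nlinarith

theorem lip_of_pointwise {E F : Type*} [NormedAddCommGroup E] [NormedSpace ℝ E]
    [NormedAddCommGroup F] {U : Set E} (hU : Convex ℝ U) {θ : E → F} {C : ℝ≥0}
    (h : ∀ y ∈ U, ∀ᶠ y' in 𝓝[U] y, ‖θ y' - θ y‖ ≤ C * ‖y' - y‖) : LipschitzOnWith C θ U := by
  have hcont : ContinuousOn θ U := by
    intro y hy
    rw [ContinuousWithinAt, tendsto_iff_norm_sub_tendsto_zero]
    have h1 : Tendsto (fun y' => (C:ℝ) * ‖y' - y‖) (𝓝[U] y) (𝓝 0) := by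
      have h2 : Tendsto (fun y' => (C:ℝ) * ‖y' - y‖) (𝓝 y) (𝓝 ((C:ℝ) * ‖y - y‖)) :=
        (Continuous.tendsto (by fun_prop) y)
      simp only [sub_self, norm_zero, mul_zero] at h2
      exact h2.mono_left nhdsWithin_le_nhds
    exact squeeze_zero' (Eventually.of_forall fun _ => norm_nonneg _) (h y hy) h1
  apply LipschitzOnWith.of_dist_le_mul
  intro a ha b hb
  rw [dist_comm, dist_comm a, dist_eq_norm, dist_eq_norm]
  set L : ℝ → E := fun t => a + t • (b - a) with hL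
  have hLc : Continuous L := by fun_prop
  have hLU : ∀ t ∈ Icc (0:ℝ) 1, L t ∈ U := by
    intro t ht
    exact hU.add_smul_sub_mem ha hb ht
  have key := incr_le_of_right (g := fun t => θ (L t)) (C := C * ‖b - a‖)
    (hcont.comp hLc.continuousOn hLU) ?_
  · simpa [hL] using key
  · intro x hx
    have hxU := hLU x ⟨hx.1, hx.2.le⟩
    have h1 : Tendsto L (𝓝[>] x) (𝓝[U] (L x)) := by
      rw [tendsto_nhdsWithin_iff]
      refine ⟨(hLc.tendsto x).mono_left nhdsWithin_le_nhds, ?_⟩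
      filter_upwards [Ioo_mem_nhdsGT hx.2] with z hz
      exact hLU z ⟨hx.1.trans hz.1.le, hz.2.le⟩
    filter_upwards [h1.eventually (h _ hxU), self_mem_nhdsWithin] with z hz hz2
    have h2 : L z - L x = (z - x) • (b - a) := by
      simp only [hL]; module
    rw [h2, norm_smul, Real.norm_eq_abs, abs_of_pos (sub_pos.2 hz2)] at hz
    linarith [hz]

/-! ### locally finite closed covers -/

section cover

set_option linter.unusedSectionVars false
variable {E I : Type*} [TopologicalSpace E]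

/-- locally finite closed cover of `Λ` -/
structure Cells (Λ : Set E) (K : I → Set E) : Prop where
  closed : ∀ c, IsClosed (K c)
  sub : ∀ c, K c ⊆ Λ
  cover : ∀ y ∈ Λ, ∃ c, y ∈ K c
  locfin : ∀ y ∈ Λ, ∃ U ∈ 𝓝 y, {c | (K c ∩ U).Nonempty}.Finite

variable {Λ : Set E} {K : I → Set E}

theorem Cells.near (h : Cells Λ K) {y : E} (hy : y ∈ Λ) :
    ∀ᶠ y' in 𝓝[Λ] y, ∀ c, y' ∈ K c → y ∈ K c := by
  obtain ⟨U, hU, hfin⟩ := h.locfin y hy
  have h1 : ∀ᶠ y' in 𝓝 y, ∀ c ∈ {c | (K c ∩ U).Nonempty}, y ∉ K c → y' ∉ K c := by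
    rw [eventually_all_finite hfin]
    intro c _
    by_cases hc : y ∈ K c
    · exact Eventually.of_forall fun _ h => absurd hc h
    · filter_upwards [(h.closed c).isOpen_compl.mem_nhds hc] with y' hy' _ using hy'
  filter_upwards [nhdsWithin_le_nhds h1, nhdsWithin_le_nhds hU] with y' h2 h3 c hc
  by_contra hyc
  exact h2 c ⟨y', hc, h3⟩ hyc hc

/-- a property near `y`, checked cell by cell. -/
theorem Cells.eventually (h : Cells Λ K) {y : E} {S : Set E} (hS : S ⊆ Λ) (hy : y ∈ S)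
    {P : E → Prop} (hP : ∀ c, y ∈ K c → ∀ᶠ y' in 𝓝[K c ∩ S] y, P y') :
    ∀ᶠ y' in 𝓝[S] y, P y' := by
  obtain ⟨U, hU, hfin⟩ := h.locfin y (hS hy)
  have h1 : ∀ᶠ y' in 𝓝 y, ∀ c ∈ {c | (K c ∩ U).Nonempty}, y ∈ K c → y' ∈ K c ∩ S → P y' := by
    rw [eventually_all_finite hfin]
    intro c _
    by_cases hc : y ∈ K c
    · have h2 := hP c hc
      rw [eventually_nhdsWithin_iff] at h2
      filter_upwards [h2] with y' hy' _ using hy'
    · exact Eventually.of_forall fun _ h => absurd h hc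
  have hΛ : 𝓝[S] y ≤ 𝓝[Λ] y := nhdsWithin_mono _ hS
  filter_upwards [nhdsWithin_le_nhds h1, nhdsWithin_le_nhds hU, hΛ (h.near (hS hy)),
    self_mem_nhdsWithin] with y' h2 h3 h4 h5
  obtain ⟨c, hc⟩ := h.cover y' (hS h5)
  exact h2 c ⟨y', hc, h3⟩ (h4 c hc) ⟨hc, h5⟩

/-- a union of closed subsets of the cells is relatively closed -/
theorem Cells.isOpen_diff (h : Cells Λ K) (hΛ : IsOpen Λ) {R : I → Set E}
    (hR : ∀ c, IsClosed (R c)) (hRK : ∀ c, R c ⊆ K c) : IsOpen (Λ \ ⋃ c, R c) := by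
  rw [isOpen_iff_mem_nhds]
  rintro y ⟨hy, hyR⟩
  obtain ⟨U, hU, hfin⟩ := h.locfin y hy
  have h1 : ∀ᶠ y' in 𝓝 y, ∀ c ∈ {c | (K c ∩ U).Nonempty}, y' ∉ R c := by
    rw [eventually_all_finite hfin]
    intro c _
    exact (hR c).isOpen_compl.mem_nhds (fun hc => hyR (mem_iUnion.2 ⟨c, hc⟩))
  filter_upwards [h1, hU, hΛ.mem_nhds hy] with y' h2 h3 h4
  refine ⟨h4, ?_⟩
  rw [mem_iUnion]
  rintro ⟨c, hc⟩
  exact h2 c ⟨y', hRK c hc, h3⟩ hc

/-- gluing of maps which agree on overlaps -/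
def glue (K : I → Set E) {F : Type*} (ψ : I → E → F) (φ : E → F) (y : E) : F := by
  classical
  exact if h : ∃ c, y ∈ K c then ψ h.choose y else φ y

theorem glue_eq {F : Type*} {ψ : I → E → F} {φ : E → F} {y : E} {c : I} (hc : y ∈ K c)
    (hψ : ∀ c', y ∈ K c' → ψ c' y = ψ c y) : glue K ψ φ y = ψ c y := by
  classical
  have h : ∃ c, y ∈ K c := ⟨c, hc⟩
  unfold glue
  rw [dif_pos h]
  exact hψ _ h.choose_spec

theorem Cells.continuousOn (h : Cells Λ K) {S : Set E} (hS : S ⊆ Λ) {F : Type*}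
    [TopologicalSpace F] {θ : E → F} (hθ : ∀ c, ContinuousOn θ (K c ∩ S)) : ContinuousOn θ S := by
  intro y hy
  intro V hV
  apply h.eventually hS hy (P := fun y' => θ y' ∈ V)
  intro c hc
  exact hθ c y ⟨hc, hy⟩ hV

end cover

/-- local Lipschitz bound on a relatively open subset from pointwise bounds in the cells -/
theorem Cells.locLip {E I F : Type*} [NormedAddCommGroup E] [NormedSpace ℝ E]
    [NormedAddCommGroup F] {Λ : Set E} {K : I → Set E} (h : Cells Λ K) {S : Set E}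
    (hSo : IsOpen S) (hS : S ⊆ Λ) {θ : E → F}
    (hθ : ∀ c, ∀ y ∈ K c ∩ S, ∃ C : ℝ, ∃ V ∈ 𝓝 y, ∀ y₁ ∈ V ∩ (K c ∩ S), ∀ y₂ ∈ V ∩ (K c ∩ S),
      ‖θ y₂ - θ y₁‖ ≤ C * ‖y₂ - y₁‖) : LocallyLipschitzOn S θ := by
  classical
  intro y hy
  obtain ⟨U, hU, hfin⟩ := h.locfin y (hS hy)
  -- a uniform constant for the finitely many cells containing `y`
  have h1 : ∃ C : ℝ≥0, ∃ V ∈ 𝓝 y, ∀ c, y ∈ K c → ∀ y₁ ∈ V ∩ (K c ∩ S),
      ∀ y₂ ∈ V ∩ (K c ∩ S), ‖θ y₂ - θ y₁‖ ≤ C * ‖y₂ - y₁‖ := by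
    have h2 : {c | y ∈ K c}.Finite := by
      apply hfin.subset
      intro c hc
      exact ⟨y, hc, mem_of_mem_nhds hU⟩
    have h3 : ∀ c : I, ∃ C : ℝ, ∃ V ∈ 𝓝 y, y ∈ K c → ∀ y₁ ∈ V ∩ (K c ∩ S),
        ∀ y₂ ∈ V ∩ (K c ∩ S), ‖θ y₂ - θ y₁‖ ≤ C * ‖y₂ - y₁‖ := by
      intro c
      by_cases hc : y ∈ K c
      · obtain ⟨C, V, hV, hCV⟩ := hθ c y ⟨hc, hy⟩
        exact ⟨C, V, hV, fun _ => hCV⟩
      · exact ⟨0, univ, univ_mem, fun h => absurd h hc⟩
    choose C V hV hCV using h3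
    refine ⟨(∑ c ∈ h2.toFinset, (C c).toNNReal), ⋂ c ∈ {c | y ∈ K c}, V c, ?_, ?_⟩
    · rw [biInter_mem h2]
      exact fun c _ => hV c
    · intro c hc y₁ hy₁ y₂ hy₂
      have h4 := hCV c hc y₁ ⟨(mem_iInter₂.1 hy₁.1 c hc), hy₁.2⟩ y₂
        ⟨(mem_iInter₂.1 hy₂.1 c hc), hy₂.2⟩
      refine h4.trans (mul_le_mul_of_nonneg_right ?_ (norm_nonneg _))
      refine (Real.le_coe_toNNReal (C c)).trans ?_
      exact_mod_cast Finset.single_le_sum (f := fun c => (C c).toNNReal)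
        (fun _ _ => bot_le) (h2.mem_toFinset.2 hc)
  obtain ⟨C, V, hV, hCV⟩ := h1
  -- a small ball on which only the cells containing `y` are met
  have h5 : ∀ᶠ y' in 𝓝 y, y' ∈ V ∧ y' ∈ S ∧ ∀ c, y' ∈ K c → y ∈ K c := by
    have h6 := h.near (hS hy)
    rw [eventually_nhdsWithin_iff] at h6
    filter_upwards [hV, hSo.mem_nhds hy, h6] with y' a b c
    exact ⟨a, b, c (hS b)⟩
  obtain ⟨r, hr, hball⟩ := Metric.eventually_nhds_iff_ball.1 h5
  refine ⟨C, Metric.ball y r, mem_nhdsWithin_of_mem_nhds (Metric.ball_mem_nhds y hr), ?_⟩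
  apply lip_of_pointwise (convex_ball y r)
  intro y₁ hy₁
  obtain ⟨a1, a2, a3⟩ := hball y₁ hy₁
  have h7 : ∀ᶠ y₂ in 𝓝[S] y₁, y₂ ∈ Metric.ball y r → ‖θ y₂ - θ y₁‖ ≤ C * ‖y₂ - y₁‖ := by
    apply h.eventually hS a2
    intro c hc
    filter_upwards [self_mem_nhdsWithin] with y₂ hy₂ hb
    exact hCV c (a3 c hc) y₁ ⟨a1, hc, a2⟩ y₂ ⟨(hball y₂ hb).1, hy₂⟩
  have h8 : ∀ᶠ y₂ in 𝓝 y₁, y₂ ∈ Metric.ball y r → ‖θ y₂ - θ y₁‖ ≤ C * ‖y₂ - y₁‖ := by
    rw [eventually_nhdsWithin_iff] at h7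
    filter_upwards [h7, hSo.mem_nhds a2] with y₂ b1 b2 using b1 b2
  rw [eventually_nhdsWithin_iff]
  exact h8

end Crest.Agent.R96.Push_899
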