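import Mathlib
import Crest.Agent.R96.Sob5_199

/-!
# Row 96, U2 PUSH (helper899), part 3: coordinate-wise bounds for the derivative of a composition
-/

set_option autoImplicit false
set_option linter.unusedSectionVars false

open MeasureTheory Set Filter
open scoped ContDiff Topology NNReal

noncomputable section

namespace Crest.Agent.R96.Push_899

open Crest.Agent.R96.Acl_392 Crest.Agent.R96.Sob1_199 Crest.Agent.R96.Sob2_199
  Crest.Agent.R96.Sob3_199 Crest.Agent.R96.Sob4_199 Crest.Agent.R96.Sob5_199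

variable {E : Type*} [NormedAddCommGroup E] [NormedSpace ℝ E] [FiniteDimensional ℝ E]
  [MeasurableSpace E] [BorelSpace E] {μ : Measure E} [μ.IsAddHaarMeasure]

variable {ι : Type*} [Fintype ι]

/-- one variable: coordinate-wise increments bound the derivative -/
theorem deriv_aniso {φ : ℝ → EuclideanSpace ℝ ι} {θ : EuclideanSpace ℝ ι → ℝ} {τ : ℝ}
    {v : EuclideanSpace ℝ ι} {w : ℝ} {S : Set (EuclideanSpace ℝ ι)} {b A : ι → ℝ}
    (h1 : HasDerivAt φ v τ) (h2 : HasDerivAt (fun σ => θ (φ σ)) w τ)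
    (hS : ∀ᶠ σ in 𝓝 τ, φ σ ∈ S)
    (hL : ∀ᶠ y in 𝓝[S] (φ τ), |θ y - θ (φ τ) - ∑ i, b i * (y i - φ τ i)| ≤
      ∑ i, A i * |y i - φ τ i|) :
    |w - ∑ i, b i * v i| ≤ ∑ i, A i * |v i| := by
  have hv : ∀ i, HasDerivAt (fun σ => φ σ i) (v i) τ := fun i => hasDerivAt_apply' h1 i
  have h3 : HasDerivAt (fun σ => θ (φ σ) - ∑ i, b i * φ σ i) (w - ∑ i, b i * v i) τ := by
    apply h2.sub
    exact HasDerivAt.fun_sum fun i _ => (hv i).const_mul (b i)
  have h4 := (hasDerivAt_iff_tendsto_slope.1 h3).abs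
  have h5 : Tendsto (fun σ => ∑ i, A i * |slope (fun s => φ s i) τ σ|) (𝓝[≠] τ)
      (𝓝 (∑ i, A i * |v i|)) :=
    tendsto_finsetSum _ fun i _ => ((hasDerivAt_iff_tendsto_slope.1 (hv i)).abs).const_mul _
  refine le_of_tendsto_of_tendsto h4 h5 ?_
  have h6 : Tendsto φ (𝓝 τ) (𝓝[S] (φ τ)) :=
    tendsto_nhdsWithin_iff.2 ⟨h1.continuousAt.tendsto, hS⟩
  filter_upwards [(h6.eventually hL).filter_mono nhdsWithin_le_nhds] with σ hσ
  simp only [slope_def_field, abs_div]
  have e1 : θ (φ σ) - ∑ i, b i * φ σ i - (θ (φ τ) - ∑ i, b i * φ τ i) =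
      θ (φ σ) - θ (φ τ) - ∑ i, b i * (φ σ i - φ τ i) := by
    simp only [mul_sub, Finset.sum_sub_distrib]; ring
  rw [e1]
  have e2 : ∑ i, A i * (|φ σ i - φ τ i| / |σ - τ|) = (∑ i, A i * |φ σ i - φ τ i|) / |σ - τ| := by
    rw [Finset.sum_div]
    exact Finset.sum_congr rfl fun i _ => by ring
  rw [e2]
  exact div_le_div_of_nonneg_right hσ (abs_nonneg _)

/-- **coordinate-wise bound** (for `x` in a set `T` whose indicator is a.e. measurable) -/
theorem comp_aniso {Ω : Set E} (hΩ : IsOpen Ω) {f D : E → EuclideanSpace ℝ ι} {e : E}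
    (h : VWD Ω μ f D e) (hf : ContinuousOn f Ω) {S : Set (EuclideanSpace ℝ ι)}
    (hS : MapsTo f Ω S) {θ : EuclideanSpace ℝ ι → ℝ} (hθ : ContinuousOn θ S) {d : E → ℝ}
    (h' : WD Ω μ (fun x => θ (f x)) d e) {T : Set E} (hT : NullMeasurableSet T (μ.restrict Ω))
    {b A : E → ι → ℝ} (hb : ∀ i, AEMeasurable (fun x => b x i) (μ.restrict Ω))
    (hA : ∀ i, AEMeasurable (fun x => A x i) (μ.restrict Ω))
    (hL : ∀ x ∈ Ω, x ∈ T → ∀ᶠ y in 𝓝[S] (f x),
      |θ y - θ (f x) - ∑ i, b x i * (y i - f x i)| ≤ ∑ i, A x i * |y i - f x i|) :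
    ∀ᵐ x ∂μ, x ∈ Ω → x ∈ T → |d x - ∑ i, b x i * D x i| ≤ ∑ i, A x i * |D x i| := by
  have hDi : ∀ i, AEMeasurable (fun x => D x i) (μ.restrict Ω) := fun i =>
    (aemeas_of_loc (h i).lg).aemeasurable
  have hd : AEMeasurable d (μ.restrict Ω) := (aemeas_of_loc h'.lg).aemeasurable
  have m1 : AEMeasurable (fun x => |d x - ∑ i, b x i * D x i|) (μ.restrict Ω) := by
    have h1 : AEMeasurable (fun x => ∑ i, b x i * D x i) (μ.restrict Ω) :=
      Finset.aemeasurable_fun_sum _ fun i _ => (hb i).mul (hDi i)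
    exact (measurable_norm.comp_aemeasurable (hd.sub h1))
  have m2 : AEMeasurable (fun x => ∑ i, A x i * |D x i|) (μ.restrict Ω) :=
    Finset.aemeasurable_fun_sum _ fun i _ => (hA i).mul (measurable_norm.comp_aemeasurable (hDi i))
  -- use the indicator of `T`
  obtain ⟨T', hT'1, hT'2, hT'3⟩ : ∃ T', MeasurableSet T' ∧ T' =ᵐ[μ.restrict Ω] T ∧ True := by
    obtain ⟨T', a, b⟩ := hT.exists_measurable_superset_ae_eq
    exact ⟨T', b.1, b.2, trivial⟩
  have hTT : ∀ᵐ x ∂μ, x ∈ Ω → (x ∈ T' ↔ x ∈ T) := by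
    have h1 : ∀ᵐ x ∂(μ.restrict Ω), (x ∈ T' ↔ x ∈ T) := by
      filter_upwards [hT'2.mem_iff] with x hx using hx
    exact (ae_restrict_iff' hΩ.measurableSet).1 h1
  have key := ae_le_of_line hΩ (e := e) (μ := μ)
    (a := fun x => T'.indicator (fun _ => (1:ℝ)) x * |d x - ∑ i, b x i * D x i|)
    (b := fun x => T'.indicator (fun _ => (1:ℝ)) x * ∑ i, A x i * |D x i|)
    ((measurable_const.indicator hT'1).aemeasurable.mul m1)
    ((measurable_const.indicator hT'1).aemeasurable.mul m2) (by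
      have hθf : ContinuousOn (fun x => θ (f x)) Ω := hθ.comp hf hS
      filter_upwards [vline_deriv hΩ h hf, (line_deriv hΩ h' hθf).1, ae_line_of_ae hTT e]
        with x hx hx' hx''
      filter_upwards [hx, hx', hx''] with τ h1 h2 h3 hxτ
      by_cases hxT : x + τ • e ∈ T'
      · rw [indicator_of_mem hxT, one_mul, one_mul]
        refine deriv_aniso (h1 hxτ) (h2 hxτ) (S := S) ?_ (hL _ hxτ ((h3 hxτ).1 hxT))
        have hc : Continuous (fun s : ℝ => x + s • e) := by fun_prop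
        have h4 : (fun s : ℝ => x + s • e) ⁻¹' Ω ∈ 𝓝 τ := (hΩ.preimage hc).mem_nhds hxτ
        filter_upwards [h4] with s hs using hS hs
      · rw [indicator_of_notMem hxT, zero_mul, zero_mul])
  filter_upwards [key, hTT] with x hx hx2 hxΩ hxT
  have h3 := hx hxΩ
  rw [indicator_of_mem ((hx2 hxΩ).2 hxT), one_mul, one_mul] at h3
  exact h3

/-- isolated points are countable: at a.e. point of `{u = c}` the derivative vanishes. -/
theorem wd_zero_on_level {Ω : Set E} (hΩ : IsOpen Ω) {u g : E → ℝ} {e : E}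
    (h : WD Ω μ u g e) (hu : ContinuousOn u Ω) (c : ℝ) :
    ∀ᵐ x ∂μ, x ∈ Ω → u x = c → g x = 0 := by
  have hg : AEMeasurable g (μ.restrict Ω) := (aemeas_of_loc h.lg).aemeasurable
  have hum : AEMeasurable u (μ.restrict Ω) :=
    (hu.aestronglyMeasurable hΩ.measurableSet).aemeasurable
  have hI : AEMeasurable (fun x => ({c} : Set ℝ).indicator (fun _ => (1:ℝ)) (u x))
      (μ.restrict Ω) := (measurable_const.indicator (measurableSet_singleton c)).comp_aemeasurable
        hum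
  have key := ae_eq_of_line hΩ (e := e) (μ := μ)
    (a := fun x => ({c} : Set ℝ).indicator (fun _ => (1:ℝ)) (u x) * g x) (b := fun _ => 0)
    (hI.mul hg) aemeasurable_const (by
      filter_upwards [(line_deriv hΩ h hu).1] with x hx
      -- the set of isolated points of the level set on the line is countable
      set Z : Set ℝ := {τ | x + τ • e ∈ Ω ∧ u (x + τ • e) = c} with hZ
      have hcount : {τ ∈ Z | 𝓝[Z \ {τ}] τ = ⊥}.Countable := by
        apply (countable_setOfPred_isolated_right_within (s := Z)).mono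
        rintro τ ⟨h1, h2⟩
        refine ⟨h1, le_bot_iff.1 (h2 ▸ nhdsWithin_mono _ ?_)⟩
        rintro s ⟨hs1, hs2⟩
        exact ⟨hs1, (ne_of_gt hs2 : s ≠ τ)⟩
      have hnull : ∀ᵐ τ : ℝ, τ ∉ {τ ∈ Z | 𝓝[Z \ {τ}] τ = ⊥} := hcount.ae_notMem _
      filter_upwards [hx, hnull] with τ h1 h2 hxτ
      by_cases hc : u (x + τ • e) = c
      · have h3 : (𝓝[Z \ {τ}] τ).NeBot := by
          rw [neBot_iff]; exact fun hbot => h2 ⟨⟨hxτ, hc⟩, hbot⟩
        have h4 := hasDerivAt_iff_tendsto_slope.1 (h1 hxτ)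
        have h5 : 𝓝[Z \ {τ}] τ ≤ 𝓝[≠] τ := nhdsWithin_mono _ (fun s hs => hs.2)
        have h6 := h4.mono_left h5
        have h7 : Tendsto (slope (fun σ : ℝ => u (x + σ • e)) τ) (𝓝[Z \ {τ}] τ) (𝓝 0) := by
          apply tendsto_const_nhds.congr'
          filter_upwards [self_mem_nhdsWithin] with s hs
          rw [slope_def_field, hs.1.2, hc]; simp
        rw [tendsto_nhds_unique h6 h7]; simp
      · rw [indicator_of_notMem (by simpa using hc)]; simp)
  filter_upwards [key] with x hx hxΩ hc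
  have h3 := hx hxΩ
  rw [indicator_of_mem (by simpa using hc), one_mul] at h3
  exact h3

end Crest.Agent.R96.Push_899
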