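import Mathlib
import Crest.Agent.R96.Push2_899
import Crest.Agent.R96.Push3_899
import Crest.Agent.R96.Push4_899

/-!
# Row 96, U2 PUSH (helper899), part 5: the global push `Psi` on a foam of boxes; pointwise bounds
for the derivatives of `Psi ∘ φ`.
-/

set_option autoImplicit false
set_option linter.unusedSectionVars false
set_option linter.unusedVariables false

open MeasureTheory Set Filter Topology
open scoped NNReal

noncomputable section

namespace Crest.Agent.R96.Push_899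

variable {ι : Type*} [Fintype ι] [Nonempty ι] [DecidableEq ι]

/-- Euclidean space -/
abbrev EE (ι : Type*) : Type _ := EuclideanSpace ℝ ι

/-- coordinates -/
def co (y : EE ι) : ι → ℝ := WithLp.ofLp y

@[simp] theorem co_apply (y : EE ι) (i : ι) : co y i = y i := rfl

theorem continuous_co : Continuous (co : EE ι → ι → ℝ) := PiLp.continuous_ofLp 2 _

theorem continuous_coord (i : ι) : Continuous (fun y : EE ι => y i) :=
  (EuclideanSpace.proj i).continuous

/-- closed / open box in Euclidean space -/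
def SE (Q : Box ι) : Set (EE ι) := {y | co y ∈ Q.S}
def IE (Q : Box ι) : Set (EE ι) := {y | co y ∈ Q.I}

theorem isClosed_SE (Q : Box ι) : IsClosed (SE Q) := by
  have h1 : SE Q = ⋂ i, {y : EE ι | Q.lo i ≤ y i ∧ y i ≤ Q.hi i} := by
    ext y; simp [SE, Box.S]
  rw [h1]
  exact isClosed_iInter fun i => (isClosed_le continuous_const (continuous_coord i)).inter
    (isClosed_le (continuous_coord i) continuous_const)

theorem isOpen_IE (Q : Box ι) : IsOpen (IE Q) := by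
  have h1 : IE Q = ⋂ i, {y : EE ι | Q.lo i < y i ∧ y i < Q.hi i} := by
    ext y; simp [IE, Box.I]
  rw [h1]
  exact isOpen_iInter_of_finite fun i => (isOpen_lt continuous_const (continuous_coord i)).inter
    (isOpen_lt (continuous_coord i) continuous_const)

theorem IE_subset_SE (Q : Box ι) : IE Q ⊆ SE Q := fun y h i => ⟨(h i).1.le, (h i).2.le⟩

theorem continuous_tt (Q C : Box ι) : Continuous (tt Q C) := by
  unfold tt gg
  apply Continuous.finset_sup'_apply
  intro i _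
  fun_prop

/-- a foam of boxes with cores and holes -/
structure FoamC (Λ : Set (EE ι)) {I : Type*} (Q C B : I → Box ι) (P : Finset ι) (c₀ : ℝ)
    (κ ρ : I → ℝ) : Prop where
  cells : Cells Λ (fun c => SE (Q c))
  disj : ∀ c c', c ≠ c' → ∀ y : ι → ℝ, y ∈ (Q c).S → y ∉ (Q c').I
  shape : ∀ c, Shape P c₀ (κ c) (ρ c) (Q c) (C c)
  inner : ∀ c, Inner (C c) (B c)

/-- the punctured target -/
def Pun (Λ : Set (EE ι)) {I : Type*} (B : I → Box ι) : Set (EE ι) := Λ \ ⋃ c, SE (B c)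

/-- the union of the boundaries of the bricks -/
def Wall {I : Type*} (Q : I → Box ι) : Set (EE ι) := ⋃ c, (SE (Q c) \ IE (Q c))

/-- **the global push** -/
def Psi {I : Type*} (Q C B : I → Box ι) (y : EE ι) : EE ι :=
  WithLp.toLp 2 (glue (fun c => SE (Q c)) (fun c y => psi (Q c) (C c) (B c) (co y)) co y)

/-- finer cells: outside the core / the core -/
def KK {I : Type*} (Q C : I → Box ι) (p : I × Bool) : Set (EE ι) :=
  if p.2 then SE (C p.1) else SE (Q p.1) \ IE (C p.1)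

variable {Λ : Set (EE ι)} {I : Type*} {Q C B : I → Box ι} {P : Finset ι} {c₀ : ℝ} {κ ρ : I → ℝ}

namespace FoamC

variable (h : FoamC Λ Q C B P c₀ κ ρ)
include h

theorem core_sub (c : I) : SE (C c) ⊆ IE (Q c) := fun y hy i =>
  ⟨lt_of_lt_of_le ((h.shape c).nest.lo i) (hy i).1, lt_of_le_of_lt (hy i).2 ((h.shape c).nest.hi i)⟩

theorem hole_sub (c : I) : SE (B c) ⊆ IE (C c) := fun y hy i =>
  ⟨lt_of_lt_of_le ((h.inner c).nest.lo i) (hy i).1, lt_of_le_of_lt (hy i).2 ((h.inner c).nest.hi i)⟩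

theorem core_unique {c c' : I} {y : EE ι} (hy : y ∈ SE (C c)) (hy' : y ∈ SE (Q c')) : c' = c := by
  by_contra hne
  exact h.disj c' c hne (co y) hy' (h.core_sub c hy)

theorem isOpen_pun (hΛ : IsOpen Λ) : IsOpen (Pun Λ B) :=
  h.cells.isOpen_diff hΛ (fun c => isClosed_SE _)
    (fun c => (h.hole_sub c).trans ((IE_subset_SE _).trans ((h.core_sub c).trans (IE_subset_SE _))))

theorem fine : Cells Λ (KK Q C) := by
  refine ⟨?_, ?_, ?_, ?_⟩
  · rintro ⟨c, b⟩
    cases b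
    · exact (isClosed_SE _).sdiff (isOpen_IE _)
    · exact isClosed_SE _
  · rintro ⟨c, b⟩
    cases b
    · exact sdiff_subset.trans (h.cells.sub c)
    · exact ((h.core_sub c).trans (IE_subset_SE _)).trans (h.cells.sub c)
  · intro y hy
    obtain ⟨c, hc⟩ := h.cells.cover y hy
    by_cases h1 : y ∈ IE (C c)
    · exact ⟨(c, true), IE_subset_SE _ h1⟩
    · exact ⟨(c, false), ⟨hc, h1⟩⟩
  · intro y hy
    obtain ⟨U, hU, hfin⟩ := h.cells.locfin y hy
    refine ⟨U, hU, ((hfin.prod (Set.finite_univ (α := Bool))).subset ?_)⟩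
    rintro ⟨c, b⟩ hne
    refine ⟨?_, mem_univ _⟩
    obtain ⟨z, hz1, hz2⟩ := hne
    refine ⟨z, ?_, hz2⟩
    cases b
    · exact hz1.1
    · exact IE_subset_SE _ (h.core_sub c hz1)

theorem Psi_eq {c : I} {y : EE ι} (hy : y ∈ SE (Q c)) :
    co (Psi Q C B y) = psi (Q c) (C c) (B c) (co y) := by
  unfold Psi
  have h1 : glue (fun c => SE (Q c)) (fun c y => psi (Q c) (C c) (B c) (co y)) co y =
      psi (Q c) (C c) (B c) (co y) := by
    apply glue_eq (K := fun c => SE (Q c)) hy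
    intro c' hc'
    by_cases hcc : c' = c
    · rw [hcc]
    · have a1 : co y ∉ (Q c).I := h.disj c' c hcc (co y) hc'
      have a2 : co y ∉ (Q c').I := h.disj c c' (Ne.symm hcc) (co y) hy
      rw [psi_eq_self (h.shape c') (h.inner c') hc' a2, psi_eq_self (h.shape c) (h.inner c) hy a1]
  rw [h1]
  rfl

theorem Psi_apply {c : I} {y : EE ι} (hy : y ∈ SE (Q c)) (i : ι) :
    Psi Q C B y i = psi (Q c) (C c) (B c) (co y) i := by
  rw [← h.Psi_eq hy]; rfl

theorem tt_pos {y : EE ι} (hy : y ∈ Pun Λ B) (c : I) : 0 < tt (C c) (B c) (co y) := by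
  by_contra hneg
  have h1 := (tt_le_zero_iff (h.inner c).nest (co y)).1 (not_lt.1 hneg)
  exact hy.2 (mem_iUnion.2 ⟨c, h1⟩)

theorem off {y : EE ι} (hy : y ∈ Pun Λ B) (c : I) : Off (C c) (B c) (co y) :=
  ⟨(h.tt_pos hy c).le, Or.inl (h.tt_pos hy c)⟩

/-- `Psi` maps the punctured target into the walls -/
theorem Psi_wall {y : EE ι} (hy : y ∈ Pun Λ B) : Psi Q C B y ∈ Wall Q := by
  obtain ⟨c, hc⟩ := h.cells.cover y hy.1
  have h1 := psi_bd (h.shape c) (h.inner c) hc (h.off hy c)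
  rw [← h.Psi_eq hc] at h1
  exact mem_iUnion.2 ⟨c, h1⟩

theorem Psi_mem_brick {y : EE ι} (hy : y ∈ Pun Λ B) {c : I} (hc : y ∈ SE (Q c)) :
    Psi Q C B y ∈ SE (Q c) \ IE (Q c) := by
  have h1 := psi_bd (h.shape c) (h.inner c) hc (h.off hy c)
  rw [← h.Psi_eq hc] at h1
  exact h1

/-- identity on the walls -/
theorem Psi_id {y : EE ι} {c : I} (hc : y ∈ SE (Q c) \ IE (Q c)) : Psi Q C B y = y := by
  have h1 := h.Psi_eq hc.1
  rw [psi_eq_self (h.shape c) (h.inner c) hc.1 hc.2] at h1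
  ext i
  exact congrFun h1 i

end FoamC

/-- a finite bound from coordinates -/
theorem norm_le_sum (v : EE ι) : ‖v‖ ≤ ∑ i, |v i| := by
  rw [EuclideanSpace.norm_eq]
  have h2 : ∑ i, ‖v i‖ ^ 2 ≤ (∑ i, |v i|) ^ 2 := by
    simp only [Real.norm_eq_abs]
    exact Finset.sum_sq_le_sq_sum_of_nonneg fun i _ => abs_nonneg _
  calc √(∑ i, ‖v i‖ ^ 2) ≤ √((∑ i, |v i|) ^ 2) := Real.sqrt_le_sqrt h2
    _ = ∑ i, |v i| := Real.sqrt_sq (Finset.sum_nonneg fun i _ => abs_nonneg _)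

theorem abs_le_norm (v : EE ι) (i : ι) : |v i| ≤ ‖v‖ := by
  simpa using PiLp.norm_apply_le (p := 2) v i

/-- bound by `mm`: `max_i C.W i / w_i(t)` -/
def mm (C B : Box ι) (y : ι → ℝ) : ℝ :=
  Finset.univ.sup' Finset.univ_nonempty (fun i => C.W i / ww C B i (tt C B y))

theorem le_mm (C B : Box ι) (y : ι → ℝ) (i : ι) : C.W i / ww C B i (tt C B y) ≤ mm C B y :=
  Finset.le_sup' (fun i => C.W i / ww C B i (tt C B y)) (Finset.mem_univ i)

theorem mm_pos {C B : Box ι} (h : Inner C B) {y : ι → ℝ} (ht : 0 < tt C B y) : 0 < mm C B y := by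
  obtain ⟨i⟩ := ‹Nonempty ι›
  exact lt_of_lt_of_le (div_pos (h.W0 i) (ww_pos h.nest i ht.le (Or.inl ht))) (le_mm C B y i)

theorem mm_le {C B : Box ι} (h : Inner C B) {y : ι → ℝ} (ht : 0 < tt C B y)
    (ht1 : tt C B y ≤ 1) : mm C B y ≤ 1 / tt C B y := by
  unfold mm
  rw [Finset.sup'_le_iff]
  intro i _
  have hw := ww_pos h.nest i ht.le (Or.inl ht)
  rw [div_le_div_iff₀ hw ht, one_mul]
  linarith [h.W_le_ww i ht.le ht1]

theorem continuousOn_mm {C B : Box ι} (h : Inner C B) :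
    ContinuousOn (mm C B) {y | 0 < tt C B y} := by
  unfold mm
  apply ContinuousOn.finset_sup'_apply
  intro i _
  apply ContinuousOn.div continuousOn_const
  · unfold ww ch cl
    have := continuous_tt C B
    fun_prop
  · intro y hy
    exact (ww_pos h.nest i (le_of_lt hy) (Or.inl hy)).ne'

theorem one_le_mm {C B : Box ι} (h : Inner C B) {y : ι → ℝ} (ht : 0 < tt C B y)
    (ht1 : tt C B y ≤ 1) : 1 ≤ mm C B y := by
  obtain ⟨i⟩ := ‹Nonempty ι›
  refine le_trans ?_ (le_mm C B y i)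
  have hw := ww_pos h.nest i ht.le (Or.inl ht)
  rw [le_div_iff₀ hw, one_mul, ww_eq]
  have h1 : B.W i ≤ C.W i := by
    have := h.nest.g1 i; have := h.nest.g2 i; unfold Box.W; linarith
  nlinarith

namespace FoamC

variable (h : FoamC Λ Q C B P c₀ κ ρ)
include h

theorem c0 (c : I) : 0 < c₀ := (h.shape c).c0

/-- local bound in a core -/
theorem core_local (c : I) {y : EE ι} (hy : y ∈ SE (C c)) (hyP : y ∈ Pun Λ B) :
    ∃ V ∈ 𝓝 y, ∀ y₁ ∈ V, ∀ i, (C c).W i ≤ (2 * mm (C c) (B c) (co y)) *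
      ww (C c) (B c) i (tt (C c) (B c) (co y₁)) := by
  have h1 := h.tt_pos hyP c
  have h2 := mm_pos (h.inner c) h1
  have h3 : ContinuousAt (mm (C c) (B c)) (co y) :=
    (continuousOn_mm (h.inner c)).continuousAt
      ((isOpen_lt continuous_const (continuous_tt (C c) (B c))).mem_nhds h1)
  have h4 : ∀ᶠ z in 𝓝 (co y), mm (C c) (B c) z < 2 * mm (C c) (B c) (co y) :=
    h3.eventually_lt_const (by linarith)
  have h5 : ∀ᶠ z in 𝓝 (co y), 0 < tt (C c) (B c) z :=
    (isOpen_lt continuous_const (continuous_tt (C c) (B c))).mem_nhds h1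
  refine ⟨{y₁ | mm (C c) (B c) (co y₁) < 2 * mm (C c) (B c) (co y) ∧
    0 < tt (C c) (B c) (co y₁)}, continuous_co.continuousAt.eventually (h4.and h5), ?_⟩
  rintro y₁ ⟨a1, a2⟩ i
  have hw := ww_pos (h.inner c).nest i a2.le (Or.inl a2)
  have h6 := (le_mm (C c) (B c) (co y₁) i).trans a1.le
  rwa [div_le_iff₀ hw] at h6

theorem exists_aspect (c : I) : ∃ a : ℝ, 0 < a ∧ ∀ i j, (Q c).W i ≤ a * (C c).W j := by
  have h0 : ∀ i j, 0 ≤ (Q c).W i / (C c).W j := fun i j =>
    div_nonneg ((h.shape c).W0 i).le ((h.inner c).W0 j).le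
  refine ⟨∑ i, ∑ j, (Q c).W i / (C c).W j + 1, ?_, ?_⟩
  · have : 0 ≤ ∑ i, ∑ j, (Q c).W i / (C c).W j := Finset.sum_nonneg fun i _ =>
      Finset.sum_nonneg fun j _ => h0 i j
    linarith
  · intro i j
    have h1 : (Q c).W i / (C c).W j ≤ ∑ i, ∑ j, (Q c).W i / (C c).W j + 1 := by
      have a1 : (Q c).W i / (C c).W j ≤ ∑ j, (Q c).W i / (C c).W j :=
        Finset.single_le_sum (f := fun j => (Q c).W i / (C c).W j) (fun j _ => h0 i j)
          (Finset.mem_univ j)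
      have a2 : ∑ j, (Q c).W i / (C c).W j ≤ ∑ i, ∑ j, (Q c).W i / (C c).W j :=
        Finset.single_le_sum (f := fun i => ∑ j, (Q c).W i / (C c).W j)
          (fun i _ => Finset.sum_nonneg fun j _ => h0 i j) (Finset.mem_univ i)
      linarith
    rwa [div_le_iff₀ ((h.inner c).W0 j)] at h1

/-- **`Psi` is locally Lipschitz on the punctured target.** -/
theorem locLip (hΛ : IsOpen Λ) : LocallyLipschitzOn (Pun Λ B) (Psi Q C B) := by
  apply h.fine.locLip (h.isOpen_pun hΛ) sdiff_subset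
  rintro ⟨c, b⟩ y ⟨hy1, hy2⟩
  -- reduce to coordinates
  have red : ∀ (K : ℝ) (y₁ y₂ : EE ι), y₁ ∈ SE (Q c) → y₂ ∈ SE (Q c) → 0 ≤ K →
      (∀ i, |psi (Q c) (C c) (B c) (co y₂) i - psi (Q c) (C c) (B c) (co y₁) i| ≤
        K * ∑ j, |co y₂ j - co y₁ j|) →
      ‖Psi Q C B y₂ - Psi Q C B y₁‖ ≤ (Fintype.card ι * (K * Fintype.card ι)) * ‖y₂ - y₁‖ := by
    intro K y₁ y₂ h1 h2 hK h3
    refine (norm_le_sum _).trans ?_
    have h4 : ∑ j, |co y₂ j - co y₁ j| ≤ Fintype.card ι * ‖y₂ - y₁‖ := by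
      refine (Finset.sum_le_sum (g := fun _ => ‖y₂ - y₁‖) fun j _ => ?_).trans ?_
      · exact abs_le_norm (y₂ - y₁) j
      · rw [Finset.sum_const, Finset.card_univ, nsmul_eq_mul]
    have h5 : ∀ i, |(Psi Q C B y₂ - Psi Q C B y₁) i| ≤ K * (Fintype.card ι * ‖y₂ - y₁‖) := by
      intro i
      have e1 : (Psi Q C B y₂ - Psi Q C B y₁) i = psi (Q c) (C c) (B c) (co y₂) i -
          psi (Q c) (C c) (B c) (co y₁) i := by
        rw [PiLp.sub_apply, h.Psi_apply h1, h.Psi_apply h2]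
      rw [e1]
      exact (h3 i).trans (mul_le_mul_of_nonneg_left h4 hK)
    refine (Finset.sum_le_sum fun i _ => h5 i).trans ?_
    rw [Finset.sum_const, Finset.card_univ, nsmul_eq_mul]
    exact le_of_eq (by ring)
  have hc0 := h.c0 c
  cases b
  · refine ⟨Fintype.card ι * (2 / c₀ ^ 2 * Fintype.card ι), univ, univ_mem, ?_⟩
    rintro y₁ ⟨-, hy1, -⟩ y₂ ⟨-, hy2, -⟩
    apply red (2 / c₀ ^ 2) y₁ y₂ hy1.1 hy2.1 (by positivity)
    intro i
    exact psi_incr_out (h.shape c) (h.inner c) hy1.2 hy2.2 i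
  · obtain ⟨V, hV, hVb⟩ := h.core_local c hy1 hy2
    obtain ⟨a, ha0, ha⟩ := h.exists_aspect c
    have hm := mm_pos (h.inner c) (h.tt_pos hy2 c)
    refine ⟨Fintype.card ι * (9 * (2 * mm (C c) (B c) (co y)) * a *
      Fintype.card ι), V, hV, ?_⟩
    rintro y₁ ⟨hV1, hy1, hp1⟩ y₂ ⟨hV2, hy2', hp2⟩
    have s1 := IE_subset_SE _ (h.core_sub c hy1)
    have s2 := IE_subset_SE _ (h.core_sub c hy2')
    apply red (9 * (2 * mm (C c) (B c) (co y)) * a) y₁ y₂ s1 s2
      (by positivity)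
    intro i
    refine (psi_incr_in (h.shape c) (h.inner c) hy1 hy2' (h.off hp1 c) (h.off hp2 c)
      (hVb y₂ hV2) (a := fun _ => a) (fun i j => ha i j) i).trans (le_of_eq ?_)
    rw [← Finset.mul_sum]
    ring

theorem continuousOn_Psi (hΛ : IsOpen Λ) : ContinuousOn (Psi Q C B) (Pun Λ B) :=
  (h.locLip hΛ).continuousOn

end FoamC

end Crest.Agent.R96.Push_899
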