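import Mathlib
import Crest.Agent.R96.Push5_899

/-!
# Row 96, U2 PUSH (helper899), part 10: the stretch map `St` (one vertical direction `k`).
-/

set_option autoImplicit false
set_option linter.unusedSectionVars false
set_option linter.unusedVariables false

open MeasureTheory Set Filter Topology
open scoped NNReal

noncomputable section

namespace Crest.Agent.R96.Push_899

/-! ### one dimension -/

/-- clamp -/
def cc (w u : ℝ) : ℝ := max 0 (min 1 ((u - 1 / 2) / (2 * w) + 1 / 2))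

theorem cc_nonneg (w u : ℝ) : 0 ≤ cc w u := le_max_left _ _

theorem cc_le_one (w u : ℝ) : cc w u ≤ 1 := max_le zero_le_one (min_le_left _ _)

theorem cc_mono {w : ℝ} (hw : 0 < w) {u v : ℝ} (h : u ≤ v) : cc w u ≤ cc w v := by
  unfold cc
  have : (u - 1 / 2) / (2 * w) + 1 / 2 ≤ (v - 1 / 2) / (2 * w) + 1 / 2 := by gcongr
  exact max_le_max le_rfl (min_le_min le_rfl this)

theorem cc_sub_le {w : ℝ} (hw : 0 < w) {u v : ℝ} (h : u ≤ v) :
    cc w v - cc w u ≤ (v - u) / (2 * w) := by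
  unfold cc
  set A := (u - 1 / 2) / (2 * w) + 1 / 2 with hA
  set B := (v - 1 / 2) / (2 * w) + 1 / 2 with hB
  have h1 : B - A = (v - u) / (2 * w) := by rw [hA, hB]; ring
  have h2 : 0 ≤ (v - u) / (2 * w) := by
    have := sub_nonneg.2 h; positivity
  rw [← h1] at h2 ⊢
  have h3 : min 1 B ≤ min 1 A + (B - A) := by
    rcases le_total 1 A with h | h
    · rw [min_eq_left h]; exact (min_le_left _ _).trans (by linarith)
    · rw [min_eq_right h]; exact (min_le_right _ _).trans (by linarith)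
  have h4 : max 0 (min 1 B) ≤ max 0 (min 1 A) + (B - A) := by
    apply max_le
    · have := le_max_left 0 (min 1 A); linarith
    · have := le_max_right 0 (min 1 A); linarith
  linarith

theorem cc_eq_zero {w : ℝ} (hw : 0 < w) {u : ℝ} (h : u ≤ 1 / 2 - w) : cc w u = 0 := by
  unfold cc
  apply max_eq_left
  refine (min_le_right _ _).trans ?_
  have : (u - 1 / 2) / (2 * w) ≤ -(1 / 2) := by
    rw [div_le_iff₀ (by positivity)]; linarith
  linarith

theorem cc_eq_one {w : ℝ} (hw : 0 < w) {u : ℝ} (h : 1 / 2 + w ≤ u) : cc w u = 1 := by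
  unfold cc
  have : 1 / 2 ≤ (u - 1 / 2) / (2 * w) := by
    rw [le_div_iff₀ (by positivity)]; linarith
  rw [min_eq_left (by linarith)]
  exact max_eq_right zero_le_one

/-- the devil's staircase of the slabs -/
def GG (w x : ℝ) : ℝ := ⌊x⌋ + cc w (Int.fract x)

theorem GG_int {w : ℝ} (hw : 0 < w) (hw1 : w ≤ 1 / 2) (n : ℤ) : GG w n = n := by
  unfold GG
  rw [Int.floor_intCast, Int.fract_intCast, cc_eq_zero hw (by linarith), add_zero]

theorem GG_bounds (w x : ℝ) : (⌊x⌋ : ℝ) ≤ GG w x ∧ GG w x ≤ ⌊x⌋ + 1 := by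
  unfold GG
  have := cc_nonneg w (Int.fract x)
  have := cc_le_one w (Int.fract x)
  constructor <;> linarith

theorem abs_GG_sub_le (w x : ℝ) : |GG w x - x| ≤ 1 := by
  obtain ⟨h1, h2⟩ := GG_bounds w x
  have h3 := Int.floor_le x
  have h4 := Int.lt_floor_add_one x
  rw [abs_le]; constructor <;> linarith

/-- monotone and Lipschitz -/
theorem GG_sub {w : ℝ} (hw : 0 < w) (hw1 : w ≤ 1 / 2) {x y : ℝ} (h : x ≤ y) :
    0 ≤ GG w y - GG w x ∧ GG w y - GG w x ≤ (y - x) / (2 * w) := by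
  have hxf : Int.fract x = x - ⌊x⌋ := rfl
  have hyf : Int.fract y = y - ⌊y⌋ := rfl
  rcases eq_or_lt_of_le (Int.floor_mono h) with he | hlt
  · have h1 : Int.fract x ≤ Int.fract y := by rw [hxf, hyf, he]; linarith
    unfold GG
    rw [he]
    have h2 := cc_mono hw h1
    have h3 := cc_sub_le hw h1
    rw [hxf, hyf, he] at h3
    constructor
    · linarith
    · rw [hyf, hxf, he]
      calc _ = cc w (y - ⌊y⌋) - cc w (x - ⌊y⌋) := by ring
        _ ≤ _ := h3
        _ = _ := by ring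
  · have h5 : (⌊x⌋ : ℝ) + 1 ≤ ⌊y⌋ := by exact_mod_cast hlt
    have h6 : GG w y - GG w x = (cc w (Int.fract y) - cc w 0) + (⌊y⌋ - (⌊x⌋ + 1)) +
        (cc w 1 - cc w (Int.fract x)) := by
      rw [cc_eq_zero hw (by linarith : (0:ℝ) ≤ 1 / 2 - w),
        cc_eq_one hw (by linarith : 1 / 2 + w ≤ (1:ℝ))]
      unfold GG; ring
    have h7 := cc_sub_le hw (Int.fract_nonneg y)
    have h8 := cc_sub_le hw (Int.fract_lt_one x).le
    have h9 := cc_mono hw (Int.fract_nonneg y)
    have h10 := cc_mono hw (Int.fract_lt_one x).le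
    have h11 : (⌊y⌋ - (⌊x⌋ + 1) : ℝ) ≤ (⌊y⌋ - (⌊x⌋ + 1)) / (2 * w) := by
      rw [le_div_iff₀ (by positivity)]
      nlinarith
    rw [h6]
    constructor
    · linarith
    · calc _ ≤ (Int.fract y - 0) / (2 * w) + (⌊y⌋ - (⌊x⌋ + 1)) / (2 * w) +
            (1 - Int.fract x) / (2 * w) := by linarith
        _ = _ := by rw [hxf, hyf]; ring

theorem GG_off {w : ℝ} (hw : 0 < w) {x : ℝ} (h : w ≤ |Int.fract x - 1 / 2|) :
    ∃ N : ℤ, GG w x = N ∧ |x - N| ≤ 1 / 2 := by
  have hxf : Int.fract x = x - ⌊x⌋ := rfl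
  have h0 := Int.fract_nonneg x
  have h1 := (Int.fract_lt_one x).le
  unfold GG
  rcases le_abs'.1 h with h2 | h2
  · refine ⟨⌊x⌋, ?_, ?_⟩
    · rw [cc_eq_zero hw (by linarith), add_zero]
    · rw [← hxf, abs_of_nonneg h0]; linarith
  · refine ⟨⌊x⌋ + 1, ?_, ?_⟩
    · rw [cc_eq_one hw (by linarith)]; push_cast; ring
    · push_cast
      rw [abs_le]; constructor <;> linarith

/-- the stretch function -/
def sg (a s w ε t : ℝ) : ℝ := a + s * (ε * ((t - a) / s) + (1 - ε) * GG w ((t - a) / s))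

/-- off the sheets -/
def OffSh (a s w t : ℝ) : Prop := ∀ n : ℤ, w * s < |t - (a + s / 2 + n * s)|

section sg

variable {a s w ε : ℝ} (hs : 0 < s) (hw : 0 < w) (hw1 : w ≤ 1 / 2) (hε : 0 ≤ ε) (hε1 : ε ≤ 1)
include hs hw hw1 hε hε1

theorem abs_sg_sub_le (t : ℝ) : |sg a s w ε t - t| ≤ s := by
  have h1 : sg a s w ε t - t = s * ((1 - ε) * (GG w ((t - a) / s) - (t - a) / s)) := by
    unfold sg; field_simp; ring
  rw [h1, abs_mul, abs_of_pos hs, abs_mul, abs_of_nonneg (by linarith)]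
  have h2 := abs_GG_sub_le w ((t - a) / s)
  have h3 := abs_nonneg (GG w ((t - a) / s) - (t - a) / s)
  nlinarith [mul_nonneg (mul_nonneg hs.le hε) h3, mul_nonneg hs.le (sub_nonneg.2 h2)]

theorem sg_sub {t t' : ℝ} (h : t ≤ t') : ε * (t' - t) ≤ sg a s w ε t' - sg a s w ε t ∧
    sg a s w ε t' - sg a s w ε t ≤ 1 / (2 * w) * (t' - t) := by
  have h0 : (t - a) / s ≤ (t' - a) / s := by gcongr
  obtain ⟨h1, h2⟩ := GG_sub hw hw1 h0
  have e1 : sg a s w ε t' - sg a s w ε t = ε * (t' - t) +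
      s * ((1 - ε) * (GG w ((t' - a) / s) - GG w ((t - a) / s))) := by
    unfold sg; field_simp; ring
  have e2 : s * ((t' - a) / s - (t - a) / s) = t' - t := by field_simp; ring
  rw [e1]
  constructor
  · have : 0 ≤ s * ((1 - ε) * (GG w ((t' - a) / s) - GG w ((t - a) / s))) :=
      mul_nonneg hs.le (mul_nonneg (by linarith) h1)
    linarith
  · have h3 : s * ((1 - ε) * (GG w ((t' - a) / s) - GG w ((t - a) / s))) ≤
        (1 - ε) * ((t' - t) / (2 * w)) := by
      calc _ = (1 - ε) * (s * (GG w ((t' - a) / s) - GG w ((t - a) / s))) := by ring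
        _ ≤ (1 - ε) * (s * (((t' - a) / s - (t - a) / s) / (2 * w))) :=
            mul_le_mul_of_nonneg_left (mul_le_mul_of_nonneg_left h2 hs.le) (by linarith)
        _ = (1 - ε) * ((s * ((t' - a) / s - (t - a) / s)) / (2 * w)) := by ring
        _ = _ := by rw [e2]
    have h4 : t' - t ≤ (t' - t) / (2 * w) := by
      rw [le_div_iff₀ (by positivity)]; nlinarith
    have h5 : ε * (t' - t) ≤ ε * ((t' - t) / (2 * w)) := mul_le_mul_of_nonneg_left h4 hε
    calc _ ≤ ε * ((t' - t) / (2 * w)) + (1 - ε) * ((t' - t) / (2 * w)) := add_le_add h5 h3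
      _ = _ := by ring

theorem abs_sg_sub {t t' : ℝ} : |sg a s w ε t' - sg a s w ε t| ≤ 1 / (2 * w) * |t' - t| := by
  rcases le_total t t' with h | h
  · obtain ⟨h1, h2⟩ := sg_sub (a := a) hs hw hw1 hε hε1 h
    have h3 : 0 ≤ ε * (t' - t) := mul_nonneg hε (by linarith)
    rwa [abs_of_nonneg (by linarith), abs_of_nonneg (by linarith)]
  · obtain ⟨h1, h2⟩ := sg_sub (a := a) hs hw hw1 hε hε1 h
    have h3 : 0 ≤ ε * (t - t') := mul_nonneg hε (by linarith)
    rwa [abs_sub_comm, abs_sub_comm t' t, abs_of_nonneg (by linarith), abs_of_nonneg (by linarith)]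

theorem continuous_sg : Continuous (sg a s w ε) := by
  have : LipschitzWith (Real.toNNReal (1 / (2 * w))) (sg a s w ε) := by
    apply LipschitzWith.of_dist_le_mul
    intro x y
    rw [Real.dist_eq, Real.dist_eq, Real.coe_toNNReal _ (by positivity)]
    exact abs_sg_sub hs hw hw1 hε hε1
  exact this.continuous

theorem fract_off {t : ℝ} (h : OffSh a s w t) : w < |Int.fract ((t - a) / s) - 1 / 2| := by
  have h1 := h ⌊(t - a) / s⌋
  have h2 : t - (a + s / 2 + ⌊(t - a) / s⌋ * s) = s * (Int.fract ((t - a) / s) - 1 / 2) := by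
    have : Int.fract ((t - a) / s) = (t - a) / s - ⌊(t - a) / s⌋ := rfl
    rw [this]; field_simp; ring
  rw [h2, abs_mul, abs_of_pos hs, mul_comm] at h1
  exact lt_of_mul_lt_mul_left h1 hs.le

/-- off the sheets `sg` is close to the lattice -/
theorem sg_off {t : ℝ} (h : OffSh a s w t) : ∃ N : ℤ, |sg a s w ε t - (a + N * s)| ≤ ε * s / 2 := by
  obtain ⟨N, h1, h2⟩ := GG_off hw (fract_off hs hw hw1 hε hε1 h).le
  refine ⟨N, ?_⟩
  have e1 : sg a s w ε t - (a + N * s) = ε * s * ((t - a) / s - N) := by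
    unfold sg; rw [h1]; ring
  rw [e1, abs_mul, abs_of_nonneg (mul_nonneg hε hs.le)]
  have := mul_le_mul_of_nonneg_left h2 (mul_nonneg hε hs.le)
  linarith

/-- off the sheets, `sg` has locally slope `ε` -/
theorem sg_off_slope {t : ℝ} (h : OffSh a s w t) :
    ∀ᶠ t' in 𝓝 t, sg a s w ε t' - sg a s w ε t = ε * (t' - t) := by
  -- the nearest sheets
  have h0 := fract_off hs hw hw1 hε hε1 h
  set x := (t - a) / s with hx
  have hxf : Int.fract x = x - ⌊x⌋ := rfl
  have hf0 := Int.fract_nonneg x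
  have hf1 := Int.fract_lt_one x
  -- an interval around `x` on which `GG` is constant
  have key : ∀ᶠ x' in 𝓝 x, GG w x' = GG w x := by
    rcases lt_abs.1 h0 with h2 | h2
    · -- right part : fract x > 1/2 + w
      have h3 : ∀ᶠ x' in 𝓝 x, (⌊x⌋ : ℝ) + 1 / 2 + w < x' :=
        lt_mem_nhds (by linarith)
      have h4 : ∀ᶠ x' in 𝓝 x, x' < (⌊x⌋ : ℝ) + 1 + 1 / 2 - w := by
        apply gt_mem_nhds
        linarith
      filter_upwards [h3, h4] with x' a1 a2
      have e1 : GG w x = ⌊x⌋ + 1 := by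
        unfold GG; rw [cc_eq_one hw (by linarith)]
      have e0 : (⌊x⌋ : ℝ) = ((⌊x⌋ : ℤ) : ℝ) := rfl
      rcases lt_or_ge x' (⌊x⌋ + 1) with h5 | h5
      · have h6 : ⌊x'⌋ = ⌊x⌋ := by
          rw [Int.floor_eq_iff]; constructor <;> linarith
        unfold GG at e1 ⊢
        rw [e1, h6, cc_eq_one hw]
        change 1 / 2 + w ≤ x' - ⌊x'⌋
        rw [h6]; linarith
      · have h6 : ⌊x'⌋ = ⌊x⌋ + 1 := by
          rw [Int.floor_eq_iff]; push_cast; constructor <;> linarith
        rw [e1]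
        unfold GG
        rw [h6, cc_eq_zero hw]
        · push_cast; ring
        · change x' - ⌊x'⌋ ≤ _
          rw [h6]; push_cast; linarith
    · have h3 : ∀ᶠ x' in 𝓝 x, x' < (⌊x⌋ : ℝ) + 1 / 2 - w :=
        gt_mem_nhds (by linarith)
      have h4 : ∀ᶠ x' in 𝓝 x, (⌊x⌋ : ℝ) - 1 + 1 / 2 + w < x' := by
        apply lt_mem_nhds
        have : w < 1 / 2 := by linarith
        linarith
      filter_upwards [h3, h4] with x' a1 a2
      have e1 : GG w x = ⌊x⌋ := by
        unfold GG; rw [cc_eq_zero hw (by linarith), add_zero]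
      rcases lt_or_ge x' (⌊x⌋) with h5 | h5
      · have h6 : ⌊x'⌋ = ⌊x⌋ - 1 := by
          rw [Int.floor_eq_iff]; push_cast; constructor <;> linarith
        rw [e1]
        unfold GG
        rw [h6, cc_eq_one hw]
        · push_cast; ring
        · change _ ≤ x' - ⌊x'⌋
          rw [h6]; push_cast; linarith
      · have h6 : ⌊x'⌋ = ⌊x⌋ := by
          rw [Int.floor_eq_iff]; constructor <;> linarith
        rw [e1]
        unfold GG
        rw [h6, cc_eq_zero hw, add_zero]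
        change x' - ⌊x'⌋ ≤ _
        rw [h6]; linarith
  have hc : Tendsto (fun t' : ℝ => (t' - a) / s) (𝓝 t) (𝓝 x) := by
    have : Continuous (fun t' : ℝ => (t' - a) / s) := by fun_prop
    exact this.tendsto t
  filter_upwards [hc.eventually key] with t' ht'
  unfold sg
  rw [ht', ← hx]
  rw [hx]
  field_simp
  ring

end sg

/-! ### the stretch map -/

variable {ι : Type*} [Fintype ι] [Nonempty ι] [DecidableEq ι]

/-- **the stretch map** (cut-off `χ`) -/
def St (k : ι) (χ : EE ι → ℝ) (a s w ε : ℝ) (y : EE ι) : EE ι :=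
  WithLp.toLp 2 (Function.update (co y) k (y k + χ y * (sg a s w ε (y k) - y k)))

theorem St_ne {k : ι} {χ : EE ι → ℝ} {a s w ε : ℝ} (y : EE ι) {i : ι} (hi : i ≠ k) :
    St k χ a s w ε y i = y i := by
  change Function.update (co y) k _ i = y i
  rw [Function.update_of_ne hi]; rfl

theorem St_k {k : ι} {χ : EE ι → ℝ} {a s w ε : ℝ} (y : EE ι) :
    St k χ a s w ε y k = y k + χ y * (sg a s w ε (y k) - y k) := by
  change Function.update (co y) k _ k = _
  rw [Function.update_self]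

section St

variable {k : ι} {χ : EE ι → ℝ} {a s w ε L : ℝ} (hs : 0 < s) (hw : 0 < w) (hw1 : w ≤ 1 / 2)
  (hε : 0 ≤ ε) (hε1 : ε ≤ 1) (hχ0 : ∀ y, 0 ≤ χ y) (hχ1 : ∀ y, χ y ≤ 1)
  (hL : ∀ y y', |χ y' - χ y| ≤ L * ‖y' - y‖)
include hs hw hw1 hε hε1 hχ0 hχ1 hL

theorem St_sub_k (y y' : EE ι) :
    |St k χ a s w ε y' k - St k χ a s w ε y k| ≤
      1 / (2 * w) * |y' k - y k| + L * s * ‖y' - y‖ := by
  rw [St_k, St_k]
  have e1 : y' k + χ y' * (sg a s w ε (y' k) - y' k) - (y k + χ y * (sg a s w ε (y k) - y k)) =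
      ((1 - χ y') * (y' k - y k) + χ y' * (sg a s w ε (y' k) - sg a s w ε (y k))) +
      (χ y' - χ y) * (sg a s w ε (y k) - y k) := by ring
  rw [e1]
  refine (abs_add_le _ _).trans (add_le_add ?_ ?_)
  · refine (abs_add_le _ _).trans ?_
    rw [abs_mul, abs_mul, abs_of_nonneg (hχ0 y'), abs_of_nonneg (sub_nonneg.2 (hχ1 y'))]
    have h1 := abs_sg_sub (a := a) (t := y k) (t' := y' k) hs hw hw1 hε hε1
    have h2 : |y' k - y k| ≤ 1 / (2 * w) * |y' k - y k| := by
      have : 1 ≤ 1 / (2 * w) := by rw [le_div_iff₀ (by positivity)]; linarith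
      nlinarith [abs_nonneg (y' k - y k)]
    have h3 := mul_le_mul_of_nonneg_left h1 (hχ0 y')
    have h4 := mul_le_mul_of_nonneg_left h2 (sub_nonneg.2 (hχ1 y'))
    linarith
  · rw [abs_mul]
    have h1 := abs_sg_sub_le (a := a) hs hw hw1 hε hε1 (y k)
    calc _ ≤ (L * ‖y' - y‖) * s := mul_le_mul (hL y y') h1 (abs_nonneg _)
          ((abs_nonneg _).trans (hL y y'))
      _ = _ := by ring

theorem St_sub_k_lower (y y' : EE ι) :
    ε * |y' k - y k| - L * s * ‖y' - y‖ ≤ |St k χ a s w ε y' k - St k χ a s w ε y k| := by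
  rw [St_k, St_k]
  set d := (χ y' - χ y) * (sg a s w ε (y k) - y k) with hd
  set m := (1 - χ y') * (y' k - y k) + χ y' * (sg a s w ε (y' k) - sg a s w ε (y k)) with hm
  have e1 : y' k + χ y' * (sg a s w ε (y' k) - y' k) - (y k + χ y * (sg a s w ε (y k) - y k)) =
      m + d := by rw [hm, hd]; ring
  rw [e1]
  have h1 : |d| ≤ L * s * ‖y' - y‖ := by
    rw [hd, abs_mul]
    have h1 := abs_sg_sub_le (a := a) hs hw hw1 hε hε1 (y k)
    calc _ ≤ (L * ‖y' - y‖) * s := mul_le_mul (hL y y') h1 (abs_nonneg _)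
          ((abs_nonneg _).trans (hL y y'))
      _ = _ := by ring
  have h2 : ε * |y' k - y k| ≤ |m| := by
    have c0 := hχ0 y'
    have c1 := hχ1 y'
    rcases le_total (y k) (y' k) with h | h
    · obtain ⟨b1, b2⟩ := sg_sub (a := a) hs hw hw1 hε hε1 h
      have h3 : ε * (y' k - y k) ≤ m := by
        rw [hm]
        nlinarith [mul_le_mul_of_nonneg_left b1 c0, mul_nonneg (sub_nonneg.2 c1)
          (mul_nonneg (sub_nonneg.2 hε1) (sub_nonneg.2 h))]
      rw [abs_of_nonneg (sub_nonneg.2 h)]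
      exact h3.trans (le_abs_self _)
    · obtain ⟨b1, b2⟩ := sg_sub (a := a) hs hw hw1 hε hε1 h
      have h3 : ε * (y k - y' k) ≤ -m := by
        rw [hm]
        nlinarith [mul_le_mul_of_nonneg_left b1 c0, mul_nonneg (sub_nonneg.2 c1)
          (mul_nonneg (sub_nonneg.2 hε1) (sub_nonneg.2 h))]
      rw [abs_of_nonpos (by linarith)]
      have h4 := neg_le_abs m
      linarith
  have h3 : |m| ≤ |m + d| + |d| := by
    have := abs_sub_abs_le_abs_sub m (-d)
    rw [abs_neg, sub_neg_eq_add] at this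
    linarith
  linarith

theorem St_dist (y : EE ι) : ‖St k χ a s w ε y - y‖ ≤ s := by
  have e1 : St k χ a s w ε y - y = EuclideanSpace.single k (χ y * (sg a s w ε (y k) - y k)) := by
    ext i
    rw [PiLp.sub_apply]
    by_cases hi : i = k
    · subst hi; rw [St_k, EuclideanSpace.single_apply, if_pos rfl]; ring
    · rw [St_ne y hi, EuclideanSpace.single_apply, if_neg hi, sub_self]
  rw [e1, EuclideanSpace.norm_single, Real.norm_eq_abs, abs_mul, abs_of_nonneg (hχ0 y)]
  have h1 := abs_sg_sub_le (a := a) hs hw hw1 hε hε1 (y k)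
  nlinarith [hχ0 y, hχ1 y, abs_nonneg (sg a s w ε (y k) - y k)]

theorem L_nonneg [Nonempty (EE ι)] (hne : ∃ y y' : EE ι, y ≠ y') : 0 ≤ L := by
  obtain ⟨y, y', h⟩ := hne
  by_contra hneg
  have h1 := hL y y'
  have h2 : 0 < ‖y' - y‖ := norm_pos_iff.2 (sub_ne_zero.2 (Ne.symm h))
  have := abs_nonneg (χ y' - χ y)
  nlinarith

theorem St_lip (hL0 : 0 ≤ L) : ∃ K : ℝ≥0, LipschitzWith K (St k χ a s w ε) := by
  refine ⟨Real.toNNReal (Fintype.card ι * (1 / (2 * w) + L * s + 1)), ?_⟩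
  apply LipschitzWith.of_dist_le_mul
  intro y' y
  rw [dist_eq_norm, dist_eq_norm, Real.coe_toNNReal _ (by positivity)]
  refine (norm_le_sum _).trans ?_
  have h1 : ∀ i, |(St k χ a s w ε y' - St k χ a s w ε y) i| ≤
      (1 / (2 * w) + L * s + 1) * ‖y' - y‖ := by
    intro i
    rw [PiLp.sub_apply]
    have h0 : |y' i - y i| ≤ ‖y' - y‖ := abs_le_norm (y' - y) i
    have hn := norm_nonneg (y' - y)
    have hp : 0 ≤ 1 / (2 * w) := by positivity
    have hLs : 0 ≤ L * s := by positivity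
    by_cases hi : i = k
    · subst hi
      refine (St_sub_k hs hw hw1 hε hε1 hχ0 hχ1 hL y y').trans ?_
      nlinarith [mul_le_mul_of_nonneg_left h0 hp]
    · rw [St_ne y hi, St_ne y' hi]
      nlinarith [mul_nonneg hp hn, mul_nonneg hLs hn]
  refine (Finset.sum_le_sum fun i _ => h1 i).trans ?_
  rw [Finset.sum_const, Finset.card_univ, nsmul_eq_mul, mul_assoc]

theorem St_anti (hε0 : 0 < ε) (hL0 : 0 ≤ L) (hLs : L * s ≤ ε / 2) :
    ∃ K : ℝ≥0, AntilipschitzWith K (St k χ a s w ε) := by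
  refine ⟨Real.toNNReal (2 * (Fintype.card ι + 1 / ε)), ?_⟩
  apply AntilipschitzWith.of_le_mul_dist
  intro y' y
  rw [dist_eq_norm, dist_eq_norm, Real.coe_toNNReal _ (by positivity)]
  set Δ := ‖y' - y‖ with hΔ
  set T := ‖St k χ a s w ε y' - St k χ a s w ε y‖ with hT
  have hΔ0 : 0 ≤ Δ := norm_nonneg _
  have hT0 : 0 ≤ T := norm_nonneg _
  have h1 : ∀ i, i ≠ k → |y' i - y i| ≤ T := by
    intro i hi
    have := abs_le_norm (St k χ a s w ε y' - St k χ a s w ε y) i
    rwa [PiLp.sub_apply, St_ne y hi, St_ne y' hi] at this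
  have h2 : |y' k - y k| ≤ 1 / ε * (T + L * s * Δ) := by
    have h3 := St_sub_k_lower (k := k) (a := a) hs hw hw1 hε hε1 hχ0 hχ1 hL y y'
    have h4 := abs_le_norm (St k χ a s w ε y' - St k χ a s w ε y) k
    rw [PiLp.sub_apply] at h4
    rw [one_div, inv_mul_eq_div, le_div_iff₀ hε0]
    linarith
  have h5 : Δ ≤ ∑ i, (T + if i = k then 1 / ε * (T + L * s * Δ) else 0) := by
    refine (norm_le_sum _).trans (Finset.sum_le_sum fun i _ => ?_)
    rw [PiLp.sub_apply]
    split_ifs with hi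
    · rw [hi]; linarith
    · rw [add_zero]; exact h1 i hi
  rw [Finset.sum_add_distrib, Finset.sum_const, Finset.card_univ, nsmul_eq_mul,
    Finset.sum_ite_eq' Finset.univ k, if_pos (Finset.mem_univ k)] at h5
  have h6 : 1 / ε * (T + L * s * Δ) ≤ 1 / ε * T + 1 / 2 * Δ := by
    have h7 : 1 / ε * (L * s * Δ) ≤ 1 / ε * (ε / 2 * Δ) := by gcongr
    have h8 : 1 / ε * (ε / 2 * Δ) = 1 / 2 * Δ := by field_simp
    linarith
  linarith

theorem St_surj (hL0 : 0 ≤ L) : Function.Surjective (St k χ a s w ε) := by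
  intro u
  obtain ⟨K, hK⟩ := St_lip (k := k) (a := a) hs hw hw1 hε hε1 hχ0 hχ1 hL hL0
  set P : ℝ → EE ι := fun t => WithLp.toLp 2 (Function.update (co u) k t) with hP
  have hPc : Continuous P := by
    have h1 : Continuous (fun t : ℝ => Function.update (co u) k t) :=
      continuous_const.update k continuous_id
    exact (PiLp.continuous_toLp 2 _).comp h1
  have hPk : ∀ t, P t k = t := fun t => by
    change Function.update (co u) k t k = t
    rw [Function.update_self]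
  have hPi : ∀ t i, i ≠ k → P t i = u i := fun t i hi => by
    change Function.update (co u) k t i = u i
    rw [Function.update_of_ne hi]; rfl
  set h : ℝ → ℝ := fun t => St k χ a s w ε (P t) k with hh
  have hc : Continuous h := (continuous_coord k).comp (hK.continuous.comp hPc)
  have hb : ∀ t, |h t - t| ≤ s := by
    intro t
    have h1 := abs_le_norm (St k χ a s w ε (P t) - P t) k
    rw [PiLp.sub_apply, hPk] at h1
    exact h1.trans (St_dist hs hw hw1 hε hε1 hχ0 hχ1 hL _)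
  have h1 : h (u k - s) ≤ u k := by have := (abs_le.1 (hb (u k - s))).2; linarith
  have h2 : u k ≤ h (u k + s) := by have := (abs_le.1 (hb (u k + s))).1; linarith
  obtain ⟨t, ht1, ht2⟩ := intermediate_value_Icc (by linarith : u k - s ≤ u k + s)
    hc.continuousOn ⟨h1, h2⟩
  refine ⟨P t, ?_⟩
  ext i
  by_cases hi : i = k
  · subst hi; exact ht2
  · rw [St_ne _ hi, hPi t i hi]

/-- **`St` is a homeomorphism, `= id` where `χ = 0`** -/
theorem St_homeo (hε0 : 0 < ε) (hL0 : 0 ≤ L) (hLs : L * s ≤ ε / 2) :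
    ∃ S : EE ι ≃ₜ EE ι, ⇑S = St k χ a s w ε := by
  obtain ⟨K, hK⟩ := St_lip (k := k) (a := a) hs hw hw1 hε hε1 hχ0 hχ1 hL hL0
  obtain ⟨K', hK'⟩ := St_anti (k := k) (a := a) hs hw hw1 hε hε1 hχ0 hχ1 hL hε0 hL0 hLs
  have hsur := St_surj (k := k) (a := a) hs hw hw1 hε hε1 hχ0 hχ1 hL hL0
  have hemb : IsEmbedding (St k χ a s w ε) := (hK'.isUniformEmbedding hK.uniformContinuous).isEmbedding
  exact ⟨(hemb.toHomeomorphOfSurjective hsur), rfl⟩

end St

theorem St_eq_self {k : ι} {χ : EE ι → ℝ} {a s w ε : ℝ} {y : EE ι} (h : χ y = 0) :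
    St k χ a s w ε y = y := by
  ext i
  by_cases hi : i = k
  · subst hi; rw [St_k, h]; ring
  · rw [St_ne y hi]

/-- `St` preserves `Λ` if `χ = 0` off `Λ`. -/
theorem St_image {k : ι} {χ : EE ι → ℝ} {a s w ε : ℝ} {Λ : Set (EE ι)} (h : ∀ y ∉ Λ, χ y = 0)
    (hbij : Function.Bijective (St k χ a s w ε)) : St k χ a s w ε '' Λ = Λ := by
  have h1 : ∀ y, St k χ a s w ε y ∉ Λ → y ∉ Λ → True := fun _ _ _ => trivial
  ext u
  constructor
  · rintro ⟨y, hy, rfl⟩
    by_contra hn
    have h2 := St_eq_self (k := k) (a := a) (s := s) (w := w) (ε := ε) (h _ hn)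
    have h3 := hbij.1 h2
    rw [h3] at hn
    exact hn hy
  · intro hu
    obtain ⟨y, hy⟩ := hbij.2 u
    refine ⟨y, ?_, hy⟩
    by_contra hn
    rw [St_eq_self (h _ hn)] at hy
    exact hn (hy ▸ hu)

end Crest.Agent.R96.Push_899
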