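import Mathlib
import Crest.Agent.R96.Push5_899

/-!
# Row 96, U2 PUSH (helper899), part 6: pointwise bounds for the weak derivatives of `Psi ∘ φ`
-/

set_option autoImplicit false
set_option linter.unusedSectionVars false
set_option linter.unusedVariables false

open MeasureTheory Set Filter Topology
open scoped NNReal

noncomputable section

namespace Crest.Agent.R96.Push_899

open Crest.Agent.R96.Acl_392 Crest.Agent.R96.Sob1_199 Crest.Agent.R96.Sob2_199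
  Crest.Agent.R96.Sob3_199 Crest.Agent.R96.Sob4_199 Crest.Agent.R96.Sob5_199

variable {E : Type*} [NormedAddCommGroup E] [NormedSpace ℝ E] [FiniteDimensional ℝ E]
  [MeasurableSpace E] [BorelSpace E] {μ : Measure E} [μ.IsAddHaarMeasure]

variable {ι : Type*} [Fintype ι] [Nonempty ι] [DecidableEq ι]

variable {Λ : Set (EE ι)} {I : Type*} [Countable I] {Q C B : I → Box ι} {P : Finset ι} {c₀ : ℝ}
  {κ ρ : I → ℝ}

/-- the good set at level `κ₀` -/
def Gd (Q C : I → Box ι) (P : Finset ι) (κ : I → ℝ) (κ₀ : ℝ) : Set (EE ι) :=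
  {y | ∀ c, y ∉ SE (C c) ∧ (y ∈ SE (Q c) → κ c ≤ κ₀ ∧ ∀ i ∈ P, (C c).lo i < y i ∧
    y i < (C c).hi i)}

theorem measurableSet_Gd (κ₀ : ℝ) : MeasurableSet (Gd Q C P κ κ₀) := by
  have h1 : Gd Q C P κ κ₀ = ⋂ c, ((SE (C c))ᶜ ∩ ((SE (Q c))ᶜ ∪
      ({y | κ c ≤ κ₀} ∩ ⋂ i ∈ P, {y : EE ι | (C c).lo i < y i ∧ y i < (C c).hi i}))) := by
    ext y
    simp only [Gd, mem_ofPred_eq, mem_iInter, mem_inter_iff, mem_compl_iff, mem_union]
    apply forall_congr'
    intro c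
    apply and_congr Iff.rfl
    exact imp_iff_not_or
  rw [h1]
  refine MeasurableSet.iInter fun c => (isClosed_SE _).measurableSet.compl.inter
    ((isClosed_SE _).measurableSet.compl.union (MeasurableSet.inter ?_ ?_))
  · exact MeasurableSet.const _
  · refine Finset.measurableSet_biInter _ fun i _ => ?_
    exact (measurableSet_lt measurable_const (continuous_coord i).measurable).inter
      (measurableSet_lt (continuous_coord i).measurable measurable_const)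

variable (h : FoamC Λ Q C B P c₀ κ ρ)

namespace FoamC

include h

theorem isOpen_dom (hΛ : IsOpen Λ) {Ω : Set E} (hΩ : IsOpen Ω) {φ : E → EE ι}
    (hφ : ContinuousOn φ Ω) : IsOpen (Ω ∩ φ ⁻¹' (Pun Λ B)) :=
  hφ.isOpen_inter_preimage hΩ (h.isOpen_pun hΛ)

/-- existence of the weak derivatives of `Psi ∘ φ` -/
theorem exists_wd (hΛ : IsOpen Λ) {Ω : Set E} (hΩ : IsOpen Ω) {φ D : E → EE ι} {e : E}
    (hφ : ContinuousOn φ Ω) (hD : VWD Ω μ φ D e) :
    ∃ D', VWD (Ω ∩ φ ⁻¹' (Pun Λ B)) μ (fun x => Psi Q C B (φ x)) D' e :=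
  comp_exists (h.isOpen_dom hΛ hΩ hφ) (fun i => wd_mono (hD i) inter_subset_left)
    (hφ.mono inter_subset_left) (S := Pun Λ B) (fun x hx => hx.2) (h.locLip hΛ)

/-- bounds near `y`, outside the cores -/
theorem near_out {y : EE ι} (hy : y ∈ Pun Λ B) (hyC : ∀ c, y ∉ SE (C c)) (i : ι) :
    ∀ᶠ y' in 𝓝[Pun Λ B] y, |Psi Q C B y' i - Psi Q C B y i| ≤
      2 / c₀ ^ 2 * ∑ j, |y' j - y j| := by
  apply h.fine.eventually sdiff_subset hy
  rintro ⟨c, b⟩ hc
  cases b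
  · filter_upwards [self_mem_nhdsWithin] with y' hy'
    have h1 : y ∈ SE (Q c) \ IE (C c) := hc
    have h2 : y' ∈ SE (Q c) \ IE (C c) := hy'.1
    rw [h.Psi_apply h1.1, h.Psi_apply h2.1]
    exact psi_incr_out (h.shape c) (h.inner c) h1.2 h2.2 i
  · exact absurd hc (hyC c)

/-- bounds near `y` in the good set: coordinates in `P` -/
theorem near_good {κ₀ : ℝ} {y : EE ι} (hy : y ∈ Pun Λ B) (hyG : y ∈ Gd Q C P κ κ₀) {i : ι}
    (hi : i ∈ P) : ∀ᶠ y' in 𝓝[Pun Λ B] y,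
      |Psi Q C B y' i - Psi Q C B y i - (y' i - y i)| ≤
        κ₀ * |y' i - y i| + (1 + κ₀) / c₀ * ∑ j ∈ Pᶜ, |y' j - y j| := by
  apply h.fine.eventually sdiff_subset hy
  rintro ⟨c, b⟩ hc
  cases b
  · have h1 : y ∈ SE (Q c) \ IE (C c) := hc
    obtain ⟨hκ, hP⟩ := (hyG c).2 h1.1
    have hev : ∀ᶠ y' in 𝓝 y, ∀ i ∈ P, (C c).lo i < y' i ∧ y' i < (C c).hi i := by
      rw [eventually_all_finset]
      intro i hi
      exact ((isOpen_lt continuous_const (continuous_coord i)).inter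
        (isOpen_lt (continuous_coord i) continuous_const)).mem_nhds (hP i hi)
    filter_upwards [self_mem_nhdsWithin, nhdsWithin_le_nhds hev] with y' hy' hev'
    have h2 : y' ∈ SE (Q c) \ IE (C c) := hy'.1
    rw [h.Psi_apply h1.1, h.Psi_apply h2.1, psi_out (h.inner c).nest h1.2,
      psi_out (h.inner c).nest h2.2]
    have hs := h.shape c
    have t1 : 0 ≤ tt (Q c) (C c) (co y) := not_lt.1 (mt (tt_lt_zero_iff hs.nest _).1 h1.2)
    have t2 : 0 ≤ tt (Q c) (C c) (co y') := not_lt.1 (mt (tt_lt_zero_iff hs.nest _).1 h2.2)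
    have t3 : tt (Q c) (C c) (co y') ≤ 1 := (tt_le_one_iff hs.nest _).2 h2.1
    have key := hs.incrP t1 t2 t3 (fun i hi => ⟨(hP i hi).1.le, (hP i hi).2.le⟩)
      (fun i hi => ⟨(hev' i hi).1.le, (hev' i hi).2.le⟩) hi
    refine key.trans (add_le_add ?_ ?_)
    · exact mul_le_mul_of_nonneg_right hκ (abs_nonneg _)
    · apply mul_le_mul_of_nonneg_right _ (Finset.sum_nonneg fun _ _ => abs_nonneg _)
      exact div_le_div_of_nonneg_right (by linarith) hs.c0.le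
  · exact absurd hc (hyG c).1

/-- bounds near `y` in the good set: coordinates not in `P` -/
theorem near_good' {κ₀ : ℝ} {y : EE ι} (hy : y ∈ Pun Λ B) (hyG : y ∈ Gd Q C P κ κ₀) {i : ι}
    (hi : i ∉ P) : ∀ᶠ y' in 𝓝[Pun Λ B] y,
      |Psi Q C B y' i - Psi Q C B y i| ≤ 2 / c₀ ^ 2 * ∑ j ∈ Pᶜ, |y' j - y j| := by
  apply h.fine.eventually sdiff_subset hy
  rintro ⟨c, b⟩ hc
  cases b
  · have h1 : y ∈ SE (Q c) \ IE (C c) := hc
    obtain ⟨hκ, hP⟩ := (hyG c).2 h1.1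
    have hev : ∀ᶠ y' in 𝓝 y, ∀ i ∈ P, (C c).lo i < y' i ∧ y' i < (C c).hi i := by
      rw [eventually_all_finset]
      intro i hi
      exact ((isOpen_lt continuous_const (continuous_coord i)).inter
        (isOpen_lt (continuous_coord i) continuous_const)).mem_nhds (hP i hi)
    filter_upwards [self_mem_nhdsWithin, nhdsWithin_le_nhds hev] with y' hy' hev'
    have h2 : y' ∈ SE (Q c) \ IE (C c) := hy'.1
    rw [h.Psi_apply h1.1, h.Psi_apply h2.1, psi_out (h.inner c).nest h1.2,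
      psi_out (h.inner c).nest h2.2]
    have hs := h.shape c
    have t1 : 0 ≤ tt (Q c) (C c) (co y) := not_lt.1 (mt (tt_lt_zero_iff hs.nest _).1 h1.2)
    have t2 : 0 ≤ tt (Q c) (C c) (co y') := not_lt.1 (mt (tt_lt_zero_iff hs.nest _).1 h2.2)
    exact hs.incrN t1 t2 (fun i hi => ⟨(hP i hi).1.le, (hP i hi).2.le⟩)
      (fun i hi => ⟨(hev' i hi).1.le, (hev' i hi).2.le⟩) hi
  · exact absurd hc (hyG c).1

/-- bounds near `y` in the interior of a core -/
theorem near_core {c : I} {y : EE ι} (hy : y ∈ Pun Λ B) (hyC : y ∈ IE (C c)) {a : ι → ℝ}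
    (ha : ∀ i j, (Q c).W i ≤ a j * (C c).W j) (i : ι) :
    ∀ᶠ y' in 𝓝[Pun Λ B] y, |Psi Q C B y' i - Psi Q C B y i| ≤
      18 * mm (C c) (B c) (co y) * ∑ j, a j * |y' j - y j| := by
  have hyS := IE_subset_SE _ hyC
  have hQy : y ∈ SE (Q c) := IE_subset_SE _ (h.core_sub c hyS)
  apply h.fine.eventually sdiff_subset hy
  rintro ⟨c', b⟩ hc'
  cases b
  · have hc'' : y ∈ SE (Q c') \ IE (C c') := hc'
    obtain rfl : c' = c := h.core_unique hyS hc''.1
    exact absurd hyC hc''.2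
  · have hc'' : y ∈ SE (C c') := hc'
    obtain rfl : c' = c := h.core_unique hyS (IE_subset_SE _ (h.core_sub c' hc''))
    obtain ⟨V, hV, hVb⟩ := h.core_local c' hyS hy
    filter_upwards [self_mem_nhdsWithin, nhdsWithin_le_nhds hV] with y' hy' hV'
    have h2 : y' ∈ SE (C c') := hy'.1
    rw [h.Psi_apply hQy, h.Psi_apply (IE_subset_SE _ (h.core_sub c' h2))]
    refine (psi_incr_in (h.shape c') (h.inner c') hyS h2 (h.off hy c') (h.off hy'.2 c')
      (hVb y' hV') ha i).trans (le_of_eq ?_)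
    have e1 : 9 * (2 * mm (C c') (B c') (co y)) = 18 * mm (C c') (B c') (co y) := by ring
    rw [e1]; rfl

/-- bounds near `y` on the boundary of a core -/
theorem near_bd {c : I} {y : EE ι} (hy : y ∈ Pun Λ B) (hyC : y ∈ SE (C c)) (hyI : y ∉ IE (C c))
    {a : ι → ℝ} (ha0 : ∀ j, 0 ≤ a j) (ha : ∀ i j, (Q c).W i ≤ a j * (C c).W j) (i : ι) :
    ∀ᶠ y' in 𝓝[Pun Λ B] y, |Psi Q C B y' i - Psi Q C B y i| ≤
      ∑ j, (2 / c₀ ^ 2 + 18 * a j) * |y' j - y j| := by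
  have hQy : y ∈ SE (Q c) := IE_subset_SE _ (h.core_sub c hyC)
  have hc0 := h.c0 c
  have ht1 : tt (C c) (B c) (co y) = 1 := tt_eq_one (h.inner c).nest hyC hyI
  apply h.fine.eventually sdiff_subset hy
  rintro ⟨c', b⟩ hc'
  cases b
  · have hc'' : y ∈ SE (Q c') \ IE (C c') := hc'
    obtain rfl : c' = c := h.core_unique hyC hc''.1
    filter_upwards [self_mem_nhdsWithin] with y' hy'
    have h2 : y' ∈ SE (Q c') \ IE (C c') := hy'.1
    rw [h.Psi_apply hQy, h.Psi_apply h2.1]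
    refine (psi_incr_out (h.shape c') (h.inner c') hc''.2 h2.2 i).trans ?_
    rw [Finset.mul_sum]
    apply Finset.sum_le_sum
    intro j _
    change 2 / c₀ ^ 2 * |y' j - y j| ≤ _
    apply mul_le_mul_of_nonneg_right _ (abs_nonneg _)
    linarith [ha0 j]
  · have hc'' : y ∈ SE (C c') := hc'
    obtain rfl : c' = c := h.core_unique hyC (IE_subset_SE _ (h.core_sub c' hc''))
    obtain ⟨V, hV, hVb⟩ := h.core_local c' hyC hy
    have hmm : mm (C c') (B c') (co y) ≤ 1 := by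
      have := mm_le (h.inner c') (h.tt_pos hy c') ht1.le
      rwa [ht1, div_one] at this
    filter_upwards [self_mem_nhdsWithin, nhdsWithin_le_nhds hV] with y' hy' hV'
    have h2 : y' ∈ SE (C c') := hy'.1
    rw [h.Psi_apply hQy, h.Psi_apply (IE_subset_SE _ (h.core_sub c' h2))]
    refine (psi_incr_in (h.shape c') (h.inner c') hyC h2 (h.off hy c') (h.off hy'.2 c')
      (hVb y' hV') ha i).trans ?_
    rw [Finset.mul_sum]
    apply Finset.sum_le_sum
    intro j _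
    change _ * (a j * |y' j - y j|) ≤ _
    rw [← mul_assoc]
    apply mul_le_mul_of_nonneg_right _ (abs_nonneg _)
    have h3 : 0 ≤ 2 / c₀ ^ 2 := by positivity
    have h4 : 9 * (2 * mm (C c') (B c') (co y)) * a j ≤ 18 * a j := by
      nlinarith [ha0 j, mul_le_mul_of_nonneg_right hmm (ha0 j)]
    linarith

/-- measurability of preimages -/
theorem nm {Ω : Set E} (hΩ : IsOpen Ω) {φ : E → EE ι} (hφ : ContinuousOn φ Ω) {T : Set (EE ι)}
    (hT : MeasurableSet T) : NullMeasurableSet (φ ⁻¹' T) (μ.restrict Ω) :=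
  (hφ.aestronglyMeasurable hΩ.measurableSet).aemeasurable.nullMeasurable hT

variable (hΛ : IsOpen Λ) {Ω : Set E} (hΩ : IsOpen Ω) {φ D D' : E → EE ι} {e : E}
  (hφ : ContinuousOn φ Ω) (hD : VWD Ω μ φ D e)
  (hD' : VWD (Ω ∩ φ ⁻¹' (Pun Λ B)) μ (fun x => Psi Q C B (φ x)) D' e)
include hΛ hΩ hφ hD hD'

/-- **(a)** -/
theorem bound_out : ∀ᵐ x ∂μ, x ∈ Ω ∩ φ ⁻¹' (Pun Λ B) → (∀ c, φ x ∉ SE (C c)) →
    ∀ i, |D' x i| ≤ 2 / c₀ ^ 2 * ∑ j, |D x j| := by
  have hO := h.isOpen_dom hΛ hΩ hφ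
  have hφ' := hφ.mono (inter_subset_left (t := φ ⁻¹' (Pun Λ B)))
  have hT : MeasurableSet {y : EE ι | ∀ c, y ∉ SE (C c)} := by
    have : {y : EE ι | ∀ c, y ∉ SE (C c)} = ⋂ c, (SE (C c))ᶜ := by ext; simp
    rw [this]
    exact MeasurableSet.iInter fun c => (isClosed_SE _).measurableSet.compl
  have key : ∀ i, ∀ᵐ x ∂μ, x ∈ Ω ∩ φ ⁻¹' (Pun Λ B) → x ∈ φ ⁻¹' {y | ∀ c, y ∉ SE (C c)} →
      |D' x i - ∑ j, (fun _ _ => (0:ℝ)) x j * D x j| ≤ ∑ j, (fun _ _ => 2 / c₀ ^ 2) x j * |D x j| := by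
    intro i
    refine comp_aniso hO (fun i => wd_mono (hD i) inter_subset_left) hφ' (S := Pun Λ B)
      (fun x hx => hx.2) (θ := fun y => Psi Q C B y i)
      (continuousOn_comp_apply (h.continuousOn_Psi hΛ) i) (hD' i)
      (nm h hO hφ' hT) (fun _ => aemeasurable_const) (fun _ => aemeasurable_const) ?_
    intro x hx hxT
    filter_upwards [h.near_out hx.2 hxT i] with y' hy'
    simpa [Finset.mul_sum] using hy'
  filter_upwards [ae_all_iff.2 key] with x hx h1 h2 i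
  simpa [Finset.mul_sum] using hx i h1 h2

/-- **(b)** -/
theorem bound_good (κ₀ : ℝ) : ∀ᵐ x ∂μ, x ∈ Ω ∩ φ ⁻¹' (Pun Λ B) → φ x ∈ Gd Q C P κ κ₀ →
    (∀ i ∈ P, |D' x i - D x i| ≤ κ₀ * |D x i| + (1 + κ₀) / c₀ * ∑ j ∈ Pᶜ, |D x j|) ∧
    ∀ i ∉ P, |D' x i| ≤ 2 / c₀ ^ 2 * ∑ j ∈ Pᶜ, |D x j| := by
  have hO := h.isOpen_dom hΛ hΩ hφ
  have hφ' := hφ.mono (inter_subset_left (t := φ ⁻¹' (Pun Λ B)))
  have hsum : ∀ (i : ι) (f : ι → ℝ), ∑ j, (if j = i then (1:ℝ) else 0) * f j = f i := by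
    intro i f; simp
  have hsum2 : ∀ (i : ι), i ∈ P → ∀ (K L : ℝ) (f : ι → ℝ),
      ∑ j, (if j = i then K else if j ∈ P then 0 else L) * f j = K * f i + L * ∑ j ∈ Pᶜ, f j := by
    intro i hi K L f
    have e1 : ∀ j, (if j = i then K else if j ∈ P then 0 else L) * f j =
        (if j = i then K * f j else 0) + (if j ∈ Pᶜ then L * f j else 0) := by
      intro j
      by_cases hj : j = i
      · subst hj; simp [hi]
      · by_cases hj2 : j ∈ P <;> simp [hj, hj2]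
    rw [Finset.sum_congr rfl fun j _ => e1 j, Finset.sum_add_distrib, Finset.sum_ite_mem,
      Finset.univ_inter, Finset.mul_sum]
    simp
  have hsum3 : ∀ (L : ℝ) (f : ι → ℝ),
      ∑ j, (if j ∈ P then 0 else L) * f j = L * ∑ j ∈ Pᶜ, f j := by
    intro L f
    have e1 : ∀ j, (if j ∈ P then 0 else L) * f j = (if j ∈ Pᶜ then L * f j else 0) := by
      intro j
      by_cases hj2 : j ∈ P <;> simp [hj2]
    rw [Finset.sum_congr rfl fun j _ => e1 j, Finset.sum_ite_mem, Finset.univ_inter,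
      Finset.mul_sum]
  have key1 : ∀ i ∈ P, ∀ᵐ x ∂μ, x ∈ Ω ∩ φ ⁻¹' (Pun Λ B) → x ∈ φ ⁻¹' Gd Q C P κ κ₀ →
      |D' x i - ∑ j, (fun _ j => if j = i then (1:ℝ) else 0) x j * D x j| ≤
      ∑ j, (fun _ j => if j = i then κ₀ else if j ∈ P then 0 else (1 + κ₀) / c₀) x j * |D x j| := by
    intro i hi
    refine comp_aniso hO (fun i => wd_mono (hD i) inter_subset_left) hφ' (S := Pun Λ B)
      (fun x hx => hx.2) (θ := fun y => Psi Q C B y i)
      (continuousOn_comp_apply (h.continuousOn_Psi hΛ) i) (hD' i)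
      (nm h hO hφ' (measurableSet_Gd κ₀)) (fun _ => aemeasurable_const)
      (fun _ => aemeasurable_const) ?_
    intro x hx hxT
    filter_upwards [h.near_good hx.2 hxT hi] with y' hy'
    rw [hsum, hsum2 i hi]
    exact hy'
  have key2 : ∀ i ∉ P, ∀ᵐ x ∂μ, x ∈ Ω ∩ φ ⁻¹' (Pun Λ B) → x ∈ φ ⁻¹' Gd Q C P κ κ₀ →
      |D' x i - ∑ j, (fun _ _ => (0:ℝ)) x j * D x j| ≤
      ∑ j, (fun _ j => if j ∈ P then 0 else 2 / c₀ ^ 2) x j * |D x j| := by
    intro i hi
    refine comp_aniso hO (fun i => wd_mono (hD i) inter_subset_left) hφ' (S := Pun Λ B)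
      (fun x hx => hx.2) (θ := fun y => Psi Q C B y i)
      (continuousOn_comp_apply (h.continuousOn_Psi hΛ) i) (hD' i)
      (nm h hO hφ' (measurableSet_Gd κ₀)) (fun _ => aemeasurable_const)
      (fun _ => aemeasurable_const) ?_
    intro x hx hxT
    filter_upwards [h.near_good' hx.2 hxT hi] with y' hy'
    rw [hsum3]
    simpa using hy'
  have k1 : ∀ i, ∀ᵐ x ∂μ, i ∈ P → x ∈ Ω ∩ φ ⁻¹' (Pun Λ B) → φ x ∈ Gd Q C P κ κ₀ →
      |D' x i - D x i| ≤ κ₀ * |D x i| + (1 + κ₀) / c₀ * ∑ j ∈ Pᶜ, |D x j| := by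
    intro i
    by_cases hi : i ∈ P
    · filter_upwards [key1 i hi] with x hx _ h1 h2
      have h3 := hx h1 h2
      rw [hsum, hsum2 i hi] at h3
      exact h3
    · exact Eventually.of_forall fun x hi' => absurd hi' hi
  have k2 : ∀ i, ∀ᵐ x ∂μ, i ∉ P → x ∈ Ω ∩ φ ⁻¹' (Pun Λ B) → φ x ∈ Gd Q C P κ κ₀ →
      |D' x i| ≤ 2 / c₀ ^ 2 * ∑ j ∈ Pᶜ, |D x j| := by
    intro i
    by_cases hi : i ∈ P
    · exact Eventually.of_forall fun x hi' => absurd hi hi'
    · filter_upwards [key2 i hi] with x hx _ h1 h2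
      have h3 := hx h1 h2
      rw [hsum3] at h3
      simpa using h3
  filter_upwards [ae_all_iff.2 k1, ae_all_iff.2 k2] with x hx1 hx2 h1 h2
  exact ⟨fun i hi => hx1 i hi h1 h2, fun i hi => hx2 i hi h1 h2⟩

/-- **(c)** -/
theorem bound_core (a : I → ι → ℝ) (ha : ∀ c i j, (Q c).W i ≤ a c j * (C c).W j) :
    ∀ᵐ x ∂μ, x ∈ Ω ∩ φ ⁻¹' (Pun Λ B) → ∀ c, φ x ∈ IE (C c) → ∀ i, |D' x i| ≤
      18 * mm (C c) (B c) (co (φ x)) * ∑ j, a c j * |D x j| := by
  have hO := h.isOpen_dom hΛ hΩ hφ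
  have hφ' := hφ.mono (inter_subset_left (t := φ ⁻¹' (Pun Λ B)))
  have hmm : ∀ c, AEMeasurable (fun x => mm (C c) (B c) (co (φ x)))
      (μ.restrict (Ω ∩ φ ⁻¹' (Pun Λ B))) := by
    intro c
    have h1 : ContinuousOn (fun x => mm (C c) (B c) (co (φ x))) (Ω ∩ φ ⁻¹' (Pun Λ B)) := by
      apply (continuousOn_mm (h.inner c)).comp (continuous_co.comp_continuousOn hφ')
      intro x hx
      exact h.tt_pos hx.2 c
    exact (h1.aestronglyMeasurable hO.measurableSet).aemeasurable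
  have key : ∀ c, ∀ i, ∀ᵐ x ∂μ, x ∈ Ω ∩ φ ⁻¹' (Pun Λ B) → x ∈ φ ⁻¹' IE (C c) →
      |D' x i - ∑ j, (fun _ _ => (0:ℝ)) x j * D x j| ≤
      ∑ j, (fun x j => 18 * mm (C c) (B c) (co (φ x)) * a c j) x j * |D x j| := by
    intro c i
    refine comp_aniso hO (fun i => wd_mono (hD i) inter_subset_left) hφ' (S := Pun Λ B)
      (fun x hx => hx.2) (θ := fun y => Psi Q C B y i)
      (continuousOn_comp_apply (h.continuousOn_Psi hΛ) i) (hD' i)
      (nm h hO hφ' (isOpen_IE _).measurableSet) (fun _ => aemeasurable_const)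
      (fun j => (((hmm c).const_mul _)).mul_const _) ?_
    intro x hx hxT
    filter_upwards [h.near_core hx.2 hxT (ha c) i] with y' hy'
    simp only [zero_mul, Finset.sum_const_zero, sub_zero]
    refine hy'.trans (le_of_eq ?_)
    rw [Finset.mul_sum]
    exact Finset.sum_congr rfl fun j _ => by ring
  filter_upwards [ae_all_iff.2 fun c => ae_all_iff.2 (key c)] with x hx h1 c h2 i
  have h3 := hx c i h1 h2
  simp only [zero_mul, Finset.sum_const_zero, sub_zero] at h3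
  refine h3.trans (le_of_eq ?_)
  rw [Finset.mul_sum]
  exact Finset.sum_congr rfl fun j _ => by ring

/-- **(d)** -/
theorem bound_bd (a : I → ι → ℝ) (ha0 : ∀ c j, 0 ≤ a c j)
    (ha : ∀ c i j, (Q c).W i ≤ a c j * (C c).W j) :
    ∀ᵐ x ∂μ, x ∈ Ω ∩ φ ⁻¹' (Pun Λ B) → ∀ c, φ x ∈ SE (C c) → φ x ∉ IE (C c) → ∀ i,
      |D' x i| ≤ ∑ j, (2 / c₀ ^ 2 + 18 * a c j) * |D x j| := by
  have hO := h.isOpen_dom hΛ hΩ hφ
  have hφ' := hφ.mono (inter_subset_left (t := φ ⁻¹' (Pun Λ B)))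
  have key : ∀ c, ∀ i, ∀ᵐ x ∂μ, x ∈ Ω ∩ φ ⁻¹' (Pun Λ B) → x ∈ φ ⁻¹' (SE (C c) \ IE (C c)) →
      |D' x i - ∑ j, (fun _ _ => (0:ℝ)) x j * D x j| ≤
      ∑ j, (fun _ j => 2 / c₀ ^ 2 + 18 * a c j) x j * |D x j| := by
    intro c i
    refine comp_aniso hO (fun i => wd_mono (hD i) inter_subset_left) hφ' (S := Pun Λ B)
      (fun x hx => hx.2) (θ := fun y => Psi Q C B y i)
      (continuousOn_comp_apply (h.continuousOn_Psi hΛ) i) (hD' i)
      (nm h hO hφ' ((isClosed_SE _).measurableSet.diff (isOpen_IE _).measurableSet))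
      (fun _ => aemeasurable_const) (fun j => aemeasurable_const) ?_
    intro x hx hxT
    filter_upwards [h.near_bd hx.2 hxT.1 hxT.2 (ha0 c) (ha c) i] with y' hy'
    simpa only [zero_mul, Finset.sum_const_zero, sub_zero] using hy'
  filter_upwards [ae_all_iff.2 fun c => ae_all_iff.2 (key c)] with x hx h1 c h2 h2' i
  have h3 := hx c i h1 ⟨h2, h2'⟩
  simpa only [zero_mul, Finset.sum_const_zero, sub_zero] using h3

end FoamC

end Crest.Agent.R96.Push_899
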