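import Mathlib

/-!
# Row 96, U2 PUSH (helper899), part 7: averaging over the centre (`p < n`) and the choice of a
centre outside a null set.
-/

set_option autoImplicit false
set_option linter.unusedSectionVars false
set_option linter.unusedVariables false

open MeasureTheory Set Filter Topology
open scoped NNReal ENNReal

noncomputable section

namespace Crest.Agent.R96.Push_899

variable {ι : Type*} [Fintype ι] [Nonempty ι] [DecidableEq ι]

/-- weighted sup norm -/
def nu (w u : ι → ℝ) : ℝ := Finset.univ.sup' Finset.univ_nonempty (fun i => |u i| / w i)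

/-- the kernel -/
def gW (w : ι → ℝ) (p : ℝ) (u : ι → ℝ) : ℝ≥0∞ :=
  if nu w u ≤ 1 then ENNReal.ofReal (nu w u ^ (-p)) else 0

theorem continuous_nu (w : ι → ℝ) : Continuous (nu w) := by
  unfold nu
  apply Continuous.finset_sup'_apply
  intro i _
  fun_prop

theorem measurable_gW (w : ι → ℝ) (p : ℝ) : Measurable (gW w p) := by
  unfold gW
  apply Measurable.ite
  · exact measurableSet_le (continuous_nu w).measurable measurable_const
  · exact ((continuous_nu w).measurable.pow_const _).ennreal_ofReal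
  · exact measurable_const

theorem nu_one (u : ι → ℝ) : nu (fun _ => (1:ℝ)) u = ‖u‖ := by
  apply le_antisymm
  · unfold nu
    rw [Finset.sup'_le_iff]
    intro i _
    rw [div_one]
    exact norm_le_pi_norm u i
  · rw [pi_norm_le_iff_of_nonempty]
    intro i
    have h1 : |u i| / (1:ℝ) ≤ nu (fun _ => (1:ℝ)) u :=
      Finset.le_sup' (fun i => |u i| / (1:ℝ)) (Finset.mem_univ i)
    rwa [div_one] at h1

theorem nu_scale {w : ι → ℝ} (hw : ∀ i, 0 < w i) (u : ι → ℝ) :
    nu w (fun i => w i * u i) = nu (fun _ => (1:ℝ)) u := by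
  unfold nu
  congr 1
  funext i
  rw [abs_mul, abs_of_pos (hw i), mul_div_cancel_left₀ _ (hw i).ne', div_one]

theorem gW_scale {w : ι → ℝ} (hw : ∀ i, 0 < w i) (p : ℝ) (u : ι → ℝ) :
    gW w p (fun i => w i * u i) = gW (fun _ => (1:ℝ)) p u := by
  unfold gW; rw [nu_scale hw]

/-- the constant -/
def Kc (ι : Type*) [Fintype ι] [Nonempty ι] (p : ℝ) : ℝ≥0∞ := ∫⁻ u : ι → ℝ, gW (fun _ => (1:ℝ)) p u

theorem Kc_lt_top {p : ℝ} (hp : p < Fintype.card ι) : Kc ι p < ⊤ := by
  set f : ℝ → ℝ := fun r => if r ≤ 1 then r ^ (-p) else 0 with hf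
  have h0 : Module.finrank ℝ (ι → ℝ) = Fintype.card ι := Module.finrank_fintype_fun_eq_card ℝ
  have : Nontrivial (ι → ℝ) := inferInstance
  have h1 : Integrable (fun u : ι → ℝ => f ‖u‖) volume := by
    rw [integrable_fun_norm_addHaar (volume : Measure (ι → ℝ)) (f := f)]
    rw [h0]
    have hc : 1 ≤ Fintype.card ι := Fintype.card_pos
    have h2 : IntegrableOn (fun r : ℝ => r ^ ((Fintype.card ι : ℝ) - 1 - p)) (Ioc 0 1) := by
      have h3 := (intervalIntegral.intervalIntegrable_rpow' (a := 0) (b := 1)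
        (r := (Fintype.card ι : ℝ) - 1 - p) (by linarith))
      exact (intervalIntegrable_iff_integrableOn_Ioc_of_le zero_le_one).1 h3
    have h4 : IntegrableOn (fun r : ℝ => r ^ (Fintype.card ι - 1) • f r) (Ioc 0 1) := by
      refine h2.congr_fun ?_ measurableSet_Ioc
      intro r hr
      simp only [hf, smul_eq_mul]
      rw [if_pos hr.2, ← Real.rpow_natCast, ← Real.rpow_add hr.1, Nat.cast_sub hc]
      congr 1
      push_cast; ring
    have h5 : IntegrableOn (fun r : ℝ => r ^ (Fintype.card ι - 1) • f r) (Ioi 1) := by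
      refine (integrableOn_zero).congr_fun ?_ measurableSet_Ioi
      intro r hr
      simp only [hf, smul_eq_mul]
      rw [if_neg (not_le.2 hr), mul_zero]
    have h6 : Ioi (0:ℝ) = Ioc 0 1 ∪ Ioi 1 := (Ioc_union_Ioi_eq_Ioi zero_le_one).symm
    rw [h6]
    exact h4.union h5
  have h7 : Kc ι p = ∫⁻ u : ι → ℝ, ENNReal.ofReal (f ‖u‖) := by
    unfold Kc
    apply lintegral_congr
    intro u
    unfold gW
    rw [nu_one]
    simp only [hf]
    split_ifs <;> simp
  rw [h7]
  exact h1.lintegral_lt_top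

theorem lintegral_gW {w : ι → ℝ} (hw : ∀ i, 0 < w i) (p : ℝ) :
    ∫⁻ u : ι → ℝ, gW w p u = ENNReal.ofReal (∏ i, w i) * Kc ι p := by
  have hdet : (Matrix.diagonal w).det = ∏ i, w i := Matrix.det_diagonal
  have hpos : 0 < ∏ i, w i := Finset.prod_pos fun i _ => hw i
  have h1 := Real.smul_map_diagonal_volume_pi (D := w) (by rw [hdet]; exact hpos.ne')
  conv_lhs => rw [← h1]
  rw [lintegral_smul_measure, hdet, abs_of_pos hpos, smul_eq_mul]
  congr 1
  rw [lintegral_map (measurable_gW w p)]
  · unfold Kc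
    apply lintegral_congr
    intro u
    rw [← gW_scale hw p u]
    congr 1
    funext i
    simp [Matrix.toLin'_apply, Matrix.mulVec_diagonal]
  · exact (LinearMap.continuous_on_pi _).measurable

/-- translation + restriction to a set of centres -/
theorem lintegral_gW_sub {w : ι → ℝ} (hw : ∀ i, 0 < w i) (p : ℝ) (y : ι → ℝ) (M : Set (ι → ℝ)) :
    ∫⁻ z in M, gW w p (y - z) ≤ ENNReal.ofReal (∏ i, w i) * Kc ι p := by
  rw [← lintegral_gW hw p]
  refine (setLIntegral_le_lintegral _ _).trans (le_of_eq ?_)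
  exact lintegral_sub_left_eq_self (μ := (volume : Measure (ι → ℝ))) (fun u => gW w p u) y

/-- **choice of the centre**: `M` a set of centres of finite positive measure, `N` null. -/
theorem exists_centre {X : Type*} [MeasurableSpace X] {ν : Measure X} [SFinite ν] {w : ι → ℝ}
    (hw : ∀ i, 0 < w i) (p : ℝ) {φ : X → ι → ℝ} (hφ : AEMeasurable φ ν) {g : X → ℝ≥0∞}
    (hg : AEMeasurable g ν) {M : Set (ι → ℝ)} (hM0 : volume M ≠ 0)
    (hM1 : volume M ≠ ⊤) {N : Set (ι → ℝ)} (hN : volume N = 0) (hMm : MeasurableSet M) :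
    ∃ z ∈ M, z ∉ N ∧ ∫⁻ x, gW w p (φ x - z) * g x ∂ν ≤
      ENNReal.ofReal (∏ i, w i) * Kc ι p / volume M * ∫⁻ x, g x ∂ν := by
  have hmeas : AEMeasurable (fun q : (ι → ℝ) × X => gW w p (φ q.2 - q.1) * g q.2)
      ((volume.restrict M).prod ν) := by
    apply AEMeasurable.mul
    · refine (measurable_gW w p).comp_aemeasurable ?_
      exact (hφ.comp_snd).sub measurable_fst.aemeasurable
    · exact hg.comp_snd
  set F : (ι → ℝ) → ℝ≥0∞ := fun z => ∫⁻ x, gW w p (φ x - z) * g x ∂ν with hF
  have hFm : AEMeasurable F (volume.restrict M) := hmeas.lintegral_prod_right'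
  have hne : volume.restrict M ≠ 0 := by
    rw [Ne, Measure.restrict_eq_zero]; exact hM0
  have hN' : (volume.restrict M) (N ∪ Mᶜ) = 0 := by
    rw [Measure.restrict_apply' hMm, union_inter_distrib_right, compl_inter_self, union_empty]
    exact measure_mono_null inter_subset_left hN
  have : IsFiniteMeasure (volume.restrict M) := ⟨by
    rw [Measure.restrict_apply_univ]; exact lt_top_iff_ne_top.2 hM1⟩
  obtain ⟨z, hz, hz2⟩ := exists_notMem_null_le_laverage hne hFm hN'
  rw [mem_union, not_or] at hz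
  refine ⟨z, not_not.1 hz.2, hz.1, hz2.trans ?_⟩
  rw [laverage_eq, Measure.restrict_apply_univ]
  have h1 : ∫⁻ z in M, F z = ∫⁻ x, (∫⁻ z in M, gW w p (φ x - z)) * g x ∂ν := by
    simp only [hF]
    rw [lintegral_lintegral_swap hmeas]
    apply lintegral_congr
    intro x
    rw [lintegral_mul_const]
    exact (measurable_gW w p).comp (measurable_const.sub measurable_id)
  rw [h1]
  have h2 : ∫⁻ x, (∫⁻ z in M, gW w p (φ x - z)) * g x ∂ν ≤
      (ENNReal.ofReal (∏ i, w i) * Kc ι p) * ∫⁻ x, g x ∂ν := by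
    rw [← lintegral_const_mul'' _ hg]
    apply lintegral_mono
    intro x
    exact mul_le_mul_left (lintegral_gW_sub hw p (φ x) M) _
  calc _ ≤ ((ENNReal.ofReal (∏ i, w i) * Kc ι p) * ∫⁻ x, g x ∂ν) / volume M :=
        ENNReal.div_le_div_right h2 _
    _ = _ := by
      rw [div_eq_mul_inv, div_eq_mul_inv]; ring

end Crest.Agent.R96.Push_899
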