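import Mathlib
import Crest.Agent.R96.Push6_899
import Crest.Agent.R96.Push7_899

/-!
# Row 96, U2 PUSH (helper899), part 8: cores around random centres, `p < n`; `pushBF_lt`.
-/

set_option autoImplicit false
set_option linter.unusedSectionVars false
set_option linter.unusedVariables false

open MeasureTheory Set Filter Topology
open scoped NNReal ENNReal

noncomputable section

namespace Crest.Agent.R96.Push_899

open Crest.Agent.R96.Acl_392 Crest.Agent.R96.Sob1_199 Crest.Agent.R96.Sob2_199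
  Crest.Agent.R96.Sob3_199 Crest.Agent.R96.Sob4_199 Crest.Agent.R96.Sob5_199

variable {ι : Type*} [Fintype ι] [Nonempty ι] [DecidableEq ι]

/-- total box constructor -/
def mkBox (lo hi : ι → ℝ) : Box ι := ⟨fun i => min (lo i) (hi i), hi, fun _ => min_le_right _ _⟩

/-- the core around `z`: margin `m` in the directions `P`, relative width `c₁` in the others. -/
def coreN (P : Finset ι) (m c₁ : ℝ) (Q : Box ι) (z : ι → ℝ) : Box ι :=
  mkBox (fun i => if i ∈ P then Q.lo i + m else z i - c₁ * Q.W i / 2)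
    (fun i => if i ∈ P then Q.hi i - m else z i + c₁ * Q.W i / 2)

/-- its widths -/
def wN (P : Finset ι) (m c₁ : ℝ) (Q : Box ι) (i : ι) : ℝ :=
  if i ∈ P then Q.W i - 2 * m else c₁ * Q.W i

/-- the set of centres -/
def Mid (Q : Box ι) : Set (ι → ℝ) :=
  Icc (fun i => Q.lo i + Q.W i / 4) (fun i => Q.hi i - Q.W i / 4)

/-- admissible parameters -/
structure Adm (P : Finset ι) (m c₁ : ℝ) (Q : Box ι) : Prop where
  W0 : ∀ i, 0 < Q.W i
  m0 : 0 < m
  mW : ∀ i ∈ P, 8 * m ≤ Q.W i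
  c0 : 0 < c₁
  c1 : c₁ ≤ 1 / 4

namespace Adm

variable {P : Finset ι} {m c₁ : ℝ} {Q : Box ι} (h : Adm P m c₁ Q)
include h

theorem lo (z : ι → ℝ) (i : ι) : (coreN P m c₁ Q z).lo i =
    if i ∈ P then Q.lo i + m else z i - c₁ * Q.W i / 2 := by
  unfold coreN mkBox
  simp only
  apply min_eq_left
  have h1 := h.W0 i
  have h2 := mul_pos h.c0 h1
  split_ifs with hi
  · have h3 := h.mW i hi
    have h4 := h.m0
    have h5 : Q.W i = Q.hi i - Q.lo i := rfl
    linarith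
  · linarith

theorem hi (z : ι → ℝ) (i : ι) : (coreN P m c₁ Q z).hi i =
    if i ∈ P then Q.hi i - m else z i + c₁ * Q.W i / 2 := rfl

theorem W (z : ι → ℝ) (i : ι) : (coreN P m c₁ Q z).W i = wN P m c₁ Q i := by
  unfold Box.W wN
  rw [h.lo, h.hi]
  split_ifs with hi
  · unfold Box.W; ring
  · unfold Box.W; ring

theorem W' (z : ι → ℝ) : (coreN P m c₁ Q z).W = wN P m c₁ Q := funext (h.W z)

theorem wN_pos (i : ι) : 0 < wN P m c₁ Q i := by
  unfold wN
  split_ifs with hi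
  · have := h.mW i hi; have := h.m0; linarith
  · exact mul_pos h.c0 (h.W0 i)

theorem wN_le (i : ι) : wN P m c₁ Q i ≤ Q.W i := by
  unfold wN
  have := h.W0 i
  have := h.m0
  split_ifs with hi
  · linarith
  · nlinarith [h.c1]

theorem le_wN (i : ι) : c₁ * Q.W i ≤ wN P m c₁ Q i := by
  unfold wN
  have := h.W0 i
  split_ifs with hi
  · have := h.mW i hi; nlinarith [h.c1]
  · exact le_rfl

theorem inner {z : ι → ℝ} (hz : z ∈ Mid Q) : Inner (coreN P m c₁ Q z) (Box.pt z) := by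
  have h1 := hz.1
  have h2 := hz.2
  refine ⟨fun i => ?_, fun i => ?_, fun i => ?_⟩
  · rw [h.W]; exact h.wN_pos i
  · rw [h.W, h.lo, Box.pt_lo]
    have a1 := h1 i
    have a2 := h.W0 i
    simp only at a1
    unfold wN
    split_ifs with hi
    · have := h.mW i hi; have := h.m0; linarith
    · have := mul_pos h.c0 a2; linarith
  · rw [h.W, h.hi, Box.pt_hi]
    have a1 := h2 i
    have a2 := h.W0 i
    simp only at a1
    unfold wN
    split_ifs with hi
    · have := h.mW i hi; have := h.m0; linarith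
    · have := mul_pos h.c0 a2; linarith

theorem shape {P₀ : Finset ι} {c₀ κ ρ : ℝ} (hc0 : 0 < c₀) (hc1 : c₀ ≤ c₁) (hκ : 0 ≤ κ)
    (hρ : 0 < ρ) (hm1 : c₀ * ρ ≤ m ∨ P = ∅) (hm2 : m ≤ ρ ∨ P = ∅)
    (hW1 : ∀ i ∉ P, c₀ * ρ ≤ Q.W i / 8)
    (hW2 : ∀ i ∉ P, Q.W i ≤ ρ) (hP : ∀ i ∈ P₀, Q.W i ≤ (1 + κ) * wN P m c₁ Q i)
    {z : ι → ℝ} (hz : z ∈ Mid Q) : Shape P₀ c₀ κ ρ Q (coreN P m c₁ Q z) := by
  have z1 := hz.1
  have z2 := hz.2
  have hne : ∀ i ∈ P, ¬ P = ∅ := fun i hi he => by rw [he] at hi; simp at hi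
  refine ⟨hc0, by linarith [h.c1], hρ, hκ, h.W0, fun i => ?_, fun i => ?_, fun i => ?_,
    fun i => ?_, fun i => ?_, fun i hi => ?_⟩
  · rw [h.lo]
    have a1 := z1 i
    have a2 := h.W0 i
    simp only at a1
    split_ifs with hi
    · have := hm1.resolve_right (hne i hi); linarith
    · have := hW1 i hi
      nlinarith [h.c1]
  · rw [h.lo]
    have a1 := z2 i
    have a2 := h.W0 i
    have a3 : Q.W i = Q.hi i - Q.lo i := rfl
    simp only at a1
    split_ifs with hi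
    · have := hm2.resolve_right (hne i hi); linarith
    · have := hW2 i hi
      nlinarith [h.c0]
  · rw [h.hi]
    have a1 := z2 i
    have a2 := h.W0 i
    simp only at a1
    split_ifs with hi
    · have := hm1.resolve_right (hne i hi); linarith
    · have := hW1 i hi
      nlinarith [h.c1]
  · rw [h.hi]
    have a1 := z1 i
    have a2 := h.W0 i
    have a3 : Q.W i = Q.hi i - Q.lo i := rfl
    simp only at a1
    split_ifs with hi
    · have := hm2.resolve_right (hne i hi); linarith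
    · have := hW2 i hi
      nlinarith [h.c0]
  · rw [h.W]
    exact (mul_le_mul_of_nonneg_right hc1 (h.W0 i).le).trans (h.le_wN i)
  · rw [h.W]; exact hP i hi

/-- **choice of the centre in a brick** -/
theorem centre {X : Type*} [MeasurableSpace X] {ν : Measure X} [SFinite ν]
    (p : ℝ) {φ : X → ι → ℝ} (hφ : AEMeasurable φ ν) {g : X → ℝ≥0∞} (hg : AEMeasurable g ν)
    {N : Set (ι → ℝ)} (hN : volume N = 0) :
    ∃ z ∈ Mid Q, z ∉ N ∧ ∫⁻ x, gW (wN P m c₁ Q) p (φ x - z) * g x ∂ν ≤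
      ENNReal.ofReal (2 ^ Fintype.card ι * c₁ ^ Pᶜ.card) * Kc ι p * ∫⁻ x, g x ∂ν := by
  have hvol : volume (Mid Q) = ENNReal.ofReal (∏ i, Q.W i / 2) := by
    unfold Mid
    rw [Real.volume_Icc_pi, ENNReal.ofReal_prod_of_nonneg]
    · apply Finset.prod_congr rfl
      intro i _
      congr 1
      unfold Box.W; ring
    · intro i _
      have := h.W0 i
      positivity
  have hpos : 0 < ∏ i, Q.W i / 2 := Finset.prod_pos fun i _ => by have := h.W0 i; positivity
  obtain ⟨z, hz, hzN, hb⟩ := exists_centre (M := Mid Q) h.wN_pos p hφ hg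
    (by rw [hvol]; exact (ENNReal.ofReal_pos.2 hpos).ne') (by rw [hvol]; exact ENNReal.ofReal_ne_top)
    hN measurableSet_Icc
  refine ⟨z, hz, hzN, hb.trans ?_⟩
  gcongr
  rw [hvol, mul_comm (ENNReal.ofReal _) (Kc ι p), mul_div_assoc, mul_comm (Kc ι p)]
  gcongr
  rw [← ENNReal.ofReal_div_of_pos hpos]
  apply ENNReal.ofReal_le_ofReal
  rw [div_le_iff₀ hpos]
  have e1 : (2:ℝ) ^ Fintype.card ι * c₁ ^ Pᶜ.card * ∏ i, Q.W i / 2 =
      c₁ ^ Pᶜ.card * ∏ i, Q.W i := by
    rw [Finset.prod_div_distrib, Finset.prod_const, Finset.card_univ]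
    field_simp
  rw [e1]
  have e2 : c₁ ^ Pᶜ.card * ∏ i, Q.W i = ∏ i, (if i ∈ P then Q.W i else c₁ * Q.W i) := by
    have e3 : ∀ i, (if i ∈ P then Q.W i else c₁ * Q.W i) =
        (if i ∈ Pᶜ then c₁ else 1) * Q.W i := by
      intro i
      by_cases hi : i ∈ P <;> simp [hi]
    rw [Finset.prod_congr rfl fun i _ => e3 i, Finset.prod_mul_distrib, Finset.prod_ite_mem,
      Finset.univ_inter, Finset.prod_const]
  rw [e2]
  apply Finset.prod_le_prod
  · intro i _; exact (h.wN_pos i).le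
  · intro i _
    unfold wN
    split_ifs with hi
    · linarith [h.m0]
    · exact le_rfl

end Adm

/-- the kernel bounds `mm ^ p` in a core with a point hole -/
theorem core_kernel {C : Box ι} {z y : ι → ℝ} (h : Inner C (Box.pt z)) (hy : y ∈ C.S)
    (ht : 0 < tt C (Box.pt z) y) {p : ℝ} (hp : 0 ≤ p) :
    ENNReal.ofReal (mm C (Box.pt z) y ^ p) ≤ gW C.W p (y - z) := by
  have ht1 : tt C (Box.pt z) y ≤ 1 := (tt_le_one_iff h.nest y).2 hy
  have hnu : nu C.W (y - z) ≤ tt C (Box.pt z) y := by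
    unfold nu
    rw [Finset.sup'_le_iff]
    intro i _
    obtain ⟨b1, b2⟩ := tt_bounds h.nest y i
    have hW := h.W0 i
    have g := h.gapU i
    simp only [Box.pt_lo, Box.pt_hi] at g
    unfold cl at b1
    unfold ch at b2
    simp only [Box.pt_lo, Box.pt_hi] at b1 b2
    rw [div_le_iff₀ hW, abs_le, Pi.sub_apply]
    constructor <;> nlinarith
  have hnu0 : 0 < nu C.W (y - z) := by
    by_contra hneg
    have h1 : ∀ i, y i = z i := by
      intro i
      have h2 : |(y - z) i| / C.W i ≤ nu C.W (y - z) :=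
        Finset.le_sup' (fun i => |(y - z) i| / C.W i) (Finset.mem_univ i)
      have h3 : |(y - z) i| / C.W i ≤ 0 := h2.trans (not_lt.1 hneg)
      rw [div_le_iff₀ (h.W0 i), zero_mul] at h3
      have h4 := abs_nonpos_iff.1 h3
      rw [Pi.sub_apply] at h4
      linarith
    have h5 : tt C (Box.pt z) y ≤ 0 := by
      rw [tt_le_zero_iff h.nest]
      intro i
      simp [h1 i]
    linarith
  unfold gW
  rw [if_pos (hnu.trans ht1)]
  apply ENNReal.ofReal_le_ofReal
  rw [Real.rpow_neg hnu0.le, ← Real.inv_rpow hnu0.le]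
  apply Real.rpow_le_rpow (mm_pos h ht).le _ hp
  refine (mm_le h ht ht1).trans ?_
  rw [one_div]
  exact inv_anti₀ hnu0 hnu

variable {E : Type*} [NormedAddCommGroup E] [NormedSpace ℝ E] [FiniteDimensional ℝ E]
  [MeasurableSpace E] [BorelSpace E] {μ : Measure E} [μ.IsAddHaarMeasure]

variable {Λ : Set (EE ι)} {I : Type*} [Countable I] {Q C B : I → Box ι} {P : Finset ι} {c₀ : ℝ}
  {κ ρ : I → ℝ}

theorem enorm_rpow_le {F : Type*} [NormedAddCommGroup F] {v : F} {a p : ℝ} (hp : 0 ≤ p)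
    (h : ‖v‖ ≤ a) : ‖v‖ₑ ^ p ≤ ENNReal.ofReal (a ^ p) := by
  rw [← ofReal_norm, ENNReal.ofReal_rpow_of_nonneg (norm_nonneg v) hp]
  exact ENNReal.ofReal_le_ofReal (Real.rpow_le_rpow (norm_nonneg v) h hp)

/-- energy in the core with a point hole, on a set `X` -/
theorem FoamC.core_int (h : FoamC Λ Q C B P c₀ κ ρ) (hΛ : IsOpen Λ) {Ω : Set E} (hΩ : IsOpen Ω)
    {φ D D' : E → EE ι} {e : E} (hφ : ContinuousOn φ Ω) (hD : VWD Ω μ φ D e)
    (hD' : VWD (Ω ∩ φ ⁻¹' (Pun Λ B)) μ (fun x => Psi Q C B (φ x)) D' e)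
    {p : ℝ} (hp : 0 ≤ p) (a : I → ι → ℝ) (ha : ∀ c i j, (Q c).W i ≤ a c j * (C c).W j)
    (c : I) {z : ι → ℝ} (hz : B c = Box.pt z) {X : Set E} (hX : NullMeasurableSet X μ) :
    ∫⁻ x in X ∩ (Ω ∩ φ ⁻¹' (Pun Λ B ∩ IE (C c))), ‖D' x‖ₑ ^ p ∂μ ≤
      ENNReal.ofReal ((18 * Fintype.card ι) ^ p) *
        ∫⁻ x in X ∩ (Ω ∩ φ ⁻¹' (IE (C c))), gW (C c).W p (co (φ x) - z) *
          ENNReal.ofReal ((∑ j, a c j * |D x j|) ^ p) ∂μ := by
  have hO := h.isOpen_dom hΛ hΩ hφ
  have hO2 : IsOpen (Ω ∩ φ ⁻¹' (Pun Λ B ∩ IE (C c))) :=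
    hφ.isOpen_inter_preimage hΩ ((h.isOpen_pun hΛ).inter (isOpen_IE _))
  have hsub : X ∩ (Ω ∩ φ ⁻¹' (Pun Λ B ∩ IE (C c))) ⊆ X ∩ (Ω ∩ φ ⁻¹' (IE (C c))) :=
    fun x hx => ⟨hx.1, hx.2.1, hx.2.2.2⟩
  rw [← lintegral_const_mul' _ _ ENNReal.ofReal_ne_top]
  refine le_trans ?_ (lintegral_mono_set hsub)
  apply lintegral_mono_ae
  have key := h.bound_core hΛ hΩ hφ hD hD' a ha
  refine (ae_restrict_iff'₀ (hX.inter hO2.measurableSet.nullMeasurableSet)).2 ?_
  filter_upwards [key] with x hx hx2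
  have hPun : φ x ∈ Pun Λ B := hx2.2.2.1
  have hIE : φ x ∈ IE (C c) := hx2.2.2.2
  have h1 := hx ⟨hx2.2.1, hPun⟩ c hIE
  have ht := h.tt_pos hPun c
  have hin := h.inner c
  rw [hz] at ht hin h1
  have hmm := mm_pos hin ht
  set S := ∑ j, a c j * |D x j| with hS
  have ha0 : ∀ j, 0 ≤ a c j := by
    intro j
    have h2 := ha c j j
    have h3 := (h.shape c).W0 j
    have h4 := (h.inner c).W0 j
    by_contra hneg
    nlinarith
  have hS0 : 0 ≤ S := Finset.sum_nonneg fun j _ => mul_nonneg (ha0 j) (abs_nonneg _)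
  have h2 : ‖D' x‖ ≤ (18 * Fintype.card ι) * (mm (C c) (Box.pt z) (co (φ x)) * S) := by
    refine (norm_le_sum _).trans ((Finset.sum_le_sum fun i _ => h1 i).trans ?_)
    rw [Finset.sum_const, Finset.card_univ, nsmul_eq_mul]
    exact le_of_eq (by ring)
  refine (enorm_rpow_le hp h2).trans ?_
  rw [Real.mul_rpow (by positivity) (by positivity), Real.mul_rpow hmm.le hS0,
    ENNReal.ofReal_mul (by positivity), ENNReal.ofReal_mul (by positivity)]
  gcongr
  exact core_kernel hin (IE_subset_SE _ hIE) ht hp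

end Crest.Agent.R96.Push_899
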