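import Mathlib
import Crest.Agent.R96.Push8_899

/-!
# Row 96, U2 PUSH (helper899), part 9: `pushBF_lt` (bounded factor, `p < n`, random centres).
-/

set_option autoImplicit false
set_option linter.unusedSectionVars false
set_option linter.unusedVariables false

open MeasureTheory Set Filter Topology
open scoped NNReal ENNReal

noncomputable section

namespace Crest.Agent.R96.Push_899

open Crest.Agent.R96.Acl_392 Crest.Agent.R96.Sob1_199 Crest.Agent.R96.Sob2_199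
  Crest.Agent.R96.Sob3_199 Crest.Agent.R96.Sob4_199 Crest.Agent.R96.Sob5_199

variable {ι : Type*} [Fintype ι] [Nonempty ι] [DecidableEq ι]

variable {E : Type*} [NormedAddCommGroup E] [NormedSpace ℝ E] [FiniteDimensional ℝ E]
  [MeasurableSpace E] [BorelSpace E] {μ : Measure E} [μ.IsAddHaarMeasure]

variable {Λ : Set (EE ι)} {I : Type*} {Q : I → Box ι}

/-- a foam of boxes (input) -/
structure Foam0 (Λ : Set (EE ι)) {I : Type*} (Q : I → Box ι) : Prop where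
  W0 : ∀ c i, 0 < (Q c).W i
  cells : Cells Λ (fun c => SE (Q c))
  disj : ∀ c c', c ≠ c' → ∀ y : ι → ℝ, y ∈ (Q c).S → y ∉ (Q c').I

/-- longest side -/
def side (Q : Box ι) : ℝ := Finset.univ.sup' Finset.univ_nonempty Q.W

theorem W_le_side (Q : Box ι) (i : ι) : Q.W i ≤ side Q := Finset.le_sup' Q.W (Finset.mem_univ i)

theorem side_le {Q : Box ι} {a : ℝ} (h : ∀ i, Q.W i ≤ a) : side Q ≤ a := by
  unfold side; rw [Finset.sup'_le_iff]; exact fun i _ => h i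

theorem side_pos {Q : Box ι} (h : ∀ i, 0 < Q.W i) : 0 < side Q := by
  obtain ⟨i⟩ := ‹Nonempty ι›
  exact lt_of_lt_of_le (h i) (W_le_side Q i)

/-- the core around `z` used in BF -/
def coreBF (Q : Box ι) (z : ι → ℝ) : Box ι := coreN ∅ 1 (1 / 4) Q z

theorem admBF {Q : Box ι} (h : ∀ i, 0 < Q.W i) : Adm ∅ 1 (1 / 4) Q :=
  ⟨h, one_pos, fun i hi => absurd hi (by simp), by norm_num, le_rfl⟩

theorem shapeBF {a0 : ℝ} (ha0 : 1 ≤ a0) {Q : Box ι} (h : ∀ i, 0 < Q.W i)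
    (hA : ∀ i j, Q.W i ≤ a0 * Q.W j) {z : ι → ℝ} (hz : z ∈ Mid Q) :
    Shape ∅ (1 / (8 * a0)) 0 (side Q) Q (coreBF Q z) := by
  have h0 : 0 < a0 := by linarith
  refine (admBF h).shape (by positivity) ?_ le_rfl (side_pos h) (Or.inr rfl) (Or.inr rfl)
    (fun i _ => ?_) (fun i _ => W_le_side Q i) (fun i hi => absurd hi (by simp)) hz
  · rw [div_le_div_iff₀ (by positivity) (by norm_num)]; linarith
  · have h1 : side Q ≤ a0 * Q.W i := side_le fun j => hA j i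
    calc 1 / (8 * a0) * side Q ≤ 1 / (8 * a0) * (a0 * Q.W i) := by gcongr
      _ = Q.W i / 8 := by field_simp

/-- the constant -/
def KBF (ι : Type*) [Fintype ι] [Nonempty ι] (a0 p : ℝ) : ℝ≥0∞ :=
  ENNReal.ofReal ((200 * a0 ^ 2 * Fintype.card ι ^ 2) ^ p) * (1 + Kc ι p)

theorem KBF_lt_top {a0 p : ℝ} (hp : p < Fintype.card ι) : KBF ι a0 p < ⊤ :=
  ENNReal.mul_lt_top ENNReal.ofReal_lt_top (ENNReal.add_lt_top.2 ⟨ENNReal.one_lt_top,
    Kc_lt_top hp⟩)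

theorem sum_abs_le (v : EE ι) : ∑ i, |v i| ≤ Fintype.card ι * ‖v‖ := by
  refine (Finset.sum_le_sum fun i _ => abs_le_norm v i).trans ?_
  rw [Finset.sum_const, Finset.card_univ, nsmul_eq_mul]

/-- the foam with cores and point holes -/
theorem foamBF {a0 : ℝ} (ha0 : 1 ≤ a0) (h : Foam0 Λ Q)
    (hA : ∀ c i j, (Q c).W i ≤ a0 * (Q c).W j) {z : I → ι → ℝ} (hz : ∀ c, z c ∈ Mid (Q c)) :
    FoamC Λ Q (fun c => coreBF (Q c) (z c)) (fun c => Box.pt (z c)) ∅ (1 / (8 * a0))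
      (fun _ => 0) (fun c => side (Q c)) :=
  ⟨h.cells, h.disj, fun c => shapeBF ha0 (h.W0 c) (hA c) (hz c),
    fun c => (admBF (h.W0 c)).inner (hz c)⟩

section

variable [Countable I] {C B : I → Box ι} {P : Finset ι} {c₀ : ℝ} {κ ρ : I → ℝ}

/-- **a.e. bound off the open cores** (all `p`) -/
theorem FoamC.bound_off (h : FoamC Λ Q C B P c₀ κ ρ) (hΛ : IsOpen Λ) {Ω : Set E}
    (hΩ : IsOpen Ω) {φ D D' : E → EE ι} {e : E} (hφ : ContinuousOn φ Ω) (hD : VWD Ω μ φ D e)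
    (hD' : VWD (Ω ∩ φ ⁻¹' (Pun Λ B)) μ (fun x => Psi Q C B (φ x)) D' e) {a : ℝ} (ha0 : 0 ≤ a)
    (ha : ∀ c i j, (Q c).W i ≤ a * (C c).W j) :
    ∀ᵐ x ∂μ, x ∈ Ω ∩ φ ⁻¹' (Pun Λ B) → (∀ c, φ x ∉ IE (C c)) →
      ‖D' x‖ ≤ (Fintype.card ι ^ 2 * (2 / c₀ ^ 2 + 18 * a)) * ‖D x‖ := by
  filter_upwards [h.bound_out hΛ hΩ hφ hD hD',
    h.bound_bd hΛ hΩ hφ hD hD' (fun _ _ => a) (fun _ _ => ha0) ha] with x h1 h2 hx hxI
  have key : ∀ i, |D' x i| ≤ (2 / c₀ ^ 2 + 18 * a) * ∑ j, |D x j| := by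
    intro i
    by_cases hc : ∃ c, φ x ∈ SE (C c)
    · obtain ⟨c, hc⟩ := hc
      have := h2 hx c hc (hxI c) i
      rwa [← Finset.mul_sum] at this
    · push Not at hc
      refine (h1 hx hc i).trans ?_
      apply mul_le_mul_of_nonneg_right _ (Finset.sum_nonneg fun _ _ => abs_nonneg _)
      linarith
  have h0 : 0 ≤ 2 / c₀ ^ 2 + 18 * a := by positivity
  calc ‖D' x‖ ≤ ∑ i, |D' x i| := norm_le_sum _
    _ ≤ ∑ i : ι, (2 / c₀ ^ 2 + 18 * a) * (Fintype.card ι * ‖D x‖) :=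
      Finset.sum_le_sum fun i _ => (key i).trans (mul_le_mul_of_nonneg_left (sum_abs_le _) h0)
    _ = _ := by rw [Finset.sum_const, Finset.card_univ, nsmul_eq_mul]; ring

theorem FoamC.not_core (h : FoamC Λ Q C B P c₀ κ ρ) {c : I} {y : EE ι} (hy : y ∈ SE (Q c))
    (hyc : y ∉ IE (C c)) (c' : I) : y ∉ IE (C c') := by
  intro hc'
  have : c = c' := h.core_unique (IE_subset_SE _ hc') hy
  subst this
  exact hyc hc'

/-- the energy over a brick = core + rest -/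
theorem FoamC.brick_split (h : FoamC Λ Q C B P c₀ κ ρ) {Ω : Set E} {φ : E → EE ι} (c : I) :
    Ω ∩ φ ⁻¹' (Pun Λ B ∩ SE (Q c)) ⊆ (Ω ∩ φ ⁻¹' (Pun Λ B ∩ IE (C c))) ∪
      (Ω ∩ φ ⁻¹' (Pun Λ B ∩ (SE (Q c) \ IE (C c)))) := by
  rintro x ⟨h1, h2, h3⟩
  by_cases h4 : φ x ∈ IE (C c)
  · exact Or.inl ⟨h1, h2, h4⟩
  · exact Or.inr ⟨h1, h2, h3, h4⟩

end

variable [Countable I]

theorem FoamC.open_disj {C B : I → Box ι} {P : Finset ι} {c₀ : ℝ} {κ ρ : I → ℝ}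
    (h : FoamC Λ Q C B P c₀ κ ρ) : Pairwise (fun c c' => Disjoint (IE (Q c)) (IE (Q c'))) := by
  intro c c' hcc
  rw [Set.disjoint_left]
  intro y hy hy'
  exact h.disj c c' hcc (co y) (IE_subset_SE _ hy) hy'

/-- **pushBF, `p < n`**: centres `z c` outside a null set; bounded factor in every brick, on a
given set `X`. -/
theorem pushBF_X {a0 p : ℝ} (ha0 : 1 ≤ a0) (hp0 : 0 ≤ p) (hΛ : IsOpen Λ) (h : Foam0 Λ Q)
    (hA : ∀ c i j, (Q c).W i ≤ a0 * (Q c).W j) {Ω : Set E} (hΩ : IsOpen Ω) {φ : E → EE ι}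
    (hφ : ContinuousOn φ Ω) {J : Type*} [Fintype J] {e : J → E} {D : J → E → EE ι}
    (hD : ∀ l, VWD Ω μ φ (D l) (e l)) {N : Set (ι → ℝ)} (hN : volume N = 0)
    {X : Set E} (hX : NullMeasurableSet X μ) :
    ∃ z : I → ι → ℝ, (∀ c, z c ∈ Mid (Q c)) ∧ (∀ c, z c ∉ N) ∧
      ∀ D' : J → E → EE ι, (∀ l, VWD (Ω ∩ φ ⁻¹' (Pun Λ (fun c => Box.pt (z c)))) μ
        (fun x => Psi Q (fun c => coreBF (Q c) (z c)) (fun c => Box.pt (z c)) (φ x))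
          (D' l) (e l)) →
      (∀ c, ∫⁻ x in X ∩ (Ω ∩ φ ⁻¹' (Pun Λ (fun c => Box.pt (z c)) ∩ SE (Q c))),
        ∑ l, ‖D' l x‖ₑ ^ p ∂μ ≤ KBF ι a0 p * ∫⁻ x in X ∩ (Ω ∩ φ ⁻¹' (SE (Q c))),
        ∑ l, ‖D l x‖ₑ ^ p ∂μ) ∧
      ∫⁻ x in X ∩ (Ω ∩ φ ⁻¹' (Pun Λ (fun c => Box.pt (z c)))),
        ∑ l, ‖D' l x‖ₑ ^ p ∂μ ≤ KBF ι a0 p * ∫⁻ x in X ∩ Ω, ∑ l, ‖D l x‖ₑ ^ p ∂μ := by
  have a0pos : 0 < a0 := by linarith
  have hn : (1:ℝ) ≤ Fintype.card ι := by exact_mod_cast Fintype.card_pos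
  -- measurability
  have mD : ∀ l, AEMeasurable (fun x => ‖D l x‖ₑ ^ p) (μ.restrict Ω) := fun l =>
    ((hD l).aemeas.enorm).pow_const p
  set g : E → ℝ≥0∞ := fun x => ∑ l, ‖D l x‖ₑ ^ p with hg
  have mg : AEMeasurable g (μ.restrict Ω) := Finset.aemeasurable_fun_sum _ fun l _ => mD l
  have mφ : AEMeasurable (fun x => co (φ x)) (μ.restrict Ω) :=
    continuous_co.measurable.comp_aemeasurable
      (hφ.aestronglyMeasurable hΩ.measurableSet).aemeasurable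
  have hs0 : ∀ c, X ∩ (Ω ∩ φ ⁻¹' (IE (Q c))) ⊆ Ω := fun c x hx => hx.2.1
  have hcen : ∀ c, ∃ z ∈ Mid (Q c), z ∉ N ∧
      ∫⁻ x, gW (wN ∅ 1 (1/4) (Q c)) p (co (φ x) - z) * g x
        ∂(μ.restrict (X ∩ (Ω ∩ φ ⁻¹' (IE (Q c))))) ≤
      ENNReal.ofReal (2 ^ Fintype.card ι * (1/4) ^ (∅ᶜ : Finset ι).card) * Kc ι p *
        ∫⁻ x, g x ∂(μ.restrict (X ∩ (Ω ∩ φ ⁻¹' (IE (Q c))))) := fun c =>
    (admBF (h.W0 c)).centre p (mφ.mono_measure (Measure.restrict_mono (hs0 c) le_rfl))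
      (mg.mono_measure (Measure.restrict_mono (hs0 c) le_rfl)) hN
  choose z hz hzN hb using hcen
  refine ⟨z, hz, hzN, ?_⟩
  intro D' hD'
  have hF := foamBF ha0 h hA hz
  set B : I → Box ι := fun c => Box.pt (z c) with hB
  set C : I → Box ι := fun c => coreBF (Q c) (z c) with hC
  have hCW : ∀ c i, (C c).W i = 1 / 4 * (Q c).W i := by
    intro c i
    rw [hC]
    change (coreN ∅ 1 (1/4) (Q c) (z c)).W i = _
    rw [(admBF (h.W0 c)).W]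
    simp [wN]
  have ha : ∀ c i j, (Q c).W i ≤ (4 * a0) * (C c).W j := by
    intro c i j
    rw [hCW]
    have := hA c i j
    linarith
  have hO := hF.isOpen_dom hΛ hΩ hφ
  -- core part
  have part1 : ∀ c, ∫⁻ x in X ∩ (Ω ∩ φ ⁻¹' (Pun Λ B ∩ IE (C c))), ∑ l, ‖D' l x‖ₑ ^ p ∂μ ≤
      ENNReal.ofReal ((200 * a0 ^ 2 * Fintype.card ι ^ 2) ^ p) *
        (Kc ι p * ∫⁻ x in X ∩ (Ω ∩ φ ⁻¹' (IE (Q c))), g x ∂μ) := by
    intro c
    have hs1 : X ∩ (Ω ∩ φ ⁻¹' (Pun Λ B ∩ IE (C c))) ⊆ Ω ∩ φ ⁻¹' (Pun Λ B) :=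
      fun x hx => ⟨hx.2.1, hx.2.2.1⟩
    have hs2 : X ∩ (Ω ∩ φ ⁻¹' (IE (C c))) ⊆ X ∩ (Ω ∩ φ ⁻¹' (IE (Q c))) :=
      fun x hx => ⟨hx.1, hx.2.1, hF.core_sub c (IE_subset_SE _ hx.2.2)⟩
    have mD' : ∀ l, AEMeasurable (fun x => ‖D' l x‖ₑ ^ p)
        (μ.restrict (X ∩ (Ω ∩ φ ⁻¹' (Pun Λ B ∩ IE (C c))))) := fun l =>
      (((hD' l).aemeas.enorm).pow_const p).mono_measure (Measure.restrict_mono hs1 le_rfl)
    rw [lintegral_finsetSum' _ fun l _ => mD' l]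
    have e1 : ∀ l, ∫⁻ x in X ∩ (Ω ∩ φ ⁻¹' (Pun Λ B ∩ IE (C c))), ‖D' l x‖ₑ ^ p ∂μ ≤
        ENNReal.ofReal ((200 * a0 ^ 2 * Fintype.card ι ^ 2) ^ p) *
          ∫⁻ x in X ∩ (Ω ∩ φ ⁻¹' (IE (Q c))), gW (C c).W p (co (φ x) - z c) *
            ‖D l x‖ₑ ^ p ∂μ := by
      intro l
      have h1 := hF.core_int hΛ hΩ hφ (hD l) (hD' l) hp0 (fun _ _ => 4 * a0)
        (fun c i j => ha c i j) c (z := z c) rfl hX
      refine h1.trans ?_
      have e2 : ∀ x, ENNReal.ofReal ((∑ j, (4 * a0) * |D l x j|) ^ p) ≤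
          ENNReal.ofReal ((4 * a0 * Fintype.card ι) ^ p) * ‖D l x‖ₑ ^ p := by
        intro x
        rw [← ofReal_norm, ENNReal.ofReal_rpow_of_nonneg (norm_nonneg _) hp0,
          ← ENNReal.ofReal_mul (by positivity), ← Real.mul_rpow (by positivity) (norm_nonneg _)]
        apply ENNReal.ofReal_le_ofReal
        apply Real.rpow_le_rpow _ _ hp0
        · exact Finset.sum_nonneg fun j _ => by positivity
        · rw [← Finset.mul_sum]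
          refine (mul_le_mul_of_nonneg_left (sum_abs_le (D l x)) (by positivity)).trans
            (le_of_eq (by ring))
      calc _ ≤ ENNReal.ofReal ((18 * Fintype.card ι) ^ p) *
            ∫⁻ x in X ∩ (Ω ∩ φ ⁻¹' (IE (Q c))), gW (C c).W p (co (φ x) - z c) *
              (ENNReal.ofReal ((4 * a0 * Fintype.card ι) ^ p) * ‖D l x‖ₑ ^ p) ∂μ := by
            refine mul_le_mul' le_rfl ?_
            refine (lintegral_mono_set hs2).trans (lintegral_mono fun x => ?_)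
            exact mul_le_mul' le_rfl (e2 x)
        _ = ENNReal.ofReal ((18 * Fintype.card ι) ^ p) * (ENNReal.ofReal
            ((4 * a0 * Fintype.card ι) ^ p) * ∫⁻ x in X ∩ (Ω ∩ φ ⁻¹' (IE (Q c))),
              gW (C c).W p (co (φ x) - z c) * ‖D l x‖ₑ ^ p ∂μ) := by
            congr 1
            rw [← lintegral_const_mul' _ _ ENNReal.ofReal_ne_top]
            apply lintegral_congr
            intro x; ring
        _ ≤ _ := by
            rw [← mul_assoc, ← ENNReal.ofReal_mul (by positivity),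
              ← Real.mul_rpow (by positivity) (by positivity)]
            gcongr ?_ * _
            apply ENNReal.ofReal_le_ofReal
            apply Real.rpow_le_rpow (by positivity) _ hp0
            nlinarith [mul_nonneg (sub_nonneg.2 ha0) (sq_nonneg (Fintype.card ι : ℝ)),
              mul_nonneg a0pos.le (mul_nonneg (sub_nonneg.2 ha0) (sq_nonneg (Fintype.card ι : ℝ)))]
    refine (Finset.sum_le_sum fun l _ => e1 l).trans ?_
    rw [← Finset.mul_sum]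
    refine mul_le_mul' le_rfl ?_
    rw [← lintegral_finsetSum']
    · have e3 : ∀ x, ∑ l, gW (C c).W p (co (φ x) - z c) * ‖D l x‖ₑ ^ p =
          gW (wN ∅ 1 (1/4) (Q c)) p (co (φ x) - z c) * g x := by
        intro x
        rw [← Finset.mul_sum]
        congr 2
        funext i
        rw [hCW]; simp [wN]
      rw [lintegral_congr e3]
      refine (hb c).trans ?_
      have e4 : ENNReal.ofReal (2 ^ Fintype.card ι * (1/4) ^ (∅ᶜ : Finset ι).card) ≤ 1 := by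
        rw [Finset.compl_empty, Finset.card_univ, ← mul_pow]
        apply ENNReal.ofReal_le_one.2
        exact pow_le_one₀ (by norm_num) (by norm_num)
      calc _ ≤ 1 * Kc ι p * ∫⁻ x, g x ∂(μ.restrict (X ∩ (Ω ∩ φ ⁻¹' (IE (Q c))))) := by gcongr
        _ = _ := by rw [one_mul]
    · intro l _
      apply AEMeasurable.mul
      · refine (measurable_gW _ p).comp_aemeasurable ?_
        exact (mφ.mono_measure (Measure.restrict_mono (hs0 c) le_rfl)).sub aemeasurable_const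
      · exact (mD l).mono_measure (Measure.restrict_mono (hs0 c) le_rfl)
  -- rest: any measurable set of values off the open cores
  have part2 : ∀ T : Set (EE ι), MeasurableSet T → T ⊆ Pun Λ B → (∀ y ∈ T, ∀ c, y ∉ IE (C c)) →
      ∫⁻ x in X ∩ (Ω ∩ φ ⁻¹' T), ∑ l, ‖D' l x‖ₑ ^ p ∂μ ≤
        ENNReal.ofReal ((200 * a0 ^ 2 * Fintype.card ι ^ 2) ^ p) *
          ∫⁻ x in X ∩ (Ω ∩ φ ⁻¹' T), g x ∂μ := by
    intro T hT hTP hTC
    rw [← lintegral_const_mul' _ _ ENNReal.ofReal_ne_top]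
    apply lintegral_mono_ae
    have hm : NullMeasurableSet (X ∩ (Ω ∩ φ ⁻¹' T)) μ := by
      have h1 := hF.nm (μ := μ) hΩ hφ hT
      have h2 := (nullMeasurableSet_restrict hΩ.measurableSet.nullMeasurableSet).1 h1
      rw [inter_comm] at h2
      exact hX.inter h2
    refine (ae_restrict_iff'₀ hm).2 ?_
    have h1 : ∀ᵐ x ∂μ, ∀ l, x ∈ Ω ∩ φ ⁻¹' (Pun Λ B) → (∀ c, φ x ∉ IE (C c)) →
        ‖D' l x‖ ≤ (Fintype.card ι ^ 2 * (2 / (1 / (8 * a0)) ^ 2 + 18 * (4 * a0))) * ‖D l x‖ :=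
      ae_all_iff.2 fun l => hF.bound_off hΛ hΩ hφ (hD l) (hD' l) (by positivity) ha
    filter_upwards [h1] with x hx hx2
    rw [Finset.mul_sum]
    apply Finset.sum_le_sum
    intro l _
    have h2 := hx l ⟨hx2.2.1, hTP hx2.2.2⟩ (hTC _ hx2.2.2)
    rw [← ofReal_norm (D l x), ENNReal.ofReal_rpow_of_nonneg (norm_nonneg _) hp0,
          ← ENNReal.ofReal_mul (by positivity), ← Real.mul_rpow (by positivity) (norm_nonneg _)]
    apply enorm_rpow_le hp0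
    refine h2.trans (mul_le_mul_of_nonneg_right ?_ (norm_nonneg _))
    have e5 : 2 / (1 / (8 * a0)) ^ 2 = 128 * a0 ^ 2 := by field_simp; norm_num
    rw [e5]
    nlinarith [mul_nonneg a0pos.le (mul_nonneg (sub_nonneg.2 ha0) (sq_nonneg (Fintype.card ι : ℝ)))]
  have mPun := (hF.isOpen_pun hΛ).measurableSet
  constructor
  · intro c
    set G := ∫⁻ x in X ∩ (Ω ∩ φ ⁻¹' (SE (Q c))), g x ∂μ with hG
    have s1 : X ∩ (Ω ∩ φ ⁻¹' (Pun Λ B ∩ SE (Q c))) ⊆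
        (X ∩ (Ω ∩ φ ⁻¹' (Pun Λ B ∩ IE (C c)))) ∪
        (X ∩ (Ω ∩ φ ⁻¹' (Pun Λ B ∩ (SE (Q c) \ IE (C c))))) := by
      rintro x ⟨h0, h1⟩
      rcases hF.brick_split c h1 with h2 | h2
      · exact Or.inl ⟨h0, h2⟩
      · exact Or.inr ⟨h0, h2⟩
    have s2 : X ∩ (Ω ∩ φ ⁻¹' (IE (Q c))) ⊆ X ∩ (Ω ∩ φ ⁻¹' (SE (Q c))) :=
      fun x hx => ⟨hx.1, hx.2.1, IE_subset_SE _ hx.2.2⟩
    have s3 : X ∩ (Ω ∩ φ ⁻¹' (Pun Λ B ∩ (SE (Q c) \ IE (C c)))) ⊆ X ∩ (Ω ∩ φ ⁻¹' (SE (Q c))) :=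
      fun x hx => ⟨hx.1, hx.2.1, hx.2.2.2.1⟩
    calc _ ≤ ∫⁻ x in (X ∩ (Ω ∩ φ ⁻¹' (Pun Λ B ∩ IE (C c)))) ∪
          (X ∩ (Ω ∩ φ ⁻¹' (Pun Λ B ∩ (SE (Q c) \ IE (C c))))), ∑ l, ‖D' l x‖ₑ ^ p ∂μ :=
          lintegral_mono_set s1
      _ ≤ _ := lintegral_union_le _ _ _
      _ ≤ ENNReal.ofReal ((200 * a0 ^ 2 * Fintype.card ι ^ 2) ^ p) * (Kc ι p * G) +
          ENNReal.ofReal ((200 * a0 ^ 2 * Fintype.card ι ^ 2) ^ p) * G := by
          refine add_le_add ((part1 c).trans ?_) ((part2 (Pun Λ B ∩ (SE (Q c) \ IE (C c)))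
            (mPun.inter ((isClosed_SE (Q c)).measurableSet.diff (isOpen_IE (C c)).measurableSet))
            inter_subset_left
            (fun y hy => hF.not_core hy.2.1 hy.2.2)).trans ?_)
          · exact mul_le_mul' le_rfl (mul_le_mul' le_rfl (lintegral_mono_set s2))
          · exact mul_le_mul' le_rfl (lintegral_mono_set s3)
      _ = KBF ι a0 p * G := by unfold KBF; ring
  · set G := ∫⁻ x in X ∩ Ω, g x ∂μ with hG
    set T : Set (EE ι) := Pun Λ B \ ⋃ c, IE (C c) with hT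
    have mT : MeasurableSet T := mPun.diff (MeasurableSet.iUnion fun c =>
      (isOpen_IE (C c)).measurableSet)
    have s1 : X ∩ (Ω ∩ φ ⁻¹' (Pun Λ B)) ⊆
        (⋃ c, X ∩ (Ω ∩ φ ⁻¹' (Pun Λ B ∩ IE (C c)))) ∪ (X ∩ (Ω ∩ φ ⁻¹' T)) := by
      rintro x ⟨h0, h1, h2⟩
      by_cases h3 : φ x ∈ ⋃ c, IE (C c)
      · obtain ⟨c, hc⟩ := mem_iUnion.1 h3
        exact Or.inl (mem_iUnion.2 ⟨c, h0, h1, h2, hc⟩)
      · exact Or.inr ⟨h0, h1, h2, h3⟩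
    have s2 : (⋃ c, X ∩ (Ω ∩ φ ⁻¹' (IE (Q c)))) ⊆ X ∩ Ω :=
      iUnion_subset fun c x hx => ⟨hx.1, hx.2.1⟩
    have s3 : X ∩ (Ω ∩ φ ⁻¹' T) ⊆ X ∩ Ω := fun x hx => ⟨hx.1, hx.2.1⟩
    have nmc : ∀ c, NullMeasurableSet (X ∩ (Ω ∩ φ ⁻¹' (IE (Q c)))) μ := fun c =>
      hX.inter (hφ.isOpen_inter_preimage hΩ (isOpen_IE (Q c))).measurableSet.nullMeasurableSet
    calc _ ≤ ∫⁻ x in (⋃ c, X ∩ (Ω ∩ φ ⁻¹' (Pun Λ B ∩ IE (C c)))) ∪ (X ∩ (Ω ∩ φ ⁻¹' T)),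
          ∑ l, ‖D' l x‖ₑ ^ p ∂μ := lintegral_mono_set s1
      _ ≤ _ := lintegral_union_le _ _ _
      _ ≤ ENNReal.ofReal ((200 * a0 ^ 2 * Fintype.card ι ^ 2) ^ p) * (Kc ι p * G) +
          ENNReal.ofReal ((200 * a0 ^ 2 * Fintype.card ι ^ 2) ^ p) * G := by
          refine add_le_add ?_ ((part2 T mT sdiff_subset (fun y hy c hc =>
            hy.2 (mem_iUnion.2 ⟨c, hc⟩))).trans (mul_le_mul' le_rfl (lintegral_mono_set s3)))
          refine (lintegral_iUnion_le _ _).trans ?_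
          refine (ENNReal.tsum_le_tsum part1).trans ?_
          rw [ENNReal.tsum_mul_left, ENNReal.tsum_mul_left]
          refine mul_le_mul' le_rfl (mul_le_mul' le_rfl ?_)
          rw [← lintegral_iUnion₀ nmc]
          · exact lintegral_mono_set s2
          · intro c c' hcc
            apply Disjoint.aedisjoint
            rw [Set.disjoint_left]
            rintro x ⟨_, _, hx⟩ ⟨_, _, hx'⟩
            exact (Set.disjoint_left.1 (hF.open_disj hcc)) hx hx'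
      _ = KBF ι a0 p * G := by unfold KBF; ring

/-- **pushBF, `p < n`**: centres `z c` outside a null set; bounded factor in every brick. -/
theorem pushBF_lt {a0 p : ℝ} (ha0 : 1 ≤ a0) (hp0 : 0 ≤ p) (hΛ : IsOpen Λ) (h : Foam0 Λ Q)
    (hA : ∀ c i j, (Q c).W i ≤ a0 * (Q c).W j) {Ω : Set E} (hΩ : IsOpen Ω) {φ : E → EE ι}
    (hφ : ContinuousOn φ Ω) {J : Type*} [Fintype J] {e : J → E} {D : J → E → EE ι}
    (hD : ∀ l, VWD Ω μ φ (D l) (e l)) {N : Set (ι → ℝ)} (hN : volume N = 0) :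
    ∃ z : I → ι → ℝ, (∀ c, z c ∈ Mid (Q c)) ∧ (∀ c, z c ∉ N) ∧
      ∀ D' : J → E → EE ι, (∀ l, VWD (Ω ∩ φ ⁻¹' (Pun Λ (fun c => Box.pt (z c)))) μ
        (fun x => Psi Q (fun c => coreBF (Q c) (z c)) (fun c => Box.pt (z c)) (φ x))
          (D' l) (e l)) →
      (∀ c, ∫⁻ x in Ω ∩ φ ⁻¹' (Pun Λ (fun c => Box.pt (z c)) ∩ SE (Q c)),
        ∑ l, ‖D' l x‖ₑ ^ p ∂μ ≤ KBF ι a0 p * ∫⁻ x in Ω ∩ φ ⁻¹' (SE (Q c)),
        ∑ l, ‖D l x‖ₑ ^ p ∂μ) ∧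
      ∫⁻ x in Ω ∩ φ ⁻¹' (Pun Λ (fun c => Box.pt (z c))),
        ∑ l, ‖D' l x‖ₑ ^ p ∂μ ≤ KBF ι a0 p * ∫⁻ x in Ω, ∑ l, ‖D l x‖ₑ ^ p ∂μ := by
  obtain ⟨z, h1, h2, h3⟩ := pushBF_X (I := I) ha0 hp0 hΛ h hA hΩ hφ hD hN
    (X := univ) MeasurableSet.univ.nullMeasurableSet
  refine ⟨z, h1, h2, fun D' hD' => ?_⟩
  have h4 := h3 D' hD'
  simp only [univ_inter] at h4
  exact h4

end Crest.Agent.R96.Push_899
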