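import Mathlib
import Crest.Agent.R96.Push9_899
import Crest.Agent.R96.Push10_899

/-!
# Row 96, U2 PUSH (helper899), part 11: weak derivatives of `St ∘ φ`; near isometry of `Psi` near
the horizontal walls.
-/

set_option autoImplicit false
set_option linter.unusedSectionVars false
set_option linter.unusedVariables false

open MeasureTheory Set Filter Topology
open scoped NNReal ENNReal

noncomputable section

namespace Crest.Agent.R96.Push_899

open Crest.Agent.R96.Acl_392 Crest.Agent.R96.Sob1_199 Crest.Agent.R96.Sob2_199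
  Crest.Agent.R96.Sob3_199 Crest.Agent.R96.Sob4_199 Crest.Agent.R96.Sob5_199

variable {ι : Type*} [Fintype ι] [Nonempty ι] [DecidableEq ι]

variable {E : Type*} [NormedAddCommGroup E] [NormedSpace ℝ E] [FiniteDimensional ℝ E]
  [MeasurableSpace E] [BorelSpace E] {μ : Measure E} [μ.IsAddHaarMeasure]

/-- the good set for the stretch -/
def GoodSt (k : ι) (χ : EE ι → ℝ) (a s w : ℝ) : Set (EE ι) :=
  {y | (∀ᶠ y' in 𝓝 y, χ y' = 1) ∧ OffSh a s w (y k)}

theorem isOpen_offSh {a s w : ℝ} (hs : 0 < s) (hw : 0 < w) (hw1 : w ≤ 1 / 2) :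
    IsOpen {t : ℝ | OffSh a s w t} := by
  rw [isOpen_iff_mem_nhds]
  intro t ht
  have h0 := fract_off (ε := 0) hs hw hw1 le_rfl zero_le_one ht
  -- only the sheets near `t` matter
  set N := ⌊(t - a) / s⌋ with hN
  have h1 : ∀ᶠ t' in 𝓝 t, ∀ n ∈ ({N - 1, N, N + 1} : Finset ℤ),
      w * s < |t' - (a + s / 2 + n * s)| := by
    rw [eventually_all_finset]
    intro n _
    have hc : Continuous fun t' : ℝ => |t' - (a + s / 2 + n * s)| := by fun_prop
    exact (isOpen_lt continuous_const hc).mem_nhds (ht n)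
  have h2 : ∀ᶠ t' in 𝓝 t, |t' - t| < s / 2 := by
    have hc : Continuous fun t' : ℝ => |t' - t| := by fun_prop
    exact (isOpen_lt hc continuous_const).mem_nhds (by simpa using half_pos hs)
  filter_upwards [h1, h2] with t' a1 a2 n
  by_cases hn : n ∈ ({N - 1, N, N + 1} : Finset ℤ)
  · exact a1 n hn
  · simp only [Finset.mem_insert, Finset.mem_singleton, not_or] at hn
    have hf0 : (N : ℝ) ≤ (t - a) / s := Int.floor_le _
    have hf1 : (t - a) / s < N + 1 := Int.lt_floor_add_one _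
    rw [le_div_iff₀ hs] at hf0
    rw [div_lt_iff₀ hs] at hf1
    have hws : w * s ≤ s / 2 := by nlinarith
    have hn' : n ≤ N - 2 ∨ N + 2 ≤ n := by omega
    rw [abs_lt] at a2
    rcases hn' with h | h
    · have h3 : (n : ℝ) ≤ N - 2 := by exact_mod_cast h
      have h4 : (n : ℝ) * s ≤ (N - 2) * s := mul_le_mul_of_nonneg_right h3 hs.le
      rw [lt_abs]; left; nlinarith
    · have h3 : (N : ℝ) + 2 ≤ n := by exact_mod_cast h
      have h4 : ((N : ℝ) + 2) * s ≤ n * s := mul_le_mul_of_nonneg_right h3 hs.le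
      rw [lt_abs]; right; nlinarith

theorem isOpen_goodSt {k : ι} {χ : EE ι → ℝ} {a s w : ℝ} (hs : 0 < s) (hw : 0 < w)
    (hw1 : w ≤ 1 / 2) : IsOpen (GoodSt k χ a s w) := by
  have h1 : IsOpen {y : EE ι | ∀ᶠ y' in 𝓝 y, χ y' = 1} := by
    have := isOpen_interior (s := {y : EE ι | χ y = 1})
    rwa [interior_eq_nhds'] at this
  exact h1.inter ((isOpen_offSh hs hw hw1).preimage (continuous_coord k))

section

variable {k : ι} {χ : EE ι → ℝ} {a s w ε L : ℝ} (hs : 0 < s) (hw : 0 < w) (hw1 : w ≤ 1 / 2)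
  (hε : 0 ≤ ε) (hε1 : ε ≤ 1) (hχ0 : ∀ y, 0 ≤ χ y) (hχ1 : ∀ y, χ y ≤ 1)
  (hL : ∀ y y', |χ y' - χ y| ≤ L * ‖y' - y‖) (hL0 : 0 ≤ L)
include hs hw hw1 hε hε1 hχ0 hχ1 hL hL0

theorem continuous_St : Continuous (St k χ a s w ε) := by
  obtain ⟨K, hK⟩ := St_lip (k := k) (a := a) hs hw hw1 hε hε1 hχ0 hχ1 hL hL0
  exact hK.continuous

theorem St_wd {Ω : Set E} (hΩ : IsOpen Ω) {φ D : E → EE ι} {e : E} (hφ : ContinuousOn φ Ω)
    (hD : VWD Ω μ φ D e) : ∃ D₁, VWD Ω μ (fun x => St k χ a s w ε (φ x)) D₁ e := by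
  obtain ⟨K, hK⟩ := St_lip (k := k) (a := a) hs hw hw1 hε hε1 hχ0 hχ1 hL hL0
  exact comp_exists hΩ hD hφ (S := univ) (fun x _ => mem_univ _)
    hK.locallyLipschitz.locallyLipschitzOn

theorem St_bounds {Ω : Set E} (hΩ : IsOpen Ω) {φ D D₁ : E → EE ι} {e : E}
    (hφ : ContinuousOn φ Ω) (hD : VWD Ω μ φ D e)
    (hD₁ : VWD Ω μ (fun x => St k χ a s w ε (φ x)) D₁ e) :
    ∀ᵐ x ∂μ, x ∈ Ω → (∀ i, i ≠ k → D₁ x i = D x i) ∧
      |D₁ x k| ≤ 1 / (2 * w) * |D x k| + L * s * ∑ j, |D x j| ∧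
      (φ x ∈ GoodSt k χ a s w → |D₁ x k| ≤ ε * |D x k|) := by
  have hc := continuous_St (k := k) (a := a) hs hw hw1 hε hε1 hχ0 hχ1 hL hL0
  have hci : ∀ i, ContinuousOn (fun y => St k χ a s w ε y i) univ := fun i =>
    ((continuous_coord i).comp hc).continuousOn
  have hsum : ∀ (i : ι) (f : ι → ℝ), ∑ j, (if j = i then (1:ℝ) else 0) * f j = f i := by
    intro i f; simp
  have key1 : ∀ i, ∀ᵐ x ∂μ, i ≠ k → x ∈ Ω → D₁ x i = D x i := by
    intro i
    by_cases hi : i = k
    · exact Eventually.of_forall fun x h => absurd hi h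
    · have h1 := comp_aniso hΩ hD hφ (S := univ) (fun x _ => mem_univ _)
        (θ := fun y => St k χ a s w ε y i) (hci i) (hD₁ i) (T := univ)
        (MeasurableSet.univ.nullMeasurableSet) (b := fun _ j => if j = i then (1:ℝ) else 0)
        (A := fun _ _ => 0) (fun _ => aemeasurable_const) (fun _ => aemeasurable_const) (by
          intro x _ _
          refine Eventually.of_forall fun y' => ?_
          rw [hsum]
          simp only
          rw [St_ne y' hi, St_ne _ hi]; simp)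
      filter_upwards [h1] with x hx _ hxΩ
      have h2 := hx hxΩ (mem_univ _)
      rw [hsum] at h2
      simp only [zero_mul, Finset.sum_const_zero] at h2
      have h3 := abs_nonpos_iff.1 h2
      linarith
  have key2 : ∀ᵐ x ∂μ, x ∈ Ω → |D₁ x k| ≤ 1 / (2 * w) * |D x k| + L * s * ∑ j, |D x j| := by
    have h1 := comp_aniso hΩ hD hφ (S := univ) (fun x _ => mem_univ _)
        (θ := fun y => St k χ a s w ε y k) (hci k) (hD₁ k) (T := univ)
        (MeasurableSet.univ.nullMeasurableSet) (b := fun _ _ => 0)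
        (A := fun _ j => (if j = k then 1 / (2 * w) else 0) + L * s)
        (fun _ => aemeasurable_const) (fun _ => aemeasurable_const) (by
          intro x _ _
          refine Eventually.of_forall fun y' => ?_
          simp only [zero_mul, Finset.sum_const_zero, sub_zero, add_mul, Finset.sum_add_distrib,
            ite_mul]
          rw [Finset.sum_ite_eq' Finset.univ k, if_pos (Finset.mem_univ k), ← Finset.mul_sum]
          refine (St_sub_k hs hw hw1 hε hε1 hχ0 hχ1 hL _ _).trans ?_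
          have h2 := norm_le_sum (y' - φ x)
          have h3 : 0 ≤ L * s := by positivity
          exact add_le_add le_rfl (mul_le_mul_of_nonneg_left h2 h3))
    filter_upwards [h1] with x hx hxΩ
    have h2 := hx hxΩ (mem_univ _)
    simp only [zero_mul, Finset.sum_const_zero, sub_zero, add_mul, Finset.sum_add_distrib,
      ite_mul] at h2
    rwa [Finset.sum_ite_eq' Finset.univ k, if_pos (Finset.mem_univ k), ← Finset.mul_sum] at h2
  have key3 : ∀ᵐ x ∂μ, x ∈ Ω → φ x ∈ GoodSt k χ a s w → |D₁ x k| ≤ ε * |D x k| := by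
    have hT : NullMeasurableSet (φ ⁻¹' GoodSt k χ a s w) (μ.restrict Ω) :=
      (hφ.aestronglyMeasurable hΩ.measurableSet).aemeasurable.nullMeasurable
        (isOpen_goodSt hs hw hw1).measurableSet
    have h1 := comp_aniso hΩ hD hφ (S := univ) (fun x _ => mem_univ _)
        (θ := fun y => St k χ a s w ε y k) (hci k) (hD₁ k) (T := φ ⁻¹' GoodSt k χ a s w)
        hT (b := fun _ _ => 0) (A := fun _ j => (if j = k then ε else 0))
        (fun _ => aemeasurable_const) (fun _ => aemeasurable_const) (by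
          intro x _ hxT
          have h2 : ∀ᶠ y' in 𝓝 (φ x), χ y' = 1 := hxT.1
          have h3 : ∀ᶠ y' in 𝓝 (φ x), sg a s w ε (y' k) - sg a s w ε (φ x k) =
              ε * (y' k - φ x k) :=
            ((continuous_coord k).tendsto (φ x)).eventually
              (sg_off_slope hs hw hw1 hε hε1 hxT.2)
          filter_upwards [nhdsWithin_le_nhds h2, nhdsWithin_le_nhds h3] with y' b1 b2
          simp only [zero_mul, Finset.sum_const_zero, sub_zero, ite_mul]
          rw [Finset.sum_ite_eq' Finset.univ k, if_pos (Finset.mem_univ k), St_k, St_k, b1,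
            h2.self_of_nhds]
          have e1 : y' k + 1 * (sg a s w ε (y' k) - y' k) -
              (φ x k + 1 * (sg a s w ε (φ x k) - φ x k)) =
              sg a s w ε (y' k) - sg a s w ε (φ x k) := by ring
          rw [e1, b2, abs_mul, abs_of_nonneg hε])
    filter_upwards [h1] with x hx hxΩ hxT
    have h2 := hx hxΩ hxT
    simp only [zero_mul, Finset.sum_const_zero, sub_zero, ite_mul] at h2
    rwa [Finset.sum_ite_eq' Finset.univ k, if_pos (Finset.mem_univ k)] at h2
  filter_upwards [ae_all_iff.2 key1, key2, key3] with x h1 h2 h3 hx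
  exact ⟨fun i hi => h1 i hi hx, h2 hx, h3 hx⟩

end

/-! ### near isometry near the horizontal walls -/

/-- near-isometry in the coordinate `i`, with the actual width -/
theorem abs_psh_sub_sub_le' {Q C : Box ι} (h : Nest C Q) (y y' : ι → ℝ) (ht : 0 ≤ tt Q C y)
    (hW : ∀ i, 0 < C.W i) (ht' : 0 ≤ tt Q C y') (ht1' : tt Q C y' ≤ 1) (i : ι) {G : ℝ}
    (hG1 : Q.hi i - C.hi i ≤ G) (hG2 : C.lo i - Q.lo i ≤ G) :
    |psh Q C y' i - psh Q C y i - (y' i - y i)| ≤
      (Q.W i / ww Q C i (tt Q C y') - 1) * |y' i - y i| +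
      (Q.W i / ww Q C i (tt Q C y')) * (|tt Q C y' - tt Q C y| * G) := by
  obtain ⟨l, hl, he⟩ := psh_sub h y y' ht (Or.inr hW) ht' (Or.inr hW) i
  have hw' := ww_pos h i ht' (Or.inr hW)
  set a := Q.W i / ww Q C i (tt Q C y') with ha
  have hCW : C.W i ≤ Q.W i := by
    unfold Box.W
    have := h.g1 i; have := h.g2 i; linarith
  have hw1 : ww Q C i (tt Q C y') ≤ Q.W i := by
    rw [ww_eq]; nlinarith
  have ha1 : 1 ≤ a := by rw [ha, le_div_iff₀ hw', one_mul]; exact hw1
  have e1 : psh Q C y' i - psh Q C y i - (y' i - y i) = (a - 1) * (y' i - y i) +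
      a * ((tt Q C y' - tt Q C y) * ((1 - l) * (C.lo i - Q.lo i) - l * (Q.hi i - C.hi i))) := by
    rw [he]; ring
  rw [e1]
  apply (abs_add_le _ _).trans
  apply add_le_add
  · rw [abs_mul, abs_of_nonneg (by linarith)]
  · rw [abs_mul, abs_of_nonneg (by linarith), abs_mul]
    apply mul_le_mul_of_nonneg_left _ (by linarith)
    exact mul_le_mul_of_nonneg_left (abs_gap_le (h.g2 i).le (h.g1 i).le hl hG2 hG1)
      (abs_nonneg _)

/-- the gauge is attained only in the direction `k`, value `> t₀` -/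
def Hor (Q C : Box ι) (k : ι) (t₀ : ℝ) (y : ι → ℝ) : Prop :=
  t₀ < gg Q C y k ∧ ∀ i, i ≠ k → gg Q C y i < gg Q C y k

theorem Hor.tt_eq {Q C : Box ι} {k : ι} {t₀ : ℝ} {y : ι → ℝ} (h : Hor Q C k t₀ y) :
    tt Q C y = gg Q C y k := by
  apply le_antisymm
  · rw [tt_le_iff]
    intro i
    by_cases hi : i = k
    · rw [hi]
    · exact (h.2 i hi).le
  · exact gg_le_tt Q C y k

theorem continuous_gg (Q C : Box ι) (i : ι) : Continuous fun y : ι → ℝ => gg Q C y i := by
  unfold gg; fun_prop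

theorem Hor.eventually {Q C : Box ι} {k : ι} {t₀ : ℝ} {y : ι → ℝ} (h : Hor Q C k t₀ y) :
    ∀ᶠ y' in 𝓝 y, Hor Q C k t₀ y' := by
  have h1 : ∀ᶠ y' in 𝓝 y, t₀ < gg Q C y' k :=
    (isOpen_lt continuous_const (continuous_gg Q C k)).mem_nhds h.1
  have h2 : ∀ᶠ y' in 𝓝 y, ∀ i, i ≠ k → gg Q C y' i < gg Q C y' k := by
    rw [eventually_all]
    intro i
    by_cases hi : i = k
    · exact Eventually.of_forall fun _ h => absurd hi h
    · filter_upwards [(isOpen_lt (continuous_gg Q C i) (continuous_gg Q C k)).mem_nhds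
        (h.2 i hi)] with y' hy' _ using hy'
  filter_upwards [h1, h2] with y' a b using ⟨a, b⟩

theorem Hor.incr {P : Finset ι} {c₀ κ ρ : ℝ} {Q C : Box ι} (hS : Shape P c₀ κ ρ Q C) {k : ι}
    {t₀ : ℝ} (ht0 : 0 < t₀) {y y' : ι → ℝ} (h : Hor Q C k t₀ y) (h' : Hor Q C k t₀ y')
    (hy1 : tt Q C y ≤ 1) (hy1' : tt Q C y' ≤ 1) :
    (∀ i, i ≠ k → |psh Q C y' i - psh Q C y i - (y' i - y i)| ≤
      (1 / t₀ - 1) * |y' i - y i| + 1 / (t₀ * c₀) * |y' k - y k|) ∧
    |psh Q C y' k - psh Q C y k| ≤ (1 / t₀ * (1 + 1 / c₀)) * |y' k - y k| := by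
  have hN := hS.nest
  have hc := hS.c0
  have hr := hS.r0
  have ht : t₀ < tt Q C y := by rw [h.tt_eq]; exact h.1
  have ht' : t₀ < tt Q C y' := by rw [h'.tt_eq]; exact h'.1
  have hdt : |tt Q C y' - tt Q C y| ≤ |y' k - y k| / (c₀ * ρ) := by
    rw [h.tt_eq, h'.tt_eq]
    have g0 : 0 < c₀ * ρ := mul_pos hc hr
    rw [abs_le]
    have a1 := gg_lip hN y y' k g0 (hS.hi1 k) (hS.lo1 k)
    have a2 := gg_lip hN y' y k g0 (hS.hi1 k) (hS.lo1 k)
    rw [abs_sub_comm] at a2
    constructor <;> linarith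
  have hdtρ : |tt Q C y' - tt Q C y| * ρ ≤ 1 / c₀ * |y' k - y k| := by
    refine (mul_le_mul_of_nonneg_right hdt hr.le).trans (le_of_eq ?_)
    field_simp
  have hrat : ∀ i, Q.W i / ww Q C i (tt Q C y') ≤ 1 / t₀ := by
    intro i
    have hw := ww_pos hN i (ht0.le.trans ht'.le) (Or.inl (ht0.trans ht'))
    rw [div_le_div_iff₀ hw ht0, one_mul, ww_eq]
    have h1 := hS.CW i
    have h2 := hS.W0 i
    have h3 : C.W i ≤ Q.W i := by
      have := hN.g1 i; have := hN.g2 i; unfold Box.W; linarith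
    nlinarith
  have hrat0 : ∀ i, 0 ≤ Q.W i / ww Q C i (tt Q C y') := fun i =>
    div_nonneg (hS.W0 i).le (ww_pos hN i (ht0.le.trans ht'.le) (Or.inl (ht0.trans ht'))).le
  constructor
  · intro i hi
    refine (abs_psh_sub_sub_le' hN y y' (ht0.trans ht).le hS.CW (ht0.trans ht').le hy1' i
      (hS.hi2 i) (hS.lo2 i)).trans (add_le_add ?_ ?_)
    · exact mul_le_mul_of_nonneg_right (by linarith [hrat i]) (abs_nonneg _)
    · calc _ ≤ 1 / t₀ * (1 / c₀ * |y' k - y k|) :=
            mul_le_mul (hrat i) hdtρ (by positivity) (by positivity)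
        _ = _ := by field_simp
  · refine (abs_psh_sub_le hN y y' (ht0.trans ht).le (Or.inr hS.CW) (ht0.trans ht').le
      (Or.inr hS.CW) k (hS.hi2 k) (hS.lo2 k)).trans ?_
    calc _ ≤ 1 / t₀ * (|y' k - y k| + 1 / c₀ * |y' k - y k|) :=
          mul_le_mul (hrat k) (add_le_add le_rfl hdtρ) (by positivity) (by positivity)
      _ = _ := by ring

variable {Λ : Set (EE ι)} {I : Type*} [Countable I] {Q C B : I → Box ι} {P : Finset ι} {c₀ : ℝ}
  {κ ρ : I → ℝ}

/-- the horizontal set -/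
def HorS (Q C : I → Box ι) (k : ι) (t₀ : ℝ) : Set (EE ι) :=
  {y | ∀ c, y ∈ SE (Q c) → Hor (Q c) (C c) k t₀ (co y)}

theorem measurableSet_HorS (k : ι) (t₀ : ℝ) : MeasurableSet (HorS Q C k t₀) := by
  have h1 : HorS Q C k t₀ = ⋂ c, ((SE (Q c))ᶜ ∪ co ⁻¹' {y | Hor (Q c) (C c) k t₀ y}) := by
    ext y
    simp only [HorS, mem_ofPred_eq, mem_iInter, mem_union, mem_compl_iff, mem_preimage]
    apply forall_congr'
    intro c
    exact imp_iff_not_or
  rw [h1]
  refine MeasurableSet.iInter fun c => (isClosed_SE _).measurableSet.compl.union ?_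
  have h2 : IsOpen {y : ι → ℝ | Hor (Q c) (C c) k t₀ y} := by
    rw [isOpen_iff_mem_nhds]
    intro y hy
    exact Hor.eventually hy
  exact (h2.preimage continuous_co).measurableSet

/-- **near isometry** -/
theorem FoamC.bound_hor (h : FoamC Λ Q C B P c₀ κ ρ) (hΛ : IsOpen Λ) {Ω : Set E}
    (hΩ : IsOpen Ω) {φ D D' : E → EE ι} {e : E} (hφ : ContinuousOn φ Ω) (hD : VWD Ω μ φ D e)
    (hD' : VWD (Ω ∩ φ ⁻¹' (Pun Λ B)) μ (fun x => Psi Q C B (φ x)) D' e) (k : ι) {t₀ : ℝ}
    (ht0 : 0 < t₀) :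
    ∀ᵐ x ∂μ, x ∈ Ω ∩ φ ⁻¹' (Pun Λ B) → φ x ∈ HorS Q C k t₀ →
      (∀ i, i ≠ k → |D' x i - D x i| ≤ (1 / t₀ - 1) * |D x i| + 1 / (t₀ * c₀) * |D x k|) ∧
      |D' x k| ≤ (1 / t₀ * (1 + 1 / c₀)) * |D x k| := by
  have hO := h.isOpen_dom hΛ hΩ hφ
  have hφ' := hφ.mono (inter_subset_left (t := φ ⁻¹' (Pun Λ B)))
  have hnear : ∀ y ∈ Pun Λ B, y ∈ HorS Q C k t₀ → ∀ᶠ y' in 𝓝[Pun Λ B] y,
      (∀ i, i ≠ k → |Psi Q C B y' i - Psi Q C B y i - (y' i - y i)| ≤
        (1 / t₀ - 1) * |y' i - y i| + 1 / (t₀ * c₀) * |y' k - y k|) ∧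
      |Psi Q C B y' k - Psi Q C B y k| ≤ (1 / t₀ * (1 + 1 / c₀)) * |y' k - y k| := by
    intro y hy hyH
    apply h.fine.eventually sdiff_subset hy
    rintro ⟨c, b⟩ hc
    cases b
    · have h1 : y ∈ SE (Q c) \ IE (C c) := hc
      have hH := hyH c h1.1
      filter_upwards [self_mem_nhdsWithin, nhdsWithin_le_nhds
        (continuous_co.continuousAt.eventually (Hor.eventually hH))] with y' hy' hev'
      have h2 : y' ∈ SE (Q c) \ IE (C c) := hy'.1
      have hs := h.shape c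
      have key := Hor.incr hs ht0 hH hev' ((tt_le_one_iff hs.nest _).2 h1.1)
        ((tt_le_one_iff hs.nest _).2 h2.1)
      simp only [h.Psi_apply h1.1, h.Psi_apply h2.1, psi_out (h.inner c).nest h1.2,
        psi_out (h.inner c).nest h2.2]
      exact key
    · exfalso
      have h1 : y ∈ SE (C c) := hc
      have hH := hyH c (IE_subset_SE _ (h.core_sub c h1))
      have h2 := (tt_le_zero_iff (h.shape c).nest (co y)).2 h1
      rw [hH.tt_eq] at h2
      linarith [hH.1]
  have hsum : ∀ (i : ι) (f : ι → ℝ), ∑ j, (if j = i then (1:ℝ) else 0) * f j = f i := by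
    intro i f; simp
  have hsum2 : ∀ (i : ι), i ≠ k → ∀ (K L : ℝ) (f : ι → ℝ),
      ∑ j, (if j = i then K else if j = k then L else 0) * f j = K * f i + L * f k := by
    intro i hi K L f
    have e1 : ∀ j, (if j = i then K else if j = k then L else 0) * f j =
        (if j = i then K * f j else 0) + (if j = k then L * f j else 0) := by
      intro j
      by_cases hj : j = i
      · subst hj; simp [hi]
      · by_cases hj2 : j = k
        · subst hj2; simp [hj]
        · simp [hj, hj2]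
    rw [Finset.sum_congr rfl fun j _ => e1 j, Finset.sum_add_distrib]
    simp
  have hT := h.nm (μ := μ) hO hφ' (measurableSet_HorS (Q := Q) (C := C) k t₀)
  have key1 : ∀ i, ∀ᵐ x ∂μ, i ≠ k → x ∈ Ω ∩ φ ⁻¹' (Pun Λ B) → φ x ∈ HorS Q C k t₀ →
      |D' x i - D x i| ≤ (1 / t₀ - 1) * |D x i| + 1 / (t₀ * c₀) * |D x k| := by
    intro i
    by_cases hi : i = k
    · exact Eventually.of_forall fun x h => absurd hi h
    · have h1 := comp_aniso hO (fun i => wd_mono (hD i) inter_subset_left) hφ' (S := Pun Λ B)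
        (fun x hx => hx.2) (θ := fun y => Psi Q C B y i)
        (continuousOn_comp_apply (h.continuousOn_Psi hΛ) i) (hD' i) hT
        (b := fun _ j => if j = i then (1:ℝ) else 0)
        (A := fun _ j => if j = i then 1 / t₀ - 1 else if j = k then 1 / (t₀ * c₀) else 0)
        (fun _ => aemeasurable_const) (fun _ => aemeasurable_const) (by
          intro x hx hxT
          filter_upwards [hnear (φ x) hx.2 hxT] with y' hy'
          rw [hsum, hsum2 i hi]
          exact hy'.1 i hi)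
      filter_upwards [h1] with x hx _ hx1 hx2
      have h2 := hx hx1 hx2
      rwa [hsum, hsum2 i hi] at h2
  have key2 : ∀ᵐ x ∂μ, x ∈ Ω ∩ φ ⁻¹' (Pun Λ B) → φ x ∈ HorS Q C k t₀ →
      |D' x k| ≤ (1 / t₀ * (1 + 1 / c₀)) * |D x k| := by
    have h1 := comp_aniso hO (fun i => wd_mono (hD i) inter_subset_left) hφ' (S := Pun Λ B)
        (fun x hx => hx.2) (θ := fun y => Psi Q C B y k)
        (continuousOn_comp_apply (h.continuousOn_Psi hΛ) k) (hD' k) hT
        (b := fun _ _ => (0:ℝ))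
        (A := fun _ j => if j = k then (1 / t₀ * (1 + 1 / c₀)) else 0)
        (fun _ => aemeasurable_const) (fun _ => aemeasurable_const) (by
          intro x hx hxT
          filter_upwards [hnear (φ x) hx.2 hxT] with y' hy'
          simp only [zero_mul, Finset.sum_const_zero, sub_zero, ite_mul]
          rw [Finset.sum_ite_eq' Finset.univ k, if_pos (Finset.mem_univ k)]
          exact hy'.2)
    filter_upwards [h1] with x hx hx1 hx2
    have h2 := hx hx1 hx2
    simp only [zero_mul, Finset.sum_const_zero, sub_zero, ite_mul] at h2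
    rwa [Finset.sum_ite_eq' Finset.univ k, if_pos (Finset.mem_univ k)] at h2
  filter_upwards [ae_all_iff.2 key1, key2] with x h1 h2 hx hxT
  exact ⟨fun i hi => h1 i hi hx hxT, h2 hx hxT⟩

end Crest.Agent.R96.Push_899
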