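import Mathlib
import Crest.Agent.R96.Push11_899

/-!
# Row 96, U2 PUSH (helper899), part 12: offsets by pigeonhole; uniform bricks; the main estimate
for NO.
-/

set_option autoImplicit false
set_option linter.unusedSectionVars false
set_option linter.unusedVariables false

open MeasureTheory Set Filter Topology
open scoped NNReal ENNReal Function

noncomputable section

namespace Crest.Agent.R96.Push_899

open Crest.Agent.R96.Acl_392 Crest.Agent.R96.Sob1_199 Crest.Agent.R96.Sob2_199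
  Crest.Agent.R96.Sob3_199 Crest.Agent.R96.Sob4_199 Crest.Agent.R96.Sob5_199

/-! ### pigeonhole -/

theorem pigeon {X : Type*} [MeasurableSpace X] (ν : Measure X) {m : ℕ} (hm : 0 < m)
    (T : Fin m → Set X) (hT : ∀ j, NullMeasurableSet (T j) ν) (hd : Pairwise (Disjoint on T)) :
    ∃ j, ν (T j) ≤ ν univ / m := by
  have : Nonempty (Fin m) := ⟨⟨0, hm⟩⟩
  have hm0 : (m : ℝ≥0∞) ≠ 0 := by exact_mod_cast hm.ne'
  by_contra hcon
  push Not at hcon
  have h1 : ∑ _j : Fin m, ν univ / m < ∑ j, ν (T j) :=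
    ENNReal.sum_lt_sum_of_nonempty Finset.univ_nonempty fun j _ => hcon j
  have h2 : ∑ _j : Fin m, ν univ / m = ν univ := by
    rw [Finset.sum_const, Finset.card_univ, Fintype.card_fin, nsmul_eq_mul]
    exact ENNReal.mul_div_cancel hm0 (ENNReal.natCast_ne_top m)
  have h3 : ∑ j, ν (T j) ≤ ν univ := by
    have h4 : ν (⋃ j, T j) = ∑' j, ν (T j) :=
      measure_iUnion₀ (fun i j hij => (hd hij).aedisjoint) hT
    rw [tsum_fintype] at h4
    rw [← h4]
    exact measure_mono (subset_univ _)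
  rw [h2] at h1
  exact absurd (h1.trans_le h3) (lt_irrefl _)

/-- `t` is within `r` of the lattice `b + λ ℤ`. -/
def Lat (lam b r t : ℝ) : Prop := ∃ n : ℤ, |t - (b + n * lam)| ≤ r

theorem measurableSet_Lat (lam b r : ℝ) : MeasurableSet {t : ℝ | Lat lam b r t} := by
  have h1 : {t : ℝ | Lat lam b r t} = ⋃ n : ℤ, {t : ℝ | |t - (b + n * lam)| ≤ r} := by
    ext t; simp [Lat]
  rw [h1]
  refine MeasurableSet.iUnion fun n => IsClosed.measurableSet ?_
  exact isClosed_le (by fun_prop) continuous_const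

theorem Lat_disj {lam b : ℝ} (hl : 0 < lam) {m : ℕ} (hm : 0 < m) {j j' : Fin m} (hj : j ≠ j')
    {t : ℝ} (h : Lat lam (b + j * lam / m) (lam / (4 * m)) t)
    (h' : Lat lam (b + j' * lam / m) (lam / (4 * m)) t) : False := by
  obtain ⟨n, hn⟩ := h
  obtain ⟨n', hn'⟩ := h'
  have hm' : (0:ℝ) < m := by exact_mod_cast hm
  set x : ℤ := ((j:ℤ) - j') + (n - n') * m with hx
  have h1 : |(x : ℝ)| * (lam / m) ≤ lam / (2 * m) := by
    have e1 : (x : ℝ) * (lam / m) = (t - (b + j' * lam / m + n' * lam)) -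
        (t - (b + j * lam / m + n * lam)) := by
      rw [hx]; push_cast; field_simp; ring
    have e2 : |(x : ℝ)| * (lam / m) = |(x : ℝ) * (lam / m)| := by
      rw [abs_mul, abs_of_pos (by positivity : (0:ℝ) < lam / m)]
    rw [e2, e1]
    refine (abs_sub _ _).trans ?_
    have e3 : lam / (2 * m) = lam / (4 * m) + lam / (4 * m) := by field_simp; ring
    linarith
  have h2 : |(x : ℝ)| ≤ 1 / 2 := by
    have h3 : |(x : ℝ)| * (lam / m) ≤ 1 / 2 * (lam / m) := by
      refine h1.trans (le_of_eq ?_); field_simp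
    exact le_of_mul_le_mul_right h3 (by positivity)
  have h4 : x = 0 := by
    by_contra hne
    have h5 : (1:ℤ) ≤ |x| := Int.one_le_abs hne
    have h6 : (1:ℝ) ≤ |(x : ℝ)| := by exact_mod_cast h5
    linarith
  -- so j - j' is a multiple of m
  have hjj : ((j:ℤ) - j') = (n' - n) * m := by rw [hx] at h4; linarith
  have h7 : |((j:ℤ) - j')| < m := by
    have a1 := j.2
    have a2 := j'.2
    rw [abs_lt]; constructor <;> omega
  have h8 : n' - n = 0 := by
    by_contra hne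
    have h9 : (1:ℤ) ≤ |n' - n| := Int.one_le_abs hne
    rw [hjj, abs_mul, Nat.abs_cast] at h7
    have : (m:ℤ) ≤ |n' - n| * m := le_mul_of_one_le_left (by positivity) h9
    linarith
  rw [h8, zero_mul] at hjj
  apply hj
  apply Fin.ext
  omega

variable {E : Type*} [NormedAddCommGroup E] [NormedSpace ℝ E] [FiniteDimensional ℝ E]
  [MeasurableSpace E] [BorelSpace E] {μ : Measure E} [μ.IsAddHaarMeasure]

theorem exists_off {lam : ℝ} (hl : 0 < lam) {m : ℕ} (hm : 0 < m) (b : ℝ) {Ω : Set E}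
    {u : E → ℝ} (hu : AEMeasurable u (μ.restrict Ω)) (hΩ : MeasurableSet Ω) :
    ∃ j : Fin m, μ (Ω ∩ {x | Lat lam (b + j * lam / m) (lam / (4 * m)) (u x)}) ≤ μ Ω / m := by
  have hnm : ∀ j : Fin m, NullMeasurableSet
      {x | Lat lam (b + j * lam / m) (lam / (4 * m)) (u x)} (μ.restrict Ω) := fun j =>
    hu.nullMeasurable (measurableSet_Lat _ _ _)
  obtain ⟨j, hj⟩ := pigeon (μ.restrict Ω) hm
    (fun j : Fin m => {x | Lat lam (b + j * lam / m) (lam / (4 * m)) (u x)}) hnm (by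
      intro j j' hjj
      change Disjoint _ _
      rw [Set.disjoint_left]
      intro x hx hx'
      exact Lat_disj hl hm hjj hx hx')
  refine ⟨j, ?_⟩
  rw [Measure.restrict_apply_univ] at hj
  have h1 := Measure.restrict_apply₀ (μ := μ) (s := Ω) (hnm j)
  rw [inter_comm] at h1
  rw [← h1]
  exact hj

variable {ι : Type*} [Fintype ι] [Nonempty ι] [DecidableEq ι]

/-! ### uniform bricks -/

/-- a uniform brick: slab `[a_k + n s, a_k + (n+1) s]`, other walls in `a_i + (s/2) ℤ`. -/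
structure Uni (k : ι) (a : ι → ℝ) (s : ℝ) (Q : Box ι) : Prop where
  lo_k : ∃ n : ℤ, Q.lo k = a k + n * s
  hi_k : Q.hi k = Q.lo k + s
  lo_i : ∀ i, i ≠ k → ∃ n : ℤ, Q.lo i = a i + n * (s / 2)
  hi_i : ∀ i, i ≠ k → ∃ n : ℤ, Q.hi i = a i + n * (s / 2)

theorem hor_of_good {k : ι} {a : ι → ℝ} {s a0 κ η : ℝ} (hs : 0 < s) (ha0 : 1 ≤ a0) (hη : 0 < η)
    {Q C : Box ι} (hU : Uni k a s Q) (hA : ∀ i j, Q.W i ≤ a0 * Q.W j)
    (hS : Shape ∅ (1 / (8 * a0)) κ (side Q) Q C) {y : ι → ℝ} (hy : y ∈ Q.S) {N : ℤ}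
    {ε : ℝ} (hε0 : 0 ≤ ε) (hε : ε ≤ η / (8 * a0 ^ 2)) (hε1 : ε < 1)
    (hyk : |y k - (a k + N * s)| ≤ ε * s / 2)
    (hyi : ∀ i, i ≠ k → ∀ n : ℤ, η * s < |y i - (a i + n * (s / 2))|) :
    Hor Q C k (1 - η / a0) y := by
  have a0p : 0 < a0 := by linarith
  have hWk : Q.W k = s := by unfold Box.W; rw [hU.hi_k]; ring
  have hside1 : s ≤ side Q := by rw [← hWk]; exact W_le_side Q k
  have hside2 : side Q ≤ a0 * s := by
    rw [← hWk]; exact side_le fun j => hA j k
  have hgapk : ∀ g, 1 / (8 * a0) * side Q ≤ g → s / (8 * a0) ≤ g := by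
    intro g hg
    refine le_trans ?_ hg
    rw [div_eq_mul_one_div, mul_comm]
    exact mul_le_mul_of_nonneg_left hside1 (by positivity)
  have hk1 := hgapk _ (hS.lo1 k)
  have hk2 := hgapk _ (hS.hi1 k)
  have hb : ε * s / 2 ≤ η / (2 * a0) * (s / (8 * a0)) := by
    have h1 : ε * s / 2 ≤ η / (8 * a0 ^ 2) * s / 2 := by gcongr
    refine h1.trans (le_of_eq ?_)
    field_simp
  -- the gauge in direction k
  have hgk : 1 - η / (2 * a0) ≤ gg Q C y k := by
    obtain ⟨n, hn⟩ := hU.lo_k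
    have hy1 := (hy k).1
    have hy2 := (hy k).2
    rw [hU.hi_k] at hy2
    rw [abs_le] at hyk
    have hεs : ε * s / 2 < s / 2 := by nlinarith
    have hcase : N ≤ n ∨ n + 1 ≤ N := by omega
    unfold gg
    rcases hcase with h1 | h1
    · -- near the bottom
      have h2 : (N : ℝ) * s ≤ n * s := mul_le_mul_of_nonneg_right (by exact_mod_cast h1) hs.le
      have h3 : y k - Q.lo k ≤ ε * s / 2 := by rw [hn]; linarith [hyk.2]
      refine le_trans ?_ (le_max_right _ _)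
      rw [le_div_iff₀ (hS.nest.g2 k)]
      have h4 : η / (2 * a0) * (s / (8 * a0)) ≤ η / (2 * a0) * (C.lo k - Q.lo k) :=
        mul_le_mul_of_nonneg_left hk1 (by positivity)
      linarith
    · have h2 : ((n : ℝ) + 1) * s ≤ N * s := mul_le_mul_of_nonneg_right (by exact_mod_cast h1) hs.le
      have h3 : Q.hi k - y k ≤ ε * s / 2 := by rw [hU.hi_k, hn]; linarith [hyk.1]
      refine le_trans ?_ (le_max_left _ _)
      rw [le_div_iff₀ (hS.nest.g1 k)]
      have h4 : η / (2 * a0) * (s / (8 * a0)) ≤ η / (2 * a0) * (Q.hi k - C.hi k) :=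
        mul_le_mul_of_nonneg_left hk2 (by positivity)
      linarith
  have hlt : η / (2 * a0) < η / a0 := by
    apply div_lt_div_of_pos_left hη a0p; linarith
  refine ⟨by linarith, fun i hi => lt_of_lt_of_le ?_ hgk⟩
  have hgi : gg Q C y i < 1 - η / a0 := by
    obtain ⟨n1, hn1⟩ := hU.lo_i i hi
    obtain ⟨n2, hn2⟩ := hU.hi_i i hi
    have hy1 := hyi i hi n1
    have hy2 := hyi i hi n2
    rw [← hn1, abs_of_nonneg (by linarith [(hy i).1])] at hy1
    rw [← hn2, abs_sub_comm, abs_of_nonneg (by linarith [(hy i).2])] at hy2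
    have g1 := (hS.hi2 i).trans hside2
    have g2 := (hS.lo2 i).trans hside2
    unfold gg
    apply max_lt
    · rw [div_lt_iff₀ (hS.nest.g1 i)]
      have h4 : η / a0 * (Q.hi i - C.hi i) ≤ η * s := by
        calc _ ≤ η / a0 * (a0 * s) := mul_le_mul_of_nonneg_left g1 (by positivity)
          _ = _ := by field_simp
      linarith
    · rw [div_lt_iff₀ (hS.nest.g2 i)]
      have h4 : η / a0 * (C.lo i - Q.lo i) ≤ η * s := by
        calc _ ≤ η / a0 * (a0 * s) := mul_le_mul_of_nonneg_left g2 (by positivity)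
          _ = _ := by field_simp
      linarith
  linarith

/-! ### real estimates -/

theorem good_real {n a0 η t₀ : ℝ} {k : ι} (hn : (Fintype.card ι : ℝ) = n) (ha0 : 1 ≤ a0)
    (hη : 0 < η) (hη1 : η ≤ 1 / 2) (ht : t₀ = 1 - η / a0) {D D₁ D' v : EE ι} (hv : v k = 0)
    (h1 : ∀ i, i ≠ k → D₁ i = D i) (h2 : |D₁ k| ≤ |D k|)
    (h3 : ∀ i, i ≠ k → |D' i - D₁ i| ≤ (1 / t₀ - 1) * |D₁ i| +
      1 / (t₀ * (1 / (8 * a0))) * |D₁ k|)
    (h4 : |D' k| ≤ (1 / t₀ * (1 + 1 / (1 / (8 * a0)))) * |D₁ k|) :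
    ‖D' - v‖ ≤ (18 * a0 * n) * ‖D - v‖ + (2 * n * η) * ‖v‖ := by
  have a0p : 0 < a0 := by linarith
  have hηa : η / a0 ≤ η := div_le_self hη.le ha0
  have hηa0 : 0 < η / a0 := by positivity
  have ht0 : 1 / 2 ≤ t₀ := by rw [ht]; linarith
  have ht0' : 0 < t₀ := by linarith
  have e1 : 1 / t₀ - 1 ≤ 2 * η := by
    rw [sub_le_iff_le_add, div_le_iff₀ ht0', ht]
    nlinarith
  have e2 : 1 / (t₀ * (1 / (8 * a0))) ≤ 16 * a0 := by
    have : 1 / (t₀ * (1 / (8 * a0))) = 8 * a0 / t₀ := by field_simp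
    rw [this, div_le_iff₀ ht0']; nlinarith
  have e3 : 1 / t₀ * (1 + 1 / (1 / (8 * a0))) ≤ 18 * a0 := by
    have h5 : 1 / (1 / (8 * a0)) = 8 * a0 := by field_simp
    rw [h5, div_mul_eq_mul_div, one_mul, div_le_iff₀ ht0']; nlinarith
  have hDk : |D₁ k| ≤ ‖D - v‖ := by
    have := abs_le_norm (D - v) k
    rw [PiLp.sub_apply, hv, sub_zero] at this
    exact h2.trans this
  have hi : ∀ i, |(D' - v) i| ≤ 18 * a0 * ‖D - v‖ + 2 * η * ‖v‖ := by
    intro i
    rw [PiLp.sub_apply]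
    by_cases hik : i = k
    · subst hik
      rw [hv, sub_zero]
      have h5 : |D' i| ≤ 18 * a0 * ‖D - v‖ := h4.trans
        (mul_le_mul e3 hDk (abs_nonneg _) (by positivity))
      have h6 : 0 ≤ 2 * η * ‖v‖ := by positivity
      linarith
    · have h5 := abs_le_norm (D - v) i
      rw [PiLp.sub_apply] at h5
      have h6 := abs_le_norm v i
      have h7 : |D i| ≤ ‖v‖ + ‖D - v‖ := by
        have := abs_add_le (v i) (D i - v i)
        rw [add_sub_cancel] at this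
        linarith
      have h8 := h3 i hik
      rw [h1 i hik] at h8
      have h9 : (1 / t₀ - 1) * |D i| ≤ 2 * η * (‖v‖ + ‖D - v‖) :=
        (mul_le_mul_of_nonneg_right e1 (abs_nonneg _)).trans
          (mul_le_mul_of_nonneg_left h7 (by positivity))
      have h10 : 1 / (t₀ * (1 / (8 * a0))) * |D₁ k| ≤ 16 * a0 * ‖D - v‖ :=
        mul_le_mul e2 hDk (abs_nonneg _) (by positivity)
      have h11 : |D' i - v i| ≤ |D' i - D i| + |D i - v i| := by
        have := abs_add_le (D' i - D i) (D i - v i)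
        rwa [sub_add_sub_cancel] at this
      have hnn := norm_nonneg (D - v)
      nlinarith
  refine (norm_le_sum _).trans ((Finset.sum_le_sum fun i _ => hi i).trans ?_)
  rw [Finset.sum_const, Finset.card_univ, nsmul_eq_mul, hn]
  exact le_of_eq (by ring)

theorem bad_real {n w Ls : ℝ} {k : ι} (hn : (Fintype.card ι : ℝ) = n) (hw : 0 < w)
    (hLs : 0 ≤ Ls) (hLs1 : Ls ≤ 1) {D D₁ v : EE ι} (hv : v k = 0)
    (h1 : ∀ i, i ≠ k → D₁ i = D i) (h2 : |D₁ k| ≤ 1 / (2 * w) * |D k| + Ls * ∑ j, |D j|) :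
    ‖D₁‖ ≤ (2 * n) * ‖v‖ + (2 * n + 1 / (2 * w)) * ‖D - v‖ := by
  have hn0 : 0 ≤ n := by rw [← hn]; positivity
  have hDk : |D k| ≤ ‖D - v‖ := by
    have := abs_le_norm (D - v) k
    rwa [PiLp.sub_apply, hv, sub_zero] at this
  have hD : ‖D‖ ≤ ‖v‖ + ‖D - v‖ := by
    have := norm_add_le v (D - v)
    rwa [add_sub_cancel] at this
  have hs : ∑ j, |D j| ≤ n * ‖D‖ := by rw [← hn]; exact sum_abs_le D
  have hk : |D₁ k| ≤ 1 / (2 * w) * ‖D - v‖ + n * ‖D‖ := by
    refine h2.trans (add_le_add (mul_le_mul_of_nonneg_left hDk (by positivity)) ?_)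
    calc _ ≤ 1 * (n * ‖D‖) := mul_le_mul hLs1 hs (Finset.sum_nonneg fun _ _ => abs_nonneg _)
          zero_le_one
      _ = _ := one_mul _
  have hall : ∀ i, |D₁ i| ≤ ‖D‖ + (if i = k then 1 / (2 * w) * ‖D - v‖ + n * ‖D‖ else 0) := by
    intro i
    split_ifs with hi
    · rw [hi]; linarith [norm_nonneg D]
    · rw [h1 i hi, add_zero]; exact abs_le_norm D i
  refine (norm_le_sum _).trans ((Finset.sum_le_sum fun i _ => hall i).trans ?_)
  rw [Finset.sum_add_distrib, Finset.sum_const, Finset.card_univ, nsmul_eq_mul, hn,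
    Finset.sum_ite_eq' Finset.univ k, if_pos (Finset.mem_univ k)]
  have := mul_le_mul_of_nonneg_left hD hn0
  linarith

/-- `(a + b)^p ≤ 2^p (a^p + b^p)` for extended norms -/
theorem enorm_two {F : Type*} [NormedAddCommGroup F] {u x y : F} {A B p : ℝ} (hp : 0 ≤ p)
    (hA : 0 ≤ A) (hB : 0 ≤ B) (h : ‖u‖ ≤ A * ‖x‖ + B * ‖y‖) :
    ‖u‖ₑ ^ p ≤ ENNReal.ofReal ((2 * A) ^ p) * ‖x‖ₑ ^ p +
      ENNReal.ofReal ((2 * B) ^ p) * ‖y‖ₑ ^ p := by
  have key : ∀ (c : ℝ) (v : F), 0 ≤ c → ‖u‖ ≤ c * ‖v‖ →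
      ‖u‖ₑ ^ p ≤ ENNReal.ofReal (c ^ p) * ‖v‖ₑ ^ p := by
    intro c v hc h1
    rw [← ofReal_norm v, ENNReal.ofReal_rpow_of_nonneg (norm_nonneg _) hp,
      ← ENNReal.ofReal_mul (by positivity), ← Real.mul_rpow hc (norm_nonneg _)]
    exact enorm_rpow_le hp h1
  rcases le_total (A * ‖x‖) (B * ‖y‖) with h1 | h1
  · refine (key (2 * B) y (by positivity) (by linarith)).trans ?_
    exact le_add_self
  · refine (key (2 * A) x (by positivity) (by linarith)).trans ?_
    exact le_self_add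

end Crest.Agent.R96.Push_899
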