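import Mathlib
import Crest.Agent.R96.Push12_899

/-!
# Row 96, U2 PUSH (helper899), part 13: the main estimate for NO.
-/

set_option autoImplicit false
set_option linter.unusedSectionVars false
set_option linter.unusedVariables false

open MeasureTheory Set Filter Topology
open scoped NNReal ENNReal Function

noncomputable section

namespace Crest.Agent.R96.Push_899

open Crest.Agent.R96.Acl_392 Crest.Agent.R96.Sob1_199 Crest.Agent.R96.Sob2_199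
  Crest.Agent.R96.Sob3_199 Crest.Agent.R96.Sob4_199 Crest.Agent.R96.Sob5_199

variable {ι : Type*} [Fintype ι] [Nonempty ι] [DecidableEq ι]

variable {E : Type*} [NormedAddCommGroup E] [NormedSpace ℝ E] [FiniteDimensional ℝ E]
  [MeasurableSpace E] [BorelSpace E] {μ : Measure E} [μ.IsAddHaarMeasure]

/-- parameters of the stretch -/
structure StP (χ : EE ι → ℝ) (s w ε L : ℝ) : Prop where
  hs : 0 < s
  hw : 0 < w
  hw1 : w ≤ 1 / 2
  hε : 0 < ε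
  hε1 : ε < 1
  χ0 : ∀ y, 0 ≤ χ y
  χ1 : ∀ y, χ y ≤ 1
  hL : ∀ y y', |χ y' - χ y| ≤ L * ‖y' - y‖
  hL0 : 0 ≤ L
  hLs : L * s ≤ ε / 2

/-- the good set -/
def GX (K₀ : Set (EE ι)) (k : ι) (a : ι → ℝ) (s w η : ℝ) : Set (EE ι) :=
  {y | y ∈ K₀ ∧ OffSh (a k) s w (y k) ∧ ∀ i, i ≠ k → ∀ n : ℤ, η * s < |y i - (a i + n * (s / 2))|}

theorem measurableSet_GX {K₀ : Set (EE ι)} (hK : MeasurableSet K₀) (k : ι) (a : ι → ℝ)
    {s w η : ℝ} (hs : 0 < s) (hw : 0 < w) (hw1 : w ≤ 1 / 2) :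
    MeasurableSet (GX K₀ k a s w η) := by
  have h1 : GX K₀ k a s w η = K₀ ∩ ((fun y : EE ι => y k) ⁻¹' {t | OffSh (a k) s w t} ∩
      ⋂ i, ⋂ n : ℤ, {y : EE ι | i ≠ k → η * s < |y i - (a i + n * (s / 2))|}) := by
    ext y
    simp only [GX, mem_ofPred_eq, mem_inter_iff, mem_preimage, mem_iInter]
    constructor
    · rintro ⟨h1, h2, h3⟩
      exact ⟨h1, h2, fun i n hi => h3 i hi n⟩
    · rintro ⟨h1, h2, h3⟩
      exact ⟨h1, h2, fun i hi n => h3 i n hi⟩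
  rw [h1]
  refine hK.inter (MeasurableSet.inter ?_ ?_)
  · exact ((isOpen_offSh hs hw hw1).preimage (continuous_coord k)).measurableSet
  · refine MeasurableSet.iInter fun i => MeasurableSet.iInter fun n => ?_
    by_cases hi : i = k
    · have : {y : EE ι | i ≠ k → η * s < |y i - (a i + n * (s / 2))|} = univ := by
        ext y; simp [hi]
      rw [this]; exact MeasurableSet.univ
    · have : {y : EE ι | i ≠ k → η * s < |y i - (a i + n * (s / 2))|} =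
          {y : EE ι | η * s < |y i - (a i + n * (s / 2))|} := by
        ext y; simp [hi]
      rw [this]
      have hc : Continuous fun y : EE ι => |y i - (a i + n * (s / 2))| :=
        ((continuous_coord i).sub continuous_const).abs
      exact (isOpen_lt continuous_const hc).measurableSet

variable {Λ : Set (EE ι)} {I : Type*} [Countable I] {Q C B : I → Box ι} {κ : I → ℝ}

theorem good_mem {a0 η : ℝ} (ha0 : 1 ≤ a0)
    (h : FoamC Λ Q C B ∅ (1 / (8 * a0)) κ (fun c => side (Q c)))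
    (hA : ∀ c i j, (Q c).W i ≤ a0 * (Q c).W j) {χ : EE ι → ℝ} {s w ε L : ℝ}
    (hP : StP χ s w ε L) {K₀ : Set (EE ι)} (hχ : ∀ y ∈ K₀, χ y = 1) {k : ι} {a : ι → ℝ}
    (hU : ∀ c, (∃ y ∈ SE (Q c), ∃ y₀ ∈ K₀, ‖y - y₀‖ ≤ s) → Uni k a s (Q c))
    (hη : 0 < η) (hε : ε ≤ η / (8 * a0 ^ 2)) {y : EE ι} (hy : y ∈ GX K₀ k a s w η) :
    St k χ (a k) s w ε y ∈ HorS Q C k (1 - η / a0) := by
  intro c hc
  obtain ⟨h1, h2, h3⟩ := hy
  have hd := St_dist (k := k) (a := a k) hP.hs hP.hw hP.hw1 hP.hε.le hP.hε1.le hP.χ0 hP.χ1 hP.hL y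
  have hUc := hU c ⟨_, hc, y, h1, hd⟩
  obtain ⟨N, hN⟩ := sg_off (ε := ε) hP.hs hP.hw hP.hw1 hP.hε.le hP.hε1.le h2
  apply hor_of_good hP.hs ha0 hη hUc (hA c) (h.shape c) hc hP.hε.le hε hP.hε1 (N := N)
  · change |St k χ (a k) s w ε y k - _| ≤ _
    rw [St_k, hχ y h1, one_mul, add_sub_cancel]
    exact hN
  · intro i hi n
    change _ < |St k χ (a k) s w ε y i - _|
    rw [St_ne y hi]
    exact h3 i hi n

/-- **the main estimate for NO** (all `p`; the bounded factor on the bad set is an input) -/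
theorem NO_est {a0 η p : ℝ} (ha0 : 1 ≤ a0) (hp : 0 ≤ p) (hΛ : IsOpen Λ)
    (h : FoamC Λ Q C B ∅ (1 / (8 * a0)) κ (fun c => side (Q c)))
    (hA : ∀ c i j, (Q c).W i ≤ a0 * (Q c).W j) {χ : EE ι → ℝ} {s w ε L : ℝ}
    (hP : StP χ s w ε L) {K₀ : Set (EE ι)} (hK : MeasurableSet K₀)
    (hχ : ∀ y ∈ K₀, ∀ᶠ y' in 𝓝 y, χ y' = 1) {k : ι} {a : ι → ℝ}
    (hU : ∀ c, (∃ y ∈ SE (Q c), ∃ y₀ ∈ K₀, ‖y - y₀‖ ≤ s) → Uni k a s (Q c))
    (hη : 0 < η) (hη1 : η ≤ 1 / 2) (hε : ε ≤ η / (8 * a0 ^ 2))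
    {Ω : Set E} (hΩ : IsOpen Ω) {φ : E → EE ι} (hφ : ContinuousOn φ Ω)
    {J : Type*} [Fintype J] {e : J → E} {D D₁ D' : J → E → EE ι} {v : J → EE ι}
    (hv : ∀ l, v l k = 0) (hD : ∀ l, VWD Ω μ φ (D l) (e l))
    (hD₁ : ∀ l, VWD Ω μ (fun x => St k χ (a k) s w ε (φ x)) (D₁ l) (e l))
    (hD' : ∀ l, VWD (Ω ∩ (fun x => St k χ (a k) s w ε (φ x)) ⁻¹' (Pun Λ B)) μ
      (fun x => Psi Q C B (St k χ (a k) s w ε (φ x))) (D' l) (e l))
    {KK : ℝ≥0∞}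
    (hbad : ∫⁻ x in (Ω ∩ φ ⁻¹' (GX K₀ k a s w η)ᶜ) ∩
        (Ω ∩ (fun x => St k χ (a k) s w ε (φ x)) ⁻¹' (Pun Λ B)), ∑ l, ‖D' l x‖ₑ ^ p ∂μ ≤
      KK * ∫⁻ x in (Ω ∩ φ ⁻¹' (GX K₀ k a s w η)ᶜ) ∩ Ω, ∑ l, ‖D₁ l x‖ₑ ^ p ∂μ) :
    ∫⁻ x in Ω ∩ (fun x => St k χ (a k) s w ε (φ x)) ⁻¹' (Pun Λ B),
        ∑ l, ‖D' l x - v l‖ₑ ^ p ∂μ ≤
      (ENNReal.ofReal ((2 * (18 * a0 * Fintype.card ι)) ^ p) * ∫⁻ x in Ω, ∑ l, ‖D l x - v l‖ₑ ^ p ∂μ
        + ENNReal.ofReal ((2 * (2 * Fintype.card ι * η)) ^ p) * (∑ l, ‖v l‖ₑ ^ p) * μ Ω) +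
      (ENNReal.ofReal ((2 * 1) ^ p) * (KK *
        (ENNReal.ofReal ((2 * (2 * Fintype.card ι)) ^ p) * (∑ l, ‖v l‖ₑ ^ p) *
            μ (Ω ∩ φ ⁻¹' (GX K₀ k a s w η)ᶜ) +
          ENNReal.ofReal ((2 * (2 * Fintype.card ι + 1 / (2 * w))) ^ p) *
            ∫⁻ x in Ω, ∑ l, ‖D l x - v l‖ₑ ^ p ∂μ)) +
      ENNReal.ofReal ((2 * 1) ^ p) * (∑ l, ‖v l‖ₑ ^ p) * μ (Ω ∩ φ ⁻¹' (GX K₀ k a s w η)ᶜ)) := by
  set n : ℝ := ((Fintype.card ι : ℕ) : ℝ) with hn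
  have hn0 : 0 ≤ n := by rw [hn]; positivity
  have a0p : 0 < a0 := by linarith
  have hs := hP.hs
  have hw := hP.hw
  set S : EE ι → EE ι := St k χ (a k) s w ε with hS
  have hSc : Continuous S :=
    continuous_St hP.hs hP.hw hP.hw1 hP.hε.le hP.hε1.le hP.χ0 hP.χ1 hP.hL hP.hL0
  have hφ₁ : ContinuousOn (fun x => S (φ x)) Ω := hSc.comp_continuousOn hφ
  set V : ℝ≥0∞ := ∑ l, ‖v l‖ₑ ^ p with hV
  set G : ℝ≥0∞ := ∫⁻ x in Ω, ∑ l, ‖D l x - v l‖ₑ ^ p ∂μ with hG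
  set Gd' : Set (EE ι) := GX K₀ k a s w η with hGd
  have mGd : MeasurableSet Gd' := measurableSet_GX hK k a hP.hs hP.hw hP.hw1
  set X : Set E := Ω ∩ φ ⁻¹' Gd'ᶜ with hX
  set U : Set E := Ω ∩ (fun x => S (φ x)) ⁻¹' (Pun Λ B) with hUd
  have nmφ : ∀ T : Set (EE ι), MeasurableSet T → NullMeasurableSet (Ω ∩ φ ⁻¹' T) μ := by
    intro T hT
    have h1 := h.nm (μ := μ) hΩ hφ hT
    have h2 := (nullMeasurableSet_restrict hΩ.measurableSet.nullMeasurableSet).1 h1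
    rwa [inter_comm] at h2
  have nmX : NullMeasurableSet X μ := nmφ _ mGd.compl
  have nmG : NullMeasurableSet (Ω ∩ φ ⁻¹' Gd') μ := nmφ _ mGd
  have oU : IsOpen U := h.isOpen_dom hΛ hΩ hφ₁
  have hUΩ : U ⊆ Ω := inter_subset_left
  have mDv : AEMeasurable (fun x => ∑ l, ‖D l x - v l‖ₑ ^ p) (μ.restrict Ω) :=
    Finset.aemeasurable_fun_sum _ fun l _ =>
      (((hD l).aemeas.sub aemeasurable_const).enorm).pow_const p
  -- a.e. facts
  have A1 : ∀ᵐ x ∂μ, ∀ l, x ∈ Ω → (∀ i, i ≠ k → D₁ l x i = D l x i) ∧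
      |D₁ l x k| ≤ 1 / (2 * w) * |D l x k| + L * s * ∑ j, |D l x j| ∧
      (φ x ∈ GoodSt k χ (a k) s w → |D₁ l x k| ≤ ε * |D l x k|) :=
    ae_all_iff.2 fun l => St_bounds hP.hs hP.hw hP.hw1 hP.hε.le hP.hε1.le hP.χ0 hP.χ1 hP.hL
      hP.hL0 hΩ hφ (hD l) (hD₁ l)
  have ht0 : 0 < 1 - η / a0 := by
    have : η / a0 ≤ η := div_le_self hη.le ha0
    linarith
  have A2 : ∀ᵐ x ∂μ, ∀ l, x ∈ U → S (φ x) ∈ HorS Q C k (1 - η / a0) →
      (∀ i, i ≠ k → |D' l x i - D₁ l x i| ≤ (1 / (1 - η / a0) - 1) * |D₁ l x i| +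
        1 / ((1 - η / a0) * (1 / (8 * a0))) * |D₁ l x k|) ∧
      |D' l x k| ≤ (1 / (1 - η / a0) * (1 + 1 / (1 / (8 * a0)))) * |D₁ l x k| :=
    ae_all_iff.2 fun l => h.bound_hor hΛ hΩ hφ₁ (hD₁ l) (hD' l) k ht0
  -- good part
  have good : ∫⁻ x in (Ω ∩ φ ⁻¹' Gd') ∩ U, ∑ l, ‖D' l x - v l‖ₑ ^ p ∂μ ≤
      ENNReal.ofReal ((2 * (18 * a0 * n)) ^ p) * G +
        ENNReal.ofReal ((2 * (2 * n * η)) ^ p) * V * μ Ω := by
    have hle : ∀ᵐ x ∂(μ.restrict ((Ω ∩ φ ⁻¹' Gd') ∩ U)), ∑ l, ‖D' l x - v l‖ₑ ^ p ≤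
        ENNReal.ofReal ((2 * (18 * a0 * n)) ^ p) * (∑ l, ‖D l x - v l‖ₑ ^ p) +
          ENNReal.ofReal ((2 * (2 * n * η)) ^ p) * V := by
      refine (ae_restrict_iff'₀ (nmG.inter oU.measurableSet.nullMeasurableSet)).2 ?_
      filter_upwards [A1, A2] with x h1 h2 hx
      have hxΩ : x ∈ Ω := hx.1.1
      have hxG : φ x ∈ Gd' := hx.1.2
      have hxH : S (φ x) ∈ HorS Q C k (1 - η / a0) :=
        good_mem ha0 h hA hP (fun y hy => (hχ y hy).self_of_nhds) hU hη hε hxG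
      have hgs : φ x ∈ GoodSt k χ (a k) s w := ⟨hχ _ hxG.1, hxG.2.1⟩
      rw [hV, Finset.mul_sum, Finset.mul_sum, ← Finset.sum_add_distrib]
      apply Finset.sum_le_sum
      intro l _
      obtain ⟨b1, b2, b3⟩ := h1 l hxΩ
      obtain ⟨b4, b5⟩ := h2 l hx.2 hxH
      have b6 : |D₁ l x k| ≤ |D l x k| := (b3 hgs).trans (by
        have := abs_nonneg (D l x k)
        nlinarith [hP.hε1])
      exact enorm_two hp (by positivity) (by positivity)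
        (good_real hn.symm ha0 hη hη1 rfl (hv l) b1 b6 b4 b5)
    calc _ ≤ ∫⁻ x in (Ω ∩ φ ⁻¹' Gd') ∩ U,
          (ENNReal.ofReal ((2 * (18 * a0 * n)) ^ p) * (∑ l, ‖D l x - v l‖ₑ ^ p) +
          ENNReal.ofReal ((2 * (2 * n * η)) ^ p) * V) ∂μ := lintegral_mono_ae hle
      _ ≤ ∫⁻ x in Ω, (ENNReal.ofReal ((2 * (18 * a0 * n)) ^ p) * (∑ l, ‖D l x - v l‖ₑ ^ p) +
          ENNReal.ofReal ((2 * (2 * n * η)) ^ p) * V) ∂μ :=
          lintegral_mono_set (fun x hx => hx.1.1)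
      _ = _ := by
          rw [lintegral_add_right _ measurable_const, lintegral_const_mul' _ _
            ENNReal.ofReal_ne_top, lintegral_const, Measure.restrict_apply_univ]
  -- bad part
  have bad : ∫⁻ x in X ∩ U, ∑ l, ‖D' l x - v l‖ₑ ^ p ∂μ ≤
      ENNReal.ofReal ((2 * 1) ^ p) * (KK *
        (ENNReal.ofReal ((2 * (2 * n)) ^ p) * V * μ X +
          ENNReal.ofReal ((2 * (2 * n + 1 / (2 * w))) ^ p) * G)) +
      ENNReal.ofReal ((2 * 1) ^ p) * V * μ X := by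
    have e1 : ∫⁻ x in X ∩ U, ∑ l, ‖D' l x - v l‖ₑ ^ p ∂μ ≤
        ENNReal.ofReal ((2 * 1) ^ p) * ∫⁻ x in X ∩ U, ∑ l, ‖D' l x‖ₑ ^ p ∂μ +
          ENNReal.ofReal ((2 * 1) ^ p) * V * μ X := by
      calc _ ≤ ∫⁻ x in X ∩ U, (ENNReal.ofReal ((2 * 1) ^ p) * (∑ l, ‖D' l x‖ₑ ^ p) +
            ENNReal.ofReal ((2 * 1) ^ p) * V) ∂μ := by
            apply lintegral_mono
            intro x
            simp only
            rw [hV, Finset.mul_sum, Finset.mul_sum, ← Finset.sum_add_distrib]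
            apply Finset.sum_le_sum
            intro l _
            apply enorm_two hp zero_le_one zero_le_one
            rw [one_mul, one_mul]
            exact norm_sub_le _ _
        _ = ENNReal.ofReal ((2 * 1) ^ p) * ∫⁻ x in X ∩ U, ∑ l, ‖D' l x‖ₑ ^ p ∂μ +
            ENNReal.ofReal ((2 * 1) ^ p) * V * μ (X ∩ U) := by
            rw [lintegral_add_right _ measurable_const, lintegral_const_mul' _ _
              ENNReal.ofReal_ne_top, lintegral_const, Measure.restrict_apply_univ]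
        _ ≤ _ := add_le_add le_rfl (mul_le_mul' le_rfl (measure_mono inter_subset_left))
    refine e1.trans (add_le_add (mul_le_mul' le_rfl (hbad.trans (mul_le_mul' le_rfl ?_))) le_rfl)
    have hXΩ : X ∩ Ω = X := inter_eq_left.2 inter_subset_left
    rw [hXΩ]
    have hle : ∀ᵐ x ∂(μ.restrict X), ∑ l, ‖D₁ l x‖ₑ ^ p ≤
        ENNReal.ofReal ((2 * (2 * n + 1 / (2 * w))) ^ p) * (∑ l, ‖D l x - v l‖ₑ ^ p) +
          ENNReal.ofReal ((2 * (2 * n)) ^ p) * V := by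
      refine (ae_restrict_iff'₀ nmX).2 ?_
      filter_upwards [A1] with x h1 hx
      rw [hV, Finset.mul_sum, Finset.mul_sum, ← Finset.sum_add_distrib]
      apply Finset.sum_le_sum
      intro l _
      obtain ⟨b1, b2, b3⟩ := h1 l hx.1
      have hLs0 : 0 ≤ L * s := mul_nonneg hP.hL0 hs.le
      have hLs1 : L * s ≤ 1 := by linarith [hP.hLs, hP.hε1]
      have b4 := bad_real hn.symm hw hLs0 hLs1 (hv l) b1 b2
      rw [add_comm] at b4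
      exact enorm_two hp (by positivity) (by positivity) b4
    calc _ ≤ ∫⁻ x in X, (ENNReal.ofReal ((2 * (2 * n + 1 / (2 * w))) ^ p) *
          (∑ l, ‖D l x - v l‖ₑ ^ p) + ENNReal.ofReal ((2 * (2 * n)) ^ p) * V) ∂μ :=
          lintegral_mono_ae hle
      _ = ENNReal.ofReal ((2 * (2 * n + 1 / (2 * w))) ^ p) * ∫⁻ x in X,
          (∑ l, ‖D l x - v l‖ₑ ^ p) ∂μ + ENNReal.ofReal ((2 * (2 * n)) ^ p) * V * μ X := by
          rw [lintegral_add_right _ measurable_const, lintegral_const_mul' _ _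
            ENNReal.ofReal_ne_top, lintegral_const, Measure.restrict_apply_univ]
      _ ≤ ENNReal.ofReal ((2 * (2 * n + 1 / (2 * w))) ^ p) * G +
          ENNReal.ofReal ((2 * (2 * n)) ^ p) * V * μ X :=
          add_le_add (mul_le_mul' le_rfl (lintegral_mono_set inter_subset_left)) le_rfl
      _ = _ := add_comm _ _
  have hsplit : U ⊆ ((Ω ∩ φ ⁻¹' Gd') ∩ U) ∪ (X ∩ U) := by
    intro x hx
    by_cases h1 : φ x ∈ Gd'
    · exact Or.inl ⟨⟨hUΩ hx, h1⟩, hx⟩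
    · exact Or.inr ⟨⟨hUΩ hx, h1⟩, hx⟩
  calc _ ≤ ∫⁻ x in ((Ω ∩ φ ⁻¹' Gd') ∩ U) ∪ (X ∩ U), ∑ l, ‖D' l x - v l‖ₑ ^ p ∂μ :=
        lintegral_mono_set hsplit
    _ ≤ _ := lintegral_union_le _ _ _
    _ ≤ _ := add_le_add good bad

/-- the measure of the bad set -/
theorem bad_measure {K₀ : Set (EE ι)} {k : ι} {a : ι → ℝ} {s : ℝ} {m : ℕ} (hm : 0 < m)
    {Ω : Set E} {φ : E → EE ι}
    (hk : μ (Ω ∩ {x | Lat s (a k + s / 2) (s / (4 * m)) (φ x k)}) ≤ μ Ω / m)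
    (hi : ∀ i, i ≠ k → μ (Ω ∩ {x | Lat (s / 2) (a i) (s / 2 / (4 * m)) (φ x i)}) ≤ μ Ω / m)
    {w η : ℝ} (hw : w * s = s / (4 * m)) (hη : η * s = s / 2 / (4 * m)) :
    μ (Ω ∩ φ ⁻¹' (GX K₀ k a s w η)ᶜ) ≤
      μ (Ω ∩ φ ⁻¹' K₀ᶜ) + Fintype.card ι * (μ Ω / m) := by
  have hsub : Ω ∩ φ ⁻¹' (GX K₀ k a s w η)ᶜ ⊆ (Ω ∩ φ ⁻¹' K₀ᶜ) ∪
      ⋃ i, (if i = k then Ω ∩ {x | Lat s (a k + s / 2) (s / (4 * m)) (φ x k)}
        else Ω ∩ {x | Lat (s / 2) (a i) (s / 2 / (4 * m)) (φ x i)}) := by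
    rintro x ⟨hx, hn⟩
    by_cases h1 : φ x ∈ K₀
    · right
      rw [mem_iUnion]
      by_contra hcon
      push Not at hcon
      apply hn
      refine ⟨h1, ?_, ?_⟩
      · intro n
        have h2 := hcon k
        rw [if_pos rfl] at h2
        rw [hw]
        by_contra h3
        exact h2 ⟨hx, n, not_lt.1 h3⟩
      · intro i hik n
        have h2 := hcon i
        rw [if_neg hik] at h2
        rw [hη]
        by_contra h3
        exact h2 ⟨hx, n, not_lt.1 h3⟩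
    · exact Or.inl ⟨hx, h1⟩
  refine (measure_mono hsub).trans ((measure_union_le _ _).trans (add_le_add le_rfl ?_))
  refine (measure_iUnion_fintype_le _ _).trans ?_
  have h1 : ∀ i, μ (if i = k then Ω ∩ {x | Lat s (a k + s / 2) (s / (4 * m)) (φ x k)}
        else Ω ∩ {x | Lat (s / 2) (a i) (s / 2 / (4 * m)) (φ x i)}) ≤ μ Ω / m := by
    intro i
    split_ifs with h
    · exact hk
    · exact hi i h
  refine (Finset.sum_le_sum fun i _ => h1 i).trans ?_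
  rw [Finset.sum_const, Finset.card_univ, nsmul_eq_mul]

end Crest.Agent.R96.Push_899
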