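import Mathlib
import Crest.Agent.R96.Push13_899

/-!
# Row 96, U2 PUSH (helper899), part 14: `NO_setup` (order of constants) and `pushNO_lt`.
-/

set_option autoImplicit false
set_option linter.unusedSectionVars false
set_option linter.unusedVariables false

open MeasureTheory Set Filter Topology
open scoped NNReal ENNReal Function

noncomputable section

namespace Crest.Agent.R96.Push_899

open Crest.Agent.R96.Acl_392 Crest.Agent.R96.Sob1_199 Crest.Agent.R96.Sob2_199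
  Crest.Agent.R96.Sob3_199 Crest.Agent.R96.Sob4_199 Crest.Agent.R96.Sob5_199

variable {ι : Type*} [Fintype ι] [Nonempty ι] [DecidableEq ι]

variable {E : Type*} [NormedAddCommGroup E] [NormedSpace ℝ E] [FiniteDimensional ℝ E]
  [MeasurableSpace E] [BorelSpace E] {μ : Measure E} [μ.IsAddHaarMeasure]

/-! ### the cut-off -/

/-- cut-off -/
def cutf (K₀ : Set (EE ι)) (r : ℝ) (y : EE ι) : ℝ := max 0 (min 1 (2 - Metric.infDist y K₀ / r))

theorem cutf_nonneg (K₀ : Set (EE ι)) (r : ℝ) (y : EE ι) : 0 ≤ cutf K₀ r y := le_max_left _ _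

theorem cutf_le_one (K₀ : Set (EE ι)) (r : ℝ) (y : EE ι) : cutf K₀ r y ≤ 1 :=
  max_le zero_le_one (min_le_left _ _)

theorem cutf_lip {K₀ : Set (EE ι)} {r : ℝ} (hr : 0 < r) (y y' : EE ι) :
    |cutf K₀ r y' - cutf K₀ r y| ≤ 1 / r * ‖y' - y‖ := by
  have key : ∀ u v : EE ι, cutf K₀ r v ≤ cutf K₀ r u + 1 / r * ‖v - u‖ := by
    intro u v
    have h1 : Metric.infDist u K₀ ≤ Metric.infDist v K₀ + dist u v := Metric.infDist_le_infDist_add_dist
    rw [dist_eq_norm, norm_sub_rev] at h1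
    have h2 : 2 - Metric.infDist v K₀ / r ≤ (2 - Metric.infDist u K₀ / r) + 1 / r * ‖v - u‖ := by
      have h3 : Metric.infDist u K₀ / r ≤ (Metric.infDist v K₀ + ‖v - u‖) / r :=
        div_le_div_of_nonneg_right h1 hr.le
      rw [add_div] at h3
      rw [one_div, inv_mul_eq_div]
      linarith
    have h0 : 0 ≤ 1 / r * ‖v - u‖ := by positivity
    unfold cutf
    apply max_le
    · have := le_max_left 0 (min 1 (2 - Metric.infDist u K₀ / r)); linarith
    · have h4 : min 1 (2 - Metric.infDist v K₀ / r) ≤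
          min 1 (2 - Metric.infDist u K₀ / r) + 1 / r * ‖v - u‖ := by
        rcases le_total 1 (2 - Metric.infDist u K₀ / r) with h | h
        · rw [min_eq_left h]; exact (min_le_left _ _).trans (by linarith)
        · rw [min_eq_right h]; exact (min_le_right _ _).trans h2
      have := le_max_right 0 (min 1 (2 - Metric.infDist u K₀ / r)); linarith
  rw [abs_le]
  have h1 := key y y'
  have h2 := key y' y
  rw [norm_sub_rev] at h2
  constructor <;> linarith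

theorem cutf_eq_one {K₀ : Set (EE ι)} {r : ℝ} (hr : 0 < r) {y : EE ι}
    (h : Metric.infDist y K₀ ≤ r) : cutf K₀ r y = 1 := by
  unfold cutf
  have : Metric.infDist y K₀ / r ≤ 1 := by rw [div_le_one hr]; exact h
  rw [min_eq_left (by linarith)]
  exact max_eq_right zero_le_one

theorem cutf_eq_zero {K₀ : Set (EE ι)} {r : ℝ} (hr : 0 < r) {y : EE ι}
    (h : 2 * r ≤ Metric.infDist y K₀) : cutf K₀ r y = 0 := by
  unfold cutf
  have : 2 ≤ Metric.infDist y K₀ / r := by rw [le_div_iff₀ hr]; exact h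
  exact max_eq_left ((min_le_right _ _).trans (by linarith))

theorem cutf_near {K₀ : Set (EE ι)} {r : ℝ} (hr : 0 < r) {y : EE ι} (hy : y ∈ K₀) :
    ∀ᶠ y' in 𝓝 y, cutf K₀ r y' = 1 := by
  have h1 : Metric.infDist y K₀ < r := by rw [Metric.infDist_zero_of_mem hy]; exact hr
  have h2 : ∀ᶠ y' in 𝓝 y, Metric.infDist y' K₀ < r :=
    (isOpen_lt (Metric.continuous_infDist_pt K₀) continuous_const).mem_nhds h1
  filter_upwards [h2] with y' hy' using cutf_eq_one hr hy'.le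

/-! ### the compact set -/

theorem exists_compact {Ω : Set E} (hΩ : IsOpen Ω) (hΩf : μ Ω ≠ ⊤) (hΩ0 : μ Ω ≠ 0)
    {Λ : Set (EE ι)} (hΛ : IsOpen Λ) {φ : E → EE ι} (hφ : ContinuousOn φ Ω) (hm : MapsTo φ Ω Λ)
    {t : ℝ≥0∞} (ht : t ≠ 0) :
    ∃ K₀ : Set (EE ι), IsCompact K₀ ∧ K₀ ⊆ Λ ∧ K₀.Nonempty ∧ μ (Ω ∩ φ ⁻¹' K₀ᶜ) ≤ t := by
  have mφ : AEMeasurable φ (μ.restrict Ω) :=
    (hφ.aestronglyMeasurable hΩ.measurableSet).aemeasurable
  have : IsFiniteMeasure (μ.restrict Ω) := ⟨by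
    rw [Measure.restrict_apply_univ]; exact lt_top_iff_ne_top.2 hΩf⟩
  set ν := (μ.restrict Ω).map φ with hν
  have hνf : IsFiniteMeasure ν := Measure.isFiniteMeasure_map _ _
  have hval : ∀ T : Set (EE ι), MeasurableSet T → ν T = μ (Ω ∩ φ ⁻¹' T) := by
    intro T hT
    rw [hν, Measure.map_apply_of_aemeasurable mφ hT, Measure.restrict_apply₀
      (mφ.nullMeasurable hT), inter_comm]
  have hΛ' : ν Λ = μ Ω := by
    rw [hval Λ hΛ.measurableSet]
    congr 1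
    exact inter_eq_left.2 hm
  have huniv : ν univ = μ Ω := by rw [hval univ MeasurableSet.univ]; simp
  have hlt : ν Λ - t < ν Λ := ENNReal.sub_lt_self (by rw [hΛ']; exact hΩf) (by rw [hΛ']; exact hΩ0) ht
  obtain ⟨K, hKΛ, hK, hKν⟩ := hΛ.exists_lt_isCompact hlt
  refine ⟨K, hK, hKΛ, ?_, ?_⟩
  · rw [nonempty_iff_ne_empty]
    rintro rfl
    simp at hKν
  · rw [← hval _ hK.measurableSet.compl, measure_compl hK.measurableSet (measure_ne_top _ _)]
    rw [huniv, ← hΛ', tsub_le_iff_right]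
    have h1 : ν Λ ≤ ν Λ - t + t := le_tsub_add
    calc ν Λ ≤ ν Λ - t + t := h1
      _ ≤ ν K + t := add_le_add hKν.le le_rfl
      _ = t + ν K := add_comm _ _

/-- choice of `m` -/
theorem exists_m {n p : ℝ} (hn : 0 ≤ n) (hp : 0 < p) {V A d : ℝ≥0∞} (hV : V ≠ ⊤) (hA : A ≠ ⊤)
    (hd : 0 < d) :
    ∃ m : ℕ, 0 < m ∧ ENNReal.ofReal ((2 * (2 * n * (1 / (8 * m)))) ^ p) * V + A / m ≤ d := by
  have h1 : Tendsto (fun m : ℕ => (2 * (2 * n * (1 / (8 * (m:ℝ)))))) atTop (𝓝 0) := by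
    have h2 : Tendsto (fun m : ℕ => n / 2 * ((m:ℝ))⁻¹) atTop (𝓝 (n / 2 * 0)) :=
      tendsto_inv_atTop_nhds_zero_nat.const_mul _
    rw [mul_zero] at h2
    refine h2.congr fun m => ?_
    rw [one_div, mul_inv]; ring
  have h3 : Tendsto (fun m : ℕ => (2 * (2 * n * (1 / (8 * (m:ℝ))))) ^ p) atTop (𝓝 0) := by
    have h4 := (Real.continuousAt_rpow_const 0 p (Or.inr hp.le)).tendsto.comp h1
    rw [Real.zero_rpow hp.ne'] at h4
    exact h4
  have h5 : Tendsto (fun m : ℕ => ENNReal.ofReal ((2 * (2 * n * (1 / (8 * (m:ℝ))))) ^ p) * V)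
      atTop (𝓝 0) := by
    have h6 := ENNReal.tendsto_ofReal h3
    rw [ENNReal.ofReal_zero] at h6
    have h7 := ENNReal.Tendsto.mul_const (b := V) h6 (Or.inr hV)
    rwa [zero_mul] at h7
  have h8 : Tendsto (fun m : ℕ => A / m) atTop (𝓝 0) := by
    have h9 := ENNReal.Tendsto.const_mul (a := A) ENNReal.tendsto_inv_nat_nhds_zero (Or.inr hA)
    rw [mul_zero] at h9
    exact h9
  have h10 := h5.add h8
  rw [add_zero] at h10
  obtain ⟨m, hm1, hm2⟩ := ((h10.eventually (gt_mem_nhds hd)).and (eventually_gt_atTop 0)).exists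
  exact ⟨m, hm2, hm1.le⟩

/-- the parameter functions -/
def wm (m : ℕ) : ℝ := 1 / (4 * m)
def ηm (m : ℕ) : ℝ := 1 / (8 * m)
def εm (a0 : ℝ) (m : ℕ) : ℝ := 1 / (8 * m) / (8 * a0 ^ 2)

/-- **order of constants for NO** (all `p > 0`): `KK` is the bounded factor on the bad set. -/
theorem NO_setup (k : ι) {a0 p : ℝ} (ha0 : 1 ≤ a0) (hp : 0 < p) {KK : ℝ≥0∞} (hKK : KK ≠ ⊤)
    {J : Type*} [Fintype J] (v : J → EE ι) (hv : ∀ l, v l k = 0) {d : ℝ≥0∞} (hd : 0 < d) :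
    ∃ m : ℕ, 0 < m ∧ ∃ δ : ℝ≥0∞, 0 < δ ∧
      ∀ (Ω : Set E) (Λ : Set (EE ι)) (φ : E → EE ι) (e : J → E) (D : J → E → EE ι),
        IsOpen Ω → Ω.Nonempty → μ Ω ≠ ⊤ → IsOpen Λ → ContinuousOn φ Ω → MapsTo φ Ω Λ →
        (∀ l, VWD Ω μ φ (D l) (e l)) →
        ∫⁻ x in Ω, ∑ l, ‖D l x - v l‖ₑ ^ p ∂μ ≤ δ * μ Ω →
      ∃ K₀ : Set (EE ι), IsCompact K₀ ∧ K₀.Nonempty ∧ K₀ ⊆ Λ ∧
      ∃ r > 0, Metric.cthickening (2 * r) K₀ ⊆ Λ ∧ ∃ s₀ > 0, ∀ s, 0 < s → s < s₀ → StP (cutf K₀ r) s (wm m) (εm a0 m) (1 / r) ∧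
      ∀ b : ι → ℝ, ∃ a : ι → ℝ,
        (∀ i, ∃ j : ℕ, j < m ∧ a i = b i + j * (if i = k then s else s / 2) / m) ∧
        μ (Ω ∩ φ ⁻¹' (GX K₀ k a s (wm m) (ηm m))ᶜ) ≤ d * μ Ω ∧
      ∀ (I : Type) [Countable I] (Q C B : I → Box ι) (κ : I → ℝ),
        FoamC Λ Q C B ∅ (1 / (8 * a0)) κ (fun c => side (Q c)) →
        (∀ c i j, (Q c).W i ≤ a0 * (Q c).W j) →
        (∀ c, (∃ y ∈ SE (Q c), ∃ y₀ ∈ K₀, ‖y - y₀‖ ≤ s) → Uni k a s (Q c)) →
      ∀ (D₁ D' : J → E → EE ι),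
        (∀ l, VWD Ω μ (fun x => St k (cutf K₀ r) (a k) s (wm m) (εm a0 m) (φ x)) (D₁ l) (e l)) →
        (∀ l, VWD (Ω ∩ (fun x => St k (cutf K₀ r) (a k) s (wm m) (εm a0 m) (φ x)) ⁻¹' (Pun Λ B)) μ
          (fun x => Psi Q C B (St k (cutf K₀ r) (a k) s (wm m) (εm a0 m) (φ x))) (D' l) (e l)) →
        (∫⁻ x in (Ω ∩ φ ⁻¹' (GX K₀ k a s (wm m) (ηm m))ᶜ) ∩
            (Ω ∩ (fun x => St k (cutf K₀ r) (a k) s (wm m) (εm a0 m) (φ x)) ⁻¹' (Pun Λ B)),
            ∑ l, ‖D' l x‖ₑ ^ p ∂μ ≤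
          KK * ∫⁻ x in (Ω ∩ φ ⁻¹' (GX K₀ k a s (wm m) (ηm m))ᶜ) ∩ Ω,
            ∑ l, ‖D₁ l x‖ₑ ^ p ∂μ) →
        ∫⁻ x in Ω ∩ (fun x => St k (cutf K₀ r) (a k) s (wm m) (εm a0 m) (φ x)) ⁻¹' (Pun Λ B),
          ∑ l, ‖D' l x - v l‖ₑ ^ p ∂μ ≤ d * μ Ω := by
  have a0p : 0 < a0 := by linarith
  set n : ℝ := ((Fintype.card ι : ℕ) : ℝ) with hn
  have hn0 : 0 ≤ n := by rw [hn]; positivity
  set V : ℝ≥0∞ := ∑ l, ‖v l‖ₑ ^ p with hV
  have hVt : V ≠ ⊤ := ENNReal.sum_ne_top.2 fun l _ =>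
    ENNReal.rpow_ne_top_of_nonneg hp.le enorm_ne_top
  set P2 : ℝ≥0∞ := ENNReal.ofReal ((2 * 1) ^ p) with hP2
  set c3 : ℝ≥0∞ := ENNReal.ofReal ((2 * (2 * n)) ^ p) with hc3
  set A : ℝ≥0∞ := P2 * (KK * c3 + 1) * V * (1 + Fintype.card ι) with hA
  have hAt : A ≠ ⊤ := by
    rw [hA]
    refine ENNReal.mul_ne_top (ENNReal.mul_ne_top (ENNReal.mul_ne_top ENNReal.ofReal_ne_top
      (ENNReal.add_ne_top.2 ⟨ENNReal.mul_ne_top hKK ENNReal.ofReal_ne_top, ENNReal.one_ne_top⟩))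
      hVt) (ENNReal.add_ne_top.2 ⟨ENNReal.one_ne_top, ENNReal.natCast_ne_top _⟩)
  have hd2 : 0 < d / 2 := ENNReal.half_pos hd.ne'
  have hAt' : A + (1 + Fintype.card ι) ≠ ⊤ := ENNReal.add_ne_top.2 ⟨hAt,
    ENNReal.add_ne_top.2 ⟨ENNReal.one_ne_top, ENNReal.natCast_ne_top _⟩⟩
  obtain ⟨m, hm, hmd'⟩ := exists_m hn0 hp hVt hAt' hd2
  have hmd : ENNReal.ofReal ((2 * (2 * n * (1 / (8 * m)))) ^ p) * V + A / m ≤ d / 2 := by
    refine le_trans (add_le_add le_rfl ?_) hmd'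
    exact ENNReal.div_le_div_right le_self_add _
  have hmX : (1 + Fintype.card ι : ℝ≥0∞) / m ≤ d := by
    refine le_trans ?_ (hmd'.trans ENNReal.half_le_self)
    refine le_trans ?_ le_add_self
    exact ENNReal.div_le_div_right le_add_self _
  have hm' : (0:ℝ) < m := by exact_mod_cast hm
  have hm1 : (1:ℝ) ≤ m := by exact_mod_cast hm
  -- the parameters
  have hw : 0 < wm m := by unfold wm; positivity
  have hw1 : wm m ≤ 1 / 2 := by
    unfold wm; rw [div_le_div_iff₀ (by positivity) (by norm_num)]; linarith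
  have hη : 0 < ηm m := by unfold ηm; positivity
  have hη1 : ηm m ≤ 1 / 2 := by
    unfold ηm; rw [div_le_div_iff₀ (by positivity) (by norm_num)]; linarith
  have hε : 0 < εm a0 m := by unfold εm; positivity
  have hε1 : εm a0 m < 1 := by
    unfold εm
    rw [div_lt_one (by positivity)]
    have h1 : 1 / (8 * (m:ℝ)) ≤ 1 / 8 := by
      rw [div_le_div_iff₀ (by positivity) (by norm_num)]; linarith
    nlinarith
  set c1 : ℝ≥0∞ := ENNReal.ofReal ((2 * (18 * a0 * n)) ^ p) with hc1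
  set c4 : ℝ≥0∞ := ENNReal.ofReal ((2 * (2 * n + 1 / (2 * wm m))) ^ p) with hc4
  set R : ℝ≥0∞ := c1 + P2 * (KK * c4) + 1 with hR
  have hRt : R ≠ ⊤ := by
    rw [hR]
    exact ENNReal.add_ne_top.2 ⟨ENNReal.add_ne_top.2 ⟨ENNReal.ofReal_ne_top,
      ENNReal.mul_ne_top ENNReal.ofReal_ne_top (ENNReal.mul_ne_top hKK ENNReal.ofReal_ne_top)⟩,
      ENNReal.one_ne_top⟩
  have hR0 : R ≠ 0 := by rw [hR]; simp
  refine ⟨m, hm, d / 2 / R, ENNReal.div_pos hd2.ne' hRt, ?_⟩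
  intro Ω Λ φ e D hΩ hΩne hΩf hΛ hφ hmaps hD hδ
  have hΩ0 : μ Ω ≠ 0 := (hΩ.measure_pos μ hΩne).ne'
  have ht : μ Ω / m ≠ 0 := by
    rw [Ne, ENNReal.div_eq_zero_iff, not_or]
    exact ⟨hΩ0, ENNReal.natCast_ne_top m⟩
  obtain ⟨K₀, hK, hKΛ, hKne, hKμ⟩ := exists_compact hΩ hΩf hΩ0 hΛ hφ hmaps ht
  obtain ⟨r', hr', hrΛ⟩ := hK.exists_cthickening_subset_open hΛ hKΛ
  refine ⟨K₀, hK, hKne, hKΛ, r' / 2, by positivity, ?_, εm a0 m * (r' / 2) / 2, by positivity, ?_⟩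
  · rwa [mul_div_cancel₀ _ (two_ne_zero)]
  set r := r' / 2 with hr
  have hr0 : 0 < r := by positivity
  intro s hs hss
  have hStP : StP (cutf K₀ r) s (wm m) (εm a0 m) (1 / r) := by
    refine ⟨hs, hw, hw1, hε, hε1, cutf_nonneg K₀ r, cutf_le_one K₀ r, cutf_lip hr0,
      by positivity, ?_⟩
    rw [one_div, inv_mul_eq_div, div_le_iff₀ hr0]
    linarith
  refine ⟨hStP, ?_⟩
  intro b
  -- the offsets
  have mφ : ∀ i, AEMeasurable (fun x => φ x i) (μ.restrict Ω) := fun i =>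
    (continuous_coord i).measurable.comp_aemeasurable
      (hφ.aestronglyMeasurable hΩ.measurableSet).aemeasurable
  have hoff : ∀ i, ∃ j : Fin m, (i = k → μ (Ω ∩ {x | Lat s (b i + s / 2 + j * s / m)
      (s / (4 * m)) (φ x i)}) ≤ μ Ω / m) ∧ (i ≠ k → μ (Ω ∩ {x | Lat (s / 2)
      (b i + j * (s / 2) / m) (s / 2 / (4 * m)) (φ x i)}) ≤ μ Ω / m) := by
    intro i
    by_cases hi : i = k
    · obtain ⟨j, hj⟩ := exists_off hs hm (b i + s / 2) (mφ i) hΩ.measurableSet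
      exact ⟨j, fun _ => hj, fun h => absurd hi h⟩
    · obtain ⟨j, hj⟩ := exists_off (half_pos hs) hm (b i) (mφ i) hΩ.measurableSet
      exact ⟨j, fun h => absurd h hi, fun _ => hj⟩
  choose j hj1 hj2 using hoff
  refine ⟨fun i => b i + (j i : ℕ) * (if i = k then s else s / 2) / m,
    fun i => ⟨j i, (j i).2, rfl⟩, ?_⟩
  set a : ι → ℝ := fun i => b i + (j i : ℕ) * (if i = k then s else s / 2) / m with ha
  -- the measure of the bad set
  have hX : μ (Ω ∩ φ ⁻¹' (GX K₀ k a s (wm m) (ηm m))ᶜ) ≤ (1 + Fintype.card ι) * (μ Ω / m) := by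
    have h1 := bad_measure (μ := μ) (K₀ := K₀) (k := k) (a := a) (s := s) hm (Ω := Ω) (φ := φ)
      (by
        have h2 := hj1 k rfl
        have e1 : a k + s / 2 = b k + s / 2 + (j k : ℕ) * s / m := by
          rw [ha]; simp only [if_true]; ring
        rw [e1]; exact h2)
      (by
        intro i hi
        have h2 := hj2 i hi
        have e1 : a i = b i + (j i : ℕ) * (s / 2) / m := by
          rw [ha]; simp only [if_neg hi]
        rw [e1]; exact h2)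
      (w := wm m) (η := ηm m) (by unfold wm; field_simp) (by unfold ηm; field_simp; norm_num)
    refine h1.trans ?_
    rw [add_mul, one_mul]
    exact add_le_add hKμ le_rfl
  refine ⟨?_, ?_⟩
  · refine hX.trans ?_
    calc (1 + Fintype.card ι) * (μ Ω / m) = (1 + Fintype.card ι) / m * μ Ω := by
          rw [div_eq_mul_inv, div_eq_mul_inv]; ring
      _ ≤ d * μ Ω := mul_le_mul' hmX le_rfl
  intro I _ Q C B κ hF hA' hU D₁ D' hD₁ hD' hbad
  have hest := NO_est (μ := μ) ha0 hp.le hΛ hF hA' hStP hK.measurableSet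
    (fun y hy => cutf_near hr0 hy) hU hη hη1 (le_of_eq rfl : εm a0 m ≤ ηm m / (8 * a0 ^ 2)) hΩ hφ
    hv hD hD₁ hD' hbad
  refine hest.trans ?_
  set G : ℝ≥0∞ := ∫⁻ x in Ω, ∑ l, ‖D l x - v l‖ₑ ^ p ∂μ with hG
  set M := μ (Ω ∩ φ ⁻¹' (GX K₀ k a s (wm m) (ηm m))ᶜ) with hM
  have hG' : R * G ≤ d / 2 * μ Ω := by
    calc R * G ≤ R * (d / 2 / R * μ Ω) := mul_le_mul' le_rfl hδ
      _ = d / 2 * μ Ω := by
        rw [← mul_assoc, ENNReal.mul_div_cancel hR0 hRt]
  have hAM : P2 * (KK * c3 + 1) * V * M ≤ A / m * μ Ω := by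
    calc P2 * (KK * c3 + 1) * V * M ≤ P2 * (KK * c3 + 1) * V * ((1 + Fintype.card ι) *
          (μ Ω / m)) := mul_le_mul' le_rfl hX
      _ = A / m * μ Ω := by rw [hA, div_eq_mul_inv, div_eq_mul_inv]; ring
  calc _ = (ENNReal.ofReal ((2 * (2 * n * ηm m)) ^ p) * V * μ Ω + P2 * (KK * c3 + 1) * V * M) +
        (c1 + P2 * (KK * c4)) * G := by ring
    _ ≤ (ENNReal.ofReal ((2 * (2 * n * ηm m)) ^ p) * V * μ Ω + A / m * μ Ω) + R * G := by
        gcongr
        exact le_self_add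
    _ = (ENNReal.ofReal ((2 * (2 * n * (1 / (8 * m)))) ^ p) * V + A / m) * μ Ω + R * G := by
        have hηd : ηm m = 1 / (8 * m) := rfl
        rw [hηd]; ring
    _ ≤ d / 2 * μ Ω + d / 2 * μ Ω := add_le_add (mul_le_mul' hmd le_rfl) hG'
    _ = d * μ Ω := by rw [← add_mul, ENNReal.add_halves]

/-! ### landing -/

/-- how close the push moves points near the wall -/
theorem psh_near {Q C : Box ι} (h : Nest C Q) {y : ι → ℝ} (ht : 0 < tt Q C y)
    (ht1 : tt Q C y ≤ 1) (i : ι) {G : ℝ} (hG1 : Q.hi i - C.hi i ≤ G) (hG2 : C.lo i - Q.lo i ≤ G) :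
    |psh Q C y i - y i| ≤ (1 - tt Q C y) * G := by
  have hw := ww_pos h i ht.le (Or.inl ht)
  obtain ⟨b1, b2⟩ := tt_bounds h y i
  set t := tt Q C y with hT
  set l := (y i - cl Q C i t) / ww Q C i t with hl
  have l0 : 0 ≤ l := div_nonneg (by linarith) hw.le
  have l1 : l ≤ 1 := by
    rw [hl, div_le_one hw]; unfold ww; linarith
  have e1 : y i - cl Q C i t = l * ww Q C i t := by rw [hl, div_mul_cancel₀ _ hw.ne']
  have e2 : psh Q C y i = Q.lo i + l * Q.W i := by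
    unfold psh
    rw [← hT, e1]
    field_simp
  have e3 : psh Q C y i - y i = (1 - t) * (l * (Q.hi i - C.hi i) - (1 - l) * (C.lo i - Q.lo i)) := by
    have e4 : ww Q C i t = C.W i + t * (Q.W i - C.W i) := ww_eq Q C i t
    have e5 : cl Q C i t = C.lo i - t * (C.lo i - Q.lo i) := rfl
    have e6 : Q.W i = Q.hi i - Q.lo i := rfl
    have e7 : C.W i = C.hi i - C.lo i := rfl
    rw [e4, e5, e6, e7] at e1
    rw [e2, e6]
    linear_combination -e1
  rw [e3, abs_mul, abs_of_nonneg (by linarith)]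
  apply mul_le_mul_of_nonneg_left _ (by linarith)
  rw [abs_sub_comm]
  exact abs_gap_le (h.g2 i).le (h.g1 i).le ⟨l0, l1⟩ hG2 hG1

theorem Hor.lands {Q C : Box ι} (hN : Nest C Q) {k : ι} {t₀ : ℝ} (ht0 : 0 < t₀) {y : ι → ℝ}
    (h : Hor Q C k t₀ y) :
    (psh Q C y k = Q.lo k ∨ psh Q C y k = Q.hi k) ∧
      ∀ i, i ≠ k → Q.lo i < psh Q C y i ∧ psh Q C y i < Q.hi i := by
  have hte := h.tt_eq
  have ht : 0 < tt Q C y := by rw [hte]; exact ht0.trans h.1
  constructor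
  · have hw := ww_pos hN k ht.le (Or.inl ht)
    have h1 : y k = cl Q C k (tt Q C y) ∨ y k = ch Q C k (tt Q C y) := by
      obtain ⟨b1, b2⟩ := tt_bounds hN y k
      by_contra hne
      rw [not_or] at hne
      have h2 : gg Q C y k < tt Q C y := by
        rw [gg_lt_iff hN]
        exact ⟨lt_of_le_of_ne b1 (Ne.symm hne.1), lt_of_le_of_ne b2 hne.2⟩
      exact absurd hte h2.ne'
    unfold psh
    rcases h1 with h1 | h1
    · left; rw [← h1]; simp
    · right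
      have h3 : y k - cl Q C k (tt Q C y) = ww Q C k (tt Q C y) := by unfold ww; rw [← h1]
      rw [h3, mul_div_cancel₀ _ hw.ne']
      unfold Box.W; ring
  · intro i hi
    have hw := ww_pos hN i ht.le (Or.inl ht)
    have h2 : gg Q C y i < tt Q C y := by rw [hte]; exact h.2 i hi
    obtain ⟨b1, b2⟩ := (gg_lt_iff hN y i _).1 h2
    have hW := hN.Wpos i
    have hr : 0 < Q.W i / ww Q C i (tt Q C y) := div_pos hW hw
    unfold psh
    constructor
    · have : 0 < (y i - cl Q C i (tt Q C y)) * (Q.W i / ww Q C i (tt Q C y)) :=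
        mul_pos (by linarith) hr
      linarith
    · have h3 : (y i - cl Q C i (tt Q C y)) * (Q.W i / ww Q C i (tt Q C y)) <
          ww Q C i (tt Q C y) * (Q.W i / ww Q C i (tt Q C y)) := by
        apply mul_lt_mul_of_pos_right _ hr
        unfold ww; linarith
      have h4 : ww Q C i (tt Q C y) * (Q.W i / ww Q C i (tt Q C y)) = Q.W i :=
        mul_div_cancel₀ _ hw.ne'
      have h5 : Q.W i = Q.hi i - Q.lo i := rfl
      linarith

theorem sg_off' {a s w ε : ℝ} (hs : 0 < s) (hw : 0 < w) (hw1 : w ≤ 1 / 2) (hε : 0 ≤ ε)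
    (hε1 : ε ≤ 1) {t : ℝ} (h : OffSh a s w t) : ∃ N : ℤ, |t - (a + N * s)| ≤ s / 2 ∧
      |sg a s w ε t - (a + N * s)| ≤ ε * s / 2 := by
  obtain ⟨N, h1, h2⟩ := GG_off hw (fract_off hs hw hw1 hε hε1 h).le
  refine ⟨N, ?_, ?_⟩
  · have e1 : t - (a + N * s) = s * ((t - a) / s - N) := by field_simp; ring
    rw [e1, abs_mul, abs_of_pos hs]
    have := mul_le_mul_of_nonneg_left h2 hs.le
    linarith
  · have e1 : sg a s w ε t - (a + N * s) = ε * s * ((t - a) / s - N) := by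
      unfold sg; rw [h1]; ring
    rw [e1, abs_mul, abs_of_nonneg (mul_nonneg hε hs.le)]
    have := mul_le_mul_of_nonneg_left h2 (mul_nonneg hε hs.le)
    linarith

/-- `y'` (the pushed point) is in the open face of `Q` perpendicular to `k`, within `s / 2` of the
original point `y`. -/
structure Lands (k : ι) (s : ℝ) (Q : Box ι) (y y' : EE ι) : Prop where
  wall : y' k = Q.lo k ∨ y' k = Q.hi k
  face : ∀ i, i ≠ k → Q.lo i < y' i ∧ y' i < Q.hi i
  near : ∀ i, |y' i - y i| ≤ s / 2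

theorem good_lands {Λ : Set (EE ι)} {I : Type*} [Countable I] {Q C B : I → Box ι} {κ : I → ℝ}
    {a0 η : ℝ} (ha0 : 1 ≤ a0)
    (h : FoamC Λ Q C B ∅ (1 / (8 * a0)) κ (fun c => side (Q c)))
    (hA : ∀ c i j, (Q c).W i ≤ a0 * (Q c).W j) {χ : EE ι → ℝ} {s w ε L : ℝ}
    (hP : StP χ s w ε L) {K₀ : Set (EE ι)} (hχ : ∀ y ∈ K₀, χ y = 1) {k : ι} {a : ι → ℝ}
    (hU : ∀ c, (∃ y ∈ SE (Q c), ∃ y₀ ∈ K₀, ‖y - y₀‖ ≤ s) → Uni k a s (Q c))
    (hη : 0 < η) (hη1 : η ≤ 1 / 2) (hε : ε ≤ η / (8 * a0 ^ 2)) {y : EE ι}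
    (hy : y ∈ GX K₀ k a s w η) {c : I} (hc : St k χ (a k) s w ε y ∈ SE (Q c)) :
    Lands k s (Q c) y (Psi Q C B (St k χ (a k) s w ε y)) := by
  have a0p : 0 < a0 := by linarith
  have hs := hP.hs
  have hH := good_mem ha0 h hA hP hχ hU hη hε hy c hc
  have hηa : η / a0 ≤ η := div_le_self hη.le ha0
  have ht0 : 0 < 1 - η / a0 := by linarith
  have hS := h.shape c
  have hN := hS.nest
  set y₁ := St k χ (a k) s w ε y with hy₁
  have hte := hH.tt_eq
  have ht : 0 < tt (Q c) (C c) (co y₁) := by rw [hte]; exact ht0.trans hH.1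
  have ht1 : tt (Q c) (C c) (co y₁) ≤ 1 := (tt_le_one_iff hN _).2 hc
  have hnI : y₁ ∉ IE (C c) := by
    intro hI
    have h1 := (tt_lt_zero_iff hN (co y₁)).2 hI
    linarith
  have hPsi : ∀ i, Psi Q C B y₁ i = psh (Q c) (C c) (co y₁) i := by
    intro i
    rw [h.Psi_apply hc, psi_out (h.inner c).nest hnI]
  obtain ⟨h1, h2, h3⟩ := hy
  have hd := St_dist (k := k) (a := a k) hP.hs hP.hw hP.hw1 hP.hε.le hP.hε1.le hP.χ0 hP.χ1 hP.hL y
  have hUc := hU c ⟨_, hc, y, h1, hd⟩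
  have hWk : (Q c).W k = s := by unfold Box.W; rw [hUc.hi_k]; ring
  have hside2 : side (Q c) ≤ a0 * s := by
    rw [← hWk]; exact side_le fun j => hA c j k
  -- nearness of `psh`
  have hnear : ∀ i, |psh (Q c) (C c) (co y₁) i - y₁ i| ≤ η * s := by
    intro i
    refine (psh_near hN ht ht1 i (hS.hi2 i) (hS.lo2 i)).trans ?_
    have e1 : 1 - tt (Q c) (C c) (co y₁) ≤ η / a0 := by rw [hte]; linarith [hH.1]
    calc _ ≤ η / a0 * (a0 * s) := mul_le_mul e1 hside2 (by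
          have := hS.r0; exact this.le) (by positivity)
      _ = η * s := by field_simp
  have hL := Hor.lands hN ht0 hH
  refine ⟨?_, ?_, ?_⟩
  · rw [hPsi]; exact hL.1
  · intro i hi
    rw [hPsi]; exact hL.2 i hi
  · intro i
    rw [hPsi]
    by_cases hi : i = k
    · subst hi
      obtain ⟨N, hN1, hN2⟩ := sg_off' (ε := ε) hP.hs hP.hw hP.hw1 hP.hε.le hP.hε1.le h2
      have e1 : y₁ i = sg (a i) s w ε (y i) := by
        rw [hy₁, St_k, hχ y h1, one_mul, add_sub_cancel]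
      rw [← e1] at hN2
      obtain ⟨n, hn⟩ := hUc.lo_k
      have hn' := hUc.hi_k
      have hnr := hnear i
      -- `psh = a + N s`
      have hεη : ε ≤ 1 / 16 := by
        refine hε.trans ?_
        rw [div_le_iff₀ (by positivity)]
        nlinarith
      have hlev : psh (Q c) (C c) (co y₁) i = a i + N * s := by
        have hdist : |psh (Q c) (C c) (co y₁) i - (a i + N * s)| < s := by
          have h4 : |psh (Q c) (C c) (co y₁) i - (a i + N * s)| ≤
              |psh (Q c) (C c) (co y₁) i - y₁ i| + |y₁ i - (a i + N * s)| := by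
            have := abs_add_le (psh (Q c) (C c) (co y₁) i - y₁ i) (y₁ i - (a i + N * s))
            rwa [sub_add_sub_cancel] at this
          nlinarith
        have key : ∀ M : ℤ, psh (Q c) (C c) (co y₁) i = a i + M * s →
            psh (Q c) (C c) (co y₁) i = a i + N * s := by
          intro M hM
          rw [hM] at hdist
          have e2 : a i + M * s - (a i + N * s) = ((M - N : ℤ) : ℝ) * s := by push_cast; ring
          rw [e2, abs_mul, abs_of_pos hs] at hdist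
          have h5 : |((M - N : ℤ) : ℝ)| < 1 := by
            by_contra hcon
            have := mul_le_mul_of_nonneg_right (not_lt.1 hcon) hs.le
            linarith
          have h6 : |M - N| < 1 := by exact_mod_cast h5
          have h7 : M = N := by
            have := Int.abs_lt_one_iff.1 h6
            omega
          rw [hM, h7]
        rcases hL.1 with h4 | h4
        · exact key n (by rw [h4, hn])
        · refine key (n + 1) ?_
          rw [h4, hn', hn]; push_cast; ring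
      rw [hlev, abs_sub_comm]
      exact hN1
    · have e1 : y₁ i = y i := by rw [hy₁, St_ne y hi]
      have := hnear i
      rw [e1] at this
      nlinarith

theorem measurableSet_inter_preimage {Ω : Set E} (hΩ : MeasurableSet Ω) {φ : E → EE ι}
    (hφ : ContinuousOn φ Ω) {T : Set (EE ι)} (hT : MeasurableSet T) :
    MeasurableSet (Ω ∩ φ ⁻¹' T) := by
  have h1 : Ω ∩ φ ⁻¹' T = Subtype.val '' ((Ω.domRestrict φ) ⁻¹' T) := by
    ext x
    constructor
    · rintro ⟨hx, hx2⟩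
      exact ⟨⟨x, hx⟩, hx2, rfl⟩
    · rintro ⟨⟨x', hx'⟩, hx2, rfl⟩
      exact ⟨hx', hx2⟩
  rw [h1]
  exact hΩ.subtype_image ((continuousOn_iff_continuous_domRestrict.1 hφ).measurable hT)

end Crest.Agent.R96.Push_899
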