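import Mathlib
import Crest.Agent.R96.Push14_899

/-!
# Row 96, U2 PUSH (helper899), part 15: `pushNO_lt`.
-/

set_option autoImplicit false
set_option linter.unusedSectionVars false
set_option linter.unusedVariables false

open MeasureTheory Set Filter Topology
open scoped NNReal ENNReal Function

noncomputable section

namespace Crest.Agent.R96.Push_899

open Crest.Agent.R96.Acl_392 Crest.Agent.R96.Sob1_199 Crest.Agent.R96.Sob2_199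
  Crest.Agent.R96.Sob3_199 Crest.Agent.R96.Sob4_199 Crest.Agent.R96.Sob5_199

variable {ι : Type*} [Fintype ι] [Nonempty ι] [DecidableEq ι]

variable {E : Type*} [NormedAddCommGroup E] [NormedSpace ℝ E] [FiniteDimensional ℝ E]
  [MeasurableSpace E] [BorelSpace E] {μ : Measure E} [μ.IsAddHaarMeasure]

/-- a stretch homeomorphism of `Λ` -/
structure IsStretch (k : ι) (Λ : Set (EE ι)) (s : ℝ) (S : EE ι ≃ₜ EE ι) : Prop where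
  lip : ∃ K : ℝ≥0, LipschitzWith K S
  anti : ∃ K : ℝ≥0, AntilipschitzWith K S
  image : S '' Λ = Λ
  near : ∀ y, ‖S y - y‖ ≤ s
  supp : ∃ K : Set (EE ι), IsCompact K ∧ K ⊆ Λ ∧ ∀ y ∉ K, S y = y
  ne : ∀ y i, i ≠ k → S y i = y i

theorem isStretch_of {k : ι} {Λ : Set (EE ι)} {a s w ε r : ℝ} {K₀ : Set (EE ι)}
    (hr : 0 < r) (hK : IsCompact K₀) (hΛ : Metric.cthickening (2 * r) K₀ ⊆ Λ)
    (hne : K₀.Nonempty)
    (h : StP (cutf K₀ r) s w ε (1 / r)) :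
    ∃ S : EE ι ≃ₜ EE ι, IsStretch k Λ s S ∧ ⇑S = St k (cutf K₀ r) a s w ε := by
  obtain ⟨S, hS⟩ := St_homeo (k := k) (a := a) h.hs h.hw h.hw1 h.hε.le h.hε1.le h.χ0 h.χ1 h.hL
    h.hε h.hL0 h.hLs
  have hsupp : ∀ y ∉ Metric.cthickening (2 * r) K₀, cutf K₀ r y = 0 := by
    intro y hy
    apply cutf_eq_zero hr
    by_contra hcon
    apply hy
    rw [Metric.mem_cthickening_iff, ENNReal.le_ofReal_iff_toReal_le
      (Metric.infEDist_ne_top hne) (by positivity)]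
    exact (not_le.1 hcon).le
  refine ⟨S, ⟨?_, ?_, ?_, ?_, ?_, ?_⟩, hS⟩
  · rw [hS]
    exact St_lip (k := k) (a := a) h.hs h.hw h.hw1 h.hε.le h.hε1.le h.χ0 h.χ1 h.hL h.hL0
  · rw [hS]
    exact St_anti (k := k) (a := a) h.hs h.hw h.hw1 h.hε.le h.hε1.le h.χ0 h.χ1 h.hL h.hε h.hL0
      h.hLs
  · rw [hS]
    apply St_image
    · intro y hy
      exact hsupp y (fun hc => hy (hΛ hc))
    · rw [← hS]; exact S.bijective
  · intro y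
    rw [hS]
    exact St_dist (k := k) (a := a) h.hs h.hw h.hw1 h.hε.le h.hε1.le h.χ0 h.χ1 h.hL y
  · refine ⟨Metric.cthickening (2 * r) K₀, hK.cthickening, hΛ, fun y hy => ?_⟩
    rw [hS]
    exact St_eq_self (hsupp y hy)
  · intro y i hi
    rw [hS]
    exact St_ne y hi

/-- **pushNO, `p < n`** (rank `≤ n - 1`, all ranks at once): `v l` = the target derivatives,
without component in the direction `k`; with the bad set `X` and the landing off `X`. -/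
theorem pushNO_lt' (k : ι) {a0 p : ℝ} (ha0 : 1 ≤ a0) (hp : 0 < p) (hpn : p < Fintype.card ι)
    {J : Type*} [Fintype J] (v : J → EE ι) (hv : ∀ l, v l k = 0) {d : ℝ≥0∞} (hd : 0 < d) :
    ∃ m : ℕ, 0 < m ∧ ∃ δ : ℝ≥0∞, 0 < δ ∧
      ∀ (Ω : Set E) (Λ : Set (EE ι)) (φ : E → EE ι) (e : J → E) (D : J → E → EE ι),
        IsOpen Ω → Ω.Nonempty → μ Ω ≠ ⊤ → IsOpen Λ → ContinuousOn φ Ω → MapsTo φ Ω Λ →
        (∀ l, VWD Ω μ φ (D l) (e l)) →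
        ∫⁻ x in Ω, ∑ l, ‖D l x - v l‖ₑ ^ p ∂μ ≤ δ * μ Ω →
      ∃ K₀ : Set (EE ι), IsCompact K₀ ∧ K₀ ⊆ Λ ∧ ∃ s₀ > 0, ∀ s, 0 < s → s < s₀ →
      ∀ b : ι → ℝ, ∃ a : ι → ℝ,
        (∀ i, ∃ j : ℕ, j < m ∧ a i = b i + j * (if i = k then s else s / 2) / m) ∧
      ∃ S : EE ι ≃ₜ EE ι, IsStretch k Λ s S ∧
      ∃ X ⊆ Ω, MeasurableSet X ∧ μ X ≤ d * μ Ω ∧ (∀ x ∈ Ω \ X, φ x ∈ K₀) ∧
      ∀ (I : Type) [Countable I] (Q : I → Box ι), Foam0 Λ Q →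
        (∀ c i j, (Q c).W i ≤ a0 * (Q c).W j) →
        (∀ c, (∃ y ∈ SE (Q c), ∃ y₀ ∈ K₀, ‖y - y₀‖ ≤ s) → Uni k a s (Q c)) →
      (∀ z : I → ι → ℝ, (∀ c, z c ∈ Mid (Q c)) → ∀ x ∈ Ω \ X, ∀ c, S (φ x) ∈ SE (Q c) →
        Lands k s (Q c) (φ x)
          (Psi Q (fun c => coreBF (Q c) (z c)) (fun c => Box.pt (z c)) (S (φ x)))) ∧
      ∀ N : Set (ι → ℝ), volume N = 0 →
      ∃ z : I → ι → ℝ, (∀ c, z c ∈ Mid (Q c)) ∧ (∀ c, z c ∉ N) ∧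
      ∀ (D' : J → E → EE ι),
        (∀ l, VWD (Ω ∩ (fun x => S (φ x)) ⁻¹' (Pun Λ (fun c => Box.pt (z c)))) μ
          (fun x => Psi Q (fun c => coreBF (Q c) (z c)) (fun c => Box.pt (z c)) (S (φ x)))
            (D' l) (e l)) →
        ∫⁻ x in Ω ∩ (fun x => S (φ x)) ⁻¹' (Pun Λ (fun c => Box.pt (z c))),
          ∑ l, ‖D' l x - v l‖ₑ ^ p ∂μ ≤ d * μ Ω := by
  have hKK : KBF ι a0 p ≠ ⊤ := (KBF_lt_top hpn).ne
  obtain ⟨m, hm, δ, hδ, H⟩ := NO_setup (μ := μ) (E := E) k ha0 hp hKK v hv hd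
  refine ⟨m, hm, δ, hδ, ?_⟩
  intro Ω Λ φ e D hΩ hΩne hΩf hΛ hφ hmaps hD hG
  obtain ⟨K₀, hK, hne, hKΛ, r, hr, hrΛ, s₀, hs₀, H1⟩ := H Ω Λ φ e D hΩ hΩne hΩf hΛ hφ hmaps hD hG
  refine ⟨K₀, hK, hKΛ, s₀, hs₀, ?_⟩
  intro s hs hss b
  obtain ⟨hStP, H2⟩ := H1 s hs hss
  obtain ⟨a, ha, hXm, H3⟩ := H2 b
  obtain ⟨S, hS, hSe⟩ := isStretch_of (k := k) (a := a k) hr hK hrΛ hne hStP
  have mG : MeasurableSet (GX K₀ k a s (wm m) (ηm m)) :=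
    measurableSet_GX hK.measurableSet k a hStP.hs hStP.hw hStP.hw1
  have hm1 : (1:ℝ) ≤ m := by exact_mod_cast hm
  have hη : 0 < ηm m := by unfold ηm; positivity
  have hη1 : ηm m ≤ 1 / 2 := by
    unfold ηm; rw [div_le_div_iff₀ (by positivity) (by norm_num)]; linarith
  refine ⟨a, ha, S, hS, Ω ∩ φ ⁻¹' (GX K₀ k a s (wm m) (ηm m))ᶜ, inter_subset_left,
    measurableSet_inter_preimage hΩ.measurableSet hφ mG.compl, hXm, ?_, ?_⟩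
  · rintro x ⟨hx, hx2⟩
    by_contra hcon
    exact hx2 ⟨hx, fun hG => hcon hG.1⟩
  intro I _ Q hF hA hU
  constructor
  · rintro z hz x ⟨hx, hx2⟩ c hc
    have hG : φ x ∈ GX K₀ k a s (wm m) (ηm m) := by
      by_contra hcon
      exact hx2 ⟨hx, hcon⟩
    rw [hSe] at hc ⊢
    exact good_lands ha0 (foamBF ha0 hF hA hz) hA hStP (fun y hy => (cutf_near hr hy).self_of_nhds)
      hU hη hη1 (le_of_eq rfl : εm a0 m ≤ ηm m / (8 * a0 ^ 2)) hG hc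
  intro N hN
  have hSc : Continuous S := S.continuous
  have hφ₁ : ContinuousOn (fun x => S (φ x)) Ω := hSc.comp_continuousOn hφ
  -- the weak derivatives of `S ∘ φ`
  have hex : ∀ l, ∃ D₁, VWD Ω μ (fun x => S (φ x)) D₁ (e l) := by
    intro l
    rw [hSe]
    exact St_wd (k := k) (a := a k) hStP.hs hStP.hw hStP.hw1 hStP.hε.le hStP.hε1.le hStP.χ0
      hStP.χ1 hStP.hL hStP.hL0 hΩ hφ (hD l)
  choose D₁ hD₁ using hex
  have nmX : NullMeasurableSet (Ω ∩ φ ⁻¹' (GX K₀ k a s (wm m) (ηm m))ᶜ) μ := by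
    have h1 : NullMeasurableSet (φ ⁻¹' (GX K₀ k a s (wm m) (ηm m))ᶜ) (μ.restrict Ω) :=
      (hφ.aestronglyMeasurable hΩ.measurableSet).aemeasurable.nullMeasurable mG.compl
    have h2 := (nullMeasurableSet_restrict hΩ.measurableSet.nullMeasurableSet).1 h1
    rwa [inter_comm] at h2
  obtain ⟨z, hz, hzN, Hz⟩ := pushBF_X (I := I) ha0 hp.le hΛ hF hA hΩ hφ₁ hD₁ hN nmX
  refine ⟨z, hz, hzN, ?_⟩
  intro D' hD'
  have hbad := (Hz D' hD').2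
  have hFC := foamBF ha0 hF hA hz
  have key := H3 I Q (fun c => coreBF (Q c) (z c)) (fun c => Box.pt (z c)) (fun _ => 0) hFC hA hU
    D₁ D' (by rw [← hSe]; exact hD₁) (by rw [← hSe]; exact hD') (by rw [← hSe]; exact hbad)
  rw [← hSe] at key
  exact key

/-- **pushNO, `p < n`** (rank `≤ n - 1`, all ranks at once): `v l` = the target derivatives,
without component in the direction `k`. -/
theorem pushNO_lt (k : ι) {a0 p : ℝ} (ha0 : 1 ≤ a0) (hp : 0 < p) (hpn : p < Fintype.card ι)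
    {J : Type*} [Fintype J] (v : J → EE ι) (hv : ∀ l, v l k = 0) {d : ℝ≥0∞} (hd : 0 < d) :
    ∃ m : ℕ, 0 < m ∧ ∃ δ : ℝ≥0∞, 0 < δ ∧
      ∀ (Ω : Set E) (Λ : Set (EE ι)) (φ : E → EE ι) (e : J → E) (D : J → E → EE ι),
        IsOpen Ω → Ω.Nonempty → μ Ω ≠ ⊤ → IsOpen Λ → ContinuousOn φ Ω → MapsTo φ Ω Λ →
        (∀ l, VWD Ω μ φ (D l) (e l)) →
        ∫⁻ x in Ω, ∑ l, ‖D l x - v l‖ₑ ^ p ∂μ ≤ δ * μ Ω →
      ∃ K₀ : Set (EE ι), IsCompact K₀ ∧ K₀ ⊆ Λ ∧ ∃ s₀ > 0, ∀ s, 0 < s → s < s₀ →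
      ∀ b : ι → ℝ, ∃ a : ι → ℝ,
        (∀ i, ∃ j : ℕ, j < m ∧ a i = b i + j * (if i = k then s else s / 2) / m) ∧
      ∃ S : EE ι ≃ₜ EE ι, IsStretch k Λ s S ∧
      ∀ (I : Type) [Countable I] (Q : I → Box ι), Foam0 Λ Q →
        (∀ c i j, (Q c).W i ≤ a0 * (Q c).W j) →
        (∀ c, (∃ y ∈ SE (Q c), ∃ y₀ ∈ K₀, ‖y - y₀‖ ≤ s) → Uni k a s (Q c)) →
      ∀ N : Set (ι → ℝ), volume N = 0 →
      ∃ z : I → ι → ℝ, (∀ c, z c ∈ Mid (Q c)) ∧ (∀ c, z c ∉ N) ∧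
      ∀ (D' : J → E → EE ι),
        (∀ l, VWD (Ω ∩ (fun x => S (φ x)) ⁻¹' (Pun Λ (fun c => Box.pt (z c)))) μ
          (fun x => Psi Q (fun c => coreBF (Q c) (z c)) (fun c => Box.pt (z c)) (S (φ x)))
            (D' l) (e l)) →
        ∫⁻ x in Ω ∩ (fun x => S (φ x)) ⁻¹' (Pun Λ (fun c => Box.pt (z c))),
          ∑ l, ‖D' l x - v l‖ₑ ^ p ∂μ ≤ d * μ Ω := by
  obtain ⟨m, hm, δ, hδ, H⟩ := pushNO_lt' (μ := μ) (E := E) k ha0 hp hpn v hv hd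
  refine ⟨m, hm, δ, hδ, ?_⟩
  intro Ω Λ φ e D hΩ hΩne hΩf hΛ hφ hmaps hD hG
  obtain ⟨K₀, hK, hKΛ, s₀, hs₀, H1⟩ := H Ω Λ φ e D hΩ hΩne hΩf hΛ hφ hmaps hD hG
  refine ⟨K₀, hK, hKΛ, s₀, hs₀, ?_⟩
  intro s hs hss b
  obtain ⟨a, ha, S, hS, X, -, -, -, -, H2⟩ := H1 s hs hss b
  exact ⟨a, ha, S, hS, fun I _ Q hF hA hU => (H2 I Q hF hA hU).2⟩

end Crest.Agent.R96.Push_899
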