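import Mathlib
import Crest.Agent.R96.Push15_899

/-!
# Row 96, U2 PUSH (helper899), part 16: box holes (all `p`): pointwise bounded factor, `pushBF_ge`,
`pushNO_ge`; avoiding planes.
-/

set_option autoImplicit false
set_option linter.unusedSectionVars false
set_option linter.unusedVariables false

open MeasureTheory Set Filter Topology
open scoped NNReal ENNReal Function

noncomputable section

namespace Crest.Agent.R96.Push_899

open Crest.Agent.R96.Acl_392 Crest.Agent.R96.Sob1_199 Crest.Agent.R96.Sob2_199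
  Crest.Agent.R96.Sob3_199 Crest.Agent.R96.Sob4_199 Crest.Agent.R96.Sob5_199

variable {ι : Type*} [Fintype ι] [Nonempty ι] [DecidableEq ι]

variable {E : Type*} [NormedAddCommGroup E] [NormedSpace ℝ E] [FiniteDimensional ℝ E]
  [MeasurableSpace E] [BorelSpace E] {μ : Measure E} [μ.IsAddHaarMeasure]

/-- the multiplier is bounded if the hole is not too small -/
theorem mm_le_of {C B : Box ι} (h : Inner C B) {M : ℝ} (hM : ∀ i, C.W i ≤ M * B.W i)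
    (hB : ∀ i, 0 < B.W i) {y : ι → ℝ} (ht : 0 < tt C B y) : mm C B y ≤ M := by
  unfold mm
  rw [Finset.sup'_le_iff]
  intro i _
  have hw := ww_pos h.nest i ht.le (Or.inl ht)
  rw [div_le_iff₀ hw, ww_eq]
  have h1 : B.W i ≤ C.W i := by
    have := h.nest.g1 i; have := h.nest.g2 i; unfold Box.W; linarith
  have h2 := h.W0 i
  have h3 := hM i
  have h4 := hB i
  have hM0 : 0 ≤ M := by
    by_contra hneg
    nlinarith
  nlinarith [mul_nonneg hM0 (mul_nonneg ht.le (sub_nonneg.2 h1))]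

variable {Λ : Set (EE ι)} {I : Type*} [Countable I] {Q C B : I → Box ι} {P : Finset ι} {c₀ : ℝ}
  {κ ρ : I → ℝ}

/-- **pointwise bounded factor off the holes** (all `p`) -/
theorem FoamC.bound_ptw (h : FoamC Λ Q C B P c₀ κ ρ) (hΛ : IsOpen Λ) {Ω : Set E}
    (hΩ : IsOpen Ω) {φ D D' : E → EE ι} {e : E} (hφ : ContinuousOn φ Ω) (hD : VWD Ω μ φ D e)
    (hD' : VWD (Ω ∩ φ ⁻¹' (Pun Λ B)) μ (fun x => Psi Q C B (φ x)) D' e) {a M : ℝ} (ha0 : 0 ≤ a)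
    (ha : ∀ c i j, (Q c).W i ≤ a * (C c).W j) (hM1 : 1 ≤ M)
    (hM : ∀ c i, (C c).W i ≤ M * (B c).W i) (hB : ∀ c i, 0 < (B c).W i) :
    ∀ᵐ x ∂μ, x ∈ Ω ∩ φ ⁻¹' (Pun Λ B) →
      ‖D' x‖ ≤ (Fintype.card ι ^ 2 * (2 / c₀ ^ 2 + 18 * a * M)) * ‖D x‖ := by
  filter_upwards [h.bound_off hΛ hΩ hφ hD hD' ha0 ha,
    h.bound_core hΛ hΩ hφ hD hD' (fun _ _ => a) ha] with x h1 h2 hx
  have h0 : 0 ≤ 2 / c₀ ^ 2 + 18 * a := by positivity
  by_cases hc : ∃ c, φ x ∈ IE (C c)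
  · obtain ⟨c, hc⟩ := hc
    have h3 := h2 hx c hc
    have ht := h.tt_pos hx.2 c
    have hmm := mm_le_of (h.inner c) (hM c) (hB c) ht
    have hmm0 := mm_pos (h.inner c) ht
    have key : ∀ i, |D' x i| ≤ (18 * a * M) * (Fintype.card ι * ‖D x‖) := by
      intro i
      refine (h3 i).trans ?_
      rw [← Finset.mul_sum]
      calc _ ≤ 18 * M * (a * (Fintype.card ι * ‖D x‖)) := by
            apply mul_le_mul
            · linarith
            · exact mul_le_mul_of_nonneg_left (sum_abs_le _) ha0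
            · exact mul_nonneg ha0 (Finset.sum_nonneg fun _ _ => abs_nonneg _)
            · linarith
        _ = _ := by ring
    calc ‖D' x‖ ≤ ∑ i, |D' x i| := norm_le_sum _
      _ ≤ ∑ i : ι, (18 * a * M) * (Fintype.card ι * ‖D x‖) := Finset.sum_le_sum fun i _ => key i
      _ = (Fintype.card ι ^ 2 * (18 * a * M)) * ‖D x‖ := by
          rw [Finset.sum_const, Finset.card_univ, nsmul_eq_mul]; ring
      _ ≤ _ := by
          apply mul_le_mul_of_nonneg_right _ (norm_nonneg _)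
          apply mul_le_mul_of_nonneg_left _ (by positivity)
          have : 0 ≤ 2 / c₀ ^ 2 := by positivity
          linarith
  · push Not at hc
    refine (h1 hx hc).trans ?_
    apply mul_le_mul_of_nonneg_right _ (norm_nonneg _)
    apply mul_le_mul_of_nonneg_left _ (by positivity)
    have : 18 * a ≤ 18 * a * M := by nlinarith
    linarith

/-- a box hole in the core around `z`: relative half width between `c₁` and `3/32`. -/
structure Hole (c₁ : ℝ) (Q : Box ι) (z : ι → ℝ) (B : Box ι) : Prop where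
  c0 : 0 < c₁
  W : ∀ i, c₁ * Q.W i ≤ B.W i
  lo : ∀ i, z i - 3 / 32 * Q.W i ≤ B.lo i
  hi : ∀ i, B.hi i ≤ z i + 3 / 32 * Q.W i

theorem coreBF_lo {Q : Box ι} (hW : ∀ i, 0 < Q.W i) (z : ι → ℝ) (i : ι) :
    (coreBF Q z).lo i = z i - Q.W i / 8 := by
  unfold coreBF
  rw [(admBF hW).lo, if_neg (Finset.notMem_empty i)]; ring

theorem coreBF_hi {Q : Box ι} (hW : ∀ i, 0 < Q.W i) (z : ι → ℝ) (i : ι) :
    (coreBF Q z).hi i = z i + Q.W i / 8 := by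
  unfold coreBF
  rw [(admBF hW).hi, if_neg (Finset.notMem_empty i)]; ring

theorem coreBF_W {Q : Box ι} (hW : ∀ i, 0 < Q.W i) (z : ι → ℝ) (i : ι) :
    (coreBF Q z).W i = Q.W i / 4 := by
  unfold Box.W
  rw [coreBF_lo hW, coreBF_hi hW]; unfold Box.W; ring

theorem Hole.inner {c₁ : ℝ} {Q B : Box ι} {z : ι → ℝ} (hW : ∀ i, 0 < Q.W i)
    (h : Hole c₁ Q z B) : Inner (coreBF Q z) B := by
  refine ⟨fun i => ?_, fun i => ?_, fun i => ?_⟩
  · rw [coreBF_W hW]; have := hW i; positivity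
  · rw [coreBF_lo hW, coreBF_W hW]; have := h.lo i; linarith
  · rw [coreBF_hi hW, coreBF_W hW]; have := h.hi i; linarith

/-- the foam with box holes -/
theorem foamHole {a0 c₁ : ℝ} (ha0 : 1 ≤ a0) (h : Foam0 Λ Q)
    (hA : ∀ c i j, (Q c).W i ≤ a0 * (Q c).W j) {z : I → ι → ℝ} (hz : ∀ c, z c ∈ Mid (Q c))
    (hB : ∀ c, Hole c₁ (Q c) (z c) (B c)) :
    FoamC Λ Q (fun c => coreBF (Q c) (z c)) B ∅ (1 / (8 * a0))
      (fun _ => 0) (fun c => side (Q c)) :=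
  ⟨h.cells, h.disj, fun c => shapeBF ha0 (h.W0 c) (hA c) (hz c), fun c => (hB c).inner (h.W0 c)⟩

/-- the constant -/
def Kge (ι : Type*) [Fintype ι] (a0 c₁ : ℝ) : ℝ :=
  Fintype.card ι ^ 2 * (128 * a0 ^ 2 + 72 * a0 * (1 / c₁))

/-- **pushBF with box holes, all `p`**: pointwise bounded factor. -/
theorem pushBF_ge {a0 c₁ : ℝ} (ha0 : 1 ≤ a0) (hc₁ : c₁ ≤ 1) (hΛ : IsOpen Λ) (h : Foam0 Λ Q)
    (hA : ∀ c i j, (Q c).W i ≤ a0 * (Q c).W j) {z : I → ι → ℝ} (hz : ∀ c, z c ∈ Mid (Q c))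
    (hc0 : 0 < c₁) (hB : ∀ c, Hole c₁ (Q c) (z c) (B c))
    {Ω : Set E} (hΩ : IsOpen Ω) {φ : E → EE ι}
    (hφ : ContinuousOn φ Ω) {e : E} {D D' : E → EE ι} (hD : VWD Ω μ φ D e)
    (hD' : VWD (Ω ∩ φ ⁻¹' (Pun Λ B)) μ
      (fun x => Psi Q (fun c => coreBF (Q c) (z c)) B (φ x)) D' e) :
    ∀ᵐ x ∂μ, x ∈ Ω ∩ φ ⁻¹' (Pun Λ B) → ‖D' x‖ ≤ Kge ι a0 c₁ * ‖D x‖ := by
  have a0pos : 0 < a0 := by linarith
  have hF := foamHole ha0 h hA hz hB
  have ha : ∀ c i j, (Q c).W i ≤ (4 * a0) * (coreBF (Q c) (z c)).W j := by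
    intro c i j
    rw [coreBF_W (h.W0 c)]
    have := hA c i j
    linarith
  have hBW : ∀ c i, 0 < (B c).W i := fun c i =>
    lt_of_lt_of_le (mul_pos hc0 (h.W0 c i)) ((hB c).W i)
  have hM : ∀ c i, (coreBF (Q c) (z c)).W i ≤ (1 / c₁) * (B c).W i := by
    intro c i
    rw [coreBF_W (h.W0 c), one_div, inv_mul_eq_div, le_div_iff₀ hc0]
    have h1 := (hB c).W i
    have h2 := h.W0 c i
    nlinarith [mul_pos hc0 h2]
  have h1M : 1 ≤ 1 / c₁ := by rw [le_div_iff₀ hc0]; linarith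
  filter_upwards [hF.bound_ptw hΛ hΩ hφ hD hD' (by positivity) ha h1M hM hBW] with x hx hx2
  refine (hx hx2).trans (le_of_eq ?_)
  have e5 : 2 / (1 / (8 * a0)) ^ 2 = 128 * a0 ^ 2 := by field_simp; norm_num
  rw [e5]
  unfold Kge
  ring

/-- **pushNO with box holes, all `p > 0`**; with the bad set `X` and the landing off `X`. -/
theorem pushNO_ge' (k : ι) {a0 c₁ p : ℝ} (ha0 : 1 ≤ a0) (hc0 : 0 < c₁) (hc₁ : c₁ ≤ 1) (hp : 0 < p)
    {J : Type*} [Fintype J] (v : J → EE ι) (hv : ∀ l, v l k = 0) {d : ℝ≥0∞} (hd : 0 < d) :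
    ∃ m : ℕ, 0 < m ∧ ∃ δ : ℝ≥0∞, 0 < δ ∧
      ∀ (Ω : Set E) (Λ : Set (EE ι)) (φ : E → EE ι) (e : J → E) (D : J → E → EE ι),
        IsOpen Ω → Ω.Nonempty → μ Ω ≠ ⊤ → IsOpen Λ → ContinuousOn φ Ω → MapsTo φ Ω Λ →
        (∀ l, VWD Ω μ φ (D l) (e l)) →
        ∫⁻ x in Ω, ∑ l, ‖D l x - v l‖ₑ ^ p ∂μ ≤ δ * μ Ω →
      ∃ K₀ : Set (EE ι), IsCompact K₀ ∧ K₀ ⊆ Λ ∧ ∃ s₀ > 0, ∀ s, 0 < s → s < s₀ →
      ∀ b : ι → ℝ, ∃ a : ι → ℝ,
        (∀ i, ∃ j : ℕ, j < m ∧ a i = b i + j * (if i = k then s else s / 2) / m) ∧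
      ∃ S : EE ι ≃ₜ EE ι, IsStretch k Λ s S ∧
      ∃ X ⊆ Ω, MeasurableSet X ∧ μ X ≤ d * μ Ω ∧ (∀ x ∈ Ω \ X, φ x ∈ K₀) ∧
      ∀ (I : Type) [Countable I] (Q : I → Box ι), Foam0 Λ Q →
        (∀ c i j, (Q c).W i ≤ a0 * (Q c).W j) →
        (∀ c, (∃ y ∈ SE (Q c), ∃ y₀ ∈ K₀, ‖y - y₀‖ ≤ s) → Uni k a s (Q c)) →
      ∀ (z : I → ι → ℝ) (B : I → Box ι), (∀ c, z c ∈ Mid (Q c)) →
        (∀ c, Hole c₁ (Q c) (z c) (B c)) →
      (∀ x ∈ Ω \ X, ∀ c, S (φ x) ∈ SE (Q c) →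
        Lands k s (Q c) (φ x) (Psi Q (fun c => coreBF (Q c) (z c)) B (S (φ x)))) ∧
      ∀ (D' : J → E → EE ι),
        (∀ l, VWD (Ω ∩ (fun x => S (φ x)) ⁻¹' (Pun Λ B)) μ
          (fun x => Psi Q (fun c => coreBF (Q c) (z c)) B (S (φ x))) (D' l) (e l)) →
        ∫⁻ x in Ω ∩ (fun x => S (φ x)) ⁻¹' (Pun Λ B),
          ∑ l, ‖D' l x - v l‖ₑ ^ p ∂μ ≤ d * μ Ω := by
  set KK : ℝ≥0∞ := ENNReal.ofReal (Kge ι a0 c₁ ^ p) with hKKd
  have a0pos : 0 < a0 := by linarith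
  have hKge : 0 ≤ Kge ι a0 c₁ := by unfold Kge; positivity
  have hKK : KK ≠ ⊤ := ENNReal.ofReal_ne_top
  obtain ⟨m, hm, δ, hδ, H⟩ := NO_setup (μ := μ) (E := E) k ha0 hp hKK v hv hd
  refine ⟨m, hm, δ, hδ, ?_⟩
  intro Ω Λ φ e D hΩ hΩne hΩf hΛ hφ hmaps hD hG
  obtain ⟨K₀, hK, hne, hKΛ, r, hr, hrΛ, s₀, hs₀, H1⟩ := H Ω Λ φ e D hΩ hΩne hΩf hΛ hφ hmaps hD hG
  refine ⟨K₀, hK, hKΛ, s₀, hs₀, ?_⟩
  intro s hs hss b
  obtain ⟨hStP, H2⟩ := H1 s hs hss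
  obtain ⟨a, ha, hXm, H3⟩ := H2 b
  obtain ⟨S, hS, hSe⟩ := isStretch_of (k := k) (a := a k) hr hK hrΛ hne hStP
  have mG : MeasurableSet (GX K₀ k a s (wm m) (ηm m)) :=
    measurableSet_GX hK.measurableSet k a hStP.hs hStP.hw hStP.hw1
  have hm1 : (1:ℝ) ≤ m := by exact_mod_cast hm
  have hη : 0 < ηm m := by unfold ηm; positivity
  have hη1 : ηm m ≤ 1 / 2 := by
    unfold ηm; rw [div_le_div_iff₀ (by positivity) (by norm_num)]; linarith
  refine ⟨a, ha, S, hS, Ω ∩ φ ⁻¹' (GX K₀ k a s (wm m) (ηm m))ᶜ, inter_subset_left,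
    measurableSet_inter_preimage hΩ.measurableSet hφ mG.compl, hXm, ?_, ?_⟩
  · rintro x ⟨hx, hx2⟩
    by_contra hcon
    exact hx2 ⟨hx, fun hG => hcon hG.1⟩
  intro I _ Q hF hA hU z B hz hB
  constructor
  · rintro x ⟨hx, hx2⟩ c hc
    have hG : φ x ∈ GX K₀ k a s (wm m) (ηm m) := by
      by_contra hcon
      exact hx2 ⟨hx, hcon⟩
    rw [hSe] at hc ⊢
    exact good_lands ha0 (foamHole ha0 hF hA hz hB) hA hStP
      (fun y hy => (cutf_near hr hy).self_of_nhds)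
      hU hη hη1 (le_of_eq rfl : εm a0 m ≤ ηm m / (8 * a0 ^ 2)) hG hc
  intro D' hD'
  have hSc : Continuous S := S.continuous
  have hφ₁ : ContinuousOn (fun x => S (φ x)) Ω := hSc.comp_continuousOn hφ
  have hex : ∀ l, ∃ D₁, VWD Ω μ (fun x => S (φ x)) D₁ (e l) := by
    intro l
    rw [hSe]
    exact St_wd (k := k) (a := a k) hStP.hs hStP.hw hStP.hw1 hStP.hε.le hStP.hε1.le hStP.χ0
      hStP.χ1 hStP.hL hStP.hL0 hΩ hφ (hD l)
  choose D₁ hD₁ using hex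
  have nmX : NullMeasurableSet (Ω ∩ φ ⁻¹' (GX K₀ k a s (wm m) (ηm m))ᶜ) μ := by
    have h1 : NullMeasurableSet (φ ⁻¹' (GX K₀ k a s (wm m) (ηm m))ᶜ) (μ.restrict Ω) :=
      (hφ.aestronglyMeasurable hΩ.measurableSet).aemeasurable.nullMeasurable mG.compl
    have h2 := (nullMeasurableSet_restrict hΩ.measurableSet.nullMeasurableSet).1 h1
    rwa [inter_comm] at h2
  have hFC := foamHole ha0 hF hA hz hB
  have hO := hFC.isOpen_dom hΛ hΩ hφ₁
  have hbad : ∫⁻ x in (Ω ∩ φ ⁻¹' (GX K₀ k a s (wm m) (ηm m))ᶜ) ∩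
      (Ω ∩ (fun x => S (φ x)) ⁻¹' (Pun Λ B)), ∑ l, ‖D' l x‖ₑ ^ p ∂μ ≤
      KK * ∫⁻ x in (Ω ∩ φ ⁻¹' (GX K₀ k a s (wm m) (ηm m))ᶜ) ∩ Ω, ∑ l, ‖D₁ l x‖ₑ ^ p ∂μ := by
    rw [← lintegral_const_mul' _ _ hKK]
    have hsub : (Ω ∩ φ ⁻¹' (GX K₀ k a s (wm m) (ηm m))ᶜ) ∩
        (Ω ∩ (fun x => S (φ x)) ⁻¹' (Pun Λ B)) ⊆
        (Ω ∩ φ ⁻¹' (GX K₀ k a s (wm m) (ηm m))ᶜ) ∩ Ω := fun x hx => ⟨hx.1, hx.2.1⟩
    refine le_trans ?_ (lintegral_mono_set hsub)
    apply lintegral_mono_ae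
    refine (ae_restrict_iff'₀ (nmX.inter hO.measurableSet.nullMeasurableSet)).2 ?_
    have h1 : ∀ᵐ x ∂μ, ∀ l, x ∈ Ω ∩ (fun x => S (φ x)) ⁻¹' (Pun Λ B) →
        ‖D' l x‖ ≤ Kge ι a0 c₁ * ‖D₁ l x‖ := ae_all_iff.2 fun l =>
      pushBF_ge ha0 hc₁ hΛ hF hA hz hc0 hB hΩ hφ₁ (hD₁ l) (hD' l)
    filter_upwards [h1] with x hx hx2
    rw [Finset.mul_sum]
    apply Finset.sum_le_sum
    intro l _
    rw [hKKd, ← ofReal_norm (D₁ l x), ENNReal.ofReal_rpow_of_nonneg (norm_nonneg _) hp.le,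
      ← ENNReal.ofReal_mul (by positivity), ← Real.mul_rpow hKge (norm_nonneg _)]
    exact enorm_rpow_le hp.le (hx l hx2.2)
  have key := H3 I Q (fun c => coreBF (Q c) (z c)) B (fun _ => 0) hFC hA hU
    D₁ D' (by rw [← hSe]; exact hD₁) (by rw [← hSe]; exact hD') (by rw [← hSe]; exact hbad)
  rw [← hSe] at key
  exact key

/-- **pushNO with box holes, all `p > 0`** -/
theorem pushNO_ge (k : ι) {a0 c₁ p : ℝ} (ha0 : 1 ≤ a0) (hc0 : 0 < c₁) (hc₁ : c₁ ≤ 1) (hp : 0 < p)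
    {J : Type*} [Fintype J] (v : J → EE ι) (hv : ∀ l, v l k = 0) {d : ℝ≥0∞} (hd : 0 < d) :
    ∃ m : ℕ, 0 < m ∧ ∃ δ : ℝ≥0∞, 0 < δ ∧
      ∀ (Ω : Set E) (Λ : Set (EE ι)) (φ : E → EE ι) (e : J → E) (D : J → E → EE ι),
        IsOpen Ω → Ω.Nonempty → μ Ω ≠ ⊤ → IsOpen Λ → ContinuousOn φ Ω → MapsTo φ Ω Λ →
        (∀ l, VWD Ω μ φ (D l) (e l)) →
        ∫⁻ x in Ω, ∑ l, ‖D l x - v l‖ₑ ^ p ∂μ ≤ δ * μ Ω →
      ∃ K₀ : Set (EE ι), IsCompact K₀ ∧ K₀ ⊆ Λ ∧ ∃ s₀ > 0, ∀ s, 0 < s → s < s₀ →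
      ∀ b : ι → ℝ, ∃ a : ι → ℝ,
        (∀ i, ∃ j : ℕ, j < m ∧ a i = b i + j * (if i = k then s else s / 2) / m) ∧
      ∃ S : EE ι ≃ₜ EE ι, IsStretch k Λ s S ∧
      ∀ (I : Type) [Countable I] (Q : I → Box ι), Foam0 Λ Q →
        (∀ c i j, (Q c).W i ≤ a0 * (Q c).W j) →
        (∀ c, (∃ y ∈ SE (Q c), ∃ y₀ ∈ K₀, ‖y - y₀‖ ≤ s) → Uni k a s (Q c)) →
      ∀ (z : I → ι → ℝ) (B : I → Box ι), (∀ c, z c ∈ Mid (Q c)) →
        (∀ c, Hole c₁ (Q c) (z c) (B c)) →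
      ∀ (D' : J → E → EE ι),
        (∀ l, VWD (Ω ∩ (fun x => S (φ x)) ⁻¹' (Pun Λ B)) μ
          (fun x => Psi Q (fun c => coreBF (Q c) (z c)) B (S (φ x))) (D' l) (e l)) →
        ∫⁻ x in Ω ∩ (fun x => S (φ x)) ⁻¹' (Pun Λ B),
          ∑ l, ‖D' l x - v l‖ₑ ^ p ∂μ ≤ d * μ Ω := by
  obtain ⟨m, hm, δ, hδ, H⟩ := pushNO_ge' (μ := μ) (E := E) k ha0 hc0 hc₁ hp v hv hd
  refine ⟨m, hm, δ, hδ, ?_⟩
  intro Ω Λ φ e D hΩ hΩne hΩf hΛ hφ hmaps hD hG
  obtain ⟨K₀, hK, hKΛ, s₀, hs₀, H1⟩ := H Ω Λ φ e D hΩ hΩne hΩf hΛ hφ hmaps hD hG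
  refine ⟨K₀, hK, hKΛ, s₀, hs₀, ?_⟩
  intro s hs hss b
  obtain ⟨a, ha, S, hS, X, -, -, -, -, H2⟩ := H1 s hs hss b
  exact ⟨a, ha, S, hS, fun I _ Q hF hA hU z B hz hB => (H2 I Q hF hA hU z B hz hB).2⟩

/-! ### avoiding planes -/

/-- linear functional -/
def lin (n : ι → ℝ) (y : ι → ℝ) : ℝ := ∑ i, n i * y i

/-- **one plane**: a corner sub-box of quarter size stays away from the plane `lin n = t`. -/
theorem avoid_one (M : Box ι) (n : ι → ℝ) (t : ℝ) :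
    ∃ M' : Box ι, (∀ i, M'.W i = M.W i / 4) ∧ (∀ i, M.lo i ≤ M'.lo i) ∧ (∀ i, M'.hi i ≤ M.hi i) ∧
      ∀ y ∈ M'.S, (∑ i, |n i| * M.W i) / 4 ≤ |lin n y - t| := by
  classical
  -- centre value
  set R := ∑ i, |n i| * M.W i with hR
  have hR0 : 0 ≤ R := Finset.sum_nonneg fun i _ => mul_nonneg (abs_nonneg _) (M.W_nonneg i)
  set mid : ι → ℝ := fun i => (M.lo i + M.hi i) / 2 with hmid
  -- the corner in the direction `σ`
  have corner : ∀ σ : ℝ, (σ = 1 ∨ σ = -1) → ∃ M' : Box ι, (∀ i, M'.W i = M.W i / 4) ∧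
      (∀ i, M.lo i ≤ M'.lo i) ∧ (∀ i, M'.hi i ≤ M.hi i) ∧
      ∀ y ∈ M'.S, R / 4 ≤ σ * (lin n y - lin n mid) := by
    intro σ hσ
    set up : ι → Prop := fun i => 0 ≤ σ * n i with hup
    refine ⟨⟨fun i => if up i then M.hi i - M.W i / 4 else M.lo i,
      fun i => if up i then M.hi i else M.lo i + M.W i / 4, fun i => ?_⟩, ?_, ?_, ?_, ?_⟩
    · have := M.W_nonneg i
      split_ifs <;> linarith
    · intro i
      unfold Box.W
      simp only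
      split_ifs <;> ring
    · intro i
      have h1 := M.W_nonneg i
      have h2 : M.W i = M.hi i - M.lo i := rfl
      simp only
      split_ifs <;> linarith
    · intro i
      have h1 := M.W_nonneg i
      have h2 : M.W i = M.hi i - M.lo i := rfl
      simp only
      split_ifs <;> linarith
    · intro y hy
      have e1 : σ * (lin n y - lin n mid) = ∑ i, (σ * n i) * (y i - mid i) := by
        unfold lin
        rw [← Finset.sum_sub_distrib, Finset.mul_sum]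
        exact Finset.sum_congr rfl fun i _ => by ring
      rw [e1, hR, Finset.sum_div]
      apply Finset.sum_le_sum
      intro i _
      have hyi := hy i
      have h1 := M.W_nonneg i
      have h2 : M.W i = M.hi i - M.lo i := rfl
      have hσ1 : |σ| = 1 := by rcases hσ with h | h <;> simp [h]
      have habs : |n i| = |σ * n i| := by rw [abs_mul, hσ1, one_mul]
      simp only at hyi
      rw [habs]
      by_cases hui : up i
      · rw [if_pos hui, if_pos hui] at hyi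
        rw [abs_of_nonneg hui]
        have h3 : M.W i / 4 ≤ y i - mid i := by rw [hmid]; simp only; linarith [hyi.1]
        have h4 := mul_le_mul_of_nonneg_left h3 hui
        linarith
      · rw [if_neg hui, if_neg hui] at hyi
        have hneg : σ * n i < 0 := not_le.1 hui
        rw [abs_of_neg hneg]
        have h3 : M.W i / 4 ≤ mid i - y i := by rw [hmid]; simp only; linarith [hyi.2]
        have h4 := mul_le_mul_of_nonneg_left h3 (neg_nonneg.2 hneg.le)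
        linarith
  rcases le_total t (lin n mid) with h | h
  · obtain ⟨M', h1, h2, h3, h4⟩ := corner 1 (Or.inl rfl)
    refine ⟨M', h1, h2, h3, fun y hy => ?_⟩
    have h5 := h4 y hy
    refine le_trans ?_ (le_abs_self _)
    linarith
  · obtain ⟨M', h1, h2, h3, h4⟩ := corner (-1) (Or.inr rfl)
    refine ⟨M', h1, h2, h3, fun y hy => ?_⟩
    have h5 := h4 y hy
    refine le_trans ?_ (neg_le_abs _)
    linarith

/-- **finitely many planes** `lin (n j) = t j` (with `∑ i, |n j i| ≥ 1`, e.g. unit normals) -/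
theorem avoid_planes {w : ℝ} : ∀ (N : ℕ) (M : Box ι) (n : Fin N → ι → ℝ) (t : Fin N → ℝ),
    (∀ i, w ≤ M.W i) → (∀ j, 1 ≤ ∑ i, |n j i|) → 0 ≤ w →
    ∃ M' : Box ι, (∀ i, M'.W i = M.W i / 4 ^ N) ∧ (∀ i, M.lo i ≤ M'.lo i) ∧
      (∀ i, M'.hi i ≤ M.hi i) ∧ ∀ y ∈ M'.S, ∀ j, w / 4 ^ N ≤ |lin (n j) y - t j| := by
  intro N
  induction N with
  | zero =>
    intro M n t hw hn h0
    exact ⟨M, fun i => by simp, fun i => le_rfl, fun i => le_rfl, fun y _ j => j.elim0⟩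
  | succ N ih =>
    intro M n t hw hn h0
    obtain ⟨M₁, a1, a2, a3, a4⟩ := ih M (fun j => n j.castSucc) (fun j => t j.castSucc) hw
      (fun j => hn _) h0
    obtain ⟨M₂, b1, b2, b3, b4⟩ := avoid_one M₁ (n (Fin.last N)) (t (Fin.last N))
    have h4 : (0:ℝ) < 4 ^ N := by positivity
    refine ⟨M₂, fun i => ?_, fun i => (a2 i).trans (b2 i), fun i => (b3 i).trans (a3 i), ?_⟩
    · rw [b1, a1, pow_succ, div_div]
    · intro y hy j
      refine Fin.lastCases ?_ (fun j => ?_) j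
      · refine le_trans ?_ (b4 y hy)
        have h5 : w / 4 ^ N ≤ ∑ i, |n (Fin.last N) i| * M₁.W i := by
          calc w / 4 ^ N ≤ (∑ i, |n (Fin.last N) i|) * (w / 4 ^ N) :=
                le_mul_of_one_le_left (by positivity) (hn _)
            _ = ∑ i, |n (Fin.last N) i| * (w / 4 ^ N) := Finset.sum_mul _ _ _
            _ ≤ _ := by
                apply Finset.sum_le_sum
                intro i _
                apply mul_le_mul_of_nonneg_left _ (abs_nonneg _)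
                rw [a1]
                exact div_le_div_of_nonneg_right (hw i) h4.le
        rw [pow_succ, ← div_div]
        exact div_le_div_of_nonneg_right h5 (by norm_num)
      · have hy1 : y ∈ M₁.S := fun i => ⟨(b2 i).trans (hy i).1, (hy i).2.trans (b3 i)⟩
        refine le_trans ?_ (a4 y hy1 j)
        apply div_le_div_of_nonneg_left h0 h4
        rw [pow_succ]
        linarith

/-- **a hole missing `N ≥ 1` planes** in every brick -/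
theorem exists_hole {N : ℕ} (hN : 1 ≤ N) {Q : Box ι} (hW : ∀ i, 0 < Q.W i) {w : ℝ} (h0 : 0 ≤ w)
    (hw : ∀ i, w ≤ Q.W i) (n : Fin N → ι → ℝ) (t : Fin N → ℝ) (hn : ∀ j, 1 ≤ ∑ i, |n j i|) :
    ∃ z ∈ Mid Q, ∃ B : Box ι, Hole (1 / (2 * 4 ^ N)) Q z B ∧
      (∀ i, B.lo i = z i - Q.W i / (4 * 4 ^ N) ∧ B.hi i = z i + Q.W i / (4 * 4 ^ N)) ∧
      ∀ y ∈ B.S, ∀ j, w / (2 * 4 ^ N) ≤ |lin (n j) y - t j| := by
  set M : Box ι := ⟨fun i => Q.lo i + Q.W i / 4, fun i => Q.hi i - Q.W i / 4, fun i => by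
    have h1 := hW i
    have h2 : Q.W i = Q.hi i - Q.lo i := rfl
    linarith⟩ with hM
  have hMW : ∀ i, M.W i = Q.W i / 2 := by
    intro i
    have h2 : Q.W i = Q.hi i - Q.lo i := rfl
    unfold Box.W
    rw [hM]
    simp only
    unfold Box.W
    ring
  obtain ⟨B, h1, h2, h3, h4⟩ := avoid_planes (w := w / 2) N M n t
    (fun i => by rw [hMW]; linarith [hw i]) hn (by positivity)
  have h4N : (4:ℝ) ≤ 4 ^ N := by
    calc (4:ℝ) = 4 ^ 1 := (pow_one _).symm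
      _ ≤ 4 ^ N := pow_le_pow_right₀ (by norm_num) hN
  have hBW : ∀ i, B.W i = Q.W i / (2 * 4 ^ N) := fun i => by rw [h1, hMW, div_div]
  refine ⟨fun i => (B.lo i + B.hi i) / 2, ⟨fun i => ?_, fun i => ?_⟩, B, ⟨by positivity, ?_, ?_, ?_⟩,
    ?_, ?_⟩
  · have a1 : Q.lo i + Q.W i / 4 ≤ B.lo i := h2 i
    simp only
    linarith [B.le i]
  · have a1 : B.hi i ≤ Q.hi i - Q.W i / 4 := h3 i
    simp only
    linarith [B.le i]
  · intro i
    rw [hBW, div_mul_eq_mul_div, one_mul]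
  · intro i
    have e1 := hBW i
    have e2 : B.W i = B.hi i - B.lo i := rfl
    have e3 : Q.W i / (2 * 4 ^ N) ≤ 3 / 16 * Q.W i := by
      rw [div_le_iff₀ (by positivity)]
      have := hW i
      nlinarith
    linarith
  · intro i
    have e1 := hBW i
    have e2 : B.W i = B.hi i - B.lo i := rfl
    have e3 : Q.W i / (2 * 4 ^ N) ≤ 3 / 16 * Q.W i := by
      rw [div_le_iff₀ (by positivity)]
      have := hW i
      nlinarith
    linarith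
  · intro i
    have e1 := hBW i
    have e2 : B.W i = B.hi i - B.lo i := rfl
    have e3 : Q.W i / (4 * 4 ^ N) = Q.W i / (2 * 4 ^ N) / 2 := by rw [div_div]; congr 1; ring
    rw [e3, ← e1, e2]
    simp only
    constructor <;> ring
  · intro y hy j
    have := h4 y hy j
    rwa [div_div] at this

end Crest.Agent.R96.Push_899
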