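import Mathlib
import Crest.Agent.R96.Push16_899
import Crest.Agent.R096.Bsp6_628

/-!
# Row 96, U2 PUSH (helper899), part 17: 628's `BoxFoam` gives `Foam0`; the logs are uniform bricks.
-/

set_option autoImplicit false
set_option linter.unusedSectionVars false
set_option linter.unusedVariables false

open MeasureTheory Set Filter Topology
open scoped NNReal ENNReal Function

noncomputable section

namespace Crest.Agent.R96.Push_899

open Crest.Agent.R096.Bsp_628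

variable {ι : Type*} [Fintype ι] [Nonempty ι] [DecidableEq ι]

/-- 628's box as a `Box` -/
def toBox (C : Bx ι) (h : C.Pos) : Box ι := ⟨C.lo, C.hi, fun i => (h i).le⟩

@[simp] theorem toBox_lo (C : Bx ι) (h : C.Pos) : (toBox C h).lo = C.lo := rfl
@[simp] theorem toBox_hi (C : Bx ι) (h : C.Pos) : (toBox C h).hi = C.hi := rfl

theorem toBox_W (C : Bx ι) (h : C.Pos) (i : ι) : (toBox C h).W i = C.side i := rfl

theorem mem_SE_toBox {C : Bx ι} {h : C.Pos} {y : EE ι} : y ∈ SE (toBox C h) ↔ co y ∈ C.set := by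
  rw [Bx.mem_set]; rfl

theorem co_injective : Function.Injective (co : EE ι → ι → ℝ) := by
  intro x y h
  ext i
  exact congrFun h i

theorem mem_co_image {La : Set (EE ι)} {y : EE ι} : co y ∈ co '' La ↔ y ∈ La := by
  constructor
  · rintro ⟨x, hx, he⟩
    rwa [← co_injective he]
  · exact fun h => ⟨y, h, rfl⟩

variable {La : Set (EE ι)} {F : Set (Bx ι)} {δ κ0 : ℝ}

/-- the bricks of a `BoxFoam`, indexed by the subtype -/
def brk (hF : BoxFoam (co '' La) F δ κ0) (c : F) : Box ι := toBox c.1 (hF.pos c.1 c.2)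

theorem mem_SE_brk (hF : BoxFoam (co '' La) F δ κ0) {c : F} {y : EE ι} :
    y ∈ SE (brk hF c) ↔ co y ∈ c.1.set := mem_SE_toBox

/-- **bridge** -/
theorem foam0_brk (hF : BoxFoam (co '' La) F δ κ0) : Foam0 La (brk hF) := by
  refine ⟨?_, ⟨?_, ?_, ?_, ?_⟩, ?_⟩
  · intro c i
    exact Bx.side_pos (hF.pos c.1 c.2) i
  · intro c; exact isClosed_SE _
  · intro c y hy
    exact mem_co_image.1 (hF.sub c.1 c.2 ((mem_SE_brk hF).1 hy))
  · intro y hy
    obtain ⟨C, hC, hyC⟩ := hF.cov (co y) (mem_co_image.2 hy)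
    exact ⟨⟨C, hC⟩, (mem_SE_brk hF).2 hyC⟩
  · intro y hy
    obtain ⟨r, hr, hfin⟩ := hF.lf (co y) (mem_co_image.2 hy)
    refine ⟨co ⁻¹' (Metric.ball (co y) r), ?_, ?_⟩
    · exact continuous_co.continuousAt.preimage_mem_nhds (Metric.ball_mem_nhds _ hr)
    · have h1 : {c : F | (SE (brk hF c) ∩ co ⁻¹' (Metric.ball (co y) r)).Nonempty} ⊆
          Subtype.val ⁻¹' {C | C ∈ F ∧ (C.set ∩ Metric.ball (co y) r).Nonempty} := by
        rintro c ⟨u, hu1, hu2⟩
        exact ⟨c.2, co u, (mem_SE_brk hF).1 hu1, hu2⟩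
      exact (hfin.preimage Subtype.val_injective.injOn).subset h1
  · intro c c' hcc y hy hy'
    have hne : c.1 ≠ c'.1 := fun h => hcc (Subtype.ext h)
    obtain ⟨k, hk⟩ := hF.inv.disj c.2 c'.2 (hF.pos _ c.2) (hF.pos _ c'.2) hne
    have h1 := hy k
    have h2 := hy' k
    have h3 : c.1.lo k ≤ y k ∧ y k ≤ c.1.hi k := h1
    have h4 : c'.1.lo k < y k ∧ y k < c'.1.hi k := h2
    rcases hk with hk | hk <;> linarith [h3.1, h3.2, h4.1, h4.2]

theorem brk_asp (hF : BoxFoam (co '' La) F δ κ0) (c : F) (i j : ι) :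
    (brk hF c).W i ≤ κ0 * (brk hF c).W j :=
  (Bx.side_le_sz c.1 i).trans (hF.asp c.1 c.2 j)

theorem countable_brk (hF : BoxFoam (co '' La) F δ κ0) : Countable F :=
  hF.countable.to_subtype

/-- every point of a brick is within `card ι * sz` of every other one -/
theorem brk_dist (hF : BoxFoam (co '' La) F δ κ0) {c : F} {y y' : EE ι} (hy : y ∈ SE (brk hF c))
    (hy' : y' ∈ SE (brk hF c)) : ‖y' - y‖ ≤ Fintype.card ι * c.1.sz := by
  refine (norm_le_sum _).trans ?_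
  refine (Finset.sum_le_sum (g := fun _ => c.1.sz) fun i _ => ?_).trans ?_
  · rw [PiLp.sub_apply]
    have h1 := hy i
    have h2 := hy' i
    have h3 : c.1.lo i ≤ y i ∧ y i ≤ c.1.hi i := h1
    have h4 : c.1.lo i ≤ y' i ∧ y' i ≤ c.1.hi i := h2
    have h5 := Bx.side_le_sz c.1 i
    have h6 : c.1.side i = c.1.hi i - c.1.lo i := rfl
    rw [abs_le]; constructor <;> linarith [h3.1, h3.2, h4.1, h4.2]
  · rw [Finset.sum_const, Finset.card_univ, nsmul_eq_mul]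

/-! ### logs -/

theorem logA_lo (a : Fin 3 → ℝ) (h : ℝ) (q : ℕ) (k j m : ℤ) (i : Fin 3) :
    (logA a h q k j m).lo i = a i + h * (logB q k j m).lo i := rfl

theorem logA_hi (a : Fin 3 → ℝ) (h : ℝ) (q : ℕ) (k j m : ℤ) (i : Fin 3) :
    (logA a h q k j m).hi i = a i + h * (logB q k j m).hi i := rfl

/-- walls of the logs are half integers -/
theorem logB_half (q : ℕ) (k j m : ℤ) (i : Fin 3) :
    (∃ n : ℤ, (logB q k j m).lo i = n / 2) ∧ ∃ n : ℤ, (logB q k j m).hi i = n / 2 := by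
  have key : ∀ x : ℝ, (∃ n : ℤ, x = n) → ∃ n : ℤ, x = n / 2 := by
    rintro x ⟨n, rfl⟩
    exact ⟨2 * n, by push_cast; ring⟩
  have e1 : ∃ n : ℤ, (1 / 2 + (q:ℝ) * (j + 2 * m) : ℝ) = n / 2 :=
    ⟨1 + 2 * (q * (j + 2 * m)), by push_cast; ring⟩
  have e2 : ∃ n : ℤ, (1 / 2 + (q:ℝ) * (j + 2 * m + 2) : ℝ) = n / 2 :=
    ⟨1 + 2 * (q * (j + 2 * m + 2)), by push_cast; ring⟩
  have e3 : ∃ n : ℤ, ((j:ℝ)) = n / 2 := key _ ⟨j, rfl⟩
  have e4 : ∃ n : ℤ, ((j:ℝ) + 1) = n / 2 := key _ ⟨j + 1, by push_cast; ring⟩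
  have e5 : ∃ n : ℤ, ((k:ℝ)) = n / 2 := key _ ⟨k, rfl⟩
  have e6 : ∃ n : ℤ, ((k:ℝ) + 1) = n / 2 := key _ ⟨k + 1, by push_cast; ring⟩
  unfold logB
  split_ifs
  · fin_cases i
    · exact ⟨by simpa using e1, by simpa using e2⟩
    · exact ⟨by simpa using e3, by simpa using e4⟩
    · exact ⟨by simpa using e5, by simpa using e6⟩
  · fin_cases i
    · exact ⟨by simpa using e3, by simpa using e4⟩
    · exact ⟨by simpa using e1, by simpa using e2⟩
    · exact ⟨by simpa using e5, by simpa using e6⟩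

/-- the logs are uniform bricks -/
theorem uni_logA {a : Fin 3 → ℝ} {h : ℝ} {q : ℕ} {k j m : ℤ} {hp : (logA a h q k j m).Pos} :
    Uni 2 a h (toBox (logA a h q k j m) hp) := by
  refine ⟨⟨k, ?_⟩, ?_, fun i _ => ?_, fun i _ => ?_⟩
  · rw [toBox_lo, logA_lo, logB_lo2]; ring
  · rw [toBox_lo, toBox_hi, logA_lo, logA_hi, logB_lo2, logB_hi2]; ring
  · obtain ⟨n, hn⟩ := (logB_half q k j m i).1
    exact ⟨n, by rw [toBox_lo, logA_lo, hn]; ring⟩
  · obtain ⟨n, hn⟩ := (logB_half q k j m i).2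
    exact ⟨n, by rw [toBox_hi, logA_hi, hn]; ring⟩

theorem logA_sz_le {a : Fin 3 → ℝ} {h : ℝ} (hh : 0 < h) {q : ℕ} (hq : 1 ≤ q) (k j m : ℤ) :
    (logA a h q k j m).sz ≤ 2 * q * h := by
  have h1 : ∀ i, (logA a h q k j m).side i ≤ 2 * q * h := by
    intro i
    have h2 := (logB_side q hq k j m i).2
    unfold Bx.side at h2 ⊢
    rw [logA_lo, logA_hi]
    nlinarith
  exact h1 _

/-- **near a compact subset, all cells are logs if the scale is small.** -/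
theorem near_logs {La : Set (EE (Fin 3))} {rho : (Fin 3 → ℝ) → ℝ} {L : ℝ≥0}
    (hL : LipschitzWith L rho) (hLa : ∀ x, 0 < rho x ↔ x ∈ co '' La)
    {K₀ : Set (EE (Fin 3))} (hK : IsCompact K₀) (hKLa : K₀ ⊆ La) {q : ℕ} (hq : 1 ≤ q) :
    ∃ h₁ > 0, ∀ h, 0 < h → h < h₁ → ∀ (a : Fin 3 → ℝ) (F : Set (Bx (Fin 3))) {δ κ0 : ℝ}
      (hF : BoxFoam (co '' La) F δ κ0),
      (∀ C ∈ F, (∃ k j m, C = logA a h q k j m) ∨ ∀ x ∈ C.set, rho x ≤ 3 * (1 + L) * C.sz) →
      (∀ C ∈ F, ∃ k j m, C.Le (logA a h q k j m)) →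
      ∀ c : F, (∃ y ∈ SE (brk hF c), ∃ y₀ ∈ K₀, ‖y - y₀‖ ≤ h) → Uni 2 a h (brk hF c) := by
  have hcont : Continuous (fun y : EE (Fin 3) => rho (co y)) := hL.continuous.comp continuous_co
  by_cases hne : K₀.Nonempty
  swap
  · refine ⟨1, one_pos, fun h _ _ a F δ κ0 hF _ _ c hc => ?_⟩
    obtain ⟨y, _, y₀, hy₀, _⟩ := hc
    exact absurd ⟨y₀, hy₀⟩ hne
  obtain ⟨y₁, hy₁, hmin⟩ := hK.exists_isMinOn hne hcont.continuousOn
  set ρ₀ := rho (co y₁) with hρ₀
  have hρ0 : 0 < ρ₀ := (hLa _).2 (mem_co_image.2 (hKLa hy₁))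
  have hq' : (1:ℝ) ≤ q := by exact_mod_cast hq
  have hLn : (0:ℝ) ≤ L := L.2
  refine ⟨ρ₀ / (L + 3 * (1 + L) * (2 * q) + 1), by positivity, ?_⟩
  intro h hh hh1 a F δ κ0 hF h1 h2 c hc
  obtain ⟨y, hy, y₀, hy₀, hyy⟩ := hc
  rcases h1 c.1 c.2 with ⟨k, j, m, he⟩ | hrho
  · have : brk hF c = toBox (logA a h q k j m) (he ▸ hF.pos c.1 c.2) := by
      unfold brk
      congr 1
    rw [this]
    exact uni_logA
  · exfalso
    have h3 := hrho (co y) ((mem_SE_brk hF).1 hy)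
    obtain ⟨k, j, m, hle⟩ := h2 c.1 c.2
    have h4 := hle.sz_le.trans (logA_sz_le hh hq k j m)
    have h5 : ρ₀ ≤ rho (co y₀) := hmin hy₀
    have h6 : rho (co y₀) - rho (co y) ≤ L * h := by
      have h7 := hL.dist_le_mul (co y₀) (co y)
      rw [Real.dist_eq] at h7
      have h8 : dist (co y₀) (co y) ≤ h := by
        rw [dist_pi_le_iff hh.le]
        intro i
        rw [Real.dist_eq, abs_sub_comm]
        exact (abs_le_norm (y - y₀) i).trans hyy
      have h9 := (le_abs_self _).trans h7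
      nlinarith [mul_le_mul_of_nonneg_left h8 hLn]
    rw [lt_div_iff₀ (by positivity)] at hh1
    have h10 : 3 * (1 + (L:ℝ)) * c.1.sz ≤ 3 * (1 + L) * (2 * q * h) :=
      mul_le_mul_of_nonneg_left h4 (by positivity)
    nlinarith

end Crest.Agent.R96.Push_899
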