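import Mathlib
import Crest.Agent.R96.Push5_899

/-!
# Row 96, U2 PUSH (helper899), part 18: the rays (fibres) of the push.

`ray Q C B g r` keeps the relative coordinates of `g` in `Q`, in the box interpolating
`B → C` (`r ∈ [0, 1/2]`) and `C → Q` (`r ∈ [1/2, 1]`). `(psi, rad)` is the inverse.
-/

set_option autoImplicit false
set_option linter.unusedSectionVars false
set_option linter.unusedVariables false

open Set Filter Topology

noncomputable section

namespace Crest.Agent.R96.Push_899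

variable {ι : Type*} [Fintype ι] [Nonempty ι] [DecidableEq ι]

/-- relative coordinate -/
def rc (Q : Box ι) (g : ι → ℝ) (i : ι) : ℝ := (g i - Q.lo i) / Q.W i

/-- the ray through `g` -/
def ray (Q C B : Box ι) (g : ι → ℝ) (r : ℝ) : ι → ℝ := fun i =>
  (cl Q C i (max 0 (2 * r - 1)) + cl C B i (min 1 (2 * r)) - C.lo i) +
    rc Q g i * (ww Q C i (max 0 (2 * r - 1)) + ww C B i (min 1 (2 * r)) - C.W i)

/-- the radial coordinate -/
def rad (Q C B : Box ι) (y : ι → ℝ) : ℝ := (max 0 (tt Q C y) + min 1 (tt C B y)) / 2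

theorem continuous_rad (Q C B : Box ι) : Continuous (rad Q C B) := by
  unfold rad
  exact ((continuous_const.max (continuous_tt Q C)).add
    (continuous_const.min (continuous_tt C B))).div_const 2

theorem continuous_ray (Q C B : Box ι) : Continuous fun q : (ι → ℝ) × ℝ => ray Q C B q.1 q.2 := by
  unfold ray rc ww cl ch
  fun_prop

theorem ray_outer {Q C B : Box ι} (g : ι → ℝ) {r : ℝ} (hr : 1 / 2 ≤ r) (i : ι) :
    ray Q C B g r i = cl Q C i (2 * r - 1) + rc Q g i * ww Q C i (2 * r - 1) := by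
  unfold ray
  rw [max_eq_right (by linarith), min_eq_left (by linarith), cl_one]
  have h1 : ww C B i 1 = C.W i := by rw [ww_eq]; ring
  rw [h1]
  ring

theorem ray_inner {Q C B : Box ι} (g : ι → ℝ) {r : ℝ} (hr : r ≤ 1 / 2) (i : ι) :
    ray Q C B g r i = cl C B i (2 * r) + rc Q g i * ww C B i (2 * r) := by
  unfold ray
  rw [max_eq_left (by linarith), min_eq_right (by linarith), cl_zero]
  have h1 : ww Q C i 0 = C.W i := by rw [ww_eq]; ring
  rw [h1]
  ring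

theorem ray_one {Q C B : Box ι} (hW : ∀ i, 0 < Q.W i) (g : ι → ℝ) : ray Q C B g 1 = g := by
  funext i
  rw [ray_outer g (by norm_num)]
  have h1 : (2:ℝ) * 1 - 1 = 1 := by norm_num
  rw [h1, cl_one]
  have h2 : ww Q C i 1 = Q.W i := by rw [ww_eq]; ring
  rw [h2]
  unfold rc
  rw [div_mul_cancel₀ _ (hW i).ne']
  ring

theorem ray_zero {Q C B : Box ι} (g : ι → ℝ) (i : ι) :
    ray Q C B g 0 i = B.lo i + rc Q g i * B.W i := by
  rw [ray_inner g (by norm_num), mul_zero, cl_zero]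
  have h2 : ww C B i 0 = B.W i := by rw [ww_eq]; ring
  rw [h2]

theorem ray_zero_pt {Q C : Box ι} (g z : ι → ℝ) : ray Q C (Box.pt z) g 0 = z := by
  funext i
  rw [ray_zero]
  have : (Box.pt z).W i = 0 := by unfold Box.W; simp
  rw [this, mul_zero, add_zero, Box.pt_lo]

/-- one level: the point with relative coordinates `l` on the box `C_t` -/
theorem level_tt {Q C : Box ι} (h : Nest C Q) {l : ι → ℝ} (hl : ∀ i, l i ∈ Icc (0:ℝ) 1)
    (hb : ∃ i, l i = 0 ∨ l i = 1) {t : ℝ} (ht : 0 ≤ t) (h0 : 0 < t ∨ ∀ i, 0 < C.W i) :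
    tt Q C (fun i => cl Q C i t + l i * ww Q C i t) = t := by
  have hw : ∀ i, 0 < ww Q C i t := fun i => ww_pos h i ht h0
  apply le_antisymm
  · rw [tt_le_iff]
    intro i
    rw [gg_le_iff h]
    obtain ⟨l0, l1⟩ := hl i
    constructor
    · have := mul_nonneg l0 (hw i).le
      linarith
    · have : l i * ww Q C i t ≤ 1 * ww Q C i t := mul_le_mul_of_nonneg_right l1 (hw i).le
      have h3 : ww Q C i t = ch Q C i t - cl Q C i t := rfl
      linarith
  · by_contra hcon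
    rw [not_le, tt_lt_iff] at hcon
    obtain ⟨i, hi⟩ := hb
    have h2 := (gg_lt_iff h _ i t).1 (hcon i)
    rcases hi with hi | hi
    · rw [hi, zero_mul, add_zero] at h2; exact lt_irrefl _ h2.1
    · rw [hi, one_mul] at h2
      have h3 : ww Q C i t = ch Q C i t - cl Q C i t := rfl
      rw [h3] at h2
      have := h2.2
      linarith

theorem level_psh {Q C : Box ι} (h : Nest C Q) {l : ι → ℝ} (hl : ∀ i, l i ∈ Icc (0:ℝ) 1)
    (hb : ∃ i, l i = 0 ∨ l i = 1) {t : ℝ} (ht : 0 ≤ t) (h0 : 0 < t ∨ ∀ i, 0 < C.W i) :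
    psh Q C (fun i => cl Q C i t + l i * ww Q C i t) = fun i => Q.lo i + l i * Q.W i := by
  have hte := level_tt h hl hb ht h0
  funext i
  unfold psh
  rw [hte]
  have hw := (ww_pos h i ht h0).ne'
  field_simp
  ring

theorem psh_level {Q C : Box ι} (h : Nest C Q) {y : ι → ℝ} (ht : 0 ≤ tt Q C y)
    (h0 : 0 < tt Q C y ∨ ∀ i, 0 < C.W i) (i : ι) :
    cl Q C i (tt Q C y) + rc Q (psh Q C y) i * ww Q C i (tt Q C y) = y i := by
  have hw := (ww_pos h i ht h0).ne'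
  have hW := (h.Wpos i).ne'
  unfold rc psh
  field_simp
  ring

theorem rc_mem {Q : Box ι} (hW : ∀ i, 0 < Q.W i) {g : ι → ℝ} (hg : g ∈ Q.S) (i : ι) :
    rc Q g i ∈ Icc (0:ℝ) 1 := by
  unfold rc
  have h1 := (hg i).1
  have h2 := (hg i).2
  have h3 : Q.W i = Q.hi i - Q.lo i := rfl
  constructor
  · exact div_nonneg (by linarith) (hW i).le
  · rw [div_le_one (hW i)]; linarith

theorem rc_bd {Q : Box ι} (hW : ∀ i, 0 < Q.W i) {g : ι → ℝ} (hg : g ∈ Q.S) (hg' : g ∉ Q.I) :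
    ∃ i, rc Q g i = 0 ∨ rc Q g i = 1 := by
  by_contra hcon
  push Not at hcon
  apply hg'
  intro i
  obtain ⟨h1, h2⟩ := hcon i
  obtain ⟨l0, l1⟩ := rc_mem hW hg i
  have h3 : 0 < rc Q g i := lt_of_le_of_ne l0 (Ne.symm h1)
  have h4 : rc Q g i < 1 := lt_of_le_of_ne l1 h2
  unfold rc at h3 h4
  rw [div_pos_iff_of_pos_right (hW i)] at h3
  rw [div_lt_one (hW i)] at h4
  have h5 : Q.W i = Q.hi i - Q.lo i := rfl
  constructor <;> linarith

theorem rc_mul {Q : Box ι} (hW : ∀ i, 0 < Q.W i) (g : ι → ℝ) (i : ι) :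
    Q.lo i + rc Q g i * Q.W i = g i := by
  unfold rc
  rw [div_mul_cancel₀ _ (hW i).ne']; ring

section main

variable {P : Finset ι} {c₀ κ ρ : ℝ} {Q C B : Box ι} (hQ : Shape P c₀ κ ρ Q C) (hC : Inner C B)
include hQ hC

theorem B_nest : Nest B C := hC.nest

/-- outer part -/
theorem ray_outer_tt {g : ι → ℝ} (hg : g ∈ Q.S) (hg' : g ∉ Q.I) {r : ℝ} (hr : 1 / 2 ≤ r) :
    tt Q C (ray Q C B g r) = 2 * r - 1 ∧ psh Q C (ray Q C B g r) = g := by
  have e : ray Q C B g r = fun i => cl Q C i (2 * r - 1) + rc Q g i * ww Q C i (2 * r - 1) :=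
    funext fun i => ray_outer g hr i
  have hl := fun i => rc_mem hQ.W0 hg i
  have hb := rc_bd hQ.W0 hg hg'
  rw [e]
  refine ⟨level_tt hQ.nest hl hb (by linarith) (Or.inr hQ.CW), ?_⟩
  rw [level_psh hQ.nest hl hb (by linarith) (Or.inr hQ.CW)]
  exact funext fun i => rc_mul hQ.W0 g i

/-- inner part -/
theorem ray_inner_tt {g : ι → ℝ} (hg : g ∈ Q.S) (hg' : g ∉ Q.I) {r : ℝ} (hr0 : 0 ≤ r)
    (h0 : 0 < r ∨ ∀ i, 0 < B.W i) (hr : r ≤ 1 / 2) :
    tt C B (ray Q C B g r) = 2 * r ∧ psh Q C (psh C B (ray Q C B g r)) = g := by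
  have e : ray Q C B g r = fun i => cl C B i (2 * r) + rc Q g i * ww C B i (2 * r) :=
    funext fun i => ray_inner g hr i
  have hl := fun i => rc_mem hQ.W0 hg i
  have hb := rc_bd hQ.W0 hg hg'
  have h0' : 0 < 2 * r ∨ ∀ i, 0 < B.W i := h0.imp (fun h => by linarith) id
  rw [e]
  refine ⟨level_tt hC.nest hl hb (by linarith) h0', ?_⟩
  rw [level_psh hC.nest hl hb (by linarith) h0']
  have e2 : (fun i => C.lo i + rc Q g i * C.W i) =
      fun i => cl Q C i 0 + rc Q g i * ww Q C i 0 := by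
    funext i
    rw [cl_zero, ww_eq]; ring
  rw [e2, level_psh hQ.nest hl hb le_rfl (Or.inr hQ.CW)]
  exact funext fun i => rc_mul hQ.W0 g i

theorem ray_mem_C {g : ι → ℝ} (hg : g ∈ Q.S) (hg' : g ∉ Q.I) {r : ℝ} (hr0 : 0 ≤ r)
    (h0 : 0 < r ∨ ∀ i, 0 < B.W i) (hr : r ≤ 1 / 2) : ray Q C B g r ∈ C.S := by
  rw [← tt_le_one_iff hC.nest, (ray_inner_tt hQ hC hg hg' hr0 h0 hr).1]
  linarith

theorem ray_not_mem_I {g : ι → ℝ} (hg : g ∈ Q.S) (hg' : g ∉ Q.I) {r : ℝ} (hr : 1 / 2 ≤ r) :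
    ray Q C B g r ∉ C.I := by
  rw [← tt_lt_zero_iff hQ.nest, (ray_outer_tt hQ hC hg hg' hr).1]
  linarith

/-- **`psi (ray g r) = g`** -/
theorem psi_ray {g : ι → ℝ} (hg : g ∈ Q.S) (hg' : g ∉ Q.I) {r : ℝ} (hr0 : 0 ≤ r)
    (h0 : 0 < r ∨ ∀ i, 0 < B.W i) : psi Q C B (ray Q C B g r) = g := by
  rcases le_total r (1 / 2) with hr | hr
  · rw [psi_in (ray_mem_C hQ hC hg hg' hr0 h0 hr)]
    exact (ray_inner_tt hQ hC hg hg' hr0 h0 hr).2
  · rw [psi_out hC.nest (ray_not_mem_I hQ hC hg hg' hr)]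
    exact (ray_outer_tt hQ hC hg hg' hr).2

/-- **`rad (ray g r) = r`** -/
theorem rad_ray {g : ι → ℝ} (hg : g ∈ Q.S) (hg' : g ∉ Q.I) {r : ℝ} (hr0 : 0 ≤ r)
    (h0 : 0 < r ∨ ∀ i, 0 < B.W i) : rad Q C B (ray Q C B g r) = r := by
  rcases le_total r (1 / 2) with hr | hr
  · have h1 := (ray_inner_tt hQ hC hg hg' hr0 h0 hr).1
    have h2 : tt Q C (ray Q C B g r) ≤ 0 :=
      (tt_le_zero_iff hQ.nest _).2 (ray_mem_C hQ hC hg hg' hr0 h0 hr)
    unfold rad
    rw [h1, max_eq_left h2, min_eq_right (by linarith)]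
    ring
  · have h1 := (ray_outer_tt hQ hC hg hg' hr).1
    have h2 : 1 ≤ tt C B (ray Q C B g r) := by
      by_contra hcon
      exact ray_not_mem_I hQ hC hg hg' hr ((tt_lt_one_iff hC.nest _).1 (not_le.1 hcon))
    unfold rad
    rw [h1, max_eq_right (by linarith), min_eq_left h2]
    ring

/-- **`ray (psi y) (rad y) = y`** -/
theorem ray_psi {y : ι → ℝ} (hy : Off C B y) : ray Q C B (psi Q C B y) (rad Q C B y) = y := by
  by_cases hyC : y ∈ C.S
  · have h1 : tt Q C y ≤ 0 := (tt_le_zero_iff hQ.nest _).2 hyC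
    have h2 : tt C B y ≤ 1 := (tt_le_one_iff hC.nest _).2 hyC
    have e1 : rad Q C B y = tt C B y / 2 := by
      unfold rad
      rw [max_eq_left h1, min_eq_right h2]; ring
    have h3 := psh_inner_tt hQ hC hy
    have e2 : ∀ i, rc Q (psi Q C B y) i = rc C (psh C B y) i := by
      intro i
      have h4 := psh_level hQ.nest (y := psh C B y) h3.ge (Or.inr hQ.CW) i
      rw [h3, cl_zero] at h4
      have h5 : ww Q C i 0 = C.W i := by rw [ww_eq]; ring
      rw [h5] at h4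
      rw [psi_in hyC]
      have h6 : rc C (psh C B y) i = (psh C B y i - C.lo i) / C.W i := rfl
      rw [h6, eq_div_iff (hC.W0 i).ne']
      linarith
    funext i
    rw [e1, ray_inner _ (by linarith), e2]
    have h7 := psh_level hC.nest hy.1 hy.2 i
    have e3 : 2 * (tt C B y / 2) = tt C B y := by ring
    rw [e3]
    exact h7
  · have h1 : y ∉ C.I := fun h => hyC (fun i => ⟨(h i).1.le, (h i).2.le⟩)
    have h2 : 0 < tt Q C y := not_le.1 (mt (tt_le_zero_iff hQ.nest _).1 hyC)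
    have h3 : 1 ≤ tt C B y := not_lt.1 (mt (tt_lt_one_iff hC.nest _).1 h1)
    have e1 : rad Q C B y = (tt Q C y + 1) / 2 := by
      unfold rad
      rw [max_eq_right h2.le, min_eq_left h3]
    funext i
    rw [e1, ray_outer _ (by linarith), psi_out hC.nest h1]
    have h7 := psh_level hQ.nest h2.le (Or.inr hQ.CW) i
    have e3 : 2 * ((tt Q C y + 1) / 2) - 1 = tt Q C y := by ring
    rw [e3]
    exact h7

theorem rad_pos {y : ι → ℝ} (hy : 0 < tt C B y) : 0 < rad Q C B y := by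
  unfold rad
  have h1 := le_max_left 0 (tt Q C y)
  have h2 : 0 < min 1 (tt C B y) := lt_min one_pos hy
  linarith

theorem rad_le_one {y : ι → ℝ} (hy : y ∈ Q.S) : rad Q C B y ≤ 1 := by
  unfold rad
  have h1 : max 0 (tt Q C y) ≤ 1 := max_le zero_le_one ((tt_le_one_iff hQ.nest _).2 hy)
  have h2 : min 1 (tt C B y) ≤ 1 := min_le_left _ _
  linarith

theorem rad_eq_one {y : ι → ℝ} (hy : y ∈ Q.S) (hy' : y ∉ Q.I) : rad Q C B y = 1 := by
  have h := rad_ray hQ hC hy hy' zero_le_one (Or.inl one_pos)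
  rwa [ray_one hQ.W0] at h

theorem ray_mem {g : ι → ℝ} (hg : g ∈ Q.S) (hg' : g ∉ Q.I) {r : ℝ} (hr0 : 0 ≤ r)
    (h1 : r ≤ 1) : ray Q C B g r ∈ Q.S := by
  have hl := fun i => rc_mem hQ.W0 hg i
  have key : ∀ (D : Box ι) (a b : ℝ) (i : ι), D.lo i ≤ a → a ≤ b → b ≤ D.hi i →
      D.lo i ≤ a + rc Q g i * (b - a) ∧ a + rc Q g i * (b - a) ≤ D.hi i := by
    intro D a b i h1 h2 h3
    obtain ⟨l0, l1⟩ := hl i
    constructor
    · nlinarith [mul_nonneg l0 (sub_nonneg.2 h2)]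
    · nlinarith [mul_nonneg (sub_nonneg.2 l1) (sub_nonneg.2 h2)]
  rcases le_total r (1 / 2) with hr | hr
  · intro i
    rw [ray_inner g hr]
    have g1 := hC.nest.g1 i
    have g2 := hC.nest.g2 i
    have a1 := hQ.nest.lo i
    have a2 := hQ.nest.hi i
    have a3 := B.le i
    have hw : ww C B i (2 * r) = ch C B i (2 * r) - cl C B i (2 * r) := rfl
    rw [hw]
    apply key Q
    · unfold cl; nlinarith
    · unfold cl ch; nlinarith
    · unfold ch; nlinarith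
  · rw [← tt_le_one_iff hQ.nest, (ray_outer_tt hQ hC hg hg' hr).1]
    linarith

theorem off_ray {g : ι → ℝ} (hg : g ∈ Q.S) (hg' : g ∉ Q.I) {r : ℝ} (h0 : 0 < r) :
    0 < tt C B (ray Q C B g r) := by
  rcases le_total r (1 / 2) with hr | hr
  · rw [(ray_inner_tt hQ hC hg hg' h0.le (Or.inl h0) hr).1]; linarith
  · by_contra hcon
    have h1 : tt C B (ray Q C B g r) < 1 := lt_of_le_of_lt (not_lt.1 hcon) one_pos
    exact ray_not_mem_I hQ hC hg hg' hr ((tt_lt_one_iff hC.nest _).1 h1)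

end main

/-! ### in `EuclideanSpace` -/

/-- the ray in `EE ι` -/
def rayE (Q C B : Box ι) (g : EE ι) (r : ℝ) : EE ι := WithLp.toLp 2 (ray Q C B (co g) r)

/-- the radius in `EE ι` -/
def radE (Q C B : Box ι) (y : EE ι) : ℝ := rad Q C B (co y)

theorem continuous_rayE (Q C B : Box ι) : Continuous fun q : EE ι × ℝ => rayE Q C B q.1 q.2 := by
  have h1 : Continuous fun q : EE ι × ℝ => ray Q C B (co q.1) q.2 :=
    (continuous_ray Q C B).comp ((continuous_co.comp continuous_fst).prodMk continuous_snd)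
  exact (PiLp.continuous_toLp 2 (fun _ : ι => ℝ)).comp h1

theorem continuous_radE (Q C B : Box ι) : Continuous (radE Q C B) :=
  (continuous_rad Q C B).comp continuous_co

variable {Λ : Set (EE ι)} {I : Type*} {Q C B : I → Box ι} {P : Finset ι} {c₀ : ℝ} {κ ρ : I → ℝ}

namespace FoamC

variable (h : FoamC Λ Q C B P c₀ κ ρ)
include h

theorem rayE_one (c : I) (g : EE ι) : rayE (Q c) (C c) (B c) g 1 = g := by
  unfold rayE
  rw [ray_one (h.shape c).W0]; rfl

theorem rayE_zero_pt {z : ι → ℝ} {c : I} (hz : B c = Box.pt z) (g : EE ι) :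
    rayE (Q c) (C c) (B c) g 0 = WithLp.toLp 2 z := by
  unfold rayE
  rw [hz, ray_zero_pt]

theorem rayE_mem {c : I} {g : EE ι} (hg : g ∈ SE (Q c) \ IE (Q c)) {r : ℝ} (hr0 : 0 ≤ r)
    (hr1 : r ≤ 1) : rayE (Q c) (C c) (B c) g r ∈ SE (Q c) :=
  ray_mem (h.shape c) (h.inner c) hg.1 hg.2 hr0 hr1

/-- a ray avoids the holes -/
theorem rayE_pun {c : I} {g : EE ι} (hg : g ∈ SE (Q c) \ IE (Q c)) {r : ℝ} (hr0 : 0 < r)
    (hr1 : r ≤ 1) : rayE (Q c) (C c) (B c) g r ∈ Pun Λ B := by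
  have h1 := h.rayE_mem hg hr0.le hr1
  refine ⟨h.cells.sub c h1, ?_⟩
  intro h2
  obtain ⟨c', hc'⟩ := mem_iUnion.1 h2
  have h3 := h.core_sub c' (IE_subset_SE _ (h.hole_sub c' hc'))
  have hcc : c = c' := by
    by_contra hne
    exact h.disj c c' hne _ h1 h3
  subst hcc
  have h4 := (tt_le_zero_iff (h.inner c).nest _).2 hc'
  have h5 := off_ray (h.shape c) (h.inner c) hg.1 hg.2 hr0
  exact absurd h4 (not_le.2 h5)

/-- **`Psi (ray g r) = g`** -/
theorem Psi_rayE {c : I} {g : EE ι} (hg : g ∈ SE (Q c) \ IE (Q c)) {r : ℝ} (hr0 : 0 < r)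
    (hr1 : r ≤ 1) : Psi Q C B (rayE (Q c) (C c) (B c) g r) = g := by
  have h1 := h.rayE_mem hg hr0.le hr1
  have h2 := h.Psi_eq h1
  have h3 : psi (Q c) (C c) (B c) (co (rayE (Q c) (C c) (B c) g r)) = co g :=
    psi_ray (h.shape c) (h.inner c) hg.1 hg.2 hr0.le (Or.inl hr0)
  rw [h3] at h2
  exact (WithLp.ofLp_injective 2) h2

/-- **`rad (ray g r) = r`** -/
theorem radE_rayE {c : I} {g : EE ι} (hg : g ∈ SE (Q c) \ IE (Q c)) {r : ℝ} (hr0 : 0 < r) :
    radE (Q c) (C c) (B c) (rayE (Q c) (C c) (B c) g r) = r :=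
  rad_ray (h.shape c) (h.inner c) hg.1 hg.2 hr0.le (Or.inl hr0)

/-- **`ray (Psi y) (rad y) = y`** -/
theorem rayE_Psi {c : I} {y : EE ι} (hy : y ∈ SE (Q c)) (hy' : y ∈ Pun Λ B) :
    rayE (Q c) (C c) (B c) (Psi Q C B y) (radE (Q c) (C c) (B c) y) = y := by
  unfold rayE radE
  rw [h.Psi_eq hy, ray_psi (h.shape c) (h.inner c) (h.off hy' c)]
  rfl

theorem radE_pos {c : I} {y : EE ι} (hy' : y ∈ Pun Λ B) : 0 < radE (Q c) (C c) (B c) y :=
  rad_pos (h.shape c) (h.inner c) (h.tt_pos hy' c)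

theorem radE_le_one {c : I} {y : EE ι} (hy : y ∈ SE (Q c)) : radE (Q c) (C c) (B c) y ≤ 1 :=
  rad_le_one (h.shape c) (h.inner c) hy

theorem radE_eq_one {c : I} {y : EE ι} (hy : y ∈ SE (Q c) \ IE (Q c)) :
    radE (Q c) (C c) (B c) y = 1 := rad_eq_one (h.shape c) (h.inner c) hy.1 hy.2

/-- injectivity of the rays off `r = 0` -/
theorem rayE_inj {c : I} {g g' : EE ι} (hg : g ∈ SE (Q c) \ IE (Q c))
    (hg' : g' ∈ SE (Q c) \ IE (Q c)) {r r' : ℝ} (hr : 0 < r) (hr1 : r ≤ 1) (hr' : 0 < r')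
    (hr1' : r' ≤ 1)
    (he : rayE (Q c) (C c) (B c) g r = rayE (Q c) (C c) (B c) g' r') : g = g' ∧ r = r' := by
  constructor
  · rw [← h.Psi_rayE hg hr hr1, he, h.Psi_rayE hg' hr' hr1']
  · rw [← h.radE_rayE hg hr, he, h.radE_rayE hg' hr']

/-- for a point hole `z`: the centre is only hit at `r = 0` -/
theorem rayE_ne_centre {z : ι → ℝ} {c : I} (hz : B c = Box.pt z) {g : EE ι}
    (hg : g ∈ SE (Q c) \ IE (Q c)) {r : ℝ} (hr : 0 < r) (hr1 : r ≤ 1) :
    rayE (Q c) (C c) (B c) g r ≠ WithLp.toLp 2 z := by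
  intro he
  have h1 := h.rayE_pun hg hr hr1
  apply h1.2
  rw [mem_iUnion]
  refine ⟨c, ?_⟩
  rw [he, hz]
  intro i
  exact ⟨le_rfl, le_rfl⟩

/-- surjectivity onto the brick (point hole) -/
theorem rayE_surj {z : ι → ℝ} {c : I} (hz : B c = Box.pt z) {y : EE ι} (hy : y ∈ SE (Q c)) :
    y = WithLp.toLp 2 z ∨ ∃ g ∈ SE (Q c) \ IE (Q c), ∃ r ∈ Ioc (0:ℝ) 1,
      rayE (Q c) (C c) (B c) g r = y := by
  by_cases hyP : y ∈ Pun Λ B
  · exact Or.inr ⟨_, h.Psi_mem_brick hyP hy, _, ⟨h.radE_pos hyP, h.radE_le_one hy⟩,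
      h.rayE_Psi hy hyP⟩
  · left
    have h1 : y ∈ ⋃ c, SE (B c) := by
      by_contra hcon
      exact hyP ⟨h.cells.sub c hy, hcon⟩
    obtain ⟨c', hc'⟩ := mem_iUnion.1 h1
    have h3 := h.core_sub c' (IE_subset_SE _ (h.hole_sub c' hc'))
    have hcc : c = c' := by
      by_contra hne
      exact h.disj c c' hne _ hy h3
    subst hcc
    rw [hz] at hc'
    ext i
    have := hc' i
    exact le_antisymm this.2 this.1

end FoamC

end Crest.Agent.R96.Push_899
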