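import Mathlib
import Crest.Agent.R96.Push16_899

/-!
# Row 96, U2 PUSH (helper899), part 19: mixed cores (`p < n`): prescribed cores and box holes in the
bricks of `G` (pointwise factor), random point holes in the others (averaged factor).
-/

set_option autoImplicit false
set_option linter.unusedSectionVars false
set_option linter.unusedVariables false

open MeasureTheory Set Filter Topology
open scoped NNReal ENNReal

noncomputable section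

namespace Crest.Agent.R96.Push_899

open Crest.Agent.R96.Acl_392 Crest.Agent.R96.Sob1_199 Crest.Agent.R96.Sob2_199
  Crest.Agent.R96.Sob3_199 Crest.Agent.R96.Sob4_199 Crest.Agent.R96.Sob5_199

variable {ι : Type*} [Fintype ι] [Nonempty ι] [DecidableEq ι]

variable {E : Type*} [NormedAddCommGroup E] [NormedSpace ℝ E] [FiniteDimensional ℝ E]
  [MeasurableSpace E] [BorelSpace E] {μ : Measure E} [μ.IsAddHaarMeasure]

/-- the constant of the pointwise bound -/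
def Kpt (ι : Type*) [Fintype ι] (a0 M : ℝ) : ℝ :=
  Fintype.card ι ^ 2 * (128 * a0 ^ 2 + 72 * a0 * M)

/-- the constant of the mixed theorem -/
def KMix (ι : Type*) [Fintype ι] [Nonempty ι] (a0 M p : ℝ) : ℝ≥0∞ :=
  KBF ι a0 p + ENNReal.ofReal (Kpt ι a0 M ^ p)

theorem KMix_lt_top {a0 M p : ℝ} (hp : p < Fintype.card ι) : KMix ι a0 M p < ⊤ :=
  ENNReal.add_lt_top.2 ⟨KBF_lt_top hp, ENNReal.ofReal_lt_top⟩

/-- mixed cores -/
def mixC {I : Type*} (G : Set I) (Q C₁ : I → Box ι) (z : I → ι → ℝ) (c : I) : Box ι := by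
  classical exact if c ∈ G then C₁ c else coreBF (Q c) (z c)

/-- mixed holes -/
def mixB {I : Type*} (G : Set I) (B₁ : I → Box ι) (z : I → ι → ℝ) (c : I) : Box ι := by
  classical exact if c ∈ G then B₁ c else Box.pt (z c)

/-- mixed scales -/
def mixρ {I : Type*} (G : Set I) (Q : I → Box ι) (ρ₁ : I → ℝ) (c : I) : ℝ := by
  classical exact if c ∈ G then ρ₁ c else side (Q c)

section mix

variable {I : Type*} {G : Set I} {Q C₁ B₁ : I → Box ι} {z : I → ι → ℝ} {ρ₁ : I → ℝ} {c : I}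

theorem mixC_mem (h : c ∈ G) : mixC G Q C₁ z c = C₁ c := by
  classical
  unfold mixC; rw [if_pos h]
theorem mixC_not (h : c ∉ G) : mixC G Q C₁ z c = coreBF (Q c) (z c) := by
  classical
  unfold mixC; rw [if_neg h]
theorem mixB_mem (h : c ∈ G) : mixB G B₁ z c = B₁ c := by
  classical
  unfold mixB; rw [if_pos h]
theorem mixB_not (h : c ∉ G) : mixB G B₁ z c = Box.pt (z c) := by
  classical
  unfold mixB; rw [if_neg h]
theorem mixρ_mem (h : c ∈ G) : mixρ G Q ρ₁ c = ρ₁ c := by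
  classical
  unfold mixρ; rw [if_pos h]
theorem mixρ_not (h : c ∉ G) : mixρ G Q ρ₁ c = side (Q c) := by
  classical
  unfold mixρ; rw [if_neg h]

end mix

/-- the prescribed cores and holes -/
structure Given {I : Type*} (G : Set I) (a0 M : ℝ) (Q C₁ B₁ : I → Box ι) (ρ₁ : I → ℝ) : Prop where
  shape : ∀ c ∈ G, Shape ∅ (1 / (8 * a0)) 0 (ρ₁ c) (Q c) (C₁ c)
  inner : ∀ c ∈ G, Inner (C₁ c) (B₁ c)
  asp : ∀ c ∈ G, ∀ i j, (Q c).W i ≤ 4 * a0 * (C₁ c).W j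
  hole : ∀ c ∈ G, ∀ i, (C₁ c).W i ≤ M * (B₁ c).W i
  pos : ∀ c ∈ G, ∀ i, 0 < (B₁ c).W i

variable {Λ : Set (EE ι)} {I : Type*} {Q C₁ B₁ : I → Box ι} {ρ₁ : I → ℝ} {G : Set I}

theorem foamMix {a0 M : ℝ} (ha0 : 1 ≤ a0) (h : Foam0 Λ Q)
    (hA : ∀ c i j, (Q c).W i ≤ a0 * (Q c).W j) (hG : Given G a0 M Q C₁ B₁ ρ₁)
    {z : I → ι → ℝ} (hz : ∀ c, z c ∈ Mid (Q c)) :
    FoamC Λ Q (mixC G Q C₁ z) (mixB G B₁ z) ∅ (1 / (8 * a0)) (fun _ => 0) (mixρ G Q ρ₁) := by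
  refine ⟨h.cells, h.disj, fun c => ?_, fun c => ?_⟩
  · by_cases hc : c ∈ G
    · rw [mixC_mem hc, mixρ_mem hc]; exact hG.shape c hc
    · rw [mixC_not hc, mixρ_not hc]; exact shapeBF ha0 (h.W0 c) (hA c) (hz c)
  · by_cases hc : c ∈ G
    · rw [mixC_mem hc, mixB_mem hc]; exact hG.inner c hc
    · rw [mixC_not hc, mixB_not hc]; exact (admBF (h.W0 c)).inner (hz c)

variable [Countable I]

theorem mix_asp {a0 M : ℝ} (ha0 : 1 ≤ a0) (h : Foam0 Λ Q)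
    (hA : ∀ c i j, (Q c).W i ≤ a0 * (Q c).W j) (hG : Given G a0 M Q C₁ B₁ ρ₁)
    (z : I → ι → ℝ) : ∀ c i j, (Q c).W i ≤ (4 * a0) * (mixC G Q C₁ z c).W j := by
  intro c i j
  by_cases hc : c ∈ G
  · rw [mixC_mem hc]; exact hG.asp c hc i j
  · rw [mixC_not hc, coreBF_W (h.W0 c)]
    have := hA c i j
    linarith

/-- **pointwise factor over the bricks of `G`** (all `p`) -/
theorem mix_ptw {a0 M : ℝ} (ha0 : 1 ≤ a0) (hM : 1 ≤ M) (hΛ : IsOpen Λ) (h : Foam0 Λ Q)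
    (hA : ∀ c i j, (Q c).W i ≤ a0 * (Q c).W j) (hG : Given G a0 M Q C₁ B₁ ρ₁)
    {z : I → ι → ℝ} (hz : ∀ c, z c ∈ Mid (Q c)) {Ω : Set E} (hΩ : IsOpen Ω) {φ : E → EE ι}
    (hφ : ContinuousOn φ Ω) {e : E} {D D' : E → EE ι} (hD : VWD Ω μ φ D e)
    (hD' : VWD (Ω ∩ φ ⁻¹' (Pun Λ (mixB G B₁ z))) μ
      (fun x => Psi Q (mixC G Q C₁ z) (mixB G B₁ z) (φ x)) D' e) :
    ∀ᵐ x ∂μ, x ∈ Ω ∩ φ ⁻¹' (Pun Λ (mixB G B₁ z)) →
      (∀ c, φ x ∈ IE (mixC G Q C₁ z c) → c ∈ G) → ‖D' x‖ ≤ Kpt ι a0 M * ‖D x‖ := by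
  have a0pos : 0 < a0 := by linarith
  have hF := foamMix ha0 h hA hG hz
  have ha := mix_asp ha0 h hA hG z
  filter_upwards [hF.bound_off hΛ hΩ hφ hD hD' (by positivity : (0:ℝ) ≤ 4 * a0) ha,
    hF.bound_core hΛ hΩ hφ hD hD' (fun _ _ => 4 * a0) ha] with x h1 h2 hx hxG
  have e5 : 2 / (1 / (8 * a0)) ^ 2 = 128 * a0 ^ 2 := by field_simp; norm_num
  by_cases hc : ∃ c, φ x ∈ IE (mixC G Q C₁ z c)
  · obtain ⟨c, hc⟩ := hc
    have hcG := hxG c hc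
    have h3 := h2 hx c hc
    have ht := hF.tt_pos hx.2 c
    have hmm : mm (mixC G Q C₁ z c) (mixB G B₁ z c) (co (φ x)) ≤ M := by
      have e1 : mixC G Q C₁ z c = C₁ c := mixC_mem hcG
      have e2 : mixB G B₁ z c = B₁ c := mixB_mem hcG
      rw [e1, e2] at ht ⊢
      exact mm_le_of (hG.inner c hcG) (hG.hole c hcG) (hG.pos c hcG) ht
    have hmm0 := mm_pos (hF.inner c) ht
    have key : ∀ i, |D' x i| ≤ (18 * (4 * a0) * M) * (Fintype.card ι * ‖D x‖) := by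
      intro i
      refine (h3 i).trans ?_
      rw [← Finset.mul_sum]
      calc _ ≤ 18 * M * ((4 * a0) * (Fintype.card ι * ‖D x‖)) := by
            apply mul_le_mul
            · linarith
            · exact mul_le_mul_of_nonneg_left (sum_abs_le _) (by positivity)
            · exact mul_nonneg (by positivity) (Finset.sum_nonneg fun _ _ => abs_nonneg _)
            · linarith
        _ = _ := by ring
    calc ‖D' x‖ ≤ ∑ i, |D' x i| := norm_le_sum _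
      _ ≤ ∑ i : ι, (18 * (4 * a0) * M) * (Fintype.card ι * ‖D x‖) :=
          Finset.sum_le_sum fun i _ => key i
      _ = (Fintype.card ι ^ 2 * (18 * (4 * a0) * M)) * ‖D x‖ := by
          rw [Finset.sum_const, Finset.card_univ, nsmul_eq_mul]; ring
      _ ≤ _ := by
          apply mul_le_mul_of_nonneg_right _ (norm_nonneg _)
          unfold Kpt
          apply mul_le_mul_of_nonneg_left _ (by positivity)
          have : 0 ≤ 128 * a0 ^ 2 := by positivity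
          linarith
  · push Not at hc
    refine (h1 hx hc).trans ?_
    apply mul_le_mul_of_nonneg_right _ (norm_nonneg _)
    unfold Kpt
    apply mul_le_mul_of_nonneg_left _ (by positivity)
    rw [e5]
    nlinarith

/-- **pushBF with mixed cores, `p < n`** -/
theorem pushBF_mix {a0 M p : ℝ} (ha0 : 1 ≤ a0) (hM : 1 ≤ M) (hp0 : 0 ≤ p) (hΛ : IsOpen Λ)
    (h : Foam0 Λ Q) (hA : ∀ c i j, (Q c).W i ≤ a0 * (Q c).W j) (hG : Given G a0 M Q C₁ B₁ ρ₁)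
    {Ω : Set E} (hΩ : IsOpen Ω) {φ : E → EE ι}
    (hφ : ContinuousOn φ Ω) {J : Type*} [Fintype J] {e : J → E} {D : J → E → EE ι}
    (hD : ∀ l, VWD Ω μ φ (D l) (e l)) {N : Set (ι → ℝ)} (hN : volume N = 0)
    {X : Set E} (hX : NullMeasurableSet X μ) :
    ∃ z : I → ι → ℝ, (∀ c, z c ∈ Mid (Q c)) ∧ (∀ c, z c ∉ N) ∧
      ∀ D' : J → E → EE ι, (∀ l, VWD (Ω ∩ φ ⁻¹' (Pun Λ (mixB G B₁ z))) μ
        (fun x => Psi Q (mixC G Q C₁ z) (mixB G B₁ z) (φ x)) (D' l) (e l)) →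
      (∀ᵐ x ∂μ, x ∈ Ω ∩ φ ⁻¹' (Pun Λ (mixB G B₁ z)) →
        (∀ c, φ x ∈ IE (mixC G Q C₁ z c) → c ∈ G) → ∀ l, ‖D' l x‖ ≤ Kpt ι a0 M * ‖D l x‖) ∧
      (∀ c, ∫⁻ x in X ∩ (Ω ∩ φ ⁻¹' (Pun Λ (mixB G B₁ z) ∩ SE (Q c))),
        ∑ l, ‖D' l x‖ₑ ^ p ∂μ ≤ KMix ι a0 M p * ∫⁻ x in X ∩ (Ω ∩ φ ⁻¹' (SE (Q c))),
        ∑ l, ‖D l x‖ₑ ^ p ∂μ) ∧
      ∫⁻ x in X ∩ (Ω ∩ φ ⁻¹' (Pun Λ (mixB G B₁ z))),
        ∑ l, ‖D' l x‖ₑ ^ p ∂μ ≤ KMix ι a0 M p * ∫⁻ x in X ∩ Ω, ∑ l, ‖D l x‖ₑ ^ p ∂μ := by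
  have a0pos : 0 < a0 := by linarith
  have hn : (1:ℝ) ≤ Fintype.card ι := by exact_mod_cast Fintype.card_pos
  -- measurability
  have mD : ∀ l, AEMeasurable (fun x => ‖D l x‖ₑ ^ p) (μ.restrict Ω) := fun l =>
    ((hD l).aemeas.enorm).pow_const p
  set g : E → ℝ≥0∞ := fun x => ∑ l, ‖D l x‖ₑ ^ p with hg
  have mg : AEMeasurable g (μ.restrict Ω) := Finset.aemeasurable_fun_sum _ fun l _ => mD l
  have mφ : AEMeasurable (fun x => co (φ x)) (μ.restrict Ω) :=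
    continuous_co.measurable.comp_aemeasurable
      (hφ.aestronglyMeasurable hΩ.measurableSet).aemeasurable
  have hs0 : ∀ c, X ∩ (Ω ∩ φ ⁻¹' (IE (Q c))) ⊆ Ω := fun c x hx => hx.2.1
  have hcen : ∀ c, ∃ z ∈ Mid (Q c), z ∉ N ∧
      ∫⁻ x, gW (wN ∅ 1 (1/4) (Q c)) p (co (φ x) - z) * g x
        ∂(μ.restrict (X ∩ (Ω ∩ φ ⁻¹' (IE (Q c))))) ≤
      ENNReal.ofReal (2 ^ Fintype.card ι * (1/4) ^ (∅ᶜ : Finset ι).card) * Kc ι p *
        ∫⁻ x, g x ∂(μ.restrict (X ∩ (Ω ∩ φ ⁻¹' (IE (Q c))))) := fun c =>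
    (admBF (h.W0 c)).centre p (mφ.mono_measure (Measure.restrict_mono (hs0 c) le_rfl))
      (mg.mono_measure (Measure.restrict_mono (hs0 c) le_rfl)) hN
  choose z hz hzN hb using hcen
  refine ⟨z, hz, hzN, ?_⟩
  intro D' hD'
  have hF := foamMix ha0 h hA hG hz
  have ha := mix_asp ha0 h hA hG z
  have hptw : ∀ᵐ x ∂μ, x ∈ Ω ∩ φ ⁻¹' (Pun Λ (mixB G B₁ z)) →
        (∀ c, φ x ∈ IE (mixC G Q C₁ z c) → c ∈ G) → ∀ l, ‖D' l x‖ ≤ Kpt ι a0 M * ‖D l x‖ := by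
    have h1 : ∀ᵐ x ∂μ, ∀ l, x ∈ Ω ∩ φ ⁻¹' (Pun Λ (mixB G B₁ z)) →
        (∀ c, φ x ∈ IE (mixC G Q C₁ z c) → c ∈ G) → ‖D' l x‖ ≤ Kpt ι a0 M * ‖D l x‖ :=
      ae_all_iff.2 fun l => mix_ptw ha0 hM hΛ h hA hG hz hΩ hφ (hD l) (hD' l)
    filter_upwards [h1] with x hx h2 h3 l using hx l h2 h3
  refine ⟨hptw, ?_⟩
  have hKpt : 0 ≤ Kpt ι a0 M := by unfold Kpt; positivity
  set B : I → Box ι := mixB G B₁ z with hB
  set C : I → Box ι := mixC G Q C₁ z with hC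
  have hCW : ∀ c, c ∉ G → ∀ i, (C c).W i = 1 / 4 * (Q c).W i := by
    intro c hc i
    rw [hC, mixC_not hc, coreBF_W (h.W0 c)]; ring
  -- the pointwise bound, integrated
  have hint : ∀ S' : Set E, NullMeasurableSet S' μ → (∀ x ∈ S', x ∈ Ω ∩ φ ⁻¹' (Pun Λ B) ∧
      ∀ c, φ x ∈ IE (C c) → c ∈ G) → ∫⁻ x in S', ∑ l, ‖D' l x‖ₑ ^ p ∂μ ≤
        ENNReal.ofReal (Kpt ι a0 M ^ p) * ∫⁻ x in S', g x ∂μ := by
    intro S' hS' hSG
    rw [← lintegral_const_mul' _ _ ENNReal.ofReal_ne_top]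
    apply lintegral_mono_ae
    refine (ae_restrict_iff'₀ hS').2 ?_
    filter_upwards [hptw] with x hx hx2
    obtain ⟨h1, h2⟩ := hSG x hx2
    rw [hg]
    simp only
    rw [Finset.mul_sum]
    apply Finset.sum_le_sum
    intro l _
    rw [← ofReal_norm (D l x), ENNReal.ofReal_rpow_of_nonneg (norm_nonneg _) hp0,
      ← ENNReal.ofReal_mul (by positivity), ← Real.mul_rpow hKpt (norm_nonneg _)]
    exact enorm_rpow_le hp0 (hx h1 h2 l)
  have hO := hF.isOpen_dom hΛ hΩ hφ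
  -- core part
  have part1 : ∀ c, ∫⁻ x in X ∩ (Ω ∩ φ ⁻¹' (Pun Λ B ∩ IE (C c))), ∑ l, ‖D' l x‖ₑ ^ p ∂μ ≤
      (ENNReal.ofReal ((200 * a0 ^ 2 * Fintype.card ι ^ 2) ^ p) * Kc ι p +
        ENNReal.ofReal (Kpt ι a0 M ^ p)) *
        ∫⁻ x in X ∩ (Ω ∩ φ ⁻¹' (IE (Q c))), g x ∂μ := by
    intro c
    have hs2' : X ∩ (Ω ∩ φ ⁻¹' (Pun Λ B ∩ IE (C c))) ⊆ X ∩ (Ω ∩ φ ⁻¹' (IE (Q c))) :=
      fun x hx => ⟨hx.1, hx.2.1, hF.core_sub c (IE_subset_SE _ hx.2.2.2)⟩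
    by_cases hcG : c ∈ G
    · have hO2 : IsOpen (Ω ∩ φ ⁻¹' (Pun Λ B ∩ IE (C c))) :=
        hφ.isOpen_inter_preimage hΩ ((hF.isOpen_pun hΛ).inter (isOpen_IE _))
      refine (hint _ (hX.inter hO2.measurableSet.nullMeasurableSet) ?_).trans ?_
      · intro x hx
        refine ⟨⟨hx.2.1, hx.2.2.1⟩, fun c' hc' => ?_⟩
        have : c = c' := by
          by_contra hne
          have h1 := hF.core_sub c (IE_subset_SE _ hx.2.2.2)
          have h2 := hF.core_sub c' (IE_subset_SE _ hc')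
          exact hF.disj c c' hne _ (IE_subset_SE _ h1) h2
        rw [← this]; exact hcG
      · exact mul_le_mul' le_add_self (lintegral_mono_set hs2')
    have hBc : B c = Box.pt (z c) := by rw [hB]; exact mixB_not hcG
    refine le_trans ?_ (mul_le_mul' le_self_add le_rfl)
    rw [mul_assoc]
    have hs1 : X ∩ (Ω ∩ φ ⁻¹' (Pun Λ B ∩ IE (C c))) ⊆ Ω ∩ φ ⁻¹' (Pun Λ B) :=
      fun x hx => ⟨hx.2.1, hx.2.2.1⟩
    have hs2 : X ∩ (Ω ∩ φ ⁻¹' (IE (C c))) ⊆ X ∩ (Ω ∩ φ ⁻¹' (IE (Q c))) :=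
      fun x hx => ⟨hx.1, hx.2.1, hF.core_sub c (IE_subset_SE _ hx.2.2)⟩
    have mD' : ∀ l, AEMeasurable (fun x => ‖D' l x‖ₑ ^ p)
        (μ.restrict (X ∩ (Ω ∩ φ ⁻¹' (Pun Λ B ∩ IE (C c))))) := fun l =>
      (((hD' l).aemeas.enorm).pow_const p).mono_measure (Measure.restrict_mono hs1 le_rfl)
    rw [lintegral_finsetSum' _ fun l _ => mD' l]
    have e1 : ∀ l, ∫⁻ x in X ∩ (Ω ∩ φ ⁻¹' (Pun Λ B ∩ IE (C c))), ‖D' l x‖ₑ ^ p ∂μ ≤
        ENNReal.ofReal ((200 * a0 ^ 2 * Fintype.card ι ^ 2) ^ p) *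
          ∫⁻ x in X ∩ (Ω ∩ φ ⁻¹' (IE (Q c))), gW (C c).W p (co (φ x) - z c) *
            ‖D l x‖ₑ ^ p ∂μ := by
      intro l
      have h1 := hF.core_int hΛ hΩ hφ (hD l) (hD' l) hp0 (fun _ _ => 4 * a0)
        (fun c i j => ha c i j) c (z := z c) hBc hX
      refine h1.trans ?_
      have e2 : ∀ x, ENNReal.ofReal ((∑ j, (4 * a0) * |D l x j|) ^ p) ≤
          ENNReal.ofReal ((4 * a0 * Fintype.card ι) ^ p) * ‖D l x‖ₑ ^ p := by
        intro x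
        rw [← ofReal_norm, ENNReal.ofReal_rpow_of_nonneg (norm_nonneg _) hp0,
          ← ENNReal.ofReal_mul (by positivity), ← Real.mul_rpow (by positivity) (norm_nonneg _)]
        apply ENNReal.ofReal_le_ofReal
        apply Real.rpow_le_rpow _ _ hp0
        · exact Finset.sum_nonneg fun j _ => by positivity
        · rw [← Finset.mul_sum]
          refine (mul_le_mul_of_nonneg_left (sum_abs_le (D l x)) (by positivity)).trans
            (le_of_eq (by ring))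
      calc _ ≤ ENNReal.ofReal ((18 * Fintype.card ι) ^ p) *
            ∫⁻ x in X ∩ (Ω ∩ φ ⁻¹' (IE (Q c))), gW (C c).W p (co (φ x) - z c) *
              (ENNReal.ofReal ((4 * a0 * Fintype.card ι) ^ p) * ‖D l x‖ₑ ^ p) ∂μ := by
            refine mul_le_mul' le_rfl ?_
            refine (lintegral_mono_set hs2).trans (lintegral_mono fun x => ?_)
            exact mul_le_mul' le_rfl (e2 x)
        _ = ENNReal.ofReal ((18 * Fintype.card ι) ^ p) * (ENNReal.ofReal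
            ((4 * a0 * Fintype.card ι) ^ p) * ∫⁻ x in X ∩ (Ω ∩ φ ⁻¹' (IE (Q c))),
              gW (C c).W p (co (φ x) - z c) * ‖D l x‖ₑ ^ p ∂μ) := by
            congr 1
            rw [← lintegral_const_mul' _ _ ENNReal.ofReal_ne_top]
            apply lintegral_congr
            intro x; ring
        _ ≤ _ := by
            rw [← mul_assoc, ← ENNReal.ofReal_mul (by positivity),
              ← Real.mul_rpow (by positivity) (by positivity)]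
            gcongr ?_ * _
            apply ENNReal.ofReal_le_ofReal
            apply Real.rpow_le_rpow (by positivity) _ hp0
            nlinarith [mul_nonneg (sub_nonneg.2 ha0) (sq_nonneg (Fintype.card ι : ℝ)),
              mul_nonneg a0pos.le (mul_nonneg (sub_nonneg.2 ha0) (sq_nonneg (Fintype.card ι : ℝ)))]
    refine (Finset.sum_le_sum fun l _ => e1 l).trans ?_
    rw [← Finset.mul_sum]
    refine mul_le_mul' le_rfl ?_
    rw [← lintegral_finsetSum']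
    · have e3 : ∀ x, ∑ l, gW (C c).W p (co (φ x) - z c) * ‖D l x‖ₑ ^ p =
          gW (wN ∅ 1 (1/4) (Q c)) p (co (φ x) - z c) * g x := by
        intro x
        rw [← Finset.mul_sum]
        congr 2
        funext i
        rw [hCW c hcG]; simp [wN]
      rw [lintegral_congr e3]
      refine (hb c).trans ?_
      have e4 : ENNReal.ofReal (2 ^ Fintype.card ι * (1/4) ^ (∅ᶜ : Finset ι).card) ≤ 1 := by
        rw [Finset.compl_empty, Finset.card_univ, ← mul_pow]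
        apply ENNReal.ofReal_le_one.2
        exact pow_le_one₀ (by norm_num) (by norm_num)
      calc _ ≤ 1 * Kc ι p * ∫⁻ x, g x ∂(μ.restrict (X ∩ (Ω ∩ φ ⁻¹' (IE (Q c))))) := by gcongr
        _ = _ := by rw [one_mul]
    · intro l _
      apply AEMeasurable.mul
      · refine (measurable_gW _ p).comp_aemeasurable ?_
        exact (mφ.mono_measure (Measure.restrict_mono (hs0 c) le_rfl)).sub aemeasurable_const
      · exact (mD l).mono_measure (Measure.restrict_mono (hs0 c) le_rfl)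
  -- rest: any measurable set of values off the open cores
  have part2 : ∀ T : Set (EE ι), MeasurableSet T → T ⊆ Pun Λ B → (∀ y ∈ T, ∀ c, y ∉ IE (C c)) →
      ∫⁻ x in X ∩ (Ω ∩ φ ⁻¹' T), ∑ l, ‖D' l x‖ₑ ^ p ∂μ ≤
        ENNReal.ofReal ((200 * a0 ^ 2 * Fintype.card ι ^ 2) ^ p) *
          ∫⁻ x in X ∩ (Ω ∩ φ ⁻¹' T), g x ∂μ := by
    intro T hT hTP hTC
    rw [← lintegral_const_mul' _ _ ENNReal.ofReal_ne_top]
    apply lintegral_mono_ae
    have hm : NullMeasurableSet (X ∩ (Ω ∩ φ ⁻¹' T)) μ := by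
      have h1 := hF.nm (μ := μ) hΩ hφ hT
      have h2 := (nullMeasurableSet_restrict hΩ.measurableSet.nullMeasurableSet).1 h1
      rw [inter_comm] at h2
      exact hX.inter h2
    refine (ae_restrict_iff'₀ hm).2 ?_
    have h1 : ∀ᵐ x ∂μ, ∀ l, x ∈ Ω ∩ φ ⁻¹' (Pun Λ B) → (∀ c, φ x ∉ IE (C c)) →
        ‖D' l x‖ ≤ (Fintype.card ι ^ 2 * (2 / (1 / (8 * a0)) ^ 2 + 18 * (4 * a0))) * ‖D l x‖ :=
      ae_all_iff.2 fun l => hF.bound_off hΛ hΩ hφ (hD l) (hD' l) (by positivity) ha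
    filter_upwards [h1] with x hx hx2
    rw [hg]
    simp only
    rw [Finset.mul_sum]
    apply Finset.sum_le_sum
    intro l _
    have h2 := hx l ⟨hx2.2.1, hTP hx2.2.2⟩ (hTC _ hx2.2.2)
    rw [← ofReal_norm (D l x), ENNReal.ofReal_rpow_of_nonneg (norm_nonneg _) hp0,
          ← ENNReal.ofReal_mul (by positivity), ← Real.mul_rpow (by positivity) (norm_nonneg _)]
    apply enorm_rpow_le hp0
    refine h2.trans (mul_le_mul_of_nonneg_right ?_ (norm_nonneg _))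
    have e5 : 2 / (1 / (8 * a0)) ^ 2 = 128 * a0 ^ 2 := by field_simp; norm_num
    rw [e5]
    nlinarith [mul_nonneg a0pos.le (mul_nonneg (sub_nonneg.2 ha0) (sq_nonneg (Fintype.card ι : ℝ)))]
  have mPun := (hF.isOpen_pun hΛ).measurableSet
  constructor
  · intro c
    set GG' := ∫⁻ x in X ∩ (Ω ∩ φ ⁻¹' (SE (Q c))), g x ∂μ with hGG
    have s1 : X ∩ (Ω ∩ φ ⁻¹' (Pun Λ B ∩ SE (Q c))) ⊆
        (X ∩ (Ω ∩ φ ⁻¹' (Pun Λ B ∩ IE (C c)))) ∪
        (X ∩ (Ω ∩ φ ⁻¹' (Pun Λ B ∩ (SE (Q c) \ IE (C c))))) := by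
      rintro x ⟨h0, h1⟩
      rcases hF.brick_split c h1 with h2 | h2
      · exact Or.inl ⟨h0, h2⟩
      · exact Or.inr ⟨h0, h2⟩
    have s2 : X ∩ (Ω ∩ φ ⁻¹' (IE (Q c))) ⊆ X ∩ (Ω ∩ φ ⁻¹' (SE (Q c))) :=
      fun x hx => ⟨hx.1, hx.2.1, IE_subset_SE _ hx.2.2⟩
    have s3 : X ∩ (Ω ∩ φ ⁻¹' (Pun Λ B ∩ (SE (Q c) \ IE (C c)))) ⊆ X ∩ (Ω ∩ φ ⁻¹' (SE (Q c))) :=
      fun x hx => ⟨hx.1, hx.2.1, hx.2.2.2.1⟩
    calc _ ≤ ∫⁻ x in (X ∩ (Ω ∩ φ ⁻¹' (Pun Λ B ∩ IE (C c)))) ∪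
          (X ∩ (Ω ∩ φ ⁻¹' (Pun Λ B ∩ (SE (Q c) \ IE (C c))))), ∑ l, ‖D' l x‖ₑ ^ p ∂μ :=
          lintegral_mono_set s1
      _ ≤ _ := lintegral_union_le _ _ _
      _ ≤ (ENNReal.ofReal ((200 * a0 ^ 2 * Fintype.card ι ^ 2) ^ p) * Kc ι p +
          ENNReal.ofReal (Kpt ι a0 M ^ p)) * GG' +
          ENNReal.ofReal ((200 * a0 ^ 2 * Fintype.card ι ^ 2) ^ p) * GG' := by
          refine add_le_add ((part1 c).trans ?_) ((part2 (Pun Λ B ∩ (SE (Q c) \ IE (C c)))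
            (mPun.inter ((isClosed_SE (Q c)).measurableSet.diff (isOpen_IE (C c)).measurableSet))
            inter_subset_left
            (fun y hy => hF.not_core hy.2.1 hy.2.2)).trans ?_)
          · exact mul_le_mul' le_rfl (lintegral_mono_set s2)
          · exact mul_le_mul' le_rfl (lintegral_mono_set s3)
      _ = KMix ι a0 M p * GG' := by unfold KMix KBF; ring
  · set GG' := ∫⁻ x in X ∩ Ω, g x ∂μ with hGG
    set T : Set (EE ι) := Pun Λ B \ ⋃ c, IE (C c) with hT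
    have mT : MeasurableSet T := mPun.diff (MeasurableSet.iUnion fun c =>
      (isOpen_IE (C c)).measurableSet)
    have s1 : X ∩ (Ω ∩ φ ⁻¹' (Pun Λ B)) ⊆
        (⋃ c, X ∩ (Ω ∩ φ ⁻¹' (Pun Λ B ∩ IE (C c)))) ∪ (X ∩ (Ω ∩ φ ⁻¹' T)) := by
      rintro x ⟨h0, h1, h2⟩
      by_cases h3 : φ x ∈ ⋃ c, IE (C c)
      · obtain ⟨c, hc⟩ := mem_iUnion.1 h3
        exact Or.inl (mem_iUnion.2 ⟨c, h0, h1, h2, hc⟩)
      · exact Or.inr ⟨h0, h1, h2, h3⟩
    have s2 : (⋃ c, X ∩ (Ω ∩ φ ⁻¹' (IE (Q c)))) ⊆ X ∩ Ω :=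
      iUnion_subset fun c x hx => ⟨hx.1, hx.2.1⟩
    have s3 : X ∩ (Ω ∩ φ ⁻¹' T) ⊆ X ∩ Ω := fun x hx => ⟨hx.1, hx.2.1⟩
    have nmc : ∀ c, NullMeasurableSet (X ∩ (Ω ∩ φ ⁻¹' (IE (Q c)))) μ := fun c =>
      hX.inter (hφ.isOpen_inter_preimage hΩ (isOpen_IE (Q c))).measurableSet.nullMeasurableSet
    calc _ ≤ ∫⁻ x in (⋃ c, X ∩ (Ω ∩ φ ⁻¹' (Pun Λ B ∩ IE (C c)))) ∪ (X ∩ (Ω ∩ φ ⁻¹' T)),
          ∑ l, ‖D' l x‖ₑ ^ p ∂μ := lintegral_mono_set s1
      _ ≤ _ := lintegral_union_le _ _ _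
      _ ≤ (ENNReal.ofReal ((200 * a0 ^ 2 * Fintype.card ι ^ 2) ^ p) * Kc ι p +
          ENNReal.ofReal (Kpt ι a0 M ^ p)) * GG' +
          ENNReal.ofReal ((200 * a0 ^ 2 * Fintype.card ι ^ 2) ^ p) * GG' := by
          refine add_le_add ?_ ((part2 T mT sdiff_subset (fun y hy c hc =>
            hy.2 (mem_iUnion.2 ⟨c, hc⟩))).trans (mul_le_mul' le_rfl (lintegral_mono_set s3)))
          refine (lintegral_iUnion_le _ _).trans ?_
          refine (ENNReal.tsum_le_tsum part1).trans ?_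
          rw [ENNReal.tsum_mul_left]
          refine mul_le_mul' le_rfl ?_
          rw [← lintegral_iUnion₀ nmc]
          · exact lintegral_mono_set s2
          · intro c c' hcc
            apply Disjoint.aedisjoint
            rw [Set.disjoint_left]
            rintro x ⟨_, _, hx⟩ ⟨_, _, hx'⟩
            exact (Set.disjoint_left.1 (hF.open_disj hcc)) hx hx'
      _ = KMix ι a0 M p * GG' := by unfold KMix KBF; ring


end Crest.Agent.R96.Push_899
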