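import Mathlib
import Crest.Agent.R96.Push17_899
import Crest.Agent.R96.Push18_899
import Crest.Agent.R96.Push19_899
import Crest.Agent.R096.SkC1_961

/-!
# Row 96, U2 PUSH (helper899), part 20: the interface `SkC1_961.FoamD` and the push.
-/

set_option autoImplicit false
set_option linter.unusedSectionVars false
set_option linter.unusedVariables false

open MeasureTheory Set Filter Topology
open scoped NNReal ENNReal Function

noncomputable section

namespace Crest.Agent.R96.Push_899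

open Crest.Agent.R096.Bsp_628 Crest.Agent.R096.Brk5_582 Crest.Agent.R096.SkC1_961

/-- the push is the identity on the boundary of the brick -/
theorem IsPush.id_bd {c0 : ℝ} {Q B : Box (Fin 3)} {pu : E3 → E3} (h : IsPush c0 Q B pu) {y : E3}
    (hy : y ∈ Q.S) (hy' : y ∉ Q.I) : pu y = y := by
  rcases h with ⟨P, κ, ρ, hS, rfl⟩ | ⟨P, κ, ρ, C, hS, hI, rfl⟩
  · exact psh_eq_self hS.nest (tt_eq_one hS.nest hy hy')
  · exact psi_eq_self hS hI hy hy'

/-- the push maps the brick minus the hole into the boundary of the brick -/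
theorem IsPush.bd {c0 : ℝ} {Q B : Box (Fin 3)} {pu : E3 → E3} (h : IsPush c0 Q B pu) {y : E3}
    (hy : y ∈ Q.S) (hy' : y ∉ B.S) : pu y ∈ Q.S ∧ pu y ∉ Q.I := by
  rcases h with ⟨P, κ, ρ, hS, rfl⟩ | ⟨P, κ, ρ, C, hS, hI, rfl⟩
  · have h1 : 0 < tt Q B y := not_le.1 (mt (tt_le_zero_iff hS.nest _).1 hy')
    exact ⟨psh_mem hS.nest h1.le (Or.inl h1), psh_not_mem_I hS.nest h1.le (Or.inl h1)⟩
  · have h1 : 0 < tt C B y := not_le.1 (mt (tt_le_zero_iff hI.nest _).1 hy')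
    exact psi_bd hS hI hy ⟨h1.le, Or.inl h1⟩

section FoamD

variable {δ κ0 R c0 : ℝ} {La : Set E3} (Φ : FoamD δ κ0 R c0 La)

/-- the brick of `FoamD` as a `Box` -/
def bbox (c : Φ.F) : Box (Fin 3) := toBox c.1 (Φ.bf.pos c.1 c.2)

theorem mem_bbox {c : Φ.F} {y : E3} : y ∈ (bbox Φ c).S ↔ y ∈ c.1.set := by
  rw [Bx.mem_set]; rfl

theorem FoamD.not_mem_I {c c' : Φ.F} (hne : c ≠ c') {y : E3} (hy : y ∈ c.1.set) :
    y ∉ (bbox Φ c').I := by
  intro hI
  have hne' : c.1 ≠ c'.1 := fun h => hne (Subtype.ext h)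
  obtain ⟨k, hk⟩ := Φ.bf.inv.disj c.2 c'.2 (Φ.bf.pos _ c.2) (Φ.bf.pos _ c'.2) hne'
  have h1 := (Bx.mem_set.1 hy) k
  have h2 := hI k
  have h4 : c'.1.lo k < y k ∧ y k < c'.1.hi k := h2
  rcases hk with hk | hk <;> linarith [h1.1, h1.2, h4.1, h4.2]

/-- **`Psi` is the push of any brick containing the point** -/
theorem FoamD.Psi_eq {c : Φ.F} {y : E3} (hy : y ∈ c.1.set) : Φ.Psi y = Φ.pu c y := by
  classical
  have hex : ∃ c : Φ.F, y ∈ c.1.set := ⟨c, hy⟩
  have e : Φ.Psi y = Φ.pu hex.choose y := by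
    unfold FoamD.Psi
    rw [dif_pos hex]
  rw [e]
  have hc' := hex.choose_spec
  set c' := hex.choose with hcd
  by_cases hcc : c' = c
  · rw [hcc]
  · have h1 : Φ.pu c' y = y := IsPush.id_bd (Φ.push c') ((mem_bbox Φ).2 hc')
      (FoamD.not_mem_I Φ (Ne.symm hcc) hy)
    have h2 : Φ.pu c y = y := IsPush.id_bd (Φ.push c) ((mem_bbox Φ).2 hy)
      (FoamD.not_mem_I Φ hcc hc')
    rw [h1, h2]

/-- `Psi = id` on the walls -/
theorem FoamD.Psi_id {c : Φ.F} {y : E3} (hy : y ∈ c.1.set) (hy' : y ∉ (bbox Φ c).I) :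
    Φ.Psi y = y := by
  rw [FoamD.Psi_eq Φ hy]
  exact IsPush.id_bd (Φ.push c) ((mem_bbox Φ).2 hy) hy'

/-- `Psi` maps the brick minus its hole into its boundary -/
theorem FoamD.Psi_bd {c : Φ.F} {y : E3} (hy : y ∈ c.1.set) (hy' : y ∉ (Φ.B c).S) :
    Φ.Psi y ∈ (bbox Φ c).S ∧ Φ.Psi y ∉ (bbox Φ c).I := by
  rw [FoamD.Psi_eq Φ hy]
  exact IsPush.bd (Φ.push c) ((mem_bbox Φ).2 hy) hy'

theorem FoamD.Psi_mem {c : Φ.F} {y : E3} (hy : y ∈ c.1.set) (hy' : y ∉ (Φ.B c).S) :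
    Φ.Psi y ∈ c.1.set := (mem_bbox Φ).1 (FoamD.Psi_bd Φ hy hy').1

end FoamD

/-! ### from cores and holes to `FoamD` -/

section mk

variable {δ κ0 R c0 : ℝ} {La : Set E3} {F : Set (Bx (Fin 3))}

/-- the target in `EE` -/
def LaE (La : Set E3) : Set (EE (Fin 3)) := co ⁻¹' La

theorem co_surjective : Function.Surjective (co : EE (Fin 3) → E3) := fun y =>
  ⟨WithLp.toLp 2 y, rfl⟩

theorem co_image_LaE (La : Set E3) : co '' (LaE La) = La := image_preimage_eq _ co_surjective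

theorem isOpen_LaE (h : IsOpen La) : IsOpen (LaE La) := h.preimage continuous_co

theorem bf_LaE (bf : BoxFoam La F δ κ0) : BoxFoam (co '' (LaE La)) F δ κ0 := by
  rw [co_image_LaE]; exact bf

/-- the bricks -/
def brk' (bf : BoxFoam La F δ κ0) (c : F) : Box (Fin 3) := toBox c.1 (bf.pos c.1 c.2)

theorem foam0' (bf : BoxFoam La F δ κ0) : Foam0 (LaE La) (brk' bf) := foam0_brk (bf_LaE bf)

theorem asp' (bf : BoxFoam La F δ κ0) (c : F) (i j : Fin 3) :
    (brk' bf c).W i ≤ κ0 * (brk' bf c).W j := brk_asp (bf_LaE bf) c i j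

/-- **the `FoamD` of a family of cores and holes** -/
def mkFoamD (bf : BoxFoam La F δ κ0) (cmp : Cmp F R) {C B : F → Box (Fin 3)} {P : Finset (Fin 3)}
    {κ ρ : F → ℝ} (h : FoamC (LaE La) (brk' bf) C B P c0 κ ρ) : FoamD δ κ0 R c0 La where
  F := F
  bf := bf
  cmp := cmp
  B := B
  pu := fun c => psi (brk' bf c) (C c) (B c)
  push := fun c => Or.inr ⟨P, κ c, ρ c, C c, h.shape c, h.inner c, rfl⟩

variable (bf : BoxFoam La F δ κ0) (cmp : Cmp F R) {C B : F → Box (Fin 3)} {P : Finset (Fin 3)}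
    {κ ρ : F → ℝ} (h : FoamC (LaE La) (brk' bf) C B P c0 κ ρ)

/-- **the two pushes agree** -/
theorem mkFoamD_Psi {y : EE (Fin 3)} (hy : y ∈ LaE La) :
    (mkFoamD bf cmp h).Psi (co y) = co (Psi (brk' bf) C B y) := by
  obtain ⟨c, hc, hyc⟩ := bf.cov (co y) hy
  have h1 := FoamD.Psi_eq (mkFoamD bf cmp h) (c := ⟨c, hc⟩) hyc
  rw [h1, h.Psi_eq (c := ⟨c, hc⟩)]
  · rfl
  · exact mem_SE_toBox.2 hyc

theorem mkFoamD_B (c : F) : (mkFoamD bf cmp h).B c = B c := rfl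

theorem mkFoamD_pu (c : F) : (mkFoamD bf cmp h).pu c = psi (brk' bf c) (C c) (B c) := rfl

/-- **`Exact.ray`** for a two-stage push whose core is the homothetic box `z + lam * Q` -/
theorem psi_homothety {Q C B : Box (Fin 3)} {P : Finset (Fin 3)} {κ ρ lam : ℝ} {z : E3}
    (hS : Shape P c0 κ ρ Q C) (hI : Inner C B) (hlam : 0 < lam)
    (hlo : ∀ k, C.lo k = z k + lam * Q.lo k) (hhi : ∀ k, C.hi k = z k + lam * Q.hi k) {y : E3}
    (hy : ∀ k, z k + lam * Q.lo k ≤ y k ∧ y k ≤ z k + lam * Q.hi k)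
    (hb : ∃ k, y k = z k + lam * Q.lo k ∨ y k = z k + lam * Q.hi k) :
    psi Q C B y = fun k => (y k - z k) / lam := by
  have hyC : y ∈ C.S := fun k => by rw [hlo, hhi]; exact hy k
  have hyI : y ∉ C.I := by
    intro hI'
    obtain ⟨k, hk⟩ := hb
    have := hI' k
    rw [hlo, hhi] at this
    rcases hk with hk | hk <;> linarith [this.1, this.2]
  have htt : tt Q C y = 0 := by
    apply le_antisymm
    · exact (tt_le_zero_iff hS.nest y).2 hyC
    · exact not_lt.1 (mt (tt_lt_zero_iff hS.nest y).1 hyI)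
  rw [psi_out hI.nest hyI]
  funext k
  unfold psh
  rw [htt, cl_zero, ww_eq]
  have hCW : C.W k = lam * Q.W k := by unfold Box.W; rw [hlo, hhi]; ring
  have hQW : 0 < Q.W k := hS.W0 k
  have hl0 := hlam.ne'
  have hQ0 := hQW.ne'
  have e1 : Q.W k / (lam * Q.W k + 0 * (Q.W k - lam * Q.W k)) = 1 / lam := by
    rw [zero_mul, add_zero, div_eq_div_iff (mul_ne_zero hl0 hQ0) hl0]; ring
  rw [hCW, hlo, e1]
  field_simp
  ring

end mk

end Crest.Agent.R96.Push_899
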