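/-
helper199, row 96, leaf ENERGY, part 11: sharp form: every edge sees only the derivative in its own
direction; energies of the edges of one direction; (D3) of DICT (582), (5.3) of 477 #8882.
-/
import Mathlib
import Crest.Agent.R96.En9_199

set_option autoImplicit false

open MeasureTheory Set Filter
open scoped Topology ENNReal

namespace Crest.Agent.R96.En11_199

open Crest.Agent.R096.Msh_810 Crest.Agent.R096.Bas_731 Crest.Agent.R96.En3_199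
  Crest.Agent.R96.En4_199 Crest.Agent.R96.En5_199 Crest.Agent.R96.En2_199 Crest.Agent.R96.En6_199
  Crest.Agent.R96.En7_199 Crest.Agent.R96.En8_199 Crest.Agent.R96.En9_199
  Crest.Agent.R96.Acl_392 Crest.Agent.R96.Sob2_199 Crest.Agent.R96.Sob3_199

noncomputable section

variable {n : ℕ}

/-! ### levels in the own direction of the edge -/

/-- levels for one function on finitely many edges, an upper gradient for every edge -/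
theorem edges_oneD {κ κ' : Type*} [Fintype κ] [Fintype κ'] (a : Fin n → ℝ) (σ : κ → Idx n)
    (i : κ → Fin n) (hσ : ∀ j, (σ j).J = {i j}) {v : (Fin n → ℝ) → ℝ}
    {g : κ → (Fin n → ℝ) → ℝ≥0∞} (hg : ∀ j, Measurable (g j))
    (hv : ∀ j, ContinuousOn v (Dc a (σ j))) (hvg : ∀ j, UGe v (g j) a (σ j) (i j))
    (hfin : ∀ j, ic (g j) a (σ j) ≠ ∞)
    {X : κ' → ℝ → ℝ≥0∞} (hX : ∀ j, AEMeasurable (X j) (volume.restrict (Icc (0:ℝ) 1)))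
    {J : κ' → ℝ} (hJ0 : ∀ j, 0 ≤ J j) (hJ : ∀ j, ∫⁻ y in Icc (0:ℝ) 1, X j y ≤ ENNReal.ofReal (J j))
    {Z : Set ℝ} (hZ : volume Z = 0) {ε : ℝ} (hε : 0 < ε) :
    ∃ m0 : ℕ, ∀ m ≥ m0, 0 < m → ∃ c ∈ Ioo (0:ℝ) 1, (∀ k < m, (c + k) / m ∉ Z) ∧
      (∀ j, (m:ℝ≥0∞)⁻¹ * ∑ k ∈ Finset.range m, crs v a (σ j) ((c + k) / m) ≤
        ic (g j) a (σ j) + ENNReal.ofReal ε) ∧
      ∀ j, (m:ℝ≥0∞)⁻¹ * ∑ k ∈ Finset.range m, X j ((c + k) / m) ≤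
        ENNReal.ofReal (J j) + ENNReal.ofReal ε := by
  have hf : ∀ j, AEMeasurable (crs v a (σ j)) (volume.restrict (Icc (0:ℝ) 1)) ∧
      ∫⁻ y in Icc (0:ℝ) 1, crs v a (σ j) y ≤ ic (g j) a (σ j) := fun j =>
    crs_facts (hσ j) (hg j) (hv j) (hvg j)
  have hN : ∀ j : κ ⊕ κ', AEMeasurable (Sum.elim (fun j => crs v a (σ j)) X j)
      (volume.restrict (Icc (0:ℝ) 1)) := by
    rintro (j | j)
    · exact (hf j).1
    · exact hX j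
  have hI0 : ∀ j : κ ⊕ κ', 0 ≤ Sum.elim (fun j => (ic (g j) a (σ j)).toReal) J j := by
    rintro (j | j)
    · exact ENNReal.toReal_nonneg
    · exact hJ0 j
  have hI : ∀ j : κ ⊕ κ', ∫⁻ y in Icc (0:ℝ) 1, Sum.elim (fun j => crs v a (σ j)) X j y ≤
      ENNReal.ofReal (Sum.elim (fun j => (ic (g j) a (σ j)).toReal) J j) := by
    rintro (j | j)
    · simp only [Sum.elim_inl]
      rw [ENNReal.ofReal_toReal (hfin j)]
      exact (hf j).2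
    · exact hJ j
  obtain ⟨m0, hm0⟩ := exists_good_offset hN hI0 hI hZ hε
  refine ⟨m0, fun m hm hmp => ?_⟩
  obtain ⟨c, hc, h1, h2⟩ := hm0 m hm hmp
  have hm1 : (m:ℝ≥0∞) ≠ 0 := by positivity
  have hm2 : (m:ℝ≥0∞) ≠ ∞ := ENNReal.natCast_ne_top m
  have key : ∀ (x : ℝ≥0∞) (r : ℝ), 0 ≤ r → x ≤ ENNReal.ofReal (m * (r + ε)) →
      (m:ℝ≥0∞)⁻¹ * x ≤ ENNReal.ofReal r + ENNReal.ofReal ε := by
    intro x r hr hx
    calc (m:ℝ≥0∞)⁻¹ * x ≤ (m:ℝ≥0∞)⁻¹ * ENNReal.ofReal (m * (r + ε)) := by gcongr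
      _ = (m:ℝ≥0∞)⁻¹ * (m * (ENNReal.ofReal r + ENNReal.ofReal ε)) := by
          rw [ENNReal.ofReal_mul (by positivity), ENNReal.ofReal_natCast,
            ENNReal.ofReal_add hr hε.le]
      _ = ENNReal.ofReal r + ENNReal.ofReal ε := by
          rw [← mul_assoc, ENNReal.inv_mul_cancel hm1 hm2, one_mul]
  refine ⟨c, hc, h1, fun j => ?_, fun j => ?_⟩
  · have := key _ _ ENNReal.toReal_nonneg (h2 (Sum.inl j))
    rwa [ENNReal.ofReal_toReal (hfin j)] at this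
  · exact key _ _ (hJ0 j) (h2 (Sum.inr j))

/-- no level in `(0,1)` is met by a function which takes no value in `(0,1)` -/
theorem sum_crs_zero {D : Dat n} {v : (Fin n → ℝ) → ℝ} {σ : Cel D}
    (h : ∀ x ∈ σ.c, v x ∉ Ioo (0:ℝ) 1) {m : ℕ} (hm : 0 < m) {o : ℝ} (ho : o ∈ Ioo (0:ℝ) 1) :
    ∑ k ∈ Finset.range m, crs v D.a σ.1 ((o + k) / m) = 0 := by
  apply Finset.sum_eq_zero
  intro k hk
  have hk' := Finset.mem_range.1 hk
  have hmR : (0:ℝ) < m := by exact_mod_cast hm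
  have hlev : (o + k) / m ∈ Ioo (0:ℝ) 1 := by
    have h5 : ((k:ℝ) + 1) ≤ m := by exact_mod_cast hk'
    constructor
    · have := ho.1; positivity
    · rw [div_lt_one hmR]; linarith [ho.2]
  unfold crs
  have h6 : σ.c ∩ v ⁻¹' {(o + k) / m} = ∅ := by
    rw [eq_empty_iff_forall_notMem]
    rintro x ⟨hx1, hx2⟩
    apply h x hx1
    rw [mem_preimage, mem_singleton_iff] at hx2
    rw [hx2]; exact hlev
  have h7 : Dc D.a σ.1 ∩ v ⁻¹' {(o + k) / m} = ∅ := h6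
  rw [h7]; simp

/-- **levels on the mesh, sharp form** -/
theorem levels_meshD {D : Dat n} {𝒞 : Type*}
    {v : 𝒞 → (Fin n → ℝ) → ℝ} {g : 𝒞 → Fin n → (Fin n → ℝ) → ℝ}
    (hv : ∀ c, ContinuousOn (v c) D.Om) (hg : ∀ c i, Measurable (g c i))
    (hacl : ∀ (k : ℕ) (z : Fin n → ℤ), Good D.Om v g (vx D.a k z))
    {K : 𝒞 → Set (Fin n → ℝ)} (hK : ∀ c, IsCompact (K c)) (hKO : ∀ c, K c ⊆ D.Om)
    (hvK : ∀ c, ∀ x ∈ D.Om, v c x ∈ Ioo (0:ℝ) 1 → x ∈ K c)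
    {κ : 𝒞 → Type*} [∀ c, Fintype (κ c)] {X : ∀ c, κ c → ℝ → ℝ≥0∞}
    (hX : ∀ c j, AEMeasurable (X c j) (volume.restrict (Icc (0:ℝ) 1)))
    {J : ∀ c, κ c → ℝ} (hJ0 : ∀ c j, 0 ≤ J c j)
    (hJ : ∀ c j, ∫⁻ y in Icc (0:ℝ) 1, X c j y ≤ ENNReal.ofReal (J c j))
    {Z : 𝒞 → Set ℝ} (hZ : ∀ c, volume (Z c) = 0) {e : 𝒞 → Cel D → ℝ} (he : ∀ c σ, 0 < e c σ)
    {e' : 𝒞 → ℝ} (he' : ∀ c, 0 < e' c) :
    ∃ m0 : 𝒞 → ℕ, ∀ m : 𝒞 → ℕ, (∀ c, m0 c ≤ m c) → (∀ c, 0 < m c) → ∃ o : 𝒞 → ℝ,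
      (∀ c, o c ∈ Ioo (0:ℝ) 1) ∧ (∀ c, ∀ k < m c, (o c + k) / m c ∉ Z c) ∧
      (∀ c, ∀ σ : Cel D, ∀ i : Fin n, σ.1.J = {i} →
        (m c:ℝ≥0∞)⁻¹ * ∑ k ∈ Finset.range (m c), crs (v c) D.a σ.1 ((o c + k) / m c) ≤
          ic (fun x => ‖g c i x‖ₑ) D.a σ.1 + ENNReal.ofReal (e c σ)) ∧
      ∀ c j, (m c:ℝ≥0∞)⁻¹ * ∑ k ∈ Finset.range (m c), X c j ((o c + k) / m c) ≤
        ENNReal.ofReal (J c j) + ENNReal.ofReal (e' c) := by
  classical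
  have hfin : ∀ c, {σ : Cel D | (σ.c ∩ K c).Nonempty}.Finite := fun c =>
    Cel.finite_of_compact (hK c) (hKO c)
  set Fc : 𝒞 → Finset (Cel D) := fun c => (hfin c).toFinset.filter fun σ => σ.1.J.card = 1 with hFc
  have hFc1 : ∀ c, ∀ σ ∈ Fc c, σ.1.J.card = 1 := fun c σ hσ => (Finset.mem_filter.1 hσ).2
  have hFc2 : ∀ c, ∀ σ : Cel D, σ.1.J.card = 1 → σ ∉ Fc c → ∀ x ∈ σ.c, v c x ∉ Ioo (0:ℝ) 1 := by
    intro c σ hσ hσF x hx hxv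
    apply hσF
    rw [hFc]
    simp only [Finset.mem_filter, Finite.mem_toFinset, mem_ofPred_eq]
    exact ⟨⟨x, hx, hvK c x (σ.c_subset_Om hx) hxv⟩, hσ⟩
  -- the error for `c`
  have hε : ∀ c, ∃ ε : ℝ, 0 < ε ∧ ε ≤ e' c ∧ ∀ σ ∈ Fc c, ε ≤ e c σ := by
    intro c
    rcases (Fc c).eq_empty_or_nonempty with h | h
    · exact ⟨e' c, he' c, le_rfl, fun σ hσ => by rw [h] at hσ; simp at hσ⟩
    · refine ⟨min (e' c) ((Fc c).inf' h (fun σ => e c σ)), lt_min (he' c) ?_, min_le_left _ _,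
        fun σ hσ => (min_le_right _ _).trans (Finset.inf'_le _ hσ)⟩
      rw [Finset.lt_inf'_iff]
      intro σ _
      exact he c σ
  choose ε hε0 hε2 hε1 using hε
  have hdir : ∀ c, ∀ σ : {σ // σ ∈ Fc c}, ∃ i, σ.1.1.J = {i} := fun c σ =>
    Finset.card_eq_one.1 (hFc1 c σ.1 σ.2)
  choose dir hdir using hdir
  choose m0 hm0 using fun c => edges_oneD (κ := {σ // σ ∈ Fc c}) D.a (fun σ => σ.1.1) (dir c)
    (hdir c) (v := v c) (g := fun σ x => ‖g c (dir c σ) x‖ₑ) (fun σ => (hg c _).enorm)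
    (fun σ => (hv c).mono σ.1.c_subset_Om)
    (fun σ => uge_of_acl (hdir c σ) σ.1.c_subset_Om (hacl σ.1.1.k σ.1.1.z c (dir c σ)).1)
    (fun σ => ic_ne_top (hg c _) (hdir c σ) σ.1.c_subset_Om
      ((hacl σ.1.1.k σ.1.1.z c (dir c σ)).2 (dir c σ)))
    (hX c) (hJ0 c) (hJ c) (hZ c) (hε0 c)
  refine ⟨m0, fun m hm hmp => ?_⟩
  choose o ho h1 h2 h2X using fun c => hm0 c (m c) (hm c) (hmp c)
  refine ⟨o, ho, h1, fun c σ i hi => ?_, fun c j => (h2X c j).trans ?_⟩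
  swap
  · gcongr
    exact hε2 c
  by_cases hσc : σ ∈ Fc c
  · have h3 := h2 c ⟨σ, hσc⟩
    have h4 : dir c ⟨σ, hσc⟩ = i := by
      have := hdir c ⟨σ, hσc⟩
      rw [show (⟨σ, hσc⟩ : {σ // σ ∈ Fc c}).1.1.J = {i} from hi] at this
      exact (Finset.singleton_injective this).symm
    simp only [h4] at h3
    refine h3.trans ?_
    gcongr
    exact hε1 c σ hσc
  · have hcard : σ.1.J.card = 1 := by rw [hi]; simp
    rw [sum_crs_zero (hFc2 c σ hcard hσc) (hmp c) (ho c), mul_zero]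
    exact zero_le

/-- the weighted sum of the norms of the partial derivatives in direction `i` -/
def Hw {𝒞 : Type*} (w : 𝒞 → ℝ≥0∞) (g : 𝒞 → Fin n → (Fin n → ℝ) → ℝ) (i : Fin n)
    (x : Fin n → ℝ) : ℝ≥0∞ := ∑' c, w c * ‖g c i x‖ₑ

theorem measurable_Hw {𝒞 : Type*} [Countable 𝒞] {g : 𝒞 → Fin n → (Fin n → ℝ) → ℝ}
    (hg : ∀ c i, Measurable (g c i)) (w : 𝒞 → ℝ≥0∞) (i : Fin n) : Measurable (Hw w g i) :=
  Measurable.tsum fun c => (hg c i).enorm.const_mul _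

theorem GGw_eq {𝒞 : Type*} (w : 𝒞 → ℝ≥0∞) (g : 𝒞 → Fin n → (Fin n → ℝ) → ℝ) (x : Fin n → ℝ) :
    GGw w g x = ∑ i, Hw w g i x := by
  unfold GGw Hw G1
  rw [← Summable.tsum_finsetSum (fun i _ => ENNReal.summable)]
  exact tsum_congr fun c => Finset.mul_sum _ _ _

theorem Hw_le_GGw {𝒞 : Type*} (w : 𝒞 → ℝ≥0∞) (g : 𝒞 → Fin n → (Fin n → ℝ) → ℝ) (i : Fin n)
    (x : Fin n → ℝ) : Hw w g i x ≤ GGw w g x := by
  rw [GGw_eq]
  exact Finset.single_le_sum (f := fun i => Hw w g i x) (fun _ _ => zero_le) (Finset.mem_univ i)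

/-- from the single functions to the weighted total, own direction -/
theorem totw_leD {D : Dat n} {𝒞 : Type*} [Countable 𝒞] {w : 𝒞 → ℝ≥0∞}
    {v : 𝒞 → (Fin n → ℝ) → ℝ} {g : 𝒞 → Fin n → (Fin n → ℝ) → ℝ} (hg : ∀ c i, Measurable (g c i))
    {m : 𝒞 → ℕ} {o : 𝒞 → ℝ} {e : Cel D → ℝ} {e1 : 𝒞 → Cel D → ℝ}
    (he1 : ∀ σ, ∑' c, w c * ENNReal.ofReal (e1 c σ) ≤ ENNReal.ofReal (e σ)) {σ : Cel D} {i : Fin n}
    (h : ∀ c, (m c:ℝ≥0∞)⁻¹ * ∑ k ∈ Finset.range (m c),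
        crs (v c) D.a σ.1 ((o c + k) / m c) ≤
          ic (fun x => ‖g c i x‖ₑ) D.a σ.1 + ENNReal.ofReal (e1 c σ)) :
    totw w v m o σ ≤ ic (Hw w g i) D.a σ.1 + ENNReal.ofReal (e σ) := by
  calc totw w v m o σ
      ≤ ∑' c, (w c * ic (fun x => ‖g c i x‖ₑ) D.a σ.1 + w c * ENNReal.ofReal (e1 c σ)) := by
        refine ENNReal.tsum_le_tsum fun c => ?_
        rw [← mul_add]
        gcongr
        exact h c
    _ = (∑' c, w c * ic (fun x => ‖g c i x‖ₑ) D.a σ.1) + ∑' c, w c * ENNReal.ofReal (e1 c σ) :=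
        ENNReal.tsum_add
    _ ≤ ic (Hw w g i) D.a σ.1 + ENNReal.ofReal (e σ) := by
        gcongr
        · unfold ic Hw
          rw [lintegral_tsum]
          · refine ENNReal.tsum_le_tsum fun c => ?_
            rw [lintegral_const_mul]
            exact (hg c i).enorm.comp (measurable_id.const_add _)
          · intro c
            exact (((hg c i).enorm.comp (measurable_id.const_add _)).const_mul _).aemeasurable
        · exact he1 σ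

/-! ### comparison with a constant -/

/-- `∫_σ H ≤ s |σ| + ∫_σ (H - s)⁺` -/
theorem ic_le_const {H : (Fin n → ℝ) → ℝ≥0∞} (s : ℝ≥0∞) (a : Fin n → ℝ) {σ : Idx n}
    (hσ : σ.J.card = 1) :
    ic H a σ ≤ s * ((2:ℝ≥0∞) ^ σ.k)⁻¹ + ic (fun x => H x - s) a σ := by
  have h1 : ∫⁻ _t, s ∂sm σ.k σ.J = s * ((2:ℝ≥0∞) ^ σ.k)⁻¹ := by
    rw [lintegral_const, sm_univ, hσ, pow_one]
  rw [← h1]
  unfold ic
  rw [← lintegral_add_left measurable_const]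
  apply lintegral_mono
  intro t
  exact le_add_tsub

theorem ic_mono {H H' : (Fin n → ℝ) → ℝ≥0∞} (h : ∀ x, H x ≤ H' x) (a : Fin n → ℝ) (σ : Idx n) :
    ic H a σ ≤ ic H' a σ := lintegral_mono fun _ => h _

/-! ### energies of the edges of one direction -/

/-- the `p`-energy of `X` on the edges of direction `i` -/
def Ed (D : Dat n) (i : Fin n) (p : ℝ) (X : (Fin n → ℝ) → ℝ≥0∞) : ℝ≥0∞ :=
  ∑' σ : {σ : Cel D // σ.1.J = {i}}, vol D σ.1 * ((2:ℝ≥0∞) ^ σ.1.1.k * ic X D.a σ.1.1) ^ p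

theorem Ed_le {D : Dat n} {X : (Fin n → ℝ) → ℝ≥0∞} (hX : Measurable X) {p : ℝ} (hp : 1 ≤ p)
    (i : Fin n) : Ed D i p X ≤
      ∑' σ : {σ : Cel D // σ.1.J = {i}}, wt n σ.1.1.k * ic (fun x => X x ^ p) D.a σ.1.1 := by
  unfold Ed
  refine ENNReal.tsum_le_tsum fun σ => ?_
  have hc : σ.1.1.J.card = 1 := by rw [σ.2]; simp
  calc vol D σ.1 * ((2:ℝ≥0∞) ^ σ.1.1.k * ic X D.a σ.1.1) ^ p
      ≤ vol D σ.1 * ((2:ℝ≥0∞) ^ σ.1.1.k * ic (fun x => X x ^ p) D.a σ.1.1) := by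
        gcongr
        exact ic_rpow_le hX D.a hc hp
    _ = _ := by rw [wt, vol]; ring

/-- **choice of the shift for the energies of the edges** -/
theorem volume_bad_E {D : Dat n} {ι : Type*} [Countable ι] {X : ι → (Fin n → ℝ) → ℝ≥0∞}
    (hX : ∀ j, Measurable (X j)) (i : ι → Fin n) {p : ι → ℝ} (hp : ∀ j, 1 ≤ p j)
    {c : ι → ℝ≥0∞} (hc : ∀ j, c j ≠ 0) :
    volume {a ∈ box n | ∃ j, c j * (2 * ∫⁻ x in D.Om, X j x ^ p j) <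
      Ed (D.sh a) (i j) (p j) (X j)} ≤ ∑' j, (c j)⁻¹ := by
  have hF : ∀ j, Measurable (fun x => X j x ^ p j) := fun j => (hX j).pow_const _
  have h1 := volume_bad_le (D := D) (fun j x => X j x ^ p j) hF (fun j => {i j})
    (fun _ => wt n) c hc
  refine le_trans (measure_mono ?_) h1
  rintro a ⟨ha, j, hj⟩
  refine ⟨ha, j, ?_⟩
  by_contra hcon
  push Not at hcon
  have h2 : Ed (D.sh a) (i j) (p j) (X j) ≤ c j * (2 * ∫⁻ x in D.Om, X j x ^ p j) := by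
    calc Ed (D.sh a) (i j) (p j) (X j)
        ≤ ∑' σ : {σ : Cel (D.sh a) // σ.1.J = {i j}}, wt n σ.1.1.k *
            ic (fun x => X j x ^ p j) (D.sh a).a σ.1.1 := Ed_le (hX j) (hp j) (i j)
      _ ≤ En D (fun x => X j x ^ p j) {i j} (wt n) a :=
          tsum_cells_le (D := D) (fun x => X j x ^ p j) {i j} (wt n) a
      _ ≤ c j * Av D (fun x => X j x ^ p j) {i j} (wt n) := hcon
      _ ≤ _ := by
          gcongr
          exact Av_le D (hF j) (i j)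
  exact absurd hj (not_lt.2 h2)

/-- a shift which is good for countably many mesh energies, countably many energies of edges and
has a given almost sure property -/
theorem exists_shift2 (D : Dat n) {ι : Type*} [Countable ι] {G : ι → (Fin n → ℝ) → ℝ≥0∞}
    (hG : ∀ i, Measurable (G i)) {p : ι → ℝ} (hp : ∀ i, 1 ≤ p i) {c : ι → ℝ≥0∞}
    (hc : ∀ i, c i ≠ 0) {ι' : Type*} [Countable ι'] {X : ι' → (Fin n → ℝ) → ℝ≥0∞}
    (hX : ∀ j, Measurable (X j)) (dir : ι' → Fin n) {q : ι' → ℝ} (hq : ∀ j, 1 ≤ q j)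
    {c' : ι' → ℝ≥0∞} (hc' : ∀ j, c' j ≠ 0) (hsum : n * ∑' i, (c i)⁻¹ + ∑' j, (c' j)⁻¹ < 1)
    {P : (Fin n → ℝ) → Prop} (hP : ∀ᵐ a, P a) : ∃ a ∈ box n, P a ∧
      (∀ i, S (D.sh a) (p i) (G i) ≤ c i * (KE n (p i) * ∫⁻ x in D.Om, G i x ^ p i)) ∧
      ∀ j, Ed (D.sh a) (dir j) (q j) (X j) ≤ c' j * (2 * ∫⁻ x in D.Om, X j x ^ q j) := by
  have h1 := volume_bad_S (D := D) hG hp hc
  have h1' := volume_bad_E (D := D) hX dir hq hc'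
  by_contra hcon
  push Not at hcon
  have hsub : box n ⊆ ({a ∈ box n | ∃ i, c i * (KE n (p i) * ∫⁻ x in D.Om, G i x ^ p i) <
      S (D.sh a) (p i) (G i)} ∪ {a ∈ box n | ∃ j, c' j * (2 * ∫⁻ x in D.Om, X j x ^ q j) <
      Ed (D.sh a) (dir j) (q j) (X j)}) ∪ {a | ¬ P a} := by
    intro a ha
    by_cases hPa : P a
    · left
      by_cases h2 : ∃ i, c i * (KE n (p i) * ∫⁻ x in D.Om, G i x ^ p i) < S (D.sh a) (p i) (G i)
      · left; exact ⟨ha, h2⟩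
      · right
        push Not at h2
        exact ⟨ha, hcon a ha hPa h2⟩
    · right; exact hPa
  have h2 := measure_mono (μ := (volume : Measure (Fin n → ℝ))) hsub
  have h3 := h2.trans (measure_union_le _ _)
  rw [volume_box, ae_iff.1 hP, add_zero] at h3
  exact absurd (h3.trans ((measure_union_le _ _).trans (add_le_add h1 h1'))) (not_le.2 hsum)

/-! ### the errors -/

/-- errors with a small energy on the edges and on the cubes -/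
theorem exists_err2 (D : Dat n) {p : ℝ} (hp : 1 ≤ p) {δ : ℝ≥0∞} (hδ : δ ≠ 0) :
    ∃ e : Cel D → ℝ, (∀ σ, 0 < e σ) ∧
      (∑' τ : {τ : Cel D // τ.1.J = Finset.univ}, vol D τ.1 * ((2:ℝ≥0∞) ^ τ.1.1.k *
        ∑' σ : {σ : Cel D // σ ∈ edgesOf τ.1}, ENNReal.ofReal (e σ.1)) ^ p ≤ δ) ∧
      ∑' σ : Cel D, vol D σ * ((2:ℝ≥0∞) ^ σ.1.k * ENNReal.ofReal (e σ)) ^ p ≤ δ := by
  obtain ⟨e1, he10, he1⟩ := exists_err D hp hδ
  obtain ⟨δ', hδ'0, hδ'⟩ := ENNReal.exists_pos_sum_of_countable hδ (Cel D)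
  have hb : ∀ σ : Cel D, ∃ b : ℝ, 0 < b ∧
      vol D σ * ((2:ℝ≥0∞) ^ σ.1.k * ENNReal.ofReal b) ^ p ≤ δ' σ := by
    intro σ
    have hv0 : vol D σ ≤ 1 := by
      unfold vol
      apply pow_le_one₀ (by positivity)
      rw [ENNReal.inv_le_one]
      exact one_le_pow₀ (by norm_num)
    set δ1 : ℝ := min (δ' σ : ℝ) 1 with hδ1
    have hδ1pos : 0 < δ1 := lt_min (by exact_mod_cast hδ'0 σ) one_pos
    refine ⟨δ1 / 2 ^ σ.1.k, by positivity, ?_⟩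
    have h1 : (2:ℝ≥0∞) ^ σ.1.k * ENNReal.ofReal (δ1 / 2 ^ σ.1.k) = ENNReal.ofReal δ1 := by
      have h2 : (2:ℝ≥0∞) ^ σ.1.k = ENNReal.ofReal (2 ^ σ.1.k) := by
        rw [ENNReal.ofReal_pow (by norm_num)]; norm_num
      rw [h2, ← ENNReal.ofReal_mul (by positivity)]
      congr 1
      field_simp
    rw [h1]
    calc vol D σ * ENNReal.ofReal δ1 ^ p ≤ 1 * ENNReal.ofReal δ1 ^ (1:ℝ) := by
          gcongr ?_ * ?_
          apply ENNReal.rpow_le_rpow_of_exponent_ge _ hp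
          rw [ENNReal.ofReal_le_one]
          exact min_le_right _ _
      _ = ENNReal.ofReal δ1 := by rw [one_mul, ENNReal.rpow_one]
      _ ≤ ENNReal.ofReal (δ' σ : ℝ) := ENNReal.ofReal_le_ofReal (min_le_left _ _)
      _ = δ' σ := ENNReal.ofReal_coe_nnreal
  choose b hb0 hb1 using hb
  refine ⟨fun σ => min (e1 σ) (b σ), fun σ => lt_min (he10 σ) (hb0 σ), ?_, ?_⟩
  · refine le_trans (ENNReal.tsum_le_tsum fun τ => ?_) he1
    gcongr with σ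
    exact min_le_left _ _
  · calc ∑' σ : Cel D, vol D σ * ((2:ℝ≥0∞) ^ σ.1.k * ENNReal.ofReal (min (e1 σ) (b σ))) ^ p
        ≤ ∑' σ : Cel D, (δ' σ : ℝ≥0∞) := by
          refine ENNReal.tsum_le_tsum fun σ => le_trans ?_ (hb1 σ)
          gcongr
          exact min_le_right _ _
      _ ≤ δ := hδ'.le

/-- **LEVELS WITH WEIGHTED ENERGY, SHARP FORM** (the shift is fixed and good): errors `e` with
energy at most `δ` on the edges and on the cubes, and for all large `m` offsets such that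
`totw σ ≤ ∫_σ Hw i + e σ` on every edge `σ` of direction `i`; energies on all unions of cubes; extra
conditions. -/
theorem levels_energyD {D : Dat n} {𝒞 : Type*} [Countable 𝒞] {w : 𝒞 → ℝ≥0∞}
    (hw : ∀ c, w c ≠ ∞) {v : 𝒞 → (Fin n → ℝ) → ℝ} {g : 𝒞 → Fin n → (Fin n → ℝ) → ℝ}
    (hv : ∀ c, ContinuousOn (v c) D.Om) (hg : ∀ c i, Measurable (g c i))
    (hacl : ∀ (k : ℕ) (z : Fin n → ℤ), Good D.Om v g (vx D.a k z))
    {K : 𝒞 → Set (Fin n → ℝ)} (hK : ∀ c, IsCompact (K c)) (hKO : ∀ c, K c ⊆ D.Om)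
    (hvK : ∀ c, ∀ x ∈ D.Om, v c x ∈ Ioo (0:ℝ) 1 → x ∈ K c)
    {κ : 𝒞 → Type*} [∀ c, Fintype (κ c)] {X : ∀ c, κ c → ℝ → ℝ≥0∞}
    (hX : ∀ c j, AEMeasurable (X c j) (volume.restrict (Icc (0:ℝ) 1)))
    {J : ∀ c, κ c → ℝ} (hJ0 : ∀ c j, 0 ≤ J c j)
    (hJ : ∀ c j, ∫⁻ y in Icc (0:ℝ) 1, X c j y ≤ ENNReal.ofReal (J c j))
    {Z : 𝒞 → Set ℝ} (hZ : ∀ c, volume (Z c) = 0) {p : ℝ} (hp : 1 ≤ p) {δ : ℝ≥0∞} (hδ : δ ≠ 0)
    {e' : 𝒞 → ℝ} (he' : ∀ c, 0 < e' c) :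
    ∃ e : Cel D → ℝ, (∀ σ, 0 < e σ) ∧
      ∑' σ : Cel D, vol D σ * ((2:ℝ≥0∞) ^ σ.1.k * ENNReal.ofReal (e σ)) ^ p ≤ δ ∧
    ∃ m0 : 𝒞 → ℕ, ∀ m : 𝒞 → ℕ, (∀ c, m0 c ≤ m c) → (∀ c, 0 < m c) → ∃ o : 𝒞 → ℝ,
      (∀ c, o c ∈ Ioo (0:ℝ) 1) ∧ (∀ c, ∀ k < m c, (o c + k) / m c ∉ Z c) ∧
      (∀ (σ : Cel D) (i : Fin n), σ.1.J = {i} →
        totw w v m o σ ≤ ic (Hw w g i) D.a σ.1 + ENNReal.ofReal (e σ)) ∧
      (∀ R : Set (Fin n → ℝ), ∑' τ : {τ : Cel D // τ.1.J = Finset.univ ∧ τ.c ⊆ R},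
        vol D τ.1 * ((2:ℝ≥0∞) ^ τ.1.1.k *
          ∑' σ : {σ : Cel D // σ ∈ edgesOf τ.1}, totw w v m o σ.1) ^ p ≤
        2 ^ (p - 1) * (S D p (R.indicator (GGw w g)) + δ)) ∧
      ∀ c j, (m c:ℝ≥0∞)⁻¹ * ∑ k ∈ Finset.range (m c), X c j ((o c + k) / m c) ≤
        ENNReal.ofReal (J c j) + ENNReal.ofReal (e' c) := by
  obtain ⟨e, he0, he, heE⟩ := exists_err2 D hp hδ
  obtain ⟨e1, he10, he1⟩ := exists_errw D hw he0
  obtain ⟨m0, hm0⟩ := levels_meshD hv hg hacl hK hKO hvK hX hJ0 hJ hZ he10 he'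
  refine ⟨e, he0, heE, m0, fun m hm hmp => ?_⟩
  obtain ⟨o, ho, hoZ, h, h'⟩ := hm0 m hm hmp
  have h1 : ∀ (σ : Cel D) (i : Fin n), σ.1.J = {i} →
      totw w v m o σ ≤ ic (Hw w g i) D.a σ.1 + ENNReal.ofReal (e σ) := fun σ i hi =>
    totw_leD hg he1 fun c => h c σ i hi
  refine ⟨o, ho, hoZ, h1, fun R => energy_of_edges hp he (fun σ hσ => ?_) R, h'⟩
  obtain ⟨i, hi⟩ := Finset.card_eq_one.1 hσ
  refine (h1 σ i hi).trans ?_
  gcongr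
  exact ic_mono (Hw_le_GGw w g i) _ _

/-- **(5.3)/(D3): number of points of an edge**: `totw σ ≤ s |σ| + x σ` with
`x σ = ∫_σ (Hw i - s)⁺ + e σ` -/
theorem totw_le_const {D : Dat n} {𝒞 : Type*} {w : 𝒞 → ℝ≥0∞} {v : 𝒞 → (Fin n → ℝ) → ℝ}
    {g : 𝒞 → Fin n → (Fin n → ℝ) → ℝ} {m : 𝒞 → ℕ} {o : 𝒞 → ℝ} {e : Cel D → ℝ} {σ : Cel D}
    {i : Fin n} (hi : σ.1.J = {i}) (s : ℝ≥0∞)
    (h : totw w v m o σ ≤ ic (Hw w g i) D.a σ.1 + ENNReal.ofReal (e σ)) :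
    totw w v m o σ ≤ s * ((2:ℝ≥0∞) ^ σ.1.k)⁻¹ +
      (ic (fun x => Hw w g i x - s) D.a σ.1 + ENNReal.ofReal (e σ)) := by
  have hc : σ.1.J.card = 1 := by rw [hi]; simp
  rw [← add_assoc]
  exact h.trans (by gcongr; exact ic_le_const s D.a hc)

/-- the energy of the deviations `x σ = ∫_σ X + e σ` -/
theorem sum_dev_le {D : Dat n} {i : Fin n} {X : (Fin n → ℝ) → ℝ≥0∞} {p : ℝ} (hp : 1 ≤ p)
    {e : Cel D → ℝ} {δ : ℝ≥0∞}
    (he : ∑' σ : Cel D, vol D σ * ((2:ℝ≥0∞) ^ σ.1.k * ENNReal.ofReal (e σ)) ^ p ≤ δ) :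
    ∑' σ : {σ : Cel D // σ.1.J = {i}}, vol D σ.1 *
      ((2:ℝ≥0∞) ^ σ.1.1.k * (ic X D.a σ.1.1 + ENNReal.ofReal (e σ.1))) ^ p ≤
      2 ^ (p - 1) * (Ed D i p X + δ) := by
  have h1 : ∑' σ : {σ : Cel D // σ.1.J = {i}}, vol D σ.1 *
      ((2:ℝ≥0∞) ^ σ.1.1.k * ENNReal.ofReal (e σ.1)) ^ p ≤ δ :=
    (ENNReal.tsum_comp_le_tsum_of_injective Subtype.val_injective
      (fun σ : Cel D => vol D σ * ((2:ℝ≥0∞) ^ σ.1.k * ENNReal.ofReal (e σ)) ^ p)).trans he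
  calc ∑' σ : {σ : Cel D // σ.1.J = {i}}, vol D σ.1 *
        ((2:ℝ≥0∞) ^ σ.1.1.k * (ic X D.a σ.1.1 + ENNReal.ofReal (e σ.1))) ^ p
      ≤ ∑' σ : {σ : Cel D // σ.1.J = {i}}, 2 ^ (p - 1) *
          (vol D σ.1 * ((2:ℝ≥0∞) ^ σ.1.1.k * ic X D.a σ.1.1) ^ p +
          vol D σ.1 * ((2:ℝ≥0∞) ^ σ.1.1.k * ENNReal.ofReal (e σ.1)) ^ p) := by
        refine ENNReal.tsum_le_tsum fun σ => ?_
        rw [mul_add]
        calc vol D σ.1 * ((2:ℝ≥0∞) ^ σ.1.1.k * ic X D.a σ.1.1 +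
              (2:ℝ≥0∞) ^ σ.1.1.k * ENNReal.ofReal (e σ.1)) ^ p
            ≤ vol D σ.1 * (2 ^ (p - 1) * (((2:ℝ≥0∞) ^ σ.1.1.k * ic X D.a σ.1.1) ^ p +
              ((2:ℝ≥0∞) ^ σ.1.1.k * ENNReal.ofReal (e σ.1)) ^ p)) := by
              gcongr
              exact ENNReal.rpow_add_le_mul_rpow_add_rpow _ _ hp
          _ = _ := by ring
    _ = 2 ^ (p - 1) * (Ed D i p X + ∑' σ : {σ : Cel D // σ.1.J = {i}}, vol D σ.1 *
          ((2:ℝ≥0∞) ^ σ.1.1.k * ENNReal.ofReal (e σ.1)) ^ p) := by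
        rw [ENNReal.tsum_mul_left, ENNReal.tsum_add]
        rfl
    _ ≤ _ := by gcongr

end

end Crest.Agent.R96.En11_199
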