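/-
helper199, row 96, leaf ENERGY, part 12: from bounds on the cubes of the mesh to integrals over `Ω`.
-/
import Mathlib
import Crest.Agent.R96.En10_199
import Crest.Agent.R96.En11_199

set_option autoImplicit false

open MeasureTheory Set Filter
open scoped Topology ENNReal

namespace Crest.Agent.R96.En12_199

open Crest.Agent.R096.Msh_810 Crest.Agent.R096.Bas_731 Crest.Agent.R96.En3_199
  Crest.Agent.R96.En4_199 Crest.Agent.R96.En5_199 Crest.Agent.R96.En6_199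
  Crest.Agent.R96.En7_199 Crest.Agent.R96.En8_199 Crest.Agent.R96.En9_199
  Crest.Agent.R96.En10_199 Crest.Agent.R96.En11_199

noncomputable section

variable {n : ℕ}

/-- the top cubes cover -/
theorem exists_top_mem {D : Dat n} {x : Fin n → ℝ} (hx : x ∈ D.Om) :
    ∃ τ : Cel D, τ.1.J = Finset.univ ∧ x ∈ τ.c := by
  rw [← Cel.iUnion_c] at hx
  obtain ⟨σ, hσ⟩ := mem_iUnion.1 hx
  obtain ⟨τ, h1, -, h3⟩ := Cel.exists_top σ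
  exact ⟨τ, h1, h3 hσ⟩

/-- an integral over a part of `Ω` is at most the sum over the cubes which meet this part -/
theorem lintegral_le_cubes {D : Dat n} (R : Set (Fin n → ℝ)) (F : (Fin n → ℝ) → ℝ≥0∞) :
    ∫⁻ x in D.Om ∩ R, F x ≤
      ∑' τ : {τ : Cel D // τ.1.J = Finset.univ ∧ (τ.c ∩ R).Nonempty}, ∫⁻ x in τ.1.c, F x := by
  have h1 : D.Om ∩ R ⊆ ⋃ τ : {τ : Cel D // τ.1.J = Finset.univ ∧ (τ.c ∩ R).Nonempty}, τ.1.c := by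
    rintro x ⟨hx, hxR⟩
    obtain ⟨τ, h1, h2⟩ := exists_top_mem hx
    exact mem_iUnion.2 ⟨⟨τ, h1, x, h2, hxR⟩, h2⟩
  exact (lintegral_mono_set h1).trans (lintegral_iUnion_le _ _)

/-- **from bounds on the cubes to the integral** -/
theorem lintegral_le_of_bound {D : Dat n} (R : Set (Fin n → ℝ)) {F : (Fin n → ℝ) → ℝ≥0∞}
    {M : Cel D → ℝ≥0∞}
    (h : ∀ τ : Cel D, τ.1.J = Finset.univ → (τ.c ∩ R).Nonempty → ∀ᵐ x, x ∈ τ.c → F x ≤ M τ) :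
    ∫⁻ x in D.Om ∩ R, F x ≤
      ∑' τ : {τ : Cel D // τ.1.J = Finset.univ ∧ (τ.c ∩ R).Nonempty}, vol D τ.1 * M τ.1 := by
  refine (lintegral_le_cubes R F).trans (ENNReal.tsum_le_tsum fun τ => ?_)
  have hc : MeasurableSet τ.1.c := (Cel.isCompact_c τ.1).isClosed.measurableSet
  calc ∫⁻ x in τ.1.c, F x ≤ ∫⁻ _x in τ.1.c, M τ.1 := by
        apply lintegral_mono_ae
        rw [ae_restrict_iff' hc]
        exact h τ.1 τ.2.1 τ.2.2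
    _ = vol D τ.1 * M τ.1 := by
        rw [setLIntegral_const, mul_comm]
        congr 1
        exact volume_cube D.a τ.2.1

/-- the same for `p`-th powers -/
theorem lintegral_rpow_le_of_bound {D : Dat n} (R : Set (Fin n → ℝ)) {F : (Fin n → ℝ) → ℝ≥0∞}
    {M : Cel D → ℝ≥0∞} {p : ℝ} (hp : 0 ≤ p)
    (h : ∀ τ : Cel D, τ.1.J = Finset.univ → (τ.c ∩ R).Nonempty → ∀ᵐ x, x ∈ τ.c → F x ≤ M τ) :
    ∫⁻ x in D.Om ∩ R, F x ^ p ≤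
      ∑' τ : {τ : Cel D // τ.1.J = Finset.univ ∧ (τ.c ∩ R).Nonempty}, vol D τ.1 * M τ.1 ^ p := by
  apply lintegral_le_of_bound R (M := fun τ => M τ ^ p)
  intro τ h1 h2
  filter_upwards [h τ h1 h2] with x hx hxτ
  exact ENNReal.rpow_le_rpow (hx hxτ) hp

/-- cubes meeting `R` lie in `R'`: change of the index set -/
theorem tsum_meet_le {D : Dat n} {R R' : Set (Fin n → ℝ)}
    (h : ∀ τ : Cel D, τ.1.J = Finset.univ → (τ.c ∩ R).Nonempty → τ.c ⊆ R') (f : Cel D → ℝ≥0∞) :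
    ∑' τ : {τ : Cel D // τ.1.J = Finset.univ ∧ (τ.c ∩ R).Nonempty}, f τ.1 ≤
      ∑' τ : {τ : Cel D // τ.1.J = Finset.univ ∧ τ.c ⊆ R'}, f τ.1 := by
  let j : {τ : Cel D // τ.1.J = Finset.univ ∧ (τ.c ∩ R).Nonempty} →
      {τ : Cel D // τ.1.J = Finset.univ ∧ τ.c ⊆ R'} := fun τ => ⟨τ.1, τ.2.1, h τ.1 τ.2.1 τ.2.2⟩
  have hj : Function.Injective j := fun τ τ' h => Subtype.ext (congrArg (fun x => x.1) h)
  exact ENNReal.tsum_comp_le_tsum_of_injective hj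
    (fun τ : {τ : Cel D // τ.1.J = Finset.univ ∧ τ.c ⊆ R'} => f τ.1)

open Crest.AnalysisR.VecCalc3

/-- **in R3**: `F ≤ M τ` a.e. on every cube which meets `R` -/
theorem lintegral_R3_le {Ω : Set R3} {D : Dat 3} (hD : D.Om = P3 ⁻¹' Ω) (R : Set R3)
    {F : R3 → ℝ≥0∞} {M : Cel D → ℝ≥0∞} {p : ℝ} (hp : 0 ≤ p)
    (h : ∀ τ : Cel D, τ.1.J = Finset.univ → (τ.c ∩ P3 ⁻¹' R).Nonempty →
      ∀ᵐ x, x ∈ τ.c → F (P3 x) ≤ M τ) :
    ∫⁻ y in Ω ∩ R, F y ^ p ≤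
      ∑' τ : {τ : Cel D // τ.1.J = Finset.univ ∧ (τ.c ∩ P3 ⁻¹' R).Nonempty},
        vol D τ.1 * M τ.1 ^ p := by
  have hem : MeasurableEmbedding P3 := P3.toHomeomorph.measurableEmbedding
  have h1 := lintegral_rpow_le_of_bound (D := D) (P3 ⁻¹' R) (F := fun x => F (P3 x)) hp h
  rw [hD, ← preimage_inter] at h1
  have h2 := P3_mp.setLIntegral_comp_preimage_emb hem (fun y => F y ^ p) (Ω ∩ R)
  rw [← h2]
  exact h1

/-- **FINAL ENERGY BOUND**: if `F` (e.g. the norm of the derivative of the new map) is a.e. at most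
`C 2^k Σ_edges totw` on every cube which meets `R`, and these cubes lie in `R'`, then
`∫_(Ω ∩ R) F^p ≤ C^p 2^(p-1) (S(R') + δ)`. -/
theorem energy_final {Ω : Set R3} {D : Dat 3} (hD : D.Om = P3 ⁻¹' Ω) {R : Set R3}
    {R' : Set (Fin 3 → ℝ)}
    (hRR' : ∀ τ : Cel D, τ.1.J = Finset.univ → (τ.c ∩ P3 ⁻¹' R).Nonempty → τ.c ⊆ R')
    {F : R3 → ℝ≥0∞} {C : ℝ≥0∞} {y : Cel D → ℝ≥0∞} {p : ℝ} (hp : 0 ≤ p)
    (h : ∀ τ : Cel D, τ.1.J = Finset.univ → (τ.c ∩ P3 ⁻¹' R).Nonempty →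
      ∀ᵐ x, x ∈ τ.c → F (P3 x) ≤
        C * ((2:ℝ≥0∞) ^ τ.1.k * ∑' σ : {σ : Cel D // σ ∈ edgesOf τ}, y σ.1))
    {A : ℝ≥0∞} (hA : ∑' τ : {τ : Cel D // τ.1.J = Finset.univ ∧ τ.c ⊆ R'},
        vol D τ.1 * ((2:ℝ≥0∞) ^ τ.1.1.k * ∑' σ : {σ : Cel D // σ ∈ edgesOf τ.1}, y σ.1) ^ p ≤ A) :
    ∫⁻ z in Ω ∩ R, F z ^ p ≤ C ^ p * A := by
  refine (lintegral_R3_le hD R hp h).trans ?_
  calc ∑' τ : {τ : Cel D // τ.1.J = Finset.univ ∧ (τ.c ∩ P3 ⁻¹' R).Nonempty}, vol D τ.1 *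
        (C * ((2:ℝ≥0∞) ^ τ.1.1.k * ∑' σ : {σ : Cel D // σ ∈ edgesOf τ.1}, y σ.1)) ^ p
      ≤ ∑' τ : {τ : Cel D // τ.1.J = Finset.univ ∧ τ.c ⊆ R'}, vol D τ.1 *
        (C * ((2:ℝ≥0∞) ^ τ.1.1.k * ∑' σ : {σ : Cel D // σ ∈ edgesOf τ.1}, y σ.1)) ^ p :=
        tsum_meet_le hRR' (fun τ => vol D τ *
          (C * ((2:ℝ≥0∞) ^ τ.1.k * ∑' σ : {σ : Cel D // σ ∈ edgesOf τ}, y σ.1)) ^ p)
    _ = C ^ p * ∑' τ : {τ : Cel D // τ.1.J = Finset.univ ∧ τ.c ⊆ R'}, vol D τ.1 *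
        ((2:ℝ≥0∞) ^ τ.1.1.k * ∑' σ : {σ : Cel D // σ ∈ edgesOf τ.1}, y σ.1) ^ p := by
        rw [← ENNReal.tsum_mul_left]
        refine tsum_congr fun τ => ?_
        rw [ENNReal.mul_rpow_of_nonneg _ _ hp]
        ring
    _ ≤ C ^ p * A := by gcongr

end

end Crest.Agent.R96.En12_199
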