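import Crest.Agent.R96.EaP2_899

/-!
# Row 96, EA-PUSH (helper899), part 3: **`ea_push`**: random centres off `X`, the weak derivative of
`Psi ∘ f` off the holes, and its energy.
-/

set_option autoImplicit false
set_option linter.unusedSectionVars false
set_option linter.unusedVariables false
set_option linter.style.longLine false

open MeasureTheory Set Filter Topology
open scoped NNReal ENNReal

noncomputable section

namespace Crest.Agent.R96.EaP_899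

open Crest.Agent.R096.Bsp_628 Crest.Agent.R096.Brk5_582 Crest.Agent.R096.SkC1_961
open Crest.Agent.R096.Bxs_627 hiding E3
open Crest.Agent.R96.Push_899 Crest.Agent.R096.EaX_766
open Crest.Agent.R096.Msh_715
open Crest.Agent.R096.Er_594 (SH3)
open Crest.Agent.R096.Der_764 (OmH)
open Crest.Agent.R96.Acl_392 Crest.Agent.R96.Sob2_199 Crest.Agent.R96.Sob4_199
  Crest.Agent.R96.Sob5_199 Crest.Agent.R96.En10_199
open Crest.AnalysisR.VecCalc3 (R3)

variable {δ κ0 R c0 : ℝ} {La : Set E3} {F : Set (Bx (Fin 3))}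

theorem co_P3 (y : E3) : co (P3 y) = y := rfl

theorem P3_mem_SE {B : Box (Fin 3)} {y : E3} : P3 y ∈ SE B ↔ y ∈ B.S := Iff.rfl

theorem P3_mem_IE {B : Box (Fin 3)} {y : E3} : P3 y ∈ IE B ↔ y ∈ B.I := Iff.rfl

/-- the directional derivatives of a Sobolev homeomorphism, as vectors of `R3` -/
def Dl (D : E3 → E3 →L[ℝ] E3) (l : Fin 3) (x : E3) : R3 := P3 (D x (Pi.single l 1))

theorem norm_Dl_le (D : E3 → E3 →L[ℝ] E3) (l : Fin 3) (x : E3) : ‖Dl D l x‖ ≤ 2 * ‖D x‖ := by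
  unfold Dl
  refine (norm_P3_le _).trans ?_
  have h1 : ‖(Pi.single l (1:ℝ) : E3)‖ = 1 := by
    rw [Pi.norm_single]; simp
  have h2 := (D x).le_opNorm (Pi.single l 1)
  rw [h1, mul_one] at h2
  linarith

theorem enorm_Dl_le {p : ℝ} (hp : 0 ≤ p) (D : E3 → E3 →L[ℝ] E3) (l : Fin 3) (x : E3) :
    ‖Dl D l x‖ₑ ^ p ≤ ENNReal.ofReal (2 ^ p) * ‖D x‖ₑ ^ p := by
  rw [← ofReal_norm (D x), ENNReal.ofReal_rpow_of_nonneg (norm_nonneg _) hp,
    ← ENNReal.ofReal_mul (by positivity), ← Real.mul_rpow (by norm_num) (norm_nonneg _)]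
  exact enorm_rpow_le hp (norm_Dl_le D l x)

theorem sum_Dl_le {p : ℝ} (hp : 0 ≤ p) (D : E3 → E3 →L[ℝ] E3) (x : E3) :
    ∑ l, ‖Dl D l x‖ₑ ^ p ≤ (3 * ENNReal.ofReal (2 ^ p)) * ‖D x‖ₑ ^ p := by
  refine (Finset.sum_le_sum fun l _ => enorm_Dl_le hp D l x).trans (le_of_eq ?_)
  rw [Finset.sum_const, Finset.card_univ, nsmul_eq_mul, Fintype.card_fin]
  push_cast
  ring

/-- the constant of `ea_push` -/
def KP (κ0 c0 p : ℝ) : ℝ≥0∞ :=
  3 * ENNReal.ofReal (2 ^ p) * K2 (Fin 3) (cm κ0 c0) (aX κ0 c0) 2 p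

theorem KP_lt_top {p : ℝ} (hp : p < 3) : KP κ0 c0 p < ⊤ :=
  ENNReal.mul_lt_top (ENNReal.mul_lt_top (by norm_num) ENNReal.ofReal_lt_top)
    (K2_lt_top (by simpa using hp))

/-- the pointwise constant of `ea_push` -/
def KQ (κ0 c0 : ℝ) : ℝ := 2 * K1 (Fin 3) (cm κ0 c0) (aX κ0 c0) 2

section

variable (bf : BoxFoam La F δ κ0) (cmp : Cmp F R) {X : Set F} {lam : F → ℝ} {z : F → E3}
  (H : XD bf c0 X lam z)

/-- the domain off the preimages of the holes -/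
theorem OmH_eq {Om : Set E3} {f : E3 → E3} (hf : MapsTo f Om La) :
    OmH (fX bf cmp H) f Om =
      Om ∩ (fun x => P3 (f x)) ⁻¹' (Pun (LaE La) (mixB X (holeX bf lam) z)) := by
  ext x
  constructor
  · rintro ⟨h1, h2⟩
    refine ⟨h1, hf h1, fun h => ?_⟩
    obtain ⟨c, hc⟩ := mem_iUnion.1 h
    exact h2 c hc
  · rintro ⟨h1, h2, h3⟩
    exact ⟨h1, fun c hc => h3 (mem_iUnion.2 ⟨c, hc⟩)⟩

/-- the map `Psi ∘ f` -/
theorem Psi_eq' {Om : Set E3} {f : E3 → E3} (hf : MapsTo f Om La) {x : E3} (hx : x ∈ Om) :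
    P3 ((fX bf cmp H).Psi (f x)) =
      Psi (brk' bf) (mixC X (brk' bf) (coreX bf lam) z) (mixB X (holeX bf lam) z) (P3 (f x)) := by
  have h1 : P3 (f x) ∈ LaE La := hf hx
  have h2 := mkFoamD_Psi bf cmp H.foamC h1
  rw [co_P3] at h2
  show P3 ((mkFoamD bf cmp H.foamC).Psi (f x)) = _
  rw [h2]
  rfl

theorem vwd_congr' {Ω : Set E3} (hΩ : IsOpen Ω) {f g D : E3 → R3} {e : E3}
    (h : VWD Ω volume f D e) (hfg : ∀ x ∈ Ω, f x = g x) : VWD Ω volume g D e := fun i =>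
  wd_congr hΩ (h i) (Eventually.of_forall fun x hx => by rw [hfg x hx])
    (Eventually.of_forall fun _ _ => rfl)

end

/-- the constant of the energy bounds (finite for every `p`) -/
def KE (κ0 c0 p : ℝ) : ℝ≥0∞ := by
  classical
  exact (if p < 3 then KP κ0 c0 p else 0) + 3 * ENNReal.ofReal (KQ κ0 c0 ^ p)

theorem KE_lt_top (κ0 c0 p : ℝ) : KE κ0 c0 p < ⊤ := by
  unfold KE
  refine ENNReal.add_lt_top.2 ⟨?_, ENNReal.mul_lt_top (by norm_num) ENNReal.ofReal_lt_top⟩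
  split_ifs with h
  · exact KP_lt_top h
  · exact ENNReal.zero_lt_top

theorem K1_nonneg {c₁ a M : ℝ} (ha : 0 ≤ a) (hM : 0 ≤ M) : 0 ≤ K1 (Fin 3) c₁ a M := by
  unfold K1; positivity

theorem aX_nonneg (hκ : 1 ≤ κ0) : 0 ≤ aX κ0 c0 := by
  unfold aX
  exact le_trans (by linarith) (le_max_right _ _)

theorem KQ_nonneg (hκ : 1 ≤ κ0) : 0 ≤ KQ κ0 c0 := by
  unfold KQ
  have := K1_nonneg (c₁ := cm κ0 c0) (aX_nonneg (c0 := c0) hκ) (zero_le_two)
  positivity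

/-- **`ea_push`.** -/
theorem ea_push {p : ℝ} (hp0 : 0 ≤ p) (hκ : 1 ≤ κ0) (hc : 0 < c0) (hc2 : c0 * κ0 ≤ 1)
    {Om : Set E3} (hOm : IsOpen Om) (hLa : IsOpen La) {f : E3 → E3} {D : E3 → E3 →L[ℝ] E3}
    (hf : Hom3 f Om La)
    (hD : ∀ i, VWD Om volume (fun x => P3 (f x)) (fun x => P3 (D x (Pi.single i 1)))
      (Pi.single i 1))
    (bf : BoxFoam La F δ κ0) (cmp : Cmp F R) (X : Set F) (hpX : p < 3 ∨ X = univ) (lam : F → ℝ)
    (hl : ∀ c ∈ X, c0 ≤ lam c) (hl1 : ∀ c ∈ X, lam c < 1) {N : Set E3} (hN : volume N = 0) :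
    ∃ (z : F → E3) (H : XD bf c0 X lam z), (∀ c, z c ∈ Mid (brk' bf c)) ∧ (∀ c, z c ∉ N) ∧
      ∃ D' : Fin 3 → E3 → R3,
        (∀ l, VWD (OmH (fX bf cmp H) f Om) volume (fun x => P3 ((fX bf cmp H).Psi (f x))) (D' l)
          (Pi.single l 1)) ∧
        (∀ᵐ x, x ∈ OmH (fX bf cmp H) f Om →
          (∀ c, f x ∈ (coreBF (brk' bf c) (z c)).I → c ∈ X) →
          ∀ l, ‖D' l x‖ ≤ KQ κ0 c0 * ‖D x‖) ∧
        (∀ c, c ∉ X → ∫⁻ x in {x | x ∈ OmH (fX bf cmp H) f Om ∧ f x ∈ c.1.set},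
          ∑ l, ‖D' l x‖ₑ ^ p ≤ KE κ0 c0 p * ∫⁻ x in {x | x ∈ Om ∧ f x ∈ c.1.set}, ‖D x‖ₑ ^ p) ∧
        ∀ S ⊆ Om, MeasurableSet S →
          (∀ c, c ∉ X → (∀ x ∈ Om, f x ∈ (brk' bf c).I → x ∈ S) ∨
            (∀ x ∈ Om, f x ∈ (brk' bf c).I → x ∉ S)) →
          ∫⁻ x in S ∩ OmH (fX bf cmp H) f Om, ∑ l, ‖D' l x‖ₑ ^ p ≤
            KE κ0 c0 p * ∫⁻ x in S, ‖D x‖ₑ ^ p := by
  obtain ⟨fi, hmap, -, -, -, hfc, -⟩ := id hf
  have hcount : Countable F := bf.countable.to_subtype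
  have hLE : IsOpen (LaE La) := isOpen_LaE hLa
  have hF0 := foam0' bf
  have hA : ∀ c i j, (brk' bf c).W i ≤ κ0 * (brk' bf c).W j := fun c i j => asp' bf c i j
  have hG := giv (bf := bf) hκ hc hc2 hl hl1
  have hcm := cm_pos hκ hc
  have ha4 : 4 * κ0 ≤ aX κ0 c0 := le_max_right _ _
  have haX := aX_nonneg (c0 := c0) hκ
  have hK1 := K1_nonneg (c₁ := cm κ0 c0) haX (zero_le_two)
  have hKQ := KQ_nonneg (c0 := c0) hκ
  set φ : E3 → R3 := fun x => P3 (f x) with hφd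
  have hφ : ContinuousOn φ Om := P3.continuous.comp_continuousOn hfc
  have hDl : ∀ l, VWD Om volume φ (Dl D l) (Pi.single l (1:ℝ)) := hD
  obtain ⟨z, hz, hzN, hmix⟩ := push_mix2 (μ := (volume : Measure E3)) hκ hcm cm_le' ha4
    (M := 2) (by norm_num) hp0 hLE hF0 hA hG hOm hφ hDl hN
  have H : XD bf c0 X lam z := ⟨hκ, hc, hc2, hl, hl1, fun c _ => hz c⟩
  have hFC := H.foamC
  have hOeq := OmH_eq bf cmp H hmap
  have hOO := hFC.isOpen_dom hLE hOm hφ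
  have hOmH : IsOpen (OmH (fX bf cmp H) f Om) := by rw [hOeq]; exact hOO
  choose D' hD' using fun l => hFC.exists_wd hLE hOm hφ (hDl l)
  refine ⟨z, H, hz, hzN, D', ?_, ?_⟩
  · intro l
    rw [hOeq]
    refine vwd_congr' hOO (hD' l) ?_
    intro x hx
    exact (Psi_eq' bf cmp H hmap hx.1).symm
  have hptw : ∀ᵐ x, x ∈ OmH (fX bf cmp H) f Om →
          (∀ c, f x ∈ (coreBF (brk' bf c) (z c)).I → c ∈ X) →
          ∀ l, ‖D' l x‖ ≤ KQ κ0 c0 * ‖D x‖ := by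
    have h1 : ∀ᵐ x, ∀ l, x ∈ Om ∩ φ ⁻¹' (Pun (LaE La) (mixB X (holeX bf lam) z)) →
        (∀ c, φ x ∈ IE (mixC X (brk' bf) (coreX bf lam) z c) → c ∈ X) →
        ‖D' l x‖ ≤ K1 (Fin 3) (cm κ0 c0) (aX κ0 c0) 2 * ‖Dl D l x‖ :=
      ae_all_iff.2 fun l => mix_ptw2 hκ hcm cm_le' ha4 (by norm_num) hLE hF0 hA hG
        (fun c _ => hz c) hOm hφ (hDl l) (hD' l)
    filter_upwards [h1] with x hx hx1 hx2 l
    rw [hOeq] at hx1
    refine (hx l hx1 ?_).trans ?_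
    · intro c hcx
      by_contra hcX
      rw [mixC_not hcX] at hcx
      exact hcX (hx2 c hcx)
    · unfold KQ
      calc K1 (Fin 3) (cm κ0 c0) (aX κ0 c0) 2 * ‖Dl D l x‖ ≤
            K1 (Fin 3) (cm κ0 c0) (aX κ0 c0) 2 * (2 * ‖D x‖) :=
            mul_le_mul_of_nonneg_left (norm_Dl_le D l x) hK1
        _ = _ := by ring
  refine ⟨hptw, ?_, ?_⟩
  · -- one brick
    intro c hcX
    have hp3 : p < 3 := by
      rcases hpX with h | h
      · exact h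
      · exact absurd (by rw [h]; exact mem_univ c) hcX
    have h1 := (hmix D' hD' c hcX).2
    have e1 : {x | x ∈ OmH (fX bf cmp H) f Om ∧ f x ∈ c.1.set} =
        Om ∩ φ ⁻¹' (Pun (LaE La) (mixB X (holeX bf lam) z) ∩ SE (brk' bf c)) := by
      ext x
      constructor
      · rintro ⟨h2, h3⟩
        rw [hOeq] at h2
        exact ⟨h2.1, h2.2, mem_SE_toBox.2 h3⟩
      · rintro ⟨h2, h3, h4⟩
        refine ⟨?_, mem_SE_toBox.1 h4⟩
        rw [hOeq]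
        exact ⟨h2, h3⟩
    have e2 : {x | x ∈ Om ∧ f x ∈ c.1.set} = Om ∩ φ ⁻¹' (SE (brk' bf c)) := by
      ext x
      exact ⟨fun h => ⟨h.1, mem_SE_toBox.2 h.2⟩, fun h => ⟨h.1, mem_SE_toBox.1 h.2⟩⟩
    rw [e1, e2]
    refine h1.trans ?_
    calc K2 (Fin 3) (cm κ0 c0) (aX κ0 c0) 2 p *
          ∫⁻ x in Om ∩ φ ⁻¹' (SE (brk' bf c)), ∑ l, ‖Dl D l x‖ₑ ^ p
        ≤ K2 (Fin 3) (cm κ0 c0) (aX κ0 c0) 2 p *
          ∫⁻ x in Om ∩ φ ⁻¹' (SE (brk' bf c)), (3 * ENNReal.ofReal (2 ^ p)) * ‖D x‖ₑ ^ p :=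
          mul_le_mul' le_rfl (lintegral_mono fun x => sum_Dl_le hp0 D x)
      _ = KP κ0 c0 p * ∫⁻ x in Om ∩ φ ⁻¹' (SE (brk' bf c)), ‖D x‖ₑ ^ p := by
          rw [lintegral_const_mul' _ _ (ENNReal.mul_ne_top (by norm_num) ENNReal.ofReal_ne_top)]
          unfold KP; ring
      _ ≤ _ := by
          refine mul_le_mul' ?_ le_rfl
          unfold KE
          rw [if_pos hp3]
          exact le_self_add
  -- saturated sets
  intro S hS mS hsat
  set B : F → Box (Fin 3) := mixB X (holeX bf lam) z with hB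
  set C : F → Box (Fin 3) := mixC X (brk' bf) (coreX bf lam) z with hC
  set O : Set E3 := OmH (fX bf cmp H) f Om with hO
  set T : Set E3 := {x | x ∈ O ∧ ∀ c, f x ∈ (coreBF (brk' bf c) (z c)).I → c ∈ X} with hT
  have hsub : S ∩ O ⊆ (⋃ c : {c : F // c ∉ X}, S ∩ (Om ∩ φ ⁻¹' (Pun (LaE La) B ∩ IE (C c)))) ∪
      (S ∩ T) := by
    rintro x ⟨hxS, hxO⟩
    by_cases h : ∀ c, f x ∈ (coreBF (brk' bf c) (z c)).I → c ∈ X
    · exact Or.inr ⟨hxS, hxO, h⟩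
    · push Not at h
      obtain ⟨c, h1, h2⟩ := h
      refine Or.inl (mem_iUnion.2 ⟨⟨c, h2⟩, hxS, ?_⟩)
      rw [hOeq] at hxO
      refine ⟨hxO.1, hxO.2, ?_⟩
      rw [hC, mixC_not h2]
      exact h1
  have mT : MeasurableSet T := by
    have e1 : T = O ∩ ⋂ c : {c : F // c ∉ X}, {x | x ∈ Om → f x ∉ (coreBF (brk' bf c) (z c)).I} := by
      ext x
      simp only [hT, mem_inter_iff, mem_iInter]
      constructor
      · rintro ⟨h1, h2⟩
        exact ⟨h1, fun c _ h3 => c.2 (h2 _ h3)⟩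
      · rintro ⟨h1, h2⟩
        refine ⟨h1, fun c h3 => ?_⟩
        by_contra hcX
        exact h2 ⟨c, hcX⟩ h1.1 h3
    rw [e1]
    refine hOmH.measurableSet.inter (MeasurableSet.iInter fun c => ?_)
    have e2 : {x | x ∈ Om → f x ∉ (coreBF (brk' bf c) (z c)).I} =
        (Om ∩ φ ⁻¹' (IE (coreBF (brk' bf c) (z c))))ᶜ := by
      ext x
      constructor
      · rintro h1 ⟨h2, h3⟩
        exact h1 h2 h3
      · intro h1 h2 h3
        exact h1 ⟨h2, h3⟩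
    rw [e2]
    exact (hφ.isOpen_inter_preimage hOm (isOpen_IE _)).measurableSet.compl
  -- the rest
  have part2 : ∫⁻ x in S ∩ T, ∑ l, ‖D' l x‖ₑ ^ p ≤
      3 * ENNReal.ofReal (KQ κ0 c0 ^ p) * ∫⁻ x in S, ‖D x‖ₑ ^ p := by
    rw [← lintegral_const_mul' _ _ (ENNReal.mul_ne_top (by norm_num) ENNReal.ofReal_ne_top)]
    refine le_trans ?_ (lintegral_mono_set (inter_subset_left : S ∩ T ⊆ S))
    apply lintegral_mono_ae
    refine (ae_restrict_iff' (mS.inter mT)).2 ?_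
    filter_upwards [hptw] with x hx hx2
    have h1 := hx hx2.2.1 hx2.2.2
    have h2 : ∀ l, ‖D' l x‖ₑ ^ p ≤ ENNReal.ofReal (KQ κ0 c0 ^ p) * ‖D x‖ₑ ^ p := by
      intro l
      rw [← ofReal_norm (D x), ENNReal.ofReal_rpow_of_nonneg (norm_nonneg _) hp0,
        ← ENNReal.ofReal_mul (by positivity), ← Real.mul_rpow hKQ (norm_nonneg _)]
      exact enorm_rpow_le hp0 (h1 l)
    refine (Finset.sum_le_sum fun l _ => h2 l).trans (le_of_eq ?_)
    rw [Finset.sum_const, Finset.card_univ, nsmul_eq_mul, Fintype.card_fin]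
    push_cast
    ring
  -- the cores
  have part1 : ∫⁻ x in ⋃ c : {c : F // c ∉ X}, S ∩ (Om ∩ φ ⁻¹' (Pun (LaE La) B ∩ IE (C c))),
      ∑ l, ‖D' l x‖ₑ ^ p ≤ (if p < 3 then KP κ0 c0 p else 0) * ∫⁻ x in S, ‖D x‖ₑ ^ p := by
    rcases hpX with hp3 | hXu
    · rw [if_pos hp3]
      refine (lintegral_iUnion_le _ _).trans ?_
      have e1 : ∀ c : {c : F // c ∉ X},
          ∫⁻ x in S ∩ (Om ∩ φ ⁻¹' (Pun (LaE La) B ∩ IE (C c))), ∑ l, ‖D' l x‖ₑ ^ p ≤
            KP κ0 c0 p * ∫⁻ x in S ∩ (Om ∩ φ ⁻¹' (IE (brk' bf c))), ‖D x‖ₑ ^ p := by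
        intro c
        have hcore : ∀ x, φ x ∈ IE (C c) → φ x ∈ IE (brk' bf c) := fun x hx =>
          hFC.core_sub c (IE_subset_SE _ hx)
        rcases hsat c c.2 with h | h
        · -- the open brick is in `S`
          have h2 : Om ∩ φ ⁻¹' (IE (brk' bf c)) ⊆ S := fun x hx => h x hx.1 hx.2
          rw [inter_eq_self_of_subset_right h2]
          refine (lintegral_mono_set inter_subset_right).trans ?_
          refine (hmix D' hD' c c.2).1.trans ?_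
          calc K2 (Fin 3) (cm κ0 c0) (aX κ0 c0) 2 p *
                ∫⁻ x in Om ∩ φ ⁻¹' (IE (brk' bf c)), ∑ l, ‖Dl D l x‖ₑ ^ p
              ≤ K2 (Fin 3) (cm κ0 c0) (aX κ0 c0) 2 p *
                ∫⁻ x in Om ∩ φ ⁻¹' (IE (brk' bf c)), (3 * ENNReal.ofReal (2 ^ p)) * ‖D x‖ₑ ^ p :=
                mul_le_mul' le_rfl (lintegral_mono fun x => sum_Dl_le hp0 D x)
            _ = _ := by
                rw [lintegral_const_mul' _ _
                  (ENNReal.mul_ne_top (by norm_num) ENNReal.ofReal_ne_top)]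
                unfold KP; ring
        · have h2 : S ∩ (Om ∩ φ ⁻¹' (Pun (LaE La) B ∩ IE (C c))) = ∅ := by
            ext x
            simp only [mem_inter_iff, mem_empty_iff_false, iff_false]
            rintro ⟨h3, h4, h5⟩
            exact h x h4 (hcore x h5.2) h3
          rw [h2, Measure.restrict_empty, lintegral_zero_measure]
          exact zero_le
      refine (ENNReal.tsum_le_tsum e1).trans ?_
      rw [ENNReal.tsum_mul_left]
      refine mul_le_mul' le_rfl ?_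
      rw [← lintegral_iUnion]
      · exact lintegral_mono_set (iUnion_subset fun c => inter_subset_left)
      · intro c
        exact mS.inter (hφ.isOpen_inter_preimage hOm (isOpen_IE _)).measurableSet
      · intro c c' hne
        refine disjoint_left.2 fun x hx hx' => ?_
        have hne' : (c : F) ≠ c' := fun h => hne (Subtype.ext h)
        exact hF0.disj c c' hne' _ (IE_subset_SE _ hx.2.2) hx'.2.2
    · have hall : ∀ c : F, c ∈ X := fun c => by rw [hXu]; exact mem_univ c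
      have hemp : IsEmpty {c : F // c ∉ X} := ⟨fun c => c.2 (hall c.1)⟩
      rw [iUnion_of_empty, Measure.restrict_empty, lintegral_zero_measure]
      exact zero_le
  calc ∫⁻ x in S ∩ O, ∑ l, ‖D' l x‖ₑ ^ p ≤ ∫⁻ x in
        (⋃ c : {c : F // c ∉ X}, S ∩ (Om ∩ φ ⁻¹' (Pun (LaE La) B ∩ IE (C c)))) ∪ (S ∩ T),
        ∑ l, ‖D' l x‖ₑ ^ p := lintegral_mono_set hsub
    _ ≤ _ := lintegral_union_le _ _ _
    _ ≤ (if p < 3 then KP κ0 c0 p else 0) * (∫⁻ x in S, ‖D x‖ₑ ^ p) +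
        3 * ENNReal.ofReal (KQ κ0 c0 ^ p) * ∫⁻ x in S, ‖D x‖ₑ ^ p := add_le_add part1 part2
    _ = KE κ0 c0 p * ∫⁻ x in S, ‖D x‖ₑ ^ p := by
        unfold KE; rw [← add_mul]

end Crest.Agent.R96.EaP_899
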