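import Crest.Agent.R096.SkC1_961
import Crest.Agent.R096.Eaa1_748

/-!
# R96, EA-CORE part 2 (helper348): the size functions `ρ`, `ρ'` from the macro balls
-/

set_option autoImplicit false
set_option linter.style.longLine false

open Set Metric Filter Topology MeasureTheory

namespace Crest.Agent.R96.EaCore_348

open Crest.Agent.R096.Bsp_628 Crest.Agent.R096.Brk3_582 Crest.Agent.R096.Brk5_582
open Crest.Agent.R096.SkC1_961 (E3 Hom3)

noncomputable section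

variable {δ κ0 R : ℝ} {La Om : Set E3} {F : Set (Bx (Fin 3))} {f : E3 → E3}

/-- an open brick meets no other closed brick -/
theorem brick_unique (bf : BoxFoam La F δ κ0) {c c' : F} {y : E3}
    (h : ∀ k, c.1.lo k < y k ∧ y k < c.1.hi k) (h' : y ∈ c'.1.set) : c' = c := by
  by_contra hne
  obtain ⟨k, hk⟩ := bf.inv.disj c'.2 c.2 (bf.pos _ c'.2) (bf.pos _ c.2)
    (fun h => hne (Subtype.ext h))
  have h1 := h k
  have h2 := Bx.mem_set.1 h' k
  rcases hk with hk | hk <;> linarith [h1.1, h1.2, h2.1, h2.2]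

/-- **the size functions of EA-CORE**: `ρ = C0 * size`, `ρ' = (C0 + 1) * size`; `b k` = the brick of the
macro ball `k`. -/
theorem exists_rho (hf : MapsTo f Om La) (bf : BoxFoam La F δ κ0) (hcmp : Cmp F R)
    {κ : Type} {a : κ → E3} {R1 : κ → ℝ} {b : κ → F}
    (hmac : ∀ k, ∀ y ∈ closedBall (a k) (R1 k), ∀ j, (b k).1.lo j < f y j ∧ f y j < (b k).1.hi j)
    {C0 : ℝ} (hC0 : 0 ≤ C0) :
    ∃ ρ ρ' : E3 → ℝ, (∀ x ∈ Om, ∃ c : F, f x ∈ c.1.set ∧ C0 * c.1.sz ≤ ρ x) ∧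
      (∀ x ∈ Om, ρ x ≤ ρ' x) ∧
      (∀ k, ∀ x ∈ closedBall (a k) (R1 k), ∀ x' ∈ closedBall (a k) (R1 k),
        ‖f x' - f x‖ + ρ x' ≤ ρ' x) ∧
      ∀ x ∈ Om, ∀ c : F, f x ∈ c.1.set → ρ' x ≤ (C0 + 1) * (R * c.1.sz) := by
  classical
  -- a brick over every point
  have hex : ∀ x, ∃ s : ℝ, (∀ c : F, f x ∈ c.1.set → ∃ c' : F, f x ∈ c'.1.set ∧ s = c'.1.sz) := by
    intro x
    by_cases h : ∃ c' : F, f x ∈ c'.1.set
    · obtain ⟨c', hc'⟩ := h
      exact ⟨c'.1.sz, fun c hc => ⟨c', hc', rfl⟩⟩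
    · exact ⟨0, fun c hc => absurd ⟨c, hc⟩ h⟩
  choose s hs using hex
  have hcov : ∀ x ∈ Om, ∃ c' : F, f x ∈ c'.1.set ∧ s x = c'.1.sz := by
    intro x hx
    obtain ⟨C, hC, hxC⟩ := bf.cov (f x) (hf hx)
    exact hs x ⟨C, hC⟩ hxC
  have hsb : ∀ k, ∀ x ∈ closedBall (a k) (R1 k), s x = (b k).1.sz := by
    intro k x hx
    have h1 := hmac k x hx
    have h2 : f x ∈ (b k).1.set := Bx.mem_set.2 fun j => ⟨(h1 j).1.le, (h1 j).2.le⟩
    obtain ⟨c', hc', hsc⟩ := hs x (b k) h2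
    rw [hsc, brick_unique bf h1 hc']
  refine ⟨fun x => C0 * s x, fun x => (C0 + 1) * s x, ?_, ?_, ?_, ?_⟩
  · intro x hx
    obtain ⟨c', hc', hsc⟩ := hcov x hx
    exact ⟨c', hc', by simp only [hsc]; exact le_rfl⟩
  · intro x hx
    obtain ⟨c', hc', hsc⟩ := hcov x hx
    have h0 : 0 < c'.1.sz := Bx.sz_pos (bf.pos _ c'.2)
    have : C0 * s x ≤ (C0 + 1) * s x := by
      rw [hsc]
      nlinarith
    exact this
  · intro k x hx x' hx'
    have h1 := hmac k x hx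
    have h1' := hmac k x' hx'
    have h2 : f x ∈ (b k).1.set := Bx.mem_set.2 fun j => ⟨(h1 j).1.le, (h1 j).2.le⟩
    have h2' : f x' ∈ (b k).1.set := Bx.mem_set.2 fun j => ⟨(h1' j).1.le, (h1' j).2.le⟩
    have h3 : ‖f x' - f x‖ ≤ (b k).1.sz := norm_sub_le_sz (bf.pos _ (b k).2) h2' h2
    have h4 := hsb k x hx
    have h5 := hsb k x' hx'
    have : ‖f x' - f x‖ + C0 * s x' ≤ (C0 + 1) * s x := by
      rw [h4, h5]
      linarith
    exact this
  · intro x hx c hc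
    obtain ⟨c', hc', hsc⟩ := hcov x hx
    have h1 : c'.1.sz ≤ R * c.1.sz := hcmp c' c ⟨f x, hc', hc⟩
    have : (C0 + 1) * s x ≤ (C0 + 1) * (R * c.1.sz) := by
      rw [hsc]
      exact mul_le_mul_of_nonneg_left h1 (by linarith)
    exact this

end

end Crest.Agent.R96.EaCore_348
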