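import Crest.Agent.R96.Eac1_348
import Crest.Agent.R96.Eac2_348
import Crest.Agent.R096.Pmc4_112

/-!
# R96, EA-CORE part 3 (helper348): `premach` + `MachBF` ⟹ the final map, for a shiftable mesh
-/

set_option autoImplicit false
set_option linter.style.longLine false

open Set Metric Filter Topology MeasureTheory Module
open scoped ENNReal NNReal

namespace Crest.Agent.R96.EaCore_348

open Crest.Agent.R96.Hole_348 Crest.Agent.R96.EaPost_348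
open Crest.Agent.R096.Msh_715
open Crest.Agent.R096.SkC1_961 (FoamD Cfg NN Hom3)
open Crest.Agent.R096.Mbf_337
open Crest.Agent.R096.Ls_222 (Edg eIn finite_tiles_edg)
open Crest.Agent.R096.Ea_713 (lin)
open Crest.Agent.R96.Pm_199
open Crest.Agent.R096.Pmc_112
open Crest.Agent.R096.Der_764 (OmH)
open Crest.Agent.R96.Sob4_199 (VWD)
open Crest.Agent.R96.En10_199 (P3)

noncomputable section

variable {δ κ0 R c0 : ℝ} {La Om : Set E3} {Φ : FoamD δ κ0 R c0 La} {f : E3 → E3}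

/-! ### monotonicity in `κ1` -/

lemma exact_mono {ι : Type} {T : Tiling Om ι} {κ1 κ1' κ2 : ℝ} (h : κ1 ≤ κ1') {c : Φ.F} {i : ι}
    {A : E3 ≃ᵃ[ℝ] E3} {lam : ℝ} {z : E3} (hE : Exact Φ T f κ1 κ2 c i A lam z) :
    Exact Φ T f κ1' κ2 c i A lam z :=
  { hE with
    nbd := fun x hx => ⟨(hE.nbd x hx).1, fun hxi => ((hE.nbd x hx).2 hxi).trans (by
      have h1 : 0 ≤ lam * c.1.sz :=
        mul_nonneg hE.lam0.le (Crest.Agent.R096.Bsp_628.Bx.sz_pos (Φ.bf.pos _ c.2)).le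
      exact mul_le_mul_of_nonneg_right h h1)⟩ }

lemma tiny_mono {ι : Type} {T : Tiling Om ι} {κ1 κ1' : ℝ} (h : κ1 ≤ κ1') {c : Φ.F}
    {J0 J V : Set ι} {θ : E3 → E3} {φ : E3 → ℝ} (hT : Tiny Φ T f κ1 c J0 J V θ φ) :
    Tiny Φ T f κ1' c J0 J V θ φ :=
  { hT with
    room := by
      obtain ⟨ρ1, ρ2, ρ3, ρ4, d, h1, h2, h3⟩ := hT.room
      exact ⟨ρ1, ρ2, ρ3, ρ4, d, h1, h2.trans h, h3⟩ }

lemma cores_mono {ι : Type} {T : Tiling Om ι} {κ1 κ1' κ2 : ℝ} (h : κ1 ≤ κ1') {X : Set Φ.F}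
    {J0 J V : Φ.F → Set ι} {ct : Φ.F → ι} {A : Φ.F → E3 ≃ᵃ[ℝ] E3} {lam : Φ.F → ℝ}
    {z : Φ.F → E3} {θ : Φ.F → E3 → E3} {φ : Φ.F → E3 → ℝ}
    (hC : Cores Φ T f κ1 κ2 X J0 J V ct A lam z θ φ) :
    Cores Φ T f κ1' κ2 X J0 J V ct A lam z θ φ :=
  { hC with
    exact_ := fun c hc => exact_mono h (hC.exact_ c hc)
    tiny := fun c hc => tiny_mono h (hC.tiny c hc) }

lemma fine_mono {ι : Type} {T : Tiling Om ι} {κ1 κ1' : ℝ} (h : κ1 ≤ κ1') {J0 : Φ.F → Set ι}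
    (hF : Fine Φ T f κ1 J0) : Fine Φ T f κ1' J0 where
  psi i hi x hx y hy c hc := (hF.psi i hi x hx y hy c hc).trans
    (mul_le_mul_of_nonneg_right h (Crest.Agent.R096.Bsp_628.Bx.sz_pos (Φ.bf.pos _ c.2)).le)
  lev i hi x hx y hy c := (hF.lev i hi x hx y hy c).trans h

lemma choice_mono {ι : Type} {T : Tiling Om ι} {κp κp' μ κ3 : ℝ} (h : κp ≤ κp') {X : Set Φ.F}
    {V : Φ.F → Set ι} {ct : Φ.F → ι} {A : Φ.F → E3 ≃ᵃ[ℝ] E3} {lam : Φ.F → ℝ} {z : Φ.F → E3}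
    {M : Φ.F → ℕ} {l : Edg T → ℝ≥0∞} (hC : Choice Φ T f κp μ κ3 X V ct A lam z M l) :
    Choice Φ T f κp' μ κ3 X V ct A lam z M l := by
  intro err herr Z m0 hZ
  obtain ⟨κ, L, h1, h2, h3⟩ := hC err herr Z m0 hZ
  exact ⟨κ, L, levels_mono h h1, h2, h3⟩

/-! ### one decorated mesh -/

/-- macro balls: every ball is mapped into one open brick -/
def Macro (Φ : FoamD δ κ0 R c0 La) (f : E3 → E3) {κ : Type} (a : κ → E3) (R1 : κ → ℝ)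
    (b : κ → Φ.F) : Prop :=
  ∀ k, ∀ y ∈ closedBall (a k) (R1 k), ∀ j, (b k).1.lo j < f y j ∧ f y j < (b k).1.hi j

/-- **EA-CORE for one decorated mesh**: the constants `κp ≤ 1`, `κ1` (every smaller one is allowed),
`μ = κp / 64`. -/
theorem ea_one (HM : MachBF) {δ κ0 R c0 κ2 κ3 : ℝ} (hδ : 0 < δ) (hκ0 : 1 ≤ κ0) (hR : 1 ≤ R)
    (hc0 : 0 < c0) (hκ2 : 0 < κ2) (hκ3 : 8 ≤ κ3) :
    ∃ (C0 : ℝ) (C : Set (Set E3) → ℝ), 0 < C0 ∧ (∀ 𝒦, 0 < C 𝒦) ∧ ∀ e : ℝ, 0 < e →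
    ∃ κp κ1 : ℝ, 0 < κp ∧ κp ≤ 1 ∧ 0 < κ1 ∧ κ1 * κ0 < κ2 ∧
    ∀ (Om La : Set E3) (f : E3 → E3), IsOpen Om → Bornology.IsBounded Om → IsConnected Om →
      IsOpen La → Bornology.IsBounded La → IsConnected La → Hom3 f Om La →
    ∀ (Φ : FoamD δ κ0 R c0 La), Star Φ → ∀ (X : Set Φ.F) (D : Dec Om Φ.F) (l : Edg D.T → ℝ≥0∞)
      (κ1' : ℝ), κ1' ≤ κ1 → PreOut Φ f κp (κp / 64) κ1' κ2 κ3 X D l →
    ∀ (κ : Type) (a : κ → E3) (R0 R1 : κ → ℝ) (b : κ → Φ.F) (κv : ℝ), 0 < κv →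
      Geo D.T (D.ct '' X) {i | ∃ c, c ∉ X ∧ i ∈ D.V c} a R0 R1 κv → Macro Φ f a R1 b →
    ∀ (p : ℝ), 1 ≤ p → (p < 3 ∨ IsEmpty κ) → ∀ ε : ℝ≥0∞, ε ≠ 0 → ∀ η : D.ι → ℝ≥0∞,
      (∀ i, η i ≠ 0) → ∃ (ρ' : E3 → ℝ) (g : E3 → E3),
      Res C0 C e Φ D.T f κv X D.V D.ct D.A D.lam l p ε D.fr ρ' a R0 R1 η g ∧
      ∀ x ∈ Om, ∀ c : Φ.F, f x ∈ c.1.set → ‖g x - f x‖ ≤ (C0 + 1) * R * c.1.sz := by
  obtain ⟨C0, C, hC0, hC, H⟩ := ea_core HM hδ hκ0 hR hc0 hκ2 hκ3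
  refine ⟨C0, C, hC0, hC, fun e he => ?_⟩
  obtain ⟨κp, hκp, H⟩ := H e he
  have hp1 : 0 < min κp 1 := lt_min hκp one_pos
  obtain ⟨κ1, hκ1, H⟩ := H (min κp 1 / 64) (by positivity) (by
    have : min κp 1 ≤ κp := min_le_left _ _
    linarith)
  have hκ00 : 0 < κ0 := by linarith
  refine ⟨min κp 1, min κ1 (κ2 / (2 * κ0)), hp1, min_le_right _ _, lt_min hκ1 (by positivity), ?_, ?_⟩
  · calc min κ1 (κ2 / (2 * κ0)) * κ0 ≤ κ2 / (2 * κ0) * κ0 :=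
          mul_le_mul_of_nonneg_right (min_le_right _ _) hκ00.le
      _ = κ2 / 2 := by field_simp
      _ < κ2 := by linarith
  intro Om La f hO hOb hOc hLa hLb hLc hf Φ hS X D l κ1' hκ1' hP κ a R0 R1 b κv hκv hgeo hmac p hp
    hp3 ε hε η hη
  have hf0 : MapsTo f Om La := by
    obtain ⟨fi, h1, -⟩ := hf
    exact h1
  obtain ⟨ρ, ρ', h1, h2, h3, h4⟩ := exists_rho hf0 Φ.bf Φ.cmp hmac hC0.le
  have hκ1'' : κ1' ≤ κ1 := hκ1'.trans (min_le_left _ _)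
  obtain ⟨g, hg⟩ := H Om La f hO hOb hOc hLa hLb hLc hf Φ D.ι D.T X D.J0 D.J D.V D.ct D.A D.lam D.z
    D.θ D.φ D.M l κ a R0 R1 κv hκv
    { star := hS
      cores := cores_mono hκ1'' hP.cores
      fine := fine_mono hκ1'' hP.fine
      fin := fun i _ e _ => hP.fin e
      choice := choice_mono (min_le_left _ _) hP.choice
      geo := hgeo } p hp hp3 D.fr ρ ρ' h1 h2 h3 ε hε η hη
  refine ⟨ρ', g, hg, fun x hx c hc => ?_⟩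
  have := (hg.near x hx).trans (h4 x hx c hc)
  calc ‖g x - f x‖ ≤ (C0 + 1) * (R * c.1.sz) := this
    _ = (C0 + 1) * R * c.1.sz := by ring

/-! ### shiftable meshes -/

/-- the weight of the edges: `8 Cl * line integral of ‖D' (v)‖` -/
def lw (δ R : ℝ) (D' : E3 → E3 →L[ℝ] E3) {ι : Type} {T : Tiling Om ι} (e : Edg T) : ℝ≥0∞ :=
  ENNReal.ofReal (8 * Crest.Agent.R096.Ls_222.Cl δ R) * le (Gd' D') e

/-- **EA-MF**: `premach` + `MachBF`.  For most shifts `a` there are shifts `w` of the blocks such that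
the mesh `md a w` gives a final map with all estimates; the energies of the classes are bounded. -/
theorem ea_mf (HM : MachBF) {δ κ0 R c0 κ2 κ3 : ℝ} (hδ : 0 < δ) (hκ0 : 1 ≤ κ0) (hR : 1 ≤ R)
    (hc0 : 0 < c0) (hκ2 : 0 < κ2) (hκ3 : 8 ≤ κ3) :
    ∃ (C0 : ℝ) (C : Set (Set E3) → ℝ), 0 < C0 ∧ (∀ 𝒦, 0 < C 𝒦) ∧ ∀ e : ℝ, 0 < e →
    ∃ κp κ1 : ℝ, 0 < κp ∧ κp ≤ 1 ∧ 0 < κ1 ∧ κ1 * κ0 < κ2 ∧
    ∀ (Om La : Set E3) (f : E3 → E3), IsOpen Om → Bornology.IsBounded Om → IsConnected Om →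
      IsOpen La → Bornology.IsBounded La → IsConnected La → Hom3 f Om La →
    ∀ (Φ : FoamD δ κ0 R c0 La), Star Φ → ∀ (X : Set Φ.F) (J : Type) (M : MF Om Φ.F J)
      (D' : E3 → E3 →L[ℝ] E3), (∀ v, Measurable fun y => D' y v) →
      (∀ l, VWD (OmH Φ f Om) volume (fun x => P3 (Φ.Psi (f x)))
        (fun x => P3 (D' x (Pi.single l 1))) (Pi.single l (1:ℝ))) →
    ∀ (p : ℝ), 1 ≤ p → ∀ (Gd : J → Set E3), (∀ j, Gd j ⊆ M.Bx j) → ∀ (θ₁ θ₂ : ℝ≥0∞),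
      volume (⋃ j, {a | a ∈ M.A ∧ ∀ w ∈ M.W j, a + w ∉ Gd j}) ≤ θ₁ * volume M.A →
    ∀ (m lam : M.κ → ℝ≥0∞), (∀ k, m k ≠ 0) →
      (∀ k, M.bl k = none → ∫⁻ a in M.A, M.EnC (Gd' D') p k a ≤ m k * volume M.A) →
      (∀ k, lam k ≠ 0) → (∀ k, lam k ≠ ∞) → ∑' k, (lam k)⁻¹ ≤ θ₂ →
    ∀ (P' : E3 → Prop), (∀ᵐ a : E3, a ∈ M.A → P' a) → ∀ (κ1' : ℝ), κ1' ≤ κ1 →
      (∀ᵐ a : E3, a ∈ M.A → ∀ w (h : M.Ok a w), (∀ j, a + w j ∈ Gd j) →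
        Mok Φ f κp (κp / 64) κ1' κ2 X (M.md a w h)) →
    ∀ (κ : Type) (x₀ : κ → E3) (R0 R1 : κ → ℝ) (b : κ → Φ.F) (κv : ℝ), 0 < κv →
      (∀ a w (h : M.Ok a w), Geo (M.md a w h).T ((M.md a w h).ct '' X)
        {i | ∃ c, c ∉ X ∧ i ∈ (M.md a w h).V c} x₀ R0 R1 κv) → Macro Φ f x₀ R1 b →
      (p < 3 ∨ IsEmpty κ) →
    ∃ A' ⊆ M.A, MeasurableSet A' ∧ volume (M.A \ A') ≤ (θ₁ + θ₂) * volume M.A ∧
      ∀ a ∈ A', P' a ∧ ∃ (w : J → E3) (h : M.Ok a w), (∀ j, a + w j ∈ Gd j) ∧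
        (∀ k, M.bl k = none → M.EnT (Gd' D') p a w h k ≤ lam k * m k) ∧
        (∀ k j, M.bl k = some j → M.EnT (Gd' D') p a w h k ≤ M.EnC (Gd' D') p k (a + w j)) ∧
        ∀ ε : ℝ≥0∞, ε ≠ 0 → ∀ η : (M.md a w h).ι → ℝ≥0∞, (∀ i, η i ≠ 0) →
        ∃ (ρ' : E3 → ℝ) (g : E3 → E3),
          Res C0 C e Φ (M.md a w h).T f κv X (M.md a w h).V (M.md a w h).ct (M.md a w h).A
            (M.md a w h).lam (lw δ R D') p ε (M.md a w h).fr ρ' x₀ R0 R1 η g ∧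
          ∀ x ∈ Om, ∀ c : Φ.F, f x ∈ c.1.set → ‖g x - f x‖ ≤ (C0 + 1) * R * c.1.sz := by
  obtain ⟨C0, C, hC0, hC, H⟩ := ea_one HM hδ hκ0 hR hc0 hκ2 hκ3
  refine ⟨C0, C, hC0, hC, fun e he => ?_⟩
  obtain ⟨κp, κ1, hκp, hκp1, hκ1, hκ12, H⟩ := H e he
  refine ⟨κp, κ1, hκp, hκp1, hκ1, hκ12, ?_⟩
  intro Om La f hO hOb hOc hLa hLb hLc hf Φ hS X J M D' hDm hD p hp Gd hGd θ₁ θ₂ hZ m lam hm0 hm
    hl0 hl1 hl P' hP κ1' hκ1' hMok κ x₀ R0 R1 b κv hκv hgeo hmac hp3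
  have hκ1k : κ1' * κ0 < κ2 :=
    (mul_le_mul_of_nonneg_right hκ1' (by linarith)).trans_lt hκ12
  obtain ⟨A', h1, h2, h3, h4⟩ := premach hO hLa hδ (by linarith : 0 < R) hf M hDm hD (κp := κp)
    (μ := κp / 64) (κ1 := κ1') (κ2 := κ2) (κ3 := κ3) hκp hκp1 le_rfl hκ3 hκ2.le hκ1k (X := X)
    (p := p) (by linarith) hGd hZ hm0 hm hl0 hl1 hl hP hMok
  refine ⟨A', h1, h2, h3, fun a ha => ?_⟩
  obtain ⟨h5, w, h, h6, h7, h8, h9⟩ := h4 a ha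
  refine ⟨h5, w, h, h6, h8, h9, fun ε hε η hη => ?_⟩
  exact H Om La f hO hOb hOc hLa hLb hLc hf Φ hS X (M.md a w h) _ κ1' hκ1' h7 κ x₀ R0 R1 b κv hκv
    (hgeo a w h) hmac p hp hp3 ε hε η hη

end

end Crest.Agent.R96.EaCore_348
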