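/-
helper199, row 96, NUMBERS (task of 416 #9517), part 1: the Lipschitz numbers of the all-cone mesh.
-/
import Mathlib
import Crest.Agent.R096.Bd19_416

set_option autoImplicit false

open Set Metric Filter Topology

namespace Crest.Agent.R96.Nu1_199

open Crest.Agent.R096.Ce_537 Crest.Agent.R096.Bd_416

open Crest.Agent.R096.Pc_117 (LL)

open scoped Classical

set_option linter.unusedSectionVars false

noncomputable section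

/-- the constants of the recursion (dimension = stage); `K₀` constant of the given part,
`A` constant of the mesh, `b` squeezing numbers, `ε` width loss on the edges -/
def Kn (K₀ A ε : ℝ) (b : ℕ → ℝ) : ℕ → ℝ
  | 0 => K₀
  | n + 1 => max (Kn K₀ A ε b n / (2 * b n))
      (max (A / (1 - ε)) (7 * A / (2 * b n) * max (Kn K₀ A ε b n) 2))

variable {K₀ A ε : ℝ} {b : ℕ → ℝ}

theorem Kn_succ (n : ℕ) : Kn K₀ A ε b (n + 1) = max (Kn K₀ A ε b n / (2 * b n))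
      (max (A / (1 - ε)) (7 * A / (2 * b n) * max (Kn K₀ A ε b n) 2)) := rfl

theorem Kn_nonneg (hK : 0 ≤ K₀) (hb0 : ∀ n, 0 < b n) : ∀ n, 0 ≤ Kn K₀ A ε b n
  | 0 => hK
  | n + 1 => by
    have h1 := Kn_nonneg hK hb0 n
    have h2 := hb0 n
    exact le_max_of_le_left (by positivity)

variable {Q : Type} [PartialOrder Q] {dim : Q → ℕ} {J Fam : Type}
variable {E : Type*} [NormedAddCommGroup E] [NormedSpace ℝ E]
variable {C : Cmb Q dim J Fam} {K : Q → Set E} {D : Set Q} {g : Gd E J}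
  {P : ∀ q, C.I q → Set E} {c : ∀ q, C.I q → E → ℝ} {Ω : Set E}

/-- the weighted number of the pieces of a cell -/
def Wd (C : Cmb Q dim J Fam) (wt : J → ℝ) (q : Q) : ℝ := ∑ x, wt (C.col q x)

theorem Wd_nonneg {wt : J → ℝ} (hw : ∀ j, 0 < wt j) (q : Q) : 0 ≤ Wd C wt q :=
  Finset.sum_nonneg fun _ _ => (hw _).le

/-- the thickness number of a cell (`δ q > 0` a small error which makes it finite) -/
def uq (C : Cmb Q dim J Fam) (wt : J → ℝ) (δ : Q → ℝ) (q : Q) : ℝ := 1 / (2 * (Wd C wt q + δ q))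

section

variable {R : Set Q} {g0 : Gd E J} {P0 : ∀ q, C.I q → Set E} {c0 : ∀ q, C.I q → E → ℝ}

/-- **the hypotheses on the numbers**: `Lf, Lg` Lipschitz constants of the charts of the cells,
`ω q ≥ 0` any function of the cells with `Lg τ * Lf τ * ω σ ≤ A * ω τ` for the faces `σ < τ` and
`Lg τ * (weighted number of pieces of τ + δ τ) ≤ A * ω τ`. -/
structure Num (C : Cmb Q dim J Fam) (R : Set Q) (wt : J → ℝ) (K₀ A ε : ℝ) (b : ℕ → ℝ)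
    (ω δ Lf Lg : Q → ℝ) : Prop where
  w0 : ∀ j, 0 < wt j
  b0 : ∀ n, 0 < b n
  b2 : ∀ n, b n < 1/2
  e0 : 0 < ε
  e1 : ε < 1
  A0 : 0 ≤ A
  K0 : 0 ≤ K₀
  ω0 : ∀ q, 0 ≤ ω q
  δ0 : ∀ q, 0 < δ q
  f0 : ∀ q, 0 < Lf q
  g0 : ∀ q, 0 < Lg q
  face : ∀ τ ∉ R, 2 ≤ dim τ → ∀ σ < τ, Lg τ * Lf τ * ω σ ≤ A * ω τ
  own : ∀ τ ∉ R, 1 ≤ dim τ → Lg τ * (Wd C wt τ + δ τ) ≤ A * ω τ

/-- the Lipschitz numbers -/
def LamN (K₀ A ε : ℝ) (b : ℕ → ℝ) (ω : Q → ℝ) (n : ℕ) (q : Q) : ℝ := Kn K₀ A ε b n * ω q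

/-- the bound of the numbers on the faces -/
def Bbq (X : Cplx Ω Q dim K) (R : Set Q) (K₀ A ε : ℝ) (b : ℕ → ℝ) (ω Lf Lg : Q → ℝ) (τ : Q) : ℝ :=
  if τ ∈ R then ∑ σ ∈ (X.finite_below τ).toFinset, Kn K₀ A ε b (dim τ) * ω σ
    else Kn K₀ A ε b (dim τ) * (A * ω τ / (Lg τ * Lf τ))

namespace Num

variable {wt : J → ℝ} {ω δ Lf Lg : Q → ℝ} (N : Num C R wt K₀ A ε b ω δ Lf Lg)

include N

theorem kn (n : ℕ) : 0 ≤ Kn K₀ A ε b n := Kn_nonneg N.K0 N.b0 n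

theorem W0 (q : Q) : 0 < Wd C wt q + δ q := by
  have := Wd_nonneg (C := C) N.w0 q
  have := N.δ0 q
  linarith

theorem lam0 (n : ℕ) (q : Q) : 0 ≤ LamN K₀ A ε b ω n q := mul_nonneg (N.kn n) (N.ω0 q)

theorem lamS (n : ℕ) (q : Q) :
    LamN K₀ A ε b ω n q / (2 * b n) ≤ LamN K₀ A ε b ω (n + 1) q := by
  unfold LamN
  rw [mul_div_right_comm, Kn_succ]
  exact mul_le_mul_of_nonneg_right (le_max_left _ _) (N.ω0 q)

theorem u0 (q : Q) : 0 < uq C wt δ q := by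
  have := N.W0 q
  unfold uq
  positivity

theorem u_inv (q : Q) : 1 / uq C wt δ q = 2 * (Wd C wt q + δ q) := by
  unfold uq
  rw [one_div_one_div]

theorem uS (τ : Q) : uq C wt δ τ * ∑ x, wt (C.col τ x) ≤ 1 / 2 := by
  change uq C wt δ τ * Wd C wt τ ≤ 1 / 2
  have h3 := N.W0 τ
  have h4 := N.δ0 τ
  have h5 := Wd_nonneg (C := C) N.w0 τ
  unfold uq
  rw [div_mul_eq_mul_div, one_mul, div_le_div_iff₀ (by positivity) (by norm_num)]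
  linarith

theorem lam1 (τ : Q) (hτ : τ ∉ R) (hd : dim τ = 1) :
    Lg τ / (4 * (1 - ε) * uq C wt δ τ) ≤ LamN K₀ A ε b ω 2 τ := by
  change _ ≤ Kn K₀ A ε b 2 * ω τ
  have h3 := N.own τ hτ hd.ge
  have h4 : 0 < 1 - ε := by linarith [N.e1]
  have h5 : Lg τ / (4 * (1 - ε) * uq C wt δ τ) =
      Lg τ * (Wd C wt τ + δ τ) / (2 * (1 - ε)) := by
    have h6 := N.W0 τ
    unfold uq
    field_simp
    ring
  rw [h5]
  have h6 : Lg τ * (Wd C wt τ + δ τ) / (2 * (1 - ε)) ≤ A / (1 - ε) * ω τ := by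
    rw [div_mul_eq_mul_div, div_le_div_iff₀ (by positivity) h4]
    have h7 : 0 ≤ A * ω τ := mul_nonneg N.A0 (N.ω0 τ)
    nlinarith
  refine h6.trans (mul_le_mul_of_nonneg_right ?_ (N.ω0 τ))
  rw [Kn_succ]
  exact le_max_of_le_right (le_max_left _ _)

theorem Bb_le (X : Cplx Ω Q dim K) (τ : Q) (hd : 2 ≤ dim τ) (σ : Q) (hσ : σ < τ) :
    LamN K₀ A ε b ω (dim τ) σ ≤ Bbq X R K₀ A ε b ω Lf Lg τ := by
  change Kn K₀ A ε b (dim τ) * ω σ ≤ Bbq X R K₀ A ε b ω Lf Lg τ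
  by_cases hτ : τ ∈ R
  · have : Bbq X R K₀ A ε b ω Lf Lg τ =
      ∑ σ ∈ (X.finite_below τ).toFinset, Kn K₀ A ε b (dim τ) * ω σ := if_pos hτ
    rw [this]
    refine Finset.single_le_sum (f := fun σ => Kn K₀ A ε b (dim τ) * ω σ)
      (fun σ _ => mul_nonneg (N.kn _) (N.ω0 σ)) ?_
    rw [Finite.mem_toFinset]
    exact hσ
  · have : Bbq X R K₀ A ε b ω Lf Lg τ = Kn K₀ A ε b (dim τ) * (A * ω τ / (Lg τ * Lf τ)) :=
      if_neg hτ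
    rw [this]
    refine mul_le_mul_of_nonneg_left ?_ (N.kn _)
    rw [le_div_iff₀ (mul_pos (N.g0 τ) (N.f0 τ)), mul_comm]
    exact N.face τ hτ hd σ hσ

theorem lam2 (X : Cplx Ω Q dim K) (τ : Q) (hτ : τ ∉ R) (hd : 2 ≤ dim τ) :
    7 * max (Bbq X R K₀ A ε b ω Lf Lg τ * Lf τ) (1 / uq C wt δ τ) / (2 * b (dim τ)) * Lg τ ≤
      LamN K₀ A ε b ω (dim τ + 1) τ := by
  change _ ≤ Kn K₀ A ε b (dim τ + 1) * ω τ
  have hB : Bbq X R K₀ A ε b ω Lf Lg τ = Kn K₀ A ε b (dim τ) * (A * ω τ / (Lg τ * Lf τ)) :=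
    if_neg hτ
  have hf := N.f0 τ
  have hg := N.g0 τ
  have hbb := N.b0 (dim τ)
  set B := Bbq X R K₀ A ε b ω Lf Lg τ with hBdef
  have e1 : 7 * max (B * Lf τ) (1 / uq C wt δ τ) / (2 * b (dim τ)) * Lg τ =
      7 / (2 * b (dim τ)) * max (B * Lf τ * Lg τ) (1 / uq C wt δ τ * Lg τ) := by
    rw [← max_mul_of_nonneg _ _ hg.le]
    ring
  have e2 : B * Lf τ * Lg τ = Kn K₀ A ε b (dim τ) * (A * ω τ) := by
    rw [hB]
    field_simp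
  have e3 : max (B * Lf τ * Lg τ) (1 / uq C wt δ τ * Lg τ) ≤
      max (Kn K₀ A ε b (dim τ)) 2 * (A * ω τ) := by
    rw [e2, N.u_inv]
    have h5 : 0 ≤ A * ω τ := mul_nonneg N.A0 (N.ω0 τ)
    refine max_le (mul_le_mul_of_nonneg_right (le_max_left _ _) h5) ?_
    have h6 := N.own τ hτ (by omega)
    calc 2 * (Wd C wt τ + δ τ) * Lg τ = 2 * (Lg τ * (Wd C wt τ + δ τ)) := by ring
      _ ≤ 2 * (A * ω τ) := by linarith
      _ ≤ _ := mul_le_mul_of_nonneg_right (le_max_right _ _) h5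
  rw [e1]
  calc 7 / (2 * b (dim τ)) * max (B * Lf τ * Lg τ) (1 / uq C wt δ τ * Lg τ)
      ≤ 7 / (2 * b (dim τ)) * (max (Kn K₀ A ε b (dim τ)) 2 * (A * ω τ)) :=
        mul_le_mul_of_nonneg_left e3 (by positivity)
    _ = (7 * A / (2 * b (dim τ)) * max (Kn K₀ A ε b (dim τ)) 2) * ω τ := by ring
    _ ≤ _ := by
        refine mul_le_mul_of_nonneg_right ?_ (N.ω0 τ)
        rw [Kn_succ]
        exact le_max_of_le_right (le_max_right _ _)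

end Num

/-! ### the mesh, in frames -/

section frames

variable {Y : Type*} [PseudoMetricSpace Y] {wt : J → ℝ} {δ : Q → ℝ} {ω Lf Lg : (E → Y) → Q → ℝ}

/-- the Lipschitz numbers in the frames -/
def LamB (K₀ A ε : ℝ) (b : ℕ → ℝ) (ω : (E → Y) → Q → ℝ) (n : ℕ) (q : Q) (B : E → Y) : ℝ :=
  Kn K₀ A ε b n * ω B q

/-- **THE NUMBERS IN THE ALL-CONE MESH**, in frames. -/
theorem mesh_num (B0 : E → Y) (X : Cplx Ω Q dim K) (N : ∀ B, Num C R wt K₀ A ε b (ω B) δ (Lf B) (Lg B))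
    (hR : ∀ q ∈ R, ∀ p < q, p ∈ R) (H0 : Inv C K R g0 P0 c0)
    (Fr : Q → Set (E → Y)) (hFr : ∀ {σ τ : Q}, σ < τ → Fr τ ⊆ Fr σ)
    (hΛR : ∀ q ∈ R, ∀ B ∈ Fr q, ∀ x, ∀ z ∈ K q,
      LB B (K₀ * ω B q / wt (C.col q x)) (c0 q x) (K q) z)
    (e : ∀ τ, 1 ≤ dim τ → PLEquiv (cube (dim τ)) (K τ))
    (he : ∀ τ ∉ R, ∀ hd : 1 ≤ dim τ, (e τ hd).f '' sph (dim τ) = bdS K τ)
    (hef : ∀ τ ∉ R, ∀ hd : 1 ≤ dim τ, ∀ B ∈ Fr τ, ∀ v ∈ sph (dim τ),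
      MB id B (Lf B τ) (e τ hd).f (sph (dim τ)) v)
    (heg : ∀ τ ∉ R, ∀ hd : 1 ≤ dim τ, ∀ B ∈ Fr τ, ∀ z ∈ K τ,
      MB B id (Lg B τ) (e τ hd).g (K τ) z)
    (k : ∀ τ, C.I τ → ℕ) (hk : ∀ τ ∉ R, dim τ = 1 → Function.Injective (k τ))
    (ord : ∀ τ ∉ R, dim τ = 1 → ∀ x x', x ≠ x' → C.fam (C.col τ x) = C.fam (C.col τ x') →
      (k τ x' < k τ x → C.side τ x x' = 1) ∧ (k τ x < k τ x' → C.side τ x x' = 0))
    (Rl : (∀ q, C.I q → E → ℝ) → ∀ τ, C.I τ → C.I τ → Prop)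
    (hRl : ∀ D g P c (_ : Inv C K D g P c) τ, 2 ≤ dim τ → (∀ σ < τ, σ ∈ D) →
      ∃ kk : C.I τ → ℕ, Function.Injective kk ∧ ∀ x x', Rl c τ x x' → kk x' < kk x)
    (hRI : ∀ c τ x x', Ins C K c τ x x' → Rl c τ x x')
    (Spec : ∀ q, Lam (K q) (C.I q) → Prop)
    (hS0 : ∀ τ ∉ R, dim τ = 0 → ∀ M, Spec τ M)
    (hS1 : ∀ τ ∉ R, dim τ = 1 → ∀ (e : PLEquiv (cube 1) (K τ)), e.f '' sph 1 = bdS K τ →
      e.f (fun _ => -1) ∈ K (C.o τ) → ∀ (p : C.I τ → ℝ)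
      (hE : Ed (fun i => 4 * (1 - ε) * uq C wt δ τ * wt (C.col τ i)) p),
      (∀ i j, k τ j < k τ i → p j < p i) → Spec τ ((edgeLam hE).pull e.symm (X.isClosed τ)))
    (hS2 : ∀ D g P c (H : Inv C K D g P c), ∀ τ, (hd : 2 ≤ dim τ) →
      (∀ q ∈ D, Trk C K R g0 P0 c0 b Spec Fr wt (LamB K₀ A ε b ω) (dim τ) q g (P q) (c q)) →
      ∀ hR : τ ∉ R, ∀ (hτ : ∀ σ < τ, σ ∈ D) (κ : ℝ) (ρ : C.I τ → ℝ)
      (Dp : Dep (bdLam H X τ hτ) κ (b (dim τ)) (fun x => uq C wt δ τ * wt (C.col τ x)) ρ),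
      (∀ x x', Rl c τ x x' → ρ x' < ρ x) →
      Spec τ (Dp.fillBall (e τ (by omega)) (he τ hR (by omega))))
    (n : ℕ) : ∃ g P c, Inv C K (R ∪ {q | dim q < n}) g P c ∧
      ∀ q ∈ R ∪ {q | dim q < n}, Trk C K R g0 P0 c0 b Spec Fr wt (LamB K₀ A ε b ω) n q g
        (P q) (c q) := by
  have N0 := N B0
  exact mesh_cone X hR H0 N0.b0 N0.b2 N0.w0 Fr (fun n q B _ => (N B).lam0 n q)
    (fun n q B _ => (N B).lamS n q) hFr hΛR N0.e0 N0.e1 (uq C wt δ) N0.u0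
    (fun τ _ => N0.uS τ) (fun τ B => Lf B τ) (fun τ B => Lg B τ) (fun τ B _ => ((N B).f0 τ).le)
    e he hef heg k hk ord (fun τ hτ hd B _ => (N B).lam1 τ hτ hd)
    (fun τ B => Bbq X R K₀ A ε b (ω B) (Lf B) (Lg B) τ) (fun τ _ h2 B _ => (N B).Bb_le X τ h2)
    (fun τ hτ h2 B _ => (N B).lam2 X τ hτ h2) Rl hRl hRI Spec hS0 hS1 hS2 n

/-- the family functions of the final structure: local Lipschitz constant `Kn n * ω B q` in the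
frame `B` -/
theorem LB_family (N : ∀ B, Num C R wt K₀ A ε b (ω B) δ (Lf B) (Lg B)) {n : ℕ} {D : Set Q}
    {g : Gd E J} {P : ∀ q, C.I q → Set E} {c : ∀ q, C.I q → E → ℝ} (H : Inv C K D g P c)
    {Spec : ∀ q, Lam (K q) (C.I q) → Prop} {Fr : Q → Set (E → Y)}
    (hT : ∀ q ∈ D, Trk C K R g0 P0 c0 b Spec Fr wt (LamB K₀ A ε b ω) n q g (P q) (c q))
    {q : Q} (hq : q ∈ D) {B : E → Y} (hB : B ∈ Fr q) (T : Finset J)
    (hTf : ∀ j ∈ T, ∀ j' ∈ T, C.fam j = C.fam j') {z : E} (hz : z ∈ K q) :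
    LB B (Kn K₀ A ε b n * ω B q) (fun w => ∑ j ∈ T, wt j * g.G j w) (K q) z :=
  H.LB_fam wt (N B).w0 hq T hTf hz ((N B).lam0 n q) fun x => (hT q hq).ll B hB x z hz

end frames

end

end

end Crest.Agent.R96.Nu1_199
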