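/-
helper199, row 96, NUMBERS, part 2: the canonical function `ω` of the cells and its bound by the
weighted number of crossings of the edges.
-/
import Mathlib
import Crest.Agent.R96.Nu1_199

set_option autoImplicit false

open Set Metric Filter Topology

namespace Crest.Agent.R96.Nu2_199

open Crest.Agent.R096.Ce_537 Crest.Agent.R096.Bd_416 Crest.Agent.R96.Nu1_199

open scoped Classical

set_option linter.unusedSectionVars false

noncomputable section

variable {Q : Type} [PartialOrder Q] {dim : Q → ℕ} {J Fam : Type}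
variable {E : Type*} [NormedAddCommGroup E] [NormedSpace ℝ E]
variable {C : Cmb Q dim J Fam} {K : Q → Set E} {Ω : Set E}

/-- iterated numbers: own number `m q` plus the numbers of the faces times `a q = Lg q * Lf q` -/
def om (X : Cplx Ω Q dim K) (a m : Q → ℝ) : ℕ → Q → ℝ
  | 0, q => m q
  | n + 1, q => m q + ∑ σ ∈ (X.finite_below q).toFinset, a q * om X a m n σ

variable (X : Cplx Ω Q dim K) {a m : Q → ℝ}

theorem om_nonneg (ha : ∀ q, 0 ≤ a q) (hm : ∀ q, 0 ≤ m q) : ∀ n q, 0 ≤ om X a m n q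
  | 0, q => hm q
  | n + 1, q => add_nonneg (hm q) (Finset.sum_nonneg fun σ _ =>
      mul_nonneg (ha q) (om_nonneg ha hm n σ))

theorem om_mono_succ (ha : ∀ q, 0 ≤ a q) (hm : ∀ q, 0 ≤ m q) :
    ∀ n q, om X a m n q ≤ om X a m (n + 1) q
  | 0, q => by
    change m q ≤ m q + _
    exact le_add_of_nonneg_right (Finset.sum_nonneg fun σ _ =>
      mul_nonneg (ha q) (om_nonneg X ha hm 0 σ))
  | n + 1, q => by
    change m q + _ ≤ m q + _
    gcongr with σ
    · exact ha q
    · exact om_mono_succ ha hm n σ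

theorem om_mono (ha : ∀ q, 0 ≤ a q) (hm : ∀ q, 0 ≤ m q) {n n' : ℕ} (h : n ≤ n') (q : Q) :
    om X a m n q ≤ om X a m n' q := by
  induction h with
  | refl => exact le_rfl
  | step _ ih => exact ih.trans (om_mono_succ X ha hm _ q)

theorem le_om (ha : ∀ q, 0 ≤ a q) (hm : ∀ q, 0 ≤ m q) (n : ℕ) (q : Q) : m q ≤ om X a m n q :=
  om_mono X ha hm (Nat.zero_le n) q

theorem face_om (ha : ∀ q, 0 ≤ a q) (hm : ∀ q, 0 ≤ m q) {σ τ : Q} (h : σ < τ) :
    a τ * om X a m (dim σ) σ ≤ om X a m (dim τ) τ := by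
  have h1 : dim σ < dim τ := X.mono τ σ h
  obtain ⟨d, hd⟩ : ∃ d, dim τ = d + 1 := ⟨dim τ - 1, by omega⟩
  rw [hd]
  change _ ≤ m τ + ∑ σ ∈ (X.finite_below τ).toFinset, a τ * om X a m d σ
  have h2 : a τ * om X a m (dim σ) σ ≤ a τ * om X a m d σ :=
    mul_le_mul_of_nonneg_left (om_mono X ha hm (by omega) σ) (ha τ)
  refine h2.trans ?_
  have h3 : a τ * om X a m d σ ≤ ∑ σ ∈ (X.finite_below τ).toFinset, a τ * om X a m d σ := by
    refine Finset.single_le_sum (f := fun σ => a τ * om X a m d σ)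
      (fun σ _ => mul_nonneg (ha τ) (om_nonneg X ha hm d σ)) ?_
    rw [Finite.mem_toFinset]
    exact h
  linarith [hm τ]

/-- **the bound**: `α` bounds `a`, `M` bounds `m` on all faces of `q`, `q` has at most `N` faces -/
theorem om_le {q : Q} {α M : ℝ} {N : ℕ} (ha : ∀ q, 0 ≤ a q) (hm : ∀ q, 0 ≤ m q)
    (hα : ∀ σ ≤ q, a σ ≤ α) (hM : ∀ σ ≤ q, m σ ≤ M)
    (hN : (X.finite_below q).toFinset.card ≤ N) :
    ∀ n, ∀ σ ≤ q, om X a m n σ ≤ (1 + N * α) ^ n * M := by
  have hα0 : 0 ≤ α := (ha q).trans (hα q le_rfl)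
  have hM0 : 0 ≤ M := (hm q).trans (hM q le_rfl)
  intro n
  induction n with
  | zero =>
    intro σ hσ
    rw [pow_zero, one_mul]
    exact hM σ hσ
  | succ n ih =>
    intro σ hσ
    change m σ + ∑ ρ ∈ (X.finite_below σ).toFinset, a σ * om X a m n ρ ≤ _
    have h1 : ∑ ρ ∈ (X.finite_below σ).toFinset, a σ * om X a m n ρ ≤
        N * (α * ((1 + N * α) ^ n * M)) := by
      have hcard : ((X.finite_below σ).toFinset.card : ℝ) ≤ N := by
        have h2 : (X.finite_below σ).toFinset ⊆ (X.finite_below q).toFinset := by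
          intro ρ hρ
          rw [Finite.mem_toFinset] at hρ ⊢
          exact lt_of_lt_of_le (show ρ < σ from hρ) hσ
        exact_mod_cast (Finset.card_le_card h2).trans hN
      calc ∑ ρ ∈ (X.finite_below σ).toFinset, a σ * om X a m n ρ
          ≤ ∑ _ρ ∈ (X.finite_below σ).toFinset, α * ((1 + N * α) ^ n * M) := by
            refine Finset.sum_le_sum fun ρ hρ => ?_
            rw [Finite.mem_toFinset] at hρ
            have hρ' : ρ ≤ q := (show ρ < σ from hρ).le.trans hσ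
            exact mul_le_mul (hα σ hσ) (ih ρ hρ') (om_nonneg X ha hm n ρ) hα0
        _ = (X.finite_below σ).toFinset.card * (α * ((1 + N * α) ^ n * M)) := by
            rw [Finset.sum_const, nsmul_eq_mul]
        _ ≤ _ := mul_le_mul_of_nonneg_right hcard (by positivity)
    have h3 : M ≤ (1 + N * α) ^ n * M := by
      have : 1 ≤ (1 + N * α) ^ n := one_le_pow₀ (by
        have : 0 ≤ (N:ℝ) * α := by positivity
        linarith)
      nlinarith
    calc m σ + ∑ ρ ∈ (X.finite_below σ).toFinset, a σ * om X a m n ρ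
        ≤ M + N * (α * ((1 + N * α) ^ n * M)) := add_le_add (hM σ hσ) h1
      _ ≤ (1 + N * α) ^ n * M + N * (α * ((1 + N * α) ^ n * M)) := by linarith
      _ = (1 + N * α) ^ (n + 1) * M := by ring

/-! ### the canonical choice -/

/-- the canonical function of the cells -/
def omc (X : Cplx Ω Q dim K) (C : Cmb Q dim J Fam) (wt : J → ℝ) (δ Lf Lg : Q → ℝ) (q : Q) : ℝ :=
  om X (fun q => Lg q * Lf q) (fun q => Lg q * (Wd C wt q + δ q)) (dim q) q

variable {R : Set Q} {K₀ ε : ℝ} {b : ℕ → ℝ} {wt : J → ℝ} {δ Lf Lg : Q → ℝ}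

/-- **the canonical function satisfies the hypotheses with `A = 1`** -/
theorem num_omc (hw : ∀ j, 0 < wt j) (hb0 : ∀ n, 0 < b n) (hb2 : ∀ n, b n < 1/2) (hε0 : 0 < ε)
    (hε1 : ε < 1) (hK : 0 ≤ K₀) (hδ : ∀ q, 0 < δ q) (hf : ∀ q, 0 < Lf q) (hg : ∀ q, 0 < Lg q) :
    Num C R wt K₀ 1 ε b (omc X C wt δ Lf Lg) δ Lf Lg := by
  have ha : ∀ q, 0 ≤ Lg q * Lf q := fun q => (mul_pos (hg q) (hf q)).le
  have hm : ∀ q, 0 ≤ Lg q * (Wd C wt q + δ q) := fun q => by
    have := Wd_nonneg (C := C) hw q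
    have := hδ q
    exact mul_nonneg (hg q).le (by linarith)
  refine ⟨hw, hb0, hb2, hε0, hε1, zero_le_one, hK, fun q => om_nonneg X ha hm _ q, hδ, hf, hg,
    fun τ _ _ σ hσ => ?_, fun τ _ _ => ?_⟩
  · rw [one_mul]
    exact face_om X ha hm hσ
  · rw [one_mul]
    exact le_om X ha hm _ τ

/-- the edges of a cell -/
def edg (X : Cplx Ω Q dim K) (q : Q) : Finset Q :=
  (X.finite_below q).toFinset.filter fun σ => dim σ = 1

theorem mem_edg {q e : Q} : e ∈ edg X q ↔ e < q ∧ dim e = 1 := by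
  unfold edg
  rw [Finset.mem_filter, Finite.mem_toFinset]
  rfl

/-- the pieces of a cell of dimension at least two are counted by the points on its edges -/
theorem Wd_le (hw : ∀ j, 0 < wt j) {q : Q}
    (hne : ∀ x : C.I q, ∃ e, ∃ h : e < q, dim e = 1 ∧ ∃ y : C.I e, C.up h y = x) :
    Wd C wt q ≤ ∑ e ∈ edg X q, Wd C wt e := by
  choose e he hd y hy using hne
  have h1 : Wd C wt q = ∑ x : C.I q, wt (C.col (e x) (y x)) := by
    unfold Wd
    refine Finset.sum_congr rfl fun x _ => ?_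
    rw [← C.col_up (he x) (y x), hy x]
  rw [h1]
  have h2 : ∑ e' ∈ edg X q, Wd C wt e' = ∑ p ∈ (edg X q).sigma fun e' => (Finset.univ : Finset (C.I e')),
      wt (C.col p.1 p.2) := by
    rw [Finset.sum_sigma]
    rfl
  rw [h2]
  have hinj : Function.Injective fun x : C.I q => (⟨e x, y x⟩ : Σ e', C.I e') := by
    intro x x' hxx
    have key : ∀ (p p' : Σ e', C.I e') (h : p.1 < q) (h' : p'.1 < q), p = p' →
        C.up h p.2 = C.up h' p'.2 := by
      rintro p p' h h' rfl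
      rfl
    have := key ⟨e x, y x⟩ ⟨e x', y x'⟩ (he x) (he x') hxx
    rw [← hy x, ← hy x']
    exact this
  have h3 : ∑ x : C.I q, wt (C.col (e x) (y x)) =
      ∑ p ∈ (Finset.univ : Finset (C.I q)).map ⟨_, hinj⟩, wt (C.col p.1 p.2) := by
    rw [Finset.sum_map]
    rfl
  rw [h3]
  refine Finset.sum_le_sum_of_subset_of_nonneg ?_ fun p _ _ => (hw _).le
  intro p hp
  rw [Finset.mem_map] at hp
  obtain ⟨x, -, rfl⟩ := hp
  rw [Finset.mem_sigma]
  exact ⟨(mem_edg X).2 ⟨he x, hd x⟩, Finset.mem_univ _⟩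

theorem edg_mono {q σ : Q} (h : σ ≤ q) : edg X σ ⊆ edg X q := by
  intro e he
  rw [mem_edg] at he ⊢
  exact ⟨lt_of_lt_of_le he.1 h, he.2⟩

/-- **BOUND OF THE CANONICAL FUNCTION**: on a cell `q` of size `h` all of whose faces have charts
with `Lf ≤ A h`, `Lg ≤ A / h`, at most `N` faces, errors at most `d`:
`omc q ≤ (1 + N A²)^(dim q) * (A / h) * (Σ_{edges of q} weighted number of points + d)` -/
theorem omc_le (hw : ∀ j, 0 < wt j) (hδ : ∀ q, 0 < δ q) (hf : ∀ q, 0 < Lf q) (hg : ∀ q, 0 < Lg q)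
    {q : Q} (hq : 2 ≤ dim q) {A h d : ℝ} {N : ℕ} (hh : 0 < h) (hA : 0 < A)
    (hfA : ∀ σ ≤ q, Lf σ ≤ A * h) (hgA : ∀ σ ≤ q, Lg σ ≤ A / h) (hd : ∀ σ ≤ q, δ σ ≤ d)
    (hN : (X.finite_below q).toFinset.card ≤ N)
    (hne : ∀ σ ≤ q, 2 ≤ dim σ → ∀ x : C.I σ, ∃ e, ∃ h : e < σ, dim e = 1 ∧
      ∃ y : C.I e, C.up h y = x) :
    omc X C wt δ Lf Lg q ≤ (1 + N * A ^ 2) ^ dim q * ((A / h) * (∑ e ∈ edg X q, Wd C wt e + d)) := by
  have ha : ∀ q, 0 ≤ Lg q * Lf q := fun q => (mul_pos (hg q) (hf q)).le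
  have hm : ∀ q, 0 ≤ Lg q * (Wd C wt q + δ q) := fun q => by
    have := Wd_nonneg (C := C) hw q
    have := hδ q
    exact mul_nonneg (hg q).le (by linarith)
  refine om_le X ha hm (α := A ^ 2) (fun σ hσ => ?_) (fun σ hσ => ?_) hN (dim q) q le_rfl
  · calc Lg σ * Lf σ ≤ (A / h) * (A * h) :=
          mul_le_mul (hgA σ hσ) (hfA σ hσ) (hf σ).le (by positivity)
      _ = A ^ 2 := by field_simp
  · have hW : Wd C wt σ ≤ ∑ e ∈ edg X q, Wd C wt e := by
      have hS : ∀ e ∈ edg X q, 0 ≤ Wd C wt e := fun e _ => Wd_nonneg hw e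
      rcases Nat.lt_or_ge (dim σ) 2 with h1 | h1
      · rcases Nat.lt_or_ge (dim σ) 1 with h2 | h2
        · have h0 : dim σ = 0 := by omega
          have := C.vert σ h0
          unfold Wd
          rw [Finset.univ_eq_empty, Finset.sum_empty]
          exact Finset.sum_nonneg hS
        · have h0 : dim σ = 1 := by omega
          have hlt : σ < q := lt_of_le_of_ne hσ (by rintro rfl; omega)
          exact Finset.single_le_sum (f := fun e => Wd C wt e) hS ((mem_edg X).2 ⟨hlt, h0⟩)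
      · exact (Wd_le X hw (hne σ hσ h1)).trans
          (Finset.sum_le_sum_of_subset_of_nonneg (edg_mono X hσ) fun e he _ => hS e he)
    have h0 : 0 ≤ Wd C wt σ + δ σ := by
      have := Wd_nonneg (C := C) hw σ
      have := hδ σ
      linarith
    exact mul_le_mul (hgA σ hσ) (add_le_add hW (hd σ hσ)) h0 (by positivity)

end

end Crest.Agent.R96.Nu2_199
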