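/-
helper199, row 96, NUMBERS, part 3: charts of the cells with Lipschitz constants; finitely many
shapes up to similarity.
-/
import Mathlib
import Crest.Agent.R096.Bd17_416
import Crest.Agent.R096.Msh3_715

set_option autoImplicit false

open Set Metric Filter Topology

namespace Crest.Agent.R96.Nu3_199

open Crest.Agent.R096.Ce_537 Crest.Agent.R096.Bd_416

noncomputable section

variable {E F : Type*} [NormedAddCommGroup E] [NormedSpace ℝ E] [NormedAddCommGroup F]
  [NormedSpace ℝ F]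

/-! ### piecewise linear maps are locally Lipschitz with one constant -/

theorem PLOn_LM [FiniteDimensional ℝ E] {f : E → F} {K : Set E} (h : PLOn f K) :
    ∃ L : ℝ, 0 < L ∧ ∀ x ∈ K, LM L f K x := by
  obtain ⟨hc, S, hS⟩ := h
  set L : ℝ := 1 + ∑ g ∈ S, ‖LinearMap.toContinuousLinearMap g.linear‖ with hL
  have hL0 : 0 < L := by
    have : 0 ≤ ∑ g ∈ S, ‖LinearMap.toContinuousLinearMap g.linear‖ :=
      Finset.sum_nonneg fun _ _ => norm_nonneg _
    linarith
  refine ⟨L, hL0, fun x hx => ?_⟩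
  have hgc : ∀ g : E →ᵃ[ℝ] F, Continuous g := fun g => g.continuous_of_finiteDimensional
  have h1 : ∀ᶠ y in 𝓝[K] x, ∀ g ∈ S, g x ≠ f x → g y ≠ f y := by
    rw [Filter.eventually_all_finset]
    intro g _
    by_cases hgx : g x = f x
    · exact Eventually.of_forall fun y h => absurd hgx h
    · have h2 : ContinuousWithinAt (fun y => g y - f y) K x :=
        (hgc g).continuousWithinAt.sub (hc x hx)
      have h3 : ∀ᶠ y in 𝓝[K] x, g y - f y ≠ 0 :=
        h2.eventually_ne (sub_ne_zero.2 hgx)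
      filter_upwards [h3] with y hy _
      exact sub_ne_zero.1 hy
  filter_upwards [h1, self_mem_nhdsWithin] with y hy hyK
  obtain ⟨g, hg, hgy⟩ := hS y hyK
  have hgx : g x = f x := by
    by_contra hne
    exact hy g hg hne hgy.symm
  rw [hgy, ← hgx, dist_eq_norm, dist_eq_norm]
  have h4 : g y - g x = LinearMap.toContinuousLinearMap g.linear (y - x) := by
    rw [← vsub_eq_sub (g y) (g x), ← AffineMap.linearMap_vsub, vsub_eq_sub]
    rfl
  rw [h4]
  refine (ContinuousLinearMap.le_opNorm _ _).trans ?_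
  refine mul_le_mul_of_nonneg_right ?_ (norm_nonneg _)
  have := Finset.single_le_sum (f := fun g : E →ᵃ[ℝ] F => ‖LinearMap.toContinuousLinearMap g.linear‖)
    (fun _ _ => norm_nonneg _) hg
  linarith

/-! ### charts with constants -/

/-- `P` (dimension `n`, boundary `dP`) has a chart with the constants `A * h` and `A / h` -/
def Cht (n : ℕ) (A h : ℝ) (P dP : Set E) : Prop :=
  ∃ e : PLEquiv (cube n) P, e.f '' sph n = dP ∧ (∀ x ∈ cube n, LM (A * h) e.f (cube n) x) ∧
    ∀ z ∈ P, LM (A / h) e.g P z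

theorem LM.mono_const {X Y : Type*} [PseudoMetricSpace X] [PseudoMetricSpace Y] {L L' : ℝ}
    {g : X → Y} {Z : Set X} {x : X} (h : LM L g Z x) (hL : L ≤ L') : LM L' g Z x := by
  filter_upwards [h] with y hy
  exact hy.trans (mul_le_mul_of_nonneg_right hL dist_nonneg)

theorem Cht.mono {n : ℕ} {A A' h : ℝ} {P dP : Set E} (hc : Cht n A h P dP) (hA : A ≤ A')
    (hh : 0 ≤ h) : Cht n A' h P dP := by
  obtain ⟨e, h1, h2, h3⟩ := hc
  exact ⟨e, h1, fun x hx => LM.mono_const (h2 x hx) (mul_le_mul_of_nonneg_right hA hh),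
    fun z hz => LM.mono_const (h3 z hz) (div_le_div_of_nonneg_right hA hh)⟩

/-- every PL ball has a chart with constants -/
theorem exists_cht [FiniteDimensional ℝ E] {n : ℕ} {P dP : Set E} (hP : IsBall n P dP) {h : ℝ}
    (hh : 0 < h) : ∃ A : ℝ, 0 < A ∧ Cht n A h P dP := by
  obtain ⟨e, he⟩ := hP
  obtain ⟨L1, hL1, h1⟩ := PLOn_LM e.pf
  obtain ⟨L2, hL2, h2⟩ := PLOn_LM e.pg
  refine ⟨max (L1 / h) (L2 * h), lt_max_of_lt_left (by positivity), e, he, fun x hx => ?_,
    fun z hz => ?_⟩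
  · refine LM.mono_const (h1 x hx) ?_
    calc L1 = L1 / h * h := by field_simp
      _ ≤ _ := mul_le_mul_of_nonneg_right (le_max_left _ _) hh.le
  · refine LM.mono_const (h2 z hz) ?_
    rw [le_div_iff₀ hh]
    exact le_max_right _ _

/-- the homothety `y ↦ c + t y` -/
def hom (c : E) (t : ℝ) (y : E) : E := c + t • y

theorem hom_inv {c : E} {t : ℝ} (ht : t ≠ 0) (y : E) :
    hom (-(t⁻¹ • c)) t⁻¹ (hom c t y) = y := by
  unfold hom
  rw [smul_add, smul_smul, inv_mul_cancel₀ ht, one_smul]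
  abel

theorem hom_inv' {c : E} {t : ℝ} (ht : t ≠ 0) (y : E) :
    hom c t (hom (-(t⁻¹ • c)) t⁻¹ y) = y := by
  unfold hom
  rw [smul_add, smul_neg, smul_smul, smul_smul, mul_inv_cancel₀ ht, one_smul, one_smul]
  abel

theorem hom_injective (c : E) {t : ℝ} (ht : t ≠ 0) : Function.Injective (hom c t) := by
  intro x y h
  rw [← hom_inv (c := c) ht x, h, hom_inv ht]

theorem dist_hom (c : E) (t : ℝ) (x y : E) : dist (hom c t x) (hom c t y) = |t| * dist x y := by
  unfold hom
  rw [dist_add_left, dist_smul₀, Real.norm_eq_abs]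

/-- affine map of the homothety -/
def homA (c : E) (t : ℝ) : E →ᵃ[ℝ] E :=
  { toFun := hom c t
    linear := t • LinearMap.id
    map_vadd' := by
      intro p v
      simp only [hom, vadd_eq_add, LinearMap.smul_apply, LinearMap.id_coe, id_eq]
      rw [smul_add]; abel }

theorem continuous_hom (c : E) (t : ℝ) : Continuous (hom c t) := by
  unfold hom; fun_prop

theorem plOn_hom (c : E) (t : ℝ) (K : Set E) : PLOn (hom c t) K :=
  ⟨(continuous_hom c t).continuousOn, {homA c t}, fun _ _ => ⟨_, Finset.mem_singleton_self _, rfl⟩⟩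

/-- the homothety as a PL equivalence -/
def homE (c : E) {t : ℝ} (ht : t ≠ 0) (P : Set E) : PLEquiv P (hom c t '' P) where
  f := hom c t
  g := hom (-(t⁻¹ • c)) t⁻¹
  pf := plOn_hom _ _ _
  pg := plOn_hom _ _ _
  mf := fun _ hx => ⟨_, hx, rfl⟩
  mg := by
    rintro _ ⟨x, hx, rfl⟩
    rw [hom_inv ht]; exact hx
  li := fun x _ => hom_inv ht x
  ri := fun y _ => hom_inv' ht y

/-- **charts scale** -/
theorem Cht.hom {n : ℕ} {A h : ℝ} {P dP : Set E} (hc : Cht n A h P dP) (hA : 0 ≤ A) (hh : 0 < h)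
    (c : E) {t : ℝ} (ht : 0 < t) :
    Cht n A (t * h) (Nu3_199.hom c t '' P) (Nu3_199.hom c t '' dP) := by
  obtain ⟨e, h1, h2, h3⟩ := hc
  refine ⟨e.trans (homE c ht.ne' P), ?_, fun x hx => ?_, fun z hz => ?_⟩
  · rw [← h1, ← image_comp]; rfl
  · change LM (A * (t * h)) (fun x => Nu3_199.hom c t (e.f x)) (cube n) x
    filter_upwards [h2 x hx] with y hy
    rw [dist_hom, abs_of_pos ht]
    nlinarith
  · obtain ⟨w, hw, rfl⟩ := hz
    change LM (A / (t * h)) (fun z => e.g (Nu3_199.hom (-(t⁻¹ • c)) t⁻¹ z))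
      (Nu3_199.hom c t '' P) (Nu3_199.hom c t w)
    have hm : MapsTo (Nu3_199.hom (-(t⁻¹ • c)) t⁻¹) (Nu3_199.hom c t '' P) P := by
      rintro _ ⟨x, hx, rfl⟩
      rw [hom_inv ht.ne']; exact hx
    have h4 : LM t⁻¹ (Nu3_199.hom (-(t⁻¹ • c)) t⁻¹) (Nu3_199.hom c t '' P)
        (Nu3_199.hom c t w) := by
      apply LM.of_forall
      intro y _
      rw [dist_hom, abs_of_pos (inv_pos.2 ht)]
    have h5 : LM (A / h) e.g P (Nu3_199.hom (-(t⁻¹ • c)) t⁻¹ (Nu3_199.hom c t w)) := by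
      rw [hom_inv ht.ne']; exact h3 w hw
    have h6 := LM.comp (g := Nu3_199.hom (-(t⁻¹ • c)) t⁻¹) (g' := e.g) (by positivity) h5 h4 hm
    refine LM.mono_const h6 (le_of_eq ?_)
    field_simp

/-- linear isomorphisms -/
theorem Cht.linear [FiniteDimensional ℝ E] {n : ℕ} {A h : ℝ} {P dP : Set E}
    (hc : Cht n A h P dP) (hA : 0 ≤ A) (hh : 0 < h) (T : E ≃L[ℝ] F) {M : ℝ} (hM1 : ‖(T : E →L[ℝ] F)‖ ≤ M)
    (hM2 : ‖(T.symm : F →L[ℝ] E)‖ ≤ M) : Cht n (A * M) h (T '' P) (T '' dP) := by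
  obtain ⟨e, h1, h2, h3⟩ := hc
  have hM : 0 ≤ M := (norm_nonneg _).trans hM1
  let eT : PLEquiv P (T '' P) :=
    { f := T
      g := T.symm
      pf := ⟨T.continuous.continuousOn, {(T : E →ₗ[ℝ] F).toAffineMap},
        fun _ _ => ⟨_, Finset.mem_singleton_self _, rfl⟩⟩
      pg := ⟨T.symm.continuous.continuousOn, {(T.symm : F →ₗ[ℝ] E).toAffineMap},
        fun _ _ => ⟨_, Finset.mem_singleton_self _, rfl⟩⟩
      mf := fun _ hx => ⟨_, hx, rfl⟩
      mg := by
        rintro _ ⟨x, hx, rfl⟩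
        rw [T.symm_apply_apply]; exact hx
      li := fun x _ => T.symm_apply_apply x
      ri := fun y _ => T.apply_symm_apply y }
  refine ⟨e.trans eT, ?_, fun x hx => ?_, fun z hz => ?_⟩
  · rw [← h1, ← image_comp]; rfl
  · change LM (A * M * h) (fun x => T (e.f x)) (cube n) x
    filter_upwards [h2 x hx] with y hy
    have h4 : dist (T (e.f y)) (T (e.f x)) ≤ M * dist (e.f y) (e.f x) := by
      rw [dist_eq_norm, dist_eq_norm, ← map_sub]
      exact ((T : E →L[ℝ] F).le_opNorm _).trans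
        (mul_le_mul_of_nonneg_right hM1 (norm_nonneg _))
    refine h4.trans ?_
    calc M * dist (e.f y) (e.f x) ≤ M * (A * h * dist y x) := mul_le_mul_of_nonneg_left hy hM
      _ = A * M * h * dist y x := by ring
  · obtain ⟨w, hw, rfl⟩ := hz
    change LM (A * M / h) (fun z => e.g (T.symm z)) (T '' P) (T w)
    have hm : MapsTo T.symm (T '' P) P := by
      rintro _ ⟨x, hx, rfl⟩
      rw [T.symm_apply_apply]; exact hx
    have h4 : LM M T.symm (T '' P) (T w) := by
      apply LM.of_forall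
      intro y _
      rw [dist_eq_norm, dist_eq_norm, ← map_sub]
      exact ((T.symm : F →L[ℝ] E).le_opNorm _).trans
        (mul_le_mul_of_nonneg_right hM2 (norm_nonneg _))
    have h5 : LM (A / h) e.g P (T.symm (T w)) := by
      rw [T.symm_apply_apply]; exact h3 w hw
    have h6 := LM.comp (g := T.symm) (g' := e.g) (by positivity) h5 h4 hm
    refine LM.mono_const h6 (le_of_eq ?_)
    ring

/-! ### the relative interior, intrinsically -/

/-- the algebraic relative interior -/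
def ri (K : Set E) : Set E := {y | y ∈ K ∧ ∀ z ∈ K, ∃ t : ℝ, 0 < t ∧ y + t • (y - z) ∈ K}

theorem ri_hom (c : E) {t : ℝ} (ht : 0 < t) (K : Set E) : ri (hom c t '' K) = hom c t '' ri K := by
  ext y
  constructor
  · rintro ⟨⟨x, hx, rfl⟩, h⟩
    refine ⟨x, ⟨hx, fun z hz => ?_⟩, rfl⟩
    obtain ⟨s, hs, w, hw, hw'⟩ := h (hom c t z) ⟨z, hz, rfl⟩
    refine ⟨s, hs, ?_⟩
    have : w = x + s • (x - z) := by
      apply hom_injective c ht.ne'
      rw [hw']
      unfold hom
      simp only [smul_add, smul_sub, smul_smul]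
      rw [mul_comm s t]
      abel
    rwa [← this]
  · rintro ⟨x, ⟨hx, h⟩, rfl⟩
    refine ⟨⟨x, hx, rfl⟩, ?_⟩
    rintro _ ⟨z, hz, rfl⟩
    obtain ⟨s, hs, hw⟩ := h z hz
    refine ⟨s, hs, _, hw, ?_⟩
    unfold hom
    simp only [smul_add, smul_sub, smul_smul]
    rw [mul_comm s t]
    abel

open Crest.Agent.R096.Msh_715

variable {Om : Set E} {ι : Type*} {T : Tiling Om ι}

/-- **the open cell is the relative interior of the closed cell** -/
theorem oc_eq_ri {x : E} (hx : x ∈ Om) : T.oc x = ri (T.cc x) := by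
  ext y
  constructor
  · intro hy
    refine ⟨T.oc_sub_cc x hy, fun z hz => ?_⟩
    have hyO : y ∈ Om := T.cc_sub_Om hx (T.oc_sub_cc x hy)
    obtain ⟨r, hr, h⟩ := T.exists_ball_oc hyO
    have hV : y - z ∈ T.V y := by
      rw [T.V_eq_of_mem_oc hx hy]
      exact T.sub_mem_V' (T.oc_sub_cc x hy) hz
    have hoc := T.oc_eq_of_mem hx hy
    set t : ℝ := r / (2 * (‖y - z‖ + 1)) with ht
    have h0 : 0 ≤ ‖y - z‖ := norm_nonneg _
    have htp : 0 < t := by positivity
    refine ⟨t, htp, ?_⟩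
    have h1 : ‖t • (y - z)‖ < r := by
      rw [norm_smul, Real.norm_eq_abs, abs_of_pos htp, ht, div_mul_eq_mul_div,
        div_lt_iff₀ (by positivity)]
      nlinarith
    have h2 := h _ ((T.V y).smul_mem t hV) h1
    rw [hoc] at h2
    exact T.oc_sub_cc x h2
  · rintro ⟨hy, h⟩
    intro i hi f hf
    refine ⟨(hy i hi f hf).1, fun hfy => ?_, (hy i hi f hf).2⟩
    obtain ⟨t, ht, h1⟩ := h x (T.self_mem_cc x)
    have h2 := (h1 i hi f hf).1
    have h3 := hi f hf
    simp only [map_add, map_smul, map_sub, smul_eq_mul] at h2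
    rw [hfy] at h2
    have h4 : f.1 x ≤ f.2 := h3
    nlinarith

/-- the boundary of a cell of a tiling, intrinsically -/
theorem bd_eq (c : T.Cell) : c.set \ c.opn = c.set \ ri c.set := by
  rw [c.set_eq]
  change _ \ T.oc c.pt = _
  rw [oc_eq_ri c.pt_mem]

/-- **CHARTS OF A TILING WITH FINITELY MANY SHAPES** (up to `y ↦ c + t y`): all cells have charts
with the constants `A * h` and `A / h`, `h` = the size of the cell. -/
theorem exists_charts [FiniteDimensional ℝ E] (T : Tiling Om ι) {Sh : Set (Set E)}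
    (hSh : Sh.Finite) {h : T.Cell → ℝ} (hh : ∀ c, 0 < h c)
    {Ce : Set T.Cell} (hs : ∀ c ∈ Ce, ∃ S ∈ Sh, ∃ x : E, c.set = hom x (h c) '' S) :
    ∃ A : ℝ, 0 < A ∧ ∀ c ∈ Ce, Cht c.dim A (h c) c.set (c.set \ c.opn) := by
  classical
  -- the constant of a shape and a dimension
  have h1 : ∀ S : Set E, ∀ n : ℕ, ∃ A : ℝ, 0 < A ∧ (IsBall n S (S \ ri S) → Cht n A 1 S (S \ ri S)) := by
    intro S n
    by_cases hb : IsBall n S (S \ ri S)
    · obtain ⟨A, hA, hc⟩ := exists_cht hb one_pos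
      exact ⟨A, hA, fun _ => hc⟩
    · exact ⟨1, one_pos, fun h => absurd h hb⟩
  choose AA hAA hCh using h1
  set N := Module.finrank ℝ E
  set A : ℝ := 1 + ∑ S ∈ hSh.toFinset, ∑ n ∈ Finset.range (N + 1), AA S n with hAdef
  have hpos : 0 ≤ ∑ S ∈ hSh.toFinset, ∑ n ∈ Finset.range (N + 1), AA S n :=
    Finset.sum_nonneg fun S _ => Finset.sum_nonneg fun n _ => (hAA S n).le
  have hA0 : 0 < A := by linarith
  refine ⟨A, hA0, fun c hc => ?_⟩
  obtain ⟨S, hS, x, hx⟩ := hs c hc
  have hb : IsBall c.dim c.set (c.set \ ri c.set) := by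
    have h2 := T.isBall_cell c.pt_mem
    rw [← c.set_eq] at h2
    change IsBall c.dim c.set (c.set \ c.opn) at h2
    rwa [bd_eq] at h2
  have himg : c.set \ ri c.set = hom x (h c) '' (S \ ri S) := by
    rw [hx, ri_hom x (hh c), ← image_sdiff (hom_injective x (hh c).ne')]
  -- the shape itself is a ball
  have hbS : IsBall c.dim S (S \ ri S) := by
    obtain ⟨e, he⟩ := hb
    have hinv : hom (-((h c)⁻¹ • x)) (h c)⁻¹ '' c.set = S := by
      rw [hx, ← image_comp]
      have : hom (-((h c)⁻¹ • x)) (h c)⁻¹ ∘ hom x (h c) = id := by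
        funext y; exact hom_inv (hh c).ne' y
      rw [this, image_id]
    have hinv2 : hom (-((h c)⁻¹ • x)) (h c)⁻¹ '' (c.set \ ri c.set) = S \ ri S := by
      rw [himg, ← image_comp]
      have : hom (-((h c)⁻¹ • x)) (h c)⁻¹ ∘ hom x (h c) = id := by
        funext y; exact hom_inv (hh c).ne' y
      rw [this, image_id]
    have h3 : IsBall c.dim (hom (-((h c)⁻¹ • x)) (h c)⁻¹ '' c.set)
        (hom (-((h c)⁻¹ • x)) (h c)⁻¹ '' (c.set \ ri c.set)) := by
      refine ⟨e.trans (homE _ (inv_ne_zero (hh c).ne') _), ?_⟩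
      rw [← he, ← image_comp]; rfl
    rwa [hinv, hinv2] at h3
  have h4 := hCh S c.dim hbS
  have hle : AA S c.dim ≤ A := by
    have hd : c.dim ∈ Finset.range (N + 1) :=
      Finset.mem_range.2 (Nat.lt_succ_of_le (T.dim_le_finrank _))
    have h5 : AA S c.dim ≤ ∑ n ∈ Finset.range (N + 1), AA S n :=
      Finset.single_le_sum (f := fun n => AA S n) (fun n _ => (hAA S n).le) hd
    have h6 : ∑ n ∈ Finset.range (N + 1), AA S n ≤
        ∑ S ∈ hSh.toFinset, ∑ n ∈ Finset.range (N + 1), AA S n :=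
      Finset.single_le_sum (f := fun S => ∑ n ∈ Finset.range (N + 1), AA S n)
        (fun S _ => Finset.sum_nonneg fun n _ => (hAA S n).le) (hSh.mem_toFinset.2 hS)
    linarith
  have h7 := (h4.mono hle zero_le_one).hom hA0.le one_pos x (hh c)
  rw [mul_one, ← himg, ← hx] at h7
  rwa [bd_eq]

end

end Crest.Agent.R96.Nu3_199
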