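/-
helper199, row 96, NUMBERS, part 4: charts with Lipschitz constants in ALL affine frames; the
constant depends on the shape of the cell in the frame only.
-/
import Mathlib
import Crest.Agent.R096.Bd21_416
import Crest.Agent.R96.Nu3_199

set_option autoImplicit false

open Set Metric Filter Topology

namespace Crest.Agent.R96.Nu4_199

open Crest.Agent.R096.Ce_537 Crest.Agent.R096.Bd_416 Crest.Agent.R96.Nu3_199

noncomputable section

variable {E : Type*} [NormedAddCommGroup E] [NormedSpace ℝ E]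

/-! ### affine maps of a convex body -/

/-- the relative interior is affinely natural -/
theorem ri_affine (β : E ≃ᵃ[ℝ] E) (K : Set E) : ri (β '' K) = β '' ri K := by
  have key : ∀ (x z : E) (s : ℝ), β (x + s • (x - z)) = β x + s • (β x - β z) := by
    intro x z s
    have h1 : β (x + s • (x - z)) = β (s • (x - z) +ᵥ x) := by rw [vadd_eq_add, add_comm]
    rw [h1, β.map_vadd, vadd_eq_add, add_comm, map_smul]
    congr 2
    exact (β : E →ᵃ[ℝ] E).linearMap_vsub x z
  ext y
  constructor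
  · rintro ⟨⟨x, hx, rfl⟩, h⟩
    refine ⟨x, ⟨hx, fun z hz => ?_⟩, rfl⟩
    obtain ⟨s, hs, w, hw, hw'⟩ := h (β z) ⟨z, hz, rfl⟩
    refine ⟨s, hs, ?_⟩
    rw [← key] at hw'
    rw [← β.injective hw']
    exact hw
  · rintro ⟨x, ⟨hx, h⟩, rfl⟩
    refine ⟨⟨x, hx, rfl⟩, ?_⟩
    rintro _ ⟨z, hz, rfl⟩
    obtain ⟨s, hs, hw⟩ := h z hz
    exact ⟨s, hs, _, hw, key x z s⟩

/-- a convex body contains a ball of its own dimension -/
theorem exists_rad [FiniteDimensional ℝ E] {S : Set E} (hc : Convex ℝ S) (hne : S.Nonempty) :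
    ∃ c ∈ S, ∃ r : ℝ, 0 < r ∧ ∀ v ∈ (affineSpan ℝ S).direction, ‖v‖ ≤ r → c + v ∈ S := by
  obtain ⟨c, hc'⟩ := hne.intrinsicInterior hc
  rw [mem_intrinsicInterior] at hc'
  obtain ⟨c', hc1, rfl⟩ := hc'
  have hcS : (c' : E) ∈ S := (interior_subset hc1 : c' ∈ ((↑) : affineSpan ℝ S → E) ⁻¹' S)
  rw [mem_interior_iff_mem_nhds, Metric.mem_nhds_iff] at hc1
  obtain ⟨r, hr, hball⟩ := hc1
  refine ⟨c', hcS, r / 2, by linarith, fun v hv hvr => ?_⟩
  have h1 : (v +ᵥ (c' : E)) ∈ affineSpan ℝ S := AffineSubspace.vadd_mem_of_mem_direction hv c'.2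
  have h2 : (⟨v +ᵥ (c' : E), h1⟩ : affineSpan ℝ S) ∈ ball c' r := by
    rw [mem_ball, Subtype.dist_eq, dist_eq_norm]
    simp only [vadd_eq_add, add_sub_cancel_right]
    linarith
  have h3 := hball h2
  rw [mem_preimage] at h3
  rw [add_comm]
  exact h3

/-- **an affine map of a convex body into a set of diameter `D` is Lipschitz on the body** -/
theorem exists_affine_bound [FiniteDimensional ℝ E] {S : Set E} (hc : Convex ℝ S)
    (hne : S.Nonempty) : ∃ r : ℝ, 0 < r ∧ ∀ (γ : E →ᵃ[ℝ] E) (K : Set E) (D : ℝ),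
      MapsTo γ S K → (∀ x ∈ K, ∀ y ∈ K, dist x y ≤ D) → ∀ x ∈ S, ∀ y ∈ S,
        dist (γ x) (γ y) ≤ D / r * dist x y := by
  obtain ⟨c, hcS, r, hr, h⟩ := exists_rad hc hne
  refine ⟨r, hr, fun γ K D hm hD x hx y hy => ?_⟩
  have hlin : ∀ u v : E, γ u - γ v = γ.linear (u - v) := by
    intro u v
    rw [← vsub_eq_sub (γ u), ← AffineMap.linearMap_vsub, vsub_eq_sub]
  rcases eq_or_ne x y with rfl | hxy
  · simp
  have h0 : 0 < dist x y := dist_pos.2 hxy
  have hn0 : 0 < ‖x - y‖ := by rwa [← dist_eq_norm]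
  set v : E := (r / ‖x - y‖) • (x - y) with hv
  have hvd : v ∈ (affineSpan ℝ S).direction := by
    refine Submodule.smul_mem _ _ ?_
    rw [← vsub_eq_sub]
    exact AffineSubspace.vsub_mem_direction (subset_affineSpan ℝ S hx) (subset_affineSpan ℝ S hy)
  have hvn : ‖v‖ = r := by
    rw [hv, norm_smul, Real.norm_eq_abs, abs_of_pos (by positivity)]
    field_simp
  have h1 := h v hvd hvn.le
  have h2 := hD _ (hm h1) _ (hm hcS)
  rw [dist_eq_norm, hlin, add_sub_cancel_left, hv, map_smul, norm_smul, Real.norm_eq_abs,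
    abs_of_pos (by positivity)] at h2
  rw [dist_eq_norm, dist_eq_norm, hlin]
  rw [div_mul_eq_mul_div, div_le_iff₀ hn0] at h2
  rw [div_mul_eq_mul_div, le_div_iff₀ hr]
  linarith

/-- **affine isomorphisms of one convex body onto another are uniformly bi-Lipschitz** -/
theorem exists_iso_bound [FiniteDimensional ℝ E] {S K : Set E} (hS : Convex ℝ S)
    (hSc : IsCompact S) (hSn : S.Nonempty) (hK : Convex ℝ K) (hKc : IsCompact K)
    (hKn : K.Nonempty) : ∃ M : ℝ, 0 < M ∧ ∀ γ : E ≃ᵃ[ℝ] E, γ '' S = K →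
      (∀ x ∈ S, ∀ y ∈ S, dist (γ x) (γ y) ≤ M * dist x y) ∧
      (∀ x ∈ S, ∀ y ∈ S, dist x y ≤ M * dist (γ x) (γ y)) := by
  obtain ⟨r, hr, h1⟩ := exists_affine_bound hS hSn
  obtain ⟨r', hr', h2⟩ := exists_affine_bound hK hKn
  have hdS : ∀ x ∈ S, ∀ y ∈ S, dist x y ≤ diam S := fun x hx y hy =>
    dist_le_diam_of_mem hSc.isBounded hx hy
  have hdK : ∀ x ∈ K, ∀ y ∈ K, dist x y ≤ diam K := fun x hx y hy =>
    dist_le_diam_of_mem hKc.isBounded hx hy
  refine ⟨1 + diam K / r + diam S / r', ?_, fun γ hγ => ⟨fun x hx y hy => ?_, fun x hx y hy => ?_⟩⟩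
  · have := diam_nonneg (s := K)
    have := diam_nonneg (s := S)
    positivity
  · have h3 := h1 (γ : E →ᵃ[ℝ] E) K (diam K) (fun z hz => by rw [← hγ]; exact mem_image_of_mem _ hz)
      hdK x hx y hy
    refine h3.trans (mul_le_mul_of_nonneg_right ?_ dist_nonneg)
    have : 0 ≤ diam S / r' := div_nonneg diam_nonneg hr'.le
    linarith
  · have hm : MapsTo (γ.symm : E →ᵃ[ℝ] E) K S := by
      intro z hz
      rw [← hγ] at hz
      obtain ⟨w, hw, rfl⟩ := hz
      change γ.symm (γ w) ∈ S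
      rw [γ.symm_apply_apply]
      exact hw
    have h3 := h2 (γ.symm : E →ᵃ[ℝ] E) S (diam S) hm hdS (γ x)
      (by rw [← hγ]; exact mem_image_of_mem _ hx) (γ y) (by rw [← hγ]; exact mem_image_of_mem _ hy)
    change dist (γ.symm (γ x)) (γ.symm (γ y)) ≤ _ at h3
    rw [γ.symm_apply_apply, γ.symm_apply_apply] at h3
    refine h3.trans (mul_le_mul_of_nonneg_right ?_ dist_nonneg)
    have : 0 ≤ diam K / r := div_nonneg diam_nonneg hr.le
    linarith

/-! ### representatives of the shapes -/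

/-- affine equivalence of sets -/
def affSetoid (E : Type*) [NormedAddCommGroup E] [NormedSpace ℝ E] : Setoid (Set E) where
  r S S' := ∃ β : E ≃ᵃ[ℝ] E, β '' S = S'
  iseqv :=
    { refl := fun S => ⟨AffineEquiv.refl ℝ E, by
        change (fun x => x) '' S = S
        exact image_id' S⟩
      symm := by
        rintro S S' ⟨β, rfl⟩
        refine ⟨β.symm, ?_⟩
        rw [← image_comp]
        have : (β.symm : E → E) ∘ β = id := by funext x; exact β.symm_apply_apply x
        rw [this, image_id]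
      trans := by
        rintro S S' S'' ⟨β, rfl⟩ ⟨γ, rfl⟩
        refine ⟨β.trans γ, ?_⟩
        rw [← image_comp]
        rfl }

/-- the representative of a shape -/
def rp (S : Set E) : Set E := @Quotient.out _ (affSetoid E) (@Quotient.mk _ (affSetoid E) S)

theorem rp_spec (S : Set E) : ∃ β : E ≃ᵃ[ℝ] E, β '' rp S = S :=
  @Quotient.mk_out _ (affSetoid E) S

theorem rp_affine (β : E ≃ᵃ[ℝ] E) (S : Set E) : rp (β '' S) = rp S := by
  unfold rp
  congr 1
  refine Quotient.sound' ?_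
  exact ((affSetoid E).iseqv.symm ⟨β, rfl⟩ : (affSetoid E).r _ _)

/-- an affine isomorphism is a PL homeomorphism -/
def affE [FiniteDimensional ℝ E] (β : E ≃ᵃ[ℝ] E) (P : Set E) : PLEquiv P (β '' P) where
  f := β
  g := β.symm
  pf := ⟨(β : E →ᵃ[ℝ] E).continuous_of_finiteDimensional.continuousOn, {(β : E →ᵃ[ℝ] E)},
    fun _ _ => ⟨_, Finset.mem_singleton_self _, rfl⟩⟩
  pg := ⟨(β.symm : E →ᵃ[ℝ] E).continuous_of_finiteDimensional.continuousOn,
    {(β.symm : E →ᵃ[ℝ] E)}, fun _ _ => ⟨_, Finset.mem_singleton_self _, rfl⟩⟩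
  mf := fun x hx => mem_image_of_mem _ hx
  mg := by
    rintro _ ⟨x, hx, rfl⟩
    change β.symm (β x) ∈ P
    rw [β.symm_apply_apply]
    exact hx
  li := fun x _ => β.symm_apply_apply x
  ri := fun y _ => β.apply_symm_apply y

/-! ### the charts -/

/-- **CHARTS IN ALL AFFINE FRAMES.** There is ONE function `AA` of the dimension and the shape such
that every convex body which is a PL ball has a chart whose constants in the frame `B` are
`AA n (B '' S)`. -/
theorem exists_frame_charts (E : Type*) [NormedAddCommGroup E] [NormedSpace ℝ E]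
    [FiniteDimensional ℝ E] :
    ∃ AA : ℕ → Set E → ℝ, (∀ n S, 0 < AA n S) ∧
      ∀ (n : ℕ) (S : Set E), Convex ℝ S → IsCompact S → S.Nonempty → IsBall n S (S \ ri S) →
        ∃ e : PLEquiv (cube n) S, e.f '' sph n = S \ ri S ∧ ∀ B : E ≃ᵃ[ℝ] E,
          (∀ x ∈ cube n, MB (fun x => x) B (AA n (B '' S)) e.f (cube n) x) ∧
          ∀ z ∈ S, MB B (fun x => x) (AA n (B '' S)) e.g S z := by
  classical
  -- the constant of the chart of a representative
  have h1 : ∀ (n : ℕ) (R : Set E), ∃ (A : ℝ), 0 < A ∧ (IsBall n R (R \ ri R) →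
      Cht n A 1 R (R \ ri R)) := by
    intro n R
    by_cases hb : IsBall n R (R \ ri R)
    · obtain ⟨A, hA, hc⟩ := exists_cht hb one_pos
      exact ⟨A, hA, fun _ => hc⟩
    · exact ⟨1, one_pos, fun h => absurd h hb⟩
  choose CA hCA hC using h1
  -- the constant of the isomorphisms
  have h2 : ∀ S K : Set E, ∃ M : ℝ, 0 < M ∧ (Convex ℝ S → IsCompact S → S.Nonempty →
      ∀ γ : E ≃ᵃ[ℝ] E, γ '' S = K → (∀ x ∈ S, ∀ y ∈ S, dist (γ x) (γ y) ≤ M * dist x y) ∧
      (∀ x ∈ S, ∀ y ∈ S, dist x y ≤ M * dist (γ x) (γ y))) := by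
    intro S K
    by_cases h : Convex ℝ S ∧ IsCompact S ∧ S.Nonempty ∧ ∃ γ : E ≃ᵃ[ℝ] E, γ '' S = K
    · obtain ⟨hS, hSc, hSn, γ, rfl⟩ := h
      obtain ⟨M, hM, h3⟩ := exists_iso_bound hS hSc hSn
        (hS.affine_image (γ : E →ᵃ[ℝ] E))
        (hSc.image (γ : E →ᵃ[ℝ] E).continuous_of_finiteDimensional) (hSn.image _)
      exact ⟨M, hM, fun _ _ _ => h3⟩
    · refine ⟨1, one_pos, fun a b c γ hγ => absurd ⟨a, b, c, γ, hγ⟩ h⟩
  choose MM hMM hM using h2
  refine ⟨fun n K => CA n (rp K) * MM (rp K) K, fun n K => mul_pos (hCA _ _) (hMM _ _), ?_⟩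
  intro n S hS hSc hSn hball
  obtain ⟨β, hβ⟩ := rp_spec S
  set R := rp S with hR
  -- `R` is a convex body and a ball
  have hR1 : β.symm '' S = R := by
    rw [← hβ, ← image_comp]
    have : (β.symm : E → E) ∘ β = id := by funext x; exact β.symm_apply_apply x
    rw [this, image_id]
  have hRc : Convex ℝ R := by
    rw [← hR1]; exact hS.affine_image (β.symm : E →ᵃ[ℝ] E)
  have hRk : IsCompact R := by
    rw [← hR1]; exact hSc.image (β.symm : E →ᵃ[ℝ] E).continuous_of_finiteDimensional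
  have hRn : R.Nonempty := by
    rw [← hR1]; exact hSn.image _
  have hsd : R \ ri R = β.symm '' (S \ ri S) := by
    rw [image_sdiff β.symm.injective, hR1, ← ri_affine, hR1]
  have hRb : IsBall n R (R \ ri R) := by
    obtain ⟨e, he⟩ := hball
    have key : ∀ R' : Set E, β.symm '' S = R' → IsBall n R' (β.symm '' (S \ ri S)) := by
      rintro R' rfl
      refine ⟨e.trans (affE β.symm S), ?_⟩
      rw [← he, ← image_comp]; rfl
    rw [hsd]
    exact key R hR1
  obtain ⟨e, he, hef, heg⟩ := hC n R hRb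
  rw [mul_one] at hef
  rw [div_one] at heg
  -- the chart
  have hmain : ∀ S' : Set E, β '' R = S' → ∃ e' : PLEquiv (cube n) S', (∀ x, e'.f x = β (e.f x)) ∧
      ∀ z, e'.g z = e.g (β.symm z) := by
    rintro S' rfl
    exact ⟨e.trans (affE β R), fun x => rfl, fun z => rfl⟩
  obtain ⟨e', he1, he2⟩ := hmain S hβ
  refine ⟨e', ?_, fun B => ?_⟩
  · have : e'.f '' sph n = β '' (e.f '' sph n) := by
      rw [← image_comp]
      exact image_congr fun x _ => he1 x
    rw [this, he, image_sdiff β.injective, hβ, ← ri_affine, hβ]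
  · have hrp : rp (B '' S) = R := by rw [rp_affine]
    have hBβ : (β.trans B) '' R = B '' S := by
      rw [← hβ, ← image_comp]; rfl
    obtain ⟨hm1, hm2⟩ := hM R (B '' S) hRc hRk hRn (β.trans B) hBβ
    simp only [hrp]
    have hCA0 := hCA n R
    have hMM0 := hMM R (B '' S)
    refine ⟨fun x hx => ?_, fun z hz => ?_⟩
    · filter_upwards [hef x hx, self_mem_nhdsWithin] with y hy hyc
      rw [he1, he1]
      refine (hm1 _ (e.mf hyc) _ (e.mf hx)).trans ?_
      calc MM R (B '' S) * dist (e.f y) (e.f x) ≤ MM R (B '' S) * (CA n R * dist y x) :=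
            mul_le_mul_of_nonneg_left hy hMM0.le
        _ = CA n R * MM R (B '' S) * dist y x := by ring
    · have hz' : β.symm z ∈ R := by rw [← hR1]; exact mem_image_of_mem _ hz
      have hcont : Tendsto β.symm (𝓝[S] z) (𝓝[R] (β.symm z)) := by
        refine tendsto_nhdsWithin_iff.2 ⟨?_, ?_⟩
        · exact ((β.symm : E →ᵃ[ℝ] E).continuous_of_finiteDimensional.tendsto z).mono_left
            nhdsWithin_le_nhds
        · filter_upwards [self_mem_nhdsWithin] with w hw
          rw [← hR1]; exact mem_image_of_mem _ hw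
      filter_upwards [hcont.eventually (heg _ hz'), self_mem_nhdsWithin] with w hw hwS
      rw [he2, he2]
      refine hw.trans ?_
      have hw' : β.symm w ∈ R := by rw [← hR1]; exact mem_image_of_mem _ hwS
      have h5 := hm2 _ hw' _ hz'
      have h6 : ∀ v, (β.trans B) (β.symm v) = B v := by
        intro v
        change B (β (β.symm v)) = B v
        rw [β.apply_symm_apply]
      rw [h6, h6] at h5
      calc CA n R * dist (β.symm w) (β.symm z) ≤ CA n R * (MM R (B '' S) * dist (B w) (B z)) :=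
            mul_le_mul_of_nonneg_left h5 hCA0.le
        _ = CA n R * MM R (B '' S) * dist (B w) (B z) := by ring

end

end Crest.Agent.R96.Nu4_199
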