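/-
helper199, row 96, NUMBERS, part 5: the numbers of the mesh as a FUNCTION OF THE SHAPE of the cells.
-/
import Mathlib
import Crest.Agent.R96.Nu2_199
import Crest.Agent.R96.Nu4_199

set_option autoImplicit false

open Set Metric Filter Topology

namespace Crest.Agent.R96.Nu5_199

open Crest.Agent.R096.Ce_537 Crest.Agent.R096.Bd_416 Crest.Agent.R96.Nu1_199
open Crest.Agent.R96.Nu2_199 Crest.Agent.R96.Nu3_199 Crest.Agent.R96.Nu4_199

open scoped Classical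

set_option linter.unusedSectionVars false

noncomputable section

variable {E : Type*} [NormedAddCommGroup E] [NormedSpace ℝ E] [FiniteDimensional ℝ E]

/-- **the constant of a shape** (all dimensions `n` at once) -/
def AAc (n : ℕ) (S : Set E) : ℝ := (exists_frame_charts E).choose n S

theorem AAc_pos (n : ℕ) (S : Set E) : 0 < AAc n S := (exists_frame_charts E).choose_spec.1 n S

theorem AAc_spec {n : ℕ} {S : Set E} (h1 : Convex ℝ S) (h2 : IsCompact S) (h3 : S.Nonempty)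
    (h4 : IsBall n S (S \ ri S)) : ∃ e : PLEquiv (cube n) S, e.f '' sph n = S \ ri S ∧
      ∀ B : E ≃ᵃ[ℝ] E, (∀ x ∈ cube n, MB (fun x => x) B (AAc n (B '' S)) e.f (cube n) x) ∧
        ∀ z ∈ S, MB B (fun x => x) (AAc n (B '' S)) e.g S z :=
  (exists_frame_charts E).choose_spec.2 n S h1 h2 h3 h4

/-- change of the frame: `A` against `B` -/
theorem MB_frame {n : ℕ} {S : Set E} (h1 : Convex ℝ S) (h2 : IsCompact S) (h3 : S.Nonempty)
    (h4 : IsBall n S (S \ ri S)) (A B : E ≃ᵃ[ℝ] E) {z : E} (hz : z ∈ S) :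
    ∀ᶠ y in 𝓝[S] z, dist (A y) (A z) ≤ AAc n (A '' S) * AAc n (B '' S) * dist (B y) (B z) := by
  obtain ⟨e, -, he⟩ := AAc_spec h1 h2 h3 h4
  have h5 := (he A).1 (e.g z) (e.mg hz)
  have h6 := (he B).2 z hz
  have hcont : Tendsto e.g (𝓝[S] z) (𝓝[cube n] (e.g z)) :=
    tendsto_nhdsWithin_iff.2 ⟨e.pg.1 z hz, by
      filter_upwards [self_mem_nhdsWithin] with y hy using e.mg hy⟩
  filter_upwards [hcont.eventually h5, h6, self_mem_nhdsWithin] with y h7 h8 hy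
  rw [e.ri y hy, e.ri z hz] at h7
  calc dist (A y) (A z) ≤ AAc n (A '' S) * dist (e.g y) (e.g z) := h7
    _ ≤ AAc n (A '' S) * (AAc n (B '' S) * dist (B y) (B z)) :=
        mul_le_mul_of_nonneg_left h8 (AAc_pos _ _).le
    _ = _ := by ring

theorem LB.frame {n : ℕ} {S : Set E} (h1 : Convex ℝ S) (h2 : IsCompact S) (h3 : S.Nonempty)
    (h4 : IsBall n S (S \ ri S)) (A B : E ≃ᵃ[ℝ] E) {z : E} (hz : z ∈ S) {L : ℝ} (hL : 0 ≤ L)
    {f : E → ℝ} (hf : LB A L f S z) : LB B (L * (AAc n (A '' S) * AAc n (B '' S))) f S z := by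
  filter_upwards [MB_frame h1 h2 h3 h4 A B hz, hf] with y h5 h6
  refine h6.trans ?_
  rw [mul_assoc]
  exact mul_le_mul_of_nonneg_left h5 hL

/-! ### the constant of a configuration -/

/-- the largest constant of the shapes of a configuration -/
def A𝒦 (m : ℕ) (𝒦 : Set (Set E)) : ℝ :=
  if h : 𝒦.Finite then 1 + ∑ S ∈ h.toFinset, ∑ n ∈ Finset.range (m + 1), AAc n S else 1

theorem A𝒦_pos (m : ℕ) (𝒦 : Set (Set E)) : 0 < A𝒦 m 𝒦 := by
  unfold A𝒦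
  split_ifs with h
  · have : 0 ≤ ∑ S ∈ h.toFinset, ∑ n ∈ Finset.range (m + 1), AAc n S :=
      Finset.sum_nonneg fun S _ => Finset.sum_nonneg fun n _ => (AAc_pos n S).le
    linarith
  · exact one_pos

theorem AAc_le_A𝒦 {m n : ℕ} (hn : n ≤ m) {𝒦 : Set (Set E)} (h : 𝒦.Finite) {S : Set E}
    (hS : S ∈ 𝒦) : AAc n S ≤ A𝒦 m 𝒦 := by
  unfold A𝒦
  rw [dif_pos h]
  have h1 : AAc n S ≤ ∑ n ∈ Finset.range (m + 1), AAc n S :=
    Finset.single_le_sum (f := fun n => AAc n S) (fun n _ => (AAc_pos n S).le)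
      (Finset.mem_range.2 (Nat.lt_succ_of_le hn))
  have h2 : ∑ n ∈ Finset.range (m + 1), AAc n S ≤
      ∑ S ∈ h.toFinset, ∑ n ∈ Finset.range (m + 1), AAc n S :=
    Finset.single_le_sum (f := fun S => ∑ n ∈ Finset.range (m + 1), AAc n S)
      (fun S _ => Finset.sum_nonneg fun n _ => (AAc_pos n S).le) (h.mem_toFinset.2 hS)
  linarith

/-- **the constant of a configuration** (cells of dimension at most `m`) -/
def C𝒦 (K₀ ε : ℝ) (b : ℕ → ℝ) (m : ℕ) (𝒦 : Set (Set E)) : ℝ :=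
  Kn K₀ 1 ε b (m + 1) * ((1 + 𝒦.ncard * A𝒦 m 𝒦 ^ 2) ^ m * A𝒦 m 𝒦)

theorem C𝒦_nonneg {K₀ ε : ℝ} {b : ℕ → ℝ} (hK : 0 ≤ K₀) (hb : ∀ n, 0 < b n) (m : ℕ)
    (𝒦 : Set (Set E)) : 0 ≤ C𝒦 K₀ ε b m 𝒦 := by
  have h1 := Kn_nonneg (A := 1) (ε := ε) hK hb (m + 1)
  have h2 := A𝒦_pos m 𝒦
  unfold C𝒦
  positivity

/-! ### the canonical numbers in the frames -/

variable {Q : Type} [PartialOrder Q] {dim : Q → ℕ} {J Fam : Type}
variable {C : Cmb Q dim J Fam} {K : Q → Set E} {Ω : Set E}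

/-- the canonical function of the cells in the frame `B` -/
def omB (X : Cplx Ω Q dim K) (C : Cmb Q dim J Fam) (wt : J → ℝ) (δ : Q → ℝ) (B : E → E) (q : Q) :
    ℝ :=
  omc X C wt δ (fun τ => AAc (dim τ) (B '' K τ)) (fun τ => AAc (dim τ) (B '' K τ)) q

variable {R : Set Q} {K₀ ε : ℝ} {b : ℕ → ℝ} {wt : J → ℝ} {δ : Q → ℝ}

theorem num_omB (X : Cplx Ω Q dim K) (hw : ∀ j, 0 < wt j) (hb0 : ∀ n, 0 < b n)
    (hb2 : ∀ n, b n < 1/2) (hε0 : 0 < ε) (hε1 : ε < 1) (hK : 0 ≤ K₀) (hδ : ∀ q, 0 < δ q)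
    (B : E → E) : Num C R wt K₀ 1 ε b (omB X C wt δ B) δ (fun τ => AAc (dim τ) (B '' K τ))
      (fun τ => AAc (dim τ) (B '' K τ)) :=
  num_omc X hw hb0 hb2 hε0 hε1 hK hδ (fun _ => AAc_pos _ _) (fun _ => AAc_pos _ _)

theorem omB_ge (X : Cplx Ω Q dim K) (hw : ∀ j, 0 < wt j) (hδ : ∀ q, 0 < δ q) (B : E → E) (q : Q) :
    AAc (dim q) (B '' K q) * (Wd C wt q + δ q) ≤ omB X C wt δ B q := by
  have ha : ∀ q, 0 ≤ AAc (dim q) (B '' K q) * AAc (dim q) (B '' K q) := fun q =>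
    (mul_pos (AAc_pos _ _) (AAc_pos _ _)).le
  have hm : ∀ q, 0 ≤ AAc (dim q) (B '' K q) * (Wd C wt q + δ q) := fun q => by
    have h1 := Wd_nonneg (C := C) hw q
    have h2 := hδ q
    exact mul_nonneg (AAc_pos _ _).le (by linarith)
  exact le_om X ha hm (dim q) q

/-- **THE CANONICAL NUMBERS ARE BOUNDED BY THE CONSTANT OF THE CONFIGURATION** -/
theorem omB_le (X : Cplx Ω Q dim K) (hw : ∀ j, 0 < wt j) (hδ : ∀ q, 0 < δ q) {m : ℕ} {q : Q}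
    (hq : 2 ≤ dim q) (hm : dim q ≤ m) {B : E → E} (hBi : Function.Injective B) {𝒦 : Set (Set E)}
    (h𝒦 : 𝒦.Finite) (hB : ∀ σ ≤ q, B '' K σ ∈ 𝒦) (hinj : ∀ σ ≤ q, ∀ σ' ≤ q, K σ = K σ' → σ = σ')
    {d : ℝ} (hd : ∀ σ ≤ q, δ σ ≤ d)
    (hne : ∀ σ ≤ q, 2 ≤ dim σ → ∀ x : C.I σ, ∃ e, ∃ h : e < σ, dim e = 1 ∧
      ∃ y : C.I e, C.up h y = x) :
    omB X C wt δ B q ≤ (1 + 𝒦.ncard * A𝒦 m 𝒦 ^ 2) ^ m *
      (A𝒦 m 𝒦 * (∑ e ∈ edg X q, Wd C wt e + d)) := by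
  have hA := A𝒦_pos m 𝒦
  have hN : (X.finite_below q).toFinset.card ≤ 𝒦.ncard := by
    rw [ncard_eq_toFinset_card 𝒦 h𝒦]
    refine Finset.card_le_card_of_injOn (fun σ => B '' K σ) (fun σ hσ => ?_) (fun σ hσ σ' hσ' h => ?_)
    · rw [Finset.mem_coe, Finite.mem_toFinset] at hσ ⊢
      exact hB σ (show σ < q from hσ).le
    · rw [Finset.mem_coe, Finite.mem_toFinset] at hσ hσ'
      exact hinj σ (show σ < q from hσ).le σ' (show σ' < q from hσ').le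
        (hBi.image_injective h)
  have hdim : ∀ σ ≤ q, dim σ ≤ m := fun σ hσ => by
    rcases hσ.eq_or_lt with rfl | h
    · exact hm
    · exact (X.mono q σ h).le.trans hm
  have h1 := omc_le (X := X) (C := C) (wt := wt) (δ := δ) (Lf := fun τ => AAc (dim τ) (B '' K τ))
    (Lg := fun τ => AAc (dim τ) (B '' K τ)) hw hδ (fun _ => AAc_pos _ _) (fun _ => AAc_pos _ _)
    hq (h := 1) one_pos hA (fun σ hσ => by
      rw [mul_one]; exact AAc_le_A𝒦 (hdim σ hσ) h𝒦 (hB σ hσ)) (fun σ hσ => by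
      rw [div_one]; exact AAc_le_A𝒦 (hdim σ hσ) h𝒦 (hB σ hσ)) hd hN hne
  rw [div_one] at h1
  refine h1.trans (mul_le_mul_of_nonneg_right ?_ ?_)
  · exact pow_le_pow_right₀ (by
      have : (0:ℝ) ≤ 𝒦.ncard * A𝒦 m 𝒦 ^ 2 := by positivity
      linarith) hm
  · have h2 : 0 ≤ ∑ e ∈ edg X q, Wd C wt e := Finset.sum_nonneg fun e _ => Wd_nonneg hw e
    have h3 : 0 ≤ d := (hδ q).le.trans (hd q le_rfl)
    positivity

end

end Crest.Agent.R96.Nu5_199
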