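/-
helper199, row 96, NUMBERS, part 6: THE MESH WITH CONSTANTS WHICH ARE FUNCTIONS OF THE SHAPE.
-/
import Mathlib
import Crest.Agent.R96.Nu5_199

set_option autoImplicit false

open Set Metric Filter Topology

namespace Crest.Agent.R96.Nu6_199

open Crest.Agent.R096.Ce_537 Crest.Agent.R096.Bd_416 Crest.Agent.R96.Nu1_199
open Crest.Agent.R96.Nu2_199 Crest.Agent.R96.Nu3_199 Crest.Agent.R96.Nu4_199
open Crest.Agent.R96.Nu5_199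

open scoped Classical

set_option linter.unusedSectionVars false

noncomputable section

variable {E : Type*} [NormedAddCommGroup E] [NormedSpace ℝ E] [FiniteDimensional ℝ E]
variable {Q : Type} [PartialOrder Q] {dim : Q → ℕ} {J Fam : Type}
variable {C : Cmb Q dim J Fam} {K : Q → Set E} {Ω : Set E}
variable {R : Set Q} {K₀ ε : ℝ} {b : ℕ → ℝ} {wt : J → ℝ} {δ : Q → ℝ}
variable {g0 : Gd E J} {P0 : ∀ q, C.I q → Set E} {c0 : ∀ q, C.I q → E → ℝ}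

/-- all affine frames -/
def FrA (E : Type*) [NormedAddCommGroup E] [NormedSpace ℝ E] : Set (E → E) :=
  Set.range fun B : E ≃ᵃ[ℝ] E => (B : E → E)

/-- **the charts of the cells, with constants in all affine frames** -/
theorem exists_e (X : Cplx Ω Q dim K) (hconv : ∀ τ, Convex ℝ (K τ)) (hcpt : ∀ τ, IsCompact (K τ))
    (hbd : ∀ τ, bdS K τ = K τ \ ri (K τ)) :
    ∃ e : ∀ τ, 1 ≤ dim τ → PLEquiv (cube (dim τ)) (K τ),
      (∀ τ, ∀ hd : 1 ≤ dim τ, (e τ hd).f '' sph (dim τ) = bdS K τ) ∧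
      (∀ τ, ∀ hd : 1 ≤ dim τ, ∀ B ∈ FrA E, ∀ v ∈ cube (dim τ),
        MB id B (AAc (dim τ) (B '' K τ)) (e τ hd).f (cube (dim τ)) v) ∧
      (∀ τ, ∀ hd : 1 ≤ dim τ, ∀ B ∈ FrA E, ∀ z ∈ K τ,
        MB B id (AAc (dim τ) (B '' K τ)) (e τ hd).g (K τ) z) := by
  have h1 : ∀ τ, ∃ e : PLEquiv (cube (dim τ)) (K τ), e.f '' sph (dim τ) = K τ \ ri (K τ) ∧
      ∀ B : E ≃ᵃ[ℝ] E, (∀ x ∈ cube (dim τ),
        MB (fun x => x) B (AAc (dim τ) (B '' K τ)) e.f (cube (dim τ)) x) ∧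
        ∀ z ∈ K τ, MB B (fun x => x) (AAc (dim τ) (B '' K τ)) e.g (K τ) z := by
    intro τ
    have hb : IsBall (dim τ) (K τ) (K τ \ ri (K τ)) := by
      rw [← hbd]; exact X.isBall τ
    exact AAc_spec (hconv τ) (hcpt τ) hb.nonempty hb
  choose e he hB using h1
  refine ⟨fun τ _ => e τ, fun τ _ => by rw [hbd]; exact he τ, ?_, ?_⟩
  · rintro τ _ _ ⟨B, rfl⟩ v hv
    exact (hB τ B).1 v hv
  · rintro τ _ _ ⟨B, rfl⟩ z hz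
    exact (hB τ B).2 z hz

/-- the numbers of the mesh: `Kn n * omB B q` -/
abbrev LamS (X : Cplx Ω Q dim K) (C : Cmb Q dim J Fam) (K₀ ε : ℝ) (b : ℕ → ℝ) (wt : J → ℝ)
    (δ : Q → ℝ) : ℕ → Q → (E → E) → ℝ :=
  LamB K₀ 1 ε b (fun B q => omB X C wt δ B q)

/-- **THE MESH, ALL FRAMES AT ONCE** (`e` from `exists_e`). -/
theorem mesh_shape (X : Cplx Ω Q dim K) (hconv : ∀ τ, Convex ℝ (K τ))
    (hcpt : ∀ τ, IsCompact (K τ)) (hbd : ∀ τ, bdS K τ = K τ \ ri (K τ))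
    (hw : ∀ j, 0 < wt j) (hb0 : ∀ n, 0 < b n) (hb2 : ∀ n, b n < 1/2) (hε0 : 0 < ε) (hε1 : ε < 1)
    (hK : 0 ≤ K₀) (hδ : ∀ q, 0 < δ q)
    (hR : ∀ q ∈ R, ∀ p < q, p ∈ R) (H0 : Inv C K R g0 P0 c0)
    (hbase : ∀ q ∈ R, ∃ (A : E ≃ᵃ[ℝ] E) (L : ℝ), 0 ≤ L ∧ L * AAc (dim q) (A '' K q) ≤ K₀ ∧
      ∀ x, ∀ z ∈ K q, LB A (L * (Wd C wt q + δ q) / wt (C.col q x)) (c0 q x) (K q) z)
    (e : ∀ τ, 1 ≤ dim τ → PLEquiv (cube (dim τ)) (K τ))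
    (he : ∀ τ, ∀ hd : 1 ≤ dim τ, (e τ hd).f '' sph (dim τ) = bdS K τ)
    (hef : ∀ τ, ∀ hd : 1 ≤ dim τ, ∀ B ∈ FrA E, ∀ v ∈ cube (dim τ),
      MB id B (AAc (dim τ) (B '' K τ)) (e τ hd).f (cube (dim τ)) v)
    (heg : ∀ τ, ∀ hd : 1 ≤ dim τ, ∀ B ∈ FrA E, ∀ z ∈ K τ,
      MB B id (AAc (dim τ) (B '' K τ)) (e τ hd).g (K τ) z)
    (k : ∀ τ, C.I τ → ℕ) (hk : ∀ τ ∉ R, dim τ = 1 → Function.Injective (k τ))
    (ord : ∀ τ ∉ R, dim τ = 1 → ∀ x x', x ≠ x' → C.fam (C.col τ x) = C.fam (C.col τ x') →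
      (k τ x' < k τ x → C.side τ x x' = 1) ∧ (k τ x < k τ x' → C.side τ x x' = 0))
    (Rl : (∀ q, C.I q → E → ℝ) → ∀ τ, C.I τ → C.I τ → Prop)
    (hRl : ∀ D g P c (_ : Inv C K D g P c) τ, 2 ≤ dim τ → (∀ σ < τ, σ ∈ D) →
      ∃ kk : C.I τ → ℕ, Function.Injective kk ∧ ∀ x x', Rl c τ x x' → kk x' < kk x)
    (hRI : ∀ c τ x x', Ins C K c τ x x' → Rl c τ x x')
    (Spec : ∀ q, Lam (K q) (C.I q) → Prop)
    (hS0 : ∀ τ ∉ R, dim τ = 0 → ∀ M, Spec τ M)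
    (hS1 : ∀ τ ∉ R, dim τ = 1 → ∀ (e : PLEquiv (cube 1) (K τ)), e.f '' sph 1 = bdS K τ →
      e.f (fun _ => -1) ∈ K (C.o τ) → ∀ (p : C.I τ → ℝ)
      (hE : Ed (fun i => 4 * (1 - ε) * uq C wt δ τ * wt (C.col τ i)) p),
      (∀ i j, k τ j < k τ i → p j < p i) → Spec τ ((edgeLam hE).pull e.symm (X.isClosed τ)))
    (hS2 : ∀ D g P c (H : Inv C K D g P c), ∀ τ, (hd : 2 ≤ dim τ) →
      (∀ q ∈ D, Trk C K R g0 P0 c0 b Spec (fun _ => FrA E) wt (LamS X C K₀ ε b wt δ) (dim τ) q g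
        (P q) (c q)) →
      ∀ _ : τ ∉ R, ∀ (hτ : ∀ σ < τ, σ ∈ D) (κ : ℝ) (ρ : C.I τ → ℝ)
      (Dp : Dep (bdLam H X τ hτ) κ (b (dim τ)) (fun x => uq C wt δ τ * wt (C.col τ x)) ρ),
      (∀ x x', Rl c τ x x' → ρ x' < ρ x) →
      Spec τ (Dp.fillBall (e τ (by omega)) (he τ (by omega))))
    (n : ℕ) : ∃ g P c, Inv C K (R ∪ {q | dim q < n}) g P c ∧
      ∀ q ∈ R ∪ {q | dim q < n}, Trk C K R g0 P0 c0 b Spec (fun _ => FrA E) wt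
        (LamS X C K₀ ε b wt δ) n q g (P q) (c q) := by
  refine mesh_num (fun x => x) X (ω := fun B q => omB X C wt δ B q)
    (Lf := fun B τ => AAc (dim τ) (B '' K τ)) (Lg := fun B τ => AAc (dim τ) (B '' K τ))
    (fun B => num_omB X hw hb0 hb2 hε0 hε1 hK hδ B) hR H0 (fun _ => FrA E)
    (fun _ => Subset.rfl) ?_ e (fun τ _ hd => he τ hd)
    (fun τ _ hd B hB v hv => ?_) (fun τ _ hd B hB z hz => heg τ hd B hB z hz) k hk ord Rl hRl hRI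
    Spec hS0 hS1 hS2 n
  · -- the base
    rintro q hq _ ⟨B, rfl⟩ x z hz
    obtain ⟨A, L, hL, hLK, hA⟩ := hbase q hq
    have hb : IsBall (dim q) (K q) (K q \ ri (K q)) := by
      rw [← hbd]; exact X.isBall q
    have hwx := hw (C.col q x)
    have hW : 0 ≤ Wd C wt q + δ q := by
      have h1 := Wd_nonneg (C := C) hw q
      have h2 := hδ q
      linarith
    have h1 := Nu5_199.LB.frame (hconv q) (hcpt q) hb.nonempty hb A B hz (by positivity) (hA x z hz)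
    refine h1.mono ?_
    rw [div_mul_eq_mul_div]
    refine div_le_div_of_nonneg_right ?_ hwx.le
    have h2 := omB_ge (C := C) X hw hδ (B : E → E) q
    calc L * (Wd C wt q + δ q) * (AAc (dim q) (A '' K q) * AAc (dim q) (B '' K q))
        = (L * AAc (dim q) (A '' K q)) * (AAc (dim q) (B '' K q) * (Wd C wt q + δ q)) := by ring
      _ ≤ K₀ * (AAc (dim q) (B '' K q) * (Wd C wt q + δ q)) :=
          mul_le_mul_of_nonneg_right hLK (mul_nonneg (AAc_pos _ _).le hW)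
      _ ≤ K₀ * omB X C wt δ B q := mul_le_mul_of_nonneg_left h2 hK
  · exact (hef τ hd B hB v (sph_subset_cube hv)).filter_mono
      (nhdsWithin_mono _ fun _ h => sph_subset_cube h)

/-- **THE CONSTANT OF A TILE IN A FRAME**: `m = dim q` the top dimension, `𝒦` the configuration in
the frame `B`. -/
theorem lam_tile (X : Cplx Ω Q dim K) (hw : ∀ j, 0 < wt j) (hb0 : ∀ n, 0 < b n) (hK : 0 ≤ K₀)
    (hδ : ∀ q, 0 < δ q) {m : ℕ} {q : Q} (hq : 2 ≤ dim q) (hm : dim q ≤ m) {B : E ≃ᵃ[ℝ] E}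
    {𝒦 : Set (Set E)} (h𝒦 : 𝒦.Finite) (hB : ∀ σ ≤ q, B '' K σ ∈ 𝒦)
    (hinj : ∀ σ ≤ q, ∀ σ' ≤ q, K σ = K σ' → σ = σ') {d : ℝ} (hd : ∀ σ ≤ q, δ σ ≤ d)
    (hne : ∀ σ ≤ q, 2 ≤ dim σ → ∀ x : C.I σ, ∃ e, ∃ h : e < σ, dim e = 1 ∧
      ∃ y : C.I e, C.up h y = x) :
    LamS X C K₀ ε b wt δ (m + 1) q B ≤
      C𝒦 K₀ ε b m 𝒦 * (∑ e ∈ edg X q, Wd C wt e + d) := by
  have h1 := omB_le X hw hδ hq hm B.injective h𝒦 hB hinj hd hne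
  have h2 := Kn_nonneg (A := 1) (ε := ε) hK hb0 (m + 1)
  calc Kn K₀ 1 ε b (m + 1) * omB X C wt δ B q
      ≤ Kn K₀ 1 ε b (m + 1) * ((1 + 𝒦.ncard * A𝒦 m 𝒦 ^ 2) ^ m *
        (A𝒦 m 𝒦 * (∑ e ∈ edg X q, Wd C wt e + d))) := mul_le_mul_of_nonneg_left h1 h2
    _ = _ := by unfold C𝒦; ring

end

end Crest.Agent.R96.Nu6_199
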