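/-
helper199, row 96, NUMBERS, part 7: the choice of `δ` (no tolerance), final Lipschitz constants of
the pieces and of the families on a tile, in every affine frame.
-/
import Mathlib
import Crest.Agent.R96.Nu6_199

set_option autoImplicit false

open Set Metric Filter Topology

namespace Crest.Agent.R96.Nu7_199

open Crest.Agent.R096.Ce_537 Crest.Agent.R096.Bd_416 Crest.Agent.R96.Nu1_199
open Crest.Agent.R96.Nu2_199 Crest.Agent.R96.Nu3_199 Crest.Agent.R96.Nu4_199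
open Crest.Agent.R96.Nu5_199 Crest.Agent.R96.Nu6_199

open scoped Classical

set_option linter.unusedSectionVars false

noncomputable section

variable {E : Type*} [NormedAddCommGroup E] [NormedSpace ℝ E] [FiniteDimensional ℝ E]
variable {Q : Type} [PartialOrder Q] {dim : Q → ℕ} {J Fam : Type}
variable {C : Cmb Q dim J Fam} {K : Q → Set E} {Ω : Set E}
variable {R : Set Q} {K₀ ε : ℝ} {b : ℕ → ℝ} {wt : J → ℝ} {δ : Q → ℝ}
variable {g0 : Gd E J} {P0 : ∀ q, C.I q → Set E} {c0 : ∀ q, C.I q → E → ℝ}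

/-- every cell is a face of finitely many cells -/
theorem finite_above (X : Cplx Ω Q dim K) (σ : Q) : {q | σ ≤ q}.Finite := by
  obtain ⟨x, hx⟩ := (X.isBall σ).nonempty
  obtain ⟨r, hr, hf⟩ := X.lf x (X.sub σ hx)
  exact hf.subset fun q hq => ⟨x, X.subset hq hx, mem_ball_self hr⟩

/-- the weighted number of the points on the edges of a cell -/
def WE (X : Cplx Ω Q dim K) (C : Cmb Q dim J Fam) (wt : J → ℝ) (q : Q) : ℝ :=
  ∑ e ∈ edg X q, Wd C wt e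

theorem WE_nonneg (X : Cplx Ω Q dim K) (hw : ∀ j, 0 < wt j) (q : Q) : 0 ≤ WE X C wt q :=
  Finset.sum_nonneg fun e _ => Wd_nonneg hw e

/-- **the choice of the errors**: at most the weighted number of every cell around which has
points at all -/
theorem exists_delta (X : Cplx Ω Q dim K) (C : Cmb Q dim J Fam) (wt : J → ℝ) :
    ∃ δ : Q → ℝ, (∀ q, 0 < δ q) ∧ ∀ q, 0 < WE X C wt q → ∀ σ ≤ q, δ σ ≤ WE X C wt q := by
  have h1 : ∀ σ : Q, ∃ d : ℝ, 0 < d ∧ ∀ q, σ ≤ q → 0 < WE X C wt q → d ≤ WE X C wt q := by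
    intro σ
    have hf := finite_above X σ
    have h2 : ∀ S : Finset Q, ∃ d : ℝ, 0 < d ∧ ∀ q ∈ S, 0 < WE X C wt q → d ≤ WE X C wt q := by
      intro S
      induction S using Finset.induction_on with
      | empty => exact ⟨1, one_pos, fun q hq => absurd hq (Finset.notMem_empty q)⟩
      | insert q S hq ih =>
        obtain ⟨d, hd, h⟩ := ih
        by_cases hW : 0 < WE X C wt q
        · refine ⟨min d (WE X C wt q), lt_min hd hW, fun q' hq' hW' => ?_⟩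
          rcases Finset.mem_insert.1 hq' with rfl | h'
          · exact min_le_right _ _
          · exact (min_le_left _ _).trans (h q' h' hW')
        · refine ⟨d, hd, fun q' hq' hW' => ?_⟩
          rcases Finset.mem_insert.1 hq' with rfl | h'
          · exact absurd hW' hW
          · exact h q' h' hW'
    obtain ⟨d, hd, h⟩ := h2 hf.toFinset
    exact ⟨d, hd, fun q hq hW => h q (hf.mem_toFinset.2 hq) hW⟩
  choose d hd h using h1
  exact ⟨d, hd, fun q hW σ hσ => h σ q hσ hW⟩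

/-- a cell (of dimension at least two) with a piece has points on its edges -/
theorem WE_pos (X : Cplx Ω Q dim K) (hw : ∀ j, 0 < wt j) {q : Q}
    (hne : ∀ x : C.I q, ∃ e, ∃ h : e < q, dim e = 1 ∧ ∃ y : C.I e, C.up h y = x)
    (x : C.I q) : 0 < WE X C wt q := by
  obtain ⟨e, he, hd, y, -⟩ := hne x
  have h1 : 0 < Wd C wt e := by
    refine Finset.sum_pos (fun _ _ => hw _) ⟨y, Finset.mem_univ y⟩
  have h2 : Wd C wt e ≤ WE X C wt q :=
    Finset.single_le_sum (f := fun e => Wd C wt e) (fun e _ => Wd_nonneg hw e)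
      ((mem_edg X).2 ⟨he, hd⟩)
  linarith

/-- **THE PIECES OF A TILE IN A FRAME** (`C = 2 * C𝒦`, no tolerance) -/
theorem tile_piece (X : Cplx Ω Q dim K) (hw : ∀ j, 0 < wt j) (hb0 : ∀ n, 0 < b n) (hK : 0 ≤ K₀)
    (hδ : ∀ q, 0 < δ q) (hδ2 : ∀ q, 0 < WE X C wt q → ∀ σ ≤ q, δ σ ≤ WE X C wt q)
    {m : ℕ} {q : Q} (hq : 2 ≤ dim q) (hm : dim q ≤ m) {B : E ≃ᵃ[ℝ] E}
    {𝒦 : Set (Set E)} (h𝒦 : 𝒦.Finite) (hB : ∀ σ ≤ q, B '' K σ ∈ 𝒦)
    (hinj : ∀ σ ≤ q, ∀ σ' ≤ q, K σ = K σ' → σ = σ')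
    (hne : ∀ σ ≤ q, 2 ≤ dim σ → ∀ x : C.I σ, ∃ e, ∃ h : e < σ, dim e = 1 ∧
      ∃ y : C.I e, C.up h y = x)
    {Spec : ∀ q, Lam (K q) (C.I q) → Prop} {g : Gd E J} {P : C.I q → Set E} {c : C.I q → E → ℝ}
    (hT : Trk C K R g0 P0 c0 b Spec (fun _ => FrA E) wt (LamS X C K₀ ε b wt δ) (m + 1) q g P c)
    (x : C.I q) {z : E} (hz : z ∈ K q) :
    LB B (2 * C𝒦 K₀ ε b m 𝒦 * WE X C wt q / wt (C.col q x)) (c x) (K q) z := by
  have hW := WE_pos X hw (hne q le_rfl hq) x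
  have h1 := hT.ll B ⟨B, rfl⟩ x z hz
  refine h1.mono (div_le_div_of_nonneg_right ?_ (hw _).le)
  have h2 := lam_tile (ε := ε) (K₀ := K₀) (b := b) X hw hb0 hK hδ hq hm h𝒦 hB hinj (hδ2 q hW) hne
  refine h2.trans (le_of_eq ?_)
  unfold WE
  ring

/-- **THE FAMILIES OF A TILE IN A FRAME** -/
theorem tile_fam (X : Cplx Ω Q dim K) (hw : ∀ j, 0 < wt j) (hb0 : ∀ n, 0 < b n) (hK : 0 ≤ K₀)
    (hδ : ∀ q, 0 < δ q) (hδ2 : ∀ q, 0 < WE X C wt q → ∀ σ ≤ q, δ σ ≤ WE X C wt q)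
    {m : ℕ} {q : Q} (hq : 2 ≤ dim q) (hm : dim q ≤ m) {B : E ≃ᵃ[ℝ] E}
    {𝒦 : Set (Set E)} (h𝒦 : 𝒦.Finite) (hB : ∀ σ ≤ q, B '' K σ ∈ 𝒦)
    (hinj : ∀ σ ≤ q, ∀ σ' ≤ q, K σ = K σ' → σ = σ')
    (hne : ∀ σ ≤ q, 2 ≤ dim σ → ∀ x : C.I σ, ∃ e, ∃ h : e < σ, dim e = 1 ∧
      ∃ y : C.I e, C.up h y = x)
    {Spec : ∀ q, Lam (K q) (C.I q) → Prop} {D : Set Q} {g : Gd E J} {P : ∀ q, C.I q → Set E}
    {c : ∀ q, C.I q → E → ℝ} (H : Inv C K D g P c) (hqD : q ∈ D)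
    (hT : Trk C K R g0 P0 c0 b Spec (fun _ => FrA E) wt (LamS X C K₀ ε b wt δ) (m + 1) q g (P q)
      (c q)) (T : Finset J) (hTf : ∀ j ∈ T, ∀ j' ∈ T, C.fam j = C.fam j') {z : E}
    (hz : z ∈ K q) :
    LB B (2 * C𝒦 K₀ ε b m 𝒦 * WE X C wt q) (fun w => ∑ j ∈ T, wt j * g.G j w) (K q) z := by
  have h0 := C𝒦_nonneg (ε := ε) hK hb0 m 𝒦
  have h1 := WE_nonneg (C := C) X hw q
  exact H.LB_fam wt hw hqD T hTf hz (by positivity) fun x =>
    tile_piece X hw hb0 hK hδ hδ2 hq hm h𝒦 hB hinj hne hT x hz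

end

end Crest.Agent.R96.Nu7_199
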