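/-
helper199, row 96, NUMBERS, part 8: the geometric hypotheses of Nu6 / Nu7 for the cells of a tiling
of 715, configuration of a tile.
-/
import Mathlib
import Crest.Agent.R96.Nu7_199

set_option autoImplicit false

open Set Metric Filter Topology

namespace Crest.Agent.R96.Nu8_199

open Crest.Agent.R096.Ce_537 Crest.Agent.R096.Bd_416 Crest.Agent.R096.Msh_715
open Crest.Agent.R96.Nu3_199 Crest.Agent.R96.Nu5_199 Crest.Agent.R96.Nu6_199
open Crest.Agent.R96.Nu7_199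

open scoped Classical

set_option linter.unusedSectionVars false

noncomputable section

variable {E : Type} [NormedAddCommGroup E] [NormedSpace ℝ E] [FiniteDimensional ℝ E]
variable {Om : Set E} {ι : Type*} {T : Tiling Om ι}

theorem convex_cell (c : T.Cell) : Convex ℝ c.set := by
  rw [c.set_eq]; exact T.convex_cc _

theorem compact_cell (c : T.Cell) : IsCompact c.set := by
  rw [c.set_eq]; exact T.isCompact_cc c.pt_mem

theorem bdS_cell (c : T.Cell) : bdS (fun c : T.Cell => c.set) c = c.set \ ri c.set := by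
  rw [← bd_eq]
  exact c.bdry.symm

/-- the configuration of the tile `i`: all closed cells contained in it (= `SkC1_961.Cfg`) -/
def Cfg (T : Tiling Om ι) (i : ι) : Set (Set E) := {K | ∃ x ∈ P (T.H i), K = T.cc x}

theorem finite_Cfg (T : Tiling Om ι) (i : ι) : (Cfg T i).Finite := by
  refine (T.finite_cells (T.cpt i) (T.sub i)).subset ?_
  rintro _ ⟨x, hx, rfl⟩
  exact ⟨⟨x, T.sub i hx, rfl⟩, x, T.self_mem_cc x, hx⟩

theorem mem_Cfg {i : ι} {c : T.Cell} (h : c.set ⊆ P (T.H i)) : c.set ∈ Cfg T i := by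
  refine ⟨c.pt, h ?_, c.set_eq⟩
  rw [c.set_eq]; exact T.self_mem_cc _

/-- the configuration in the frame `B` -/
abbrev CfgB (T : Tiling Om ι) (i : ι) (B : E ≃ᵃ[ℝ] E) : Set (Set E) :=
  (fun K => B '' K) '' Cfg T i

theorem finite_CfgB (T : Tiling Om ι) (i : ι) (B : E ≃ᵃ[ℝ] E) : (CfgB T i B).Finite :=
  (finite_Cfg T i).image _

/-- the cell of a tile -/
theorem exists_tile (T : Tiling Om ι) (i : ι) : ∃ q : T.Cell, q.set = P (T.H i) ∧
    q.dim = Module.finrank ℝ E := by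
  obtain ⟨x, hx⟩ := T.ne i
  have hxO : x ∈ Om := T.sub i (I_sub_P _ hx)
  refine ⟨T.cl hxO, ?_, ?_⟩
  · rw [T.cl_set hxO]; exact T.cc_eq_tile hx
  · rw [T.dim_cl hxO]
    have := (T.V_eq_top_iff hxO).2 ⟨i, hx⟩
    unfold Tiling.dim
    rw [this, finrank_top]

variable {J Fam : Type} {C : Cmb T.Cell (fun c => c.dim) J Fam} {R : Set T.Cell} {K₀ ε : ℝ}
  {b : ℕ → ℝ} {wt : J → ℝ} {δ : T.Cell → ℝ} {g0 : Gd E J} {P0 : ∀ q, C.I q → Set E}
  {c0 : ∀ q, C.I q → E → ℝ}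

/-- **THE PIECES OF A TILE IN THE FRAME `B`**: constant `2 * C𝒦 (configuration in the frame B)`
times the weighted number of points on the edges of the tile. -/
theorem tile_piece_T (h2 : 2 ≤ Module.finrank ℝ E) (hw : ∀ j, 0 < wt j) (hb0 : ∀ n, 0 < b n)
    (hK : 0 ≤ K₀) (hδ : ∀ q, 0 < δ q)
    (hδ2 : ∀ q, 0 < WE T.cplx C wt q → ∀ σ ≤ q, δ σ ≤ WE T.cplx C wt q)
    {i : ι} {q : T.Cell} (hqi : q.set = P (T.H i)) (hqd : q.dim = Module.finrank ℝ E)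
    (hne : ∀ σ ≤ q, 2 ≤ σ.dim → ∀ x : C.I σ, ∃ e, ∃ h : e < σ, e.dim = 1 ∧
      ∃ y : C.I e, C.up h y = x)
    {Spec : ∀ q : T.Cell, Lam q.set (C.I q) → Prop} {g : Gd E J} {P : C.I q → Set E}
    {c : C.I q → E → ℝ}
    (hT : Trk C (fun c : T.Cell => c.set) R g0 P0 c0 b Spec (fun _ => FrA E) wt
      (LamS T.cplx C K₀ ε b wt δ) (Module.finrank ℝ E + 1) q g P c)
    (B : E ≃ᵃ[ℝ] E) (x : C.I q) {z : E} (hz : z ∈ q.set) :
    LB B (2 * C𝒦 K₀ ε b (Module.finrank ℝ E) (CfgB T i B) * WE T.cplx C wt q / wt (C.col q x))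
      (c x) q.set z := by
  refine tile_piece (dim := fun c : T.Cell => c.dim) (K := fun c : T.Cell => c.set) T.cplx hw hb0 hK
    hδ hδ2 (by rw [hqd]; exact h2) hqd.le (finite_CfgB T i B) (fun σ hσ => ?_)
    (fun σ _ σ' _ h => Tiling.Cell.ext h) hne hT x hz
  exact mem_image_of_mem _ (mem_Cfg (hqi ▸ Tiling.Cell.le_def.1 hσ))

/-- **THE FAMILIES OF A TILE IN THE FRAME `B`** -/
theorem tile_fam_T (h2 : 2 ≤ Module.finrank ℝ E) (hw : ∀ j, 0 < wt j) (hb0 : ∀ n, 0 < b n)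
    (hK : 0 ≤ K₀) (hδ : ∀ q, 0 < δ q)
    (hδ2 : ∀ q, 0 < WE T.cplx C wt q → ∀ σ ≤ q, δ σ ≤ WE T.cplx C wt q)
    {i : ι} {q : T.Cell} (hqi : q.set = P (T.H i)) (hqd : q.dim = Module.finrank ℝ E)
    (hne : ∀ σ ≤ q, 2 ≤ σ.dim → ∀ x : C.I σ, ∃ e, ∃ h : e < σ, e.dim = 1 ∧
      ∃ y : C.I e, C.up h y = x)
    {Spec : ∀ q : T.Cell, Lam q.set (C.I q) → Prop} {D : Set T.Cell} {g : Gd E J}
    {P : ∀ q, C.I q → Set E} {c : ∀ q, C.I q → E → ℝ}
    (H : Inv C (fun c : T.Cell => c.set) D g P c) (hqD : q ∈ D)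
    (hT : Trk C (fun c : T.Cell => c.set) R g0 P0 c0 b Spec (fun _ => FrA E) wt
      (LamS T.cplx C K₀ ε b wt δ) (Module.finrank ℝ E + 1) q g (P q) (c q))
    (S : Finset J) (hS : ∀ j ∈ S, ∀ j' ∈ S, C.fam j = C.fam j') (B : E ≃ᵃ[ℝ] E) {z : E}
    (hz : z ∈ q.set) :
    LB B (2 * C𝒦 K₀ ε b (Module.finrank ℝ E) (CfgB T i B) * WE T.cplx C wt q)
      (fun w => ∑ j ∈ S, wt j * g.G j w) q.set z := by
  refine tile_fam (dim := fun c : T.Cell => c.dim) (K := fun c : T.Cell => c.set) T.cplx hw hb0 hK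
    hδ hδ2 (by rw [hqd]; exact h2) hqd.le (finite_CfgB T i B) (fun σ hσ => ?_)
    (fun σ _ σ' _ h => Tiling.Cell.ext h) hne H hqD hT S hS hz
  exact mem_image_of_mem _ (mem_Cfg (hqi ▸ Tiling.Cell.le_def.1 hσ))

end

end Crest.Agent.R96.Nu8_199
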