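import Crest.Agent.R96.Hole2_348

/-!
# R96, P4-HOLE, part 3: the energy of the squeezed map (helper348)

`hole`: a map `g`, locally Lipschitz with an arbitrary constant inside a cube and with local
Lipschitz constant `≤ μ i` near the piece `F i` of the boundary, becomes after precomposition with
a PL homeomorphism of the cube, equal to the identity on its boundary, a map of energy
`≤ C(n,p) R r^(n-1) ∑ μ_i^p + ε`, for every `0 < p < n`.
-/

set_option autoImplicit false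

open Set Metric Filter Topology MeasureTheory

namespace Crest.Agent.R96.Hole_348

open Crest.Agent.R096.Ce_537 Crest.Agent.R096.Bd_416

variable {n : ℕ}

/-- the constant -/
noncomputable def Chole (n : ℕ) (p : ℝ) : ℝ :=
  (16:ℝ)^p * (2 * 8^n) / (1 - (2:ℝ)^(p - n))

lemma q_lt_one {p : ℝ} (hpn : p < n) : (2:ℝ)^(p - n) < 1 :=
  Real.rpow_lt_one_of_one_lt_of_neg (by norm_num) (by linarith)

lemma q_pos {p : ℝ} : 0 < (2:ℝ)^(p - n) := Real.rpow_pos_of_pos (by norm_num) _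

lemma Chole_nonneg {p : ℝ} (hpn : p < n) : 0 ≤ Chole n p := by
  have := q_lt_one hpn
  exact div_nonneg (by positivity) (by linarith)

lemma norm_chf_lt {τ : ℝ} {N : ℕ} (hP : Par τ N 1) {x : Fin n → ℝ} (hx : ‖x‖ < 1) :
    ‖chf τ N x‖ < 1 := by
  by_contra h
  have h1 := chg_out hP (not_lt.1 h)
  have h2 : chg τ N (chf τ N x) = x := (chi hP).symm_apply_apply x
  rw [h2] at h1
  rw [← h1] at h
  exact h hx

lemma pow_aux (k : ℕ) {p : ℝ} :
    ((2:ℝ)^k)^p * (((2:ℝ)^k)⁻¹)^n = ((2:ℝ)^(p - n))^k := by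
  have h2 : (0:ℝ) < 2 := by norm_num
  rw [← Real.rpow_natCast (2:ℝ) k, ← Real.rpow_mul h2.le, ← Real.rpow_neg h2.le,
    ← Real.rpow_natCast (((2:ℝ)^(-(k:ℝ)))) n, ← Real.rpow_mul h2.le, ← Real.rpow_add h2,
    ← Real.rpow_natCast ((2:ℝ)^(p - n)) k, ← Real.rpow_mul h2.le]
  congr 1
  ring

lemma geom_le {q : ℝ} (h0 : 0 ≤ q) (h1 : q < 1) (N : ℕ) :
    ∑ k ∈ Finset.range N, q^k ≤ 1 / (1 - q) := by
  have h2 : 0 < 1 - q := by linarith
  rw [le_div_iff₀ h2, geom_sum_mul_neg]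
  have := pow_nonneg h0 N
  linarith

/-- **Finite cover form of an energy bound**: `K` is covered by finitely many measurable sets
`S j` on which (a.e.) `f` has local Lipschitz constant `≤ c j`, and `∑ (c j)^p |S j| ≤ A`. -/
def EnCov {E G : Type*} [NormedAddCommGroup E] [MeasurableSpace E] [NormedAddCommGroup G]
    (m : Measure E) (p : ℝ) (f : E → G) (K : Set E) (A : ENNReal) : Prop :=
  ∃ (J : Type) (_ : Fintype J) (S : J → Set E) (c : J → ℝ), (∀ j, MeasurableSet (S j)) ∧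
    (∀ j, 0 ≤ c j) ∧ K ⊆ ⋃ j, S j ∧ (∀ j, ∀ᵐ x ∂m, x ∈ S j → LLV (c j) f x) ∧
    ∑ j, ENNReal.ofReal (c j ^ p) * m (S j) ≤ A

/-- an energy integral -/
lemma EnCov.lintegral_le {E G : Type*} [NormedAddCommGroup E] [MeasurableSpace E]
    [NormedAddCommGroup G] {m : Measure E} {p : ℝ} {f : E → G} {K : Set E} {A : ENNReal}
    (h : EnCov m p f K A) {w : E → ENNReal}
    (hw : ∀ x c, 0 ≤ c → LLV c f x → w x ≤ ENNReal.ofReal (c^p)) :
    ∫⁻ x in K, w x ∂m ≤ A := by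
  obtain ⟨J, _, S, c, hS, hc, hK, hL, hA⟩ := h
  calc ∫⁻ x in K, w x ∂m ≤ ∫⁻ x in ⋃ j, S j, w x ∂m := lintegral_mono_set hK
    _ ≤ ∑' j, ∫⁻ x in S j, w x ∂m := lintegral_iUnion_le _ _
    _ = ∑ j, ∫⁻ x in S j, w x ∂m := tsum_fintype _
    _ ≤ ∑ j, ENNReal.ofReal (c j ^ p) * m (S j) := by
        refine Finset.sum_le_sum fun j _ => ?_
        calc ∫⁻ x in S j, w x ∂m ≤ ∫⁻ _x in S j, ENNReal.ofReal (c j ^ p) ∂m := by
              refine setLIntegral_mono_ae' (hS j) ?_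
              filter_upwards [hL j] with x hx hxS
              exact hw x _ (hc j) (hx hxS)
          _ = _ := by rw [setLIntegral_const]
    _ ≤ A := hA

lemma EnCov.fderiv_le {E G : Type*} [NormedAddCommGroup E] [NormedSpace ℝ E] [MeasurableSpace E]
    [NormedAddCommGroup G] [NormedSpace ℝ G] {m : Measure E} {p : ℝ} (hp : 0 < p)
    {f : E → G} {K : Set E} {A : ENNReal} (h : EnCov m p f K A) :
    ∫⁻ x in K, ‖fderiv ℝ f x‖ₑ^p ∂m ≤ A := by
  refine h.lintegral_le ?_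
  intro x c hc hx
  rw [← ENNReal.ofReal_rpow_of_nonneg hc hp.le]
  refine ENNReal.rpow_le_rpow ?_ hp.le
  rw [← ofReal_norm]
  exact ENNReal.ofReal_le_ofReal (norm_fderiv_le_of_lip' ℝ hc hx)

lemma ae_norm_ne (c : ℝ) (hn : 0 < n) : ∀ᵐ x : Fin n → ℝ, ‖x‖ ≠ c := by
  have : Nonempty (Fin n) := ⟨⟨0, hn⟩⟩
  have h : volume (sphere (0 : Fin n → ℝ) c) = 0 := Measure.addHaar_sphere _ _ _
  have : ∀ᵐ x : Fin n → ℝ, x ∉ sphere (0 : Fin n → ℝ) c := measure_eq_zero_iff_ae_notMem.1 h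
  filter_upwards [this] with x hx h2
  exact hx (by simpa using h2)

/-- **HOLE SQUEEZE, unit cube, finite cover form** -/
theorem hole_unit_cov {p : ℝ} (hp0 : 0 < p) (hpn : p < n)
    {G : Type*} [NormedAddCommGroup G] {ι : Type} [Fintype ι]
    (F : ι → Set (Fin n → ℝ)) (hFc : ∀ i, IsClosed (F i)) {r : ℝ} (hr0 : 0 < r) (hr1 : r ≤ 1)
    (hd : ∀ i, ∀ x ∈ F i, ∀ y ∈ F i, ‖x - y‖ ≤ r) (hcov : sphere 0 1 ⊆ ⋃ i, F i)
    {μ : ι → ℝ} (hμ : ∀ i, 0 ≤ μ i) (g : (Fin n → ℝ) → G) {τ₀ L : ℝ} (hτ₀ : 0 < τ₀) (hL0 : 0 ≤ L)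
    (hg : ∀ i, ∀ ω ∈ F i, ∀ y, ‖y‖ < 1 → ‖y - ω‖ ≤ τ₀ → LLV (μ i) g y)
    (hL : ∀ y, ‖y‖ < 1 → LLV L g y) {ε : ℝ} (hε : 0 < ε) :
    ∃ χ : (Fin n → ℝ) ≃ₜ (Fin n → ℝ), PLOn χ univ ∧ PLOn χ.symm univ ∧
      (∀ x, 1 ≤ ‖x‖ → χ x = x) ∧ (∀ x, ‖x‖ < 1 → ‖χ x‖ < 1) ∧
      EnCov volume p (fun x => g (χ x)) (closedBall 0 1)
        (ENNReal.ofReal (Chole n p * (r^n / r) * ∑ i, μ i ^ p + ε)) := by
  classical
  have hn : 0 < n := by
    have : (0:ℝ) < n := hp0.trans hpn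
    exact_mod_cast this
  have hq1 := q_lt_one (n := n) hpn
  have hq0 := q_pos (n := n) (p := p)
  set q := (2:ℝ)^(p - n) with hq
  -- choice of N and τ
  obtain ⟨N, hN⟩ : ∃ N : ℕ, ((2 * L)^p * 2^n) * q^N ≤ ε := by
    rcases (show (0:ℝ) ≤ (2 * L)^p * 2^n by positivity).eq_or_lt with h | h
    · exact ⟨0, by rw [← h, zero_mul]; exact hε.le⟩
    · obtain ⟨N, hN⟩ := exists_pow_lt_of_lt_one (div_pos hε h) hq1
      refine ⟨N, ?_⟩
      rw [lt_div_iff₀ h] at hN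
      linarith
  set t := min τ₀ 1 with ht
  have ht0 : 0 < t := lt_min hτ₀ one_pos
  set τ := t / (2 * (N + 1)) with hτ
  have hτ0 : 0 < τ := by positivity
  have hNτ : 2 * (N * τ) ≤ t := by
    rw [hτ]
    have h1 : 2 * ((N:ℝ) * (t / (2 * (N + 1)))) = t * (N / (N + 1)) := by field_simp
    rw [h1]
    have h2 : (N:ℝ) / (N + 1) ≤ 1 := by rw [div_le_one (by positivity)]; linarith
    nlinarith
  have hP : Par τ N 1 := ⟨hτ0, by have := min_le_right τ₀ 1; linarith, le_rfl⟩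
  refine ⟨chi hP, plOn_chf hP, plOn_chg hP, fun x hx => chf_out hx,
    fun x hx => norm_chf_lt hP hx, ?_⟩
  set f : (Fin n → ℝ) → G := fun x => g (chf τ N x) with hf
  -- a.e. bounds
  have hsect : ∀ k < N, ∀ i, ∀ᵐ x, x ∈ sect k (F i) →
      LLV (μ i * (16 * 2^k)) f x := by
    intro k hk i
    filter_upwards [ae_norm_ne (((2:ℝ)^k)⁻¹) hn, ae_norm_ne (((2:ℝ)^k)⁻¹ / 2) hn]
      with x hx1 hx2 hxS
    obtain ⟨h1, h2, h3⟩ := hxS
    have hp : (0:ℝ) < 2^k := by positivity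
    have h1' : 1/2 < 2^k * ‖x‖ := by
      refine lt_of_le_of_ne h1 (fun h => hx2 ?_)
      field_simp
      linarith
    have h2' : 2^k * ‖x‖ < 1 := by
      refine lt_of_le_of_ne h2 (fun h => hx1 ?_)
      field_simp
      linarith
    obtain ⟨a1, a2, a3⟩ := chf_near hP hk h1' h2'
    have hgx := hg i _ h3 _ a2 (a3.trans (hNτ.trans (min_le_left _ _)))
    exact LLV_shell hP hk h1' h2' (hμ i) hgx
  have hinn : ∀ᵐ x, x ∈ closedBall (0 : Fin n → ℝ) (((2:ℝ)^N)⁻¹) →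
      LLV (L * (2 * 2^N)) f x := by
    filter_upwards [ae_norm_ne (((2:ℝ)^N)⁻¹) hn, ae_norm_ne (n := n) 1 hn] with x hx1 hx1' hxS
    rw [mem_closedBall_zero_iff] at hxS
    have hp : (0:ℝ) < 2^N := by positivity
    have hp1 : (1:ℝ) ≤ 2^N := one_le_pow₀ (by norm_num)
    have h1 : ‖x‖ < ((2:ℝ)^N)⁻¹ := lt_of_le_of_ne hxS hx1
    have h2 : 2^N * ‖x‖ < 1 := by
      have := mul_lt_mul_of_pos_left h1 hp
      rwa [mul_inv_cancel₀ hp.ne'] at this
    have h3 : ‖x‖ < 1 := by nlinarith [norm_nonneg x]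
    exact LLV_inner hP h2 hL0 (hL _ (norm_chf_lt hP h3))
  -- the cover
  have hcover : closedBall (0 : Fin n → ℝ) 1 ⊆
      (⋃ a : Fin N × ι, sect a.1 (F a.2)) ∪ closedBall 0 (((2:ℝ)^N)⁻¹) := by
    intro x hx
    rw [mem_closedBall_zero_iff] at hx
    by_cases hxN : ‖x‖ ≤ ((2:ℝ)^N)⁻¹
    · exact Or.inr (by rw [mem_closedBall_zero_iff]; exact hxN)
    · left
      have hex : ∃ k, 1/2 ≤ (2:ℝ)^k * ‖x‖ := by
        refine ⟨N, ?_⟩
        have hp : (0:ℝ) < 2^N := by positivity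
        have := mul_lt_mul_of_pos_left (not_le.1 hxN) hp
        rw [mul_inv_cancel₀ hp.ne'] at this
        linarith
      set k := Nat.find hex with hk
      have hk1 := Nat.find_spec hex
      rw [← hk] at hk1
      have hk2 : (2:ℝ)^k * ‖x‖ ≤ 1 := by
        rcases Nat.eq_zero_or_pos k with h | h
        · rw [h]; simpa using hx
        · obtain ⟨m, hm⟩ : ∃ m, k = m + 1 := ⟨k - 1, by omega⟩
          have := Nat.find_min hex (m := m) (by omega)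
          rw [hm, pow_succ]
          linarith [not_le.1 this]
      have hkN : k < N := by
        by_contra hc
        have h1 : (2:ℝ)^N ≤ 2^k := pow_le_pow_right₀ (by norm_num) (not_lt.1 hc)
        have hp : (0:ℝ) < 2^N := by positivity
        have := mul_lt_mul_of_pos_left (not_le.1 hxN) hp
        rw [mul_inv_cancel₀ hp.ne'] at this
        nlinarith [norm_nonneg x]
      have hfoot : ‖foot k x‖ = 1 := by
        have e2 : ‖(2:ℝ)^k • x‖ = 2^k * ‖x‖ := by rw [norm_smul]; simp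
        rw [foot_eq, foot_zero]
        exact norm_cf ⟨by rw [e2]; exact hk1, by rw [e2]; exact hk2⟩
      obtain ⟨i, hi⟩ := mem_iUnion.1 (hcov (show foot k x ∈ sphere 0 1 by simpa using hfoot))
      exact mem_iUnion.2 ⟨(⟨k, hkN⟩, i), hk1, hk2, hi⟩
  set V : ℝ := 2 * 8^n * (r^n / r) with hV
  have hV0 : 0 ≤ V := by positivity
  have h16 : (0:ℝ) ≤ (16:ℝ)^p := by positivity
  have hstep : ∀ a : Fin N × ι, ENNReal.ofReal ((μ a.2 * (16 * 2^(a.1:ℕ)))^p) *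
      volume (sect a.1 (F a.2)) ≤
      ENNReal.ofReal ((16:ℝ)^p * V * (q^(a.1 : ℕ) * μ a.2 ^ p)) := by
    rintro ⟨k, i⟩
    have hnn : 0 ≤ μ i * (16 * 2^(k:ℕ)) := mul_nonneg (hμ i) (by positivity)
    refine (mul_le_mul' le_rfl (volume_sect k (F i) hr0 hr1 (hd i))).trans ?_
    rw [← ENNReal.ofReal_mul (by positivity)]
    apply le_of_eq
    congr 1
    rw [Real.mul_rpow (hμ i) (by positivity), Real.mul_rpow (by norm_num) (by positivity)]
    have := pow_aux (n := n) (k : ℕ) (p := p)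
    rw [← hq] at this
    calc μ i ^ p * ((16:ℝ)^p * ((2:ℝ)^(k:ℕ))^p) * ((((2:ℝ)^(k:ℕ))⁻¹)^n * (2 * 8^n * (r^n / r)))
        = (16:ℝ)^p * V * ((((2:ℝ)^(k:ℕ))^p * (((2:ℝ)^(k:ℕ))⁻¹)^n) * μ i ^ p) := by
          rw [hV]; ring
      _ = _ := by rw [this]
  have hin : ENNReal.ofReal ((L * (2 * 2^N))^p) *
      volume (closedBall (0 : Fin n → ℝ) (((2:ℝ)^N)⁻¹)) ≤ ENNReal.ofReal ε := by
    rw [Real.volume_pi_closedBall _ (by positivity), Fintype.card_fin,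
      ← ENNReal.ofReal_mul (by positivity)]
    apply ENNReal.ofReal_le_ofReal
    refine le_trans (le_of_eq ?_) hN
    have := pow_aux (n := n) N (p := p)
    rw [← hq] at this
    have e : (L * (2 * 2^N))^p = (2 * L)^p * ((2:ℝ)^N)^p := by
      rw [← Real.mul_rpow (by positivity) (by positivity)]
      congr 1; ring
    rw [e, mul_pow, ← this]
    ring
  refine ⟨Option (Fin N × ι), inferInstance, fun o => o.elim (closedBall 0 (((2:ℝ)^N)⁻¹))
    (fun a => sect a.1 (F a.2)), fun o => o.elim (L * (2 * 2^N))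
    (fun a => μ a.2 * (16 * 2^(a.1:ℕ))), ?_, ?_, ?_, ?_, ?_⟩
  · rintro (_ | a)
    · exact isClosed_closedBall.measurableSet
    · exact (isClosed_sect _ (hFc _)).measurableSet
  · rintro (_ | a)
    · show 0 ≤ L * (2 * 2^N)
      positivity
    · exact mul_nonneg (hμ a.2) (by positivity)
  · intro x hx
    rcases hcover hx with h | h
    · obtain ⟨a, ha⟩ := mem_iUnion.1 h
      exact mem_iUnion.2 ⟨some a, ha⟩
    · exact mem_iUnion.2 ⟨none, h⟩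
  · rintro (_ | a)
    · exact hinn
    · exact hsect a.1 a.1.2 a.2
  rw [Fintype.sum_option]
  show ENNReal.ofReal ((L * (2 * 2^N))^p) * volume (closedBall (0 : Fin n → ℝ) (((2:ℝ)^N)⁻¹)) +
    ∑ a : Fin N × ι, ENNReal.ofReal ((μ a.2 * (16 * 2^(a.1:ℕ)))^p) *
      volume (sect a.1 (F a.2)) ≤ _
  calc _ ≤ ENNReal.ofReal ε +
          (∑ a : Fin N × ι, ENNReal.ofReal ((16:ℝ)^p * V * (q^(a.1 : ℕ) * μ a.2 ^ p))) :=
        add_le_add hin (Finset.sum_le_sum fun a _ => hstep a)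
    _ = (∑ a : Fin N × ι, ENNReal.ofReal ((16:ℝ)^p * V * (q^(a.1 : ℕ) * μ a.2 ^ p))) +
          ENNReal.ofReal ε := add_comm _ _
    _ = ENNReal.ofReal ((∑ a : Fin N × ι, (16:ℝ)^p * V * (q^(a.1 : ℕ) * μ a.2 ^ p)) + ε) := by
        rw [ENNReal.ofReal_add (Finset.sum_nonneg fun a _ => ?_) hε.le,
          ENNReal.ofReal_sum_of_nonneg fun a _ => ?_]
        · have := Real.rpow_nonneg (hμ a.2) p
          positivity
        · have := Real.rpow_nonneg (hμ a.2) p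
          positivity
    _ ≤ _ := by
        apply ENNReal.ofReal_le_ofReal
        have e1 : ∑ a : Fin N × ι, (16:ℝ)^p * V * (q^(a.1 : ℕ) * μ a.2 ^ p) =
            (16:ℝ)^p * V * ((∑ k ∈ Finset.range N, q^k) * ∑ i, μ i ^ p) := by
          rw [← Finset.mul_sum, Fintype.sum_prod_type, Finset.sum_mul, Finset.sum_range]
          congr 1
          refine Finset.sum_congr rfl fun k _ => ?_
          rw [Finset.mul_sum]
        rw [e1]
        have h1 := geom_le hq0.le hq1 N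
        have h2 : 0 ≤ ∑ i, μ i ^ p := Finset.sum_nonneg fun i _ => Real.rpow_nonneg (hμ i) p
        have h3 : (16:ℝ)^p * V * ((∑ k ∈ Finset.range N, q^k) * ∑ i, μ i ^ p) ≤
            (16:ℝ)^p * V * ((1 / (1 - q)) * ∑ i, μ i ^ p) := by
          refine mul_le_mul_of_nonneg_left ?_ (by positivity)
          exact mul_le_mul_of_nonneg_right h1 h2
        have h4 : (16:ℝ)^p * V * ((1 / (1 - q)) * ∑ i, μ i ^ p) =
            Chole n p * (r^n / r) * ∑ i, μ i ^ p := by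
          rw [Chole, hV, ← hq]
          ring
        linarith

/-- **HOLE SQUEEZE, unit cube** -/
theorem hole_unit {p : ℝ} (hp0 : 0 < p) (hpn : p < n)
    {G : Type*} [NormedAddCommGroup G] [NormedSpace ℝ G] {ι : Type} [Fintype ι]
    (F : ι → Set (Fin n → ℝ)) (hFc : ∀ i, IsClosed (F i)) {r : ℝ} (hr0 : 0 < r) (hr1 : r ≤ 1)
    (hd : ∀ i, ∀ x ∈ F i, ∀ y ∈ F i, ‖x - y‖ ≤ r) (hcov : sphere 0 1 ⊆ ⋃ i, F i)
    {μ : ι → ℝ} (hμ : ∀ i, 0 ≤ μ i) (g : (Fin n → ℝ) → G) {τ₀ L : ℝ} (hτ₀ : 0 < τ₀) (hL0 : 0 ≤ L)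
    (hg : ∀ i, ∀ ω ∈ F i, ∀ y, ‖y‖ < 1 → ‖y - ω‖ ≤ τ₀ → LLV (μ i) g y)
    (hL : ∀ y, ‖y‖ < 1 → LLV L g y) {ε : ℝ} (hε : 0 < ε) :
    ∃ χ : (Fin n → ℝ) ≃ₜ (Fin n → ℝ), PLOn χ univ ∧ PLOn χ.symm univ ∧
      (∀ x, 1 ≤ ‖x‖ → χ x = x) ∧ (∀ x, ‖x‖ < 1 → ‖χ x‖ < 1) ∧
      ∫⁻ x in closedBall 0 1, ‖fderiv ℝ (fun x => g (χ x)) x‖ₑ^p ≤
        ENNReal.ofReal (Chole n p * (r^n / r) * ∑ i, μ i ^ p + ε) := by
  obtain ⟨χ, h1, h2, h3, h4, h5⟩ :=
    hole_unit_cov hp0 hpn F hFc hr0 hr1 hd hcov hμ g hτ₀ hL0 hg hL hε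
  exact ⟨χ, h1, h2, h3, h4, h5.fderiv_le hp0⟩

end Crest.Agent.R96.Hole_348
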