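/-
helper199, row 96, RATIONAL SHIFTS: for almost every real shift `a` every block has a good shift
`w` in a dense group; finite lists; choice of `a` off a bad set.
-/
import Mathlib
import Crest.Agent.R96.Sg2_199

set_option autoImplicit false

open MeasureTheory Set Filter Metric
open scoped Topology ENNReal Pointwise

namespace Crest.Agent.R96.Sg6_199

noncomputable section

variable {E : Type*} [NormedAddCommGroup E] [NormedSpace ℝ E] [FiniteDimensional ℝ E]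
  [MeasurableSpace E] [BorelSpace E] {μ : Measure E} [μ.IsAddHaarMeasure]

/-- some translate of `N` meets `G` in positive measure -/
theorem exists_inter {G N : Set E} (hG : MeasurableSet G) (hN : MeasurableSet N) (hG0 : μ G ≠ 0)
    (hN0 : μ N ≠ 0) : ∃ x : E, μ {y | y ∈ G ∧ y - x ∈ N} ≠ 0 := by
  by_contra hcon
  push Not at hcon
  have hmeas : Measurable fun q : E × E => G.indicator (1 : E → ℝ≥0∞) q.2 *
      N.indicator (1 : E → ℝ≥0∞) (q.2 - q.1) :=
    ((measurable_one.indicator hG).comp measurable_snd).mul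
      ((measurable_one.indicator hN).comp (measurable_snd.sub measurable_fst))
  have h1 : ∫⁻ x, ∫⁻ y, G.indicator (1 : E → ℝ≥0∞) y * N.indicator (1 : E → ℝ≥0∞) (y - x) ∂μ ∂μ
      = 0 := by
    have h2 : ∀ x : E, ∫⁻ y, G.indicator (1 : E → ℝ≥0∞) y *
        N.indicator (1 : E → ℝ≥0∞) (y - x) ∂μ = 0 := by
      intro x
      have h3 : ∀ y, G.indicator (1 : E → ℝ≥0∞) y * N.indicator (1 : E → ℝ≥0∞) (y - x) =
          {y | y ∈ G ∧ y - x ∈ N}.indicator 1 y := by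
        intro y
        by_cases hy : y ∈ G <;> by_cases hy' : y - x ∈ N <;> simp [hy, hy']
      have h4 : MeasurableSet {y | y ∈ G ∧ y - x ∈ N} :=
        hG.inter ((measurable_id.sub_const x) hN)
      simp only [h3]
      rw [lintegral_indicator_one h4]
      exact hcon x
    simp only [h2, lintegral_zero]
  rw [lintegral_lintegral_swap hmeas.aemeasurable] at h1
  have h4 : ∀ y : E, ∫⁻ x, G.indicator (1 : E → ℝ≥0∞) y * N.indicator (1 : E → ℝ≥0∞) (y - x) ∂μ =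
      G.indicator (1 : E → ℝ≥0∞) y * μ N := by
    intro y
    have h5 : Measurable fun x : E => N.indicator (1 : E → ℝ≥0∞) (y - x) :=
      (measurable_one.indicator hN).comp (measurable_const.sub measurable_id)
    rw [lintegral_const_mul _ h5, lintegral_sub_left_eq_self (μ := μ) (N.indicator 1) y,
      lintegral_indicator_one hN]
  simp only [h4] at h1
  rw [lintegral_mul_const _ (measurable_one.indicator hG), lintegral_indicator_one hG,
    mul_eq_zero] at h1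
  exact h1.elim hG0 hN0

/-- **for almost every `a` there is `w` in the dense set `Γ` with `a + w ∈ G`** -/
theorem ae_exists_shift {G : Set E} (hG : MeasurableSet G) (hG0 : μ G ≠ 0) (hG1 : μ G ≠ ∞)
    {Γ : Set E} (hΓ : Γ.Countable) (hd : Dense Γ) : ∀ᵐ a ∂μ, ∃ w ∈ Γ, a + w ∈ G := by
  have hNm : MeasurableSet {a : E | ¬ ∃ w ∈ Γ, a + w ∈ G} := by
    have : {a : E | ¬ ∃ w ∈ Γ, a + w ∈ G} = ⋂ w ∈ Γ, (fun a => a + w) ⁻¹' Gᶜ := by
      ext a
      simp only [not_exists, not_and, mem_ofPred_eq, mem_iInter, mem_preimage, mem_compl_iff]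
    rw [this]
    exact MeasurableSet.biInter hΓ fun w _ => (measurable_id.add_const w) hG.compl
  rw [ae_iff]
  by_contra hN0
  obtain ⟨x, hx⟩ := exists_inter (μ := μ) hG hNm hG0 hN0
  have hS : MeasurableSet {y | y ∈ G ∧ y - x ∈ {a : E | ¬ ∃ w ∈ Γ, a + w ∈ G}} :=
    hG.inter ((measurable_id.sub_const x) hNm)
  have hS1 : μ {y | y ∈ G ∧ y - x ∈ {a : E | ¬ ∃ w ∈ Γ, a + w ∈ G}} ≠ ∞ :=
    ((measure_mono fun y hy => hy.1).trans_lt hG1.lt_top).ne
  have h1 := Measure.sub_mem_nhds_zero_of_addHaar_pos_ne_top μ _ hS (pos_iff_ne_zero.2 hx) hS1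
  rw [Metric.mem_nhds_iff] at h1
  obtain ⟨ρ, hρ, h2⟩ := h1
  obtain ⟨γ, hγx, hγ⟩ := Metric.dense_iff.1 hd x ρ hρ
  have h3 : γ - x ∈ ball (0:E) ρ := by
    rw [mem_ball, dist_zero_right, ← dist_eq_norm]
    exact hγx
  obtain ⟨s1, hs1, s2, hs2, h4⟩ := h2 h3
  refine hs2.2 ⟨γ, hγ, ?_⟩
  have h5 : s2 - x + γ = s1 := by
    have : s1 - s2 = γ - x := h4
    rw [sub_eq_sub_iff_add_eq_add] at this
    calc s2 - x + γ = (γ + s2) - x := by abel
      _ = (s1 + x) - x := by rw [← this]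
      _ = s1 := add_sub_cancel_right _ _
  rw [h5]
  exact hs1.1

/-- **finite list of shifts**: off a set of `a`'s of small measure one of the shifts of a finite
list is good (`Γ j` increasing, with dense union) -/
theorem exists_list {G : Set E} (hG : MeasurableSet G) (hG0 : μ G ≠ 0) (hG1 : μ G ≠ ∞)
    {Γ : ℕ → Set E} (hΓ : ∀ j, (Γ j).Countable) (hm : Monotone Γ) (hd : Dense (⋃ j, Γ j))
    {A : Set E} (hA : MeasurableSet A) (hA1 : μ A ≠ ∞) {ε : ℝ≥0∞} (hε : ε ≠ 0) :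
    ∃ j, μ {a | a ∈ A ∧ ∀ w ∈ Γ j, a + w ∉ G} ≤ ε := by
  have h1 := ae_exists_shift (μ := μ) hG hG0 hG1 (countable_iUnion hΓ) hd
  set N : ℕ → Set E := fun j => {a | a ∈ A ∧ ∀ w ∈ Γ j, a + w ∉ G} with hN
  have hNm : ∀ j, MeasurableSet (N j) := by
    intro j
    have : N j = A ∩ ⋂ w ∈ Γ j, (fun a => a + w) ⁻¹' Gᶜ := by
      ext a
      simp only [hN, mem_ofPred_eq, mem_inter_iff, mem_iInter, mem_preimage, mem_compl_iff]
    rw [this]
    exact hA.inter (MeasurableSet.biInter (hΓ j) fun w _ => (measurable_id.add_const w) hG.compl)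
  have hanti : Antitone N := fun j j' h a ha => ⟨ha.1, fun w hw => ha.2 w (hm h hw)⟩
  have h2 : Tendsto (fun j => μ (N j)) atTop (𝓝 (μ (⋂ j, N j))) :=
    tendsto_measure_iInter_atTop (fun j => (hNm j).nullMeasurableSet) hanti
      ⟨0, ((measure_mono fun a ha => ha.1).trans_lt hA1.lt_top).ne⟩
  have h3 : μ (⋂ j, N j) = 0 := by
    refine measure_mono_null ?_ (ae_iff.1 h1)
    intro a ha
    rintro ⟨w, hw, hwG⟩
    obtain ⟨j, hj⟩ := mem_iUnion.1 hw
    exact (mem_iInter.1 ha j).2 w hj hwG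
  rw [h3] at h2
  obtain ⟨j, hj⟩ := ((ENNReal.tendsto_nhds_zero.1 h2) ε (pos_iff_ne_zero.2 hε)).exists
  exact ⟨j, hj⟩

omit [NormedSpace ℝ E] [FiniteDimensional ℝ E] [BorelSpace E] [NormedAddCommGroup E]
  [μ.IsAddHaarMeasure] in
/-- **choice of the translate off a bad set** -/
theorem exists_translate_bad {ι' : Type*} [Countable ι'] {B Z : Set E} (hB : MeasurableSet B)
    (hZ : μ Z ≤ μ B / 2) (hB0 : μ B ≠ 0) (hB1 : μ B ≠ ∞) {F : ι' → E → ℝ≥0∞}
    (hF : ∀ i, AEMeasurable (F i) (μ.restrict B)) {κ : ι' → ℝ≥0∞} (hκ0 : ∀ i, κ i ≠ 0)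
    (hκ : ∑' i, (κ i)⁻¹ < 1) {P : E → Prop} (hP : ∀ᵐ a ∂μ, a ∈ B → P a) :
    ∃ a ∈ B, a ∉ Z ∧ P a ∧ ∀ i, F i a ≤ 2 * κ i * ((μ B)⁻¹ * ∫⁻ a in B, F i a ∂μ) := by
  set Z' : Set E := toMeasurable μ Z with hZ'
  have hZm : MeasurableSet Z' := measurableSet_toMeasurable μ Z
  have hZ'1 : μ Z' ≤ μ B / 2 := by rw [hZ', measure_toMeasurable]; exact hZ
  have hhalf : μ B / 2 ≤ μ (B \ Z') := by
    have h1 : μ B ≤ μ (B \ Z') + μ Z' := by
      rw [← measure_inter_add_sdiff B hZm, add_comm]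
      gcongr
      exact inter_subset_right
    have h2 : μ B ≤ μ (B \ Z') + μ B / 2 := h1.trans (add_le_add_right hZ'1 _)
    have h3 : μ B / 2 + μ B / 2 ≤ μ (B \ Z') + μ B / 2 := by rwa [ENNReal.add_halves]
    exact (ENNReal.add_le_add_iff_right (ENNReal.div_ne_top hB1 two_ne_zero)).1 h3
  have hB' : MeasurableSet (B \ Z') := hB.diff hZm
  have hpos : μ (B \ Z') ≠ 0 := by
    intro h
    rw [h, nonpos_iff_eq_zero] at hhalf
    exact (ENNReal.div_pos hB0 ENNReal.ofNat_ne_top).ne' hhalf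
  have hfin : μ (B \ Z') ≠ ∞ := ((measure_mono sdiff_subset).trans_lt hB1.lt_top).ne
  obtain ⟨a, ha, hPa, h⟩ := Sg2_199.exists_translate (μ := μ) hB' hpos hfin (F := F)
    (fun i => (hF i).mono_measure (Measure.restrict_mono sdiff_subset le_rfl)) hκ0 hκ
    (hP.mono fun a h ha => h ha.1)
  refine ⟨a, ha.1, fun hz => ha.2 (subset_toMeasurable μ Z hz), hPa, fun i => (h i).trans ?_⟩
  have h4 : (μ (B \ Z'))⁻¹ ≤ 2 * (μ B)⁻¹ := by
    calc (μ (B \ Z'))⁻¹ ≤ (μ B / 2)⁻¹ := ENNReal.inv_le_inv.2 hhalf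
      _ = 2 * (μ B)⁻¹ := by
        rw [ENNReal.inv_div (Or.inl ENNReal.ofNat_ne_top) (Or.inl two_ne_zero), div_eq_mul_inv]
  calc κ i * ((μ (B \ Z'))⁻¹ * ∫⁻ a in B \ Z', F i a ∂μ)
      ≤ κ i * ((2 * (μ B)⁻¹) * ∫⁻ a in B, F i a ∂μ) := by
        gcongr
        exact sdiff_subset
    _ = _ := by ring

end

end Crest.Agent.R96.Sg6_199
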