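/-
helper199, row 96, SEL-BLOCK: lists of shifts of countably many blocks, then the common translate.
-/
import Mathlib
import Crest.Agent.R96.Sg6_199

set_option autoImplicit false

open MeasureTheory Set Filter Metric
open scoped Topology ENNReal Pointwise

namespace Crest.Agent.R96.Sg7_199

open Crest.Agent.R96.Sg6_199

noncomputable section

variable {E : Type*} [NormedAddCommGroup E] [NormedSpace ℝ E] [FiniteDimensional ℝ E]
  [MeasurableSpace E] [BorelSpace E] {μ : Measure E} [μ.IsAddHaarMeasure]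

/-- **STAGE 1: the lists** (before the fine levels `k c`) -/
theorem exists_lists {𝒞 : Type*} [Countable 𝒞] {A : Set E} (hA : MeasurableSet A)
    (hA0 : μ A ≠ 0) (hA1 : μ A ≠ ∞) {G : 𝒞 → Set E} (hG : ∀ c, MeasurableSet (G c))
    (hG0 : ∀ c, μ (G c) ≠ 0) (hG1 : ∀ c, μ (G c) ≠ ∞) {Γ : 𝒞 → ℕ → Set E}
    (hΓ : ∀ c j, (Γ c j).Countable) (hm : ∀ c, Monotone (Γ c)) (hd : ∀ c, Dense (⋃ j, Γ c j)) :
    ∃ j : 𝒞 → ℕ, μ (⋃ c, {a | a ∈ A ∧ ∀ w ∈ Γ c (j c), a + w ∉ G c}) ≤ μ A / 2 := by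
  have h0 : μ A / 2 ≠ 0 := (ENNReal.div_pos hA0 ENNReal.ofNat_ne_top).ne'
  obtain ⟨δ, hδ0, hδ⟩ := ENNReal.exists_pos_sum_of_countable' h0 𝒞
  have h1 : ∀ c, ∃ j, μ {a | a ∈ A ∧ ∀ w ∈ Γ c j, a + w ∉ G c} ≤ δ c := fun c =>
    exists_list (hG c) (hG0 c) (hG1 c) (hΓ c) (hm c) (hd c) hA hA1 (hδ0 c).ne'
  choose j hj using h1
  exact ⟨j, (measure_iUnion_le _).trans ((ENNReal.tsum_le_tsum hj).trans hδ.le)⟩

/-- **STAGE 2: the common translate** -/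
theorem exists_common {𝒞 : Type*} {A : Set E} (hA : MeasurableSet A) (hA0 : μ A ≠ 0)
    (hA1 : μ A ≠ ∞) {G : 𝒞 → Set E} {W : 𝒞 → Set E}
    (hZ : μ (⋃ c, {a | a ∈ A ∧ ∀ w ∈ W c, a + w ∉ G c}) ≤ μ A / 2)
    {ι' : Type*} [Countable ι'] {F : ι' → E → ℝ≥0∞}
    (hF : ∀ i, AEMeasurable (F i) (μ.restrict A)) {κ : ι' → ℝ≥0∞} (hκ0 : ∀ i, κ i ≠ 0)
    (hκ : ∑' i, (κ i)⁻¹ < 1) {P : E → Prop} (hP : ∀ᵐ a ∂μ, a ∈ A → P a) :
    ∃ a ∈ A, P a ∧ (∀ c, ∃ w ∈ W c, a + w ∈ G c) ∧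
      ∀ i, F i a ≤ 2 * κ i * ((μ A)⁻¹ * ∫⁻ a in A, F i a ∂μ) := by
  obtain ⟨a, ha, haZ, hPa, h⟩ := exists_translate_bad hA hZ hA0 hA1 hF hκ0 hκ hP
  refine ⟨a, ha, hPa, fun c => ?_, h⟩
  by_contra hcon
  push Not at hcon
  exact haZ (mem_iUnion.2 ⟨c, ha, hcon⟩)

/-- **Chebyshev for the shifts of one block**: the set of the good total shifts in `B` has positive
measure (at least `(1 - Σ 1/κ) μ B`) -/
theorem good_shifts {ι' : Type*} [Countable ι'] {B : Set E} (hB : MeasurableSet B)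
    {F : ι' → E → ℝ≥0∞} (hF : ∀ i, Measurable (F i)) {κ m : ι' → ℝ≥0∞}
    (hm0 : ∀ i, m i ≠ 0) (hκ1 : ∀ i, κ i ≠ ∞) (hκ0 : ∀ i, κ i ≠ 0)
    (hm : ∀ i, ∫⁻ a in B, F i a ∂μ ≤ m i * μ B)
    {θ : ℝ≥0∞} (hκ : ∑' i, (κ i)⁻¹ ≤ θ) {P : E → Prop} (hP : ∀ᵐ a ∂μ, a ∈ B → P a) :
    ∃ G ⊆ B, MeasurableSet G ∧ μ (B \ G) ≤ θ * μ B ∧ ∀ a ∈ G, P a ∧ ∀ i, F i a ≤ κ i * m i := by
  set N : Set E := toMeasurable μ {a | ¬ (a ∈ B → P a)} with hN
  have hN0 : μ N = 0 := by rw [hN, measure_toMeasurable]; exact ae_iff.1 hP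
  have hNm : MeasurableSet N := measurableSet_toMeasurable _ _
  set Z : ι' → Set E := fun i => B ∩ {a | κ i * m i < F i a} with hZ
  have hZm : ∀ i, MeasurableSet (Z i) := fun i =>
    hB.inter (measurableSet_lt measurable_const (hF i))
  refine ⟨B \ (N ∪ ⋃ i, Z i), sdiff_subset, hB.diff (hNm.union (MeasurableSet.iUnion hZm)), ?_,
    fun a ha => ⟨?_, fun i => ?_⟩⟩
  · have h1 : B \ (B \ (N ∪ ⋃ i, Z i)) ⊆ N ∪ ⋃ i, Z i := by
      intro a ha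
      by_contra h
      exact ha.2 ⟨ha.1, h⟩
    have h2 : ∀ i, μ (Z i) ≤ (κ i)⁻¹ * μ B := by
      intro i
      by_cases hmi : m i = ∞
      · have h3 : Z i = ∅ := by
          rw [eq_empty_iff_forall_notMem]
          rintro a ⟨-, ha⟩
          have ha' : κ i * m i < F i a := ha
          rw [hmi, ENNReal.mul_top (hκ0 i)] at ha'
          exact not_top_lt ha'
        rw [h3, measure_empty]
        exact zero_le
      have hkm0 : κ i * m i ≠ 0 := mul_ne_zero (hκ0 i) (hm0 i)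
      have hkm1 : κ i * m i ≠ ∞ := ENNReal.mul_ne_top (hκ1 i) hmi
      have h3 : μ.restrict B {a | κ i * m i ≤ F i a} ≤ (∫⁻ a in B, F i a ∂μ) / (κ i * m i) :=
        meas_ge_le_lintegral_div (hF i).aemeasurable hkm0 hkm1
      have h4 : μ (Z i) ≤ μ.restrict B {a | κ i * m i ≤ F i a} := by
        rw [Measure.restrict_apply (measurableSet_le measurable_const (hF i))]
        refine measure_mono ?_
        rintro a ⟨ha1, ha2⟩
        exact ⟨le_of_lt (show κ i * m i < F i a from ha2), ha1⟩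
      refine h4.trans (h3.trans (ENNReal.div_le_of_le_mul ((hm i).trans (le_of_eq ?_))))
      calc m i * μ B = ((κ i)⁻¹ * κ i) * (m i * μ B) := by
            rw [ENNReal.inv_mul_cancel (hκ0 i) (hκ1 i), one_mul]
        _ = _ := by ring
    calc μ (B \ (B \ (N ∪ ⋃ i, Z i))) ≤ μ (N ∪ ⋃ i, Z i) := measure_mono h1
      _ ≤ μ N + ∑' i, μ (Z i) := (measure_union_le _ _).trans
          (add_le_add_right (measure_iUnion_le _) _)
      _ ≤ 0 + ∑' i, (κ i)⁻¹ * μ B := by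
          rw [hN0]
          gcongr with i
          exact h2 i
      _ = (∑' i, (κ i)⁻¹) * μ B := by rw [zero_add, ENNReal.tsum_mul_right]
      _ ≤ θ * μ B := by gcongr
  · by_contra hcon
    exact ha.2 (Or.inl (subset_toMeasurable _ _ fun h => hcon (h ha.1)))
  · by_contra hcon
    exact ha.2 (Or.inr (mem_iUnion.2 ⟨i, ha.1, not_le.1 hcon⟩))

end

end Crest.Agent.R96.Sg7_199
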