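/-
helper199, row 96, TILE-ENERGY, part 4: tiles which are active only for some of the shifts (outer
Whitney meshes with a fixed size function, layers at the walls, transition cells); the average is
controlled by the multiplicity `Σ_i μ (Til i) 1_(Til i + Ac i)`.
-/
import Mathlib
import Crest.Agent.R96.Sg5_199
import Crest.Agent.R96.Sg7_199

set_option autoImplicit false

open MeasureTheory Set Filter Metric
open scoped Topology ENNReal

namespace Crest.Agent.R96.Sg8_199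

open Crest.Agent.R96.Acl_392 Crest.Agent.R96.Sob2_199 Crest.Agent.R96.Sob3_199
  Crest.Agent.R96.Sg1_199 Crest.Agent.R96.Sg2_199 Crest.Agent.R96.Sg3_199
  Crest.Agent.R96.Sg4_199 Crest.Agent.R96.Sg5_199 Crest.Agent.R96.Sg7_199

noncomputable section

variable {E : Type*} [NormedAddCommGroup E] [NormedSpace ℝ E] [FiniteDimensional ℝ E]
  [MeasurableSpace E] [BorelSpace E] {μ : Measure E} [μ.IsAddHaarMeasure]

/-- the energy of the tiles which are active for the shift `a` -/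
def EnA {τ η : Type*} (μ : Measure E) (Til : τ → Set E) (Ac : τ → Set E) (Ed : τ → Finset η)
    (β : τ → ℝ≥0∞) (G : η → E → ℝ≥0∞) (x v : η → E) (p : ℝ) (a : E) : ℝ≥0∞ :=
  ∑' i, (Ac i).indicator (fun a => μ (Til i) * (β i * ∑ j ∈ Ed i, li (G j) (x j + a) (v j)) ^ p) a

/-- the multiplicity -/
def Mu {τ : Type*} (μ : Measure E) (Til : τ → Set E) (Ac : τ → Set E) (z : E) : ℝ≥0∞ :=
  ∑' i, {z : E | ∃ y ∈ Til i, z - y ∈ Ac i}.indicator (fun _ => μ (Til i)) z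

omit [μ.IsAddHaarMeasure] in
theorem measurable_EnA {τ η : Type*} [Countable τ] (Til : τ → Set E) {Ac : τ → Set E}
    (hA : ∀ i, MeasurableSet (Ac i)) (Ed : τ → Finset η)
    (β : τ → ℝ≥0∞) (x v : η → E) {G : η → E → ℝ≥0∞} (hG : ∀ j, Measurable (G j)) (p : ℝ) :
    Measurable (EnA μ Til Ac Ed β G x v p) := by
  unfold EnA
  refine Measurable.tsum fun i => ?_
  refine Measurable.indicator ?_ (hA i)
  refine (Measurable.pow_const ?_ p).const_mul _
  refine (Finset.measurable_sum _ fun j _ => ?_).const_mul _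
  exact measurable_li (hG j) (x j) (v j)

omit [FiniteDimensional ℝ E] in
theorem measurable_dn {B : Set E} (hB : MeasurableSet B) (x v : E) :
    Measurable fun z => dn B x v z := by
  unfold dn
  have hc : Continuous fun q : E × ℝ => q.1 - (x + q.2 • v) := by fun_prop
  have hS : MeasurableSet {q : E × ℝ | q.2 ∈ Icc (0:ℝ) 1 ∧ q.1 - (x + q.2 • v) ∈ B} :=
    (measurable_snd measurableSet_Icc).inter (hc.measurable hB)
  exact measurable_measure_prodMk_left hS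

/-- **AVERAGE OF THE ENERGY OF THE ACTIVE TILES** -/
theorem act_avg {τ η : Type*} [Countable τ] {Til : τ → Set E} {Ac : τ → Set E}
    (hA : ∀ i, MeasurableSet (Ac i)) (Ed : τ → Finset η) {n : ℕ} (hn : ∀ i, (Ed i).card ≤ n)
    (x v : η → E) (hsub : ∀ i, ∀ j ∈ Ed i, sgm (x j) (v j) ⊆ Til i) (β : τ → ℝ≥0∞)
    {G : η → E → ℝ≥0∞} (hG : ∀ j, Measurable (G j)) {H : E → ℝ≥0∞} {c : η → ℝ≥0∞}
    (hGH : ∀ᵐ z ∂μ, ∀ i, ∀ j ∈ Ed i, G j z ≤ c j * H z) {K : ℝ≥0∞} (hK : K ≠ ∞)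
    (hβ : ∀ i, ∀ j ∈ Ed i, β i * c j ≤ K) {R : Set E} (hR : MeasurableSet R)
    (hRA : ∀ i, ∀ y ∈ Til i, ∀ b ∈ Ac i, y + b ∈ R) {M : ℝ≥0∞} (hM1 : M ≠ ∞)
    (hM : ∀ z ∈ R, Mu μ Til Ac z ≤ M) {p : ℝ} (hp : 1 ≤ p) :
    ∫⁻ a, EnA μ Til Ac Ed β G x v p a ∂μ ≤ (n * K) ^ p * M * ∫⁻ z in R, H z ^ p ∂μ := by
  have hp0 : 0 ≤ p := by linarith
  have hfin : (n * K) ^ p * M ≠ ∞ := ENNReal.mul_ne_top (ENNReal.rpow_ne_top_of_nonneg hp0
      (ENNReal.mul_ne_top (ENNReal.natCast_ne_top n) hK)) hM1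
  -- one tile
  have h1 : ∀ i, ∫⁻ a, (Ac i).indicator
      (fun a => μ (Til i) * (β i * ∑ j ∈ Ed i, li (G j) (x j + a) (v j)) ^ p) a ∂μ ≤
      ∫⁻ z, ∑ j ∈ Ed i, (μ (Til i) * ((n:ℝ≥0∞) ^ (p - 1) * β i ^ p)) *
        (G j z ^ p * dn (Ac i) (x j) (v j) z) ∂μ := by
    intro i
    have h2 : ∀ a, μ (Til i) * (β i * ∑ j ∈ Ed i, li (G j) (x j + a) (v j)) ^ p ≤
        ∑ j ∈ Ed i, (μ (Til i) * ((n:ℝ≥0∞) ^ (p - 1) * β i ^ p)) *
            li (fun y => G j y ^ p) (x j + a) (v j) := by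
      intro a
      have h3 : (∑ j ∈ Ed i, li (G j) (x j + a) (v j)) ^ p ≤
          (n:ℝ≥0∞) ^ (p - 1) * ∑ j ∈ Ed i, li (fun y => G j y ^ p) (x j + a) (v j) := by
        refine (ENNReal.rpow_sum_le_const_mul_sum_rpow (Ed i) _ hp).trans ?_
        refine mul_le_mul' (ENNReal.rpow_le_rpow (by exact_mod_cast hn i) (by linarith)) ?_
        exact Finset.sum_le_sum fun j _ => li_rpow_le (hG j) _ _ hp
      calc μ (Til i) * (β i * ∑ j ∈ Ed i, li (G j) (x j + a) (v j)) ^ p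
          = μ (Til i) * (β i ^ p * (∑ j ∈ Ed i, li (G j) (x j + a) (v j)) ^ p) := by
            rw [ENNReal.mul_rpow_of_nonneg _ _ hp0]
        _ ≤ μ (Til i) * (β i ^ p * ((n:ℝ≥0∞) ^ (p - 1) *
              ∑ j ∈ Ed i, li (fun y => G j y ^ p) (x j + a) (v j))) := by gcongr
        _ = _ := by
            rw [← Finset.mul_sum]; ring
    rw [lintegral_indicator (hA i)]
    refine (lintegral_mono h2).trans ?_
    have hm1 : ∀ j, Measurable fun a => li (fun y => G j y ^ p) (x j + a) (v j) := fun j =>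
      measurable_li ((hG j).pow_const p) (x j) (v j)
    have hm2 : ∀ j, Measurable fun z => G j z ^ p * dn (Ac i) (x j) (v j) z := fun j =>
      ((hG j).pow_const p).mul (measurable_dn (hA i) _ _)
    rw [lintegral_finsetSum _ fun j _ => (hm1 j).const_mul _,
      lintegral_finsetSum _ fun j _ => (hm2 j).const_mul _]
    refine Finset.sum_le_sum fun j _ => ?_
    rw [lintegral_const_mul _ (hm1 j), lintegral_const_mul _ (hm2 j),
      tonelli_one (hA i) ((hG j).pow_const p)]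
  -- all tiles
  have h4 : ∫⁻ a, EnA μ Til Ac Ed β G x v p a ∂μ ≤
      ∫⁻ z, ∑' i, ∑ j ∈ Ed i, (μ (Til i) * ((n:ℝ≥0∞) ^ (p - 1) * β i ^ p)) *
        (G j z ^ p * dn (Ac i) (x j) (v j) z) ∂μ := by
    unfold EnA
    rw [lintegral_tsum, lintegral_tsum]
    · exact ENNReal.tsum_le_tsum h1
    · intro i
      refine (Finset.measurable_sum _ fun j _ => ?_).aemeasurable
      exact (((hG j).pow_const p).mul (measurable_dn (hA i) _ _)).const_mul _
    · intro i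
      refine (Measurable.indicator ?_ (hA i)).aemeasurable
      refine (Measurable.pow_const ?_ p).const_mul _
      refine (Finset.measurable_sum _ fun j _ => ?_).const_mul _
      exact measurable_li (hG j) (x j) (v j)
  refine h4.trans ?_
  rw [← lintegral_const_mul' _ _ hfin, ← lintegral_indicator hR]
  apply lintegral_mono_ae
  filter_upwards [hGH] with z hz
  -- one tile, at the point `z`
  have h5 : ∀ i, ∑ j ∈ Ed i, (μ (Til i) * ((n:ℝ≥0∞) ^ (p - 1) * β i ^ p)) *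
      (G j z ^ p * dn (Ac i) (x j) (v j) z) ≤
      (n * K) ^ p * {z : E | ∃ y ∈ Til i, z - y ∈ Ac i}.indicator (fun _ => μ (Til i)) z *
        H z ^ p := by
    intro i
    by_cases hi : z ∈ {z : E | ∃ y ∈ Til i, z - y ∈ Ac i}
    · rw [indicator_of_mem hi]
      have h6 : ∀ j ∈ Ed i, (μ (Til i) * ((n:ℝ≥0∞) ^ (p - 1) * β i ^ p)) *
          (G j z ^ p * dn (Ac i) (x j) (v j) z) ≤
          (n:ℝ≥0∞) ^ (p - 1) * K ^ p * μ (Til i) * H z ^ p := by
        intro j hj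
        calc (μ (Til i) * ((n:ℝ≥0∞) ^ (p - 1) * β i ^ p)) *
              (G j z ^ p * dn (Ac i) (x j) (v j) z)
            ≤ (μ (Til i) * ((n:ℝ≥0∞) ^ (p - 1) * β i ^ p)) * ((c j * H z) ^ p * 1) := by
              gcongr
              · exact hz i j hj
              · exact dn_le_one _ _ _ _
          _ = (n:ℝ≥0∞) ^ (p - 1) * (β i * c j) ^ p * μ (Til i) * H z ^ p := by
              rw [ENNReal.mul_rpow_of_nonneg _ _ hp0, ENNReal.mul_rpow_of_nonneg _ _ hp0]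
              ring
          _ ≤ _ := by
              gcongr
              exact hβ i j hj
      calc ∑ j ∈ Ed i, (μ (Til i) * ((n:ℝ≥0∞) ^ (p - 1) * β i ^ p)) *
            (G j z ^ p * dn (Ac i) (x j) (v j) z)
          ≤ ∑ _j ∈ Ed i, (n:ℝ≥0∞) ^ (p - 1) * K ^ p * μ (Til i) * H z ^ p :=
            Finset.sum_le_sum h6
        _ = (Ed i).card * ((n:ℝ≥0∞) ^ (p - 1) * K ^ p * μ (Til i) * H z ^ p) := by
            rw [Finset.sum_const, nsmul_eq_mul]
        _ ≤ n * ((n:ℝ≥0∞) ^ (p - 1) * K ^ p * μ (Til i) * H z ^ p) := by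
            gcongr
            exact hn i
        _ = (n * K) ^ p * μ (Til i) * H z ^ p := by
            rw [ENNReal.mul_rpow_of_nonneg _ _ hp0]
            have h5 : (n:ℝ≥0∞) ^ p = n * (n:ℝ≥0∞) ^ (p - 1) := by
              rcases Nat.eq_zero_or_pos n with h | h
              · rw [h, Nat.cast_zero, zero_mul, ENNReal.zero_rpow_of_pos (by linarith)]
              · have hn0 : (n:ℝ≥0∞) ≠ 0 := by exact_mod_cast h.ne'
                have : p = 1 + (p - 1) := by ring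
                conv_lhs => rw [this]
                rw [ENNReal.rpow_add _ _ hn0 (ENNReal.natCast_ne_top n), ENNReal.rpow_one]
            rw [h5]
            ring
    · rw [indicator_of_notMem hi, mul_zero, zero_mul]
      refine le_of_eq (Finset.sum_eq_zero fun j hj => ?_)
      rw [dn_eq_zero fun y hy hyB => hi ⟨y, hsub i j hj hy, hyB⟩, mul_zero, mul_zero]
  calc ∑' i, ∑ j ∈ Ed i, (μ (Til i) * ((n:ℝ≥0∞) ^ (p - 1) * β i ^ p)) *
        (G j z ^ p * dn (Ac i) (x j) (v j) z)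
      ≤ ∑' i, (n * K) ^ p *
          {z : E | ∃ y ∈ Til i, z - y ∈ Ac i}.indicator (fun _ => μ (Til i)) z * H z ^ p :=
        ENNReal.tsum_le_tsum h5
    _ = (n * K) ^ p * Mu μ Til Ac z * H z ^ p := by
        rw [ENNReal.tsum_mul_right, ENNReal.tsum_mul_left]
        rfl
    _ ≤ R.indicator (fun z => (n * K) ^ p * M * H z ^ p) z := by
        by_cases hzR : z ∈ R
        · rw [indicator_of_mem hzR]
          gcongr
          exact hM z hzR
        · rw [indicator_of_notMem hzR]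
          have h7 : Mu μ Til Ac z = 0 := by
            unfold Mu
            refine ENNReal.tsum_eq_zero.2 fun i => indicator_of_notMem ?_ _
            rintro ⟨y, hy, hb⟩
            apply hzR
            have := hRA i y hy _ hb
            rwa [add_sub_cancel] at this
          rw [h7, mul_zero, zero_mul]

/-! ### bounds for the multiplicity -/

omit [NormedSpace ℝ E] [FiniteDimensional ℝ E] [BorelSpace E] [μ.IsAddHaarMeasure] in
/-- (a) tiles with pairwise disjoint interiors: volume of a ball -/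
theorem Mu_le_ball {τ : Type*} [Countable τ] {Til : τ → Set E} {Ac : τ → Set E}
    (hm : ∀ i, MeasurableSet (Til i)) (hdis : Pairwise (Function.onFun (AEDisjoint μ) Til))
    {D r : ℝ} (hD : ∀ i, ∀ y ∈ Til i, ∀ y' ∈ Til i, dist y' y ≤ D)
    (hBr : ∀ i, ∀ w ∈ Ac i, ‖w‖ ≤ r) (z : E) : Mu μ Til Ac z ≤ μ (closedBall z (r + D)) := by
  set S : Set τ := {i | ∃ y ∈ Til i, z - y ∈ Ac i} with hS
  have h1 : Mu μ Til Ac z = ∑' i : S, μ (Til i) := by
    unfold Mu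
    rw [tsum_subtype S fun i => μ (Til i)]
    refine tsum_congr fun i => ?_
    by_cases hi : i ∈ S
    · rw [indicator_of_mem hi, indicator_of_mem (by exact hi)]
    · rw [indicator_of_notMem hi, indicator_of_notMem (by exact hi)]
  rw [h1]
  refine sum_vol_le hm hdis hD z fun i hi => ?_
  obtain ⟨y, hy, hb⟩ := hi
  refine ⟨y, hy, ?_⟩
  rw [dist_comm, dist_eq_norm]
  exact hBr i _ hb

omit [NormedSpace ℝ E] [FiniteDimensional ℝ E] [BorelSpace E] [μ.IsAddHaarMeasure] in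
/-- (b) the total volume of the tiles (thin layers) -/
theorem Mu_le_vol {τ : Type*} {Til : τ → Set E} {Ac : τ → Set E} (z : E) :
    Mu μ Til Ac z ≤ ∑' i, μ (Til i) := by
  unfold Mu
  exact ENNReal.tsum_le_tsum fun i => indicator_le_self _ _ _

omit [NormedSpace ℝ E] [FiniteDimensional ℝ E] [BorelSpace E] [μ.IsAddHaarMeasure] in
/-- (c) families of families (scales): the multiplicities add up -/
theorem Mu_sigma {σ : Type*} {τ : σ → Type*} {Til : (Σ s, τ s) → Set E}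
    {Ac : (Σ s, τ s) → Set E} (z : E) :
    Mu μ Til Ac z = ∑' s, Mu μ (fun i : τ s => Til ⟨s, i⟩) (fun i => Ac ⟨s, i⟩) z := by
  unfold Mu
  rw [ENNReal.tsum_sigma']

omit [NormedSpace ℝ E] [FiniteDimensional ℝ E] in
/-- (d) **scales with finite overlap**: the tiles of scale `s` are active only where their translate
lies in `Z s`, and every point is in at most `m` of the sets `Z s` -/
theorem Mu_scales {σ : Type*} {τ : σ → Type*} [∀ s, Countable (τ s)]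
    {Til : ∀ s, τ s → Set E} {Ac : ∀ s, τ s → Set E} (hm : ∀ s i, MeasurableSet (Til s i))
    (hdis : ∀ s, Pairwise (Function.onFun (AEDisjoint μ) (Til s))) {D r : ℝ}
    (hD : ∀ s i, ∀ y ∈ Til s i, ∀ y' ∈ Til s i, dist y' y ≤ D)
    (hBr : ∀ s i, ∀ w ∈ Ac s i, ‖w‖ ≤ r) {Z : σ → Set E}
    (hZ : ∀ s i, ∀ y ∈ Til s i, ∀ b ∈ Ac s i, y + b ∈ Z s) {N : ℕ}
    (hN : ∀ z, {s | z ∈ Z s}.encard ≤ N) (z : E) :
    Mu μ (fun q : Σ s, τ s => Til q.1 q.2) (fun q => Ac q.1 q.2) z ≤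
      N * μ (closedBall (0:E) (r + D)) := by
  classical
  rw [Mu_sigma]
  have hfin : {s | z ∈ Z s}.Finite := Set.finite_of_encard_le_coe (hN z)
  have h0 : ∀ s ∉ hfin.toFinset, Mu μ (Til s) (Ac s) z = 0 := by
    intro s hs
    rw [Set.Finite.mem_toFinset] at hs
    unfold Mu
    refine ENNReal.tsum_eq_zero.2 fun i => indicator_of_notMem ?_ _
    rintro ⟨y, hy, hb⟩
    apply hs
    have := hZ s i y hy _ hb
    rwa [add_sub_cancel] at this
  rw [tsum_eq_sum h0]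
  calc ∑ s ∈ hfin.toFinset, Mu μ (Til s) (Ac s) z
      ≤ ∑ _s ∈ hfin.toFinset, μ (closedBall (0:E) (r + D)) := by
        refine Finset.sum_le_sum fun s _ => ?_
        rw [← Measure.addHaar_closedBall_center μ z]
        exact Mu_le_ball (hm s) (hdis s) (hD s) (hBr s) z
    _ = hfin.toFinset.card * μ (closedBall (0:E) (r + D)) := by
        rw [Finset.sum_const, nsmul_eq_mul]
    _ ≤ _ := by
        gcongr
        have h1 := hN z
        rw [hfin.encard_eq_coe_toFinset_card] at h1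
        exact_mod_cast h1

/-! ### choice of the shift -/

/-- **CHOICE OF THE SHIFT**, with blocks: `W c` the list of shifts of the block `c`, `Gd c` its good
total shifts -/
theorem exists_shift_act {κ : Type*} [Countable κ] {τ : κ → Type*} [∀ k, Countable (τ k)]
    {η : Type*} {Til Ac : ∀ k, τ k → Set E} (hA : ∀ k i, MeasurableSet (Ac k i))
    (Ed : ∀ k, τ k → Finset η) {n : κ → ℕ} (hn : ∀ k i, (Ed k i).card ≤ n k) (x v : η → E)
    (hsub : ∀ k i, ∀ j ∈ Ed k i, sgm (x j) (v j) ⊆ Til k i) (β : ∀ k, τ k → ℝ≥0∞)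
    {G : η → E → ℝ≥0∞} (hG : ∀ j, Measurable (G j)) {H : κ → E → ℝ≥0∞} {c : κ → η → ℝ≥0∞}
    (hGH : ∀ k, ∀ᵐ z ∂μ, ∀ i, ∀ j ∈ Ed k i, G j z ≤ c k j * H k z) {K : κ → ℝ≥0∞}
    (hK : ∀ k, K k ≠ ∞) (hβ : ∀ k i, ∀ j ∈ Ed k i, β k i * c k j ≤ K k) {R : κ → Set E}
    (hR : ∀ k, MeasurableSet (R k)) (hRA : ∀ k i, ∀ y ∈ Til k i, ∀ b ∈ Ac k i, y + b ∈ R k)
    {M : κ → ℝ≥0∞} (hM1 : ∀ k, M k ≠ ∞) (hM : ∀ k, ∀ z ∈ R k, Mu μ (Til k) (Ac k) z ≤ M k)
    {p : ℝ} (hp : 1 ≤ p) {A : Set E} (hAm : MeasurableSet A) (hA0 : μ A ≠ 0) (hA1 : μ A ≠ ∞)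
    {𝒞 : Type*} {Gd W : 𝒞 → Set E}
    (hZ : μ (⋃ c, {a | a ∈ A ∧ ∀ w ∈ W c, a + w ∉ Gd c}) ≤ μ A / 2)
    {lam : κ → ℝ≥0∞} (hl0 : ∀ k, lam k ≠ 0) (hl : ∑' k, (lam k)⁻¹ < 1)
    {P : E → Prop} (hP : ∀ᵐ a ∂μ, a ∈ A → P a) :
    ∃ a ∈ A, P a ∧ (∀ c, ∃ w ∈ W c, a + w ∈ Gd c) ∧
      ∀ k, EnA μ (Til k) (Ac k) (Ed k) (β k) G x v p a ≤
        2 * lam k * ((μ A)⁻¹ * ((n k * K k) ^ p * M k * ∫⁻ z in R k, H k z ^ p ∂μ)) := by
  obtain ⟨a, ha, hPa, hw, h⟩ := exists_common (μ := μ) hAm hA0 hA1 hZ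
    (F := fun k => EnA μ (Til k) (Ac k) (Ed k) (β k) G x v p)
    (fun k => (measurable_EnA (Til k) (hA k) (Ed k) (β k) x v hG p).aemeasurable) hl0 hl hP
  refine ⟨a, ha, hPa, hw, fun k => (h k).trans ?_⟩
  gcongr
  exact (setLIntegral_le_lintegral _ _).trans (act_avg (hA k) (Ed k) (hn k) x v (hsub k) (β k) hG
    (hGH k) (hK k) (hβ k) (hR k) (hRA k) (hM1 k) (hM k) hp)

/-- **MOST SHIFTS**: off a set of relative measure `θ` all classes have small energy -/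
theorem most_shifts_act {κ : Type*} [Countable κ] {τ : κ → Type*} [∀ k, Countable (τ k)]
    {η : Type*} {Til Ac : ∀ k, τ k → Set E} (hA : ∀ k i, MeasurableSet (Ac k i))
    (Ed : ∀ k, τ k → Finset η) {n : κ → ℕ} (hn : ∀ k i, (Ed k i).card ≤ n k) (x v : η → E)
    (hsub : ∀ k i, ∀ j ∈ Ed k i, sgm (x j) (v j) ⊆ Til k i) (β : ∀ k, τ k → ℝ≥0∞)
    {G : η → E → ℝ≥0∞} (hG : ∀ j, Measurable (G j)) {H : κ → E → ℝ≥0∞} {c : κ → η → ℝ≥0∞}
    (hGH : ∀ k, ∀ᵐ z ∂μ, ∀ i, ∀ j ∈ Ed k i, G j z ≤ c k j * H k z) {K : κ → ℝ≥0∞}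
    (hK : ∀ k, K k ≠ ∞) (hβ : ∀ k i, ∀ j ∈ Ed k i, β k i * c k j ≤ K k) {R : κ → Set E}
    (hR : ∀ k, MeasurableSet (R k)) (hRA : ∀ k i, ∀ y ∈ Til k i, ∀ b ∈ Ac k i, y + b ∈ R k)
    {M : κ → ℝ≥0∞} (hM1 : ∀ k, M k ≠ ∞) (hM : ∀ k, ∀ z ∈ R k, Mu μ (Til k) (Ac k) z ≤ M k)
    {p : ℝ} (hp : 1 ≤ p) {A : Set E} (hAm : MeasurableSet A) (hA0 : μ A ≠ 0) (hA1 : μ A ≠ ∞)
    {lam : κ → ℝ≥0∞} (hl0 : ∀ k, lam k ≠ 0) (hl1 : ∀ k, lam k ≠ ∞) {θ : ℝ≥0∞}
    (hl : ∑' k, (lam k)⁻¹ ≤ θ) {P : E → Prop} (hP : ∀ᵐ a ∂μ, a ∈ A → P a)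
    {m : κ → ℝ≥0∞} (hm0 : ∀ k, m k ≠ 0)
    (hm : ∀ k, (μ A)⁻¹ * ((n k * K k) ^ p * M k * ∫⁻ z in R k, H k z ^ p ∂μ) ≤ m k) :
    ∃ G' ⊆ A, MeasurableSet G' ∧ μ (A \ G') ≤ θ * μ A ∧ ∀ a ∈ G', P a ∧
      ∀ k, EnA μ (Til k) (Ac k) (Ed k) (β k) G x v p a ≤ lam k * m k := by
  refine good_shifts (μ := μ) hAm (F := fun k => EnA μ (Til k) (Ac k) (Ed k) (β k) G x v p)
    (fun k => measurable_EnA (Til k) (hA k) (Ed k) (β k) x v hG p) hm0 hl1 hl0 (fun k => ?_) hl hP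
  have h1 := (setLIntegral_le_lintegral A _).trans (act_avg (hA k) (Ed k) (hn k) x v (hsub k)
    (β k) hG (hGH k) (hK k) (hβ k) (hR k) (hRA k) (hM1 k) (hM k) hp)
  refine h1.trans ?_
  calc (n k * K k) ^ p * M k * ∫⁻ z in R k, H k z ^ p ∂μ
      = (μ A * (μ A)⁻¹) * ((n k * K k) ^ p * M k * ∫⁻ z in R k, H k z ^ p ∂μ) := by
        rw [ENNReal.mul_inv_cancel hA0 hA1, one_mul]
    _ = ((μ A)⁻¹ * ((n k * K k) ^ p * M k * ∫⁻ z in R k, H k z ^ p ∂μ)) * μ A := by ring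
    _ ≤ _ := by
        gcongr
        exact hm k

end

end Crest.Agent.R96.Sg8_199
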