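/-
helper199, row 96, PREMACH, interface `MF` (shiftable mesh): a family of decorated meshes, depending
on a common shift `a` and on shifts `w j` of the blocks `j`; all ordinary tiles and all edges are
translates of potential tiles and edges of ONE countable family.
Definitions only (+ `SEL` in Pm2_199).
-/
import Mathlib
import Crest.Agent.R096.Mbf_337
import Crest.Agent.R096.Ls4_222
import Crest.Agent.R96.Sg8_199

set_option autoImplicit false

open MeasureTheory Set Filter Metric
open scoped Topology ENNReal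

namespace Crest.Agent.R96.Pm_199

open Crest.Agent.R096.Msh_715
open Crest.Agent.R096.SkC1_961 (E3 Cfg)
open Crest.Agent.R096.Ls_222 (Edg ea ev eIn)
open Crest.Agent.R96.Sg1_199 (li sgm)
open Crest.Agent.R96.Sg3_199 (EnF)
open Crest.Agent.R96.Sg8_199 (EnA)

noncomputable section

/-- **decorated mesh** on `Om` for the bricks `F`: literally the data of `Mbf_337.MachBF` (tiles,
tiny and exact cores), and a frame `fr i` for every tile -/
structure Dec (Om : Set E3) (F : Type) where
  ι : Type
  T : Tiling Om ι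
  J0 : F → Set ι
  J : F → Set ι
  V : F → Set ι
  ct : F → ι
  A : F → E3 ≃ᵃ[ℝ] E3
  lam : F → ℝ
  z : F → E3
  θ : F → E3 → E3
  φ : F → E3 → ℝ
  M : F → ℕ
  fr : ι → E3 ≃ᵃ[ℝ] E3

/-- ordinary tiles -/
def Dec.Ord {Om : Set E3} {F : Type} (D : Dec Om F) (i : D.ι) : Prop := ∀ c, i ∉ D.V c

/-- the total shift: `a` outside (`none`), `a + w j` in the block `j` -/
def sh {J : Type} : Option J → E3 → (J → E3) → E3
  | none, a, _ => a
  | some j, a, w => a + w j

/-- **MF, shiftable mesh**: `Om` the domain, `F` the bricks, `J` the blocks -/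
structure MF (Om : Set E3) (F J : Type) where
  /-- range of the common shift -/
  A : Set E3
  Am : MeasurableSet A
  A0 : volume A ≠ 0
  A1 : volume A ≠ ∞
  /-- finite (countable) lists of the relative shifts of the blocks -/
  W : J → Set E3
  Wc : ∀ j, (W j).Countable
  /-- admissible total shifts of the blocks -/
  Bx : J → Set E3
  cJ : Countable J
  /-- the mesh for the shifts `a, w` -/
  md : ∀ (a : E3) (w : J → E3), (a ∈ A ∧ ∀ j, w j ∈ W j ∧ a + w j ∈ Bx j) → Dec Om F
  /-- classes, potential tiles, potential edges -/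
  κ : Type
  τ : Type
  η : Type
  cκ : Countable κ
  cτ : Countable τ
  cη : Countable η
  /-- classes of the tiles; a class moves with `a` (`none`) or with the block `j` -/
  cl : τ → κ
  bl : κ → Option J
  /-- potential tiles (unshifted), the total shifts for which they are used -/
  Til : τ → Set E3
  Ac : τ → Set E3
  Acm : ∀ t, MeasurableSet (Ac t)
  /-- potential edges (unshifted) -/
  eb : η → Option J
  x : η → E3
  v : η → E3
  Ed : τ → Finset η
  sub : ∀ t, ∀ j ∈ Ed t, v j ≠ 0 ∧ sgm (x j) (v j) ⊆ Til t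
  /-- norms of the frames, lists of shapes -/
  β : τ → ℝ
  Sh : κ → Set (Set (Set E3))
  shf : ∀ k, (Sh k).Finite
  /-- **all** closed 1-cells of the mesh are shifted potential edges -/
  edge : ∀ a w h, ∀ e : Edg (md a w h).T, ∃ j : η, e.1 = sgm (x j + sh (eb j) a w) (v j)
  /-- the ordinary tiles are shifted potential tiles -/
  pot : ∀ a w h, (md a w h).ι → τ
  inj : ∀ a w h, InjOn (pot a w h) {i | (md a w h).Ord i}
  act : ∀ a w h i, (md a w h).Ord i → sh (bl (cl (pot a w h i))) a w ∈ Ac (pot a w h i)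
  tile : ∀ a w h i, (md a w h).Ord i → P ((md a w h).T.H i) =
    (fun y => y + sh (bl (cl (pot a w h i))) a w) '' Til (pot a w h i)
  /-- the closed 1-cells in an ordinary tile are COVERED by the segments of `Ed` (112, 222's LEN) -/
  tedge : ∀ a w h i, (md a w h).Ord i → ∀ e ∈ eIn (md a w h).T i, sgm (ea e) (ev e) ⊆
    ⋃ j ∈ Ed (pot a w h i), sgm (x j + sh (bl (cl (pot a w h i))) a w) (v j)
  frn : ∀ a w h i, (md a w h).Ord i → ∀ y : E3,
    ‖((md a w h).fr i).linear y‖ ≤ β (pot a w h i) * ‖y‖
  shp : ∀ a w h i, (md a w h).Ord i →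
    (fun K => (md a w h).fr i '' K) '' Cfg (md a w h).T i ∈ Sh (cl (pot a w h i))

variable {Om : Set E3} {F J : Type}

/-- admissible shifts -/
def MF.Ok (M : MF Om F J) (a : E3) (w : J → E3) : Prop :=
  a ∈ M.A ∧ ∀ j, w j ∈ M.W j ∧ a + w j ∈ M.Bx j

/-- **the energy of the potential tiles of class `k`** at the total shift `s`;
`G v y` = size of the derivative in the direction `v` at `y` -/
def MF.EnC (M : MF Om F J) (G : E3 → E3 → ℝ≥0∞) (p : ℝ) (k : M.κ) (s : E3) : ℝ≥0∞ :=
  EnA volume (fun t : {t // M.cl t = k} => M.Til t) (fun t => M.Ac t) (fun t => M.Ed t)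
    (fun t => ENNReal.ofReal (M.β t)) (fun j => G (M.v j)) M.x M.v p s

/-- the line integral of an edge of the mesh -/
def le (G : E3 → E3 → ℝ≥0∞) {ι : Type} {T : Tiling Om ι} (e : Edg T) : ℝ≥0∞ :=
  li (G (ev e)) (ea e) (ev e)

/-- **the energy of the ordinary tiles of class `k`** of the mesh -/
def MF.EnT (M : MF Om F J) (G : E3 → E3 → ℝ≥0∞) (p : ℝ) (a : E3) (w : J → E3) (h : M.Ok a w)
    (k : M.κ) : ℝ≥0∞ :=
  EnF volume (fun i : {i // (M.md a w h).Ord i ∧ M.cl (M.pot a w h i) = k} =>
      P ((M.md a w h).T.H i)) (fun i => eIn (M.md a w h).T i)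
    (fun i => ENNReal.ofReal (M.β (M.pot a w h i))) (fun e => le G e) p

end

end Crest.Agent.R96.Pm_199
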