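/-
helper199, row 96, PREMACH, SEL: for most shifts `a` there are shifts `w` of the blocks such that the
mesh `md a w` has good edges and small energies in all classes.
-/
import Mathlib
import Crest.Agent.R96.Pm1_199
import Crest.Agent.R096.Ls11_222

set_option autoImplicit false

open MeasureTheory Set Filter Metric
open scoped Topology ENNReal

namespace Crest.Agent.R96.Pm_199

open Crest.Agent.R096.Msh_715
open Crest.Agent.R096
open Crest.Agent.R096.SkC1_961 (E3 Cfg)
open Crest.Agent.R096.Ls_222 (Edg ea ev eIn sgm_edg mem_eIn)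
open Crest.Agent.R96.Sg1_199 (li sgm mem_sgm)
open Crest.Agent.R96.Sg3_199 (EnF)
open Crest.Agent.R96.Sg7_199 (good_shifts)
open Crest.Agent.R96.Sg8_199 (EnA measurable_EnA)

noncomputable section

/-! ### parametrisations of a segment -/

section par

variable {E : Type*} [NormedAddCommGroup E] [NormedSpace ℝ E]

/-- a segment has two parametrisations -/
theorem sgm_par {x v x' v' : E} (h : sgm x v = sgm x' v') :
    (x' = x ∧ v' = v) ∨ (x' = x + v ∧ v' = -v) := by
  by_cases hv : v = 0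
  · subst hv
    have h1 : ∀ y ∈ sgm x' v', y = x := by
      intro y hy
      rw [← h] at hy
      obtain ⟨τ, -, rfl⟩ := hy
      simp
    have h2 : x' = x := h1 x' ⟨0, ⟨le_rfl, zero_le_one⟩, by simp⟩
    have h3 : x' + v' = x := h1 _ ⟨1, ⟨zero_le_one, le_rfl⟩, by simp⟩
    left
    refine ⟨h2, ?_⟩
    rw [h2] at h3
    simpa using h3
  · have e1 : x' ∈ sgm x v := by rw [h]; exact ⟨0, ⟨le_rfl, zero_le_one⟩, by simp⟩
    have e2 : x' + v' ∈ sgm x v := by rw [h]; exact ⟨1, ⟨zero_le_one, le_rfl⟩, by simp⟩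
    have e3 : x ∈ sgm x' v' := by rw [← h]; exact ⟨0, ⟨le_rfl, zero_le_one⟩, by simp⟩
    have e4 : x + v ∈ sgm x' v' := by rw [← h]; exact ⟨1, ⟨zero_le_one, le_rfl⟩, by simp⟩
    obtain ⟨s, hs, hs'⟩ := e1
    obtain ⟨t, ht, ht'⟩ := e2
    obtain ⟨s', hs1, hs2⟩ := e3
    obtain ⟨t', ht1, ht2⟩ := e4
    have hs'' : x' = x + s • v := hs'.symm
    have hv' : v' = (t - s) • v := by
      have h1 : x + t • v = x' + v' := ht'
      rw [hs''] at h1
      rw [sub_smul, eq_sub_iff_add_eq]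
      have h2 : x + t • v = x + (s • v + v') := by rw [h1]; abel
      have h3 := add_left_cancel h2
      rw [h3]; abel
    have k1 : s + s' * (t - s) = 0 := by
      have h1 : x' + s' • v' = x := hs2
      rw [hs'', hv', smul_smul, add_assoc, ← add_smul] at h1
      have h2 : (s + s' * (t - s)) • v = 0 := by
        have : x + (s + s' * (t - s)) • v = x + 0 := by rw [h1, add_zero]
        exact add_left_cancel this
      exact (smul_eq_zero.1 h2).resolve_right hv
    have k2 : s + t' * (t - s) = 1 := by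
      have h1 : x' + t' • v' = x + v := ht2
      rw [hs'', hv', smul_smul, add_assoc, ← add_smul] at h1
      have h2 : (s + t' * (t - s)) • v = (1:ℝ) • v := by
        rw [one_smul]; exact add_left_cancel h1
      have h3 : (s + t' * (t - s) - 1) • v = 0 := by rw [sub_smul, h2, sub_self]
      have h4 := (smul_eq_zero.1 h3).resolve_right hv
      linarith
    have a1 : s * (1 - s') = 0 := by
      have h1 : 0 ≤ s * (1 - s') := mul_nonneg hs.1 (by linarith [hs1.2])
      have h2 : 0 ≤ s' * t := mul_nonneg hs1.1 ht.1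
      nlinarith
    have a2 : s' * t = 0 := by nlinarith
    rcases mul_eq_zero.1 a1 with h0 | h0
    · left
      subst h0
      have h1 : t' * t = 1 := by nlinarith
      have ht1' : t = 1 := by
        have := ht.2; have := ht1.2; have := ht.1; have := ht1.1
        nlinarith
      refine ⟨by rw [hs'', zero_smul, add_zero], ?_⟩
      rw [hv', ht1', sub_zero, one_smul]
    · right
      have hs1' : s' = 1 := by linarith
      rw [hs1', one_mul] at a2
      subst a2
      have hs0 : s = 1 := by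
        have := hs.2; have := ht1.2; have := hs.1; have := ht1.1
        nlinarith
      subst hs0
      refine ⟨by rw [hs'', one_smul], ?_⟩
      rw [hv', zero_sub, neg_smul, one_smul]

theorem li_rev (G : E → ℝ≥0∞) (x v : E) : li G (x + v) (-v) = li G x v := by
  unfold li
  rw [← lintegral_indicator measurableSet_Icc, ← lintegral_indicator measurableSet_Icc,
    ← lintegral_sub_left_eq_self ((Icc (0:ℝ) 1).indicator fun τ => G (x + τ • v)) 1]
  refine lintegral_congr fun τ => ?_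
  by_cases hτ : τ ∈ Icc (0:ℝ) 1
  · have h1 : 1 - τ ∈ Icc (0:ℝ) 1 := ⟨by linarith [hτ.2], by linarith [hτ.1]⟩
    rw [indicator_of_mem hτ, indicator_of_mem h1]
    congr 1
    rw [sub_smul, one_smul, smul_neg]
    abel
  · have h1 : 1 - τ ∉ Icc (0:ℝ) 1 := fun h => hτ ⟨by linarith [h.2], by linarith [h.1]⟩
    rw [indicator_of_notMem hτ, indicator_of_notMem h1]

/-- **independence of the parametrisation** -/
theorem li_par {G : E → E → ℝ≥0∞} (hG : ∀ v y, G (-v) y = G v y) {x v x' v' : E}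
    (h : sgm x v = sgm x' v') : li (G v') x' v' = li (G v) x v := by
  rcases sgm_par h with ⟨rfl, rfl⟩ | ⟨rfl, rfl⟩
  · rfl
  · have : G (-v) = G v := funext fun y => hG v y
    rw [this, li_rev]

theorem q_par {Q : E → E → Prop} (hQ : ∀ x v, Q x v → Q (x + v) (-v)) {x v x' v' : E}
    (h : sgm x v = sgm x' v') (hq : Q x v) : Q x' v' := by
  rcases sgm_par h with ⟨rfl, rfl⟩ | ⟨rfl, rfl⟩
  · exact hq
  · exact hQ _ _ hq

end par

/-! ### the mesh and the potential mesh -/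

variable {Om : Set E3} {F J : Type}

theorem volume_tr (s : E3) (S : Set E3) : volume ((fun y => y + s) '' S) = volume S := by
  have h : (fun y => y + s) '' S = (fun y => y + -s) ⁻¹' S := image_add_right
  rw [h, measure_preimage_add_right]

theorem MF.measurable_EnC (M : MF Om F J) {G : E3 → E3 → ℝ≥0∞} (hGm : ∀ v, Measurable (G v))
    (p : ℝ) (k : M.κ) : Measurable (M.EnC G p k) := by
  have := M.cτ
  exact measurable_EnA (fun t : {t // M.cl t = k} => M.Til t) (fun t => M.Acm t.1) _ _ _ _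
    (fun j => hGm _) p

/-- **the energy of the mesh is at most the energy of the potential tiles** -/
theorem MF.en_le (M : MF Om F J) {G : E3 → E3 → ℝ≥0∞}
    (hG : ∀ (t : ℝ) v y, G (t • v) y = ‖t‖ₑ * G v y) (hGm : ∀ v, Measurable (G v)) {p : ℝ}
    (hp : 0 ≤ p) {a : E3} {w : J → E3} (h : M.Ok a w) (k : M.κ) :
    M.EnT G p a w h k ≤ M.EnC G p k (sh (M.bl k) a w) := by
  classical
  set s := sh (M.bl k) a w with hs
  unfold MF.EnT EnF MF.EnC EnA
  set f : {t // M.cl t = k} → ℝ≥0∞ := fun t => (M.Ac t).indicator (fun a => volume (M.Til t) *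
    (ENNReal.ofReal (M.β t) * ∑ j ∈ M.Ed t, li (G (M.v j)) (M.x j + a) (M.v j)) ^ p) s with hf
  let g : {i // (M.md a w h).Ord i ∧ M.cl (M.pot a w h i) = k} → {t // M.cl t = k} :=
    fun i => ⟨M.pot a w h i, i.2.2⟩
  have hginj : Function.Injective g := by
    intro i i' hii
    exact Subtype.ext (M.inj a w h i.2.1 i'.2.1 (congrArg Subtype.val hii))
  refine le_trans ?_ (ENNReal.tsum_comp_le_tsum_of_injective hginj f)
  refine ENNReal.tsum_le_tsum fun i => ?_
  obtain ⟨i, hi, hk⟩ := i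
  have hsi : sh (M.bl (M.cl (M.pot a w h i))) a w = s := by rw [hk]
  have hact := M.act a w h i hi
  have htile := M.tile a w h i hi
  have hedge := M.tedge a w h i hi
  rw [hsi] at hact htile
  simp only [hsi] at hedge
  show volume (P ((M.md a w h).T.H i)) * _ ≤ f ⟨M.pot a w h i, hk⟩
  rw [hf]
  simp only
  rw [indicator_of_mem hact, htile, volume_tr]
  gcongr
  exact Ls_222.sum_li_le (M.md a w h).T i hG hGm (M.Ed (M.pot a w h i)) (fun j => M.x j + s) M.v
    (fun j hj => (M.sub _ j hj).1) hedge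

/-- **all edges are good for almost every `a`** -/
theorem MF.ae_edges (M : MF Om F J) {Q : E3 → E3 → Prop}
    (hQ : ∀ x v, ∀ᵐ a : E3, Q (x + a) v) (hQr : ∀ x v, Q x v → Q (x + v) (-v)) :
    ∀ᵐ a : E3, ∀ w (h : M.Ok a w), ∀ e : Edg (M.md a w h).T, Q (ea e) (ev e) := by
  have := M.cη
  have := M.cJ
  have h1 : ∀ᵐ a : E3, ∀ j : M.η, Q (M.x j + a) (M.v j) := ae_all_iff.2 fun j => hQ _ _
  have h2 : ∀ᵐ a : E3, ∀ j : M.η, ∀ b : J, ∀ w ∈ M.W b, Q (M.x j + w + a) (M.v j) := by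
    refine ae_all_iff.2 fun j => ae_all_iff.2 fun b => ?_
    exact (ae_ball_iff (M.Wc b)).2 fun w _ => hQ _ _
  filter_upwards [h1, h2] with a ha1 ha2 w h e
  obtain ⟨j, hj⟩ := M.edge a w h e
  have h3 : sgm (M.x j + sh (M.eb j) a w) (M.v j) = sgm (ea e) (ev e) := by rw [sgm_edg, hj]
  refine q_par hQr h3 ?_
  rcases hb : M.eb j with _ | b
  · exact ha1 j
  · have := ha2 j b (w b) (h.2 b).1
    show Q (M.x j + (a + w b)) (M.v j)
    rwa [show M.x j + (a + w b) = M.x j + w b + a by abel]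

/-- **SEL** -/
theorem MF.sel (M : MF Om F J) {Q : E3 → E3 → Prop} (hQ : ∀ x v, ∀ᵐ a : E3, Q (x + a) v)
    (hQr : ∀ x v, Q x v → Q (x + v) (-v)) {G : E3 → E3 → ℝ≥0∞}
    (hG : ∀ (t : ℝ) v y, G (t • v) y = ‖t‖ₑ * G v y) (hGm : ∀ v, Measurable (G v)) {p : ℝ} (hp : 0 ≤ p)
    {Gd : J → Set E3} (hGd : ∀ j, Gd j ⊆ M.Bx j) {θ₁ θ₂ : ℝ≥0∞}
    (hZ : volume (⋃ j, {a | a ∈ M.A ∧ ∀ w ∈ M.W j, a + w ∉ Gd j}) ≤ θ₁ * volume M.A)
    {m lam : M.κ → ℝ≥0∞} (hm0 : ∀ k, m k ≠ 0)
    (hm : ∀ k, M.bl k = none → ∫⁻ a in M.A, M.EnC G p k a ≤ m k * volume M.A)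
    (hl0 : ∀ k, lam k ≠ 0) (hl1 : ∀ k, lam k ≠ ∞) (hl : ∑' k, (lam k)⁻¹ ≤ θ₂)
    {P' : E3 → Prop} (hP : ∀ᵐ a : E3, a ∈ M.A → P' a) :
    ∃ A' ⊆ M.A, MeasurableSet A' ∧ volume (M.A \ A') ≤ (θ₁ + θ₂) * volume M.A ∧
      ∀ a ∈ A', P' a ∧ ∃ (w : J → E3) (h : M.Ok a w), (∀ j, a + w j ∈ Gd j) ∧
        (∀ e : Edg (M.md a w h).T, Q (ea e) (ev e)) ∧
        (∀ k, M.bl k = none → M.EnT G p a w h k ≤ lam k * m k) ∧
        ∀ k j, M.bl k = some j → M.EnT G p a w h k ≤ M.EnC G p k (a + w j) := by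
  classical
  have := M.cκ
  have := M.cτ
  set Z : Set E3 := toMeasurable volume (⋃ j, {a | a ∈ M.A ∧ ∀ w ∈ M.W j, a + w ∉ Gd j}) with hZd
  have hZm : MeasurableSet Z := measurableSet_toMeasurable _ _
  have hZ1 : volume Z ≤ θ₁ * volume M.A := by rw [hZd, measure_toMeasurable]; exact hZ
  have hP2 : ∀ᵐ a : E3, a ∈ M.A → (P' a ∧
      ∀ w (h : M.Ok a w), ∀ e : Edg (M.md a w h).T, Q (ea e) (ev e)) := by
    filter_upwards [hP, M.ae_edges hQ hQr] with a h1 h2 ha
    exact ⟨h1 ha, h2⟩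
  obtain ⟨G', hG1, hG2, hG3, hG4⟩ := good_shifts (μ := (volume : Measure E3)) M.Am
    (ι' := {k : M.κ // M.bl k = none}) (F := fun k => M.EnC G p k.1)
    (fun k => M.measurable_EnC hGm p k.1)
    (κ := fun k => lam k.1) (m := fun k => m k.1) (fun k => hm0 k.1) (fun k => hl1 k.1)
    (fun k => hl0 k.1) (fun k => hm k.1 k.2) (θ := θ₂)
    ((ENNReal.tsum_comp_le_tsum_of_injective Subtype.val_injective
      (fun k : M.κ => (lam k)⁻¹)).trans hl) hP2
  refine ⟨G' \ Z, fun a ha => hG1 ha.1, hG2.diff hZm, ?_, ?_⟩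
  · have h1 : M.A \ (G' \ Z) ⊆ Z ∪ (M.A \ G') := by
      intro a ha
      by_cases haZ : a ∈ Z
      · exact Or.inl haZ
      · exact Or.inr ⟨ha.1, fun h => ha.2 ⟨h, haZ⟩⟩
    calc volume (M.A \ (G' \ Z)) ≤ volume Z + volume (M.A \ G') :=
          (measure_mono h1).trans (measure_union_le _ _)
      _ ≤ θ₁ * volume M.A + θ₂ * volume M.A := add_le_add hZ1 hG3
      _ = _ := by ring
  · intro a ha
    obtain ⟨⟨h1, h2⟩, h3⟩ := hG4 a ha.1
    have h4 : ∀ j, ∃ w ∈ M.W j, a + w ∈ Gd j := by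
      intro j
      by_contra hcon
      push Not at hcon
      exact ha.2 (subset_toMeasurable _ _ (mem_iUnion.2 ⟨j, hG1 ha.1, hcon⟩))
    choose w hw1 hw2 using h4
    have hOk : M.Ok a w := ⟨hG1 ha.1, fun j => ⟨hw1 j, hGd j (hw2 j)⟩⟩
    refine ⟨h1, w, hOk, hw2, h2 w hOk, fun k hk => ?_, fun k j hk => ?_⟩
    · have h5 := M.en_le hG hGm hp hOk k
      rw [hk] at h5
      exact h5.trans (h3 ⟨k, hk⟩)
    · have h5 := M.en_le hG hGm hp hOk k
      rw [hk] at h5
      exact h5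

end

end Crest.Agent.R96.Pm_199
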