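/-
helper872, row 96, PREMACH / instance of MF, (IV) of 199 #10868: the good sets of total shifts of the
blocks and the finite dyadic lists of relative shifts.
-/
import Mathlib
import Crest.Agent.R96.Sg7_199

set_option autoImplicit false

open MeasureTheory Set Filter Metric
open scoped Topology ENNReal Pointwise

namespace Crest.Agent.R96.Gj_872

open Crest.Agent.R96.Sg6_199 (exists_list)
open Crest.Agent.R96.Sg7_199 (good_shifts)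

noncomputable section

section dyadic

variable {E : Type*} [NormedAddCommGroup E] [NormedSpace ℝ E] {n : ℕ}

/-- the lattice of the dyadic shifts of level `κ` in the frame `φ` -/
def Dy (φ : E ≃L[ℝ] (Fin n → ℝ)) (κ : ℕ) : Set E := {w | ∀ l, ∃ z : ℤ, 2 ^ κ * φ w l = z}

theorem int_mul_pow {x : ℝ} {κ κ' : ℕ} (h : κ ≤ κ') (hx : ∃ z : ℤ, 2 ^ κ * x = z) :
    ∃ z : ℤ, 2 ^ κ' * x = z := by
  obtain ⟨z, hz⟩ := hx
  refine ⟨2 ^ (κ' - κ) * z, ?_⟩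
  have h1 : (2:ℝ) ^ κ' = 2 ^ (κ' - κ) * 2 ^ κ := by rw [← pow_add, Nat.sub_add_cancel h]
  rw [h1, mul_assoc, hz]
  push_cast
  ring

theorem dy_mono (φ : E ≃L[ℝ] (Fin n → ℝ)) : Monotone (Dy φ) :=
  fun _ _ h _ hw l => int_mul_pow h (hw l)

/-- the point with the numerators `z` -/
def pt (φ : E ≃L[ℝ] (Fin n → ℝ)) (κ : ℕ) (z : Fin n → ℤ) : E :=
  φ.symm fun l => (z l : ℝ) / 2 ^ κ

theorem pt_mem (φ : E ≃L[ℝ] (Fin n → ℝ)) (κ : ℕ) (z : Fin n → ℤ) : pt φ κ z ∈ Dy φ κ := by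
  intro l
  refine ⟨z l, ?_⟩
  unfold pt
  rw [ContinuousLinearEquiv.apply_symm_apply]
  field_simp

theorem exists_pt {φ : E ≃L[ℝ] (Fin n → ℝ)} {κ : ℕ} {w : E} (hw : w ∈ Dy φ κ) :
    ∃ z : Fin n → ℤ, (∀ l, 2 ^ κ * φ w l = z l) ∧ w = pt φ κ z := by
  choose z hz using hw
  refine ⟨z, hz, ?_⟩
  show w = φ.symm _
  rw [eq_comm, ContinuousLinearEquiv.symm_apply_eq]
  funext l
  rw [← hz l]
  field_simp

theorem dy_countable (φ : E ≃L[ℝ] (Fin n → ℝ)) (κ : ℕ) : (Dy φ κ).Countable := by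
  refine (countable_range (pt φ κ)).mono fun w hw => ?_
  obtain ⟨z, -, h⟩ := exists_pt hw
  exact ⟨z, h.symm⟩

theorem dy_dense (φ : E ≃L[ℝ] (Fin n → ℝ)) : Dense (⋃ κ, Dy φ κ) := by
  intro y
  have h : Tendsto (fun κ : ℕ => pt φ κ fun l => ⌊2 ^ κ * φ y l⌋) atTop (𝓝 y) := by
    have h1 : Tendsto (fun κ : ℕ => fun l => ((⌊2 ^ κ * φ y l⌋ : ℤ) : ℝ) / 2 ^ κ) atTop
        (𝓝 (φ y)) := by
      refine tendsto_pi_nhds.2 fun l => ?_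
      have h2 : Tendsto (fun κ : ℕ => φ y l - (1 / 2 : ℝ) ^ κ) atTop (𝓝 (φ y l)) := by
        have h3 := tendsto_pow_atTop_nhds_zero_of_lt_one (r := (1/2:ℝ)) (by norm_num) (by norm_num)
        simpa using h3.const_sub (φ y l)
      refine tendsto_of_tendsto_of_tendsto_of_le_of_le h2 tendsto_const_nhds (fun κ => ?_)
        fun κ => ?_
      · have h4 := (Int.lt_floor_add_one (2 ^ κ * φ y l)).le
        have h5 : (0:ℝ) < 2 ^ κ := by positivity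
        show φ y l - (1 / 2 : ℝ) ^ κ ≤ ((⌊2 ^ κ * φ y l⌋ : ℤ) : ℝ) / 2 ^ κ
        rw [le_div_iff₀ h5]
        have h6 : (1 / 2 : ℝ) ^ κ * 2 ^ κ = 1 := by
          rw [← mul_pow]; norm_num
        nlinarith
      · have h4 := Int.floor_le (2 ^ κ * φ y l)
        have h5 : (0:ℝ) < 2 ^ κ := by positivity
        show ((⌊2 ^ κ * φ y l⌋ : ℤ) : ℝ) / 2 ^ κ ≤ φ y l
        rw [div_le_iff₀ h5]
        linarith
    have h2 := (φ.symm.continuous.tendsto (φ y)).comp h1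
    rw [ContinuousLinearEquiv.symm_apply_apply] at h2
    exact h2
  exact mem_closure_of_tendsto h (Eventually.of_forall fun κ => mem_iUnion.2 ⟨κ, pt_mem φ κ _⟩)

/-- **only finitely many dyadic shifts of level `κ` move a point of `A` into `B`** -/
theorem dy_finite (φ : E ≃L[ℝ] (Fin n → ℝ)) (κ : ℕ) {A B : Set E} (hA : Bornology.IsBounded A)
    (hB : Bornology.IsBounded B) : {w | w ∈ Dy φ κ ∧ ∃ a ∈ A, a + w ∈ B}.Finite := by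
  obtain ⟨RA, hRA⟩ := hA.exists_norm_le
  obtain ⟨RB, hRB⟩ := hB.exists_norm_le
  set C : ℝ := ‖(φ : E →L[ℝ] (Fin n → ℝ))‖ with hC
  have hbd : ∀ w : E, (∃ a ∈ A, a + w ∈ B) → ∀ l, |2 ^ κ * φ w l| ≤ 2 ^ κ * (C * (RB + RA)) := by
    rintro w ⟨a, ha, haw⟩ l
    have h1 : ‖w‖ ≤ RB + RA := by
      have h2 : w = (a + w) - a := by abel
      rw [h2]
      exact (norm_sub_le _ _).trans (add_le_add (hRB _ haw) (hRA _ ha))
    have h3 : ‖φ w‖ ≤ C * ‖w‖ := (φ : E →L[ℝ] (Fin n → ℝ)).le_opNorm w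
    have h4 : |φ w l| ≤ ‖φ w‖ := norm_le_pi_norm (φ w) l
    rw [abs_mul, abs_of_pos (by positivity : (0:ℝ) < 2 ^ κ)]
    have h5 : C * ‖w‖ ≤ C * (RB + RA) := mul_le_mul_of_nonneg_left h1 (norm_nonneg _)
    exact mul_le_mul_of_nonneg_left (h4.trans (h3.trans h5)) (by positivity)
  set N : ℤ := ⌈2 ^ κ * (C * (RB + RA))⌉ with hN
  refine ((Set.finite_Icc (fun _ : Fin n => -N) (fun _ => N)).image (pt φ κ)).subset ?_
  rintro w ⟨hw, hab⟩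
  obtain ⟨z, hz, hwz⟩ := exists_pt hw
  refine ⟨z, ⟨fun l => ?_, fun l => ?_⟩, hwz.symm⟩
  · have h1 := hbd w hab l
    rw [hz l] at h1
    have h2 := (abs_le.1 h1).1
    have h3 : ((-N : ℤ) : ℝ) ≤ (z l : ℝ) := by
      have := Int.le_ceil (2 ^ κ * (C * (RB + RA)))
      push_cast
      linarith
    exact_mod_cast h3
  · have h1 := hbd w hab l
    rw [hz l] at h1
    have h2 := (abs_le.1 h1).2
    have h3 : (z l : ℝ) ≤ ((N : ℤ) : ℝ) := h2.trans (Int.le_ceil _)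
    exact_mod_cast h3

end dyadic

variable {E : Type*} [NormedAddCommGroup E] [NormedSpace ℝ E] [FiniteDimensional ℝ E]
  [MeasurableSpace E] [BorelSpace E] {μ : Measure E} [μ.IsAddHaarMeasure] {n : ℕ}

/-- **THE LISTS**: finite lists `W j` of dyadic shifts of level `κ j ≥ κ0 j`; off a set of common
shifts `a` of relative measure `θ` every block `j` has a shift `w ∈ W j` with `a + w ∈ G j` -/
theorem exists_dyadic_lists {J : Type*} [Countable J] (φ : E ≃L[ℝ] (Fin n → ℝ)) {A : Set E}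
    (hA : MeasurableSet A) (hA0 : μ A ≠ 0) (hAb : Bornology.IsBounded A)
    {G : J → Set E} (hG : ∀ j, MeasurableSet (G j)) (hG0 : ∀ j, μ (G j) ≠ 0)
    (hGb : ∀ j, Bornology.IsBounded (G j)) (κ0 : J → ℕ) {θ : ℝ≥0∞} (hθ : θ ≠ 0) :
    ∃ (κ : J → ℕ) (W : J → Set E), (∀ j, κ0 j ≤ κ j) ∧ (∀ j, (W j).Finite) ∧
      (∀ j, ∀ w ∈ W j, w ∈ Dy φ (κ j) ∧ ∃ a ∈ A, a + w ∈ G j) ∧
      μ (⋃ j, {a | a ∈ A ∧ ∀ w ∈ W j, a + w ∉ G j}) ≤ θ * μ A := by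
  have hA1 : μ A ≠ ∞ := hAb.measure_lt_top.ne
  have h0 : θ * μ A ≠ 0 := mul_ne_zero hθ hA0
  obtain ⟨δ, hδ0, hδ⟩ := ENNReal.exists_pos_sum_of_countable' h0 J
  have h1 : ∀ c, ∃ j, μ {a | a ∈ A ∧ ∀ w ∈ Dy φ j, a + w ∉ G c} ≤ δ c := fun c =>
    exists_list (hG c) (hG0 c) (hGb c).measure_lt_top.ne (dy_countable φ) (dy_mono φ) (dy_dense φ)
      hA hA1 (hδ0 c).ne'
  choose q hq using h1
  refine ⟨fun j => max (κ0 j) (q j), fun j => {w | w ∈ Dy φ (max (κ0 j) (q j)) ∧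
    ∃ a ∈ A, a + w ∈ G j}, fun j => le_max_left _ _, fun j => dy_finite φ _ hAb (hGb j),
    fun j w hw => hw, ?_⟩
  refine (measure_iUnion_le _).trans ((ENNReal.tsum_le_tsum fun j => ?_).trans hδ.le)
  refine le_trans (measure_mono ?_) (hq j)
  rintro a ⟨ha, h⟩
  exact ⟨ha, fun w hw hG' => h w ⟨dy_mono φ (le_max_right _ _) hw, a, ha, hG'⟩ hG'⟩

/-- **THE GOOD TOTAL SHIFTS OF ONE BLOCK** -/
theorem exists_good {ι' : Type*} [Countable ι'] {B : Set E} (hB : MeasurableSet B) (hB0 : μ B ≠ 0)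
    (hB1 : μ B ≠ ∞) {F : ι' → E → ℝ≥0∞} (hF : ∀ i, Measurable (F i)) {lam m : ι' → ℝ≥0∞}
    (hm0 : ∀ i, m i ≠ 0) (hl1 : ∀ i, lam i ≠ ∞) (hl0 : ∀ i, lam i ≠ 0)
    (hm : ∀ i, ∫⁻ a in B, F i a ∂μ ≤ m i * μ B) {θ₁ θ₂ : ℝ≥0∞} (hl : ∑' i, (lam i)⁻¹ ≤ θ₁)
    {P : E → Prop} (hP : ∀ᵐ a ∂μ, a ∈ B → P a) {Gw : E → Prop}
    (hGw : μ {a | a ∈ B ∧ ¬ Gw a} ≤ θ₂ * μ B) (hθ : θ₁ + θ₂ < 1) :
    ∃ G ⊆ B, MeasurableSet G ∧ μ G ≠ 0 ∧ μ (B \ G) ≤ (θ₁ + θ₂) * μ B ∧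
      ∀ a ∈ G, P a ∧ Gw a ∧ ∀ i, F i a ≤ lam i * m i := by
  obtain ⟨G₁, hG1, hG2, hG3, hG4⟩ := good_shifts (μ := μ) hB hF (κ := lam) (m := m) hm0 hl1 hl0 hm
    hl hP
  set N : Set E := toMeasurable μ {a | a ∈ B ∧ ¬ Gw a} with hN
  have hNm : MeasurableSet N := measurableSet_toMeasurable _ _
  have hN1 : μ N ≤ θ₂ * μ B := by rw [hN, measure_toMeasurable]; exact hGw
  have hle : μ (B \ (G₁ \ N)) ≤ (θ₁ + θ₂) * μ B := by
    have h1 : B \ (G₁ \ N) ⊆ (B \ G₁) ∪ N := by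
      intro a ha
      by_cases haN : a ∈ N
      · exact Or.inr haN
      · exact Or.inl ⟨ha.1, fun h => ha.2 ⟨h, haN⟩⟩
    calc μ (B \ (G₁ \ N)) ≤ μ (B \ G₁) + μ N := (measure_mono h1).trans (measure_union_le _ _)
      _ ≤ θ₁ * μ B + θ₂ * μ B := add_le_add hG3 hN1
      _ = _ := by ring
  refine ⟨G₁ \ N, fun a ha => hG1 ha.1, hG2.diff hNm, ?_, hle, fun a ha => ?_⟩
  · intro h0
    have h1 : μ B ≤ μ (G₁ \ N) + μ (B \ (G₁ \ N)) := by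
      refine (measure_mono ?_).trans (measure_union_le _ _)
      intro a ha
      by_cases h : a ∈ G₁ \ N
      · exact Or.inl h
      · exact Or.inr ⟨ha, h⟩
    rw [h0, zero_add] at h1
    have h2 : μ B < μ B := by
      calc μ B ≤ (θ₁ + θ₂) * μ B := h1.trans hle
        _ < 1 * μ B := ENNReal.mul_lt_mul_left hB0 hB1 hθ
        _ = μ B := one_mul _
    exact lt_irrefl _ h2
  · refine ⟨(hG4 a ha.1).1, ?_, (hG4 a ha.1).2⟩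
    by_contra hcon
    exact ha.2 (subset_toMeasurable _ _ ⟨hG1 ha.1, hcon⟩)

/-- **ALL BLOCKS**: good sets `G j`, levels `κ j` and finite dyadic lists `W j` together -/
theorem exists_blocks {J : Type*} [Countable J] (φ : E ≃L[ℝ] (Fin n → ℝ)) {A : Set E}
    (hA : MeasurableSet A) (hA0 : μ A ≠ 0) (hAb : Bornology.IsBounded A)
    {B : J → Set E} (hB : ∀ j, MeasurableSet (B j)) (hB0 : ∀ j, μ (B j) ≠ 0)
    (hBb : ∀ j, Bornology.IsBounded (B j)) {ι' : J → Type*} [∀ j, Countable (ι' j)]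
    {F : ∀ j, ι' j → E → ℝ≥0∞} (hF : ∀ j i, Measurable (F j i)) {lam m : ∀ j, ι' j → ℝ≥0∞}
    (hm0 : ∀ j i, m j i ≠ 0) (hl1 : ∀ j i, lam j i ≠ ∞) (hl0 : ∀ j i, lam j i ≠ 0)
    (hm : ∀ j i, ∫⁻ a in B j, F j i a ∂μ ≤ m j i * μ (B j)) {θ₁ θ₂ : ℝ≥0∞}
    (hl : ∀ j, ∑' i, (lam j i)⁻¹ ≤ θ₁) {P : J → E → Prop} (hP : ∀ j, ∀ᵐ a ∂μ, a ∈ B j → P j a)
    {Gw : J → E → Prop} (hGw : ∀ j, μ {a | a ∈ B j ∧ ¬ Gw j a} ≤ θ₂ * μ (B j))
    (hθ : θ₁ + θ₂ < 1) (κ0 : J → ℕ) {θ : ℝ≥0∞} (hθ0 : θ ≠ 0) :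
    ∃ (G : J → Set E) (κ : J → ℕ) (W : J → Set E), (∀ j, G j ⊆ B j ∧ MeasurableSet (G j) ∧
      μ (G j) ≠ 0 ∧ μ (B j \ G j) ≤ (θ₁ + θ₂) * μ (B j) ∧
      ∀ v ∈ G j, P j v ∧ Gw j v ∧ ∀ i, F j i v ≤ lam j i * m j i) ∧
      (∀ j, κ0 j ≤ κ j) ∧ (∀ j, (W j).Finite) ∧
      (∀ j, ∀ w ∈ W j, w ∈ Dy φ (κ j) ∧ ∃ a ∈ A, a + w ∈ G j) ∧
      μ (⋃ j, {a | a ∈ A ∧ ∀ w ∈ W j, a + w ∉ G j}) ≤ θ * μ A := by
  have h1 := fun j => exists_good (μ := μ) (hB j) (hB0 j) (hBb j).measure_lt_top.ne (hF j)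
    (lam := lam j) (m := m j) (hm0 j) (hl1 j) (hl0 j) (hm j) (hl j) (hP j) (hGw j) hθ
  choose G hG1 hG2 hG3 hG4 hG5 using h1
  obtain ⟨κ, W, h2, h3, h4, h5⟩ := exists_dyadic_lists (μ := μ) φ hA hA0 hAb hG2 hG3
    (fun j => (hBb j).subset (hG1 j)) κ0 hθ0
  exact ⟨G, κ, W, fun j => ⟨hG1 j, hG2 j, hG3 j, hG4 j, hG5 j⟩, h2, h3, h4, h5⟩

end

end Crest.Agent.R96.Gj_872
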