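/-
helper872, row 96, PREMACH / instance of MF, (IV) of 199 #10868, part 2: the lists are the positions `RP` of
874's mesh of core blocks; the good sets with 365's `GoodW`.
-/
import Crest.Agent.R96.Gj1_872
import Crest.Agent.R096.Mal15_874
import Crest.Agent.R096.Exa3_365

set_option autoImplicit false

open MeasureTheory Set Filter Metric
open scoped Topology ENNReal Pointwise

namespace Crest.Agent.R96.Gj_872

open Crest.Agent.R096.Mal_874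
open Crest.Agent.R096.SkC1_961 (E3)
open Crest.Agent.R096.EaX_766 (lin)
open Crest.Agent.R096.Exa_365 (GoodW Wt measurableSet_Wt volume_Wt det_lin_ne)

noncomputable section

section rp

variable {E : Type*} [NormedAddCommGroup E] [NormedSpace ℝ E] {n : ℕ} {J : Type*} {M : MD E n J}

theorem h0_mono {X : RD M} {κ κ' : J → ℕ} (h : ∀ j, κ j ≤ κ' j)
    (h0 : ∀ j m, ∃ c : ℤ, 2 ^ κ j * (X.d j : ℝ) * (M.Q j).a' m = c) :
    ∀ j m, ∃ c : ℤ, 2 ^ κ' j * (X.d j : ℝ) * (M.Q j).a' m = c := by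
  intro j m
  obtain ⟨c, hc⟩ := h0 j m
  obtain ⟨c', hc'⟩ := int_mul_pow (h j) ⟨c, by rw [← mul_assoc]; exact hc⟩
  exact ⟨c', by rw [mul_assoc]; exact hc'⟩

/-- **positions from the lists** (`v j = a + w j`, `w j` dyadic of level `κ j ≤ k j`) -/
def rpOf (X : RD M) {k κ κ0 : J → ℕ} (h1 : ∀ j, κ0 j ≤ κ j) (h2 : ∀ j, κ j ≤ k j)
    (h0 : ∀ j m, ∃ c : ℤ, 2 ^ κ0 j * (X.d j : ℝ) * (M.Q j).a' m = c) (a : E) {w : J → E}
    (hw : ∀ j, w j ∈ Dy M.φ (κ j)) : RP X (M.φ a) (fun j => a + w j) k where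
  κ := κ
  hκ := h2
  h0 := h0_mono h1 h0
  hv := by
    intro j l
    obtain ⟨z, hz⟩ := hw j l
    refine ⟨z, ?_⟩
    rw [← hz, map_add, Pi.add_apply, add_sub_cancel_left]

end rp

/-! ### the sets `Wt` of total shifts -/

theorem isBounded_Wt (A : E3 ≃ᵃ[ℝ] E3) (ρ : ℝ) : Bornology.IsBounded (Wt A ρ) := by
  have h1 : Wt A ρ ⊆ (fun y => (A.linear.toContinuousLinearEquiv.symm) y) '' Icc 0 (fun _ => ρ) := by
    intro w hw
    refine ⟨lin A w, hw, ?_⟩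
    show A.linear.toContinuousLinearEquiv.symm (lin A w) = w
    rw [ContinuousLinearEquiv.symm_apply_eq]
    rfl
  refine (IsCompact.isBounded ?_).subset h1
  exact isCompact_Icc.image (ContinuousLinearEquiv.continuous _)

theorem volume_Wt_ne (A : E3 ≃ᵃ[ℝ] E3) {ρ : ℝ} (hρ : 0 < ρ) : volume (Wt A ρ) ≠ 0 := by
  rw [volume_Wt A hρ.le]
  have h1 : 0 < |(lin A).det|⁻¹ := inv_pos.2 (abs_pos.2 (det_lin_ne A))
  exact mul_ne_zero (ENNReal.ofReal_pos.2 h1).ne' (ENNReal.ofReal_pos.2 (by positivity)).ne'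

/-- small total shifts are admissible -/
theorem exists_rho (φ : E3 ≃L[ℝ] (Fin 3 → ℝ)) (A : E3 ≃ᵃ[ℝ] E3) {r : ℝ} (hr : 0 < r) :
    ∃ ρ0 : ℝ, 0 < ρ0 ∧ ∀ ρ ≤ ρ0, ∀ v ∈ Wt A ρ, ‖φ v‖ ≤ r := by
  set L := A.linear.toContinuousLinearEquiv.symm with hL
  have h1 : ContinuousAt (fun y : E3 => ‖φ (L y)‖) 0 := by fun_prop
  have h2 : ∀ᶠ y : E3 in 𝓝 0, ‖φ (L y)‖ < r := by
    refine h1.tendsto.eventually (gt_mem_nhds ?_)
    simpa using hr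
  obtain ⟨δ, hδ, h3⟩ := Metric.eventually_nhds_iff.1 h2
  refine ⟨δ / 2, by positivity, fun ρ hρ v hv => ?_⟩
  have h4 : L (lin A v) = v := by
    rw [hL, ContinuousLinearEquiv.symm_apply_eq]
    rfl
  have h5 : dist (lin A v) 0 < δ := by
    rw [dist_zero_right]
    refine lt_of_le_of_lt ?_ (half_lt_self hδ)
    refine (pi_norm_le_iff_of_nonneg (by positivity)).2 fun i => ?_
    have h6 : 0 ≤ lin A v i := hv.1 i
    have h7 : lin A v i ≤ ρ := hv.2 i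
    rw [Real.norm_eq_abs, abs_of_nonneg h6]
    linarith
  have h6 := h3 h5
  rw [h4] at h6
  exact h6.le

/-- **ALL BLOCKS WITH 365's `GoodW`**: energies `F j i` of the block classes (means `m j i`), good
segments `xs j, vs j`, a.e. properties `P j`; total shifts of the block `j` in `Wt (A j) (ρ j)` -/
theorem exists_blocks_W {J : Type*} [Countable J] (φ : E3 ≃L[ℝ] (Fin 3 → ℝ)) {A0 : Set E3}
    (hA : MeasurableSet A0) (hA0 : volume A0 ≠ 0) (hAb : Bornology.IsBounded A0)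
    (A : J → E3 ≃ᵃ[ℝ] E3) {ρ : J → ℝ} (hρ : ∀ j, 0 < ρ j)
    {ι' : J → Type*} [∀ j, Countable (ι' j)]
    {F : ∀ j, ι' j → E3 → ℝ≥0∞} (hF : ∀ j i, Measurable (F j i)) {lam m : ∀ j, ι' j → ℝ≥0∞}
    (hm0 : ∀ j i, m j i ≠ 0) (hl1 : ∀ j i, lam j i ≠ ∞) (hl0 : ∀ j i, lam j i ≠ 0)
    (hm : ∀ j i, ∫⁻ v in Wt (A j) (ρ j), F j i v ≤ m j i * volume (Wt (A j) (ρ j)))
    {θ₁ θ₂ : ℝ≥0∞} (hl : ∀ j, ∑' i, (lam j i)⁻¹ ≤ θ₁)
    {P : J → E3 → Prop} (hP : ∀ j, ∀ᵐ v : E3, v ∈ Wt (A j) (ρ j) → P j v)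
    {p : ℝ} {Om : Set E3} {f : E3 → E3} {D : E3 → E3 →L[ℝ] E3} {S : J → Type*}
    (xs vs : ∀ j, S j → E3) (η : J → ℝ≥0∞)
    (hGw : ∀ j, volume {w | w ∈ Wt (A j) (ρ j) ∧ ¬ GoodW p Om f D (A j) (xs j) (vs j) (η j) w} ≤
      θ₂ * volume (Wt (A j) (ρ j)))
    (hθ : θ₁ + θ₂ < 1) (κ0 : J → ℕ) {θ : ℝ≥0∞} (hθ0 : θ ≠ 0) :
    ∃ (G : J → Set E3) (κ : J → ℕ) (W : J → Set E3), (∀ j, G j ⊆ Wt (A j) (ρ j) ∧
      MeasurableSet (G j) ∧ volume (G j) ≠ 0 ∧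
      volume (Wt (A j) (ρ j) \ G j) ≤ (θ₁ + θ₂) * volume (Wt (A j) (ρ j)) ∧
      ∀ v ∈ G j, P j v ∧ GoodW p Om f D (A j) (xs j) (vs j) (η j) v ∧
        ∀ i, F j i v ≤ lam j i * m j i) ∧
      (∀ j, κ0 j ≤ κ j) ∧ (∀ j, (W j).Finite) ∧
      (∀ j, ∀ w ∈ W j, w ∈ Dy φ (κ j) ∧ ∃ a ∈ A0, a + w ∈ G j) ∧
      volume (⋃ j, {a | a ∈ A0 ∧ ∀ w ∈ W j, a + w ∉ G j}) ≤ θ * volume A0 :=
  exists_blocks (μ := volume) φ hA hA0 hAb (fun j => measurableSet_Wt _ _)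
    (fun j => volume_Wt_ne (A j) (hρ j)) (fun j => isBounded_Wt _ _) hF hm0 hl1 hl0 hm hl hP
    (Gw := fun j => GoodW p Om f D (A j) (xs j) (vs j) (η j)) hGw hθ κ0 hθ0

end

end Crest.Agent.R96.Gj_872
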