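/-
helper872, row 96, `EA0` (p ≤ 2), [Z5] of 961 #11134: the good total shifts `G c ⊆ Tw (Q c) (k0 c)` from
`InS.tra`, the energies of the block classes and a.e. properties; the finite dyadic lists.
-/
import Crest.Agent.R96.Gj2_872
import Crest.Agent.R096.Ea0_961

set_option autoImplicit false

open MeasureTheory Set Filter Metric
open scoped Topology ENNReal Pointwise

namespace Crest.Agent.R96.Gj_872

open Crest.Agent.R096.Mal_874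
open Crest.Agent.R096.Bsp_628 Crest.Agent.R096.Brk5_582
open Crest.Agent.R096.SkC1_961 (E3)
open Crest.Agent.R096.EaX_766 (lin)
open Crest.Agent.R096.Exa_365 (Wt measurableSet_Wt volume_Wt det_lin_ne)
open Crest.Agent.R096.Ea0_961 (Tw Ed Ly Blk InS)

noncomputable section

/-! ### the set `Tw` of the translations of a block -/

theorem Tw_eq (Q : CB E3 3) (k0 : ℕ) :
    Tw Q k0 = Q.ψ ⁻¹' Icc 0 (fun _ => 1 / (10 * 2 ^ k0)) := by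
  ext w
  show (∀ l, 0 ≤ Q.ψ w l ∧ Q.ψ w l ≤ 1 / (10 * 2 ^ k0)) ↔ _
  rw [mem_preimage, mem_Icc, Pi.le_def, Pi.le_def, ← forall_and]
  rfl

theorem measurableSet_Tw (Q : CB E3 3) (k0 : ℕ) : MeasurableSet (Tw Q k0) := by
  rw [Tw_eq]
  exact Q.ψ.continuous.measurable measurableSet_Icc

theorem isCompact_Tw (Q : CB E3 3) (k0 : ℕ) : IsCompact (Tw Q k0) := by
  have h : Tw Q k0 = Q.ψ.symm '' Icc 0 (fun _ => 1 / (10 * 2 ^ k0)) := by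
    rw [Tw_eq]
    exact (Q.ψ.symm.toEquiv.image_eq_preimage_symm _).symm
  rw [h]
  exact isCompact_Icc.image Q.ψ.symm.continuous

theorem isBounded_Tw (Q : CB E3 3) (k0 : ℕ) : Bornology.IsBounded (Tw Q k0) :=
  (isCompact_Tw Q k0).isBounded

theorem volume_Tw_ne (Q : CB E3 3) (k0 : ℕ) : volume (Tw Q k0) ≠ 0 := by
  have h1 : (0:ℝ) < 1 / (10 * 2 ^ k0) := by positivity
  have h2 : (Q.ψ ⁻¹' (univ.pi fun _ => Ioo (0:ℝ) (1 / (10 * 2 ^ k0)))) ⊆ Tw Q k0 := by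
    intro w hw l
    have h3 : Q.ψ w l ∈ Ioo (0:ℝ) (1 / (10 * 2 ^ k0)) := hw l (mem_univ l)
    exact ⟨h3.1.le, h3.2.le⟩
  have h3 : IsOpen (Q.ψ ⁻¹' (univ.pi fun _ => Ioo (0:ℝ) (1 / (10 * 2 ^ k0)))) :=
    (isOpen_set_pi finite_univ fun _ _ => isOpen_Ioo).preimage Q.ψ.continuous
  have h4 : (Q.ψ ⁻¹' (univ.pi fun _ => Ioo (0:ℝ) (1 / (10 * 2 ^ k0)))).Nonempty := by
    refine ⟨Q.ψ.symm fun _ => 1 / (10 * 2 ^ k0) / 2, fun l _ => ?_⟩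
    rw [ContinuousLinearEquiv.apply_symm_apply]
    exact ⟨by positivity, by linarith⟩
  exact ((h3.measure_pos volume h4).trans_le (measure_mono h2)).ne'

theorem volume_Tw_ne_top (Q : CB E3 3) (k0 : ℕ) : volume (Tw Q k0) ≠ ∞ :=
  (isCompact_Tw Q k0).measure_lt_top.ne

/-- `Tw` is 365's set `Wt` (so 748's means hold on `Tw`) -/
theorem Tw_eq_Wt {Q : CB E3 3} {A : E3 ≃ᵃ[ℝ] E3} {u : ℝ} (hu : 0 < u)
    (h : ∀ x, A.linear x = u • Q.ψ x) (k0 : ℕ) : Tw Q k0 = Wt A (u / (10 * 2 ^ k0)) := by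
  ext w
  have hl : lin A w = u • Q.ψ w := h w
  have h10 : (0:ℝ) < 10 * 2 ^ k0 := by positivity
  constructor
  · intro hw
    refine ⟨fun l => ?_, fun l => ?_⟩
    · show 0 ≤ lin A w l
      rw [hl]
      exact mul_nonneg hu.le (hw l).1
    · show lin A w l ≤ u / (10 * 2 ^ k0)
      rw [hl, div_eq_mul_one_div]
      exact mul_le_mul_of_nonneg_left (hw l).2 hu.le
  · rintro ⟨h1, h2⟩ l
    have h3 : 0 ≤ lin A w l := h1 l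
    have h4 : lin A w l ≤ u / (10 * 2 ^ k0) := h2 l
    rw [hl] at h3 h4
    have h3' : 0 ≤ u * Q.ψ w l := h3
    have h4' : u * Q.ψ w l ≤ u * (1 / (10 * 2 ^ k0)) := by
      rw [mul_one_div]; exact h4
    exact ⟨nonneg_of_mul_nonneg_right h3' hu, le_of_mul_le_mul_left h4' hu⟩

/-! ### the good shifts -/

/-- (2a) and (2b) of `InS.tra` at the translation `w` -/
structure TraW (p : ℝ) (D : E3 → E3 →L[ℝ] E3) (Cc κw : ℝ) (A : E3 ≃ᵃ[ℝ] E3) (er : ℝ≥0∞)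
    (Q : CB E3 3) (k0 : ℕ) (hk : Q.kc ≤ k0) (w : E3) : Prop where
  a2 : ∀ e ∈ Ed Q k0 hk, segment ℝ e.1 e.2 ⊆ Q.Kc →
    ∫⁻ τ in Icc (0:ℝ) 1, ‖D (e.1 + w + τ • (e.2 - e.1)) (e.2 - e.1) - lin A (e.2 - e.1)‖ₑ ≤
      ENNReal.ofReal (κw * ‖lin A (e.2 - e.1)‖)
  b2 : ENNReal.ofReal (‖lin A‖ ^ p / |(lin A).det|) *
    (∑' e : Ed Q k0 hk, ENNReal.ofReal (‖lin A (e.1.2 - e.1.1)‖ ^ (3 - p)) *
      (∫⁻ τ in Icc (0:ℝ) 1, ‖D (e.1.1 + w + τ • (e.1.2 - e.1.1)) (e.1.2 - e.1.1)‖ₑ ^ p)) ≤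
    ENNReal.ofReal (Cc * ‖lin A‖ ^ p) * volume (Q.N \ Q.Kc) + er

theorem volume_not_tra {p : ℝ} {Om : Set E3} {f : E3 → E3} {D : E3 → E3 →L[ℝ] E3} {Cc κ1 κ2 κw : ℝ}
    {M : ℕ} {c : Bx (Fin 3)} {A : E3 ≃ᵃ[ℝ] E3} {lam : ℝ} {er : ℝ≥0∞} {Q : CB E3 3} {k0 : ℕ}
    {hk : Q.kc ≤ k0} (h : InS p Om f D Cc κ1 κ2 κw M c A lam er Q k0 hk) :
    volume {w | w ∈ Tw Q k0 ∧ ¬ TraW p D Cc κw A er Q k0 hk w} ≤
      ENNReal.ofReal (1 / 4) * volume (Tw Q k0) := by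
  obtain ⟨G, hG, hG2⟩ := h.tra
  refine (measure_mono ?_).trans hG
  rintro w ⟨hw, hn⟩
  refine ⟨hw, fun hwG => hn ?_⟩
  obtain ⟨h1, h2⟩ := hG2 w hwG hw
  exact ⟨h1, h2⟩

/-- **[Z5], ALL BLOCKS**: energies `F c i` of the block classes (means `m c i` over `Tw`), a.e.
properties `P c`, (2a), (2b); any set `Bx c ⊇ Tw` of admissible total shifts -/
theorem exists_blocks_Tw {J : Type*} [Countable J] (φ : E3 ≃L[ℝ] (Fin 3 → ℝ)) {A0 : Set E3}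
    (hA : MeasurableSet A0) (hA0 : volume A0 ≠ 0) (hAb : Bornology.IsBounded A0)
    (Q : J → CB E3 3) (k0 : J → ℕ) (hk : ∀ c, (Q c).kc ≤ k0 c)
    {ι' : J → Type*} [∀ j, Countable (ι' j)]
    {F : ∀ j, ι' j → E3 → ℝ≥0∞} (hF : ∀ j i, Measurable (F j i)) {lam m : ∀ j, ι' j → ℝ≥0∞}
    (hm0 : ∀ j i, m j i ≠ 0) (hl1 : ∀ j i, lam j i ≠ ∞) (hl0 : ∀ j i, lam j i ≠ 0)
    (hm : ∀ j i, ∫⁻ v in Tw (Q j) (k0 j), F j i v ≤ m j i * volume (Tw (Q j) (k0 j)))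
    {θ₁ : ℝ≥0∞} (hl : ∀ j, ∑' i, (lam j i)⁻¹ ≤ θ₁)
    {P : J → E3 → Prop} (hP : ∀ j, ∀ᵐ v : E3, v ∈ Tw (Q j) (k0 j) → P j v)
    {p : ℝ} {D : E3 → E3 →L[ℝ] E3} {Cc κw : ℝ} {A : J → E3 ≃ᵃ[ℝ] E3} {er : J → ℝ≥0∞}
    (htr : ∀ c, volume {w | w ∈ Tw (Q c) (k0 c) ∧
      ¬ TraW p D Cc κw (A c) (er c) (Q c) (k0 c) (hk c) w} ≤
        ENNReal.ofReal (1 / 4) * volume (Tw (Q c) (k0 c)))
    (hθ : θ₁ + ENNReal.ofReal (1 / 4) < 1) {Bx' : J → Set E3}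
    (hBx : ∀ c, Tw (Q c) (k0 c) ⊆ Bx' c) (κ0 : J → ℕ) {θ : ℝ≥0∞} (hθ0 : θ ≠ 0) :
    ∃ (G : J → Set E3) (κ : J → ℕ) (W : J → Set E3), (∀ c, G c ⊆ Tw (Q c) (k0 c) ∧ G c ⊆ Bx' c ∧
      MeasurableSet (G c) ∧ volume (G c) ≠ 0 ∧
      volume (Tw (Q c) (k0 c) \ G c) ≤ (θ₁ + ENNReal.ofReal (1 / 4)) * volume (Tw (Q c) (k0 c)) ∧
      ∀ v ∈ G c, P c v ∧ TraW p D Cc κw (A c) (er c) (Q c) (k0 c) (hk c) v ∧
        ∀ i, F c i v ≤ lam c i * m c i) ∧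
      (∀ c, κ0 c ≤ κ c) ∧ (∀ c, (W c).Finite) ∧
      (∀ c, ∀ w ∈ W c, w ∈ Dy φ (κ c) ∧ ∃ a ∈ A0, a + w ∈ G c) ∧
      volume (⋃ c, {a | a ∈ A0 ∧ ∀ w ∈ W c, a + w ∉ G c}) ≤ θ * volume A0 := by
  obtain ⟨G, κ, W, h1, h2, h3, h4, h5⟩ := exists_blocks (μ := volume) φ hA hA0 hAb
    (fun j => measurableSet_Tw (Q j) (k0 j)) (fun j => volume_Tw_ne _ _)
    (fun j => isBounded_Tw _ _) hF hm0 hl1 hl0 hm hl hP
    (Gw := fun j w => TraW p D Cc κw (A j) (er j) (Q j) (k0 j) (hk j) w)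
    htr hθ κ0 hθ0
  exact ⟨G, κ, W, fun c => ⟨(h1 c).1, (h1 c).1.trans (hBx c), (h1 c).2⟩, h2, h3, h4, h5⟩

/-- the same with ONE energy per block and the factor `8` -/
theorem exists_blocks_Tw1 {J : Type*} [Countable J] (φ : E3 ≃L[ℝ] (Fin 3 → ℝ)) {A0 : Set E3}
    (hA : MeasurableSet A0) (hA0 : volume A0 ≠ 0) (hAb : Bornology.IsBounded A0)
    (Q : J → CB E3 3) (k0 : J → ℕ) (hk : ∀ c, (Q c).kc ≤ k0 c)
    {F : J → E3 → ℝ≥0∞} (hF : ∀ j, Measurable (F j)) {m : J → ℝ≥0∞} (hm0 : ∀ j, m j ≠ 0)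
    (hm : ∀ j, ∫⁻ v in Tw (Q j) (k0 j), F j v ≤ m j * volume (Tw (Q j) (k0 j)))
    {P : J → E3 → Prop} (hP : ∀ j, ∀ᵐ v : E3, v ∈ Tw (Q j) (k0 j) → P j v)
    {p : ℝ} {D : E3 → E3 →L[ℝ] E3} {Cc κw : ℝ} {A : J → E3 ≃ᵃ[ℝ] E3} {er : J → ℝ≥0∞}
    (htr : ∀ c, volume {w | w ∈ Tw (Q c) (k0 c) ∧
      ¬ TraW p D Cc κw (A c) (er c) (Q c) (k0 c) (hk c) w} ≤
        ENNReal.ofReal (1 / 4) * volume (Tw (Q c) (k0 c)))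
    {Bx' : J → Set E3}
    (hBx : ∀ c, Tw (Q c) (k0 c) ⊆ Bx' c) (κ0 : J → ℕ) {θ : ℝ≥0∞} (hθ0 : θ ≠ 0) :
    ∃ (G : J → Set E3) (κ : J → ℕ) (W : J → Set E3), (∀ c, G c ⊆ Tw (Q c) (k0 c) ∧ G c ⊆ Bx' c ∧
      MeasurableSet (G c) ∧ volume (G c) ≠ 0 ∧
      ∀ v ∈ G c, P c v ∧ TraW p D Cc κw (A c) (er c) (Q c) (k0 c) (hk c) v ∧ F c v ≤ 8 * m c) ∧
      (∀ c, κ0 c ≤ κ c) ∧ (∀ c, (W c).Finite) ∧
      (∀ c, ∀ w ∈ W c, w ∈ Dy φ (κ c) ∧ ∃ a ∈ A0, a + w ∈ G c) ∧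
      volume (⋃ c, {a | a ∈ A0 ∧ ∀ w ∈ W c, a + w ∉ G c}) ≤ θ * volume A0 := by
  have hθ : (8:ℝ≥0∞)⁻¹ + ENNReal.ofReal (1 / 4) < 1 := by
    have h1 : (8:ℝ≥0∞)⁻¹ = ENNReal.ofReal (1 / 8) := by
      rw [one_div, ENNReal.ofReal_inv_of_pos (by norm_num)]
      norm_num
    rw [h1, ← ENNReal.ofReal_add (by norm_num) (by norm_num), ← ENNReal.ofReal_one]
    exact (ENNReal.ofReal_lt_ofReal_iff one_pos).2 (by norm_num)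
  obtain ⟨G, κ, W, h1, h2, h3, h4, h5⟩ := exists_blocks_Tw φ hA hA0 hAb Q k0 hk
    (ι' := fun _ => Unit) (F := fun j _ => F j) (fun j _ => hF j) (lam := fun _ _ => 8)
    (m := fun j _ => m j) (fun j _ => hm0 j) (fun _ _ => by norm_num) (fun _ _ => by norm_num)
    (fun j _ => hm j) (θ₁ := 8⁻¹) (fun _ => by rw [tsum_fintype]; simp) hP htr hθ hBx κ0 hθ0
  refine ⟨G, κ, W, fun c => ⟨(h1 c).1, (h1 c).2.1, (h1 c).2.2.1, (h1 c).2.2.2.1, fun v hv => ?_⟩,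
    h2, h3, h4, h5⟩
  obtain ⟨h6, h7, h8⟩ := (h1 c).2.2.2.2.2 v hv
  exact ⟨h6, h7, h8 ()⟩

end

end Crest.Agent.R96.Gj_872
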