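import Crest.Agent.R096.Ea0_961
import Crest.Agent.R096.Eau1_365

/-!
# R96, EA0 (helper348), part 1: the literal Prop `Pre0 p` = PREMACH for `Ea0_961.EA0 p`

One decorated mesh over 899's foam `fX`, with its total energy and the energy of every block.
`Ea0q_348.ea0_of_pre : MachBF → Pre0 p → EA0 p`.  Definitions only.
-/

set_option autoImplicit false
set_option linter.style.longLine false
set_option linter.unusedSectionVars false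

open MeasureTheory Set Filter Topology Metric
open scoped ENNReal NNReal

namespace Crest.Agent.R96.Ea0p_348

open Crest.Agent.R096.SkC1_961 (E3 Hom3 FoamD)
open Crest.Agent.R096.Er_594 (SH3)
open Crest.Agent.R096.Bsp_628 Crest.Agent.R096.Brk5_582
open Crest.Agent.R096.EaX_766 (lin cbx Kor)
open Crest.Agent.R096.Acc_365 (K1 K2)
open Crest.Agent.R096.Msh_715 (Tiling P I)
open Crest.Agent.R096.Mal_874 (CB)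
open Crest.Agent.R096.Ls_222 (Edg)
open Crest.Agent.R096.Ea0_961 (Blk InS Tw Ly)
open Crest.Agent.R96.EaCore_348 (EE Ord Macro)
open Crest.Agent.R96.EaPost_348 (Geo)
open Crest.Agent.R96.Pm_199 (Dec)
open Crest.Agent.R096.Pmc_112 (PreOut)
open Crest.Agent.R96.EaP_899 (XD fX cm)

noncomputable section

/-- energy of the input off the blocks -/
def Jn (p : ℝ) (Om : Set E3) (D : E3 → E3 →L[ℝ] E3) (F : Set (Bx (Fin 3))) (X : Set F)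
    (Q : F → CB E3 3) : ℝ≥0∞ :=
  ∫⁻ x in Om \ ⋃ c ∈ X, (Q c).N, (1 + ‖D x‖ₑ ^ p)

/-- the shell number of the block `c` -/
def Sn (p : ℝ) (F : Set (Bx (Fin 3))) (A : F → E3 ≃ᵃ[ℝ] E3) (lam : F → ℝ) (Q : F → CB E3 3)
    (c : F) : ℝ≥0∞ :=
  (1 + ‖lin (A c)‖ₑ ^ p) * volume ((Q c).N \ Kor F A lam c)

/-- energy of the input in the layer of the block `c` -/
def Ln (p : ℝ) (D : E3 → E3 →L[ℝ] E3) (F : Set (Bx (Fin 3))) (Q : F → CB E3 3) (k0 : F → ℕ)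
    (c : F) : ℝ≥0∞ :=
  ∫⁻ x in Ly (Q c) (k0 c), (1 + ‖D x‖ₑ ^ p)

/-- **the output of PREMACH for `EA0`**: one decorated mesh; core tiles = cores translated by
`v c ∈ Tw`, total energy, and for every block `c ∈ X` a set `Qb c` of ordinary tiles off the macro
balls which covers the part of the old core outside the new one, with its energy. -/
def PreMesh0 {δ κ0 R c0 : ℝ} {La : Set E3} {F : Set (Bx (Fin 3))} (bf : BoxFoam La F δ κ0)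
    (cmp : Cmp F R) (p : ℝ) (C : Set (Set E3) → ℝ) (κp κ1 κ2 : ℝ) (Om : Set E3) (f : E3 → E3)
    (D : E3 → E3 →L[ℝ] E3) (X : Set F) (A : F → E3 ≃ᵃ[ℝ] E3) (lam : F → ℝ) (Q : F → CB E3 3)
    (k0 : F → ℕ) (er : F → ℝ≥0∞) (C1 CA : ℝ≥0) (ε : ℝ≥0∞) (εb : F → ℝ≥0∞) : Prop :=
  ∃ (z : F → E3) (H : XD bf c0 X lam z) (Dd : Dec Om F) (l : Edg Dd.T → ℝ≥0∞) (v : F → E3)
    (κ : Type) (x₀ : κ → E3) (R0 R1 : κ → ℝ) (b : κ → F) (Qb : F → Set Dd.ι),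
    PreOut (fX bf cmp H) f κp (κp / 64) κ1 κ2 8 X Dd l ∧
    Geo Dd.T (Dd.ct '' X) {i | ∃ c, c ∉ X ∧ i ∈ Dd.V c} x₀ R0 R1 1 ∧
    Macro (fX bf cmp H) f x₀ R1 b ∧
    (∀ c ∈ X, P (Dd.T.H (Dd.ct c)) = K2 (A c) c.1 (lam c) (v c) ∧ Dd.lam c = lam c ∧
      lin (Dd.A c) = lin (A c) ∧ v c ∈ Tw (Q c) (k0 c)) ∧
    EE C Dd.T Dd.fr (Ord (Φ := fX bf cmp H) Dd.V) l p ≤
      C1 * (Jn p Om D F X Q + ∑' c : X, Sn p F A lam Q c + ∑' c : X, er c) +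
        CA * (∑' c : X, Ln p D F Q k0 c) + ε ∧
    (∀ c ∈ X, ∀ c' ∈ X, c ≠ c' → Disjoint (Qb c) (Qb c')) ∧
    ∀ c ∈ X, Qb c ⊆ Ord (Φ := fX bf cmp H) Dd.V ∧
      (∀ i ∈ Qb c, ∀ x ∈ I (Dd.T.H i), ∀ k, x ∉ closedBall (x₀ k) (R1 k)) ∧
      Kor F A lam c \ K2 (A c) c.1 (lam c) (v c) ⊆ ⋃ i ∈ Qb c, P (Dd.T.H i) ∧
      EE C Dd.T Dd.fr (Ord (Φ := fX bf cmp H) Dd.V ∩ Qb c) l p ≤
        C1 * (Sn p F A lam Q c + er c) + CA * Ln p D F Q k0 c + εb c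

/-- **PREMACH for `EA0 p`**: hypotheses of `Ea0_961.EA0 p`; constants in the order: `C` (of the
machine), `C1`, then `κp, κ1', τ, lam1`, then `κ1`, `M`, `κw`, `Nn`, `CA`, `κt ≤ τ`, data. -/
def Pre0 (p : ℝ) : Prop :=
  ∀ (δ κ0 R c0 κ2 Cc : ℝ) (Bs : ℕ), 0 < δ → 1 ≤ κ0 → 1 ≤ R → 0 < c0 → c0 * κ0 ≤ 1 → 0 < κ2 →
    κ2 ≤ 1 / 4 → 1 ≤ Cc → 1 ≤ Bs →
  ∀ C : Set (Set E3) → ℝ, (∀ 𝒦, 0 < C 𝒦) →
  ∃ C1 : ℝ≥0, ∀ κp κ1' τ lam1 : ℝ, 0 < κp → κp ≤ 1 → 0 < κ1' → κ1' * κ0 < κ2 / 2 → 0 < τ → lam1 < 1 →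
  ∃ κ1 : ℝ, 0 < κ1 ∧ ∃ M0 : ℕ, ∀ M : ℕ, M0 ≤ M →
  ∃ κw : ℝ, 0 < κw ∧ ∀ Nn : ℕ, ∃ (CA : ℝ≥0) (κt : ℝ), 0 < κt ∧ κt ≤ τ ∧
  ∀ (Om La : Set E3) (f : E3 → E3) (D : E3 → E3 →L[ℝ] E3), IsOpen Om → Bornology.IsBounded Om →
    IsConnected Om → IsOpen La → Bornology.IsBounded La → IsConnected La → SH3 p Om La f D →
  ∀ (u : ℝ), 0 < u →
  ∀ (F : Set (Bx (Fin 3))) (bf : BoxFoam La F δ κ0) (cmp : Cmp F R),
    (∀ c ∈ F, ∃ S : Set E3, IsCompact S ∧ Convex ℝ S ∧ S ⊆ La ∧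
      ∀ c' ∈ F, (c'.set ∩ c.set).Nonempty → c'.set ⊆ interior S) →
  ∀ (X : Set F) (A : F → E3 ≃ᵃ[ℝ] E3) (lam : F → ℝ) (Q : F → CB E3 3) (k0 : F → ℕ)
    (hk : ∀ c, (Q c).kc ≤ k0 c) (er : F → ℝ≥0∞),
    (∀ c ∈ X, c0 ≤ lam c ∧ lam c ≤ lam1) →
    (∀ c ∈ X, Blk F u Cc κ2 κt Bs M Nn c (A c) (lam c) (Q c) (k0 c) (hk c)) →
    (∀ c ∈ X, InS p Om f D Cc κ1 κ2 κw M c.1 (A c) (lam c) (er c) (Q c) (k0 c) (hk c)) →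
  ∀ ε : ℝ≥0∞, ε ≠ 0 → ∀ εb : F → ℝ≥0∞, (∀ c ∈ X, εb c ≠ 0) →
    PreMesh0 (c0 := c0) bf cmp p C κp κ1' (κ2 / 2) Om f D X A lam Q k0 er C1 CA ε εb

end

end Crest.Agent.R96.Ea0p_348
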