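import Crest.Agent.R96.Eam4_466
import Crest.Agent.R096.Ea0_961
import Crest.Agent.R96.Eac3_348

/-!
# R96, [Z7] of 961 #11134 (helper466): `FineX` and `Exact` for the blocks of `EA0`

Input: `Ea0_961.Blk` and `InS.cor` (v3) for the bricks of `X`, translations `v c ∈ Tw (Q c) (k0 c)`,
`κc` small, `M` large (`Mz`, `exists_Mz`).

* `norm_lin_Tw` : `‖A.linear v‖ ≤ κt / 10 * (lam * sz) / M`;
* **`cor_Tw`** : the core statement for the translated core, closeness `κc + 1 / M`, margin `κ2 / 2`;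
* **`block_Tw`** : `f` on the translated block;
* **`z7`** : `FineX` and `Exact` on the aligned mesh.
-/

set_option autoImplicit false
set_option linter.style.longLine false
set_option linter.unusedSectionVars false

open MeasureTheory Set Filter Topology Metric

namespace Crest.Agent.R96.Eam_466

open Crest.Agent.R096.Bsp_628 Crest.Agent.R096.Brk1_582 Crest.Agent.R096.Brk2_582
open Crest.Agent.R096.Brk3_582
open Crest.Agent.R096.Brk5_582
open Crest.Agent.R096.Msh_715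
open Crest.Agent.R96.Push_899
open Crest.Agent.R096.SkC1_961 (E3 Hom3 IsPush FoamD)
open Crest.Agent.R096.Mbf_337
open Crest.Agent.R096.EaX_766 (cbx)
open Crest.Agent.R096.Bxs_627 (ctr cb zz CoriE ctr_lo ctr_hi)
open Crest.Agent.R096.Mal_874 Crest.Agent.R096.Msh_810
open Crest.Agent.R096.Fns_360
open Crest.Agent.R96.EaP_899
open Crest.Agent.R096.Ea0_961 (Blk Tw)

noncomputable section

variable {δ κ0 R c0 : ℝ} {La : Set E3} {F : Set (Bx (Fin 3))}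

/-- **`κc` is small, `M` is large**: `κc` = closeness of `f` and `A`, `K = KI ..`, `κm` = the `κ1` of the
machine -/
structure Mz (κ0 κ2 Cc lam1 K κm κc : ℝ) (Bs M : ℕ) : Prop where
  pos : 0 < M
  m1 : κ0 ≤ κ2 * M
  m2 : (κc + 1 / M) * κ0 ≤ 1 / 8
  m3 : (κc + 1 / M) * κ0 ≤ (1 - lam1) / 8
  m4 : K * (Bs * Cc / M + 2 * (κc + 1 / M)) ≤ κm
  m5 : κc + 1 / M ≤ κm

/-- all small `κc` and all large `M` will do -/
theorem exists_Mz {κ0 κ2 lam1 K κm : ℝ} (Cc : ℝ) (hκ0 : 0 ≤ κ0) (hκ2 : 0 < κ2) (hl : lam1 < 1)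
    (hκm : 0 < κm) (Bs : ℕ) :
    ∃ κ1 : ℝ, 0 < κ1 ∧ ∀ κc : ℝ, 0 ≤ κc → κc ≤ κ1 → ∃ M0 : ℕ, ∀ M : ℕ, M0 ≤ M →
      Mz κ0 κ2 Cc lam1 K κm κc Bs M := by
  set q : ℝ := min (min (1 / 16 / (κ0 + 1)) ((1 - lam1) / 16 / (κ0 + 1)))
    (min (κm / 8 / (|K| + 1)) (κm / 2)) with hq
  have h1l : 0 < 1 - lam1 := by linarith
  have hq0 : 0 < q := by positivity
  have q1 : q * (κ0 + 1) ≤ 1 / 16 := by
    have : q ≤ 1 / 16 / (κ0 + 1) := (min_le_left _ _).trans (min_le_left _ _)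
    rwa [le_div_iff₀ (by positivity)] at this
  have q2 : q * (κ0 + 1) ≤ (1 - lam1) / 16 := by
    have : q ≤ (1 - lam1) / 16 / (κ0 + 1) := (min_le_left _ _).trans (min_le_right _ _)
    rwa [le_div_iff₀ (by positivity)] at this
  have q3 : q * (|K| + 1) ≤ κm / 8 := by
    have : q ≤ κm / 8 / (|K| + 1) := (min_le_right _ _).trans (min_le_left _ _)
    rwa [le_div_iff₀ (by positivity)] at this
  have q4 : q ≤ κm / 2 := (min_le_right _ _).trans (min_le_right _ _)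
  refine ⟨q, hq0, fun κc hκc0 hκc => ?_⟩
  obtain ⟨M1, h1⟩ := exists_nat_ge (κ0 / κ2)
  obtain ⟨M2, h2⟩ := exists_nat_ge (1 / q)
  obtain ⟨M3, h3⟩ := exists_nat_ge (|K| * |Bs * Cc| / (κm / 2))
  refine ⟨max (max 1 M1) (max M2 M3), fun M hM => ?_⟩
  have g0 : 1 ≤ M := (le_max_left _ _).trans ((le_max_left _ _).trans hM)
  have g1 : (M1 : ℝ) ≤ M := by
    exact_mod_cast (le_max_right 1 M1).trans ((le_max_left _ _).trans hM)
  have g2 : (M2 : ℝ) ≤ M := by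
    exact_mod_cast (le_max_left M2 _).trans ((le_max_right _ _).trans hM)
  have g3 : (M3 : ℝ) ≤ M := by
    exact_mod_cast (le_max_right M2 M3).trans ((le_max_right _ _).trans hM)
  have hM' : (0 : ℝ) < M := by exact_mod_cast g0
  have hMq : 1 / (M : ℝ) ≤ q := by
    rw [div_le_iff₀ hM']
    have := h2.trans g2
    rw [div_le_iff₀ hq0] at this
    linarith
  have hs : κc + 1 / (M : ℝ) ≤ 2 * q := by linarith
  refine ⟨g0, ?_, ?_, ?_, ?_, ?_⟩
  · have := h1.trans g1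
    rw [div_le_iff₀ hκ2] at this
    linarith
  · nlinarith
  · nlinarith
  · have e1 : K * (Bs * Cc / M) ≤ κm / 2 := by
      have := h3.trans g3
      rw [div_le_iff₀ (by positivity)] at this
      have e : K * (Bs * Cc / M) = K * (Bs * Cc) / M := by ring
      rw [e, div_le_iff₀ hM']
      calc K * (Bs * Cc) ≤ |K * (Bs * Cc)| := le_abs_self _
        _ = |K| * |Bs * Cc| := abs_mul _ _
        _ ≤ κm / 2 * M := by linarith
    have e2 : K * (2 * (κc + 1 / M)) ≤ κm / 2 := by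
      have h : 0 ≤ κc + 1 / (M : ℝ) := by positivity
      calc K * (2 * (κc + 1 / M)) ≤ |K| * (2 * (κc + 1 / M)) :=
            mul_le_mul_of_nonneg_right (le_abs_self _) (by linarith)
        _ ≤ |K| * (2 * (2 * q)) := mul_le_mul_of_nonneg_left (by linarith) (abs_nonneg _)
        _ ≤ κm / 2 := by nlinarith [abs_nonneg K]
    calc K * (Bs * Cc / M + 2 * (κc + 1 / M)) = K * (Bs * Cc / M) + K * (2 * (κc + 1 / M)) := by ring
      _ ≤ κm := by linarith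
  · linarith

section one

variable {u Cc κ2 κt : ℝ} {Bs M Nn : ℕ} {c : F} {A : E3 ≃ᵃ[ℝ] E3} {lam : ℝ} {Q : CB E3 3} {k0 : ℕ}
  {hk : Q.kc ≤ k0}

theorem norm_lin_Tw (hu : 0 < u) (hM : 0 < M) (hB : Blk F u Cc κ2 κt Bs M Nn c A lam Q k0 hk)
    {v : E3} (hv : v ∈ Tw Q k0) : ‖A.linear v‖ ≤ κt / 10 * (lam * c.1.sz) / M := by
  have h2 : (0 : ℝ) < 2 ^ k0 := by positivity
  have h1 : ‖Q.ψ v‖ ≤ 1 / (10 * 2 ^ k0) := by
    rw [pi_norm_le_iff_of_nonneg (by positivity)]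
    intro l
    rw [Real.norm_eq_abs, abs_of_nonneg (hv l).1]
    exact (hv l).2
  have hM' : (0 : ℝ) < M := by exact_mod_cast hM
  calc ‖A.linear v‖ = u * ‖Q.ψ v‖ := by
        rw [hB.lin_eq, norm_smul, Real.norm_eq_abs, abs_of_pos hu]
    _ ≤ u * (1 / (10 * 2 ^ k0)) := mul_le_mul_of_nonneg_left h1 hu.le
    _ = 1 / 10 * (u / 2 ^ k0) := by field_simp
    _ ≤ 1 / 10 * (κt * (lam * c.1.sz) / M) := by
        have := hB.thin
        linarith
    _ = κt / 10 * (lam * c.1.sz) / M := by ring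

variable {K κm κc lam1 : ℝ}

theorem norm_lin_Tw' (bf : BoxFoam La F δ κ0) (hlam : 0 < lam) (hu : 0 < u) (hκt : κt ≤ 1)
    (hM : Mz κ0 κ2 Cc lam1 K κm κc Bs M)
    (hB : Blk F u Cc κ2 κt Bs M Nn c A lam Q k0 hk) {v : E3} (hv : v ∈ Tw Q k0) :
    ‖A.linear v‖ ≤ 1 / 10 * (lam * c.1.sz) / M := by
  have hM' : (0 : ℝ) < M := by exact_mod_cast hM.pos
  have hs := Bx.sz_pos (bf.pos _ c.2)
  refine (norm_lin_Tw hu hM.pos hB hv).trans ?_
  gcongr

theorem abs_lin_Tw (bf : BoxFoam La F δ κ0) (hlam : 0 < lam) (hu : 0 < u) (hκt : κt ≤ 1)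
    (hM : Mz κ0 κ2 Cc lam1 K κm κc Bs M)
    (hB : Blk F u Cc κ2 κt Bs M Nn c A lam Q k0 hk) {v : E3} (hv : v ∈ Tw Q k0) (k : Fin 3) :
    |A.linear v k| ≤ κ2 / 10 * (lam * c.1.side k) := by
  have hM' : (0 : ℝ) < M := by exact_mod_cast hM.pos
  have hs := Bx.side_pos (bf.pos _ c.2) k
  have h1 := (norm_le_pi_norm (A.linear v) k).trans (norm_lin_Tw' bf hlam hu hκt hM hB hv)
  rw [Real.norm_eq_abs] at h1
  refine h1.trans ?_
  rw [div_le_iff₀ hM']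
  have h2 := bf.asp _ c.2 k
  have h3 : lam * c.1.sz ≤ lam * c.1.side k * (κ2 * M) := by
    calc lam * c.1.sz ≤ lam * (κ0 * c.1.side k) := by gcongr
      _ = lam * c.1.side k * κ0 := by ring
      _ ≤ lam * c.1.side k * (κ2 * M) :=
        mul_le_mul_of_nonneg_left hM.m1 (mul_pos hlam hs).le
  calc 1 / 10 * (lam * c.1.sz) ≤ 1 / 10 * (lam * c.1.side k * (κ2 * M)) := by linarith
    _ = κ2 / 10 * (lam * c.1.side k) * M := by ring

/-- **the core statement for the translated core** -/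
theorem cor_Tw (bf : BoxFoam La F δ κ0) {Om : Set E3} {f : E3 → E3} (hlam : 0 < lam) (hu : 0 < u)
    (hκt : κt ≤ 1) (hκ2 : 0 < κ2) (hM : Mz κ0 κ2 Cc lam1 K κm κc Bs M)
    (hB : Blk F u Cc κ2 κt Bs M Nn c A lam Q k0 hk)
    (hcor : ∀ x : E3, (x ∈ Om ∧ f x ∈ cbx c.1 lam) ∨ A x ∈ cbx c.1 ((1 + 2 * κ2) * lam) →
      x ∈ Om ∧ ‖f x - A x‖ ≤ κc * (lam * c.1.sz)) {v : E3} (hv : v ∈ Tw Q k0) :
    CoriE Om f (trA A v) c.1 lam (κc + 1 / M) (κ2 / 2) := by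
  have hM' : (0 : ℝ) < M := by exact_mod_cast hM.pos
  have h0 : CoriE Om f A c.1 lam κc κ2 := by
    intro x hx
    exact hcor x (hx.imp (fun h => ⟨h.1, fun k => h.2 k⟩) fun h k => (h k).trans (le_of_eq (by ring)))
  have hs := Bx.sz_pos (bf.pos _ c.2)
  refine CoriE.tr h0 (fun k => ?_) ?_
  · have h1 := abs_lin_Tw bf hlam hu hκt hM hB hv k
    have h2 := mul_pos hlam (Bx.side_pos (bf.pos _ c.2) k)
    nlinarith
  · refine (norm_lin_Tw' bf hlam hu hκt hM hB hv).trans ?_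
    have h2 : 0 < lam * c.1.sz := mul_pos hlam hs
    have h3 : κc + 1 / (M : ℝ) - κc = 1 / M := by ring
    rw [h3]
    have h4 : 1 / 10 * (lam * c.1.sz) / M = 1 / 10 * (1 / M * (lam * c.1.sz)) := by ring
    rw [h4]
    have h5 : 0 < 1 / M * (lam * c.1.sz) := by positivity
    linarith

/-- **`f` on the translated block** -/
theorem block_Tw (bf : BoxFoam La F δ κ0) {Om : Set E3} {f : E3 → E3}
    (hlam : 0 < lam) (hlam1 : lam ≤ lam1) (hl1 : lam1 < 1) (hu : 0 < u)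
    (hκt : κt ≤ 1) (hκ2 : 0 < κ2) (hκc : 0 ≤ κc) (hM : Mz κ0 κ2 Cc lam1 K κm κc Bs M)
    (hB : Blk F u Cc κ2 κt Bs M Nn c A lam Q k0 hk)
    (hcor : ∀ x : E3, (x ∈ Om ∧ f x ∈ cbx c.1 lam) ∨ A x ∈ cbx c.1 ((1 + 2 * κ2) * lam) →
      x ∈ Om ∧ ‖f x - A x‖ ≤ κc * (lam * c.1.sz)) {v : E3} (hv : v ∈ Tw Q k0) {y : E3}
    (hy : y ∈ (Q.tr v).N) :
    y ∈ Om ∧ (∀ k, c.1.lo k < f y k ∧ f y k < c.1.hi k) ∧
      ‖f y - trA A v y‖ ≤ (κc + 1 / M) * (lam * c.1.sz) := by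
  have hM' : (0 : ℝ) < M := by exact_mod_cast hM.pos
  have hs := Bx.sz_pos (bf.pos _ c.2)
  have hside := fun k => Bx.side_pos (bf.pos _ c.2) k
  rw [CB.mem_N_tr] at hy
  obtain ⟨h1, h2⟩ := hB.sub _ hy
  have hlin := fun k => abs_lin_Tw bf hlam hu hκt hM hB hv k
  have hsub : ∀ k, A y k = trA A v y k + A.linear v k := by
    intro k
    have := congrFun (trA_sub A v y) k
    rw [Pi.sub_apply] at this
    linarith
  have h3 : A y ∈ cbx c.1 ((1 + 2 * κ2) * lam) := by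
    intro k
    have h4 := h1 k
    rw [← trA_apply] at h4
    have h5 := hlin k
    rw [hsub k]
    have e : trA A v y k + A.linear v k - ctr c.1 k = (trA A v y k - ctr c.1 k) + A.linear v k := by
      ring
    rw [e]
    refine (abs_add_le _ _).trans ?_
    have h6 : 0 < κ2 * (lam * c.1.side k) := mul_pos hκ2 (mul_pos hlam (hside k))
    nlinarith
  obtain ⟨hyO, h4⟩ := hcor y (Or.inr h3)
  have h5 : ‖f y - trA A v y‖ ≤ (κc + 1 / M) * (lam * c.1.sz) := by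
    have e : f y - trA A v y = (f y - A y) + A.linear v := by rw [← trA_sub A v y]; abel
    rw [e]
    refine (norm_add_le _ _).trans ?_
    have h6 := norm_lin_Tw' bf hlam hu hκt hM hB hv
    have h7 : 1 / 10 * (lam * c.1.sz) / M ≤ 1 / M * (lam * c.1.sz) := by
      have : 0 < 1 / M * (lam * c.1.sz) := by positivity
      have e2 : 1 / 10 * (lam * c.1.sz) / M = 1 / 10 * (1 / M * (lam * c.1.sz)) := by ring
      rw [e2]; linarith
    calc ‖f y - A y‖ + ‖A.linear v‖ ≤ κc * (lam * c.1.sz) + 1 / M * (lam * c.1.sz) :=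
          add_le_add h4 (h6.trans h7)
      _ = (κc + 1 / M) * (lam * c.1.sz) := by ring
  refine ⟨hyO, ?_, h5⟩
  intro k
  have h6 := h2 k
  rw [← trA_apply] at h6
  have hκp : 0 ≤ κc + 1 / (M : ℝ) := by positivity
  have h7 : |f y k - trA A v y k| ≤ (1 - lam1) / 8 * c.1.side k := by
    have h8 := (norm_le_pi_norm (f y - trA A v y) k).trans h5
    rw [Pi.sub_apply, Real.norm_eq_abs] at h8
    refine h8.trans ?_
    have h9 := bf.asp _ c.2 k
    have h10 : lam * c.1.sz ≤ κ0 * c.1.side k := by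
      calc lam * c.1.sz ≤ 1 * c.1.sz := mul_le_mul_of_nonneg_right (by linarith) hs.le
        _ = c.1.sz := one_mul _
        _ ≤ _ := h9
    calc (κc + 1 / M) * (lam * c.1.sz) ≤ (κc + 1 / M) * (κ0 * c.1.side k) :=
          mul_le_mul_of_nonneg_left h10 hκp
      _ = (κc + 1 / M) * κ0 * c.1.side k := by ring
      _ ≤ (1 - lam1) / 8 * c.1.side k :=
          mul_le_mul_of_nonneg_right hM.m3 (hside k).le
  have h8 : |trA A v y k - ctr c.1 k| ≤ (1 + lam1) / 4 * c.1.side k := by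
    refine h6.trans ?_
    have := hside k
    nlinarith
  have h9 : |f y k - ctr c.1 k| < c.1.side k / 2 := by
    have e : f y k - ctr c.1 k = (f y k - trA A v y k) + (trA A v y k - ctr c.1 k) := by ring
    rw [e]
    refine (abs_add_le _ _).trans_lt ?_
    have := hside k
    nlinarith
  have h10 := abs_lt.1 h9
  have h11 := ctr_lo c.1 k
  have h12 := ctr_hi c.1 k
  constructor <;> linarith [h10.1, h10.2]

end one

/-- **[Z7] / [E4]: `FineX` and `Exact` on the aligned mesh of the blocks of `EA0`**, for all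
translations `v c ∈ Tw (Q c) (k0 c)`.  `hF` = output of 360's `exists_dat_off` with `O := OX ..`. -/
theorem z7 {X : Set F} (M : MD E3 3 X) {k : X → ℕ} (hk : M.Sc k) (a : Fin 3 → ℝ) {v : X → E3}
    (hv : M.Adm v) (hLa : IsOpen La) (hδ : 0 < δ) (hR : 0 < R) (bf : BoxFoam La F δ κ0)
    (cmp : Cmp F R) {lam : F → ℝ} {zc : F → E3} (H : XD bf c0 X lam zc) {f fi : E3 → E3}
    (hfi : ∀ y ∈ M.φ ⁻¹' M.D0.Om, fi (f y) = y)
    {u Cc κ2 κt lam1 κm κc : ℝ} {Bs Mn Nn : ℕ} (hu : 0 < u) (hCc : 0 ≤ Cc) (hκ2 : 0 < κ2)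
    (hκ24 : κ2 ≤ 1 / 4) (hκt : κt ≤ 1) (hκc : 0 ≤ κc) (hl1 : lam1 < 1)
    (hlam : ∀ c ∈ X, lam c ≤ lam1)
    (hMz : Mz κ0 κ2 Cc lam1 (KI δ κ0 R (cm κ0 c0)) κm κc Bs Mn)
    {A : F → E3 ≃ᵃ[ℝ] E3} {Q : F → CB E3 3} {k0 : F → ℕ} {hk0 : ∀ c, (Q c).kc ≤ k0 c}
    (hB : ∀ c ∈ X, Blk F u Cc κ2 κt Bs Mn Nn c (A c) (lam c) (Q c) (k0 c) (hk0 c))
    (hcor : ∀ c ∈ X, ∀ x : E3, (x ∈ M.φ ⁻¹' M.D0.Om ∧ f x ∈ cbx c.1 (lam c)) ∨
      A c x ∈ cbx c.1 ((1 + 2 * κ2) * lam c) →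
      x ∈ M.φ ⁻¹' M.D0.Om ∧ ‖f x - A c x‖ ≤ κc * (lam c * c.1.sz))
    (hQ : ∀ c : X, M.Q c = Q c.1) (hvT : ∀ c : X, v c ∈ Tw (Q c.1) (k0 c.1))
    (XR : RD M) (hXR : ∀ c, XR.R c ≤ Bs) {x : {c // c ∉ X} → E3} {Rz : {c // c ∉ X} → ℝ}
    {ρ : (Fin 3 → ℝ) → ℝ} (hρ : ∀ u, M.D0.ρ u ≤ ρ u)
    (hF : ∀ y, M.φ y ∈ M.D0.Om → FineS (fX bf cmp H) f κm
      (M.φ ⁻¹' closedBall (M.φ y) (ρ (M.φ y)) ∩ ((M.φ ⁻¹' M.D0.Om) ∩
        offO f (OX X lam La fi x fun c => Rz c / 2))))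
    {ct0 : F → M.OIx hk a hv ⊕ Σ j, M.IIx hk a hv j}
    (hct0 : ∀ c : X, ct0 c.1 = Sum.inr ⟨c, M.core hk a hv c⟩) {A' : F → E3 ≃ᵃ[ℝ] E3}
    (hA' : ∀ c : X, A' c.1 = trA (A c.1) (v c)) :
    FineX (fX bf cmp H) (M.mesh hk a hv) f κm X ct0 x Rz ∧
    ∀ c ∈ X, Exact (fX bf cmp H) (M.mesh hk a hv) f κm (κ2 / 2) c (ct0 c) (A' c) (lam c)
      (zz c.1 (lam c)) := by
  have hM' : (0 : ℝ) < Mn := by exact_mod_cast hMz.pos
  have hκ0 : 0 ≤ κ0 := by linarith [H.hκ]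
  have hκ1 : 0 ≤ κc + 1 / (Mn : ℝ) := by positivity
  have hK : ∀ c : X, (M.Q c).Kc = A c.1 ⁻¹' cbx c.1.1 (lam c.1) := fun c => by
    rw [hQ c]; exact (hB c.1 c.2).core
  have hcorT : ∀ c : X, CoriE (M.φ ⁻¹' M.D0.Om) f (trA (A c.1) (v c)) c.1.1 (lam c.1)
      (κc + 1 / Mn) (κ2 / 2) := fun c =>
    cor_Tw bf (H.pos c.2) hu hκt hκ2 hMz (hB c.1 c.2) (hcor c.1 c.2) (hvT c)
  have hls : ∀ c : X, lam c.1 * c.1.1.sz ≤ c.1.1.sz := fun c => by
    have hs := Bx.sz_pos (bf.pos _ c.1.2)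
    calc lam c.1 * c.1.1.sz ≤ 1 * c.1.1.sz :=
          mul_le_mul_of_nonneg_right (by linarith [hlam c.1 c.2]) hs.le
      _ = c.1.1.sz := one_mul _
  constructor
  · refine fineX_MD M hk a hv hLa hδ hR bf cmp H hfi hκ1 hMz.m2 (A := fun c => A c.1) hK hcorT XR
      (κw := fun _ => κc + 1 / Mn) (η := fun _ => Bs * Cc / Mn) (uA := fun _ => u) hρ hF
      (fun c y hy => ?_) (fun _ => hu.le) (fun c y y' => ?_) (fun c => ?_) (fun c => ?_) hct0
    · have hy' : y ∈ ((Q c.1).tr (v c)).N := by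
        have : (M.Bk v c).N = ((M.Q c).tr (v c)).N := rfl
        rw [this, hQ c] at hy
        exact hy
      obtain ⟨-, h1, h2⟩ := block_Tw bf (H.pos c.2) (hlam c.1 c.2) hl1 hu hκt hκ2 hκc hMz
        (hB c.1 c.2) (hcor c.1 c.2) (hvT c) hy'
      refine ⟨Bx.mem_set.2 fun k => ⟨(h1 k).1.le, (h1 k).2.le⟩, h2.trans ?_⟩
      exact mul_le_mul_of_nonneg_left (hls c) hκ1
    · have e : A c.1 y' - A c.1 y = u • ((Q c.1).ψ y' - (Q c.1).ψ y) := by
        have h1 := (A c.1).toAffineMap.linearMap_vsub y' y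
        rw [vsub_eq_sub, vsub_eq_sub] at h1
        have h2 : (A c.1) y' - (A c.1) y = (A c.1).linear (y' - y) := h1.symm
        rw [h2, (hB c.1 c.2).lin_eq, map_sub]
      rw [e, norm_smul, Real.norm_eq_abs, abs_of_pos hu, hQ c, dist_comm, dist_eq_norm]
    · have h1 := (hB c.1 c.2).cell
      rw [← hQ c] at h1
      have hBs : (0 : ℝ) ≤ Bs := Nat.cast_nonneg _
      have h3 : 0 < u / (2 : ℝ) ^ (M.Q c).kc := by positivity
      have h2 := hls c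
      calc u * (XR.R c / 2 ^ (M.Q c).kc) = XR.R c * (u / 2 ^ (M.Q c).kc) := by ring
        _ ≤ Bs * (u / 2 ^ (M.Q c).kc) := mul_le_mul_of_nonneg_right (hXR c) h3.le
        _ ≤ Bs * (Cc * (lam c.1 * c.1.1.sz) / Mn) := mul_le_mul_of_nonneg_left h1 hBs
        _ ≤ Bs * (Cc * c.1.1.sz / Mn) := by gcongr
        _ = Bs * Cc / Mn * c.1.1.sz := by ring
    · exact hMz.m4
  · have hE := exactX_MD M hk a hv bf cmp H (κ1 := κc + 1 / (Mn : ℝ)) (κ2 := κ2 / 2) (by linarith)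
      (by linarith) hκ1 (by have := hMz.m2; linarith)
      (fun c hc => by
        have h1 := hMz.m3
        have h2 := hlam c hc
        have h3 := H.pos hc
        have h4 : 0 ≤ (κc + 1 / (Mn : ℝ)) * κ0 := mul_nonneg hκ1 hκ0
        nlinarith) (A := fun c => A c.1) hK hcorT hct0 hA'
    exact fun c hc => Crest.Agent.R96.EaCore_348.exact_mono hMz.m5 (hE c hc)

end

end Crest.Agent.R96.Eam_466
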