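import Crest.Agent.R96.Wm5_72
import Crest.Agent.R096.Mfi5_290

/-!
# Row 96, (WALL-MEAN), inner cubes at the walls: the mean of 290's class `Mfi_290.QW`
-/

set_option autoImplicit false

open MeasureTheory Set Filter Metric
open scoped Topology ENNReal Pointwise

namespace Crest.Agent.R96.Wm5_72

open Crest.Agent.R096.Msh_810 Crest.Agent.R096.Mal_874
open Crest.Agent.R096.SkC1_961 (E3)
open Crest.Agent.R96.Sg1_199 (li sgm)
open Crest.Agent.R96.Wm_72 (Tw Tw_aedisj Tw_dist measurableSet_Tw isCompact_Tw)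
open Crest.Agent.R96.Wm2_72
open Crest.Agent.R096.Mfi_290 (RT cube)

noncomputable section

/-- translates of a.e. disjoint sets -/
theorem aedisj_tr {E : Type*} [NormedAddCommGroup E] [MeasurableSpace E] [BorelSpace E]
    {μ : Measure E} [μ.IsAddRightInvariant] {S T : Set E} (h : AEDisjoint μ S T) (w : E) :
    AEDisjoint μ ((fun y => y + w) '' S) ((fun y => y + w) '' T) := by
  unfold AEDisjoint at h ⊢
  rw [← image_inter (add_left_injective w), image_add_right, measure_preimage_add_right]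
  exact h

variable {J : Type} {M : MD E3 3 J} {W : J → Set E3}

/-- **THE MEAN OF THE INNER CUBES AT THE WALL `j`** (290's `QW`) -/
theorem mean_QWi (X : RD M) (hWc : ∀ j, (W j).Countable) (j : J) (hW : (W j).Finite)
    {r' : ℝ} (hr' : M.r j < r') {H : E3 → ℝ≥0∞} {p : ℝ} (hp : 1 ≤ p)
    (hH : ∫⁻ z in M.φ ⁻¹' (M.D0.Om ∩ cthickening r' (M.φ '' frontier (M.Q j).N)), H z ^ p ≠ ∞)
    {ε : ℝ≥0∞} (hε : ε ≠ 0) :
    ∃ k0 : ℕ, ∀ k : J → ℕ, k0 ≤ k j → ∀ {𝒦 : Set (Set E3)} {U : Set E3} (h𝒦 : 𝒦.Countable)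
      (hU : U.Countable) {A : Set E3}, MeasurableSet A →
      ∀ {G : E3 → E3 → ℝ≥0∞}, (∀ v, Measurable (G v)) → (∀ᵐ y : E3, ∀ v, G v y ≤ ‖v‖ₑ * H y) →
      ∫⁻ a in A, ((Crest.Agent.R096.Mfi_290.QW M X k W hWc j).toPT 𝒦 U h𝒦 hU).EnC G p () a ≤ ε := by
  classical
  obtain ⟨C, hC0, hC⟩ := exists_c (M.Q j).ψ
  have hc1 := X.c1 j
  have hWf : Finite (W j) := hW.to_subtype
  have := Fintype.ofFinite (W j)
  have hR : MeasurableSet (M.φ ⁻¹' (M.D0.Om ∩ cthickening r' (M.φ '' frontier (M.Q j).N))) := by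
    refine M.φ.continuous.measurable (MeasurableSet.inter ?_ isClosed_cthickening.measurableSet)
    exact (isOpen_lt continuous_const M.D0.continuous_ρ).measurableSet
  obtain ⟨k0, hk0⟩ := cut_pt (isCompact_front (M.Q j)) (front_null (M.Q j))
    (W := W j) (fun t => (t : E3)) C
    (n := (⋃₀ {c : Set (Set E3) | c ∈ simL (NR (X.A j) (X.d j)) (X.d j) (X.c j) ∧ c.Finite}).ncard)
    (K := ENNReal.ofReal (‖(M.φ : E3 →L[ℝ] (Fin 3 → ℝ))‖ * C))
    ENNReal.ofReal_ne_top hR hp hH hε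
  obtain ⟨k1, hk1⟩ : ∃ k1 : ℕ, ∀ κ ≥ k1, M.r j + X.c j / 2 ^ κ ≤ r' := by
    obtain ⟨k1, hk1⟩ := exists_nat_gt (X.c j / (r' - M.r j))
    refine ⟨k1, fun κ hκ => ?_⟩
    have h0 : 0 < r' - M.r j := by linarith
    have h1 : (0 : ℝ) < 2 ^ κ := by positivity
    have h2 : (k1 : ℝ) ≤ 2 ^ κ := by
      have : (κ : ℝ) ≤ 2 ^ κ := by exact_mod_cast Nat.lt_two_pow_self.le
      have h3 : (k1 : ℝ) ≤ κ := by exact_mod_cast hκ
      linarith
    rw [div_lt_iff₀ h0] at hk1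
    have h3 : X.c j / 2 ^ κ ≤ r' - M.r j := by
      rw [div_le_iff₀ h1]
      nlinarith
    linarith
  refine ⟨max k0 k1, fun k hk 𝒦 U h𝒦 hU A Am G hGm hGH => ?_⟩
  have hcube : ∀ z, cube (M.Q j) (k j) z = Tw (M.Q j).ψ (M.Q j).a' (k j) z := fun z => rfl
  refine hk0 (k j) ((le_max_left _ _).trans hk)
    ((Crest.Agent.R096.Mfi_290.QW M X k W hWc j).toPT 𝒦 U h𝒦 hU) (κ := ()) Am
    (fun t => t.1.1) ?_ ?_ ?_ ?_ ?_ ?_ hGm hGH
  · rintro ⟨w, z⟩ -
    show MeasurableSet ((fun y => y + (w : E3)) '' cube (M.Q j) (k j) z)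
    rw [hcube, image_add_right]
    exact measurable_add_const _ measurableSet_Tw
  · rintro ⟨⟨w, z⟩, h1⟩ ⟨⟨w', z'⟩, h2⟩ hne htag - -
    obtain rfl : w = w' := htag
    refine aedisj_tr (Tw_aedisj (M.Q j).ψ (M.Q j).a' (k j) fun h => hne ?_) (w : E3)
    subst h
    rfl
  · rintro ⟨⟨w, z⟩, h1⟩ ⟨b, hb, -⟩
    obtain ⟨-, ⟨y0, hy0, hy0f⟩, -⟩ := hb
    rintro _ ⟨x, hx, rfl⟩
    refine mem_cthickening_of_dist_le _ (y0 + w) _ _ ⟨y0, hy0f, rfl⟩ ?_
    show dist (x + (w : E3)) (y0 + w) ≤ _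
    rw [dist_add_right]
    exact Tw_dist hC0.le hC hy0 hx
  · intro t _
    exact RT.card_Ed_le (Crest.Agent.R096.Mfi_290.QW M X k W hWc j) 𝒦 U h𝒦 hU t
  · rintro ⟨w, z⟩ - e he
    obtain ⟨-, hsub⟩ :=
      ((Crest.Agent.R096.Mfi_290.QW M X k W hWc j).toPT 𝒦 U h𝒦 hU).sub _ e he
    set x := ((Crest.Agent.R096.Mfi_290.QW M X k W hWc j).toPT 𝒦 U h𝒦 hU).x e
    set v := ((Crest.Agent.R096.Mfi_290.QW M X k W hWc j).toPT 𝒦 U h𝒦 hU).v e
    obtain ⟨x1, hx1, e1⟩ : x ∈ (fun y => y + (w : E3)) '' cube (M.Q j) (k j) z :=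
      hsub ⟨0, ⟨le_rfl, zero_le_one⟩, by simp⟩
    obtain ⟨x2, hx2, e2⟩ : x + v ∈ (fun y => y + (w : E3)) '' cube (M.Q j) (k j) z :=
      hsub ⟨1, ⟨zero_le_one, le_rfl⟩, by simp⟩
    have h5 : ‖v‖ ≤ C / 2 ^ k j := by
      have h4 := Tw_dist hC0.le hC hx1 hx2
      have e3 : v = x2 - x1 := by
        have e4 : x + v = x2 + w := e2.symm
        have e5 : x = x1 + w := e1.symm
        have : v = (x + v) - x := by abel
        rw [this, e4, e5]
        abel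
      rw [dist_eq_norm] at h4
      rw [e3]
      exact h4
    have e1 : ‖v‖ₑ = ENNReal.ofReal ‖v‖ := (ofReal_norm _).symm
    rw [e1]
    have e2 : ((Crest.Agent.R096.Mfi_290.QW M X k W hWc j).toPT 𝒦 U h𝒦 hU).β (w, z) =
      2 ^ k j * ‖(M.φ : E3 →L[ℝ] (Fin 3 → ℝ))‖ := rfl
    rw [e2, ← ENNReal.ofReal_mul (by positivity)]
    refine ENNReal.ofReal_le_ofReal ?_
    calc 2 ^ k j * ‖(M.φ : E3 →L[ℝ] (Fin 3 → ℝ))‖ * ‖v‖
        ≤ 2 ^ k j * ‖(M.φ : E3 →L[ℝ] (Fin 3 → ℝ))‖ * (C / 2 ^ k j) :=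
          mul_le_mul_of_nonneg_left h5 (by positivity)
      _ = _ := by field_simp
  · rintro ⟨w, z⟩ - y hy b hb -
    obtain ⟨x, hx, rfl⟩ := hy
    obtain ⟨hbw, ⟨y0, hy0, hy0f⟩, hsub⟩ := hb
    have hxN : x ∈ (M.Q j).N := hsub hx
    constructor
    · refine M.Vsub j ?_
      refine mem_cthickening_of_dist_le _ _ _ _ (mem_image_of_mem M.φ hxN) ?_
      have e : M.φ (x + (w : E3) + b) - M.φ x = M.φ (b + w) := by
        rw [← map_sub]; congr 1; abel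
      rw [dist_eq_norm, e]
      exact hbw
    · refine mem_cthickening_of_dist_le _ _ _ _ (mem_image_of_mem M.φ hy0f) ?_
      have e : M.φ (x + (w : E3) + b) - M.φ y0 = (M.φ x - M.φ y0) + M.φ (b + w) := by
        rw [← map_sub, ← map_sub, ← map_add]; congr 1; abel
      show dist (M.φ (x + (w : E3) + b)) (M.φ y0) ≤ r'
      rw [dist_eq_norm, e]
      refine (norm_add_le _ _).trans ?_
      have h3 : ‖M.φ x - M.φ y0‖ ≤ X.c j / 2 ^ k j := by
        rw [← dist_eq_norm]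
        refine (X.cn j x y0).trans ?_
        rw [div_eq_mul_one_div]
        exact mul_le_mul_of_nonneg_left (dist_cube hx hy0) (by linarith)
      have h4 := hk1 (k j) ((le_max_right _ _).trans hk)
      have h5 : ‖M.φ (b + (w : E3))‖ ≤ M.r j := hbw
      linarith

end

end Crest.Agent.R96.Wm5_72
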