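import Crest.Agent.R96.Ea0p_348
import Crest.Agent.R096.Zb1_874
import Crest.Agent.R096.Mdd9_360

/-!
# R96, EA0 (helper348), part 3: from the output of 112's `pre_gen` to `PreMesh0`
-/

set_option autoImplicit false
set_option linter.style.longLine false
set_option linter.unusedSectionVars false

open MeasureTheory Set Filter Topology Metric
open scoped ENNReal NNReal

namespace Crest.Agent.R96.Ea0p_348

open Crest.Agent.R096.SkC1_961 (E3 Hom3 FoamD)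
open Crest.Agent.R096.Er_594 (SH3)
open Crest.Agent.R096.Bsp_628 Crest.Agent.R096.Brk5_582
open Crest.Agent.R096.EaX_766 (lin cbx Kor)
open Crest.Agent.R096.Acc_365 (K1 K2)
open Crest.Agent.R096.Msh_715 (Tiling P I)
open Crest.Agent.R096.Msh_810 (ps)
open Crest.Agent.R096.Mal_874 (CB)
open Crest.Agent.R096.Ls_222 (Edg)
open Crest.Agent.R096.Ea0_961 (Blk InS Tw Ly)
open Crest.Agent.R096.Fns_360 (trA trA_apply)
open Crest.Agent.R096.Mdd_360 (kc_tr)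
open Crest.Agent.R96.EaCore_348 (EE Ord Macro)
open Crest.Agent.R96.EaPost_348 (Geo)
open Crest.Agent.R96.Pm_199 (Dec)
open Crest.Agent.R096.Pmc_112 (PreOut)
open Crest.Agent.R96.EaP_899 (XD fX cm)

noncomputable section

/-- the core stays in the translated block -/
theorem kc_sub_tr (Q : CB E3 3) {k0 : ℕ} (hk : Q.kc ≤ k0) {v : E3} (hv : ‖Q.ψ v‖ ≤ 1 / 2 ^ k0) :
    Q.Kc ⊆ (Q.tr v).N := by
  intro y hy
  rw [Q.mem_N_tr, CB.mem_N]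
  intro l
  have h1 := (show ps Q.a' Q.kc (Q.ψ y) ∈ Q.S.B0 from hy) l
  have h3 := Q.w_real
  have h4 : (0 : ℝ) < Q.S.t := by exact_mod_cast Q.S.t0
  have h5 : ps Q.a' Q.kc (Q.ψ (y - v)) l = ps Q.a' Q.kc (Q.ψ y) l - 2 ^ Q.kc * Q.ψ v l := by
    rw [map_sub]
    show 2 ^ Q.kc * ((Q.ψ y - Q.ψ v) l - Q.a' l) = 2 ^ Q.kc * (Q.ψ y l - Q.a' l) - 2 ^ Q.kc * Q.ψ v l
    rw [Pi.sub_apply]
    ring
  have h6 : |2 ^ Q.kc * Q.ψ v l| ≤ 1 := by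
    have h7 : |Q.ψ v l| ≤ 1 / 2 ^ k0 := by
      have := (norm_le_pi_norm (Q.ψ v) l).trans hv
      rwa [Real.norm_eq_abs] at this
    have h8 : (2:ℝ) ^ Q.kc ≤ 2 ^ k0 := pow_le_pow_right₀ (by norm_num) hk
    rw [abs_mul, abs_of_nonneg (by positivity)]
    calc (2:ℝ) ^ Q.kc * |Q.ψ v l| ≤ 2 ^ k0 * (1 / 2 ^ k0) := by gcongr
      _ = 1 := by field_simp
  have h9 := abs_le.1 h6
  rw [h5]
  constructor <;> linarith [h1.1, h1.2]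

theorem lin_trA (A : E3 ≃ᵃ[ℝ] E3) (v : E3) : lin (trA A v) = lin A := by
  ext x l
  rfl

/-- the output of `pre_gen`, in the letters of EA0 -/
def GenOut {δ κ0 R c0 : ℝ} {La : Set E3} {F : Set (Bx (Fin 3))} (bf : BoxFoam La F δ κ0)
    (cmp : Cmp F R) (p : ℝ) (C : Set (Set E3) → ℝ) (κp κ1 κ2 : ℝ) (Om : Set E3) (f : E3 → E3)
    (X : Set F) (A : F → E3 ≃ᵃ[ℝ] E3) (lam : F → ℝ) (Q : F → CB E3 3)
    (Gd : X → Set E3) (z : F → E3) (H : XD bf c0 X lam z) (KK Eo : ℝ≥0∞) (B : X → ℝ≥0∞)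
    (ε : ℝ≥0∞) (εb : X → ℝ≥0∞) : Prop :=
  ∃ (Dd : Dec Om F) (l : Edg Dd.T → ℝ≥0∞) (v : X → E3)
    (κ : Type) (x₀ : κ → E3) (R0 R1 : κ → ℝ) (b : κ → F) (Qb : X → Set Dd.ι),
    PreOut (fX bf cmp H) f κp (κp / 64) κ1 κ2 8 X Dd l ∧
    Geo Dd.T (Dd.ct '' X) {i | ∃ c, c ∉ X ∧ i ∈ Dd.V c} x₀ R0 R1 1 ∧
    Macro (fX bf cmp H) f x₀ R1 b ∧
    (∀ c : X, v c ∈ Gd c ∧ P (Dd.T.H (Dd.ct c)) = ((Q c.1).tr (v c)).Kc ∧ Dd.lam c = lam c ∧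
      Dd.A c = trA (A c) (v c)) ∧
    EE C Dd.T Dd.fr (Ord (Φ := fX bf cmp H) Dd.V) l p ≤ KK * (Eo + ∑' c, B c) + ε ∧
    (∀ c c' : X, c ≠ c' → Disjoint (Qb c) (Qb c')) ∧
    ∀ c : X, Qb c ⊆ Ord (Φ := fX bf cmp H) Dd.V ∧
      (∀ i ∈ Qb c, ∀ x ∈ I (Dd.T.H i), ∀ k, x ∉ closedBall (x₀ k) (R1 k)) ∧
      ((Q c.1).tr (v c)).N \ ((Q c.1).tr (v c)).Kc ⊆ ⋃ i ∈ Qb c, P (Dd.T.H i) ∧
      EE C Dd.T Dd.fr (Ord (Φ := fX bf cmp H) Dd.V ∩ Qb c) l p ≤ KK * B c + εb c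

/-- **from the output of `pre_gen` to `PreMesh0`** -/
theorem preMesh0_of {δ κ0 R c0 : ℝ} {La : Set E3} {F : Set (Bx (Fin 3))}
    {bf : BoxFoam La F δ κ0} {cmp : Cmp F R} {p : ℝ} {C : Set (Set E3) → ℝ} {κp κ1 κ2 : ℝ}
    {Om : Set E3} {f : E3 → E3} {D : E3 → E3 →L[ℝ] E3} {X : Set F} {A : F → E3 ≃ᵃ[ℝ] E3}
    {lam : F → ℝ} {Q : F → CB E3 3} {k0 : F → ℕ} (hk : ∀ c, (Q c).kc ≤ k0 c) {er : F → ℝ≥0∞}
    {Gd : X → Set E3} {z : F → E3} {H : XD bf c0 X lam z} {KK KO C1g CAg : ℝ≥0} {Eo : ℝ≥0∞}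
    {B : X → ℝ≥0∞} {ε : ℝ≥0∞} {εb : F → ℝ≥0∞}
    (hcore : ∀ c ∈ X, (Q c).Kc = A c ⁻¹' cbx c.1 (lam c))
    (hGd : ∀ c : X, Gd c ⊆ Tw (Q c.1) (k0 c.1))
    (hEo : Eo ≤ KO * (Jn p Om D F X Q + ∑' c : X, Ln p D F Q k0 c))
    (hB : ∀ c : X, B c ≤ C1g * (Sn p F A lam Q c + er c) + CAg * Ln p D F Q k0 c)
    (h : GenOut bf cmp p C κp κ1 κ2 Om f X A lam Q Gd z H KK Eo B ε (fun c => εb c.1)) :
    PreMesh0 (c0 := c0) bf cmp p C κp κ1 κ2 Om f D X A lam Q k0 er (KK * (KO + C1g))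
      (KK * (KO + CAg)) ε εb := by
  classical
  obtain ⟨Dd, l, v, κ, x₀, R0, R1, b, Qb, h1, h2, h3, h4, h5, h6, h7⟩ := h
  have hvT : ∀ c : X, v c ∈ Tw (Q c.1) (k0 c.1) := fun c => hGd c (h4 c).1
  have hK2 : ∀ c : X, ((Q c.1).tr (v c)).Kc = K2 (A c) c.1.1 (lam c) (v c) := by
    intro c
    ext x
    rw [(Q c.1).mem_Kc_tr, hcore c.1 c.2]
    rfl
  have hvn : ∀ c : X, ‖(Q c.1).ψ (v c)‖ ≤ 1 / 2 ^ (k0 c.1) := fun c =>
    Crest.Agent.R096.Zb_874.tw_norm' (hvT c) le_rfl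
  -- functions on all bricks
  set v' : F → E3 := fun c => if hc : c ∈ X then v ⟨c, hc⟩ else 0 with hv'
  set Qb' : F → Set Dd.ι := fun c => if hc : c ∈ X then Qb ⟨c, hc⟩ else ∅ with hQb'
  have hv'e : ∀ c : X, v' c.1 = v c := fun c => by
    simp only [hv']
    rw [dif_pos c.2]
  have hQbe : ∀ c : X, Qb' c.1 = Qb c := fun c => by
    simp only [hQb']
    rw [dif_pos c.2]
  refine ⟨z, H, Dd, l, v', κ, x₀, R0, R1, b, Qb', h1, h2, h3, ?_, ?_, ?_, ?_⟩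
  · intro c hc
    obtain ⟨g1, g2, g3, g4⟩ := h4 ⟨c, hc⟩
    rw [hv'e ⟨c, hc⟩]
    refine ⟨g2.trans (hK2 ⟨c, hc⟩), g3, ?_, hvT ⟨c, hc⟩⟩
    have g5 : Dd.A c = trA (A c) (v ⟨c, hc⟩) := g4
    rw [g5, lin_trA]
  · refine h5.trans ?_
    have g1 : ∑' c, B c ≤ C1g * (∑' c : X, Sn p F A lam Q c + ∑' c : X, er c) +
        CAg * ∑' c : X, Ln p D F Q k0 c := by
      refine (ENNReal.tsum_le_tsum hB).trans (le_of_eq ?_)
      rw [ENNReal.tsum_add, ENNReal.tsum_mul_left, ENNReal.tsum_mul_left, ENNReal.tsum_add]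
    have g2 : Eo + ∑' c, B c ≤ ((KO + C1g : ℝ≥0) : ℝ≥0∞) *
        (Jn p Om D F X Q + ∑' c : X, Sn p F A lam Q c + ∑' c : X, er c) +
        ((KO + CAg : ℝ≥0) : ℝ≥0∞) * ∑' c : X, Ln p D F Q k0 c := by
      refine (add_le_add hEo g1).trans ?_
      push_cast
      set a1 := Jn p Om D F X Q
      set a2 := ∑' c : X, Sn p F A lam Q c
      set a3 := ∑' c : X, er c
      set a4 := ∑' c : X, Ln p D F Q k0 c
      calc (KO : ℝ≥0∞) * (a1 + a4) + (C1g * (a2 + a3) + CAg * a4)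
          = KO * a1 + C1g * (a2 + a3) + (KO + CAg) * a4 := by ring
        _ ≤ (KO + C1g) * a1 + (KO + C1g) * (a2 + a3) + (KO + CAg) * a4 := by
            gcongr
            · exact le_self_add
            · exact le_add_self
        _ = _ := by ring
    calc (KK : ℝ≥0∞) * (Eo + ∑' c, B c) + ε ≤ KK * (((KO + C1g : ℝ≥0) : ℝ≥0∞) *
          (Jn p Om D F X Q + ∑' c : X, Sn p F A lam Q c + ∑' c : X, er c) +
          ((KO + CAg : ℝ≥0) : ℝ≥0∞) * ∑' c : X, Ln p D F Q k0 c) + ε := by gcongr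
      _ = _ := by
          push_cast
          ring
  · intro c hc c' hc' hcc
    rw [hQbe ⟨c, hc⟩, hQbe ⟨c', hc'⟩]
    exact h6 _ _ fun e => hcc (congrArg Subtype.val e)
  · intro c hc
    obtain ⟨g1, g2, g3, g4⟩ := h7 ⟨c, hc⟩
    rw [hQbe ⟨c, hc⟩, hv'e ⟨c, hc⟩]
    refine ⟨g1, g2, ?_, ?_⟩
    · refine Subset.trans ?_ g3
      rintro x ⟨hx, hx2⟩
      refine ⟨kc_sub_tr (Q c) (hk c) (hvn ⟨c, hc⟩) ?_, ?_⟩
      · rw [hcore c hc]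
        exact hx
      · rw [hK2 ⟨c, hc⟩]
        exact hx2
    · refine g4.trans ?_
      refine add_le_add ?_ le_rfl
      calc (KK : ℝ≥0∞) * B ⟨c, hc⟩ ≤ KK * (C1g * (Sn p F A lam Q c + er c) +
            CAg * Ln p D F Q k0 c) := by gcongr; exact hB ⟨c, hc⟩
        _ ≤ KK * ((KO + C1g) * (Sn p F A lam Q c + er c) +
            (KO + CAg) * Ln p D F Q k0 c) := by
            gcongr
            · exact le_add_self
            · exact le_add_self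
        _ = _ := by
            push_cast
            ring

end

end Crest.Agent.R96.Ea0p_348
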