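import Crest.Agent.R96.Hf1_348

/-!
# R96, EA-POST (helper348): from the output of the machine (local Lipschitz constants in the tiles)
to the energies, with the hole squeeze in the macro balls of the tiny cores
-/

set_option autoImplicit false

open Set Metric Filter Topology MeasureTheory Module
open scoped ENNReal NNReal

namespace Crest.Agent.R96.EaPost_348

open Crest.Agent.R96.Hole_348
open Crest.Agent.R096.Ce_537 Crest.Agent.R096.Msh_715

abbrev E3 : Type := Fin 3 → ℝ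

/-- homeomorphism of `Om` onto `La` (unfolded `SkC1_961.Hom3`) -/
def Hom (f : E3 → E3) (Om La : Set E3) : Prop :=
  ∃ fi : E3 → E3, MapsTo f Om La ∧ MapsTo fi La Om ∧ (∀ x ∈ Om, fi (f x) = x) ∧
    (∀ y ∈ La, f (fi y) = y) ∧ ContinuousOn f Om ∧ ContinuousOn fi La

variable {Om La : Set E3} {ι : Type} {κ : Type*}

/-- the open ring of the macro ball `c` -/
def rg (a : κ → E3) (R0 R1 : κ → ℝ) (c : κ) : Set E3 := ball (a c) (R1 c) \ closedBall (a c) (R0 c)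

/-- **the data after the machine**: `Kt` = the tiles of the exact cores, `Vt` = the tiles without
any bound (inside the macro balls), `ℓ` = local Lipschitz constants of `g` in all other tiles. -/
structure Post (T : Tiling Om ι) (La : Set E3) (g : E3 → E3) (Kt Vt : Set ι) (a : κ → E3)
    (R0 R1 : κ → ℝ) (κv : ℝ) (ℓ : ι → ℝ) : Prop where
  hom : Hom g Om La
  pl : Crest.Agent.R096.Str_696.LocPL g Om
  ring : RingFam Om a R0 R1
  half : ∀ c, 4 * R0 c ≤ 3 * R1 c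
  vt : ∀ i ∈ Vt, ∃ c, P (T.H i) ⊆ closedBall (a c) (R0 c)
  kt : ∀ i ∈ Kt, ∀ c, Disjoint (P (T.H i)) (closedBall (a c) (R1 c))
  one : ∀ i c c', (P (T.H i) ∩ rg a R0 R1 c).Nonempty → (P (T.H i) ∩ rg a R0 R1 c').Nonempty →
    c = c'
  fat : ∀ c i, (P (T.H i) ∩ rg a R0 R1 c).Nonempty →
    ∃ d : ℝ, 0 < d ∧ (∀ x ∈ P (T.H i), ∀ y ∈ P (T.H i), ‖x - y‖ ≤ d) ∧
      ENNReal.ofReal (κv * d^3) ≤ volume (P (T.H i))
  lip0 : ∀ i, i ∉ Kt → i ∉ Vt → 0 ≤ ℓ i
  lip : ∀ i, i ∉ Kt → i ∉ Vt → ∀ x ∈ I (T.H i), LLV (ℓ i) g x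

namespace Post

variable {T : Tiling Om ι} {g : E3 → E3} {Kt Vt : Set ι} {a : κ → E3} {R0 R1 : κ → ℝ} {κv : ℝ}
  {ℓ : ι → ℝ}

lemma not_vt (h : Post T La g Kt Vt a R0 R1 κv ℓ) {i : ι} {c : κ}
    (hi : (P (T.H i) ∩ rg a R0 R1 c).Nonempty) : i ∉ Vt := by
  intro hv
  obtain ⟨c', hc'⟩ := h.vt i hv
  obtain ⟨x, hx, hx1, hx2⟩ := hi
  by_cases hcc : c = c'
  · rw [hcc] at hx2
    exact hx2 (hc' hx)
  · exact Set.disjoint_left.1 (h.ring.disj hcc) (ball_subset_closedBall hx1)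
      (closedBall_subset_closedBall (h.ring.lt c').le (hc' hx))

lemma not_kt (h : Post T La g Kt Vt a R0 R1 κv ℓ) {i : ι} {c : κ}
    (hi : (P (T.H i) ∩ rg a R0 R1 c).Nonempty) : i ∉ Kt := by
  intro hv
  obtain ⟨x, hx, hx1, _⟩ := hi
  exact Set.disjoint_left.1 (h.kt i hv c) hx (ball_subset_closedBall hx1)

lemma finite_ring (h : Post T La g Kt Vt a R0 R1 κv ℓ) (c : κ) :
    {i | (P (T.H i) ∩ rg a R0 R1 c).Nonempty}.Finite := by
  refine (T.finite_tiles (isCompact_closedBall (a c) (R1 c)) (h.ring.sub c)).subset ?_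
  rintro i ⟨x, hx, hx1, _⟩
  exact ⟨x, hx, ball_subset_closedBall hx1⟩

/-- **EA-POST, holes**: the squeezed map and its energy on every macro ball -/
theorem holes (h : Post T La g Kt Vt a R0 R1 κv ℓ) {p : ℝ} (hp0 : 0 < p) (hp3 : p < 3)
    (hκ : 0 < κv) {ε : κ → ℝ} (hε : ∀ c, 0 < ε c) :
    ∃ g' : E3 → E3, Hom g' Om La ∧ Crest.Agent.R096.Str_696.LocPL g' Om ∧
      (∀ x, (∀ c, x ∉ closedBall (a c) (R1 c)) → g' x = g x) ∧
      (∀ x ∈ Om, (∀ c, x ∉ closedBall (a c) (R1 c)) → g' =ᶠ[𝓝 x] g) ∧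
      (∀ c, ∀ x ∈ closedBall (a c) (R1 c), ∃ x' ∈ closedBall (a c) (R1 c), g' x = g x') ∧
      ∀ c, ∫⁻ x in closedBall (a c) (R1 c), ‖fderiv ℝ g' x‖ₑ ^ p ≤
        ENNReal.ofReal (Chr 3 p 8 / κv) *
          (∑' i : {i // (P (T.H i) ∩ rg a R0 R1 c).Nonempty},
            ENNReal.ofReal (ℓ i ^ p) * volume (P (T.H i.1))) + ENNReal.ofReal (ε c) := by
  classical
  let S : κ → Finset ι := fun c => (h.finite_ring c).toFinset
  have hSm : ∀ c i, i ∈ S c ↔ (P (T.H i) ∩ rg a R0 R1 c).Nonempty := fun c i => by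
    simp [S]
  choose! d hd0 hd hdv using h.fat
  -- one size function
  have hex : ∀ i, ∃ δ : ℝ, 0 < δ ∧ ∀ c, (P (T.H i) ∩ rg a R0 R1 c).Nonempty → δ = d c i := by
    intro i
    by_cases hi : ∃ c, (P (T.H i) ∩ rg a R0 R1 c).Nonempty
    · obtain ⟨c, hc⟩ := hi
      refine ⟨d c i, hd0 c i hc, fun c' hc' => ?_⟩
      rw [h.one i c c' hc hc']
    · exact ⟨1, one_pos, fun c hc => absurd ⟨c, hc⟩ hi⟩
  choose δ hδ0 hδ using hex
  obtain ⟨g', h1, h2, h3, h4, h5, h6⟩ := hole_fam (p := p) hp0 (by exact_mod_cast hp3) T h.ring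
    h.hom h.pl (d := δ) (μ := fun _ i => ℓ i) S (fun c i hi => (hSm c i).2 hi)
    (fun c i _ => hδ0 i) (by
      intro c i hi
      rw [hδ i c ((hSm c i).1 hi)]
      exact hd c i ((hSm c i).1 hi))
    (fun c i hi => h.lip0 i (h.not_kt ((hSm c i).1 hi)) (h.not_vt ((hSm c i).1 hi)))
    (fun c i hi x hx _ _ => h.lip i (h.not_kt ((hSm c i).1 hi)) (h.not_vt ((hSm c i).1 hi)) x hx)
    hε
  refine ⟨g', h1, h2, h3, h4, h5, fun c => ?_⟩
  refine ((h6 c).fderiv_le hp0).trans ?_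
  have hC : 0 ≤ Chv 3 p := Chv_nonneg (by exact_mod_cast hp3)
  have hpn : ∀ i ∈ S c, 0 ≤ ℓ i ^ p := fun i hi => Real.rpow_nonneg
    (h.lip0 i (h.not_kt ((hSm c i).1 hi)) (h.not_vt ((hSm c i).1 hi))) p
  have hsum0 : 0 ≤ ∑ i ∈ S c, δ i ^ 3 * ℓ i ^ p := Finset.sum_nonneg fun i hi =>
    mul_nonneg (pow_nonneg (hδ0 i).le _) (hpn i hi)
  have hlt := h.ring.lt c
  have hhalf := h.half c
  have h7 : 2 * R1 c / (R1 c - R0 c) ≤ 8 := by
    rw [div_le_iff₀ (by linarith)]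
    linarith
  have h8 : Chr 3 p (2 * R1 c / (R1 c - R0 c)) ≤ Chr 3 p 8 := by
    unfold Chr
    have := mul_le_mul_of_nonneg_left h7 hC
    linarith
  have h9 : 0 ≤ Chr 3 p 8 := by unfold Chr; positivity
  calc ENNReal.ofReal (Chr 3 p (2 * R1 c / (R1 c - R0 c)) * ∑ i ∈ S c, δ i ^ 3 * ℓ i ^ p + ε c)
      ≤ ENNReal.ofReal (Chr 3 p 8 * ∑ i ∈ S c, δ i ^ 3 * ℓ i ^ p + ε c) := by
        apply ENNReal.ofReal_le_ofReal
        have := mul_le_mul_of_nonneg_right h8 hsum0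
        linarith
    _ = ENNReal.ofReal (Chr 3 p 8 / κv * ∑ i ∈ S c, ℓ i ^ p * (κv * δ i ^ 3)) +
          ENNReal.ofReal (ε c) := by
        rw [ENNReal.ofReal_add (by positivity) (hε c).le]
        congr 2
        rw [Finset.mul_sum, Finset.mul_sum]
        refine Finset.sum_congr rfl fun i _ => ?_
        field_simp
    _ ≤ _ := by
        refine add_le_add ?_ le_rfl
        rw [ENNReal.ofReal_mul (by positivity)]
        refine mul_le_mul' le_rfl ?_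
        rw [ENNReal.ofReal_sum_of_nonneg fun i hi => mul_nonneg (hpn i hi)
          (by have := hδ0 i; positivity)]
        calc ∑ i ∈ S c, ENNReal.ofReal (ℓ i ^ p * (κv * δ i ^ 3))
            ≤ ∑ i ∈ S c, ENNReal.ofReal (ℓ i ^ p) * volume (P (T.H i)) := by
              refine Finset.sum_le_sum fun i hi => ?_
              rw [ENNReal.ofReal_mul (hpn i hi)]
              refine mul_le_mul' le_rfl ?_
              rw [hδ i c ((hSm c i).1 hi)]
              exact hdv c i ((hSm c i).1 hi)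
          _ = ∑' i : {i // i ∈ S c}, ENNReal.ofReal (ℓ i ^ p) * volume (P (T.H i.1)) := by
              rw [tsum_fintype, Finset.univ_eq_attach,
                Finset.sum_attach (S c) fun i => ENNReal.ofReal (ℓ i ^ p) * volume (P (T.H i))]
          _ ≤ _ := by
              have hinj : Function.Injective (fun i : {i // i ∈ S c} =>
                  (⟨i.1, (hSm c i.1).1 i.2⟩ : {i // (P (T.H i) ∩ rg a R0 R1 c).Nonempty})) := by
                intro i j hij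
                exact Subtype.ext (congrArg (fun z => z.1) hij)
              exact ENNReal.tsum_comp_le_tsum_of_injective hinj
                (fun i => ENNReal.ofReal (ℓ i.1 ^ p) * volume (P (T.H i.1)))

/-- **EA-POST**: Hom, LocPL, closeness, and the energies over any family `Q` of tiles (without core
tiles) which contains, with a tile meeting a macro ball, all tiles of its ring. -/
theorem post (h : Post T La g Kt Vt a R0 R1 κv ℓ) {p : ℝ} (hp0 : 0 < p) (hp3 : p < 3)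
    (hκ : 0 < κv) {f : E3 → E3} {ρ ρ' : E3 → ℝ} (near : ∀ x ∈ Om, ‖g x - f x‖ ≤ ρ x)
    (hρ : ∀ x ∈ Om, ρ x ≤ ρ' x)
    (hosc : ∀ c, ∀ x ∈ closedBall (a c) (R1 c), ∀ x' ∈ closedBall (a c) (R1 c),
      ‖f x' - f x‖ + ρ x' ≤ ρ' x) {ε : ℝ≥0∞} (hε : ε ≠ 0) :
    ∃ g' : E3 → E3, Hom g' Om La ∧ Crest.Agent.R096.Str_696.LocPL g' Om ∧
      (∀ x ∈ Om, ‖g' x - f x‖ ≤ ρ' x) ∧
      (∀ x, (∀ c, x ∉ closedBall (a c) (R1 c)) → g' x = g x) ∧
      (∀ x ∈ Om, (∀ c, x ∉ closedBall (a c) (R1 c)) → g' =ᶠ[𝓝 x] g) ∧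
      (∀ i ∈ Kt, ∀ x ∈ P (T.H i), g' =ᶠ[𝓝 x] g) ∧
      ∀ Q : Set ι, Disjoint Q Kt →
        (∀ c, (∃ i ∈ Q, (P (T.H i) ∩ closedBall (a c) (R1 c)).Nonempty) →
          ∀ i, (P (T.H i) ∩ rg a R0 R1 c).Nonempty → i ∈ Q) →
        ∫⁻ x in ⋃ i ∈ Q, P (T.H i), ‖fderiv ℝ g' x‖ₑ ^ p ≤
          (ENNReal.ofReal (Chr 3 p 8 / κv) + 1) *
            (∑' i : {i // i ∈ Q ∧ i ∉ Vt}, ENNReal.ofReal (ℓ i ^ p) * volume (P (T.H i.1))) + ε := by
  classical
  have hcκ : Countable κ := h.ring.countable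
  have hcι : Countable ι := Crest.Agent.R096.Ea_713.countable_ix T
  obtain ⟨ε', hε'0, hε'⟩ := ENNReal.exists_pos_sum_of_countable hε κ
  obtain ⟨g', h1, h2, h3, h4, h5, h6⟩ := h.holes hp0 hp3 hκ (ε := fun c => (ε' c : ℝ))
    (fun c => hε'0 c)
  refine ⟨g', h1, h2, ?_, h3, h4, ?_, ?_⟩
  · intro x hx
    by_cases hc : ∃ c, x ∈ closedBall (a c) (R1 c)
    · obtain ⟨c, hc⟩ := hc
      obtain ⟨x', hx', e⟩ := h5 c x hc
      rw [e]
      calc ‖g x' - f x‖ = ‖(g x' - f x') + (f x' - f x)‖ := by congr 1; abel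
        _ ≤ ‖g x' - f x'‖ + ‖f x' - f x‖ := norm_add_le _ _
        _ ≤ ρ x' + ‖f x' - f x‖ := by
            have := near x' (h.ring.sub c hx')
            linarith
        _ ≤ ρ' x := by
            have := hosc c x hc x' hx'
            linarith
    · rw [h3 x fun c hxc => hc ⟨c, hxc⟩]
      exact (near x hx).trans (hρ x hx)
  · intro i hi x hx
    exact h4 x (T.sub i hx) fun c hc => Set.disjoint_left.1 (h.kt i hi c) hx hc
  · intro Q hQK hQ
    set B : Set E3 := ⋃ c, closedBall (a c) (R1 c) with hB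
    set CQ : Set κ := {c | ∃ i ∈ Q, (P (T.H i) ∩ closedBall (a c) (R1 c)).Nonempty} with hCQ
    set w : ι → ℝ≥0∞ := fun i => ENNReal.ofReal (ℓ i ^ p) * volume (P (T.H i)) with hw
    have hsub : (⋃ i ∈ Q, P (T.H i)) ⊆
        (⋃ i : {i // i ∈ Q ∧ i ∉ Vt}, (P (T.H i.1) \ B)) ∪ ⋃ c : CQ, closedBall (a c) (R1 c) := by
      intro x hx
      simp only [mem_iUnion] at hx
      obtain ⟨i, hiQ, hxi⟩ := hx
      by_cases hxB : x ∈ B
      · obtain ⟨c, hc⟩ := mem_iUnion.1 hxB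
        exact Or.inr (mem_iUnion.2 ⟨⟨c, i, hiQ, x, hxi, hc⟩, hc⟩)
      · refine Or.inl (mem_iUnion.2 ⟨⟨i, hiQ, fun hv => ?_⟩, hxi, hxB⟩)
        obtain ⟨c, hc⟩ := h.vt i hv
        exact hxB (mem_iUnion.2 ⟨c, closedBall_subset_closedBall (h.ring.lt c).le (hc hxi)⟩)
    have hBm : MeasurableSet B := MeasurableSet.iUnion fun c => isClosed_closedBall.measurableSet
    -- the part off the macro balls
    have hA : ∀ i : {i // i ∈ Q ∧ i ∉ Vt}, ∫⁻ x in P (T.H i.1) \ B, ‖fderiv ℝ g' x‖ₑ ^ p ≤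
        w i.1 := by
      rintro ⟨i, hiQ, hiV⟩
      have hiK : i ∉ Kt := fun hk => Set.disjoint_left.1 hQK hiQ hk
      calc ∫⁻ x in P (T.H i) \ B, ‖fderiv ℝ g' x‖ₑ ^ p
          = ∫⁻ x in P (T.H i) \ B, ‖fderiv ℝ g x‖ₑ ^ p := by
            refine setLIntegral_congr_fun
              ((T.cpt i).isClosed.measurableSet.diff hBm) fun x hx => ?_
            have h7 := h4 x (T.sub i hx.1) fun c hc => hx.2 (mem_iUnion.2 ⟨c, hc⟩)
            simp only [h7.fderiv_eq]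
        _ ≤ ∫⁻ x in P (T.H i), ‖fderiv ℝ g x‖ₑ ^ p := lintegral_mono_set sdiff_subset
        _ ≤ w i := by
            refine Crest.Agent.R096.Ea_713.lint_tile volume (T.ne i) fun x hx => ?_
            exact Crest.Agent.R096.Ea_713.enorm_fderiv_rpow_le (h.lip0 i hiK hiV) hp0.le
              (h.lip i hiK hiV x hx)
    have hAs : ∫⁻ x in ⋃ i : {i // i ∈ Q ∧ i ∉ Vt}, (P (T.H i.1) \ B), ‖fderiv ℝ g' x‖ₑ ^ p ≤
        ∑' i : {i // i ∈ Q ∧ i ∉ Vt}, w i.1 :=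
      (lintegral_iUnion_le _ _).trans (ENNReal.tsum_le_tsum hA)
    -- the macro balls
    have hBs : ∫⁻ x in ⋃ c : CQ, closedBall (a c) (R1 c), ‖fderiv ℝ g' x‖ₑ ^ p ≤
        ENNReal.ofReal (Chr 3 p 8 / κv) * (∑' i : {i // i ∈ Q ∧ i ∉ Vt}, w i.1) + ε := by
      refine (lintegral_iUnion_le _ _).trans ?_
      refine (ENNReal.tsum_le_tsum fun c : CQ => h6 c.1).trans ?_
      rw [ENNReal.tsum_add, ENNReal.tsum_mul_left]
      refine add_le_add (mul_le_mul' le_rfl ?_) ?_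
      · rw [← ENNReal.tsum_sigma (fun (c : CQ)
          (i : {i // (P (T.H i) ∩ rg a R0 R1 c.1).Nonempty}) => w i.1)]
        have hmem : ∀ q : (Σ c : CQ, {i // (P (T.H i) ∩ rg a R0 R1 c.1).Nonempty}),
            q.2.1 ∈ Q ∧ q.2.1 ∉ Vt := by
          rintro ⟨⟨c, hc⟩, ⟨i, hi⟩⟩
          exact ⟨hQ c hc i hi, h.not_vt hi⟩
        have hinj : Function.Injective (fun q : (Σ c : CQ,
            {i // (P (T.H i) ∩ rg a R0 R1 c.1).Nonempty}) =>
            (⟨q.2.1, hmem q⟩ : {i // i ∈ Q ∧ i ∉ Vt})) := by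
          rintro ⟨⟨c, hc⟩, ⟨i, hi⟩⟩ ⟨⟨c', hc'⟩, ⟨i', hi'⟩⟩ e
          have e1 : i = i' := congrArg (fun z => z.1) e
          subst e1
          have e2 : c = c' := h.one i c c' hi hi'
          subst e2
          rfl
        exact ENNReal.tsum_comp_le_tsum_of_injective hinj (fun i => w i.1)
      · calc ∑' c : CQ, ENNReal.ofReal ((ε' c.1 : ℝ)) = ∑' c : CQ, (ε' c.1 : ℝ≥0∞) := by
              refine tsum_congr fun c => ?_
              rw [ENNReal.ofReal_coe_nnreal]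
          _ ≤ ∑' c, (ε' c : ℝ≥0∞) :=
              ENNReal.tsum_comp_le_tsum_of_injective Subtype.val_injective _
          _ ≤ ε := hε'.le
    calc ∫⁻ x in ⋃ i ∈ Q, P (T.H i), ‖fderiv ℝ g' x‖ₑ ^ p
        ≤ ∫⁻ x in (⋃ i : {i // i ∈ Q ∧ i ∉ Vt}, (P (T.H i.1) \ B)) ∪
            ⋃ c : CQ, closedBall (a c) (R1 c), ‖fderiv ℝ g' x‖ₑ ^ p := lintegral_mono_set hsub
      _ ≤ _ := lintegral_union_le _ _ _
      _ ≤ (∑' i : {i // i ∈ Q ∧ i ∉ Vt}, w i.1) +
            (ENNReal.ofReal (Chr 3 p 8 / κv) * (∑' i : {i // i ∈ Q ∧ i ∉ Vt}, w i.1) + ε) :=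
          add_le_add hAs hBs
      _ = _ := by ring

end Post

/-- positive tolerances with small total cost -/
lemma exists_tol (T : Tiling Om ι) {p : ℝ} (hp0 : 0 < p) {ε : ℝ≥0∞} (hε : ε ≠ 0) :
    ∃ tol : ι → ℝ, (∀ i, 0 < tol i) ∧
      ∑' i, ENNReal.ofReal (tol i ^ p) * volume (P (T.H i)) ≤ ε := by
  have hcι : Countable ι := Crest.Agent.R096.Ea_713.countable_ix T
  obtain ⟨ε', hε'0, hε'⟩ := ENNReal.exists_pos_sum_of_countable hε ι
  have hv : ∀ i, volume (P (T.H i)) < ∞ := fun i => (T.cpt i).measure_lt_top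
  have h1 : ∀ i, ∃ t : ℝ, 0 < t ∧ ENNReal.ofReal (t ^ p) * volume (P (T.H i)) ≤ ε' i := by
    intro i
    have hv0 : 0 ≤ (volume (P (T.H i))).toReal := ENNReal.toReal_nonneg
    set v : ℝ := (volume (P (T.H i))).toReal + 1 with hvdef
    have hvp : 0 < v := by positivity
    have hs : 0 < (ε' i : ℝ) / v := div_pos (hε'0 i) hvp
    refine ⟨((ε' i : ℝ) / v) ^ (1 / p), Real.rpow_pos_of_pos hs _, ?_⟩
    rw [← Real.rpow_mul hs.le, one_div_mul_cancel hp0.ne', Real.rpow_one,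
      ← ENNReal.ofReal_toReal (hv i).ne, ← ENNReal.ofReal_mul hs.le, ← ENNReal.ofReal_coe_nnreal]
    apply ENNReal.ofReal_le_ofReal
    rw [div_mul_eq_mul_div, div_le_iff₀ hvp]
    have : 0 ≤ (ε' i : ℝ) := (ε' i).2
    nlinarith
  choose tol ht0 ht using h1
  exact ⟨tol, ht0, (ENNReal.tsum_le_tsum ht).trans hε'.le⟩

end Crest.Agent.R96.EaPost_348
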