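/-
helper199, row 96, leaf P6-SOB, part 8: pre-composition with affine isomorphisms, linear
combinations of components, transport of the frozen weak gradient under similarities.
-/
import Mathlib
import Crest.Agent.R96.Sob7_199

set_option autoImplicit false
set_option linter.unusedSectionVars false

open MeasureTheory Set Filter
open scoped ContDiff Topology NNReal Gradient

namespace Crest.Agent.R96.Sob8_199

open Crest.Agent.R96.Acl_392 Crest.Agent.R96.Sob1_199 Crest.Agent.R96.Sob2_199
  Crest.Agent.R96.Sob3_199 Crest.Agent.R96.Sob4_199 Crest.Agent.R96.Sob5_199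
  Crest.Agent.R96.Sob6_199 Crest.Agent.R96.Sob7_199

noncomputable section

section General

variable {E : Type*} [NormedAddCommGroup E] [NormedSpace ℝ E] [FiniteDimensional ℝ E]
  [MeasurableSpace E] [BorelSpace E] {μ : Measure E} [μ.IsAddHaarMeasure]

/-- the affine homeomorphism `x ↦ a + A x` -/
def aff (a : E) (A : E ≃L[ℝ] E) : E ≃ₜ E := A.toHomeomorph.trans (Homeomorph.addLeft a)

@[simp] theorem aff_apply (a : E) (A : E ≃L[ℝ] E) (x : E) : aff a A x = a + A x := rfl

@[simp] theorem aff_symm_apply (a : E) (A : E ≃L[ℝ] E) (y : E) :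
    (aff a A).symm y = A.symm (-a + y) := rfl

/-- the scaling factor of the measure -/
def fac (A : E ≃L[ℝ] E) : ENNReal := ENNReal.ofReal |(LinearMap.det (A : E →ₗ[ℝ] E))⁻¹|

theorem fac_ne_zero (A : E ≃L[ℝ] E) : fac A ≠ 0 := by
  have h : LinearMap.det (A : E →ₗ[ℝ] E) ≠ 0 := by
    have := A.toLinearEquiv.isUnit_det'
    exact this.ne_zero
  rw [fac, Ne, ENNReal.ofReal_eq_zero, not_le]
  positivity

theorem fac_ne_top (A : E ≃L[ℝ] E) : fac A ≠ ⊤ := ENNReal.ofReal_ne_top

theorem map_aff (a : E) (A : E ≃L[ℝ] E) : Measure.map (aff a A) μ = fac A • μ := by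
  have h : LinearMap.det (A : E →ₗ[ℝ] E) ≠ 0 := by
    have := A.toLinearEquiv.isUnit_det'
    exact this.ne_zero
  have h1 : Measure.map (aff a A) μ = Measure.map (fun x => a + x) (Measure.map A μ) := by
    rw [Measure.map_map (measurable_const_add a) A.continuous.measurable]
    rfl
  have h2 : Measure.map A μ = fac A • μ := by
    have := Measure.map_linearMap_addHaar_eq_smul_addHaar μ h
    exact this
  rw [h1, h2, Measure.map_smul, (measurePreserving_add_left μ a).map_eq]

theorem integral_comp_aff (a : E) (A : E ≃L[ℝ] E) (F : E → ℝ) :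
    ∫ x, F (aff a A x) ∂μ = (fac A).toReal * ∫ y, F y ∂μ := by
  have h1 := (aff a A).measurableEmbedding.integral_map (μ := μ) F
  rw [← h1, map_aff, integral_smul_measure]
  rfl

theorem locInt_comp_aff {F : Type*} [NormedAddCommGroup F] {Ω : Set E} (a : E) (A : E ≃L[ℝ] E)
    {v : E → F} (hv : LocallyIntegrableOn v Ω μ) :
    LocallyIntegrableOn (fun x => v (aff a A x)) (aff a A ⁻¹' Ω) μ := by
  intro x hx
  obtain ⟨t, ht, hvt⟩ := hv _ hx
  refine ⟨aff a A ⁻¹' t, ?_, ?_⟩
  · have h1 : Tendsto (aff a A) (𝓝[aff a A ⁻¹' Ω] x) (𝓝[Ω] (aff a A x)) := by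
      apply tendsto_nhdsWithin_iff.2
      exact ⟨(aff a A).continuous.continuousAt.mono_left nhdsWithin_le_nhds,
        eventually_nhdsWithin_of_forall fun y hy => hy⟩
    exact h1 ht
  · have h2 : IntegrableOn v t (Measure.map (aff a A) μ) := by
      rw [map_aff, IntegrableOn, Measure.restrict_smul]
      exact hvt.smul_measure (fac_ne_top A)
    exact ((aff a A).measurableEmbedding.integrableOn_map_iff).1 h2

theorem wd_comp_aff {Ω : Set E} {v g : E → ℝ} {e : E} (h : WD Ω μ v g e) (a : E) (A : E ≃L[ℝ] E) :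
    WD (aff a A ⁻¹' Ω) μ (fun x => v (aff a A x)) (fun x => g (aff a A x)) (A.symm e) := by
  refine ⟨locInt_comp_aff a A h.lv, locInt_comp_aff a A h.lg, fun φ hφ hc hs => ?_⟩
  set ψ : E → ℝ := fun y => φ ((aff a A).symm y) with hψ
  have hsm : ContDiff ℝ ∞ (fun y => (aff a A).symm y) := by
    simp only [aff_symm_apply]
    fun_prop
  have h1 : ContDiff ℝ ∞ ψ := hφ.comp hsm
  have h2 : HasCompactSupport ψ := hc.comp_homeomorph (aff a A).symm
  have hts : tsupport ψ = (aff a A).symm ⁻¹' tsupport φ := by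
    rw [hψ]
    exact tsupport_comp_eq_preimage φ (aff a A).symm
  have h3 : tsupport ψ ⊆ Ω := by
    rw [hts]
    intro y hy
    have := hs hy
    simpa using this
  have h4 := h.weak ψ h1 h2 h3
  have hd : ∀ x, fderiv ℝ φ x (A.symm e) = fderiv ℝ ψ (aff a A x) e := by
    intro x
    have h5 : HasFDerivAt (fun y => (aff a A).symm y) (A.symm : E →L[ℝ] E) (aff a A x) := by
      simp only [aff_symm_apply]
      have := (A.symm : E →L[ℝ] E).hasFDerivAt (x := -a + aff a A x)
      have h6 : HasFDerivAt (fun y : E => -a + y) (ContinuousLinearMap.id ℝ E) (aff a A x) :=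
        (hasFDerivAt_id _).const_add (-a)
      have h10 := this.comp (aff a A x) h6
      rw [ContinuousLinearMap.comp_id] at h10
      exact h10
    have h7 : HasFDerivAt φ (fderiv ℝ φ x) ((aff a A).symm (aff a A x)) := by
      rw [Homeomorph.symm_apply_apply]
      exact (hφ.differentiable (by simp) x).hasFDerivAt
    have h8 := h7.comp (aff a A x) h5
    have h9 : fderiv ℝ ψ (aff a A x) = (fderiv ℝ φ x).comp (A.symm : E →L[ℝ] E) := h8.fderiv
    rw [h9]
    rfl
  have e1 := integral_comp_aff (μ := μ) a A (fun y => v y * fderiv ℝ ψ y e)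
  have e2 := integral_comp_aff (μ := μ) a A (fun y => g y * ψ y)
  have e3 : ∫ x, v (aff a A x) * fderiv ℝ φ x (A.symm e) ∂μ =
      ∫ x, (fun y => v y * fderiv ℝ ψ y e) (aff a A x) ∂μ := by
    apply integral_congr_ae
    refine Eventually.of_forall fun x => ?_
    simp only [hd]
  have e4 : ∫ x, g (aff a A x) * φ x ∂μ = ∫ x, (fun y => g y * ψ y) (aff a A x) ∂μ := by
    apply integral_congr_ae
    refine Eventually.of_forall fun x => ?_
    simp only [hψ, Homeomorph.symm_apply_apply]
  rw [e3, e4, e1, e2, h4]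
  ring

end General

section R3

open Crest.AnalysisR.VecCalc3 Crest.AnalysisR.Sobolev

/-- pre-composition with an affine isomorphism -/
theorem grad_comp_aff {Ω : Set R3} (hΩ : IsOpen Ω) {v : R3 → ℝ} {G : R3 → R3}
    (h : HasWeakGradOn Ω v G) (a : R3) (A : R3 ≃L[ℝ] R3) :
    HasWeakGradOn (aff a A ⁻¹' Ω) (fun x => v (aff a A x))
      (fun x => ContinuousLinearMap.adjoint (A : R3 →L[ℝ] R3) (G (aff a A x))) := by
  apply grad_of_wd
  intro i
  have h1 := wd_comp_aff (wd_of_grad hΩ h (A (EuclideanSpace.single i 1))) a A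
  rw [ContinuousLinearEquiv.symm_apply_apply] at h1
  refine wd_congr (hΩ.preimage (aff a A).continuous) h1 (Eventually.of_forall fun _ _ => rfl)
    (Eventually.of_forall fun x _ => ?_)
  have h2 : inner ℝ (G (aff a A x)) (A (EuclideanSpace.single i (1:ℝ))) =
      inner ℝ (ContinuousLinearMap.adjoint (A : R3 →L[ℝ] R3) (G (aff a A x)))
        (EuclideanSpace.single i (1:ℝ)) := by
    rw [ContinuousLinearMap.adjoint_inner_left]
    rfl
  rw [h2, EuclideanSpace.inner_single_right]
  simp

/-- linear combination of components: the target side of a similarity -/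
theorem grad_lincomb {κ : Type*} {Ω : Set R3} (hΩ : IsOpen Ω) (S : Finset κ) {f : κ → R3 → ℝ}
    {G : κ → R3 → R3} (h : ∀ k ∈ S, HasWeakGradOn Ω (f k) (G k)) (c : κ → ℝ) (b : ℝ) :
    HasWeakGradOn Ω (fun x => ∑ k ∈ S, c k * f k x + b) (fun x => ∑ k ∈ S, c k • G k x) := by
  apply grad_of_wd
  intro i
  have h1 : WD Ω volume (fun x => ∑ k ∈ S, c k * f k x) (fun x => ∑ k ∈ S, c k * G k x i)
      (EuclideanSpace.single i 1) :=
    wd_sum S fun k hk => wd_const_mul (wd_of_grad_coord hΩ (h k hk) i) (c k)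
  have h2 : WD Ω volume (fun _ => b) (fun _ => (0:ℝ)) (EuclideanSpace.single i (1:ℝ)) := by
    have h3 := loclip_wd (μ := (volume : Measure R3)) hΩ (u := fun _ => b)
      (fun x _ => ⟨0, univ, univ_mem, LipschitzOnWith.of_dist_le_mul fun x _ y _ => by simp⟩)
      (EuclideanSpace.single i (1:ℝ))
    refine wd_congr hΩ h3 (Eventually.of_forall fun _ _ => rfl)
      (Eventually.of_forall fun x _ => ?_)
    simp
  refine wd_congr hΩ (wd_add h1 h2) (Eventually.of_forall fun _ _ => rfl)
    (Eventually.of_forall fun x _ => ?_)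
  simp

/-- **similarity transport**: `f` on `Ω`, `f' x = c • R (f (a + r V x)) + b`. -/
theorem grad_similarity {Ω : Set R3} (hΩ : IsOpen Ω) {f : R3 → R3} {G : Fin 3 → R3 → R3}
    (h : ∀ j, HasWeakGradOn Ω (fun x => f x j) (G j)) (a b : R3) (A : R3 ≃L[ℝ] R3)
    (B : R3 →L[ℝ] R3) (j : Fin 3) :
    HasWeakGradOn (aff a A ⁻¹' Ω) (fun x => (B (f (aff a A x)) + b) j)
      (fun x => ∑ k, B (EuclideanSpace.single k 1) j •
        ContinuousLinearMap.adjoint (A : R3 →L[ℝ] R3) (G k (aff a A x))) := by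
  have hΩ' := hΩ.preimage (aff a A).continuous
  have h1 := grad_lincomb hΩ' Finset.univ (f := fun k x => f (aff a A x) k)
    (G := fun k x => ContinuousLinearMap.adjoint (A : R3 →L[ℝ] R3) (G k (aff a A x)))
    (fun k _ => grad_comp_aff hΩ (h k) a A) (fun k => B (EuclideanSpace.single k 1) j) (b j)
  refine grad_congr hΩ' h1 (Eventually.of_forall fun x _ => ?_) (Eventually.of_forall fun _ _ => rfl)
  have h2 : f (aff a A x) = ∑ k, f (aff a A x) k • EuclideanSpace.single k (1:ℝ) := by
    ext i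
    simp [Pi.single_apply]
  have h3 : (B (f (aff a A x))) j = ∑ k, B (EuclideanSpace.single k 1) j * f (aff a A x) k := by
    conv_lhs => rw [h2, map_sum]
    rw [WithLp.ofLp_sum, Finset.sum_apply]
    apply Finset.sum_congr rfl
    intro k _
    rw [map_smul]
    simp [mul_comm]
  simp only [PiLp.add_apply, h3]

end R3

end

end Crest.Agent.R96.Sob8_199
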