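import Crest.Agent.R96.EaP1_899
import Crest.Agent.R96.Push20_899
import Crest.Agent.R096.Bxs7_627
import Crest.Agent.R096.Mbf_337
import Crest.Agent.R096.EaX1_766
import Crest.Agent.R096.Der1_764

/-!
# Row 96, EA-PUSH (helper899), part 2: the `FoamD` with exact concentric cores in the bricks of `X` and
point holes in the others; `Mbf_337.Exact` for the bricks of `X` from `EaX_766.ExIn`.
-/

set_option autoImplicit false
set_option linter.unusedSectionVars false
set_option linter.unusedVariables false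
set_option linter.style.longLine false

open MeasureTheory Set Filter Topology
open scoped NNReal ENNReal

noncomputable section

namespace Crest.Agent.R96.EaP_899

open Crest.Agent.R096.Bsp_628 Crest.Agent.R096.Brk5_582 Crest.Agent.R096.SkC1_961
open Crest.Agent.R096.Bxs_627 hiding E3
open Crest.Agent.R96.Push_899 Crest.Agent.R096.EaX_766
open Crest.Agent.R096.Msh_715

variable {δ κ0 R c0 : ℝ} {La : Set E3} {F : Set (Bx (Fin 3))}

/-- the shape constant -/
def cm (κ0 c0 : ℝ) : ℝ := min c0 (1 / (8 * κ0))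

theorem cm_pos (hκ : 1 ≤ κ0) (hc : 0 < c0) : 0 < cm κ0 c0 := lt_min hc (by positivity)

theorem cm_le : cm κ0 c0 ≤ c0 := min_le_left _ _

theorem cm_le' : cm κ0 c0 ≤ 1 / (8 * κ0) := min_le_right _ _

/-- the core of ratio `lam` of a brick (junk value the brick) -/
def coreX (bf : BoxFoam La F δ κ0) (lam : F → ℝ) (c : F) : Box (Fin 3) := by
  classical
  exact if h : 0 < lam c then cb c.1 (bf.pos _ c.2) (lam c) h.le else brk' bf c

/-- the hole of ratio `lam / 2` of a brick -/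
def holeX (bf : BoxFoam La F δ κ0) (lam : F → ℝ) (c : F) : Box (Fin 3) := by
  classical
  exact if h : 0 < lam c then cb c.1 (bf.pos _ c.2) (lam c / 2) (half_pos h).le else brk' bf c

theorem coreX_eq {bf : BoxFoam La F δ κ0} {lam : F → ℝ} {c : F} (h : 0 < lam c) :
    coreX bf lam c = cb c.1 (bf.pos _ c.2) (lam c) h.le := by
  unfold coreX; rw [dif_pos h]

theorem holeX_eq {bf : BoxFoam La F δ κ0} {lam : F → ℝ} {c : F} (h : 0 < lam c) :
    holeX bf lam c = cb c.1 (bf.pos _ c.2) (lam c / 2) (half_pos h).le := by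
  unfold holeX; rw [dif_pos h]

/-- data of the foam with exact cores on `X`, ratio `lam`, and point holes `z` off `X` -/
structure XD (bf : BoxFoam La F δ κ0) (c0 : ℝ) (X : Set F) (lam : F → ℝ) (z : F → E3) : Prop where
  hκ : 1 ≤ κ0
  hc : 0 < c0
  hc2 : c0 * κ0 ≤ 1
  hl : ∀ c ∈ X, c0 ≤ lam c
  hl1 : ∀ c ∈ X, lam c < 1
  hz : ∀ c, c ∉ X → z c ∈ Mid (brk' bf c)

/-- ratio of the narrowest core -/
def aX (κ0 c0 : ℝ) : ℝ := max (κ0 / c0) (4 * κ0)

theorem giv {bf : BoxFoam La F δ κ0} {X : Set F} {lam : F → ℝ}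
    (hκ : 1 ≤ κ0) (hc : 0 < c0) (hc2 : c0 * κ0 ≤ 1) (hl : ∀ c ∈ X, c0 ≤ lam c)
    (hl1 : ∀ c ∈ X, lam c < 1) :
    Giv X (cm κ0 c0) (aX κ0 c0) 2 (brk' bf) (coreX bf lam) (holeX bf lam)
      (fun c => (1 - lam c) * c.1.sz / 2) := by
  refine ⟨fun c hX => ?_, fun c hX => ?_, fun c hX i j => ?_, fun c hX i => ?_, fun c hX i => ?_⟩
  · have h0 := hc.trans_le (hl c hX)
    rw [coreX_eq h0]
    exact shape_mono (shape_cb' (bf.pos _ c.2) hκ (bf.asp _ c.2) h0 (hl1 c hX) hc (hl c hX) hc2)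
      (cm_pos hκ hc) cm_le
  · have h0 := hc.trans_le (hl c hX)
    rw [coreX_eq h0, holeX_eq h0]
    exact inner_cb (bf.pos _ c.2) h0
  · have h0 := hc.trans_le (hl c hX)
    rw [coreX_eq h0]
    have e1 : (brk' bf c).W i = c.1.side i := rfl
    have e2 : (cb c.1 (bf.pos _ c.2) (lam c) h0.le).W j = lam c * c.1.side j := by
      rw [cb, hb_W, qb_W]
    rw [e1, e2]
    have h1 := c.1.side_le_sz i
    have h2 := bf.asp _ c.2 j
    have h3 := Bx.side_pos (bf.pos _ c.2) j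
    have h4 : κ0 / c0 * (c0 * c.1.side j) ≤ aX κ0 c0 * (lam c * c.1.side j) := by
      refine mul_le_mul (le_max_left _ _) (mul_le_mul_of_nonneg_right (hl c hX) h3.le)
        (by positivity) ?_
      unfold aX
      exact le_trans (by positivity) (le_max_left _ _)
    have h5 : κ0 / c0 * (c0 * c.1.side j) = κ0 * c.1.side j := by field_simp
    linarith
  · have h0 := hc.trans_le (hl c hX)
    rw [coreX_eq h0, holeX_eq h0]
    rw [cb, hb_W, cb, hb_W]
    apply le_of_eq; ring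
  · have h0 := hc.trans_le (hl c hX)
    rw [holeX_eq h0, cb, hb_W, qb_W]
    exact mul_pos (half_pos h0) (Bx.side_pos (bf.pos _ c.2) i)

namespace XD

variable {bf : BoxFoam La F δ κ0} {X : Set F} {lam : F → ℝ} {z : F → E3} (H : XD bf c0 X lam z)
include H

theorem pos {c : F} (hc : c ∈ X) : 0 < lam c := H.hc.trans_le (H.hl c hc)

theorem foamC : FoamC (LaE La) (brk' bf) (mixC X (brk' bf) (coreX bf lam) z)
    (mixB X (holeX bf lam) z) ∅ (cm κ0 c0) (fun _ => 0)
    (mixρ X (brk' bf) (fun c => (1 - lam c) * c.1.sz / 2)) :=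
  foamMix2 H.hκ (cm_pos H.hκ H.hc) cm_le' (foam0' bf) (fun c i j => asp' bf c i j)
    (giv H.hκ H.hc H.hc2 H.hl H.hl1) H.hz

end XD

/-- **the `FoamD`** with exact concentric cores on `X` and point holes off `X` -/
def fX (bf : BoxFoam La F δ κ0) (cmp : Cmp F R) {X : Set F} {lam : F → ℝ} {z : F → E3}
    (H : XD bf c0 X lam z) : FoamD δ κ0 R (cm κ0 c0) La := mkFoamD bf cmp H.foamC

section fX

variable (bf : BoxFoam La F δ κ0) (cmp : Cmp F R) {X : Set F} {lam : F → ℝ} {z : F → E3}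
  (H : XD bf c0 X lam z)

theorem fX_F : (fX bf cmp H).F = F := rfl

theorem fX_B_mem {c : F} (hc : c ∈ X) :
    (fX bf cmp H).B c = cb c.1 (bf.pos _ c.2) (lam c / 2) (half_pos (H.pos hc)).le := by
  show mixB X (holeX bf lam) z c = _
  rw [mixB_mem hc, holeX_eq (H.pos hc)]

theorem fX_pu_mem {c : F} (hc : c ∈ X) :
    (fX bf cmp H).pu c = pus c.1 (bf.pos _ c.2) (lam c) (H.pos hc) := by
  show psi (brk' bf c) (mixC X (brk' bf) (coreX bf lam) z c) (mixB X (holeX bf lam) z c) = _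
  rw [mixC_mem hc, mixB_mem hc, coreX_eq (H.pos hc), holeX_eq (H.pos hc)]
  rfl

theorem fX_B_not {c : F} (hc : c ∉ X) : (fX bf cmp H).B c = Box.pt (z c) := by
  show mixB X (holeX bf lam) z c = _
  rw [mixB_not hc]

theorem fX_pt {c : F} (hc : c ∉ X) : ((fX bf cmp H).B c).lo = ((fX bf cmp H).B c).hi := by
  rw [fX_B_not bf cmp H hc]; rfl

theorem fX_pu_not {c : F} (hc : c ∉ X) :
    (fX bf cmp H).pu c = psi (brk' bf c) (coreBF (brk' bf c) (z c)) (Box.pt (z c)) := by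
  show psi (brk' bf c) (mixC X (brk' bf) (coreX bf lam) z c) (mixB X (holeX bf lam) z c) = _
  rw [mixC_not hc, mixB_not hc]

/-- the two core boxes -/
theorem cbx_eq (Q : Bx (Fin 3)) (lam : ℝ) :
    {y : E3 | ∀ k, zz Q lam k + lam * Q.lo k ≤ y k ∧ y k ≤ zz Q lam k + lam * Q.hi k} =
      cbx Q lam := by
  ext y
  simp only [mem_ofPred_eq, cbx]
  refine forall_congr' fun k => ?_
  rw [zz_lo, zz_hi, abs_le]
  constructor
  · rintro ⟨h1, h2⟩; constructor <;> linarith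
  · rintro ⟨h1, h2⟩; constructor <;> linarith

/-- **`Mbf_337.Exact`** for the bricks of `X` -/
theorem exact_fX {p : ℝ} {Om : Set E3} {f : E3 → E3} {D : E3 → E3 →L[ℝ] E3} {o : E3} {u κ1 κ2 : ℝ}
    (h2 : κ2 ≤ 1 / 4) (h20 : 0 ≤ κ2) (h1 : 0 ≤ κ1) (h10 : κ1 * κ0 ≤ 1 / 4)
    {c : F} (hc : c ∈ X) (hlam : (1 + 2 * (κ1 * κ0)) * lam c < 1) {A : E3 ≃ᵃ[ℝ] E3}
    (hE : ∀ x : E3, (x ∈ Om ∧ f x ∈ cbx c.1 (lam c)) ∨ A x ∈ cbx c.1 ((1 + 2 * κ2) * lam c) →
      x ∈ Om ∧ ‖f x - A x‖ ≤ κ1 * (lam c * c.1.sz))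
    {ι : Type} {T : Tiling Om ι} {i : ι} (hT : P (T.H i) = A ⁻¹' cbx c.1 (lam c)) :
    Crest.Agent.R096.Mbf_337.Exact (fX bf cmp H) T f κ1 κ2 c i A (lam c) (zz c.1 (lam c)) := by
  have hpos := bf.pos _ c.2
  have hl0 := H.pos hc
  have hl1 := H.hl1 c hc
  have hs : ∀ k, 0 < c.1.side k := fun k => Bx.side_pos hpos k
  have hasp : ∀ k, κ1 * (lam c * c.1.sz) ≤ κ1 * κ0 * (lam c * c.1.side k) := by
    intro k
    have h3 := bf.asp _ c.2 k
    calc κ1 * (lam c * c.1.sz) ≤ κ1 * (lam c * (κ0 * c.1.side k)) := by gcongr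
      _ = κ1 * κ0 * (lam c * c.1.side k) := by ring
  have hsub : ∀ x : E3, A x ∈ cbx c.1 (lam c) → A x ∈ cbx c.1 ((1 + 2 * κ2) * lam c) := by
    intro x hx k
    refine (hx k).trans ?_
    have := mul_pos hl0 (hs k)
    nlinarith
  refine ⟨hl0, hl1, cl_box_in hpos hl1, ?_, ?_, ?_, ?_, ?_, ?_⟩
  · intro k
    rw [fX_B_mem bf cmp H hc]
    exact cl_hole hpos hl0 h2 k
  · intro y hy hy'
    rw [fX_pu_mem bf cmp H hc]
    exact pus_ray hpos hl0 hl1 y hy hy'
  · rw [hT, cbx_eq]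
  · intro x hx
    have h3 : A x ∈ cbx c.1 ((1 + 2 * κ2) * lam c) := by
      intro k
      have h4 := hx k
      rw [zz_lo, zz_hi] at h4
      have h5 : (c.1 : Bx (Fin 3)).side k = c.1.side k := rfl
      rw [abs_le]
      constructor <;> nlinarith [h4.1, h4.2]
    obtain ⟨h4, h5⟩ := hE x (Or.inr h3)
    exact ⟨h4, fun _ => h5⟩
  · intro x hx k
    rw [hT] at hx
    obtain ⟨-, h5⟩ := hE x (Or.inr (hsub x hx))
    have h6 := hx k
    have h7 := norm_le_pi_norm (f x - A x) k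
    rw [Pi.sub_apply, Real.norm_eq_abs] at h7
    have h8 := abs_le.1 (h7.trans (h5.trans (hasp k)))
    have h9 := abs_le.1 h6
    have h10' := ctr_lo c.1 k
    have h11 := ctr_hi c.1 k
    have h12 : (1 + 2 * (κ1 * κ0)) * lam c * c.1.side k < 1 * c.1.side k :=
      mul_lt_mul_of_pos_right hlam (hs k)
    constructor <;> nlinarith [h8.1, h8.2, h9.1, h9.2]
  · intro x hx hxT hxB
    rw [fX_B_mem bf cmp H hc, mem_cb] at hxB
    apply hxT
    have h3 : f x ∈ cbx c.1 (lam c) := by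
      intro k
      refine (hxB k).trans ?_
      have := mul_pos hl0 (hs k)
      linarith
    obtain ⟨-, h5⟩ := hE x (Or.inl ⟨hx, h3⟩)
    rw [hT]
    intro k
    have h7 := norm_le_pi_norm (f x - A x) k
    rw [Pi.sub_apply, Real.norm_eq_abs] at h7
    have h8 := abs_le.1 (h7.trans (h5.trans (hasp k)))
    have h9 := abs_le.1 (hxB k)
    have h10' : κ1 * κ0 * (lam c * c.1.side k) ≤ 1 / 4 * (lam c * c.1.side k) :=
      mul_le_mul_of_nonneg_right h10 (mul_pos hl0 (hs k)).le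
    rw [abs_le]
    constructor <;> linarith [h8.1, h8.2, h9.1, h9.2]

end fX

end Crest.Agent.R96.EaP_899
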