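/-
helper538, row 96, leaf COARSE-G, part 25: energy on the segments outside the perfect cubes.
-/
import Mathlib
import Crest.Agent.R96.Intr24_538

set_option autoImplicit false
set_option linter.unusedSectionVars false
set_option maxHeartbeats 400000

open MeasureTheory Set Filter Metric Module
open scoped ENNReal NNReal Topology

namespace Crest.Agent.R96.Coarse_538

open Crest.AnalysisR.VecCalc3 Crest.AnalysisR.Sobolev
open Crest.Agent.R96.Acl_392 Crest.Agent.R96.Lu_538 Crest.Agent.R96.Intr_538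

noncomputable section

/-- Markov for one density -/
theorem markov_skf {κi : Type*} [Countable κi] {x v : κi → R3} {D : Set R3}
    (hD : MeasurableSet D) {n : ℝ≥0∞} (hn : Dens D n x v) {F : R3 → ℝ≥0∞}
    (hF : AEMeasurable F volume) {c : ℝ≥0∞} (hc0 : c ≠ 0) (hc1 : c ≠ ∞) :
    ∃ B : Set R3, volume B ≤ (n * ∫⁻ x, F x) / c ∧ ∀ a ∈ D, a ∉ B → skf x v F a ≤ c := by
  refine ⟨D ∩ {a | c ≤ skf x v F a}, ?_, fun a ha haB => ?_⟩
  · have h1 := mul_meas_ge_le_lintegral₀ ((aemeasurable_skf x v hF).restrict (s := D)) c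
    rw [Measure.restrict_apply₀' hD.nullMeasurableSet, inter_comm] at h1
    rw [ENNReal.le_div_iff_mul_le (Or.inl hc0) (Or.inl hc1), mul_comm]
    exact h1.trans (hn F hF)
  · by_contra h
    exact haB ⟨ha, (not_le.1 h).le⟩

theorem skf_mono {κi : Type*} {x v : κi → R3} {F H : R3 → ℝ≥0∞} (h : ∀ y, F y ≤ H y) (a : R3) :
    skf x v F a ≤ skf x v H a :=
  ENNReal.tsum_le_tsum fun _ => lintegral_mono fun _ => h _

/-- truncation -/
theorem exists_trunc {g : R3 → ℝ≥0∞} (hg : AEMeasurable g volume) (hgi : ∫⁻ y, g y ≠ ∞)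
    {ε : ℝ≥0∞} (hε : ε ≠ 0) :
    ∃ M : ℝ, 0 < M ∧ ∃ g' : R3 → ℝ≥0∞, AEMeasurable g' volume ∧ ∫⁻ y, g' y ≤ ε ∧
      ∀ y, g y ≤ ENNReal.ofReal M + g' y := by
  set g1 := hg.mk g with hg1
  have hg1m : Measurable g1 := hg.measurable_mk
  have hae : g =ᵐ[volume] g1 := hg.ae_eq_mk
  have hg1i : ∫⁻ y, g1 y ≠ ∞ := by rw [← lintegral_congr_ae hae]; exact hgi
  have hlim : Tendsto (fun m : ℕ => ∫⁻ y, (g1 y - (m : ℝ≥0∞))) atTop (𝓝 (∫⁻ _ : R3, 0)) := by
    apply tendsto_lintegral_of_dominated_convergence g1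
    · intro m
      exact hg1m.sub measurable_const
    · intro m
      exact Eventually.of_forall fun y => tsub_le_self
    · exact hg1i
    · filter_upwards [ae_lt_top hg1m hg1i] with y hy
      obtain ⟨K, hK⟩ := ENNReal.exists_nat_gt hy.ne
      apply tendsto_const_nhds.congr'
      filter_upwards [eventually_ge_atTop K] with m hm
      have : g1 y ≤ (m : ℝ≥0∞) := hK.le.trans (by exact_mod_cast hm)
      exact (tsub_eq_zero_of_le this).symm
  rw [lintegral_zero] at hlim
  have h3 := ((ENNReal.tendsto_nhds_zero.1 hlim) ε (pos_iff_ne_zero.2 hε)).and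
    (eventually_gt_atTop 0)
  obtain ⟨m, hm, hm0⟩ := h3.exists
  refine ⟨m, by exact_mod_cast hm0, fun y => g y - (m : ℝ≥0∞), hg.sub aemeasurable_const, ?_, ?_⟩
  · refine le_trans (le_of_eq ?_) hm
    apply lintegral_congr_ae
    filter_upwards [hae] with y hy
    rw [hy]
  · intro y
    rw [ENNReal.ofReal_natCast]
    exact le_add_tsub

/-- number of segments meeting a cube times `M` -/
theorem skf_cel_le {κi : Type*} {x v : κi → R3} {a z : R3} {s : ℝ} {nc : ℕ}
    (hcount : {e | (seg x v a e ∩ cel Cb z s).Nonempty}.encard ≤ nc) (M : ℝ≥0∞) :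
    skf x v ((cel Cb z s).indicator fun _ => M) a ≤ nc * M := by
  classical
  rw [skf]
  calc ∑' e, ∫⁻ σ in Ioc (0:ℝ) 1, (cel Cb z s).indicator (fun _ => M) (a + x e + σ • v e)
      ≤ ∑' e, {e | (seg x v a e ∩ cel Cb z s).Nonempty}.indicator (1 : κi → ℝ≥0∞) e * M := by
        apply ENNReal.tsum_le_tsum
        intro e
        by_cases he : (seg x v a e ∩ cel Cb z s).Nonempty
        · have he' : e ∈ {e | (seg x v a e ∩ cel Cb z s).Nonempty} := he
          rw [indicator_of_mem he', Pi.one_apply, one_mul]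
          calc ∫⁻ σ in Ioc (0:ℝ) 1, (cel Cb z s).indicator (fun _ => M) (a + x e + σ • v e)
              ≤ ∫⁻ σ in Ioc (0:ℝ) 1, M := by
                apply lintegral_mono
                intro σ
                exact indicator_le_self' (fun _ _ => zero_le) _
            _ = M := by simp
        · have he' : e ∉ {e | (seg x v a e ∩ cel Cb z s).Nonempty} := he
          rw [indicator_of_notMem he', zero_mul, nonpos_iff_eq_zero]
          rw [setLIntegral_congr_fun (g := fun _ => 0) measurableSet_Ioc]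
          · simp
          · intro σ hσ
            simp only
            rw [indicator_of_notMem]
            intro hm
            exact he ⟨_, ⟨σ, ⟨hσ.1.le, hσ.2⟩, rfl⟩, hm⟩
    _ = ({e | (seg x v a e ∩ cel Cb z s).Nonempty}.encard : ℝ≥0∞) * M := by
        rw [ENNReal.tsum_mul_right, ← tsum_subtype, Pi.one_def, ENNReal.tsum_set_one]
    _ ≤ ((nc : ℕ∞) : ℝ≥0∞) * M := by
        gcongr
    _ = (nc : ℝ≥0∞) * M := by simp

theorem skf_add_sum {κi : Type*} {x v : κi → R3} {F : R3 → ℝ≥0∞} {ι : Type*} (R : Finset ι)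
    {H : ι → R3 → ℝ≥0∞} (hH : ∀ k ∈ R, Measurable (H k)) (a : R3) :
    skf x v (fun y => F y + ∑ k ∈ R, H k y) a = skf x v F a + ∑ k ∈ R, skf x v (H k) a := by
  have h1 : ∀ e, ∫⁻ σ in Ioc (0:ℝ) 1, (F (a + x e + σ • v e) +
      ∑ k ∈ R, H k (a + x e + σ • v e)) = (∫⁻ σ in Ioc (0:ℝ) 1, F (a + x e + σ • v e)) +
      ∑ k ∈ R, ∫⁻ σ in Ioc (0:ℝ) 1, H k (a + x e + σ • v e) := by
    intro e
    have hm : ∀ k ∈ R, Measurable (fun σ : ℝ => H k (a + x e + σ • v e)) := fun k hk =>
      (hH k hk).comp (by fun_prop)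
    rw [lintegral_add_right _ (Finset.measurable_sum R hm), lintegral_finsetSum _ hm]
  simp only [skf]
  rw [tsum_congr h1, ENNReal.tsum_add]
  congr 1
  exact Summable.tsum_finsetSum fun k _ => ENNReal.summable

/-- **ENERGY.**  `g ≥ 0` integrable.  For most translates the energy of `g` on the segments inside
`E ∪ (few cubes)` is at most `(n/θ) ∫_E g + ε`. -/
theorem energy_G {g : R3 → ℝ≥0∞} (hg : AEMeasurable g volume) (hgi : ∫⁻ y, g y ≠ ∞)
    {N n θ ε : ℝ} (hN : 0 < N) (hn : 0 < n) (hθ : 0 < θ) (hε : 0 < ε) (nc : ℕ) :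
    ∃ δ : ℝ, 0 < δ ∧ ∀ s : ℝ, 0 < s → ∀ a₀ : R3, ∀ (κi : Type) [Countable κi] (x v : κi → R3)
      (D : Set R3), MeasurableSet D → ENNReal.ofReal ((s / N) ^ 3) ≤ volume D → volume D ≠ ∞ →
      Dens D (ENNReal.ofReal n) x v →
      (∀ a ∈ D, ∀ k : Fin 3 → ℤ,
        {e | (seg x v a e ∩ cel Cb (vt (2 * s) a₀ k) s).Nonempty}.encard ≤ nc) →
      ∀ E : Set R3, MeasurableSet E →
      ∃ B : Set R3, volume B ≤ ENNReal.ofReal θ * volume D ∧ ∀ a ∈ D, a ∉ B →
        ∀ R : Finset (Fin 3 → ℤ), (R.card : ℝ) * (2 * s) ^ 3 ≤ δ →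
          ENNReal.ofReal ((s / N) ^ 3) *
            skf x v ((E ∪ ⋃ k ∈ R, cel Cb (vt (2 * s) a₀ k) s).indicator g) a ≤
          ENNReal.ofReal (n / θ) * (∫⁻ y in E, g y) + ENNReal.ofReal ε := by
  -- truncation level
  obtain ⟨M, hM, g', hg'm, hg'i, hgg'⟩ := exists_trunc hg hgi
    (ε := ENNReal.ofReal (ε * θ / (8 * n))) (by
      rw [Ne, ENNReal.ofReal_eq_zero, not_le]; positivity)
  refine ⟨ε * N ^ 3 * 2 / ((nc + 1) * M), by positivity, ?_⟩
  intro s hs a₀ κi _ x v D hD hVD hVDt hdens hcount E hE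
  set V := volume D with hV
  have hsN : 0 < (s / N) ^ 3 := by positivity
  have hV0 : V ≠ 0 := by
    intro h
    rw [h] at hVD
    have := ENNReal.ofReal_eq_zero.1 (le_antisymm hVD zero_le)
    linarith
  set VR := V.toReal with hVR
  have hVR0 : 0 < VR := ENNReal.toReal_pos hV0 hVDt
  have hVRV : ENNReal.ofReal VR = V := ENNReal.ofReal_toReal hVDt
  have hsVR : (s / N) ^ 3 ≤ VR := by
    rw [← hVRV] at hVD
    exact (ENNReal.ofReal_le_ofReal_iff hVR0.le).1 hVD
  have hFE : AEMeasurable (E.indicator g) volume := hg.indicator hE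
  have hIEt : ∫⁻ y in E, g y ≠ ∞ := ne_top_of_le_ne_top hgi (setLIntegral_le_lintegral _ _)
  set X := (∫⁻ y in E, g y).toReal with hX
  have hX0 : 0 ≤ X := ENNReal.toReal_nonneg
  have hXE : ENNReal.ofReal X = ∫⁻ y in E, g y := ENNReal.ofReal_toReal hIEt
  set F : R3 → ℝ≥0∞ := fun y => E.indicator g y + g' y with hF
  have hFm : AEMeasurable F volume := hFE.add hg'm
  have hFi : ∫⁻ y, F y ≤ ENNReal.ofReal (X + ε * θ / (8 * n)) := by
    rw [hF, lintegral_add_left' hFE, lintegral_indicator hE, ← hXE,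
      ENNReal.ofReal_add hX0 (by positivity)]
    gcongr
  -- threshold
  set c1 : ℝ := (n / θ * X + ε / 8) / VR with hc1
  have hc10 : 0 < c1 := by positivity
  obtain ⟨B1, hB1, hB1'⟩ := markov_skf hD hdens hFm (c := ENNReal.ofReal c1)
    (by rw [Ne, ENNReal.ofReal_eq_zero, not_le]; exact hc10) ENNReal.ofReal_ne_top
  refine ⟨B1, ?_, ?_⟩
  · refine hB1.trans ?_
    calc ENNReal.ofReal n * (∫⁻ y, F y) / ENNReal.ofReal c1
        ≤ ENNReal.ofReal n * ENNReal.ofReal (X + ε * θ / (8 * n)) / ENNReal.ofReal c1 := by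
          gcongr
      _ = ENNReal.ofReal (θ * VR) := by
          rw [← ENNReal.ofReal_mul hn.le, ← ENNReal.ofReal_div_of_pos hc10]
          congr 1
          rw [div_eq_iff hc10.ne', hc1]
          field_simp
      _ = ENNReal.ofReal θ * V := by rw [ENNReal.ofReal_mul hθ.le, hVRV]
  · intro a haD haB R hR
    have h1 := hB1' a haD haB
    set W := ⋃ k ∈ R, cel Cb (vt (2 * s) a₀ k) s with hW
    -- pointwise
    have h3 : ∀ y, (E ∪ W).indicator g y ≤ F y +
        ∑ k ∈ R, (cel Cb (vt (2 * s) a₀ k) s).indicator (fun _ => ENNReal.ofReal M) y := by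
      intro y
      have hFy : F y = E.indicator g y + g' y := rfl
      by_cases hyE : y ∈ E
      · have hm : y ∈ E ∪ W := Or.inl hyE
        rw [indicator_of_mem hm, hFy, indicator_of_mem hyE, add_assoc]
        exact le_self_add
      · by_cases hyW : y ∈ W
        · have hm : y ∈ E ∪ W := Or.inr hyW
          rw [indicator_of_mem hm, hFy, indicator_of_notMem hyE, zero_add]
          obtain ⟨k, hk, hyk⟩ := mem_iUnion₂.1 hyW
          refine (hgg' y).trans ?_
          rw [add_comm]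
          gcongr
          refine le_trans ?_ (Finset.single_le_sum
            (f := fun k => (cel Cb (vt (2 * s) a₀ k) s).indicator (fun _ => ENNReal.ofReal M) y)
            (fun _ _ => zero_le) hk)
          rw [indicator_of_mem hyk]
        · rw [indicator_of_notMem]
          · exact zero_le
          · rintro (h | h)
            · exact hyE h
            · exact hyW h
    have h4 : skf x v ((E ∪ W).indicator g) a ≤ skf x v F a +
        ∑ k ∈ R, skf x v ((cel Cb (vt (2 * s) a₀ k) s).indicator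
          (fun _ => ENNReal.ofReal M)) a := by
      rw [← skf_add_sum R (fun k _ => measurable_const.indicator
        (isClosed_cel (vt (2 * s) a₀ k) s).measurableSet)]
      exact skf_mono h3 a
    have h5 : ∑ k ∈ R, skf x v ((cel Cb (vt (2 * s) a₀ k) s).indicator
        (fun _ => ENNReal.ofReal M)) a ≤ ENNReal.ofReal (R.card * (nc * M)) := by
      calc _ ≤ ∑ k ∈ R, (nc : ℝ≥0∞) * ENNReal.ofReal M :=
            Finset.sum_le_sum fun k _ => skf_cel_le (hcount a haD k) _
        _ = ENNReal.ofReal (R.card * (nc * M)) := by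
            rw [Finset.sum_const, nsmul_eq_mul, ENNReal.ofReal_mul (Nat.cast_nonneg _),
              ENNReal.ofReal_mul (Nat.cast_nonneg _), ENNReal.ofReal_natCast,
              ENNReal.ofReal_natCast]
    calc ENNReal.ofReal ((s / N) ^ 3) * skf x v ((E ∪ W).indicator g) a
        ≤ ENNReal.ofReal ((s / N) ^ 3) * (ENNReal.ofReal c1 +
          ENNReal.ofReal (R.card * (nc * M))) := by
          gcongr
          exact h4.trans (add_le_add h1 h5)
      _ = ENNReal.ofReal ((s / N) ^ 3 * (c1 + R.card * (nc * M))) := by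
          rw [← ENNReal.ofReal_add hc10.le (by positivity), ← ENNReal.ofReal_mul hsN.le]
      _ ≤ ENNReal.ofReal (n / θ * X + ε) := by
          apply ENNReal.ofReal_le_ofReal
          have h6 : (s / N) ^ 3 * c1 ≤ n / θ * X + ε / 8 := by
            rw [hc1, mul_div_assoc', div_le_iff₀ hVR0]
            have : 0 ≤ n / θ * X + ε / 8 := by positivity
            nlinarith
          have h8 : (s / N) ^ 3 * (R.card * (nc * M)) ≤ ε / 4 := by
            have h9 : (R.card : ℝ) * (2 * s) ^ 3 * ((nc + 1) * M) ≤ ε * N ^ 3 * 2 := by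
              rw [← le_div_iff₀ (by positivity)]
              exact hR
            have h10 : (s / N) ^ 3 * (R.card * (nc * M)) =
                (R.card * (2 * s) ^ 3 * (nc * M)) / (8 * N ^ 3) := by
              field_simp
              ring
            rw [h10, div_le_iff₀ (by positivity)]
            have h11 : (R.card : ℝ) * (2 * s) ^ 3 * (nc * M) ≤
                (R.card : ℝ) * (2 * s) ^ 3 * ((nc + 1) * M) := by
              gcongr
              linarith
            calc _ ≤ ε * N ^ 3 * 2 := h11.trans h9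
              _ = ε / 4 * (8 * N ^ 3) := by ring
          calc (s / N) ^ 3 * (c1 + R.card * (nc * M))
              = (s / N) ^ 3 * c1 + (s / N) ^ 3 * (R.card * (nc * M)) := by ring
            _ ≤ (n / θ * X + ε / 8) + ε / 4 := by gcongr
            _ ≤ n / θ * X + ε := by linarith
      _ = ENNReal.ofReal (n / θ) * (∫⁻ y in E, g y) + ENNReal.ofReal ε := by
          rw [ENNReal.ofReal_add (by positivity) hε.le, ENNReal.ofReal_mul (by positivity), hXE]

/-- the rest of `Ω` costs little more than `{det = 0}` -/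
theorem rest_le {Ω : Set R3} {g : R3 → ℝ≥0∞} (hgi : ∫⁻ y, g y ≠ ∞)
    (dt : R3 → ℝ) {ε' : ℝ} (hε' : 0 < ε') :
    ∃ ε : ℝ, 0 < ε ∧ ∀ A : Set R3, volume ((Ω ∩ {x | dt x ≠ 0}) \ A) ≤ ENNReal.ofReal ε →
      ∫⁻ y in Ω \ A, g y ≤ (∫⁻ y in Ω ∩ {x | dt x = 0}, g y) + ENNReal.ofReal ε' := by
  obtain ⟨δ, hδ, h⟩ := exists_pos_setLIntegral_lt_of_measure_lt hgi
    (ε := ENNReal.ofReal ε') (by rw [Ne, ENNReal.ofReal_eq_zero, not_le]; exact hε')
  obtain ⟨q, hq1, hq2⟩ := ENNReal.lt_iff_exists_nnreal_btwn.1 hδ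
  refine ⟨q, by exact_mod_cast hq1, fun A hA => ?_⟩
  rw [ENNReal.ofReal_coe_nnreal] at hA
  have h1 : Ω \ A ⊆ (Ω ∩ {x | dt x = 0}) ∪ ((Ω ∩ {x | dt x ≠ 0}) \ A) := by
    rintro y ⟨hy, hyA⟩
    by_cases h0 : dt y = 0
    · left; exact ⟨hy, h0⟩
    · right; exact ⟨⟨hy, h0⟩, hyA⟩
  refine (lintegral_mono_set h1).trans ((lintegral_union_le _ _ _).trans ?_)
  exact add_le_add le_rfl (h _ (hA.trans_lt hq2)).le

end

end Crest.Agent.R96.Coarse_538
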