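/-
helper538, row 96, leaf COARSE-G, part 26: number of segments near a cube from the density; the
uniform grid as a family of segments.
-/
import Mathlib
import Crest.Agent.R96.Intr25_538

set_option autoImplicit false
set_option linter.unusedSectionVars false
set_option maxHeartbeats 400000

open MeasureTheory Set Filter Metric Module
open scoped ENNReal NNReal Topology

namespace Crest.Agent.R96.Coarse_538

open Crest.AnalysisR.VecCalc3 Crest.AnalysisR.Sobolev
open Crest.Agent.R96.Acl_392 Crest.Agent.R96.Lu_538 Crest.Agent.R96.Intr_538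

noncomputable section

/-- the number of segments which meet a cube -/
theorem count_of_dens {κi : Type*} {x v : κi → R3} {D : Set R3} (hD : MeasurableSet D)
    {n N s C : ℝ} (hn : 0 < n) (hN : 0 < N) (hs : 0 < s) (hC : 0 ≤ C)
    (hVD : ENNReal.ofReal ((s / N) ^ 3) ≤ volume D)
    (hdiam : ∀ a ∈ D, ∀ a' ∈ D, ‖a - a'‖ ≤ C * s) (hv : ∀ e, ‖v e‖ ≤ s)
    (hdens : Dens D (ENNReal.ofReal n) x v) :
    ∀ a ∈ D, ∀ z : R3, {e | (seg x v a e ∩ cel Cb z s).Nonempty}.encard ≤
      (⌈n * (2 * (2 + C)) ^ 3 * N ^ 3⌉₊ : ℕ) := by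
  intro a ha z
  set nc : ℕ := ⌈n * (2 * (2 + C)) ^ 3 * N ^ 3⌉₊ with hnc
  by_contra hcon
  rw [not_le] at hcon
  have h1 : ((nc + 1 : ℕ) : ℕ∞) ≤ {e | (seg x v a e ∩ cel Cb z s).Nonempty}.encard := by
    push_cast
    exact Order.add_one_le_of_lt hcon
  obtain ⟨T, hT, hTc⟩ := Set.exists_subset_encard_eq h1
  have hTfin : T.Finite := Set.finite_of_encard_eq_coe hTc
  set T' := hTfin.toFinset with hT'
  have hT'c : T'.card = nc + 1 := by
    rw [hTfin.encard_eq_coe_toFinset_card] at hTc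
    exact_mod_cast hTc
  set F : R3 → ℝ≥0∞ := (cel Cb z ((2 + C) * s)).indicator 1 with hF
  have hS : 0 < (2 + C) * s := by positivity
  have hFm : AEMeasurable F volume :=
    (measurable_one.indicator (isClosed_cel z _).measurableSet).aemeasurable
  have hge : ∀ a' ∈ D, ((nc + 1 : ℕ) : ℝ≥0∞) ≤ skf x v F a' := by
    intro a' ha'
    calc ((nc + 1 : ℕ) : ℝ≥0∞) = ∑ e ∈ T', 1 := by
          rw [Finset.sum_const, hT'c, nsmul_eq_mul, mul_one]
      _ ≤ ∑ e ∈ T', ∫⁻ σ in Ioc (0:ℝ) 1, F (a' + x e + σ • v e) := by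
          apply Finset.sum_le_sum
          intro e he
          have heT : e ∈ T := (Set.Finite.mem_toFinset _).1 he
          obtain ⟨y, ⟨σ₀, hσ₀, rfl⟩, hy⟩ := hT heT
          have hin : ∀ σ ∈ Ioc (0:ℝ) 1, a' + x e + σ • v e ∈ cel Cb z ((2 + C) * s) := by
            intro σ hσ
            rw [mem_cel hs] at hy
            rw [mem_cel hS]
            intro i
            have h2 := hy i
            have h3 : |(a' - a) i| ≤ C * s :=
              (norm_coord_le _ i).trans (by rw [norm_sub_rev]; exact hdiam a ha a' ha')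
            have h4 : |(σ - σ₀) * v e i| ≤ s := by
              rw [abs_mul]
              have h5 : |σ - σ₀| ≤ 1 := by
                rw [abs_le]
                constructor <;> linarith [hσ.1, hσ.2, hσ₀.1, hσ₀.2]
              have h6 := (norm_coord_le (v e) i).trans (hv e)
              calc |σ - σ₀| * |v e i| ≤ 1 * s := by gcongr
                _ = s := one_mul s
            have h5 : (a' + x e + σ • v e) i - z i =
                ((a + x e + σ₀ • v e) i - z i) + (a' - a) i + (σ - σ₀) * v e i := by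
              simp only [PiLp.add_apply, PiLp.sub_apply, PiLp.smul_apply, smul_eq_mul]
              ring
            rw [h5]
            refine (abs_add_three _ _ _).trans ?_
            linarith
          calc (1 : ℝ≥0∞) = ∫⁻ σ in Ioc (0:ℝ) 1, 1 := by simp
            _ ≤ ∫⁻ σ in Ioc (0:ℝ) 1, F (a' + x e + σ • v e) := by
                apply setLIntegral_mono' measurableSet_Ioc
                intro σ hσ
                rw [hF, indicator_of_mem (hin σ hσ)]
                exact le_rfl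
      _ ≤ skf x v F a' := ENNReal.sum_le_tsum _
  have h2 : ((nc + 1 : ℕ) : ℝ≥0∞) * volume D ≤ ∫⁻ a' in D, skf x v F a' := by
    calc ((nc + 1 : ℕ) : ℝ≥0∞) * volume D = ∫⁻ a' in D, ((nc + 1 : ℕ) : ℝ≥0∞) := by
          rw [setLIntegral_const]
      _ ≤ _ := setLIntegral_mono' hD hge
  have h3 : ∫⁻ a' in D, skf x v F a' ≤
      ENNReal.ofReal n * ENNReal.ofReal ((2 * ((2 + C) * s)) ^ 3) := by
    refine (hdens F hFm).trans (le_of_eq ?_)
    rw [hF, lintegral_indicator_one (isClosed_cel z _).measurableSet, vol_cel hS]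
  have h4 : ENNReal.ofReal ((nc + 1 : ℕ) * (s / N) ^ 3) ≤
      ENNReal.ofReal (n * (2 * ((2 + C) * s)) ^ 3) := by
    rw [ENNReal.ofReal_mul (Nat.cast_nonneg _), ENNReal.ofReal_natCast, ENNReal.ofReal_mul hn.le]
    calc ((nc + 1 : ℕ) : ℝ≥0∞) * ENNReal.ofReal ((s / N) ^ 3)
        ≤ ((nc + 1 : ℕ) : ℝ≥0∞) * volume D := by gcongr
      _ ≤ _ := h2.trans h3
  have h5 := (ENNReal.ofReal_le_ofReal_iff (by positivity)).1 h4
  have h6 : n * (2 * ((2 + C) * s)) ^ 3 = n * (2 * (2 + C)) ^ 3 * N ^ 3 * (s / N) ^ 3 := by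
    field_simp
  rw [h6] at h5
  have h7 : ((nc + 1 : ℕ) : ℝ) ≤ n * (2 * (2 + C)) ^ 3 * N ^ 3 :=
    le_of_mul_le_mul_right h5 (by positivity)
  have h8 : n * (2 * (2 + C)) ^ 3 * N ^ 3 ≤ nc := Nat.le_ceil _
  push_cast at h7
  linarith

/-- the edges of the uniform grid -/
def gx (t : ℝ) (q : (Fin 3 → ℤ) × Fin 3) : R3 := ihom t q.1

def gv (t : ℝ) (q : (Fin 3 → ℤ) × Fin 3) : R3 := t • ed q.2

theorem seg_grid (t : ℝ) (a : R3) (k : Fin 3 → ℤ) (i : Fin 3) :
    seg (gx t) (gv t) a (k, i) = edge t a k i := rfl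

theorem skf_grid (t : ℝ) (F : R3 → ℝ≥0∞) (a : R3) :
    skf (gx t) (gv t) F a = ∑ i, ske t F i a := by
  rw [← sum_edges]
  rfl

theorem norm_gv {t : ℝ} (ht : 0 < t) (q : (Fin 3 → ℤ) × Fin 3) : ‖gv t q‖ ≤ t := by
  rw [gv, norm_smul, Real.norm_eq_abs, abs_of_pos ht, ed, PiLp.norm_single]
  simp

theorem dens_grid {t : ℝ} (ht : 0 < t) : Dens (Dt t) 3 (gx t) (gv t) := by
  intro F hF
  simp only [skf_grid]
  rw [lintegral_finsetSum' _ (fun i _ => (aemeasurable_ske ht hF i).restrict)]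
  simp only [lint_ske ht hF, Finset.sum_const, Finset.card_univ, Fintype.card_fin, nsmul_eq_mul]
  simp

theorem diam_Dt {t : ℝ} (ht : 0 < t) {a a' : R3} (ha : a ∈ Dt t) (ha' : a' ∈ Dt t) :
    ‖a - a'‖ ≤ 2 * t := by
  apply norm_le_of_coord ht.le
  intro i
  have h1 := ha i
  have h2 := ha' i
  rw [PiLp.sub_apply, abs_le]
  constructor <;> linarith [h1.1, h1.2, h2.1, h2.2]

/-- a subfamily has at most the same density -/
theorem Dens.sub {ι κi : Type*} {D : Set R3} {n : ℝ≥0∞} {x v : ι → R3} (h : Dens D n x v)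
    {φ : κi → ι} (hφ : Function.Injective φ) : Dens D n (x ∘ φ) (v ∘ φ) := by
  intro F hF
  refine le_trans (lintegral_mono fun a => ?_) (h F hF)
  exact ENNReal.tsum_comp_le_tsum_of_injective (f := φ) hφ
    (fun e => ∫⁻ σ in Ioc (0:ℝ) 1, F (a + x e + σ • v e))

/-- two families together -/
theorem Dens.union {ι κi : Type*} [Countable ι] [Countable κi] {D : Set R3} {n n' : ℝ≥0∞}
    {x v : ι → R3} {x' v' : κi → R3}
    (h : Dens D n x v) (h' : Dens D n' x' v') :
    Dens D (n + n') (Sum.elim x x') (Sum.elim v v') := by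
  intro F hF
  have h1 : ∀ a, skf (Sum.elim x x') (Sum.elim v v') F a = skf x v F a + skf x' v' F a := by
    intro a
    rw [skf, Summable.tsum_sum ENNReal.summable ENNReal.summable]
    rfl
  simp only [h1]
  rw [lintegral_add_left' (aemeasurable_skf x v hF).restrict, add_mul]
  exact add_le_add (h F hF) (h' F hF)

end

end Crest.Agent.R96.Coarse_538
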