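/-
helper538, row 96, bridge p < 2, leaf EW: energy with weights / any scales.
-/
import Mathlib
import Crest.Agent.R96.Intr26_538

set_option autoImplicit false
set_option linter.unusedSectionVars false
set_option maxHeartbeats 400000

open MeasureTheory Set Filter Metric Module
open scoped ENNReal NNReal Topology

namespace Crest.Agent.R96.Coarse_538

open Crest.AnalysisR.VecCalc3 Crest.AnalysisR.Sobolev
open Crest.Agent.R96.Acl_392 Crest.Agent.R96.Lu_538 Crest.Agent.R96.Intr_538

noncomputable section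

/-- **random measure** `μ a` (`a ∈ D`) with mean at most `n · Lebesgue` -/
structure RM (D : Set R3) (n : ℝ≥0∞) (μ : R3 → Measure R3) : Prop where
  meas : ∀ F : R3 → ℝ≥0∞, Measurable F →
    AEMeasurable (fun a => ∫⁻ y, F y ∂μ a) (volume.restrict D)
  dens : ∀ F : R3 → ℝ≥0∞, Measurable F →
    ∫⁻ a in D, ∫⁻ y, F y ∂μ a ≤ n * volume D * ∫⁻ y, F y

/-- Markov for one density -/
theorem RM.markov {D : Set R3} {n : ℝ≥0∞} {μ : R3 → Measure R3} (h : RM D n μ)
    (hD : MeasurableSet D) {F : R3 → ℝ≥0∞}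
    (hF : Measurable F) {c : ℝ≥0∞} (hc0 : c ≠ 0) (hc1 : c ≠ ∞) :
    ∃ B : Set R3, volume B ≤ (n * volume D * ∫⁻ x, F x) / c ∧
      ∀ a ∈ D, a ∉ B → ∫⁻ y, F y ∂μ a ≤ c := by
  refine ⟨D ∩ {a | c ≤ ∫⁻ y, F y ∂μ a}, ?_, fun a ha haB => ?_⟩
  · have h1 := mul_meas_ge_le_lintegral₀ (h.meas F hF) c
    rw [Measure.restrict_apply₀' hD.nullMeasurableSet, inter_comm] at h1
    rw [ENNReal.le_div_iff_mul_le (Or.inl hc0) (Or.inl hc1), mul_comm]
    exact h1.trans (h.dens F hF)
  · by_contra h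
    exact haB ⟨ha, (not_le.1 h).le⟩

/-- null sets are not seen -/
theorem RM.null {D : Set R3} {n : ℝ≥0∞} {μ : R3 → Measure R3} (h : RM D n μ)
    (hD : MeasurableSet D) {Z : Set R3} (hZ : volume Z = 0) :
    ∃ B : Set R3, volume B = 0 ∧ ∀ a ∈ D, a ∉ B → μ a Z = 0 := by
  set Z' := toMeasurable volume Z with hZ'
  have hZ'0 : volume Z' = 0 := by rw [hZ', measure_toMeasurable, hZ]
  have hZ'm : MeasurableSet Z' := measurableSet_toMeasurable _ _
  have h1 := h.dens (Z'.indicator 1) (measurable_one.indicator hZ'm)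
  rw [lintegral_indicator_one hZ'm, hZ'0, mul_zero, nonpos_iff_eq_zero,
    lintegral_eq_zero_iff' (h.meas _ (measurable_one.indicator hZ'm)),
    Filter.EventuallyEq, ae_restrict_iff' hD] at h1
  refine ⟨_, h1, fun a ha haB => ?_⟩
  have h2 : a ∈ D → ∫⁻ y, Z'.indicator 1 y ∂μ a = (0 : R3 → ℝ≥0∞) a := by
    by_contra hcon
    exact haB hcon
  have h3 := h2 ha
  rw [lintegral_indicator_one hZ'm] at h3
  exact measure_mono_null (subset_toMeasurable _ _) h3

/-- **ENERGY WITH WEIGHTS.** `g ≥ 0` integrable.  For most translates the energy of `g` on the part of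
the mesh `μ a` inside `E ∪ (few cubes)` is at most `(n/θ) ∫_E g + ε`.  `n` is the universal
density, `nc` (mass of a cube in units of its volume) may depend on everything except `s`. -/
theorem energy_M {g : R3 → ℝ≥0∞} (hg : AEMeasurable g volume) (hgi : ∫⁻ y, g y ≠ ∞)
    {n nc θ ε : ℝ} (hn : 0 < n) (hnc : 0 < nc) (hθ : 0 < θ) (hε : 0 < ε) :
    ∃ δ : ℝ, 0 < δ ∧ ∀ s : ℝ, 0 < s → ∀ a₀ : R3, ∀ (μ : R3 → Measure R3)
      (D : Set R3), MeasurableSet D → volume D ≠ 0 → volume D ≠ ∞ →
      RM D (ENNReal.ofReal n) μ →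
      (∀ a ∈ D, ∀ k : Fin 3 → ℤ, μ a (cel Cb (vt (2 * s) a₀ k) s) ≤
        ENNReal.ofReal (nc * (2 * s) ^ 3)) →
      ∀ E : Set R3, MeasurableSet E →
      ∃ B : Set R3, volume B ≤ ENNReal.ofReal θ * volume D ∧ ∀ a ∈ D, a ∉ B →
        ∀ R : Finset (Fin 3 → ℤ), (R.card : ℝ) * (2 * s) ^ 3 ≤ δ →
          ∫⁻ y in E ∪ ⋃ k ∈ R, cel Cb (vt (2 * s) a₀ k) s, g y ∂μ a ≤
          ENNReal.ofReal (n / θ) * (∫⁻ y in E, g y) + ENNReal.ofReal ε := by
  -- measurable version
  set g1 := hg.mk g with hg1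
  have hg1m : Measurable g1 := hg.measurable_mk
  have hae : g =ᵐ[volume] g1 := hg.ae_eq_mk
  have hg1i : ∫⁻ y, g1 y ≠ ∞ := by rw [← lintegral_congr_ae hae]; exact hgi
  -- truncation level
  obtain ⟨M, hM, g', hg'm0, hg'i0, hgg'⟩ := exists_trunc hg1m.aemeasurable hg1i
    (ε := ENNReal.ofReal (ε * θ / (8 * n))) (by
      rw [Ne, ENNReal.ofReal_eq_zero, not_le]; positivity)
  obtain ⟨g'', hg''m, hg''i, hgg''⟩ : ∃ g'' : R3 → ℝ≥0∞, Measurable g'' ∧
      ∫⁻ y, g'' y ≤ ENNReal.ofReal (ε * θ / (8 * n)) ∧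
      ∀ y, g1 y ≤ ENNReal.ofReal M + g'' y := by
    refine ⟨fun y => g1 y - ENNReal.ofReal M, hg1m.sub measurable_const, ?_, fun y => ?_⟩
    · refine le_trans (lintegral_mono fun y => ?_) hg'i0
      rw [tsub_le_iff_left]
      exact hgg' y
    · exact le_add_tsub
  refine ⟨ε / (2 * nc * M), by positivity, ?_⟩
  intro s hs a₀ μ D hD hV0 hVDt hμ hcount E hE
  set V := volume D with hV
  set VR := V.toReal with hVR
  have hVR0 : 0 < VR := ENNReal.toReal_pos hV0 hVDt
  have hVRV : ENNReal.ofReal VR = V := ENNReal.ofReal_toReal hVDt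
  have hFE : Measurable (E.indicator g1) := hg1m.indicator hE
  have hIEt : ∫⁻ y in E, g1 y ≠ ∞ := ne_top_of_le_ne_top hg1i (setLIntegral_le_lintegral _ _)
  set X := (∫⁻ y in E, g1 y).toReal with hX
  have hX0 : 0 ≤ X := ENNReal.toReal_nonneg
  have hXE : ENNReal.ofReal X = ∫⁻ y in E, g1 y := ENNReal.ofReal_toReal hIEt
  set F : R3 → ℝ≥0∞ := fun y => E.indicator g1 y + g'' y with hF
  have hFm : Measurable F := hFE.add hg''m
  have hFi : ∫⁻ y, F y ≤ ENNReal.ofReal (X + ε * θ / (8 * n)) := by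
    rw [hF, lintegral_add_left hFE, lintegral_indicator hE, ← hXE,
      ENNReal.ofReal_add hX0 (by positivity)]
    gcongr
  -- threshold
  set c1 : ℝ := n / θ * X + ε / 8 with hc1
  have hc10 : 0 < c1 := by positivity
  obtain ⟨B1, hB1, hB1'⟩ := hμ.markov hD hFm (c := ENNReal.ofReal c1)
    (by rw [Ne, ENNReal.ofReal_eq_zero, not_le]; exact hc10) ENNReal.ofReal_ne_top
  obtain ⟨B2, hB2, hB2'⟩ := hμ.null hD (Z := {y | g y ≠ g1 y}) hae
  refine ⟨B1 ∪ B2, ?_, ?_⟩
  · refine (measure_union_le _ _).trans ?_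
    rw [hB2, add_zero]
    refine hB1.trans ?_
    calc ENNReal.ofReal n * V * (∫⁻ y, F y) / ENNReal.ofReal c1
        ≤ ENNReal.ofReal n * V * ENNReal.ofReal (X + ε * θ / (8 * n)) / ENNReal.ofReal c1 := by
          gcongr
      _ = ENNReal.ofReal (θ * VR) := by
          rw [← hVRV, ← ENNReal.ofReal_mul hn.le, ← ENNReal.ofReal_mul (by positivity),
            ← ENNReal.ofReal_div_of_pos hc10]
          congr 1
          rw [div_eq_iff hc10.ne', hc1]
          field_simp
      _ = ENNReal.ofReal θ * V := by rw [ENNReal.ofReal_mul hθ.le, hVRV]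
  · intro a haD haB R hR
    have haB1 : a ∉ B1 := fun h => haB (Or.inl h)
    have haB2 : a ∉ B2 := fun h => haB (Or.inr h)
    have h1 := hB1' a haD haB1
    have h2 := hB2' a haD haB2
    set W := ⋃ k ∈ R, cel Cb (vt (2 * s) a₀ k) s with hW
    have hcm : ∀ k, MeasurableSet (cel Cb (vt (2 * s) a₀ k) s) := fun k =>
      (isClosed_cel (vt (2 * s) a₀ k) s).measurableSet
    have hWm : MeasurableSet W := Finset.measurableSet_biUnion _ fun k _ => hcm k
    have haeμ : g =ᵐ[μ a] g1 := h2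
    -- pointwise
    have h3 : ∀ y, (E ∪ W).indicator g1 y ≤ F y +
        ∑ k ∈ R, (cel Cb (vt (2 * s) a₀ k) s).indicator (fun _ => ENNReal.ofReal M) y := by
      intro y
      have hFy : F y = E.indicator g1 y + g'' y := rfl
      by_cases hyE : y ∈ E
      · have hm : y ∈ E ∪ W := Or.inl hyE
        rw [indicator_of_mem hm, hFy, indicator_of_mem hyE, add_assoc]
        exact le_self_add
      · by_cases hyW : y ∈ W
        · have hm : y ∈ E ∪ W := Or.inr hyW
          rw [indicator_of_mem hm, hFy, indicator_of_notMem hyE, zero_add]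
          obtain ⟨k, hk, hyk⟩ := mem_iUnion₂.1 hyW
          refine (hgg'' y).trans ?_
          rw [add_comm]
          gcongr
          refine le_trans ?_ (Finset.single_le_sum
            (f := fun k => (cel Cb (vt (2 * s) a₀ k) s).indicator (fun _ => ENNReal.ofReal M) y)
            (fun _ _ => zero_le) hk)
          rw [indicator_of_mem hyk]
        · rw [indicator_of_notMem]
          · exact zero_le
          · rintro (h | h)
            · exact hyE h
            · exact hyW h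
    calc ∫⁻ y in E ∪ W, g y ∂μ a = ∫⁻ y in E ∪ W, g1 y ∂μ a :=
          lintegral_congr_ae (ae_restrict_of_ae haeμ)
      _ = ∫⁻ y, (E ∪ W).indicator g1 y ∂μ a := (lintegral_indicator (hE.union hWm) _).symm
      _ ≤ ∫⁻ y, (F y + ∑ k ∈ R, (cel Cb (vt (2 * s) a₀ k) s).indicator
            (fun _ => ENNReal.ofReal M) y) ∂μ a := lintegral_mono h3
      _ = (∫⁻ y, F y ∂μ a) + ∑ k ∈ R, ENNReal.ofReal M * μ a (cel Cb (vt (2 * s) a₀ k) s) := by
          rw [lintegral_add_left hFm, lintegral_finsetSum _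
            (fun k _ => measurable_const.indicator (hcm k))]
          congr 1
          refine Finset.sum_congr rfl fun k _ => ?_
          rw [lintegral_indicator_const (hcm k)]
      _ ≤ ENNReal.ofReal c1 + ∑ k ∈ R, ENNReal.ofReal M * ENNReal.ofReal (nc * (2 * s) ^ 3) := by
          gcongr with k hk
          exact hcount a haD k
      _ = ENNReal.ofReal (c1 + R.card * (M * (nc * (2 * s) ^ 3))) := by
          rw [Finset.sum_const, nsmul_eq_mul, ← ENNReal.ofReal_mul hM.le,
            ← ENNReal.ofReal_natCast, ← ENNReal.ofReal_mul (Nat.cast_nonneg _),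
            ← ENNReal.ofReal_add hc10.le (by positivity)]
      _ ≤ ENNReal.ofReal (n / θ * X + ε) := by
          apply ENNReal.ofReal_le_ofReal
          have h9 : (R.card : ℝ) * (2 * s) ^ 3 * (2 * nc * M) ≤ ε := by
            rw [← le_div_iff₀ (by positivity)]
            exact hR
          have h10 : (R.card : ℝ) * (M * (nc * (2 * s) ^ 3)) ≤ ε / 2 := by nlinarith
          rw [hc1]
          linarith
      _ = ENNReal.ofReal (n / θ) * (∫⁻ y in E, g y) + ENNReal.ofReal ε := by
          rw [ENNReal.ofReal_add (by positivity) hε.le, ENNReal.ofReal_mul (by positivity), hXE,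
            lintegral_congr_ae (ae_restrict_of_ae hae)]

end

end Crest.Agent.R96.Coarse_538
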