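/-
helper538, row 96, bridge p < 2, leaf EW: weighted segments cut to layers as random measures,
grids of several scales.
-/
import Mathlib
import Crest.Agent.R96.Intr27_538

set_option autoImplicit false
set_option linter.unusedSectionVars false
set_option maxHeartbeats 400000

open MeasureTheory Set Filter Metric Module
open scoped ENNReal NNReal Topology

namespace Crest.Agent.R96.Coarse_538

open Crest.AnalysisR.VecCalc3 Crest.AnalysisR.Sobolev
open Crest.Agent.R96.Acl_392 Crest.Agent.R96.Lu_538 Crest.Agent.R96.Intr_538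
open Crest.Agent.R96.Poi_392

noncomputable section

/-- **weighted segments, cut to the sets `A e`**, translated by `a` -/
def segM {ι : Type*} (x v : ι → R3) (w : ι → ℝ≥0∞) (A : ι → Set R3) (a : R3) : Measure R3 :=
  Measure.sum fun e => w e •
    (((volume.restrict (Ioc (0:ℝ) 1)).map (fun σ : ℝ => a + x e + σ • v e)).restrict (A e))

theorem lint_segM {ι : Type*} {x v : ι → R3} {w : ι → ℝ≥0∞} {A : ι → Set R3}
    (hA : ∀ e, MeasurableSet (A e)) {F : R3 → ℝ≥0∞} (hF : Measurable F) (a : R3) :
    ∫⁻ y, F y ∂segM x v w A a =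
      ∑' e, w e * ∫⁻ σ in Ioc (0:ℝ) 1, (A e).indicator F (a + x e + σ • v e) := by
  rw [segM, lintegral_sum_measure]
  refine tsum_congr fun e => ?_
  rw [lintegral_smul_measure, ← lintegral_indicator (hA e),
    lintegral_map (hF.indicator (hA e)) (by fun_prop)]
  rfl

/-- **criterion** -/
theorem rm_of {ι : Type*} [Countable ι] {D : Set R3} (hD : MeasurableSet D) {n : ℝ≥0∞}
    {x v : ι → R3} {w : ι → ℝ≥0∞} {A : ι → Set R3} (hA : ∀ e, MeasurableSet (A e))
    (h : ∀ y : R3, ∑' e, w e * ((A e).indicator 1 y *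
      ∫⁻ σ in Ioc (0:ℝ) 1, D.indicator 1 (y - (x e + σ • v e))) ≤ n * volume D) :
    RM D n (segM x v w A) := by
  have h1 : ∀ F : R3 → ℝ≥0∞, Measurable F → ∀ e, AEMeasurable
      (fun a => w e * ∫⁻ σ in Ioc (0:ℝ) 1, (A e).indicator F (a + x e + σ • v e))
      (volume.restrict D) := by
    intro F hF e
    apply AEMeasurable.const_mul
    simp only [skf_eq]
    exact (Grid_392.aemeasurable_pc (ν := volume.restrict (Ioc (0:ℝ) 1))
      (γ := fun σ : ℝ => x e + σ • v e) (by fun_prop) (hF.indicator (hA e)).aemeasurable).restrict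
  have hm0 : ∀ e, Measurable (fun y => ∫⁻ σ in Ioc (0:ℝ) 1,
      D.indicator (1 : R3 → ℝ≥0∞) (y - (x e + σ • v e))) := by
    intro e
    have h2 : Measurable (fun p : R3 × ℝ => D.indicator (1 : R3 → ℝ≥0∞)
        (p.1 - (x e + p.2 • v e))) :=
      (measurable_one.indicator hD).comp (by fun_prop)
    exact h2.lintegral_prod_right'
  constructor
  · intro F hF
    simp only [lint_segM hA hF]
    exact AEMeasurable.tsum (h1 F hF)
  · intro F hF
    simp only [lint_segM hA hF]
    rw [lintegral_tsum (h1 F hF)]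
    have h2 : ∀ e, ∫⁻ a in D, w e * ∫⁻ σ in Ioc (0:ℝ) 1, (A e).indicator F (a + x e + σ • v e) =
        ∫⁻ y, F y * (w e * ((A e).indicator 1 y *
          ∫⁻ σ in Ioc (0:ℝ) 1, D.indicator 1 (y - (x e + σ • v e)))) := by
      intro e
      rw [lintegral_const_mul'', tonelli_seg hD _ _ (hF.indicator (hA e)).aemeasurable,
        ← lintegral_const_mul]
      · apply lintegral_congr
        intro y
        by_cases hy : y ∈ A e
        · simp only [indicator_of_mem hy, Pi.one_apply, one_mul]
          ring
        · simp only [indicator_of_notMem hy, zero_mul, mul_zero]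
      · exact (hF.indicator (hA e)).mul (hm0 e)
      · simp only [skf_eq]
        exact (Grid_392.aemeasurable_pc (ν := volume.restrict (Ioc (0:ℝ) 1))
          (γ := fun σ : ℝ => x e + σ • v e) (by fun_prop)
          (hF.indicator (hA e)).aemeasurable).restrict
    simp only [h2]
    rw [← lintegral_tsum, ← lintegral_const_mul _ hF]
    · apply lintegral_mono
      intro y
      simp only
      rw [ENNReal.tsum_mul_left, mul_comm]
      gcongr
      exact h y
    · intro e
      exact (hF.mul (((measurable_one.indicator (hA e)).mul (hm0 e)).const_mul _)).aemeasurable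

/-- sums of random measures -/
theorem RM.add {D : Set R3} {n n' : ℝ≥0∞} {μ μ' : R3 → Measure R3} (h : RM D n μ)
    (h' : RM D n' μ') : RM D (n + n') (fun a => μ a + μ' a) := by
  constructor
  · intro F hF
    simp only [lintegral_add_measure]
    exact (h.meas F hF).add (h'.meas F hF)
  · intro F hF
    simp only [lintegral_add_measure]
    rw [lintegral_add_left' (h.meas F hF), add_mul, add_mul]
    exact add_le_add (h.dens F hF) (h'.dens F hF)

/-- the number of vertices of the grid `h ℤ³` in a half open cube of side `N h` -/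
theorem card_lat {h : ℝ} (hh : 0 < h) (N : ℕ) (y : R3) :
    {k : Fin 3 → ℤ | y - ihom h k ∈ Dt (N * h)}.encard ≤ (N : ℕ∞) ^ 3 := by
  have h1 : {k : Fin 3 → ℤ | y - ihom h k ∈ Dt (N * h)} ⊆
      (Fintype.piFinset fun i => Finset.Ioc (⌊y i / h⌋ - (N : ℤ)) ⌊y i / h⌋ :
        Finset (Fin 3 → ℤ)) := by
    intro k hk
    rw [Finset.mem_coe, Fintype.mem_piFinset]
    intro i
    have h2 := hk i
    rw [PiLp.sub_apply, ihom_apply] at h2
    rw [Finset.mem_Ioc]
    constructor
    · rw [sub_lt_iff_lt_add, Int.floor_lt]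
      rw [div_lt_iff₀ hh]
      push_cast
      linarith [h2.2]
    · rw [Int.le_floor, le_div_iff₀ hh]
      linarith [h2.1]
  refine (encard_le_encard h1).trans ?_
  rw [Set.encard_coe_eq_coe_finsetCard, Fintype.card_piFinset]
  simp

/-- **grids of several scales `t / N j`**, cut to layers `A j` with overlap at most `K`; the weight of an
edge of length `h` is `h³` (times the parameter in `(0,1]`), i.e. `h²` times length: density `3 K`. -/
theorem rm_grids {J : Type*} [Countable J] {t : ℝ} (ht : 0 < t) (N : J → ℕ) (hN : ∀ j, 0 < N j)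
    {A : J → Set R3} (hA : ∀ j, MeasurableSet (A j)) {K : ℕ}
    (hK : ∀ y, {j | y ∈ A j}.encard ≤ K) :
    RM (Dt t) (3 * K) (segM (fun q : J × (Fin 3 → ℤ) × Fin 3 => gx (t / N q.1) q.2)
      (fun q => gv (t / N q.1) q.2) (fun q => ENNReal.ofReal ((t / N q.1) ^ 3))
      (fun q => A q.1)) := by
  classical
  refine rm_of (meas_Dt t) (fun q => hA q.1) fun y => ?_
  rw [vol_Dt ht, ENNReal.tsum_prod' (f := fun q : J × (Fin 3 → ℤ) × Fin 3 => _)]
  have h1 : ∀ j, ∑' q : (Fin 3 → ℤ) × Fin 3, ENNReal.ofReal ((t / N j) ^ 3) *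
      ((A j).indicator 1 y * ∫⁻ σ in Ioc (0:ℝ) 1, (Dt t).indicator 1
        (y - (gx (t / N j) q + σ • gv (t / N j) q))) ≤
      (A j).indicator 1 y * (3 * ENNReal.ofReal (t ^ 3)) := by
    intro j
    have hNj : (0:ℝ) < N j := by exact_mod_cast hN j
    have hh : 0 < t / N j := by positivity
    have hth : t = N j * (t / N j) := by field_simp
    set h := t / N j with hhdef
    rw [ENNReal.tsum_mul_left, ENNReal.tsum_mul_left, ENNReal.tsum_prod', ENNReal.tsum_comm,
      tsum_fintype]
    have h2 : ∀ i : Fin 3, ∑' k : Fin 3 → ℤ, ∫⁻ σ in Ioc (0:ℝ) 1, (Dt t).indicator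
        (1 : R3 → ℝ≥0∞) (y - (gx h (k, i) + σ • gv h (k, i))) ≤ (N j : ℝ≥0∞) ^ 3 := by
      intro i
      rw [← lintegral_tsum]
      · calc _ ≤ ∫⁻ σ in Ioc (0:ℝ) 1, (N j : ℝ≥0∞) ^ 3 := by
              apply lintegral_mono
              intro σ
              have h3 := card_lat hh (N j) (y - σ • (h • ed i))
              rw [← hth] at h3
              calc ∑' k : Fin 3 → ℤ, (Dt t).indicator (1 : R3 → ℝ≥0∞)
                    (y - (gx h (k, i) + σ • gv h (k, i)))
                  = ∑' k : Fin 3 → ℤ, {k : Fin 3 → ℤ | y - σ • (h • ed i) - ihom h k ∈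
                      Dt t}.indicator (1 : (Fin 3 → ℤ) → ℝ≥0∞) k := by
                    refine tsum_congr fun k => ?_
                    have h4 : y - (gx h (k, i) + σ • gv h (k, i)) =
                        y - σ • (h • ed i) - ihom h k := by
                      rw [gx, gv]; abel
                    rw [h4]
                    by_cases h5 : y - σ • (h • ed i) - ihom h k ∈ Dt t
                    · rw [indicator_of_mem h5, indicator_of_mem
                        (show k ∈ {k : Fin 3 → ℤ | y - σ • (h • ed i) - ihom h k ∈ Dt t} from h5)]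
                      rfl
                    · rw [indicator_of_notMem h5, indicator_of_notMem
                        (show k ∉ {k : Fin 3 → ℤ | y - σ • (h • ed i) - ihom h k ∈ Dt t} from h5)]
                _ = ({k : Fin 3 → ℤ | y - σ • (h • ed i) - ihom h k ∈ Dt t}.encard : ℝ≥0∞) := by
                    rw [← tsum_subtype, Pi.one_def, ENNReal.tsum_set_one]
                _ ≤ (((N j : ℕ∞) ^ 3 : ℕ∞) : ℝ≥0∞) := by exact_mod_cast h3
                _ = (N j : ℝ≥0∞) ^ 3 := by simp
        _ = (N j : ℝ≥0∞) ^ 3 := by simp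
      · intro k
        have h6 : Measurable (fun σ : ℝ => (Dt t).indicator (1 : R3 → ℝ≥0∞)
            (y - (gx h (k, i) + σ • gv h (k, i)))) :=
          (measurable_one.indicator (meas_Dt t)).comp (by fun_prop)
        exact h6.aemeasurable
    calc ENNReal.ofReal (h ^ 3) * ((A j).indicator 1 y * ∑ i : Fin 3, ∑' k : Fin 3 → ℤ,
          ∫⁻ σ in Ioc (0:ℝ) 1, (Dt t).indicator (1 : R3 → ℝ≥0∞)
            (y - (gx h (k, i) + σ • gv h (k, i))))
        ≤ ENNReal.ofReal (h ^ 3) * ((A j).indicator 1 y * ∑ i : Fin 3, (N j : ℝ≥0∞) ^ 3) := by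
          gcongr with i
          exact h2 i
      _ = (A j).indicator 1 y * (3 * ENNReal.ofReal (t ^ 3)) := by
          rw [Finset.sum_const, Finset.card_univ, Fintype.card_fin, nsmul_eq_mul]
          have h7 : ENNReal.ofReal (t ^ 3) = ENNReal.ofReal (h ^ 3) * (N j : ℝ≥0∞) ^ 3 := by
            rw [← ENNReal.ofReal_natCast, ← ENNReal.ofReal_pow (Nat.cast_nonneg _),
              ← ENNReal.ofReal_mul (by positivity)]
            congr 1
            calc t ^ 3 = (N j * h) ^ 3 := by rw [← hth]
              _ = h ^ 3 * (N j : ℝ) ^ 3 := by ring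
          rw [h7]
          push_cast
          ring
  calc _ ≤ ∑' j, (A j).indicator 1 y * (3 * ENNReal.ofReal (t ^ 3)) := ENNReal.tsum_le_tsum h1
    _ = ({j | y ∈ A j}.encard : ℝ≥0∞) * (3 * ENNReal.ofReal (t ^ 3)) := by
        rw [ENNReal.tsum_mul_right]
        congr 1
        have h8 : ∀ j, (A j).indicator (1 : R3 → ℝ≥0∞) y =
            {j | y ∈ A j}.indicator (1 : J → ℝ≥0∞) j := by
          intro j
          by_cases hj : y ∈ A j
          · rw [indicator_of_mem hj, indicator_of_mem (show j ∈ {j | y ∈ A j} from hj)]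
            rfl
          · rw [indicator_of_notMem hj, indicator_of_notMem (show j ∉ {j | y ∈ A j} from hj)]
        rw [tsum_congr h8, ← tsum_subtype, Pi.one_def, ENNReal.tsum_set_one]
    _ ≤ ((K : ℕ∞) : ℝ≥0∞) * (3 * ENNReal.ofReal (t ^ 3)) := by
        gcongr
        exact hK y
    _ = 3 * K * ENNReal.ofReal (t ^ 3) := by
        simp only [ENat.toENNReal_coe]
        ring

end

end Crest.Agent.R96.Coarse_538
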