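/-
helper538, row 96, bridge p ≤ 2, leaf LT: thick averages by Lebesgue differentiation.
-/
import Mathlib
import Crest.Agent.R96.Intr28_538

set_option autoImplicit false
set_option linter.unusedSectionVars false
set_option maxHeartbeats 400000

open MeasureTheory Set Filter Metric Module
open scoped ENNReal NNReal Topology

namespace Crest.Agent.R96.Coarse_538

open Crest.AnalysisR.VecCalc3 Crest.AnalysisR.Sobolev
open Crest.Agent.R96.Acl_392 Crest.Agent.R96.Lu_538 Crest.Agent.R96.Intr_538
open Crest.Agent.R96.Poi_392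

noncomputable section

/-- Tonelli for a translated measure `ν` -/
theorem tonelli_nu {ν : Measure R3} [SFinite ν] {D : Set R3} (hD : MeasurableSet D)
    {F : R3 → ℝ≥0∞} (hF : AEMeasurable F volume) :
    ∫⁻ a in D, ∫⁻ y, F (a + y) ∂ν = ∫⁻ z, F z * ν {y | z - y ∈ D} := by
  have hF1 : AEMeasurable (fun p : R3 × R3 => F (p.2 + p.1)) (ν.prod volume) :=
    Grid_392.aemeasurable_shear (ν := ν) (μ := volume) (γ := fun y : R3 => y) measurable_id hF
  have hF2 : AEMeasurable (fun p : R3 × R3 => F (p.1 + p.2)) (volume.prod ν) :=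
    hF1.prod_swap
  have hD1 : Measurable (fun p : R3 × R3 => D.indicator (1 : R3 → ℝ≥0∞) p.1) :=
    (measurable_one.indicator hD).comp measurable_fst
  calc ∫⁻ a in D, ∫⁻ y, F (a + y) ∂ν
      = ∫⁻ a, ∫⁻ y, D.indicator (1 : R3 → ℝ≥0∞) a * F (a + y) ∂ν := by
        rw [← lintegral_indicator hD]
        apply lintegral_congr
        intro a
        by_cases ha : a ∈ D
        · simp only [indicator_of_mem ha, Pi.one_apply, one_mul]
        · simp [indicator_of_notMem ha]
    _ = ∫⁻ y, (∫⁻ a, D.indicator (1 : R3 → ℝ≥0∞) a * F (a + y)) ∂ν := by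
        apply lintegral_lintegral_swap
        exact hD1.aemeasurable.mul hF2
    _ = ∫⁻ y, (∫⁻ z, D.indicator (1 : R3 → ℝ≥0∞) (z - y) * F z) ∂ν := by
        apply lintegral_congr
        intro y
        rw [← lintegral_add_right_eq_self
          (fun z => D.indicator (1 : R3 → ℝ≥0∞) (z - y) * F z) y]
        simp only [add_sub_cancel_right]
    _ = ∫⁻ z, ∫⁻ y, D.indicator (1 : R3 → ℝ≥0∞) (z - y) * F z ∂ν := by
        apply lintegral_lintegral_swap
        have h1 : Measurable (fun p : R3 × R3 => D.indicator (1 : R3 → ℝ≥0∞) (p.2 - p.1)) :=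
          (measurable_one.indicator hD).comp (by fun_prop)
        exact h1.aemeasurable.mul (hF.comp_quasiMeasurePreserving
          Measure.quasiMeasurePreserving_snd)
    _ = ∫⁻ z, F z * ν {y | z - y ∈ D} := by
        apply lintegral_congr
        intro z
        have h1 : Measurable (fun y : R3 => D.indicator (1 : R3 → ℝ≥0∞) (z - y)) :=
          (measurable_one.indicator hD).comp (by fun_prop)
        rw [lintegral_mul_const'' _ h1.aemeasurable, mul_comm]
        congr 1
        have h2 : MeasurableSet {y : R3 | z - y ∈ D} := hD.preimage (by fun_prop)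
        rw [← lintegral_indicator_one h2]
        rfl

/-- a thick set is controlled by translates -/
theorem thick_le {ν : Measure R3} [SFinite ν] {F : R3 → ℝ≥0∞} (hF : AEMeasurable F volume)
    {K : Set R3} {δ : ℝ} {m : ℝ≥0∞} (hK : ∀ k ∈ K, m ≤ ν (closedBall k δ)) (a : R3) :
    m * ∫⁻ y in thickening δ K, F (a + y) ≤
      ∫⁻ a' in closedBall a (2 * δ), ∫⁻ y, F (a' + y) ∂ν := by
  rw [tonelli_nu measurableSet_closedBall hF]
  have hT : MeasurableSet (thickening δ K) := isOpen_thickening.measurableSet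
  rw [← lintegral_indicator hT, ← lintegral_sub_right_eq_self
    ((thickening δ K).indicator fun y => F (a + y)) a]
  have hFm : AEMeasurable (fun z => (thickening δ K).indicator (fun y => F (a + y)) (z - a))
      volume := by
    have h1 : (fun z => (thickening δ K).indicator (fun y => F (a + y)) (z - a)) =
        {z | z - a ∈ thickening δ K}.indicator F := by
      funext z
      by_cases hz : z - a ∈ thickening δ K
      · rw [indicator_of_mem hz, indicator_of_mem
          (show z ∈ {z | z - a ∈ thickening δ K} from hz), add_sub_cancel]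
      · rw [indicator_of_notMem hz, indicator_of_notMem
          (show z ∉ {z | z - a ∈ thickening δ K} from hz)]
    rw [h1]
    exact hF.indicator (hT.preimage (by fun_prop))
  rw [← lintegral_const_mul'' _ hFm]
  apply lintegral_mono
  intro z
  simp only
  by_cases hz : z - a ∈ thickening δ K
  · rw [indicator_of_mem hz, add_sub_cancel, mul_comm]
    gcongr
    obtain ⟨k, hk, hkz⟩ := mem_thickening_iff.1 hz
    refine (hK k hk).trans (measure_mono ?_)
    intro y hy
    rw [mem_closedBall, dist_eq_norm] at hy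
    rw [dist_eq_norm] at hkz
    show z - y ∈ closedBall a (2 * δ)
    rw [mem_closedBall, dist_eq_norm]
    have h1 : z - y - a = (z - a - k) - (y - k) := by abel
    rw [h1]
    calc ‖z - a - k - (y - k)‖ ≤ ‖z - a - k‖ + ‖y - k‖ := norm_sub_le _ _
      _ ≤ 2 * δ := by linarith
  · rw [indicator_of_notMem hz, mul_zero]
    exact zero_le

/-- **THICK AVERAGES.** For almost every translate and every small `δ` the `δ`-neighbourhood of `K`
(`ν` is Ahlfors regular from below on `K`) has at most the mass of `ν` itself. -/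
theorem thick_leb {ν : Measure R3} [SFinite ν] {F : R3 → ℝ≥0∞} (hF : AEMeasurable F volume)
    {U : Set R3} (hU : IsOpen U) (hfin : ∫⁻ a in U, ∫⁻ y, F (a + y) ∂ν ≠ ∞) :
    ∀ᵐ a, a ∈ U → ∀ ε : ℝ≥0∞, 0 < ε → ∀ᶠ δ in 𝓝[>] (0:ℝ), ∀ (K : Set R3) (m : ℝ≥0∞),
      (∀ k ∈ K, m ≤ ν (closedBall k δ)) →
      m * ∫⁻ y in thickening δ K, F (a + y) ≤
        ((∫⁻ y, F (a + y) ∂ν) + ε) * volume (closedBall (0:R3) (2 * δ)) := by
  set H : R3 → ℝ≥0∞ := fun a => ∫⁻ y, F (a + y) ∂ν with hH
  have hHm : AEMeasurable H volume := by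
    have h1 := Grid_392.aemeasurable_pc (ν := ν) (γ := fun y : R3 => y) measurable_id hF
    exact h1
  have hH'm : AEMeasurable (U.indicator H) volume := hHm.indicator hU.measurableSet
  have hH'i : ∫⁻ a, U.indicator H a ≠ ∞ := by
    rw [lintegral_indicator hU.measurableSet]; exact hfin
  filter_upwards [(Besicovitch.vitaliFamily (volume : Measure R3)).ae_tendsto_lintegral_div
    hH'm hH'i] with a ha haU ε hε
  have h1 := ha.comp (Besicovitch.tendsto_filterAt (volume : Measure R3) a)
  have h2 : Tendsto (fun δ : ℝ => 2 * δ) (𝓝[>] 0) (𝓝[>] 0) := by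
    rw [tendsto_nhdsWithin_iff]
    constructor
    · have : Tendsto (fun δ : ℝ => 2 * δ) (𝓝 0) (𝓝 (2 * 0)) :=
        (continuous_const.mul continuous_id).tendsto 0
      rw [mul_zero] at this
      exact this.mono_left nhdsWithin_le_nhds
    · filter_upwards [self_mem_nhdsWithin] with δ hδ
      have : (0:ℝ) < δ := hδ
      show (0:ℝ) < 2 * δ
      linarith
  have h3 := h1.comp h2
  rw [indicator_of_mem haU] at h3
  obtain ⟨r, hr, hrU⟩ := Metric.isOpen_iff.1 hU a haU
  have h4 : ∀ᶠ δ : ℝ in 𝓝[>] 0, 2 * δ < r := by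
    have : ∀ᶠ δ : ℝ in 𝓝 0, 2 * δ < r := by
      apply (continuous_const.mul continuous_id).continuousAt.eventually_lt_const
      simpa using hr
    exact this.filter_mono nhdsWithin_le_nhds
  have h5 : ∀ᶠ δ : ℝ in 𝓝[>] 0, (∫⁻ a' in closedBall a (2 * δ), U.indicator H a') /
      volume (closedBall a (2 * δ)) ≤ H a + ε := by
    rcases eq_or_ne (H a) ∞ with h | h
    · rw [h]
      exact Eventually.of_forall fun _ => by simp
    · have h6 : H a < H a + ε := ENNReal.lt_add_right h hε.ne'
      exact (h3.eventually_lt_const h6).mono fun δ hδ => hδ.le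
  filter_upwards [h4, h5, self_mem_nhdsWithin] with δ hδr hδ5 hδ0 K m hK
  have hδ0' : (0:ℝ) < δ := hδ0
  refine (thick_le hF hK a).trans ?_
  have h7 : ∫⁻ a' in closedBall a (2 * δ), ∫⁻ y, F (a' + y) ∂ν =
      ∫⁻ a' in closedBall a (2 * δ), U.indicator H a' := by
    apply setLIntegral_congr_fun measurableSet_closedBall
    intro a' ha'
    have : a' ∈ U := hrU (closedBall_subset_ball hδr ha')
    simp only [indicator_of_mem this]
    rfl
  rw [h7]
  have h8 : volume (closedBall a (2 * δ)) = volume (closedBall (0:R3) (2 * δ)) :=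
    Measure.addHaar_closedBall_center _ _ _
  rw [← h8]
  rw [ENNReal.div_le_iff] at hδ5
  · exact hδ5
  · exact (measure_closedBall_pos volume a (by linarith)).ne'
  · exact measure_closedBall_lt_top.ne

/-- length of a segment in a ball around one of its points -/
theorem seg_ball {x v : R3} (hv : v ≠ 0) {δ : ℝ} (hδ : 0 < δ) (hδv : δ ≤ ‖v‖) {k : R3}
    (hk : k ∈ (fun σ : ℝ => x + σ • v) '' Icc 0 1) :
    ENNReal.ofReal (δ / ‖v‖) ≤
      ((volume.restrict (Ioc (0:ℝ) 1)).map (fun σ : ℝ => x + σ • v)) (closedBall k δ) := by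
  obtain ⟨σ₀, hσ₀, rfl⟩ := hk
  have hv0 : 0 < ‖v‖ := norm_pos_iff.2 hv
  rw [Measure.map_apply (by fun_prop) measurableSet_closedBall,
    Measure.restrict_apply' measurableSet_Ioc]
  set r := δ / ‖v‖ with hr
  have hr0 : 0 < r := by positivity
  have hr1 : r ≤ 1 := by rw [hr, div_le_one hv0]; exact hδv
  have hin : ∀ σ : ℝ, |σ - σ₀| ≤ r → x + σ • v ∈ closedBall (x + σ₀ • v) δ := by
    intro σ hσ
    rw [mem_closedBall, dist_eq_norm]
    have h1 : x + σ • v - (x + σ₀ • v) = (σ - σ₀) • v := by rw [sub_smul]; abel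
    rw [h1, norm_smul, Real.norm_eq_abs]
    rw [hr, le_div_iff₀ hv0] at hσ
    exact hσ
  have hlen : r ≤ min 1 (σ₀ + r) - max 0 (σ₀ - r) := by
    rcases le_total 1 (σ₀ + r) with h | h <;> rcases le_total 0 (σ₀ - r) with h' | h' <;>
      simp only [min_eq_left h, min_eq_right h, max_eq_left h', max_eq_right h'] <;>
      linarith [hσ₀.1, hσ₀.2]
  calc ENNReal.ofReal r ≤ ENNReal.ofReal (min 1 (σ₀ + r) - max 0 (σ₀ - r)) :=
        ENNReal.ofReal_le_ofReal hlen
    _ = volume (Ioc (max 0 (σ₀ - r)) (min 1 (σ₀ + r))) := by rw [Real.volume_Ioc]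
    _ ≤ _ := by
      apply measure_mono
      rintro σ ⟨h1, h2⟩
      have h3 := max_lt_iff.1 h1
      have h4 := le_min_iff.1 h2
      refine ⟨hin σ ?_, h3.1, h4.1⟩
      rw [abs_le]; constructor <;> linarith [h3.2, h4.2]

/-- **TUBES.** countably many segments `e`, countably many integrable functions `F j`: for almost every
translate `a` the mean of `F j` over the `δ`-tube around the segment `a + e` is at most
`C (∫_0^1 F j (a + x e + σ v e) dσ + ε)` for every small `δ`. -/
theorem tubes {κi J : Type*} [Countable κi] [Countable J] {x v : κi → R3}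
    (hv : ∀ e, v e ≠ 0) {F : J → R3 → ℝ≥0∞} (hF : ∀ j, AEMeasurable (F j) volume)
    (hi : ∀ j, ∫⁻ y, F j y ≠ ∞) :
    ∀ᵐ a, ∀ e j, ∀ ε : ℝ≥0∞, 0 < ε → ∀ᶠ δ in 𝓝[>] (0:ℝ),
      ∫⁻ y in thickening δ (seg x v a e), F j y ≤
        ENNReal.ofReal (64 * ‖v e‖ * δ ^ 2) *
          ((∫⁻ σ in Ioc (0:ℝ) 1, F j (a + x e + σ • v e)) + ε) := by
  rw [ae_all_iff]; intro e
  rw [ae_all_iff]; intro j
  set ν : Measure R3 := (volume.restrict (Ioc (0:ℝ) 1)).map (fun σ : ℝ => x e + σ • v e) with hν
  have hγ : Measurable (fun σ : ℝ => x e + σ • v e) := by fun_prop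
  -- measurable representative is not needed: `lintegral_map'`-free computation of `H`
  obtain ⟨F', hF'm, hFF'⟩ := hF j
  have hF'i : ∫⁻ y, F' y ≠ ∞ := by rw [← lintegral_congr_ae hFF']; exact hi j
  have hmap : ∀ a, ∫⁻ y, F' (a + y) ∂ν =
      ∫⁻ σ in Ioc (0:ℝ) 1, F' (a + x e + σ • v e) := by
    intro a
    rw [hν, lintegral_map (f := fun y => F' (a + y)) (hF'm.comp (measurable_const_add a)) hγ]
    simp only [add_assoc]
  have hfin : ∫⁻ a in (univ : Set R3), ∫⁻ y, F' (a + y) ∂ν ≠ ∞ := by
    rw [tonelli_nu MeasurableSet.univ hF'm.aemeasurable]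
    have h1 : ∀ z : R3, F' z * ν {y | z - y ∈ (univ : Set R3)} = F' z := by
      intro z
      have : {y : R3 | z - y ∈ (univ : Set R3)} = univ := by ext; simp
      rw [this, hν, Measure.map_apply hγ MeasurableSet.univ]
      simp
    simp only [h1]
    exact hF'i
  -- lines do not see the exceptional set
  have hline : ∀ᵐ a, ∫⁻ σ in Ioc (0:ℝ) 1, F j (a + x e + σ • v e) =
      ∫⁻ σ in Ioc (0:ℝ) 1, F' (a + x e + σ • v e) := by
    set Z := toMeasurable volume {y | F j y ≠ F' y} with hZ
    have hZ0 : volume Z = 0 := by rw [hZ, measure_toMeasurable]; exact hFF'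
    have hZm : MeasurableSet Z := measurableSet_toMeasurable _ _
    have h1 : ∫⁻ a, ∫⁻ σ in Ioc (0:ℝ) 1, Z.indicator (1 : R3 → ℝ≥0∞) (a + x e + σ • v e) = 0 := by
      rw [← setLIntegral_univ, tonelli_seg MeasurableSet.univ (x e) (v e)
        (measurable_one.indicator hZm).aemeasurable, lintegral_eq_zero_iff']
      · have h2 : ∀ᵐ z : R3, z ∉ Z := by rw [← measure_eq_zero_iff_ae_notMem]; exact hZ0
        filter_upwards [h2] with z hz
        rw [indicator_of_notMem hz, zero_mul]
        rfl
      · apply (measurable_one.indicator hZm).aemeasurable.mul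
        simp only [indicator_univ, Pi.one_apply]
        exact aemeasurable_const
    rw [lintegral_eq_zero_iff'] at h1
    · filter_upwards [h1] with a ha
      have h3 : ∫⁻ σ in Ioc (0:ℝ) 1, Z.indicator (1 : R3 → ℝ≥0∞) (a + x e + σ • v e) = 0 := ha
      have hm3 : Measurable (fun σ : ℝ => Z.indicator (1 : R3 → ℝ≥0∞) (a + x e + σ • v e)) :=
        (measurable_one.indicator hZm).comp (by fun_prop)
      rw [lintegral_eq_zero_iff hm3] at h3
      apply lintegral_congr_ae
      filter_upwards [h3] with σ hσ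
      have h4 : a + x e + σ • v e ∉ Z := by
        intro hmem
        rw [Pi.zero_apply] at hσ
        simp only [indicator_of_mem hmem, Pi.one_apply] at hσ
        exact one_ne_zero hσ
      by_contra hne
      exact h4 (subset_toMeasurable _ _ hne)
    · simp only [skf_eq]
      exact Grid_392.aemeasurable_pc (ν := volume.restrict (Ioc (0:ℝ) 1))
        (γ := fun σ : ℝ => x e + σ • v e) (by fun_prop)
        (measurable_one.indicator hZm).aemeasurable
  filter_upwards [thick_leb (ν := ν) hF'm.aemeasurable isOpen_univ hfin, hline] with a ha hla ε hε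
  have hve : 0 < ‖v e‖ := norm_pos_iff.2 (hv e)
  have h1 : ∀ᶠ δ : ℝ in 𝓝[>] 0, δ ≤ ‖v e‖ := by
    have : ∀ᶠ δ : ℝ in 𝓝 0, δ < ‖v e‖ := eventually_lt_nhds hve
    exact (this.filter_mono nhdsWithin_le_nhds).mono fun _ h => h.le
  filter_upwards [ha (mem_univ a) ε hε, h1, self_mem_nhdsWithin] with δ hδ hδv hδ0
  have hδ0' : (0:ℝ) < δ := hδ0
  set K : Set R3 := (fun σ : ℝ => x e + σ • v e) '' Icc 0 1 with hK
  have h2 := hδ K (ENNReal.ofReal (δ / ‖v e‖)) fun k hk => seg_ball (hv e) hδ0' hδv hk
  rw [hmap a, ← hla] at h2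
  -- the tube
  have h3 : ∫⁻ y in thickening δ (seg x v a e), F j y = ∫⁻ y in thickening δ K, F' (a + y) := by
    rw [lintegral_congr_ae (ae_restrict_of_ae hFF'), ← lintegral_indicator
      isOpen_thickening.measurableSet, ← lintegral_indicator isOpen_thickening.measurableSet,
      ← lintegral_add_left_eq_self _ a]
    apply lintegral_congr
    intro y
    have h4 : a + y ∈ thickening δ (seg x v a e) ↔ y ∈ thickening δ K := by
      rw [mem_thickening_iff, mem_thickening_iff]
      constructor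
      · rintro ⟨_, ⟨σ, hσ, rfl⟩, hd⟩
        refine ⟨_, ⟨σ, hσ, rfl⟩, ?_⟩
        rw [dist_eq_norm] at hd ⊢
        simp only at hd ⊢
        have : a + y - (a + x e + σ • v e) = y - (x e + σ • v e) := by abel
        rwa [this] at hd
      · rintro ⟨_, ⟨σ, hσ, rfl⟩, hd⟩
        refine ⟨_, ⟨σ, hσ, rfl⟩, ?_⟩
        rw [dist_eq_norm] at hd ⊢
        simp only at hd ⊢
        have : a + y - (a + x e + σ • v e) = y - (x e + σ • v e) := by abel
        rwa [this]
    by_cases h5 : y ∈ thickening δ K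
    · rw [indicator_of_mem h5, indicator_of_mem (h4.2 h5)]
    · rw [indicator_of_notMem h5, indicator_of_notMem fun h => h5 (h4.1 h)]
  rw [h3]
  set I := ∫⁻ y in thickening δ K, F' (a + y) with hI
  set X := (∫⁻ σ in Ioc (0:ℝ) 1, F j (a + x e + σ • v e)) + ε with hX
  have h5 : volume (closedBall (0:R3) (2 * δ)) ≤ ENNReal.ofReal (64 * δ ^ 3) := by
    calc volume (closedBall (0:R3) (2 * δ)) ≤ volume (cel Cb 0 (2 * δ)) := by
          apply measure_mono
          intro y hy
          rw [mem_closedBall, dist_zero_right] at hy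
          rw [mem_cel (by linarith)]
          intro i
          rw [PiLp.zero_apply, sub_zero]
          exact (norm_coord_le y i).trans hy
      _ = ENNReal.ofReal (64 * δ ^ 3) := by
          rw [vol_cel (by linarith)]
          congr 1
          ring
  have h6 : ENNReal.ofReal (δ / ‖v e‖) * I ≤ X * ENNReal.ofReal (64 * δ ^ 3) :=
    h2.trans (by gcongr)
  have hq : ENNReal.ofReal (‖v e‖ / δ) * ENNReal.ofReal (δ / ‖v e‖) = 1 := by
    rw [← ENNReal.ofReal_mul (by positivity)]
    have : ‖v e‖ / δ * (δ / ‖v e‖) = 1 := by field_simp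
    rw [this, ENNReal.ofReal_one]
  calc I = ENNReal.ofReal (‖v e‖ / δ) * (ENNReal.ofReal (δ / ‖v e‖) * I) := by
        rw [← mul_assoc, hq, one_mul]
    _ ≤ ENNReal.ofReal (‖v e‖ / δ) * (X * ENNReal.ofReal (64 * δ ^ 3)) := by gcongr
    _ = ENNReal.ofReal (‖v e‖ / δ) * ENNReal.ofReal (64 * δ ^ 3) * X := by ring
    _ = ENNReal.ofReal (64 * ‖v e‖ * δ ^ 2) * X := by
        rw [← ENNReal.ofReal_mul (by positivity)]
        congr 2
        field_simp

end

end Crest.Agent.R96.Coarse_538
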