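/-
helper538, row 96, p ≤ 2, (EL) = energy list of 753's `preIN_frame`, part 1: the concrete predicate `Els`
and the literals of the three class statements.  Definitions only.
-/
import Mathlib
import Crest.Agent.R096.Pas4_753
import Crest.Agent.R096.Cbs1_296
import Crest.Agent.R096.Cob5_622
import Crest.Agent.R096.Rmt4_816
import Crest.Agent.R096.Onf1_802

set_option autoImplicit false
set_option linter.unusedSectionVars false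
set_option linter.style.longLine false
set_option maxHeartbeats 400000

open MeasureTheory Set Filter Metric Module
open scoped ENNReal NNReal Topology

namespace Crest.Agent.R96.Eld_538

open Crest.AnalysisR.VecCalc3 (R3)
open Crest.Agent.R96.Coarse_538 (Cb vt)
open Crest.Agent.R96.Coarse_538 (Dt RM)
open Crest.Agent.R96.Intr_538 (cel)
open Crest.Agent.R096.Fce_793 (pt)
open Crest.Agent.R096.Msh_715 (P I Tiling)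
open Crest.Agent.R096.Mal_874 (CB)
open Crest.Agent.R096.Br_695 (En)
open Crest.Agent.R096.Sq_55 (E3 Sys FaceOf w2)
open Crest.Agent.R096.Cob_622 (EF)
open Crest.Agent.R096.Efi_296
open Crest.Agent.R096.Cbs_296 (SysOf)
open Crest.Agent.R096.Ca_855 (MIn)
open Crest.Agent.R096.Rmt_816 (Bj Cl2 Cl3)
open Crest.Agent.R096.Onf_802 (ON)
open Crest.Agent.R96.En10_199 (P3)
open Crest.Agent.R096.Pas_753 (ElsT)

noncomputable section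

variable {Om W : Set R3} {ρ₀ : R3 → ℝ} {J : Type} [Finite J] {Qb : J → CB R3 3} {k0 : ℕ} {σ : ℝ}

/-- **class (1)**: the outer tiles with distance more than `r / 2 ^ k0` (outer coordinates) from all
walls -/
def Cl1 (h : MIn Om W ρ₀ Qb k0 σ) (r : ℝ) (a : R3) (i : h.ιT a) : Prop :=
  (∀ j, ¬ P ((h.T a).H i) ⊆ (Bj h a j).N) ∧
    ∀ j, ∀ x ∈ P ((h.T a).H i), ∀ z ∈ frontier (Bj h a j).N,
      r / 2 ^ k0 < dist (P3.symm x) (P3.symm z)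

/-- **admissible energy data**: a system of tiles of `h.T a` with the `EF` data `D`; `mU` = numbers of
the outer tiles with distance more than `4 / 2 ^ k0` from the walls, `mN` = numbers of all tiles -/
structure AdE (p : ℝ) (h : MIn Om W ρ₀ Qb k0 σ) (G : Fin 3 → R3 → R3) (mU mN : ℝ≥0) (a : R3)
    (s : Finset (h.ιT a)) (pr : (Te (h.T a)).Cell → Prop) (c : h.ιT a → E3) (R : h.ιT a → ℝ≥0)
    (ρ : E3 → ℝ≥0) (m : h.ιT a → ℝ≥0) (X : Sys s (reps (Te (h.T a)) s pr))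
    (D : EF X Om (En p G) (EgS (Te (h.T a)) s) (FcS (Te (h.T a)) s pr)) : Prop where
  sys : SysOf (Te (h.T a)) s pr c R ρ m X
  fc : ∀ b, D.fc b = w2 '' b.1.set
  rim : ∀ x, D.rimE x = rimS (Te (h.T a)) s (x : E3)
  Ee : ∀ b : EgS (Te (h.T a)) s, ∀ y w : R3, w2 '' b.1.set = segment ℝ y (y + w) →
    D.Ee b ≤ ENNReal.ofReal (64 * ‖w‖) * ∫⁻ t in Ioc (0:ℝ) 1, En p G (y + t • w)
  Ef : ∀ b : FcS (Te (h.T a)) s pr, ∀ (e : Fin 2 → R3) (y : R3) (Q : Set (ℝ × ℝ)), ON e →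
    MeasurableSet Q → w2 '' b.1.set = pt e y '' Q →
    D.Ef b ≤ 64 * ∫⁻ w in Q, En p G (pt e y w)
  ρle : ∀ x ∈ reps (Te (h.T a)) s pr, ∀ k ∈ s, k ∈ (Te (h.T a)).at_ x → ρ x ≤ m k * R k
  mle : ∀ k ∈ s, m k ≤ mN
  mleU : ∀ k ∈ s, Cl1 h 4 a k → m k ≤ mU
  Rd : ∀ k ∈ s, ∃ y ∈ P ((h.T a).H k), ∃ y' ∈ P ((h.T a).H k), (R k : ℝ) ≤ mN * ‖y - y'‖
  RdU : ∀ k ∈ s, Cl1 h 4 a k →
    ∃ y ∈ P ((h.T a).H k), ∃ y' ∈ P ((h.T a).H k), (R k : ℝ) ≤ mU * ‖y - y'‖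
  Re : ∀ k ∈ s, ∀ x ∈ P ((h.T a).H k), (h.T a).dim x = 1 → ∀ y w : R3,
    (h.T a).cc x = segment ℝ y (y + w) → (R k : ℝ) ≤ mN * ‖w‖

/-- **THE ENERGY LIST at one position** -/
def Els : ElsT := fun p Om W ρ₀ J _ Qb k0 σ h G JQ mU Cu mN Rl e₀ a =>
  ∀ (s : Finset (h.ιT a)) (pr : (Te (h.T a)).Cell → Prop) (c : h.ιT a → E3) (R : h.ιT a → ℝ≥0)
    (ρ : E3 → ℝ≥0) (m : h.ιT a → ℝ≥0) (X : Sys s (reps (Te (h.T a)) s pr))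
    (D : EF X Om (En p G) (EgS (Te (h.T a)) s) (FcS (Te (h.T a)) s pr)),
    AdE p h G mU mN a s pr c R ρ m X D → ∀ K : ℝ≥0, K ≤ 2 →
    (∀ s₁ : Finset s, (∀ k ∈ s₁, ∀ j ∈ JQ, ¬ P ((h.T a).H k) ⊆ ((Qb j).tr a).N) →
      ∑ k ∈ s₁, ENNReal.ofReal (Crest.Agent.R096.Cob_622.CB p K (X.m k)) * D.J k ≤
        Cu * (∫⁻ x in Om \ ⋃ j ∈ JQ, ((Qb j).tr a).Kc, En p G x) + ENNReal.ofReal e₀) ∧
    (∀ s₂ : Finset s, (∀ k ∈ s₂, ∃ j ∈ JQ, ∃ x ∈ P ((h.T a).H k),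
        ∃ z ∈ frontier ((Qb j).tr a).N, ‖(Qb j).ψ x - (Qb j).ψ z‖ ≤ Rl / 2 ^ k0) →
      ∑ k ∈ s₂, ENNReal.ofReal (Crest.Agent.R096.Cob_622.CB p K (X.m k)) * D.J k ≤
        ENNReal.ofReal e₀)

/-- **class statement (1)**: universal constants -/
def Cls1 : Prop :=
  ∀ mU : ℝ≥0, ∃ C n nc : ℝ, 0 < C ∧ 0 < n ∧ 0 < nc ∧
  ∀ {Om W : Set R3} {ρ₀ : R3 → ℝ} {J : Type} [Finite J] {Qb : J → CB R3 3} {k0 : ℕ} {σ : ℝ}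
    (h : MIn Om W ρ₀ Qb k0 σ), ∃ μ : R3 → Measure R3,
    RM (Dt (1 / 2 ^ k0)) (ENNReal.ofReal n) μ ∧
    (∀ a ∈ Dt (1 / 2 ^ k0), ∀ (z : R3) (s' : ℝ), 1 / 2 ^ k0 ≤ s' →
      μ a (cel Cb z s') ≤ ENNReal.ofReal (nc * (2 * s') ^ 3)) ∧
    ∀ (p : ℝ) (G : Fin 3 → R3 → R3) (mN : ℝ≥0), ∀ a ∈ Dt (1 / 2 ^ k0),
    ∀ (s : Finset (h.ιT a)) (pr : (Te (h.T a)).Cell → Prop) (c : h.ιT a → E3) (R : h.ιT a → ℝ≥0)
      (ρ : E3 → ℝ≥0) (m : h.ιT a → ℝ≥0) (X : Sys s (reps (Te (h.T a)) s pr))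
      (D : EF X Om (En p G) (EgS (Te (h.T a)) s) (FcS (Te (h.T a)) s pr)),
      AdE p h G mU mN a s pr c R ρ m X D →
    ∀ K : Finset s, (∀ k ∈ K, Cl1 h 4 a k) → ∀ S : Set R3, MeasurableSet S →
      (∀ k ∈ K, ∀ i : h.ιT a, (P ((h.T a).H k) ∩ P ((h.T a).H i)).Nonempty →
        P ((h.T a).H i) ⊆ S) →
      ∑ k ∈ K, D.J k ≤ ENNReal.ofReal C * ∫⁻ y in S, En p G y ∂μ a

/-- **class statement (2)**: the tiles near the walls, constants from `κ r mN Bs Nn` -/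
def Cls2 : Prop :=
  ∀ (κ r : ℝ) (mN : ℝ≥0) (Bs Nn : ℕ), 0 < κ → κ ≤ 1 → 7 ≤ r →
  ∃ C n nc θ : ℝ, 0 < C ∧ 0 < n ∧ 0 < nc ∧ 0 < θ ∧
  ∀ {Om W : Set R3} {ρ₀ : R3 → ℝ} {J : Type} [Finite J] {Qb : J → CB R3 3} {k0 : ℕ} {σ : ℝ}
    (h : MIn Om W ρ₀ Qb k0 σ), (∀ j, MIn.BQ κ Bs Nn (Qb j) k0) → 1 / 2 ^ k0 ≤ θ * σ →
    ∃ μ : R3 → Measure R3, RM (Dt (1 / 2 ^ k0)) (ENNReal.ofReal n) μ ∧
    (∀ a ∈ Dt (1 / 2 ^ k0), ∀ (z : R3) (s' : ℝ), 1 / 2 ^ k0 ≤ s' →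
      μ a (cel Cb z s') ≤ ENNReal.ofReal (nc * (2 * s') ^ 3)) ∧
    ∀ (p : ℝ) (G : Fin 3 → R3 → R3) (mU : ℝ≥0), ∀ a ∈ Dt (1 / 2 ^ k0),
    ∀ (s : Finset (h.ιT a)) (pr : (Te (h.T a)).Cell → Prop) (c : h.ιT a → E3) (R : h.ιT a → ℝ≥0)
      (ρ : E3 → ℝ≥0) (m : h.ιT a → ℝ≥0) (X : Sys s (reps (Te (h.T a)) s pr))
      (D : EF X Om (En p G) (EgS (Te (h.T a)) s) (FcS (Te (h.T a)) s pr)),
      AdE p h G mU mN a s pr c R ρ m X D →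
    ∀ K : Finset s, (∀ k ∈ K, Cl2 h r a k) → ∀ S : Set R3, MeasurableSet S →
      (∀ k ∈ K, ∀ i : h.ιT a, (P ((h.T a).H k) ∩ P ((h.T a).H i)).Nonempty →
        P ((h.T a).H i) ⊆ S) →
      ∑ k ∈ K, D.J k ≤ ENNReal.ofReal C * ∫⁻ y in S, En p G y ∂μ a

/-- **class statement (3)**: the tiles inside the blocks; `Mr` bounds the quotient of the coarsest scale
of the blocks and of `2 ^ (-k0)` -/
def Cls3 : Prop :=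
  ∀ (κ Mr hh : ℝ) (mN : ℝ≥0) (Bs Nn : ℕ), 0 < κ → κ ≤ 1 → 0 < Mr → 0 < hh →
  ∃ C n nc : ℝ, 0 < C ∧ 0 < n ∧ 0 < nc ∧
  ∀ {Om W : Set R3} {ρ₀ : R3 → ℝ} {J : Type} [Finite J] {Qb : J → CB R3 3} {k0 : ℕ} {σ : ℝ}
    (h : MIn Om W ρ₀ Qb k0 σ), (∀ j, MIn.BQ κ Bs Nn (Qb j) k0) →
    (∀ j, 1 / 2 ^ (Qb j).kc ≤ Mr * (1 / 2 ^ k0)) →
    ∃ μ : R3 → Measure R3, RM (Dt (1 / 2 ^ k0)) (ENNReal.ofReal n) μ ∧
    (∀ a ∈ Dt (1 / 2 ^ k0), ∀ (z : R3) (s' : ℝ), 0 < s' → 1 / 2 ^ k0 ≤ s' →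
      (∀ j, 1 / 2 ^ (Qb j).kc ≤ hh * s') →
      μ a (cel Cb z s') ≤ ENNReal.ofReal (nc * (2 * s') ^ 3)) ∧
    ∀ (p : ℝ) (G : Fin 3 → R3 → R3) (mU : ℝ≥0), ∀ a ∈ Dt (1 / 2 ^ k0),
    ∀ (s : Finset (h.ιT a)) (pr : (Te (h.T a)).Cell → Prop) (c : h.ιT a → E3) (R : h.ιT a → ℝ≥0)
      (ρ : E3 → ℝ≥0) (m : h.ιT a → ℝ≥0) (X : Sys s (reps (Te (h.T a)) s pr))
      (D : EF X Om (En p G) (EgS (Te (h.T a)) s) (FcS (Te (h.T a)) s pr)),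
      AdE p h G mU mN a s pr c R ρ m X D →
    ∀ K : Finset s, (∀ k ∈ K, Cl3 h a k ∧
        ∀ i : h.ιT a, (P ((h.T a).H k) ∩ P ((h.T a).H i)).Nonempty → Cl3 h a i) →
      ∀ S : Set R3, MeasurableSet S →
      (∀ k ∈ K, ∀ i : h.ιT a, (P ((h.T a).H k) ∩ P ((h.T a).H i)).Nonempty →
        P ((h.T a).H i) ⊆ S) →
      ∑ k ∈ K, D.J k ≤ ENNReal.ofReal C * ∫⁻ y in S, En p G y ∂μ a

/-- the energy of a face in a linearly independent frame -/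
theorem AdE.Ef_li {p : ℝ} {h : MIn Om W ρ₀ Qb k0 σ} {G : Fin 3 → R3 → R3} {mU mN : ℝ≥0} {a : R3}
    {s : Finset (h.ιT a)} {pr : (Te (h.T a)).Cell → Prop} {c : h.ιT a → E3} {R : h.ιT a → ℝ≥0}
    {ρ : E3 → ℝ≥0} {m : h.ιT a → ℝ≥0} {X : Sys s (reps (Te (h.T a)) s pr)}
    {D : EF X Om (En p G) (EgS (Te (h.T a)) s) (FcS (Te (h.T a)) s pr)}
    (H : AdE p h G mU mN a s pr c R ρ m X D) (b : FcS (Te (h.T a)) s pr) {e : Fin 2 → R3}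
    (he : LinearIndependent ℝ e) (y : R3) {Q : Set (ℝ × ℝ)} (hQ : MeasurableSet Q)
    (hb : w2 '' b.1.set = pt e y '' Q) :
    D.Ef b ≤ ENNReal.ofReal (64 * (‖e 0‖ * ‖e 1‖)) * ∫⁻ w in Q, En p G (pt e y w) := by
  obtain ⟨e', he1, he2, ar, har, harle, hex⟩ := Crest.Agent.R096.Onf_802.exists_on he
  have he' : ON e' := ⟨he1 0, he1 1, he2⟩
  obtain ⟨Q', h1, h2, h3, h4⟩ := hex y Q
  have h5 := H.Ef b e' y Q' he' (h2 hQ) (hb.trans h3)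
  rw [h4] at h5
  refine h5.trans ?_
  rw [← mul_assoc]
  refine mul_le_mul' ?_ le_rfl
  rw [show (64 : ℝ≥0∞) = ENNReal.ofReal 64 by norm_num, ← ENNReal.ofReal_mul (by norm_num)]
  exact ENNReal.ofReal_le_ofReal (by linarith)

end

end Crest.Agent.R96.Eld_538
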