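import Crest.Agent.R096.Msh6_810
import Crest.Agent.R96.Sg8_199

/-!
# Row 96, PREMACH (S1) of 199 #10700: multiplicity of the outer Whitney mesh

Outer mesh: Whitney cubes of a FIXED size function `D.ρ` (constant `D.C`) on a shifted dyadic grid.
Potential tiles = all cubes `Tw φ a₀ s z` (frame `φ`, base shift `a₀`); the cube is used for the
shift `b` only if `b ∈ Aw ...`. The multiplicity `Mu` of 199 is at most `3 vol ball`.
-/

set_option autoImplicit false

open MeasureTheory Set Filter Metric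
open scoped Topology ENNReal Pointwise

namespace Crest.Agent.R96.Wm_72

open Crest.Agent.R096.Msh_810
open Crest.Agent.R96.Sg8_199 (Mu EnA Mu_le_ball)

noncomputable section

variable {n : ℕ}

/-- the region of scale `s` (closed cubes) -/
def Zr (D : Dat n) (s : ℕ) : Set (Fin n → ℝ) :=
  {x | D.C ≤ 2 ^ s * D.ρ x ∧ 2 ^ s * D.ρ x < 2 * D.C + 3}

theorem measurableSet_Zr (D : Dat n) (s : ℕ) : MeasurableSet (Zr D s) := by
  have hc : Measurable fun x => (2 : ℝ) ^ s * D.ρ x := D.continuous_ρ.measurable.const_mul _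
  exact (measurableSet_le measurable_const hc).inter (measurableSet_lt hc measurable_const)

theorem Zr_pos {D : Dat n} {s : ℕ} {x : Fin n → ℝ} (h : x ∈ Zr D s) : 0 < D.ρ x := by
  have h1 := h.1
  have h2 := D.C_pos
  rcases (D.nonneg x).eq_or_lt with h3 | h3
  · rw [← h3, mul_zero] at h1; linarith
  · exact h3

/-- every point is in at most three regions -/
theorem encard_Zr (D : Dat n) (x : Fin n → ℝ) : {s | x ∈ Zr D s}.encard ≤ 3 := by
  by_cases hne : {s | x ∈ Zr D s}.Nonempty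
  · set m := sInf {s | x ∈ Zr D s} with hm
    have hmm : x ∈ Zr D m := Nat.sInf_mem hne
    have hsub : {s | x ∈ Zr D s} ⊆ (Finset.Icc m (m + 2) : Finset ℕ) := by
      intro s hs
      have h1 : m ≤ s := Nat.sInf_le hs
      rw [Finset.coe_Icc]
      refine ⟨h1, ?_⟩
      by_contra h2
      push Not at h2
      have h3 : (2 : ℝ) ^ (m + 3) ≤ 2 ^ s := pow_le_pow_right₀ one_le_two (by omega)
      have h4 : (2 : ℝ) ^ (m + 3) * D.ρ x ≤ 2 ^ s * D.ρ x :=
        mul_le_mul_of_nonneg_right h3 (D.nonneg x)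
      have h5 : (2 : ℝ) ^ (m + 3) * D.ρ x = 8 * (2 ^ m * D.ρ x) := by rw [pow_add]; ring
      have h6 := hmm.1
      have h7 := hs.2
      have h8 := D.hC
      linarith
    refine (encard_le_encard hsub).trans ?_
    rw [encard_coe_eq_coe_finsetCard, Nat.card_Icc, show m + 2 + 1 - m = 3 by omega]
    rfl
  · rw [not_nonempty_iff_eq_empty.1 hne]; simp

/-- a closed cube of the mesh lies in the region of its scale -/
theorem IsM_sub_Zr {D : Dat n} {s : ℕ} {z : Fin n → ℤ} (h : IsM D ⟨s, z, Finset.univ⟩) :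
    Cu D.a s z ⊆ Zr D s := by
  intro y hy
  refine ⟨h.lower hy, ?_⟩
  obtain ⟨x, hx, hx0, hK⟩ := h
  have h1 := K_upper hx0
  rw [hK] at h1
  have h2 := dist_le_of_mem_Cu hy (Do_subset_Dc _ _ hx)
  have h3 := D.lip y x
  have h4 : (0 : ℝ) < 2 ^ s := by positivity
  have h5 : 2 ^ s * D.ρ y ≤ 2 ^ s * D.ρ x + 2 ^ s * dist y x := by
    rw [← mul_add]; exact mul_le_mul_of_nonneg_left h3 h4.le
  have h6 : 2 ^ s * D.ρ x < 2 * D.C + 2 := h1
  linarith

variable {E : Type*} [NormedAddCommGroup E] [NormedSpace ℝ E]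

/-- potential tiles of the outer mesh -/
def Tw (φ : E ≃L[ℝ] (Fin n → ℝ)) (a₀ : Fin n → ℝ) (s : ℕ) (z : Fin n → ℤ) : Set E :=
  φ ⁻¹' Cu a₀ s z

/-- total shifts for which the potential tile may be used: the translate lies in the region of its
scale -/
def Aw (φ : E ≃L[ℝ] (Fin n → ℝ)) (D : Dat n) (a₀ : Fin n → ℝ) (r : ℝ) (s : ℕ) (z : Fin n → ℤ) :
    Set E := {b | ‖b‖ ≤ r ∧ ∀ y ∈ Tw φ a₀ s z, φ (y + b) ∈ Zr D s}

variable {φ : E ≃L[ℝ] (Fin n → ℝ)} {D : Dat n} {a₀ : Fin n → ℝ} {r : ℝ} {s : ℕ} {z : Fin n → ℤ}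

/-- translation of a tile -/
theorem Tw_tr (φ : E ≃L[ℝ] (Fin n → ℝ)) (a₀ : Fin n → ℝ) (s : ℕ) (z : Fin n → ℤ) (b : E) :
    φ ⁻¹' Cu (a₀ + φ b) s z = (fun y => y + b) '' Tw φ a₀ s z := by
  ext x
  rw [image_add_right]
  unfold Tw
  rw [mem_preimage, mem_preimage, mem_preimage, mem_Cu, mem_Cu]
  refine forall_congr' fun i => ?_
  have e : ps (a₀ + φ b) s (φ x) i = ps a₀ s (φ (x + -b)) i := by
    unfold ps
    rw [map_add, map_neg]
    simp only [Pi.add_apply, Pi.neg_apply]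
    ring
  rw [e]

/-- **the tiles of the mesh with shift `a₀ + φ b` are active potential tiles** (`D'` = any data with
the same size function and constant) -/
theorem mem_Aw {D' : Dat n} (hρ : D'.ρ = D.ρ) (hC : D'.C = D.C) {b : E} (ha : D'.a = a₀ + φ b)
    (hb : ‖b‖ ≤ r) (h : IsM D' ⟨s, z, Finset.univ⟩) : b ∈ Aw φ D a₀ r s z := by
  refine ⟨hb, fun y hy => ?_⟩
  have h1 : φ (y + b) ∈ Cu D'.a s z := by
    have : y + b ∈ φ ⁻¹' Cu (a₀ + φ b) s z := by
      rw [Tw_tr]; exact ⟨y, hy, rfl⟩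
    rw [ha]; exact this
  have h2 := IsM_sub_Zr h h1
  unfold Zr at h2 ⊢
  rw [mem_ofPred_eq] at h2 ⊢
  rw [← hρ, ← hC]
  exact h2

theorem isCompact_Tw : IsCompact (Tw φ a₀ s z) :=
  φ.toHomeomorph.isCompact_preimage.2 (isCompact_Dc _ _)

/-- the translates of active tiles lie in the region of their scale -/
theorem Aw_sub {y b : E} (hy : y ∈ Tw φ a₀ s z) (hb : b ∈ Aw φ D a₀ r s z) :
    y + b ∈ φ ⁻¹' Zr D s := hb.2 y hy

theorem isClosed_Zlow (D : Dat n) (s : ℕ) : IsClosed {x : Fin n → ℝ | D.C ≤ 2 ^ s * D.ρ x} :=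
  isClosed_le continuous_const (continuous_const.mul D.continuous_ρ)

theorem isOpen_Zup (D : Dat n) (s : ℕ) : IsOpen {x : Fin n → ℝ | 2 ^ s * D.ρ x < 2 * D.C + 3} :=
  isOpen_lt (continuous_const.mul D.continuous_ρ) continuous_const

theorem measurableSet_Aw [MeasurableSpace E] [BorelSpace E] :
    MeasurableSet (Aw φ D a₀ r s z) := by
  have e : Aw φ D a₀ r s z = closedBall 0 r ∩
      ((⋂ y ∈ Tw φ a₀ s z, (fun b => φ (y + b)) ⁻¹' {x | D.C ≤ 2 ^ s * D.ρ x}) ∩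
        ((φ ⁻¹' {x | 2 ^ s * D.ρ x < 2 * D.C + 3}ᶜ) + (-(Tw φ a₀ s z)))ᶜ) := by
    ext b
    rw [mem_inter_iff, mem_inter_iff, mem_closedBall_zero_iff, mem_iInter₂]
    refine and_congr_right fun _ => ?_
    constructor
    · intro h
      refine ⟨fun y hy => (h y hy).1, ?_⟩
      rintro ⟨u, hu, v, hv, rfl⟩
      have h1 := (h (-v) hv).2
      have e1 : -v + (u + v) = u := by rw [add_comm u v, neg_add_cancel_left]
      simp only at h1
      rw [e1] at h1
      exact hu h1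
    · rintro ⟨h1, h2⟩ y hy
      refine ⟨h1 y hy, ?_⟩
      by_contra h3
      apply h2
      refine ⟨y + b, fun h4 => h3 h4, -y, ?_, by simp⟩
      rw [Set.mem_neg, neg_neg]
      exact hy
  rw [e]
  refine isClosed_closedBall.measurableSet.inter (MeasurableSet.inter ?_ ?_)
  · refine IsClosed.measurableSet (isClosed_biInter fun y _ => ?_)
    exact (isClosed_Zlow D s).preimage (φ.continuous.comp (continuous_const.add continuous_id))
  · refine MeasurableSet.compl (IsClosed.measurableSet ?_)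
    exact IsClosed.add_right_of_isCompact
      ((isOpen_Zup D s).isClosed_compl.preimage φ.continuous) isCompact_Tw.neg

theorem measurableSet_Tw [MeasurableSpace E] [BorelSpace E] : MeasurableSet (Tw φ a₀ s z) :=
  isCompact_Tw.isClosed.measurableSet

/-- diameter of the tiles -/
theorem Tw_dist {c : ℝ} (hc0 : 0 ≤ c) (hc : ∀ x y : E, dist x y ≤ c * dist (φ x) (φ y)) {y y' : E}
    (hy : y ∈ Tw φ a₀ s z) (hy' : y' ∈ Tw φ a₀ s z) : dist y' y ≤ c / 2 ^ s := by
  have h1 := dist_le_of_mem_Cu (show φ y' ∈ Cu a₀ s z from hy') (show φ y ∈ Cu a₀ s z from hy)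
  have h2 : (0 : ℝ) < 2 ^ s := by positivity
  rw [le_div_iff₀' h2]
  calc 2 ^ s * dist y' y ≤ 2 ^ s * (c * dist (φ y') (φ y)) :=
        mul_le_mul_of_nonneg_left (hc _ _) h2.le
    _ = c * (2 ^ s * dist (φ y') (φ y)) := by ring
    _ ≤ c * 1 := mul_le_mul_of_nonneg_left h1 hc0
    _ = c := mul_one c

section meas

variable [FiniteDimensional ℝ E] [MeasurableSpace E] [BorelSpace E] {μ : Measure E}
  [μ.IsAddHaarMeasure]

/-- hyperplanes are null -/
theorem hyper_null (φ : E ≃L[ℝ] (Fin n → ℝ)) (i : Fin n) (c : ℝ) : μ {x | φ x i = c} = 0 := by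
  rcases eq_empty_or_nonempty {x | φ x i = c} with h | ⟨x₀, hx₀⟩
  · rw [h, measure_empty]
  · set f : E →ₗ[ℝ] ℝ := (LinearMap.proj i).comp (φ : E →L[ℝ] (Fin n → ℝ)).toLinearMap with hf
    have hfx : ∀ x, f x = φ x i := fun x => rfl
    have hne : LinearMap.ker f ≠ ⊤ := by
      intro h
      have h1 : φ.symm (Pi.single i 1) ∈ LinearMap.ker f := h ▸ Submodule.mem_top
      rw [LinearMap.mem_ker, hfx, φ.apply_symm_apply, Pi.single_eq_same] at h1
      exact one_ne_zero h1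
    have h2 : {x | φ x i = c} ⊆ (AffineSubspace.mk' x₀ (LinearMap.ker f) : Set E) := by
      intro x hx
      rw [SetLike.mem_coe, AffineSubspace.mem_mk', LinearMap.mem_ker, vsub_eq_sub, map_sub, hfx,
        hfx, show φ x i = c from hx, show φ x₀ i = c from hx₀, sub_self]
    refine measure_mono_null h2 (Measure.addHaar_affineSubspace μ _ ?_)
    intro h3
    apply hne
    have := congrArg AffineSubspace.direction h3
    rwa [AffineSubspace.direction_mk', AffineSubspace.direction_top] at this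

/-- different tiles of the same scale are a.e. disjoint -/
theorem Tw_aedisj (φ : E ≃L[ℝ] (Fin n → ℝ)) (a₀ : Fin n → ℝ) (s : ℕ) {z z' : Fin n → ℤ}
    (h : z ≠ z') : AEDisjoint μ (Tw φ a₀ s z) (Tw φ a₀ s z') := by
  obtain ⟨i, hi⟩ : ∃ i, z i ≠ z' i := Function.ne_iff.1 h
  have key : ∀ u v : Fin n → ℤ, u i < v i → μ (Tw φ a₀ s u ∩ Tw φ a₀ s v) = 0 := by
    intro u v huv
    have h2 : (2 : ℝ) ^ s ≠ 0 := by positivity
    refine measure_mono_null ?_ (hyper_null (μ := μ) φ i (a₀ i + v i / 2 ^ s))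
    rintro x ⟨hx, hx'⟩
    have e1 := (mem_Cu.1 hx i).2
    have e2 := (mem_Cu.1 hx' i).1
    have e3 : (u i : ℝ) + 1 ≤ v i := by exact_mod_cast huv
    have e4 : ps a₀ s (φ x) i = v i := le_antisymm (e1.trans e3) e2
    show φ x i = a₀ i + v i / 2 ^ s
    unfold ps at e4
    field_simp
    linarith
  rcases lt_or_gt_of_ne hi with h1 | h1
  · exact key z z' h1
  · unfold AEDisjoint
    rw [inter_comm]
    exact key z' z h1

omit [NormedSpace ℝ E] [FiniteDimensional ℝ E] [μ.IsAddHaarMeasure] [BorelSpace E] in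
/-- monotonicity of the multiplicity -/
theorem Mu_mono {τ τ' : Type*} {Til Ac : τ → Set E} {Til' Ac' : τ' → Set E} (g : τ → τ')
    (hg : Function.Injective g) (hT : ∀ t, Til t = Til' (g t)) (hA : ∀ t, Ac t ⊆ Ac' (g t))
    (x : E) : Mu μ Til Ac x ≤ Mu μ Til' Ac' x := by
  unfold Mu
  refine le_trans (ENNReal.tsum_le_tsum fun t => ?_)
    (ENNReal.tsum_comp_le_tsum_of_injective hg
      fun i => {z : E | ∃ y ∈ Til' i, z - y ∈ Ac' i}.indicator (fun _ => μ (Til' i)) x)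
  rw [hT t]
  refine indicator_le_indicator_of_subset ?_ (fun _ => bot_le) x
  rintro w ⟨y, hy, hb⟩
  exact ⟨y, hy, hA t hb⟩

/-- **WHITNEY MULTIPLICITY** (pointwise): `φ` a frame with `dist ≤ c dist ∘ φ`, shifts `‖b‖ ≤ r` -/
theorem Mu_le_pt {c : ℝ} (hc0 : 0 ≤ c) (hc : ∀ x y : E, dist x y ≤ c * dist (φ x) (φ y)) (x : E) :
    Mu μ (fun q : Σ _ : ℕ, (Fin n → ℤ) => Tw φ a₀ q.1 q.2) (fun q => Aw φ D a₀ r q.1 q.2) x ≤
      3 * μ (closedBall (0 : E) (r + c * (D.ρ (φ x) / D.C))) := by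
  classical
  rw [Sg8_199.Mu_sigma]
  have hfin : {s | φ x ∈ Zr D s}.Finite :=
    Set.finite_of_encard_le_coe (k := 3) (by exact_mod_cast encard_Zr D (φ x))
  have h0 : ∀ s ∉ hfin.toFinset,
      Mu μ (fun i : Fin n → ℤ => Tw φ a₀ s i) (fun i => Aw φ D a₀ r s i) x = 0 := by
    intro s hs
    rw [Set.Finite.mem_toFinset] at hs
    unfold Mu
    refine ENNReal.tsum_eq_zero.2 fun i => indicator_of_notMem ?_ _
    rintro ⟨y, hy, hb⟩
    apply hs
    have := Aw_sub hy hb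
    rwa [add_sub_cancel] at this
  rw [tsum_eq_sum h0]
  calc ∑ s ∈ hfin.toFinset,
        Mu μ (fun i : Fin n → ℤ => Tw φ a₀ s i) (fun i => Aw φ D a₀ r s i) x
      ≤ ∑ _s ∈ hfin.toFinset, μ (closedBall (0 : E) (r + c * (D.ρ (φ x) / D.C))) := by
        refine Finset.sum_le_sum fun s hs => ?_
        rw [Set.Finite.mem_toFinset] at hs
        have h1 : Mu μ (fun i : Fin n → ℤ => Tw φ a₀ s i) (fun i => Aw φ D a₀ r s i) x ≤
            μ (closedBall x (r + c / 2 ^ s)) :=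
          Mu_le_ball (fun i => measurableSet_Tw) (fun i j hij => Tw_aedisj φ a₀ s hij)
            (fun i y hy y' hy' => Tw_dist hc0 hc hy hy') (fun i w hw => hw.1) x
        rw [Measure.addHaar_closedBall_center μ x] at h1
        refine h1.trans (measure_mono (closedBall_subset_closedBall ?_))
        have h2 : (0 : ℝ) < 2 ^ s := by positivity
        have h3 : 1 / 2 ^ s ≤ D.ρ (φ x) / D.C := by
          rw [div_le_div_iff₀ h2 D.C_pos]
          have := hs.1
          linarith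
        have h4 : c / 2 ^ s = c * (1 / 2 ^ s) := by ring
        rw [h4]
        have := mul_le_mul_of_nonneg_left h3 hc0
        linarith
    _ = hfin.toFinset.card * μ (closedBall (0 : E) (r + c * (D.ρ (φ x) / D.C))) := by
        rw [Finset.sum_const, nsmul_eq_mul]
    _ ≤ _ := by
        gcongr
        have h1 := encard_Zr D (φ x)
        rw [hfin.encard_eq_coe_toFinset_card] at h1
        exact_mod_cast h1

/-- **WHITNEY MULTIPLICITY**, for any family of potential tiles `t ↦ Tw (sc t) (zc t)` -/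
theorem Mu_le {τ : Type*} {Til Ac : τ → Set E} (sc : τ → ℕ) (zc : τ → Fin n → ℤ)
    (hinj : ∀ t t', sc t = sc t' → zc t = zc t' → t = t')
    (hT : ∀ t, Til t = Tw φ a₀ (sc t) (zc t)) (hA : ∀ t, Ac t ⊆ Aw φ D a₀ r (sc t) (zc t))
    {c : ℝ} (hc0 : 0 ≤ c) (hc : ∀ x y : E, dist x y ≤ c * dist (φ x) (φ y)) {δ : ℝ}
    {x : E} (hδ : D.ρ (φ x) ≤ δ) :
    Mu μ Til Ac x ≤ 3 * μ (closedBall (0 : E) (r + c * (δ / D.C))) := by
  refine (Mu_mono (μ := μ) (fun t => (⟨sc t, zc t⟩ : Σ _ : ℕ, (Fin n → ℤ)))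
    (fun t t' h => ?_) hT hA x).trans ((Mu_le_pt (μ := μ) (a₀ := a₀) (r := r) hc0 hc x).trans ?_)
  · have h1 : sc t = sc t' := congrArg Sigma.fst h
    have h2 : zc t = zc t' := congrArg (fun q : Σ _ : ℕ, (Fin n → ℤ) => q.2) h
    exact hinj t t' h1 h2
  · gcongr
    exact D.C_pos.le

/-- balls of comparable radii -/
theorem ball_ratio {r t R : ℝ} (ht : 0 ≤ t) (h : R ≤ t * r) :
    μ (closedBall (0 : E) (r + R)) ≤
      ENNReal.ofReal ((1 + t) ^ Module.finrank ℝ E) * μ (closedBall (0 : E) r) := by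
  rw [← Measure.addHaar_closedBall_mul_of_pos μ (0 : E) (show (0 : ℝ) < 1 + t by linarith) r]
  exact measure_mono (closedBall_subset_closedBall (by linarith))

/-- **AVERAGE OF THE ENERGY OF THE OUTER CLASS** over all shifts: region `φ ⁻¹' Om`, multiplicity
`3 vol ball` -/
theorem outer_avg {τ η : Type*} [Countable τ] {Til Ac : τ → Set E} (sc : τ → ℕ)
    (zc : τ → Fin n → ℤ) (hinj : ∀ t t', sc t = sc t' → zc t = zc t' → t = t')
    (hT : ∀ t, Til t = Tw φ a₀ (sc t) (zc t)) (hA : ∀ t, Ac t ⊆ Aw φ D a₀ r (sc t) (zc t))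
    (hAm : ∀ t, MeasurableSet (Ac t)) {c : ℝ} (hc0 : 0 ≤ c)
    (hc : ∀ x y : E, dist x y ≤ c * dist (φ x) (φ y)) {δ : ℝ} (hδ : ∀ x, D.ρ x ≤ δ)
    (Ed : τ → Finset η) {m : ℕ} (hn : ∀ i, (Ed i).card ≤ m)
    (x v : η → E) (hsub : ∀ i, ∀ j ∈ Ed i, Sg1_199.sgm (x j) (v j) ⊆ Til i) (β : τ → ℝ≥0∞)
    {G : η → E → ℝ≥0∞} (hG : ∀ j, Measurable (G j)) {H : E → ℝ≥0∞} {cc : η → ℝ≥0∞}
    (hGH : ∀ᵐ z ∂μ, ∀ i, ∀ j ∈ Ed i, G j z ≤ cc j * H z) {K : ℝ≥0∞} (hK : K ≠ ∞)
    (hβ : ∀ i, ∀ j ∈ Ed i, β i * cc j ≤ K) {p : ℝ} (hp : 1 ≤ p) :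
    ∫⁻ a, EnA μ Til Ac Ed β G x v p a ∂μ ≤
      (m * K) ^ p * (3 * μ (closedBall (0 : E) (r + c * (δ / D.C)))) *
        ∫⁻ z in φ ⁻¹' D.Om, H z ^ p ∂μ := by
  have hOm : MeasurableSet (φ ⁻¹' D.Om) :=
    ((isOpen_lt continuous_const D.continuous_ρ).preimage φ.continuous).measurableSet
  refine Sg8_199.act_avg hAm Ed hn x v hsub β hG hGH hK hβ hOm ?_ ?_ ?_ hp
  · intro i y hy b hb
    rw [hT i] at hy
    exact Zr_pos (Aw_sub hy (hA i hb))
  · exact ENNReal.mul_ne_top (by norm_num) measure_closedBall_lt_top.ne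
  · intro z _
    exact Mu_le sc zc hinj hT hA hc0 hc (hδ _)

end meas

end

end Crest.Agent.R96.Wm_72
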