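/-
helper538, row 96, p ≤ 2: energies on the edges of the tiles of a mesh.
* `sum_tiles_le`: sums over the tiles of a finite set against one random measure `segM`;
* `rm_outer`: the random measure of a graded dyadic mesh of `R3` (all scales);
* `outer_sum`: both together.
-/
import Mathlib
import Crest.Agent.R96.Intr28_538
import Crest.Agent.R96.Wm1_72

set_option autoImplicit false
set_option linter.unusedSectionVars false
set_option maxHeartbeats 400000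

open MeasureTheory Set Filter Metric Module
open scoped ENNReal NNReal Topology

namespace Crest.Agent.R96.Rmo_538

open Crest.AnalysisR.VecCalc3 (R3)
open Crest.Agent.R96.Intr_538 Crest.Agent.R96.Coarse_538
open Crest.Agent.R096.Msh_810 (Dat Cu ps mem_Cu)
open Crest.Agent.R96.Wm_72 (Zr measurableSet_Zr encard_Zr)

noncomputable section

/-- **sums over tiles**: `Ed i` = edges (indices) of the tile `i`, each contained in the region of its
class and in `S`; an edge belongs to at most `m` tiles. -/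
theorem sum_tiles_le {ιe ιt : Type*} {x v : ιe → R3} {w : ιe → ℝ≥0∞} {A : ιe → Set R3}
    (hA : ∀ e, MeasurableSet (A e)) {a : R3} {s : Finset ιt} {Ed : ιt → Finset ιe} {S : Set R3}
    (hS : MeasurableSet S)
    (hsub : ∀ i ∈ s, ∀ e ∈ Ed i, ∀ σ ∈ Ioc (0:ℝ) 1, a + x e + σ • v e ∈ A e ∩ S) {m : ℕ}
    (hm : ∀ e, ∀ s' ⊆ s, (∀ i ∈ s', e ∈ Ed i) → s'.card ≤ m)
    {g : R3 → ℝ≥0∞} (hg : Measurable g) :
    ∑ i ∈ s, ∑ e ∈ Ed i, w e * ∫⁻ σ in Ioc (0:ℝ) 1, g (a + x e + σ • v e) ≤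
      m * ∫⁻ y in S, g y ∂(segM x v w A a) := by
  classical
  have h1 : ∫⁻ y in S, g y ∂(segM x v w A a) =
      ∑' e, w e * ∫⁻ σ in Ioc (0:ℝ) 1, (A e).indicator (S.indicator g) (a + x e + σ • v e) := by
    rw [← lintegral_indicator hS, lint_segM hA (hg.indicator hS)]
  set I' : ιe → ℝ≥0∞ := fun e =>
    ∫⁻ σ in Ioc (0:ℝ) 1, (A e).indicator (S.indicator g) (a + x e + σ • v e) with hI'
  have h2 : ∀ i ∈ s, ∀ e ∈ Ed i,
      ∫⁻ σ in Ioc (0:ℝ) 1, g (a + x e + σ • v e) = I' e := by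
    intro i hi e he
    refine setLIntegral_congr_fun measurableSet_Ioc fun σ hσ => ?_
    have h3 := hsub i hi e he σ hσ
    rw [indicator_of_mem h3.1, indicator_of_mem h3.2]
  rw [h1]
  calc ∑ i ∈ s, ∑ e ∈ Ed i, w e * ∫⁻ σ in Ioc (0:ℝ) 1, g (a + x e + σ • v e)
      = ∑ i ∈ s, ∑' e, (if e ∈ Ed i then w e * I' e else 0) := by
        refine Finset.sum_congr rfl fun i hi => ?_
        rw [tsum_eq_sum (s := Ed i) (fun e he => by rw [if_neg he])]
        refine Finset.sum_congr rfl fun e he => ?_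
        rw [if_pos he, h2 i hi e he]
    _ = ∑' e, ∑ i ∈ s, (if e ∈ Ed i then w e * I' e else 0) :=
        (Summable.tsum_finsetSum fun i _ => ENNReal.summable).symm
    _ ≤ ∑' e, (m : ℝ≥0∞) * (w e * I' e) := by
        refine ENNReal.tsum_le_tsum fun e => ?_
        rw [← Finset.sum_filter, Finset.sum_const, nsmul_eq_mul]
        refine mul_le_mul' ?_ le_rfl
        exact_mod_cast hm e _ (Finset.filter_subset _ _) fun i hi => (Finset.mem_filter.1 hi).2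
    _ = m * ∑' e, w e * I' e := ENNReal.tsum_mul_left

/-! ### the graded outer mesh -/

/-- the region of the grid of scale `κ`: points of regions `Zr D s` with `κ = s` or `κ = s + 1` -/
def Zg (φ : R3 ≃L[ℝ] (Fin 3 → ℝ)) (D : Dat 3) (κ : ℕ) : Set R3 :=
  φ ⁻¹' ⋃ s ∈ {s : ℕ | κ = s ∨ κ = s + 1}, Zr D s

theorem meas_Zg (φ : R3 ≃L[ℝ] (Fin 3 → ℝ)) (D : Dat 3) (κ : ℕ) : MeasurableSet (Zg φ D κ) :=
  (MeasurableSet.biUnion (to_countable _) fun s _ => measurableSet_Zr D s).preimage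
    φ.continuous.measurable

theorem mem_Zg {φ : R3 ≃L[ℝ] (Fin 3 → ℝ)} {D : Dat 3} {κ : ℕ} {y : R3} :
    y ∈ Zg φ D κ ↔ ∃ s, (κ = s ∨ κ = s + 1) ∧ φ y ∈ Zr D s := by
  simp only [Zg, mem_preimage, mem_iUnion, exists_prop, mem_ofPred_eq]

/-- every point lies in at most six of these regions -/
theorem encard_Zg (φ : R3 ≃L[ℝ] (Fin 3 → ℝ)) (D : Dat 3) (K0 : ℕ) (y : R3) :
    {j : ℕ | y ∈ Zg φ D (K0 + j)}.encard ≤ (6 : ℕ) := by
  have h1 : {j : ℕ | y ∈ Zg φ D (K0 + j)} ⊆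
      (fun s => s - K0) '' {s | φ y ∈ Zr D s} ∪ (fun s => s + 1 - K0) '' {s | φ y ∈ Zr D s} := by
    intro j hj
    obtain ⟨s, h | h, hs⟩ := mem_Zg.1 hj
    · exact Or.inl ⟨s, hs, by simp only; omega⟩
    · exact Or.inr ⟨s, hs, by simp only; omega⟩
  have h3 : (3 : ℕ∞) + 3 = ((6 : ℕ) : ℕ∞) := rfl
  refine (encard_le_encard h1).trans ((encard_union_le _ _).trans ?_)
  rw [← h3]
  exact add_le_add ((encard_image_le _ _).trans (encard_Zr D _))
    ((encard_image_le _ _).trans (encard_Zr D _))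

/-- length of the edges of scale `K0 + j` -/
def hs (K0 j : ℕ) : ℝ := ((2:ℝ) ^ K0)⁻¹ / ((2 ^ j : ℕ) : ℝ)

theorem hs_pos (K0 j : ℕ) : 0 < hs K0 j := by unfold hs; positivity

theorem hs_mul (K0 j : ℕ) : (2:ℝ) ^ (K0 + j) * hs K0 j = 1 := by
  unfold hs
  push_cast
  rw [pow_add]
  field_simp

/-- **the random measure of the graded mesh** with shift `a`: the grids of the scales `K0 + j` in
their regions, an edge of length `h` has the weight `h³` -/
def muO (φ : R3 ≃L[ℝ] (Fin 3 → ℝ)) (D : Dat 3) (K0 : ℕ) (a : R3) : Measure R3 :=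
  segM (fun q : ℕ × (Fin 3 → ℤ) × Fin 3 => gx (hs K0 q.1) q.2)
    (fun q => gv (hs K0 q.1) q.2) (fun q => ENNReal.ofReal (hs K0 q.1 ^ 3))
    (fun q => Zg φ D (K0 + q.1)) a

/-- **density of the graded mesh** -/
theorem rm_outer (φ : R3 ≃L[ℝ] (Fin 3 → ℝ)) (D : Dat 3) (K0 : ℕ) :
    RM (Dt ((2:ℝ) ^ K0)⁻¹) 18 (muO φ D K0) := by
  have h := rm_grids (J := ℕ) (t := ((2:ℝ) ^ K0)⁻¹) (by positivity) (fun j => 2 ^ j)
    (fun j => by positivity) (A := fun j => Zg φ D (K0 + j)) (fun j => meas_Zg φ D _)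
    (K := 6) (fun y => encard_Zg φ D K0 y)
  have e : (3 * ((6 : ℕ) : ℝ≥0∞)) = 18 := by norm_num
  rw [e] at h
  exact h

/-- the number of closed cubes of the scale `k` through one point -/
theorem card_cubes (a : Fin 3 → ℝ) (k : ℕ) (p : Fin 3 → ℝ) :
    {z : Fin 3 → ℤ | p ∈ Cu a k z} ⊆
      (Fintype.piFinset fun i => Finset.Icc (⌈ps a k p i⌉ - 1) ⌊ps a k p i⌋ :
        Finset (Fin 3 → ℤ)) := by
  intro z hz
  rw [Finset.mem_coe, Fintype.mem_piFinset]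
  intro i
  obtain ⟨h1, h2⟩ := mem_Cu.1 hz i
  rw [Finset.mem_Icc]
  constructor
  · rw [sub_le_iff_le_add, Int.ceil_le]
    push_cast
    exact h2
  · exact Int.le_floor.2 h1

theorem card_cubes_le (a : Fin 3 → ℝ) (k : ℕ) (p : Fin 3 → ℝ) :
    (Fintype.piFinset fun i => Finset.Icc (⌈ps a k p i⌉ - 1) ⌊ps a k p i⌋ :
        Finset (Fin 3 → ℤ)).card ≤ 8 := by
  rw [Fintype.card_piFinset]
  calc ∏ i : Fin 3, (Finset.Icc (⌈ps a k p i⌉ - 1) ⌊ps a k p i⌋).card ≤ ∏ _i : Fin 3, 2 := by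
        refine Finset.prod_le_prod' fun i _ => ?_
        rw [Int.card_Icc]
        have h := Int.floor_le_ceil (ps a k p i)
        omega
    _ = 8 := by simp

/-- **sums over the tiles of the graded mesh** -/
theorem outer_sum {ιt : Type*} {φ : R3 ≃L[ℝ] (Fin 3 → ℝ)} {D : Dat 3} {K0 : ℕ} {a : R3}
    {c : Fin 3 → ℝ} (s : Finset ιt) (kk : ιt → ℕ) (zz : ιt → Fin 3 → ℤ)
    (hinj : ∀ i ∈ s, ∀ j ∈ s, kk i = kk j → zz i = zz j → i = j)
    (hZ : ∀ i ∈ s, Cu c (kk i) (zz i) ⊆ Zr D (kk i))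
    (Ed : ιt → Finset (ℕ × (Fin 3 → ℤ) × Fin 3))
    (hEk : ∀ i ∈ s, ∀ q ∈ Ed i, K0 + q.1 = kk i ∨ K0 + q.1 = kk i + 1)
    (hEd : ∀ i ∈ s, ∀ q ∈ Ed i, ∀ σ ∈ Icc (0:ℝ) 1,
      φ (a + gx (hs K0 q.1) q.2 + σ • gv (hs K0 q.1) q.2) ∈ Cu c (kk i) (zz i))
    {S : Set R3} (hS : MeasurableSet S) (hSs : ∀ i ∈ s, φ ⁻¹' Cu c (kk i) (zz i) ⊆ S)
    {g : R3 → ℝ≥0∞} (hg : Measurable g) :
    ∑ i ∈ s, ∑ q ∈ Ed i, ENNReal.ofReal (hs K0 q.1 ^ 3) *
      ∫⁻ σ in Ioc (0:ℝ) 1, g (a + gx (hs K0 q.1) q.2 + σ • gv (hs K0 q.1) q.2) ≤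
      16 * ∫⁻ y in S, g y ∂(muO φ D K0 a) := by
  classical
  have key := sum_tiles_le (x := fun q : ℕ × (Fin 3 → ℤ) × Fin 3 => gx (hs K0 q.1) q.2)
    (v := fun q => gv (hs K0 q.1) q.2) (w := fun q => ENNReal.ofReal (hs K0 q.1 ^ 3))
    (A := fun q => Zg φ D (K0 + q.1)) (fun q => meas_Zg φ D _) (a := a) (s := s) (Ed := Ed)
    (S := S) hS (fun i hi q hq σ hσ => ?_) (m := 16) (fun q s' hs' hq' => ?_) (g := g) hg
  · exact_mod_cast key
  · have h1 := hEd i hi q hq σ ⟨hσ.1.le, hσ.2⟩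
    exact ⟨mem_Zg.2 ⟨kk i, hEk i hi q hq, hZ i hi h1⟩, hSs i hi h1⟩
  · -- the tiles which contain the first point of the edge
    set p := φ (a + gx (hs K0 q.1) q.2) with hp
    set F : ℕ → Finset (Fin 3 → ℤ) := fun k =>
      Fintype.piFinset fun i => Finset.Icc (⌈ps c k p i⌉ - 1) ⌊ps c k p i⌋ with hF
    have h0 : ∀ i ∈ s, q ∈ Ed i → p ∈ Cu c (kk i) (zz i) := by
      intro i hi hq
      have := hEd i hi q hq 0 ⟨le_rfl, zero_le_one⟩
      rwa [zero_smul, add_zero] at this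
    have h1 : s'.card ≤
        (((Finset.Icc (K0 + q.1 - 1) (K0 + q.1)).sigma F)).card := by
      refine Finset.card_le_card_of_injOn (fun i => ⟨kk i, zz i⟩) ?_ ?_
      · intro i hi
        have hi := Finset.mem_coe.1 hi
        rw [Finset.mem_coe, Finset.mem_sigma]
        refine ⟨?_, ?_⟩
        · rw [Finset.mem_Icc]
          rcases hEk i (hs' hi) q (hq' i hi) with h | h <;> simp only <;> omega
        · exact card_cubes c _ p (h0 i (hs' hi) (hq' i hi))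
      · intro i hi j hj hij
        have hi := Finset.mem_coe.1 hi
        have hj := Finset.mem_coe.1 hj
        simp only [Sigma.mk.injEq] at hij
        exact hinj i (hs' hi) j (hs' hj) hij.1 (eq_of_heq hij.2)
    refine h1.trans ?_
    rw [Finset.card_sigma]
    calc ∑ k ∈ Finset.Icc (K0 + q.1 - 1) (K0 + q.1), (F k).card
        ≤ ∑ _k ∈ Finset.Icc (K0 + q.1 - 1) (K0 + q.1), 8 :=
          Finset.sum_le_sum fun k _ => card_cubes_le c k p
      _ ≤ 16 := by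
          rw [Finset.sum_const, smul_eq_mul, Nat.card_Icc]
          omega

end

end Crest.Agent.R96.Rmo_538
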