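/-
helper538, row 96, p ≤ 2, COMPOSITE B (622): (S) the sum over the cells of the functional `J`
against random measures on the edges and on the unsqueezed faces.
-/
import Mathlib
import Crest.Agent.R96.Rmo1_538
import Crest.Agent.R096.Efi2_296
import Crest.Agent.R096.Rmg1_793
import Crest.Agent.R096.Fsl8_793

set_option autoImplicit false
set_option linter.unusedSectionVars false
set_option maxHeartbeats 400000

open MeasureTheory Set Filter Metric Module
open scoped ENNReal NNReal Topology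

namespace Crest.Agent.R96.Sjt_538

open Crest.AnalysisR.VecCalc3 (R3)
open Crest.Agent.R96.Coarse_538 (seg segM)
open Crest.Agent.R096.Fce_793 (pt)
open Crest.Agent.R096.Rmg_793 (trM)
open Crest.Agent.R096.Fsl_793 (fcM)

noncomputable section

/-- **sums over tiles**, any measures (no measurability of `g`) -/
theorem sum_meas_le {ιe ιt : Type*} {ν : ιe → Measure R3} {A : ιe → Set R3}
    {s : Finset ιt} {Ed : ιt → Finset ιe} {S : Set R3} (hS : MeasurableSet S)
    (hsub : ∀ i ∈ s, ∀ e ∈ Ed i, ∀ᵐ y ∂ν e, y ∈ A e ∩ S) {m : ℕ}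
    (hm : ∀ e, ∀ s' ⊆ s, (∀ i ∈ s', e ∈ Ed i) → s'.card ≤ m) (g : R3 → ℝ≥0∞) :
    ∑ i ∈ s, ∑ e ∈ Ed i, ∫⁻ y, g y ∂ν e ≤
      m * ∫⁻ y in S, g y ∂(Measure.sum fun e => (ν e).restrict (A e)) := by
  classical
  have h1 : ∫⁻ y in S, g y ∂(Measure.sum fun e => (ν e).restrict (A e)) =
      ∑' e, ∫⁻ y, g y ∂((ν e).restrict (A e)).restrict S := by
    rw [Measure.restrict_sum _ hS, lintegral_sum_measure]
  have h2 : ∀ i ∈ s, ∀ e ∈ Ed i, ∫⁻ y, g y ∂ν e = ∫⁻ y, g y ∂((ν e).restrict (A e)).restrict S := by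
    intro i hi e he
    have h3 := hsub i hi e he
    have h4 : (ν e).restrict (A e) = ν e :=
      Measure.restrict_eq_self_of_ae_mem (h3.mono fun y hy => hy.1)
    have h5 : (ν e).restrict S = ν e :=
      Measure.restrict_eq_self_of_ae_mem (h3.mono fun y hy => hy.2)
    rw [h4, h5]
  rw [h1]
  set I' : ιe → ℝ≥0∞ := fun e => ∫⁻ y, g y ∂((ν e).restrict (A e)).restrict S with hI'
  calc ∑ i ∈ s, ∑ e ∈ Ed i, ∫⁻ y, g y ∂ν e
      = ∑ i ∈ s, ∑' e, (if e ∈ Ed i then I' e else 0) := by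
        refine Finset.sum_congr rfl fun i hi => ?_
        rw [tsum_eq_sum (s := Ed i) (fun e he => by rw [if_neg he])]
        refine Finset.sum_congr rfl fun e he => ?_
        rw [if_pos he, h2 i hi e he]
    _ = ∑' e, ∑ i ∈ s, (if e ∈ Ed i then I' e else 0) :=
        (Summable.tsum_finsetSum fun i _ => ENNReal.summable).symm
    _ ≤ ∑' e, (m : ℝ≥0∞) * I' e := by
        refine ENNReal.tsum_le_tsum fun e => ?_
        rw [← Finset.sum_filter, Finset.sum_const, nsmul_eq_mul]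
        refine mul_le_mul' ?_ le_rfl
        exact_mod_cast hm e _ (Finset.filter_subset _ _) fun i hi => (Finset.mem_filter.1 hi).2
    _ = m * ∑' e, I' e := ENNReal.tsum_mul_left

theorem emb_seg {v : R3} (hv : v ≠ 0) (c : R3) : MeasurableEmbedding (fun σ : ℝ => c + σ • v) := by
  have h1 : Topology.IsClosedEmbedding (LinearMap.toSpanSingleton ℝ R3 v) :=
    LinearMap.isClosedEmbedding_of_injective (LinearMap.ker_toSpanSingleton ℝ hv)
  have h2 : Topology.IsClosedEmbedding (fun σ : ℝ => c + σ • v) :=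
    (Homeomorph.addLeft c).isClosedEmbedding.comp h1
  exact h2.measurableEmbedding

theorem emb_pt {e : Fin 2 → R3} (he : LinearIndependent ℝ e) (c : R3) :
    MeasurableEmbedding (pt e c) := by
  let L : ℝ × ℝ →ₗ[ℝ] R3 :=
    { toFun := fun w => w.1 • e 0 + w.2 • e 1
      map_add' := fun w w' => by simp only [Prod.fst_add, Prod.snd_add, add_smul]; abel
      map_smul' := fun r w => by
        simp only [Prod.smul_fst, Prod.smul_snd, smul_eq_mul, mul_smul, RingHom.id_apply,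
          smul_add] }
  have hL : ∀ w, L w = w.1 • e 0 + w.2 • e 1 := fun _ => rfl
  have hker : LinearMap.ker L = ⊥ := by
    rw [LinearMap.ker_eq_bot']
    intro w hw
    rw [hL] at hw
    have h1 := Fintype.linearIndependent_iff.1 he ![w.1, w.2] (by
      rw [Fin.sum_univ_two]; simpa using hw)
    exact Prod.ext (by simpa using h1 0) (by simpa using h1 1)
  have h1 : Topology.IsClosedEmbedding L := LinearMap.isClosedEmbedding_of_injective hker
  have h2 : Topology.IsClosedEmbedding (pt e c) :=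
    (Homeomorph.addLeft c).isClosedEmbedding.comp h1
  exact h2.measurableEmbedding

/-- the measure of a face, translated -/
theorem fc_map {κf : Type*} (x : κf → R3) (e : κf → Fin 2 → R3) (Q : κf → Set (ℝ × ℝ))
    (w : κf → ℝ≥0∞) (φ : κf) (a : R3) :
    (fcM x e Q w φ).map (fun y => a + y) =
      w φ • ((volume.restrict (Q φ)).map (pt (e φ) (a + x φ))) := by
  have h1 : Measurable (pt (e φ) (x φ)) := Crest.Agent.R096.Fsl_793.measurable_pt _ _
  rw [fcM, Measure.map_smul, Measure.map_map (by fun_prop) h1]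
  congr 2
  funext u
  simp only [Function.comp, pt]
  abel

section

open Crest.Agent.R096.Msh_715 (P I Tiling)
open Crest.Agent.R096.Sq_55 (E3 Sys FaceOf w2)
open Crest.Agent.R096.Cob_622 (EF)
open Crest.Agent.R096.Efi_296
open Crest.Agent.R096.Fce_793 (cc)

variable {Om : Set E3} {ι : Type*} {T : Tiling Om ι}

/-- the edges of the tile `k` -/
def Ek (T : Tiling Om ι) (s : Finset ι) (k : ι) : Set (EgS T s) := {c | c.1.set ⊆ P (T.H k)}

open Classical in
/-- **(S)**: the sum over a set `K` of tiles of the functional `J` -/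
theorem sum_J_le {s : Finset ι} {pr : T.Cell → Prop} {X : Sys s (reps T s pr)} {Om' : Set R3}
    {g : R3 → ℝ≥0∞} (D : EF X Om' g (EgS T s) (FcS T s pr)) {c : ι → E3}
    (hc : ∀ i, c i ∈ I (T.H i)) (hXF : ∀ x : reps T s pr, FaceOf T c (x : E3) (X.F x))
    (hXP : ∀ k : s, (X.C k).P = P (T.H k)) (hfc : ∀ b, D.fc b = w2 '' b.1.set)
    (hrE : ∀ x, D.rimE x = rimS T s (x : E3))
    {κe κf : Type*} {x v : κe → R3} {a : R3} {e : κf → Fin 2 → R3} {xx : κf → R3}
    {Q : κf → Set (ℝ × ℝ)} {me : EgS T s → κe} {mf : FcS T s pr → κf}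
    (hme : ∀ c, w2 '' c.1.set = seg x v a (me c)) (hv : ∀ c, v (me c) ≠ 0)
    (hmf : ∀ c, w2 '' c.1.set = pt (e (mf c)) (a + xx (mf c)) '' Q (mf c))
    (he : ∀ c, LinearIndependent ℝ (e (mf c)))
    (hQ : ∀ c, MeasurableSet (Q (mf c)))
    (hEe : ∀ c, D.Ee c = ENNReal.ofReal (64 * ‖v (me c)‖) *
      ∫⁻ σ in Ioc (0:ℝ) 1, g (a + x (me c) + σ • v (me c)))
    (hEf : ∀ c, D.Ef c = ENNReal.ofReal (16 * cc (e (mf c)) ^ 2) *
      ∫⁻ w in Q (mf c), g (pt (e (mf c)) (a + xx (mf c)) w))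
    (K : Finset s) {r : s → ℝ≥0} {n m m' : ℕ} {Λ Cf : ℝ≥0}
    (hr : ∀ k ∈ K, ∀ x : reps T s pr, (k : ι) ∈ T.at_ (x : E3) → (X.F x).ρ ≤ r k)
    (hn : ∀ k ∈ K,
      (Finset.univ.filter fun x : reps T s pr => (k : ι) ∈ T.at_ (x : E3)).card ≤ n)
    (hΛ : ∀ k ∈ K, ∀ c : EgS T s, c.1.set ⊆ P (T.H k) →
      ((X.C k).R : ℝ) ≤ Λ * ‖v (me c)‖ ∧ (r k : ℝ) ≤ Λ * ‖v (me c)‖)
    (hm : ∀ c : EgS T s, ∀ K' ⊆ K, (∀ k ∈ K', c.1.set ⊆ P (T.H k)) → K'.card ≤ m)
    {A : κe → Set R3}
    (hA : ∀ k ∈ K, ∀ c : EgS T s, c.1.set ⊆ P (T.H k) → w2 '' c.1.set ⊆ A (me c))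
    {wf : κf → ℝ≥0∞} (hwf : ∀ k ∈ K, ∀ b : FcS T s pr, (b.1.set ∩ P (T.H k)).Nonempty →
      ENNReal.ofReal ((X.C k).R * (16 * cc (e (mf b)) ^ 2)) ≤ Cf * wf (mf b))
    (hm' : ∀ b : FcS T s pr, ∀ K' ⊆ K, (∀ k ∈ K', (b.1.set ∩ P (T.H k)).Nonempty) →
      K'.card ≤ m')
    {Af : κf → Set R3} (hAf : ∀ k ∈ K, ∀ b : FcS T s pr, (b.1.set ∩ P (T.H k)).Nonempty →
      w2 '' b.1.set ⊆ Af (mf b))
    {S : Set R3} (hS : MeasurableSet S) (hSe : ∀ k ∈ K, w2 '' P (T.H k) ⊆ S)
    (hSf : ∀ k ∈ K, ∀ b : FcS T s pr, (b.1.set ∩ P (T.H k)).Nonempty → w2 '' b.1.set ⊆ S) :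
    ∑ k ∈ K, D.J k ≤
      (64 * n * (Λ:ℝ≥0∞) ^ 2) * (m * ∫⁻ y in S, g y
        ∂(segM x v (fun e => ENNReal.ofReal (‖v e‖ ^ 3)) A a)) +
      Cf * (m' * ∫⁻ y in S, g y ∂(trM (fcM xx e Q wf) Af a)) := by
  -- the cells are determined by their indices
  have injE : ∀ c c' : EgS T s, me c = me c' → c = c' := by
    intro c c' h
    have h1 : w2 '' c.1.set = w2 '' c'.1.set := by rw [hme c, hme c', h]
    exact Subtype.ext (Tiling.Cell.ext (w2.injective.image_injective h1))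
  have injF : ∀ c c' : FcS T s pr, mf c = mf c' → c = c' := by
    intro c c' h
    have h1 : w2 '' c.1.set = w2 '' c'.1.set := by rw [hmf c, hmf c', h]
    exact Subtype.ext (Tiling.Cell.ext (w2.injective.image_injective h1))
  set Fk : s → Finset (EgS T s) := fun k =>
    Finset.univ.filter fun c : EgS T s => c.1.set ⊆ P (T.H k) with hFk
  set Gk : s → Finset (FcS T s pr) := fun k =>
    Finset.univ.filter fun b : FcS T s pr => (b.1.set ∩ P (T.H k)).Nonempty with hGk
  set νe : κe → Measure R3 := fun i => ENNReal.ofReal (‖v i‖ ^ 3) •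
    (volume.restrict (Ioc (0:ℝ) 1)).map (fun σ : ℝ => a + x i + σ • v i) with hνe
  set νf : κf → Measure R3 := fun φ => (fcM xx e Q wf φ).map (fun y => a + y) with hνf
  have hIe : ∀ c : EgS T s, ∫⁻ y, g y ∂νe (me c) = ENNReal.ofReal (‖v (me c)‖ ^ 3) *
      ∫⁻ σ in Ioc (0:ℝ) 1, g (a + x (me c) + σ • v (me c)) := by
    intro c
    rw [hνe]
    simp only
    rw [lintegral_smul_measure, (emb_seg (hv c) _).lintegral_map, smul_eq_mul]
  have hIf : ∀ c : FcS T s pr, ∫⁻ y, g y ∂νf (mf c) = wf (mf c) *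
      ∫⁻ w in Q (mf c), g (pt (e (mf c)) (a + xx (mf c)) w) := by
    intro c
    rw [hνf]
    simp only
    rw [fc_map, lintegral_smul_measure, (emb_pt (he c) _).lintegral_map, smul_eq_mul]
  -- one tile
  have one : ∀ k ∈ K, D.J k ≤
      ∑ i ∈ (Fk k).image me, (64 * n * (Λ:ℝ≥0∞) ^ 2) * ∫⁻ y, g y ∂νe i +
      ∑ φ ∈ (Gk k).image mf, (Cf : ℝ≥0∞) * ∫⁻ y, g y ∂νf φ := by
    intro k hk
    refine (J_le D hc hXF hXP hfc hrE k (hr k hk) (hn k hk)).trans ?_
    rw [mul_add]
    refine add_le_add ?_ ?_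
    · rw [Finset.sum_image fun c _ c' _ h => injE c c' h, Finset.mul_sum, Finset.mul_sum]
      refine Finset.sum_le_sum fun c hcF => ?_
      have hcP : c.1.set ⊆ P (T.H k) := (Finset.mem_filter.1 hcF).2
      obtain ⟨h1, h2⟩ := hΛ k hk c hcP
      rw [hEe c, hIe c]
      set J0 := ∫⁻ σ in Ioc (0:ℝ) 1, g (a + x (me c) + σ • v (me c))
      have h3 : ENNReal.ofReal (X.C k).R * ((n:ℝ≥0∞) * (r k : ℝ≥0∞)) *
          ENNReal.ofReal (64 * ‖v (me c)‖) ≤
          (64 * n * (Λ:ℝ≥0∞) ^ 2) * ENNReal.ofReal (‖v (me c)‖ ^ 3) := by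
        have e1 : (r k : ℝ≥0∞) = ENNReal.ofReal (r k : ℝ) := by rw [ENNReal.ofReal_coe_nnreal]
        have e2 : (Λ : ℝ≥0∞) = ENNReal.ofReal (Λ : ℝ) := by rw [ENNReal.ofReal_coe_nnreal]
        have e3 : (n : ℝ≥0∞) = ENNReal.ofReal (n : ℝ) := by rw [ENNReal.ofReal_natCast]
        have e4 : (64 : ℝ≥0∞) = ENNReal.ofReal (64:ℝ) := by norm_num
        have hR0 : (0:ℝ) ≤ (X.C k).R := NNReal.coe_nonneg _
        have hr0 : (0:ℝ) ≤ r k := NNReal.coe_nonneg _
        have hΛ0 : (0:ℝ) ≤ Λ := NNReal.coe_nonneg _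
        have hv0 : 0 ≤ ‖v (me c)‖ := norm_nonneg _
        rw [e1, e2, e3, e4, ← ENNReal.ofReal_mul (Nat.cast_nonneg _), ← ENNReal.ofReal_mul hR0,
          ← ENNReal.ofReal_mul (by positivity), ← ENNReal.ofReal_mul (by positivity),
          ← ENNReal.ofReal_pow hΛ0, ← ENNReal.ofReal_mul (by positivity),
          ← ENNReal.ofReal_mul (by positivity)]
        refine ENNReal.ofReal_le_ofReal ?_
        have h4 : ((X.C k).R : ℝ) * r k ≤ (Λ * ‖v (me c)‖) * (Λ * ‖v (me c)‖) :=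
          mul_le_mul h1 h2 hr0 (by positivity)
        calc ((X.C k).R : ℝ) * (n * r k) * (64 * ‖v (me c)‖)
            = (((X.C k).R : ℝ) * r k) * (n * (64 * ‖v (me c)‖)) := by ring
          _ ≤ ((Λ * ‖v (me c)‖) * (Λ * ‖v (me c)‖)) * (n * (64 * ‖v (me c)‖)) := by gcongr
          _ = 64 * n * Λ ^ 2 * ‖v (me c)‖ ^ 3 := by ring
      calc ENNReal.ofReal (X.C k).R * (((n:ℝ≥0∞) * (r k : ℝ≥0∞)) *
            (ENNReal.ofReal (64 * ‖v (me c)‖) * J0))
          = (ENNReal.ofReal (X.C k).R * ((n:ℝ≥0∞) * (r k : ℝ≥0∞)) *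
            ENNReal.ofReal (64 * ‖v (me c)‖)) * J0 := by ring
        _ ≤ ((64 * n * (Λ:ℝ≥0∞) ^ 2) * ENNReal.ofReal (‖v (me c)‖ ^ 3)) * J0 :=
            mul_le_mul' h3 le_rfl
        _ = _ := by ring
    · rw [Finset.sum_image fun c _ c' _ h => injF c c' h, Finset.mul_sum]
      refine Finset.sum_le_sum fun b hb => ?_
      have hbP := (Finset.mem_filter.1 hb).2
      rw [hEf b, hIf b, ← mul_assoc, ← mul_assoc]
      refine mul_le_mul' ?_ le_rfl
      rw [← ENNReal.ofReal_mul (NNReal.coe_nonneg _)]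
      exact hwf k hk b hbP
  calc ∑ k ∈ K, D.J k
      ≤ ∑ k ∈ K, (∑ i ∈ (Fk k).image me, (64 * n * (Λ:ℝ≥0∞) ^ 2) * ∫⁻ y, g y ∂νe i +
          ∑ φ ∈ (Gk k).image mf, (Cf : ℝ≥0∞) * ∫⁻ y, g y ∂νf φ) := Finset.sum_le_sum one
    _ = (64 * n * (Λ:ℝ≥0∞) ^ 2) * (∑ k ∈ K, ∑ i ∈ (Fk k).image me, ∫⁻ y, g y ∂νe i) +
          Cf * (∑ k ∈ K, ∑ φ ∈ (Gk k).image mf, ∫⁻ y, g y ∂νf φ) := by
        rw [Finset.sum_add_distrib]
        simp only [Finset.mul_sum]
    _ ≤ _ := by
        refine add_le_add (mul_le_mul' le_rfl ?_) (mul_le_mul' le_rfl ?_)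
        · have key := sum_meas_le (ν := νe) (A := A) (s := K) (Ed := fun k => (Fk k).image me)
            hS (m := m) ?_ ?_ g
          · have e1 : (Measure.sum fun i => (νe i).restrict (A i)) =
                segM x v (fun e => ENNReal.ofReal (‖v e‖ ^ 3)) A a := by
              unfold segM
              congr 1
              funext i
              rw [hνe]
              simp only [Measure.restrict_smul]
            rwa [e1] at key
          · intro k hk i hi
            obtain ⟨c, hcF, rfl⟩ := Finset.mem_image.1 hi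
            have hcP : c.1.set ⊆ P (T.H k) := (Finset.mem_filter.1 hcF).2
            refine Measure.ae_smul_measure (((emb_seg (hv c) _).ae_map_iff).2 ?_) _
            refine (ae_restrict_iff' measurableSet_Ioc).2 (Eventually.of_forall fun σ hσ => ?_)
            have h1 : a + x (me c) + σ • v (me c) ∈ w2 '' c.1.set := by
              rw [hme c]
              exact ⟨σ, ⟨hσ.1.le, hσ.2⟩, rfl⟩
            exact ⟨hA k hk c hcP h1, hSe k hk (image_mono hcP h1)⟩
          · intro i K' hK' hi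
            rcases K'.eq_empty_or_nonempty with h0 | ⟨k0, hk0⟩
            · rw [h0]; simp
            · obtain ⟨c, hcF, rfl⟩ := Finset.mem_image.1 (hi k0 hk0)
              refine hm c K' hK' fun k hk => ?_
              obtain ⟨c', hcF', h'⟩ := Finset.mem_image.1 (hi k hk)
              rw [← injE c' c h']
              exact (Finset.mem_filter.1 hcF').2
        · have key := sum_meas_le (ν := νf) (A := Af) (s := K) (Ed := fun k => (Gk k).image mf)
            hS (m := m') ?_ ?_ g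
          · exact key
          · intro k hk φ hφ
            obtain ⟨b, hbG, rfl⟩ := Finset.mem_image.1 hφ
            have hbP := (Finset.mem_filter.1 hbG).2
            have e2 : νf (mf b) = wf (mf b) • ((volume.restrict (Q (mf b))).map
              (pt (e (mf b)) (a + xx (mf b)))) := by rw [hνf]; exact fc_map _ _ _ _ _ _
            rw [e2]
            refine Measure.ae_smul_measure (((emb_pt (he b) _).ae_map_iff).2 ?_) _
            refine (ae_restrict_iff' (hQ b)).2 (Eventually.of_forall fun w hw => ?_)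
            have h1 : pt (e (mf b)) (a + xx (mf b)) w ∈ w2 '' b.1.set := by
              rw [hmf b]
              exact ⟨w, hw, rfl⟩
            exact ⟨hAf k hk b hbP h1, hSf k hk b hbP h1⟩
          · intro φ K' hK' hφ
            rcases K'.eq_empty_or_nonempty with h0 | ⟨k0, hk0⟩
            · rw [h0]; simp
            · obtain ⟨b, hbG, rfl⟩ := Finset.mem_image.1 (hφ k0 hk0)
              refine hm' b K' hK' fun k hk => ?_
              obtain ⟨b', hbG', h'⟩ := Finset.mem_image.1 (hφ k hk)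
              rw [← injF b' b h']
              exact (Finset.mem_filter.1 hbG').2

end

end

end Crest.Agent.R96.Sjt_538
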