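/-
helper538, row 96, p ≤ 2, [ELIST] (753): generic sums of the functional `J` over a class of tiles,
every class with its own index family.
-/
import Mathlib
import Crest.Agent.R96.Sjt1_538

set_option autoImplicit false
set_option linter.unusedSectionVars false
set_option maxHeartbeats 400000

open MeasureTheory Set Filter Metric Module
open scoped ENNReal NNReal Topology

namespace Crest.Agent.R96.Els_538

open Crest.AnalysisR.VecCalc3 (R3)
open Crest.Agent.R96.Coarse_538 (seg segM)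
open Crest.Agent.R096.Fce_793 (pt)
open Crest.Agent.R096.Rmg_793 (trM)
open Crest.Agent.R096.Fsl_793 (fcM)
open Crest.Agent.R96.Sjt_538 (emb_seg emb_pt fc_map)

noncomputable section

/-! ### sums -/

/-- an injective choice of indices -/
theorem sum_attach_le {α ιe : Type*} (Rel : Finset α) (f : ∀ c ∈ Rel, ιe)
    (hinj : ∀ c hc c' hc', f c hc = f c' hc' → c = c') (F : ιe → ℝ≥0∞) :
    ∑ c ∈ Rel.attach, F (f c.1 c.2) ≤ ∑' i, F i := by
  classical
  rw [← Finset.sum_image (s := Rel.attach) (g := fun c => f c.1 c.2) (f := F)]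
  · exact ENNReal.sum_le_tsum _
  · intro c _ c' _ h
    exact Subtype.ext (hinj _ _ _ _ h)

/-- double counting -/
theorem double_count {κ α : Type*} [DecidableEq α] (K : Finset κ) (C : κ → Finset α) (W : α → ℝ≥0∞) {m : ℕ}
    (hm : ∀ c, (K.filter fun k => c ∈ C k).card ≤ m) :
    ∑ k ∈ K, ∑ c ∈ C k, W c ≤ m * ∑ c ∈ K.biUnion C, W c := by
  calc ∑ k ∈ K, ∑ c ∈ C k, W c
      = ∑ k ∈ K, ∑ c ∈ K.biUnion C, (if c ∈ C k then W c else 0) := by
        refine Finset.sum_congr rfl fun k hk => ?_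
        rw [← Finset.sum_filter]
        refine Finset.sum_congr ?_ fun _ _ => rfl
        ext c
        rw [Finset.mem_filter]
        exact ⟨fun h => ⟨Finset.mem_biUnion.2 ⟨k, hk, h⟩, h⟩, fun h => h.2⟩
    _ = ∑ c ∈ K.biUnion C, ∑ k ∈ K, (if c ∈ C k then W c else 0) := Finset.sum_comm
    _ ≤ ∑ c ∈ K.biUnion C, (m : ℝ≥0∞) * W c := by
        refine Finset.sum_le_sum fun c _ => ?_
        rw [← Finset.sum_filter, Finset.sum_const, nsmul_eq_mul]
        refine mul_le_mul' ?_ le_rfl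
        exact_mod_cast hm c
    _ = m * ∑ c ∈ K.biUnion C, W c := by rw [Finset.mul_sum]

/-- sums of a functional of cells over tiles against a sum of measures -/
theorem sum_cells_le {κ α ιe : Type*} [DecidableEq α] (K : Finset κ) (C : κ → Finset α) {m : ℕ}
    (hm : ∀ c, (K.filter fun k => c ∈ C k).card ≤ m)
    {ν : ιe → Measure R3} {A : ιe → Set R3} {S : Set R3} (hS : MeasurableSet S)
    (f : ∀ c ∈ K.biUnion C, ιe) (hinj : ∀ c hc c' hc', f c hc = f c' hc' → c = c')
    (hsub : ∀ c hc, ∀ᵐ y ∂ν (f c hc), y ∈ A (f c hc) ∩ S) (g : R3 → ℝ≥0∞)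
    (W : κ → α → ℝ≥0∞) (Cw : ℝ≥0∞)
    (hW : ∀ k (hk : k ∈ K), ∀ c (hc : c ∈ C k),
      W k c ≤ Cw * ∫⁻ y, g y ∂ν (f c (Finset.mem_biUnion.2 ⟨k, hk, hc⟩))) :
    ∑ k ∈ K, ∑ c ∈ C k, W k c ≤
      Cw * (m * ∫⁻ y in S, g y ∂(Measure.sum fun e => (ν e).restrict (A e))) := by
  set V : α → ℝ≥0∞ := fun c => if hc : c ∈ K.biUnion C then ∫⁻ y, g y ∂ν (f c hc) else 0 with hV
  have h1 : ∑ k ∈ K, ∑ c ∈ C k, W k c ≤ Cw * ∑ k ∈ K, ∑ c ∈ C k, V c := by
    rw [Finset.mul_sum]
    refine Finset.sum_le_sum fun k hk => ?_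
    rw [Finset.mul_sum]
    refine Finset.sum_le_sum fun c hc => ?_
    have hcB : c ∈ K.biUnion C := Finset.mem_biUnion.2 ⟨k, hk, hc⟩
    rw [hV]
    simp only
    rw [dif_pos hcB]
    exact hW k hk c hc
  refine h1.trans (mul_le_mul' le_rfl ((double_count K C V hm).trans (mul_le_mul' le_rfl ?_)))
  have h2 : ∫⁻ y in S, g y ∂(Measure.sum fun e => (ν e).restrict (A e)) =
      ∑' e, ∫⁻ y, g y ∂((ν e).restrict (A e)).restrict S := by
    rw [Measure.restrict_sum _ hS, lintegral_sum_measure]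
  rw [h2]
  refine le_trans (le_of_eq ?_) (sum_attach_le (K.biUnion C) f hinj
    (fun e => ∫⁻ y, g y ∂((ν e).restrict (A e)).restrict S))
  rw [← Finset.sum_attach (K.biUnion C) V]
  refine Finset.sum_congr rfl fun c _ => ?_
  rw [hV]
  simp only
  rw [dif_pos c.2]
  have h3 := hsub c.1 c.2
  have h4 : (ν (f c.1 c.2)).restrict (A (f c.1 c.2)) = ν (f c.1 c.2) :=
    Measure.restrict_eq_self_of_ae_mem (h3.mono fun y hy => hy.1)
  have h5 : (ν (f c.1 c.2)).restrict S = ν (f c.1 c.2) :=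
    Measure.restrict_eq_self_of_ae_mem (h3.mono fun y hy => hy.2)
  rw [h4, h5]

/-! ### segments -/

theorem ends_eq {E : Type*} [NormedAddCommGroup E] [NormedSpace ℝ E] {a b c d : E}
    (h : segment ℝ a b = segment ℝ c d) : (a = c ∧ b = d) ∨ (a = d ∧ b = c) := by
  have h1 : (a = c ∧ b = d) ∨ (a = d ∧ b = c) := by
    have hc : c ∈ segment ℝ a b := h ▸ left_mem_segment _ _ _
    have hd : d ∈ segment ℝ a b := h ▸ right_mem_segment _ _ _
    have ha : a ∈ segment ℝ c d := h ▸ left_mem_segment _ _ _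
    have hb : b ∈ segment ℝ c d := h ▸ right_mem_segment _ _ _
    -- all in parameters on the line through `a`, `b`
    rw [segment_eq_image'] at hc hd ha hb
    obtain ⟨s, ⟨hs0, hs1⟩, hs⟩ := hc
    obtain ⟨t, ⟨ht0, ht1⟩, ht⟩ := hd
    obtain ⟨p, ⟨hp0, hp1⟩, hp⟩ := ha
    obtain ⟨q, ⟨hq0, hq1⟩, hq⟩ := hb
    simp only at hs ht hp hq
    by_cases hab : a = b
    · subst hab
      simp only [sub_self, smul_zero, add_zero] at hs ht
      exact Or.inl ⟨hs, ht⟩
    have hne : b - a ≠ 0 := sub_ne_zero.2 (fun e => hab e.symm)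
    have e1 : (s + p * (t - s)) • (b - a) = 0 := by
      have e0 : (s + p * (t - s)) • (b - a) = (c + p • (d - c)) - a := by
        rw [← hs, ← ht, add_smul, mul_smul, sub_smul]
        simp only [smul_sub, smul_add]
        abel
      rw [e0, hp, sub_self]
    have e2 : (s + q * (t - s) - 1) • (b - a) = 0 := by
      have e0 : (s + q * (t - s) - 1) • (b - a) = (c + q • (d - c)) - b := by
        rw [← hs, ← ht, sub_smul, add_smul, mul_smul, sub_smul, one_smul]
        simp only [smul_sub, smul_add]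
        abel
      rw [e0, hq, sub_self]
    have f1 := (smul_eq_zero.1 e1).resolve_right hne
    have f2 := (smul_eq_zero.1 e2).resolve_right hne
    -- s + p (t - s) = 0, s + q (t - s) = 1 with all in [0,1]
    rcases le_total s t with hst | hst
    · left
      have g1 : s = 0 := by nlinarith
      have g2 : t = 1 := by
        rw [g1] at f2
        nlinarith
      rw [g1, zero_smul, add_zero] at hs
      rw [g2, one_smul, add_sub_cancel] at ht
      exact ⟨hs, ht⟩
    · right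
      have g1 : t = 0 := by nlinarith
      have g2 : s = 1 := by
        rw [g1] at f2
        nlinarith
      rw [g2, one_smul, add_sub_cancel] at hs
      rw [g1, zero_smul, add_zero] at ht
      exact ⟨ht, hs⟩
  exact h1

/-- **the integral over a segment does not depend on its parametrisation** -/
theorem seg_int {y w y' w' : R3} (h : segment ℝ y (y + w) = segment ℝ y' (y' + w'))
    (F : R3 → ℝ≥0∞) : ‖w‖ = ‖w'‖ ∧
    ∫⁻ σ in Ioc (0:ℝ) 1, F (y + σ • w) = ∫⁻ σ in Ioc (0:ℝ) 1, F (y' + σ • w') := by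
  rcases ends_eq h with ⟨h1, h2⟩ | ⟨h1, h2⟩
  · subst h1
    have h3 : w = w' := add_left_cancel h2
    subst h3
    exact ⟨rfl, rfl⟩
  · have h3 : w = -w' := by
      have : y' + w' + w = y' := by rw [← h1]; exact h2
      have h4 : w' + w = 0 := by
        have := this
        rw [add_assoc] at this
        exact add_eq_left.1 this
      exact eq_neg_of_add_eq_zero_right h4
    subst h3
    refine ⟨norm_neg _, ?_⟩
    rw [h1]
    have hmp : MeasurePreserving (fun σ : ℝ => 1 - σ) volume volume :=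
      volume.measurePreserving_sub_left 1
    have hemb : MeasurableEmbedding (fun σ : ℝ => 1 - σ) :=
      (Homeomorph.subLeft (1:ℝ)).measurableEmbedding
    have h5 := hmp.setLIntegral_comp_preimage_emb hemb
      (fun σ : ℝ => F (y' + σ • w')) (Ico (0:ℝ) 1)
    have h6 : (fun σ : ℝ => 1 - σ) ⁻¹' Ico (0:ℝ) 1 = Ioc 0 1 := by
      ext σ
      simp only [mem_preimage, mem_Ico, mem_Ioc]
      constructor
      · rintro ⟨a, b⟩; constructor <;> linarith
      · rintro ⟨a, b⟩; constructor <;> linarith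
    rw [h6] at h5
    have h7 : ∀ σ : ℝ, y' + w' + σ • -w' = y' + (1 - σ) • w' := by
      intro σ
      rw [smul_neg, sub_smul, one_smul]
      abel
    simp only [h7]
    rw [h5]
    exact (restrict_Ico_eq_restrict_Ioc (μ := (volume : Measure ℝ)) (a := 0) (b := 1)) ▸ rfl

theorem seg_eq_segment {κe : Type*} (x v : κe → R3) (a : R3) (i : κe) :
    seg x v a i = segment ℝ (a + x i) (a + x i + v i) := by
  rw [segment_eq_image', seg]
  simp only [add_sub_cancel_left]

section

open Crest.Agent.R096.Msh_715 (P I Tiling)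
open Crest.Agent.R096.Sq_55 (E3 Sys FaceOf w2)
open Crest.Agent.R096.Cob_622 (EF)
open Crest.Agent.R096.Efi_296
open Crest.Agent.R096.Fce_793 (cc)

variable {Om : Set E3} {ι : Type*} {T : Tiling Om ι}

/-- the edges of the tile `k` -/
def EdT (T : Tiling Om ι) (s : Finset ι) (k : ι) (c : EgS T s) : Prop := c.1.set ⊆ P (T.H k)

/-- the unsqueezed faces which meet the tile `k` -/
def FcT (T : Tiling Om ι) (s : Finset ι) (pr : T.Cell → Prop) (k : ι) (b : FcS T s pr) : Prop :=
  (b.1.set ∩ P (T.H k)).Nonempty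

/-- **GENERIC SUM OVER A CLASS `K` OF TILES**: the functional `J` against two sums of measures (edges and
unsqueezed faces), every cell of the class is named by its own index family. -/
theorem sum_J_gen {s : Finset ι} {pr : T.Cell → Prop} {X : Sys s (reps T s pr)} {Om' : Set R3}
    {g : R3 → ℝ≥0∞} (D : EF X Om' g (EgS T s) (FcS T s pr)) {c : ι → E3}
    (hc : ∀ i, c i ∈ I (T.H i)) (hXF : ∀ x : reps T s pr, FaceOf T c (x : E3) (X.F x))
    (hXP : ∀ k : s, (X.C k).P = P (T.H k)) (hfc : ∀ b, D.fc b = w2 '' b.1.set)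
    (hrE : ∀ x, D.rimE x = rimS T s (x : E3))
    (K : Finset s) {r : s → ℝ≥0} {n m m' : ℕ}
    (hr : ∀ k ∈ K, ∀ x : reps T s pr, (k : ι) ∈ T.at_ (x : E3) → (X.F x).ρ ≤ r k)
    (hn : ∀ k ∈ K, {x : reps T s pr | (k : ι) ∈ T.at_ (x : E3)}.ncard ≤ n)
    {S : Set R3} (hS : MeasurableSet S) {κe κf : Type*} {ce Ae : κe → Set R3}
    {νe : κe → Measure R3} {cf Af : κf → Set R3} {νf : κf → Measure R3} {Ce Cf : ℝ≥0∞}
    (hE : ∀ b : EgS T s, (∃ k ∈ K, EdT T s k b) → ∃ i : κe, w2 '' b.1.set = ce i ∧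
      (∀ᵐ y ∂(νe i), y ∈ Ae i ∩ S) ∧ ∀ k ∈ K, EdT T s k b →
        ENNReal.ofReal (X.C k).R * (((n:ℝ≥0∞) * r k) * D.Ee b) ≤ Ce * ∫⁻ y, g y ∂νe i)
    (hm : ∀ b : EgS T s, ∀ K' ⊆ K, (∀ k ∈ K', EdT T s k b) → K'.card ≤ m)
    (hF : ∀ b : FcS T s pr, (∃ k ∈ K, FcT T s pr k b) → ∃ i : κf, w2 '' b.1.set = cf i ∧
      (∀ᵐ y ∂(νf i), y ∈ Af i ∩ S) ∧ ∀ k ∈ K, FcT T s pr k b →
        ENNReal.ofReal (X.C k).R * D.Ef b ≤ Cf * ∫⁻ y, g y ∂νf i)
    (hm' : ∀ b : FcS T s pr, ∀ K' ⊆ K, (∀ k ∈ K', FcT T s pr k b) → K'.card ≤ m') :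
    ∑ k ∈ K, D.J k ≤
      Ce * (m * ∫⁻ y in S, g y ∂(Measure.sum fun e => (νe e).restrict (Ae e))) +
      Cf * (m' * ∫⁻ y in S, g y ∂(Measure.sum fun e => (νf e).restrict (Af e))) := by
  classical
  set Fk : s → Finset (EgS T s) := fun k => Finset.univ.filter fun c => EdT T s k c with hFk
  set Gk : s → Finset (FcS T s pr) := fun k => Finset.univ.filter fun b => FcT T s pr k b with hGk
  have one : ∀ k ∈ K, D.J k ≤
      ∑ b ∈ Fk k, ENNReal.ofReal (X.C k).R * (((n:ℝ≥0∞) * r k) * D.Ee b) +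
      ∑ b ∈ Gk k, ENNReal.ofReal (X.C k).R * D.Ef b := by
    intro k hk
    have hn' : (Finset.univ.filter fun x : reps T s pr => (k : ι) ∈ T.at_ (x : E3)).card ≤ n := by
      have h := hn k hk
      rw [Set.ncard_eq_toFinset_card'] at h
      refine le_trans (le_of_eq ?_) h
      congr 1
      ext x
      simp
    refine (J_le D hc hXF hXP hfc hrE k (hr k hk) hn').trans (le_of_eq ?_)
    rw [mul_add, Finset.mul_sum, Finset.mul_sum, Finset.mul_sum]
    rfl
  refine (Finset.sum_le_sum one).trans ?_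
  rw [Finset.sum_add_distrib]
  have cE : ∀ b, b ∈ K.biUnion Fk → ∃ k ∈ K, EdT T s k b := by
    intro b hb
    obtain ⟨k, hk, h⟩ := Finset.mem_biUnion.1 hb
    exact ⟨k, hk, (Finset.mem_filter.1 h).2⟩
  have cF : ∀ b, b ∈ K.biUnion Gk → ∃ k ∈ K, FcT T s pr k b := by
    intro b hb
    obtain ⟨k, hk, h⟩ := Finset.mem_biUnion.1 hb
    exact ⟨k, hk, (Finset.mem_filter.1 h).2⟩
  refine add_le_add ?_ ?_
  · refine sum_cells_le K Fk (fun b => ?_) hS (fun b hb => (hE b (cE b hb)).choose)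
      (fun b hb b' hb' h => ?_) (fun b hb => (hE b (cE b hb)).choose_spec.2.1) g _ _
      (fun k hk b hb => ?_)
    · refine hm b _ (Finset.filter_subset _ _) fun k hk => ?_
      exact (Finset.mem_filter.1 (Finset.mem_filter.1 hk).2).2
    · have h1 := (hE b (cE b hb)).choose_spec.1
      have h2 := (hE b' (cE b' hb')).choose_spec.1
      rw [h] at h1
      exact Subtype.ext (Tiling.Cell.ext (w2.injective.image_injective (h1.trans h2.symm)))
    · exact (hE b ⟨k, hk, (Finset.mem_filter.1 hb).2⟩).choose_spec.2.2 k hk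
        (Finset.mem_filter.1 hb).2
  · refine sum_cells_le K Gk (fun b => ?_) hS (fun b hb => (hF b (cF b hb)).choose)
      (fun b hb b' hb' h => ?_) (fun b hb => (hF b (cF b hb)).choose_spec.2.1) g _ _
      (fun k hk b hb => ?_)
    · refine hm' b _ (Finset.filter_subset _ _) fun k hk => ?_
      exact (Finset.mem_filter.1 (Finset.mem_filter.1 hk).2).2
    · have h1 := (hF b (cF b hb)).choose_spec.1
      have h2 := (hF b' (cF b' hb')).choose_spec.1
      rw [h] at h1
      exact Subtype.ext (Tiling.Cell.ext (w2.injective.image_injective (h1.trans h2.symm)))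
    · exact (hF b ⟨k, hk, (Finset.mem_filter.1 hb).2⟩).choose_spec.2.2 k hk
        (Finset.mem_filter.1 hb).2

end

end

end Crest.Agent.R96.Els_538
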