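/-
helper538, row 96, p ≤ 2, [ELIST] (753), part 2: the sum of `J` over a class of tiles against the
random measures `segM` (edges) and `trM (fcM ..)` (unsqueezed faces) of the class.
-/
import Mathlib
import Crest.Agent.R96.Els1_538
import Crest.Agent.R096.Efi3_296

set_option autoImplicit false
set_option linter.unusedSectionVars false
set_option maxHeartbeats 400000

open MeasureTheory Set Filter Metric Module
open scoped ENNReal NNReal Topology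

namespace Crest.Agent.R96.Els_538

open Crest.AnalysisR.VecCalc3 (R3)
open Crest.Agent.R96.Coarse_538 (seg segM)
open Crest.Agent.R096.Fce_793 (pt)
open Crest.Agent.R096.Rmg_793 (trM)
open Crest.Agent.R096.Fsl_793 (fcM)
open Crest.Agent.R96.Sjt_538 (emb_seg emb_pt fc_map)
open Crest.Agent.R096.Msh_715 (P I Tiling)
open Crest.Agent.R096.Sq_55 (E3 Sys FaceOf w2)
open Crest.Agent.R096.Cob_622 (EF)
open Crest.Agent.R096.Efi_296
open Crest.Agent.R096.Slb_296 (pl)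
open Crest.Agent.R096.Fce_793 (cc)

noncomputable section

variable {Om : Set E3} {ι : Type*} {T : Tiling Om ι}

/-- **THE SUM OVER A CLASS OF TILES.**  `x v A` = the segments of the class (random measure `segM`),
`e xx Q wf Af` = the faces of the class (random measure `trM (fcM ..)`); nothing is asked about the other
cells. -/
theorem sum_J_cls {s : Finset ι} {pr : T.Cell → Prop} {X : Sys s (reps T s pr)} {Om' : Set R3}
    {g : R3 → ℝ≥0∞} (D : EF X Om' g (EgS T s) (FcS T s pr)) {c : ι → E3}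
    (hc : ∀ i, c i ∈ I (T.H i)) (hXF : ∀ x : reps T s pr, FaceOf T c (x : E3) (X.F x))
    (hXP : ∀ k : s, (X.C k).P = P (T.H k)) (hfc : ∀ b, D.fc b = w2 '' b.1.set)
    (hrE : ∀ x, D.rimE x = rimS T s (x : E3))
    (hEe : ∀ b : EgS T s, ∀ y w : R3, w2 '' b.1.set = segment ℝ y (y + w) →
      D.Ee b ≤ ENNReal.ofReal (64 * ‖w‖) * ∫⁻ σ in Ioc (0:ℝ) 1, g (y + σ • w))
    (K : Finset s) {r : s → ℝ≥0} {n m m' : ℕ}
    (hr : ∀ k ∈ K, ∀ x : reps T s pr, (k : ι) ∈ T.at_ (x : E3) → (X.F x).ρ ≤ r k)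
    (hn : ∀ k ∈ K, {x : reps T s pr | (k : ι) ∈ T.at_ (x : E3)}.ncard ≤ n)
    {S : Set R3} (hS : MeasurableSet S) {a : R3}
    {κe : Type*} {x v : κe → R3} {A : κe → Set R3} {Λ : ℝ≥0}
    (hE : ∀ b : EgS T s, (∃ k ∈ K, EdT T s k b) → ∃ i : κe, v i ≠ 0 ∧
      w2 '' b.1.set = seg x v a i ∧ w2 '' b.1.set ⊆ A i ∩ S ∧ ∀ k ∈ K, EdT T s k b →
        ((X.C k).R : ℝ) ≤ Λ * ‖v i‖ ∧ (r k : ℝ) ≤ Λ * ‖v i‖)
    (hm : ∀ b : EgS T s, ∀ K' ⊆ K, (∀ k ∈ K', EdT T s k b) → K'.card ≤ m)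
    {κf : Type*} {e : κf → Fin 2 → R3} {xx : κf → R3} {Q : κf → Set (ℝ × ℝ)} {wf : κf → ℝ≥0∞}
    {Af : κf → Set R3} {Cf : ℝ≥0∞}
    (hF : ∀ b : FcS T s pr, (∃ k ∈ K, FcT T s pr k b) → ∃ φ : κf, LinearIndependent ℝ (e φ) ∧
      MeasurableSet (Q φ) ∧ w2 '' b.1.set = pt (e φ) (a + xx φ) '' Q φ ∧
      w2 '' b.1.set ⊆ Af φ ∩ S ∧ ∀ k ∈ K, FcT T s pr k b →
        ENNReal.ofReal (X.C k).R * D.Ef b ≤
          Cf * (wf φ * ∫⁻ w in Q φ, g (pt (e φ) (a + xx φ) w)))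
    (hm' : ∀ b : FcS T s pr, ∀ K' ⊆ K, (∀ k ∈ K', FcT T s pr k b) → K'.card ≤ m') :
    ∑ k ∈ K, D.J k ≤
      (64 * n * (Λ:ℝ≥0∞) ^ 2) * (m * ∫⁻ y in S, g y
        ∂(segM x v (fun e => ENNReal.ofReal (‖v e‖ ^ 3)) A a)) +
      Cf * (m' * ∫⁻ y in S, g y ∂(trM (fcM xx e Q wf) Af a)) := by
  classical
  set νe : κe → Measure R3 := fun i => ENNReal.ofReal (‖v i‖ ^ 3) •
    (volume.restrict (Ioc (0:ℝ) 1)).map (fun σ : ℝ => a + x i + σ • v i) with hνe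
  set νf : κf → Measure R3 := fun φ => (fcM xx e Q wf φ).map (fun y => a + y) with hνf
  have hIe : ∀ i, v i ≠ 0 → ∫⁻ y, g y ∂νe i = ENNReal.ofReal (‖v i‖ ^ 3) *
      ∫⁻ σ in Ioc (0:ℝ) 1, g (a + x i + σ • v i) := by
    intro i hi
    rw [hνe]
    simp only
    rw [lintegral_smul_measure, (emb_seg hi _).lintegral_map, smul_eq_mul]
  have hIf : ∀ φ, LinearIndependent ℝ (e φ) → ∫⁻ y, g y ∂νf φ = wf φ *
      ∫⁻ w in Q φ, g (pt (e φ) (a + xx φ) w) := by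
    intro φ hφ
    rw [hνf]
    simp only
    rw [fc_map, lintegral_smul_measure, (emb_pt hφ _).lintegral_map, smul_eq_mul]
  have key := sum_J_gen (r := r) (n := n) (m := m) (m' := m') D hc hXF hXP hfc hrE K hr hn hS
    (ce := fun i => seg x v a i) (Ae := A) (νe := νe)
    (cf := fun φ => pt (e φ) (a + xx φ) '' Q φ) (Af := Af) (νf := νf)
    (Ce := 64 * n * (Λ:ℝ≥0∞) ^ 2) (Cf := Cf) ?_ hm ?_ hm'
  · have e1 : (Measure.sum fun i => (νe i).restrict (A i)) =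
        segM x v (fun e => ENNReal.ofReal (‖v e‖ ^ 3)) A a := by
      unfold segM
      congr 1
      funext i
      rw [hνe]
      simp only [Measure.restrict_smul]
    rw [e1] at key
    exact key
  · intro b hb
    obtain ⟨i, hi0, hi, hiA, hik⟩ := hE b hb
    refine ⟨i, hi, ?_, fun k hk hkb => ?_⟩
    · refine Measure.ae_smul_measure (((emb_seg hi0 _).ae_map_iff).2 ?_) _
      refine (ae_restrict_iff' measurableSet_Ioc).2 (Eventually.of_forall fun σ hσ => ?_)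
      refine hiA ?_
      rw [hi]
      exact ⟨σ, ⟨hσ.1.le, hσ.2⟩, rfl⟩
    · obtain ⟨h1, h2⟩ := hik k hk hkb
      rw [hIe i hi0]
      have h0 := hEe b (a + x i) (v i) (by rw [hi, seg_eq_segment])
      set J0 := ∫⁻ σ in Ioc (0:ℝ) 1, g (a + x i + σ • v i)
      have h3 : ENNReal.ofReal (X.C k).R * ((n:ℝ≥0∞) * (r k : ℝ≥0∞)) *
          ENNReal.ofReal (64 * ‖v i‖) ≤
          (64 * n * (Λ:ℝ≥0∞) ^ 2) * ENNReal.ofReal (‖v i‖ ^ 3) := by
        have e1 : (r k : ℝ≥0∞) = ENNReal.ofReal (r k : ℝ) := by rw [ENNReal.ofReal_coe_nnreal]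
        have e2 : (Λ : ℝ≥0∞) = ENNReal.ofReal (Λ : ℝ) := by rw [ENNReal.ofReal_coe_nnreal]
        have e3 : (n : ℝ≥0∞) = ENNReal.ofReal (n : ℝ) := by rw [ENNReal.ofReal_natCast]
        have e4 : (64 : ℝ≥0∞) = ENNReal.ofReal (64:ℝ) := by norm_num
        have hR0 : (0:ℝ) ≤ (X.C k).R := NNReal.coe_nonneg _
        have hr0 : (0:ℝ) ≤ r k := NNReal.coe_nonneg _
        have hΛ0 : (0:ℝ) ≤ Λ := NNReal.coe_nonneg _
        have hv0 : 0 ≤ ‖v i‖ := norm_nonneg _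
        rw [e1, e2, e3, e4, ← ENNReal.ofReal_mul (Nat.cast_nonneg _), ← ENNReal.ofReal_mul hR0,
          ← ENNReal.ofReal_mul (by positivity), ← ENNReal.ofReal_mul (by positivity),
          ← ENNReal.ofReal_pow hΛ0, ← ENNReal.ofReal_mul (by positivity),
          ← ENNReal.ofReal_mul (by positivity)]
        refine ENNReal.ofReal_le_ofReal ?_
        have h4 : ((X.C k).R : ℝ) * r k ≤ (Λ * ‖v i‖) * (Λ * ‖v i‖) :=
          mul_le_mul h1 h2 hr0 (by positivity)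
        calc ((X.C k).R : ℝ) * (n * r k) * (64 * ‖v i‖)
            = (((X.C k).R : ℝ) * r k) * (n * (64 * ‖v i‖)) := by ring
          _ ≤ ((Λ * ‖v i‖) * (Λ * ‖v i‖)) * (n * (64 * ‖v i‖)) := by gcongr
          _ = 64 * n * Λ ^ 2 * ‖v i‖ ^ 3 := by ring
      calc ENNReal.ofReal (X.C k).R * (((n:ℝ≥0∞) * (r k : ℝ≥0∞)) * D.Ee b)
          ≤ ENNReal.ofReal (X.C k).R * (((n:ℝ≥0∞) * (r k : ℝ≥0∞)) *
            (ENNReal.ofReal (64 * ‖v i‖) * J0)) := by gcongr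
        _ = (ENNReal.ofReal (X.C k).R * ((n:ℝ≥0∞) * (r k : ℝ≥0∞)) *
            ENNReal.ofReal (64 * ‖v i‖)) * J0 := by ring
        _ ≤ ((64 * n * (Λ:ℝ≥0∞) ^ 2) * ENNReal.ofReal (‖v i‖ ^ 3)) * J0 :=
            mul_le_mul' h3 le_rfl
        _ = _ := by ring
  · intro b hb
    obtain ⟨φ, hφe, hφQ, hφ, hφA, hφk⟩ := hF b hb
    refine ⟨φ, hφ, ?_, fun k hk hkb => ?_⟩
    · have e2 : νf φ = wf φ • ((volume.restrict (Q φ)).map (pt (e φ) (a + xx φ))) := by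
        rw [hνf]; exact fc_map _ _ _ _ _ _
      rw [e2]
      refine Measure.ae_smul_measure (((emb_pt hφe _).ae_map_iff).2 ?_) _
      refine (ae_restrict_iff' hφQ).2 (Eventually.of_forall fun w hw => ?_)
      refine hφA ?_
      rw [hφ]
      exact ⟨w, hw, rfl⟩
    · rw [hIf φ hφe]
      exact hφk k hk hkb

/-- the hypothesis `hEe` from 296's instance -/
theorem hEe_of {T : Tiling Om ι} {s : Finset ι} {Om' B0 : Set R3} {g : R3 → ℝ≥0∞} {κe : Type*}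
    {x v : κe → R3} {a : R3} {me : EgS T s → κe} (hme : ∀ c, w2 '' c.1.set = seg x v a (me c))
    {Ee : EgS T s → ℝ≥0∞}
    (h : ∀ c, Ee c = ENNReal.ofReal (32 * ‖v (me c)‖) *
      ∫⁻ σ in Icc 0 1 ∩ pl (v (me c)) (a + x (me c)) ⁻¹' B0,
        Om'.indicator g (pl (v (me c)) (a + x (me c)) σ)) (b : EgS T s) (y w : R3)
    (hb : w2 '' b.1.set = segment ℝ y (y + w)) :
    Ee b ≤ ENNReal.ofReal (64 * ‖w‖) * ∫⁻ σ in Ioc (0:ℝ) 1, g (y + σ • w) := by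
  have h1 : segment ℝ y (y + w) =
      segment ℝ (a + x (me b)) (a + x (me b) + v (me b)) := by
    rw [← hb, hme b, seg_eq_segment]
  obtain ⟨h2, h3⟩ := seg_int h1 g
  rw [h2, h3, h b]
  refine mul_le_mul' (ENNReal.ofReal_le_ofReal ?_) ?_
  · have := norm_nonneg (v (me b))
    linarith
  · calc ∫⁻ σ in Icc 0 1 ∩ pl (v (me b)) (a + x (me b)) ⁻¹' B0,
          Om'.indicator g (pl (v (me b)) (a + x (me b)) σ)
        ≤ ∫⁻ σ in Icc (0:ℝ) 1, Om'.indicator g (pl (v (me b)) (a + x (me b)) σ) :=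
          lintegral_mono_set inter_subset_left
      _ = ∫⁻ σ in Ioc (0:ℝ) 1, Om'.indicator g (pl (v (me b)) (a + x (me b)) σ) := by
          rw [restrict_Ioc_eq_restrict_Icc]
      _ ≤ _ := lintegral_mono fun σ => indicator_le_self _ _ _

end

end Crest.Agent.R96.Els_538
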