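/-
helper538, row 96, p ≤ 2, [ELIST] (753), part 3: class (1) = outer tiles of `meshS` away from the walls,
geometry.
-/
import Mathlib
import Crest.Agent.R96.Els2_538
import Crest.Agent.R096.Msb3_432
import Crest.Agent.R096.Eog3_922

set_option autoImplicit false
set_option linter.unusedSectionVars false
set_option maxHeartbeats 400000

open Set Metric

namespace Crest.Agent.R96.Els_538

open Crest.Agent.R096.Msh_715 Crest.Agent.R096.Msh_715.Tiling Crest.Agent.R096.Mal_874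
open Crest.Agent.R096.Msb_432 Crest.Agent.R096.Msh_810 Crest.Agent.R096.Cut_874
open Crest.Agent.R096.Eog_922 (gx gv edF edge_tiling dim_eq_of_cc_eq)
open Crest.Agent.R96.Sg1_199 (sgm)

noncomputable section

variable {n : ℕ} {E : Type*} [NormedAddCommGroup E] [NormedSpace ℝ E]
variable [NeZero n] {J : Type*} (M : MD E n J) {k : J → ℕ} (hk : M.Sc k) (a : Fin n → ℝ)
  {v : J → E} (hv : M.Adm v)

/-- names of the tiles of `meshS` -/
abbrev SIx : Type _ := {t // t ∉ cores M hk a hv} ⊕ CIx M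

/-- the outer piece `p` as a tile of `meshS` -/
def oS (p : M.OIx hk a hv) : SIx M hk a hv := Sum.inl ⟨Sum.inl p, inl_not_core M hk a hv p⟩

/-- the outer tiles with distance more than `2 / 2^k j` from all walls -/
def Far (t : SIx M hk a hv) : Prop :=
  (∃ p, t = oS M hk a hv p) ∧ ∀ j, ∀ x ∈ P ((meshS M hk a hv).H t),
    ∀ y ∈ frontier (M.Bk v j).N, 2 / 2 ^ k j < dist (M.φ x) (M.φ y)

/-- the piece is a whole regular cube, with the configuration of the graded cubes -/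
structure Rgo (p : M.OIx hk a hv) : Prop where
  hP : P ((M.mesh hk a hv).H (Sum.inl p)) = P ((M.ad hk a hv).T0.H p.1.par)
  hcfg : cfg (M.mesh hk a hv) (Sum.inl p) = cfg (M.ad hk a hv).T0 p.1.par
  dis : ∀ j, Disjoint (P ((M.ad hk a hv).T0.H p.1.par)) (frontier (M.Bk v j).N)

variable {M hk a hv}

theorem P_oS (p : M.OIx hk a hv) :
    P ((meshS M hk a hv).H (oS M hk a hv p)) = P ((M.mesh hk a hv).H (Sum.inl p)) := rfl

/-- every tile which meets a far tile is a regular outer cube -/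
theorem touch_far {t t' : SIx M hk a hv} (ht : Far M hk a hv t) {x : E}
    (hx : x ∈ P ((meshS M hk a hv).H t)) (hx' : x ∈ P ((meshS M hk a hv).H t')) :
    ∃ q, t' = oS M hk a hv q ∧ Rgo M hk a hv q := by
  obtain ⟨⟨p, rfl⟩, hd⟩ := ht
  rcases t' with ⟨t', ht'⟩ | c
  · rcases t' with q | ⟨j, i⟩
    · refine ⟨q, rfl, ?_⟩
      rcases AD.outer_dich' (M.inn hk a hv) q with ⟨h1, h2, h3⟩ | ⟨j, -, -, y, hy, hy2⟩
      · exact ⟨h1, h2, h3⟩
      · exfalso
        have h1 : x ∈ P ((M.ad hk a hv).T0.H q.1.par) := cut_tile_sub (hA := AF_ne) q.1 hx'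
        exact absurd (hy2 x h1) (not_le.2 (hd j x hx y hy))
    · exfalso
      have h1 : x ∈ (M.Bk v j).N := i.2 hx'
      have h2 := M.outer_touch hk a hv p hx h1
      have h3 := hd j x hx x h2
      rw [dist_self] at h3
      have h4 : (0:ℝ) < 2 / 2 ^ k j := by positivity
      linarith
  · exact absurd ⟨x, hx', hx⟩ (outer_off M hk a hv p c)

/-- the closed cells at the points of outer pieces are those of the mesh -/
theorem cc_outer {p : M.OIx hk a hv} {x : E} (hx : x ∈ P ((M.mesh hk a hv).H (Sum.inl p))) :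
    (meshS M hk a hv).cc x = (M.mesh hk a hv).cc x := by
  refine (meshS_off M hk a hv fun j hj => ?_).1
  have h1 : x ∈ (M.Bk v j).N := Kc_sub_N _ hj
  exact bp_wall (M.Bk v j) (Kc_sub_bp _ hj) (M.outer_touch hk a hv p hx h1)

theorem Rgo.cc {p : M.OIx hk a hv} (hp : Rgo M hk a hv p) {x : E}
    (hx : x ∈ P ((meshS M hk a hv).H (oS M hk a hv p))) :
    ∃ y ∈ P ((M.ad hk a hv).T0.H p.1.par),
      (meshS M hk a hv).cc x = (M.ad hk a hv).T0.cc y := by
  have h1 : (M.mesh hk a hv).cc x ∈ cfg (M.mesh hk a hv) (Sum.inl p) := ⟨x, hx, rfl⟩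
  rw [hp.hcfg] at h1
  obtain ⟨y, hy, hxy⟩ := h1
  exact ⟨y, hy, (cc_outer hx).trans hxy⟩

/-- **the 1-cells at the points of a regular outer cube** -/
theorem Rgo.edge [FiniteDimensional ℝ E] {p : M.OIx hk a hv} (hp : Rgo M hk a hv p) {x : E}
    (hx : x ∈ P ((meshS M hk a hv).H (oS M hk a hv p))) (hd : (meshS M hk a hv).dim x = 1) :
    ∃ j ∈ edF p.1.par.1.1.k p.1.par.1.1.z,
      (meshS M hk a hv).cc x = sgm (gx M.φ j + M.φ.symm a) (gv M.φ j) ∧
      sgm (gx M.φ j + M.φ.symm a) (gv M.φ j) ⊆ P ((meshS M hk a hv).H (oS M hk a hv p)) := by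
  obtain ⟨y, hy, hxy⟩ := hp.cc hx
  have hxO : x ∈ M.φ ⁻¹' M.D0.Om := (meshS M hk a hv).sub _ hx
  have hyO : y ∈ M.φ ⁻¹' (M.ad hk a hv).D.Om := (M.ad hk a hv).T0.sub _ hy
  have h2 : (M.ad hk a hv).T0.dim y = 1 := by
    rw [← hd]
    exact (dim_eq_of_cc_eq (meshS M hk a hv) (M.ad hk a hv).T0 hxO hyO hxy).symm
  obtain ⟨j, hj, h3, h4⟩ := edge_tiling (φ := M.φ) (D := (M.ad hk a hv).D) p.1.par hy h2
  refine ⟨j, hj, hxy.trans h3, ?_⟩
  rw [P_oS, hp.hP]
  exact h4

/-- the cube of a regular outer tile -/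
theorem Rgo.P_eq {p : M.OIx hk a hv} (hp : Rgo M hk a hv p) :
    P ((meshS M hk a hv).H (oS M hk a hv p)) =
      M.φ ⁻¹' Cu a p.1.par.1.1.k p.1.par.1.1.z := by
  rw [P_oS, hp.hP]
  exact P_Hc _ _ _ _

/-- two regular outer tiles with the same cube coincide -/
theorem Rgo.inj {p q : M.OIx hk a hv} (hp : Rgo M hk a hv p) (hq : Rgo M hk a hv q)
    (h1 : p.1.par.1.1.k = q.1.par.1.1.k) (h2 : p.1.par.1.1.z = q.1.par.1.1.z) :
    oS M hk a hv p = oS M hk a hv q := by
  refine P_inj (T := meshS M hk a hv) ?_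
  rw [hp.P_eq, hq.P_eq, h1, h2]

end

end Crest.Agent.R96.Els_538
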