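/-
helper538, row 96, p ≤ 2, [ELIST] (753), part 4: class (1) = outer tiles of `meshS` away from the walls,
edges: the hypotheses `hE`, `hm` of `sum_J_cls` with the random measure `muO` (density 18).
-/
import Mathlib
import Crest.Agent.R96.Els3_538

set_option autoImplicit false
set_option linter.unusedSectionVars false
set_option maxHeartbeats 400000

open MeasureTheory Set Metric
open scoped ENNReal NNReal

namespace Crest.Agent.R96.Els_538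

open Crest.AnalysisR.VecCalc3 (R3)
open Crest.Agent.R096.Msh_715 Crest.Agent.R096.Msh_715.Tiling Crest.Agent.R096.Mal_874
open Crest.Agent.R096.Msb_432 Crest.Agent.R096.Msh_810 Crest.Agent.R096.Cut_874
open Crest.Agent.R96.Coarse_538 (seg segM)
open Crest.Agent.R96.Wm_72 (Zr IsM_sub_Zr encard_Zr)
open Crest.Agent.R96.Rmo_538 (Zg meas_Zg mem_Zg hs hs_pos muO rm_outer card_cubes card_cubes_le)
open Crest.Agent.R96.Sg1_199 (sgm sgm_eq_segment)
open Crest.Agent.R096.Sq_55 (E3 w2)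
open Crest.Agent.R096.Efi_296

noncomputable section

variable {J : Type*} {M : MD R3 3 J} {k : J → ℕ} {hk : M.Sc k} {a : R3} {v : J → R3}
  {hv : M.Adm v}

theorem pt_mem_set {E : Type*} [NormedAddCommGroup E] [NormedSpace ℝ E] {Om : Set E} {ι : Type*}
    {T : Tiling Om ι} (c : T.Cell) : c.pt ∈ c.set := by
  rw [c.set_eq]; exact T.self_mem_cc _

/-- the outer coordinates are the standard ones -/
def Std (M : MD R3 3 J) : Prop := ∀ x l, M.φ x l = x l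

theorem Std.symm (hS : Std M) (y : Fin 3 → ℝ) (l : Fin 3) : M.φ.symm y l = y l := by
  rw [← hS, M.φ.apply_symm_apply]

theorem Std.symm_φ (hS : Std M) (b : R3) : M.φ.symm (M.φ b) = b := M.φ.symm_apply_apply b

theorem hs_eq {K0 κ : ℕ} (h : K0 ≤ κ) : hs K0 (κ - K0) = 1 / 2 ^ κ := by
  unfold hs
  push_cast
  obtain ⟨d, rfl⟩ := Nat.exists_eq_add_of_le h
  rw [Nat.add_sub_cancel_left, pow_add]
  field_simp

theorem gx_std (hS : Std M) {K0 : ℕ} {j : ℕ × (Fin 3 → ℤ) × Fin 3} (h : K0 ≤ j.1) :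
    Crest.Agent.R096.Eog_922.gx M.φ j =
      Crest.Agent.R96.Coarse_538.gx (hs K0 (j.1 - K0)) j.2 := by
  ext l
  unfold Crest.Agent.R096.Eog_922.gx Crest.Agent.R96.Coarse_538.gx
  rw [hS.symm, Crest.Agent.R96.Coarse_538.ihom_apply, hs_eq h]
  simp only [vx, Pi.zero_apply, zero_add]
  ring

theorem gv_std (hS : Std M) {K0 : ℕ} {j : ℕ × (Fin 3 → ℤ) × Fin 3} (h : K0 ≤ j.1) :
    Crest.Agent.R096.Eog_922.gv M.φ j =
      Crest.Agent.R96.Coarse_538.gv (hs K0 (j.1 - K0)) j.2 := by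
  ext l
  unfold Crest.Agent.R096.Eog_922.gv Crest.Agent.R96.Coarse_538.gv
  rw [hS.symm, hs_eq h]
  unfold Crest.Agent.R96.Coarse_538.ed
  rw [PiLp.smul_apply, EuclideanSpace.single_apply, smul_eq_mul, Pi.single_apply]
  split_ifs <;> simp

theorem norm_gv (t : ℝ) (ht : 0 < t) (q : (Fin 3 → ℤ) × Fin 3) :
    ‖Crest.Agent.R96.Coarse_538.gv t q‖ = t := by
  unfold Crest.Agent.R96.Coarse_538.gv Crest.Agent.R96.Coarse_538.ed
  rw [norm_smul, EuclideanSpace.norm_single, norm_one, mul_one, Real.norm_of_nonneg ht.le]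

theorem muO_eq (φ : R3 ≃L[ℝ] (Fin 3 → ℝ)) (D : Dat 3) (K0 : ℕ) (b : R3) :
    segM (fun q : ℕ × (Fin 3 → ℤ) × Fin 3 => Crest.Agent.R96.Coarse_538.gx (hs K0 q.1) q.2)
      (fun q => Crest.Agent.R96.Coarse_538.gv (hs K0 q.1) q.2)
      (fun q => ENNReal.ofReal (‖Crest.Agent.R96.Coarse_538.gv (hs K0 q.1) q.2‖ ^ 3))
      (fun q => Zg φ D (K0 + q.1)) b = muO φ D K0 b := by
  unfold muO
  congr 1
  funext q
  rw [norm_gv _ (hs_pos K0 q.1)]

/-- the size function of the outer mesh -/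
def Dw (M : MD R3 3 J) (k : J → ℕ) : Dat 3 := outD M.D0 k M.W 0

theorem Zr_ad (s : ℕ) : Zr (M.ad hk (M.φ a) hv).D s = Zr (Dw M k) s := rfl

theorem top_Zr (τ : Top (M.ad hk (M.φ a) hv).D) :
    Cu (M.φ a) τ.1.1.k τ.1.1.z ⊆ Zr (Dw M k) τ.1.1.k := by
  obtain ⟨⟨⟨κ, z, I⟩, hτ⟩, hJ⟩ := τ
  simp only at hJ
  subst hJ
  exact IsM_sub_Zr (D := (M.ad hk (M.φ a) hv).D) hτ

/-- lower bound of the scales -/
theorem scale_ge {K0 : ℕ} (hK0 : ∀ y, M.D0.ρ y ≤ M.D0.C / 2 ^ K0) {s : ℕ} {y : Fin 3 → ℝ}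
    (hy : y ∈ Zr (Dw M k) s) : K0 ≤ s := by
  have h1 : M.D0.C ≤ 2 ^ s * (Dw M k).ρ y := hy.1
  have h2 : (Dw M k).ρ y ≤ M.D0.ρ y := outD_le_ρ0 (a := (0 : Fin 3 → ℝ)) (k := k) (W := M.W) y
  have h3 := hK0 y
  have hC := M.D0.C_pos
  by_contra hcon
  push Not at hcon
  have h4 : (2:ℝ) ^ (s + 1) ≤ 2 ^ K0 := pow_le_pow_right₀ (by norm_num) hcon
  have h5 : (2:ℝ) ^ s * (Dw M k).ρ y ≤ 2 ^ s * (M.D0.C / 2 ^ K0) := by
    gcongr
    exact h2.trans h3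
  have h6 : (2:ℝ) ^ s * (M.D0.C / 2 ^ K0) < M.D0.C := by
    rw [mul_div_assoc', div_lt_iff₀ (by positivity)]
    rw [pow_succ] at h4
    have : (0:ℝ) < 2 ^ s := by positivity
    nlinarith
  linarith

/-- the cube of a regular outer tile lies in the region of its scale -/
theorem Rgo.sub_Zr {p : M.OIx hk (M.φ a) hv} (hp : Rgo M hk (M.φ a) hv p) {y : R3}
    (hy : y ∈ P ((meshS M hk (M.φ a) hv).H (oS M hk (M.φ a) hv p))) :
    M.φ y ∈ Zr (Dw M k) p.1.par.1.1.k := by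
  rw [hp.P_eq] at hy
  exact top_Zr p.1.par hy

/-- **the edges of a regular outer tile** are edges of the graded grids -/
theorem Rgo.edge_muO (hS : Std M) {K0 : ℕ} (hK0 : ∀ y, M.D0.ρ y ≤ M.D0.C / 2 ^ K0)
    {p : M.OIx hk (M.φ a) hv} (hp : Rgo M hk (M.φ a) hv p) {x : R3}
    (hx : x ∈ P ((meshS M hk (M.φ a) hv).H (oS M hk (M.φ a) hv p)))
    (hd : (meshS M hk (M.φ a) hv).dim x = 1) :
    ∃ q : ℕ × (Fin 3 → ℤ) × Fin 3, (K0 + q.1 = p.1.par.1.1.k ∨ K0 + q.1 = p.1.par.1.1.k + 1) ∧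
      (meshS M hk (M.φ a) hv).cc x =
        seg (fun q : ℕ × (Fin 3 → ℤ) × Fin 3 => Crest.Agent.R96.Coarse_538.gx (hs K0 q.1) q.2)
          (fun q => Crest.Agent.R96.Coarse_538.gv (hs K0 q.1) q.2) a q ∧
      (meshS M hk (M.φ a) hv).cc x ⊆ Zg M.φ (Dw M k) (K0 + q.1) ∧
      (meshS M hk (M.φ a) hv).cc x ⊆
        P ((meshS M hk (M.φ a) hv).H (oS M hk (M.φ a) hv p)) := by
  have hkk : K0 ≤ p.1.par.1.1.k := scale_ge hK0 (hp.sub_Zr hx)
  obtain ⟨j, hj, h1, h2⟩ := hp.edge hx hd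
  have hj1 : j.1 = p.1.par.1.1.k ∨ j.1 = p.1.par.1.1.k + 1 := by
    unfold Crest.Agent.R096.Eog_922.edF at hj
    rcases Finset.mem_union.1 hj with h | h
    · left
      exact Finset.mem_singleton.1 (Finset.mem_product.1 h).1
    · right
      exact Finset.mem_singleton.1 (Finset.mem_product.1 h).1
  have hjK : K0 ≤ j.1 := by omega
  have e1 : K0 + (j.1 - K0) = j.1 := by omega
  refine ⟨(j.1 - K0, j.2), by simp only; omega, ?_, ?_, ?_⟩
  · rw [h1, sgm_eq_segment, seg_eq_segment, gx_std hS hjK, gv_std hS hjK, hS.symm_φ]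
    simp only
    rw [add_comm a]
  · rw [h1]
    intro y hy
    simp only [e1]
    exact mem_Zg.2 ⟨p.1.par.1.1.k, hj1, hp.sub_Zr (h2 hy)⟩
  · rw [h1]; exact h2

/-- the number of regular outer tiles at a point -/
theorem card_at_le {K' : Finset (SIx M hk (M.φ a) hv)} {y : R3}
    (h : ∀ t ∈ K', y ∈ P ((meshS M hk (M.φ a) hv).H t) ∧
      ∃ p, t = oS M hk (M.φ a) hv p ∧ Rgo M hk (M.φ a) hv p) : K'.card ≤ 24 := by
  classical
  rcases K'.eq_empty_or_nonempty with h0 | ⟨t0, ht0⟩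
  · rw [h0]; simp
  haveI : Nonempty (M.OIx hk (M.φ a) hv) := ⟨(h t0 ht0).2.choose⟩
  choose! pp hpp using fun t ht => (h t ht).2
  have hfin : {s | M.φ y ∈ Zr (Dw M k) s}.Finite :=
    Set.finite_of_encard_le_coe (k := 3) (encard_Zr _ _)
  have hcard : hfin.toFinset.card ≤ 3 := by
    have h1 := encard_Zr (Dw M k) (M.φ y)
    rw [← Set.Finite.coe_toFinset hfin, Set.encard_coe_eq_coe_finsetCard] at h1
    exact_mod_cast h1
  set F : ℕ → Finset (Fin 3 → ℤ) := fun s =>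
    Fintype.piFinset fun i => Finset.Icc (⌈ps (M.φ a) s (M.φ y) i⌉ - 1)
      ⌊ps (M.φ a) s (M.φ y) i⌋ with hF
  have h1 : K'.card ≤ (hfin.toFinset.sigma F).card := by
    refine Finset.card_le_card_of_injOn
      (fun t => ⟨(pp t).1.par.1.1.k, (pp t).1.par.1.1.z⟩) ?_ ?_
    · intro t ht
      have ht := Finset.mem_coe.1 ht
      obtain ⟨h2, h3⟩ := hpp t ht
      have h4 := (h t ht).1
      rw [h2] at h4
      rw [Finset.mem_coe, Finset.mem_sigma]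
      refine ⟨hfin.mem_toFinset.2 (h3.sub_Zr h4), ?_⟩
      rw [h3.P_eq] at h4
      exact card_cubes (M.φ a) _ (M.φ y) h4
    · intro t ht t' ht' htt
      have ht := Finset.mem_coe.1 ht
      have ht' := Finset.mem_coe.1 ht'
      simp only [Sigma.mk.injEq] at htt
      obtain ⟨h2, h3⟩ := hpp t ht
      obtain ⟨h2', h3'⟩ := hpp t' ht'
      rw [h2, h2']
      exact h3.inj h3' htt.1 (eq_of_heq htt.2)
  refine h1.trans ?_
  rw [Finset.card_sigma]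
  calc ∑ s ∈ hfin.toFinset, (F s).card ≤ ∑ _s ∈ hfin.toFinset, 8 :=
        Finset.sum_le_sum fun s _ => card_cubes_le _ s _
    _ = hfin.toFinset.card * 8 := by rw [Finset.sum_const, smul_eq_mul]
    _ ≤ 3 * 8 := by gcongr
    _ = 24 := by norm_num

section cls

variable {s : Finset (SIx M hk (M.φ a) hv)}

/-- the tiles as subsets of `R3` and of `E3` -/
theorem EdT_iff {t : SIx M hk (M.φ a) hv} {b : EgS (Te (meshS M hk (M.φ a) hv)) s} :
    EdT (Te (meshS M hk (M.φ a) hv)) s t b ↔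
      w2 '' b.1.set ⊆ P ((meshS M hk (M.φ a) hv).H t) := by
  unfold EdT
  constructor
  · rintro h _ ⟨y, hy, rfl⟩
    exact (Crest.Agent.R096.Ttr_622.mem_P_tr _ _).1 (h hy)
  · intro h y hy
    exact (Crest.Agent.R096.Ttr_622.mem_P_tr _ _).2 (h (mem_image_of_mem _ hy))

/-- **hypothesis `hE` of `sum_J_cls` for class (1)** -/
theorem outer_hE (hS : Std M) {K0 : ℕ} (hK0 : ∀ y, M.D0.ρ y ≤ M.D0.C / 2 ^ K0)
    {K : Finset s} (hK : ∀ t ∈ K, Far M hk (M.φ a) hv t) {S : Set R3}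
    (hKS : ∀ t ∈ K, P ((meshS M hk (M.φ a) hv).H t) ⊆ S) {Rr rr : s → ℝ≥0} {Λ : ℝ≥0}
    (hR : ∀ t ∈ K, ∀ p, (t : SIx M hk (M.φ a) hv) = oS M hk (M.φ a) hv p →
      (Rr t : ℝ) ≤ Λ * (1 / 2 ^ (p.1.par.1.1.k + 1)) ∧
      (rr t : ℝ) ≤ Λ * (1 / 2 ^ (p.1.par.1.1.k + 1)))
    (b : EgS (Te (meshS M hk (M.φ a) hv)) s)
    (hb : ∃ t ∈ K, EdT (Te (meshS M hk (M.φ a) hv)) s t b) :
    ∃ q : ℕ × (Fin 3 → ℤ) × Fin 3, Crest.Agent.R96.Coarse_538.gv (hs K0 q.1) q.2 ≠ 0 ∧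
      w2 '' b.1.set =
        seg (fun q : ℕ × (Fin 3 → ℤ) × Fin 3 => Crest.Agent.R96.Coarse_538.gx (hs K0 q.1) q.2)
          (fun q => Crest.Agent.R96.Coarse_538.gv (hs K0 q.1) q.2) a q ∧
      w2 '' b.1.set ⊆ Zg M.φ (Dw M k) (K0 + q.1) ∩ S ∧
      ∀ t ∈ K, EdT (Te (meshS M hk (M.φ a) hv)) s t b →
        (Rr t : ℝ) ≤ Λ * ‖Crest.Agent.R96.Coarse_538.gv (hs K0 q.1) q.2‖ ∧
        (rr t : ℝ) ≤ Λ * ‖Crest.Agent.R96.Coarse_538.gv (hs K0 q.1) q.2‖ := by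
  -- the data of one tile
  have one : ∀ t ∈ K, EdT (Te (meshS M hk (M.φ a) hv)) s t b →
      ∃ p, (t : SIx M hk (M.φ a) hv) = oS M hk (M.φ a) hv p ∧ ∃ q : ℕ × (Fin 3 → ℤ) × Fin 3,
        (K0 + q.1 = p.1.par.1.1.k ∨ K0 + q.1 = p.1.par.1.1.k + 1) ∧
        w2 '' b.1.set =
          seg (fun q : ℕ × (Fin 3 → ℤ) × Fin 3 => Crest.Agent.R96.Coarse_538.gx (hs K0 q.1) q.2)
            (fun q => Crest.Agent.R96.Coarse_538.gv (hs K0 q.1) q.2) a q ∧
        w2 '' b.1.set ⊆ Zg M.φ (Dw M k) (K0 + q.1) := by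
    intro t ht htb
    have h0 := EdT_iff.1 htb
    obtain ⟨h1, h2, h3⟩ := image_set (meshS M hk (M.φ a) hv) b.1
    have hdim : (meshS M hk (M.φ a) hv).dim
        (Crest.Agent.R96.En10_199.P3 b.1.pt) = 1 := by
      rw [h3]; exact b.2.1
    have hxT : Crest.Agent.R96.En10_199.P3 b.1.pt ∈ P ((meshS M hk (M.φ a) hv).H t) :=
      h0 (mem_image_of_mem _ (pt_mem_set b.1))
    obtain ⟨p, hp, hpR⟩ := touch_far (hK t ht) hxT hxT
    rw [hp] at hxT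
    obtain ⟨q, hq1, hq2, hq3, -⟩ := hpR.edge_muO hS hK0 hxT hdim
    exact ⟨p, hp, q, hq1, h1.trans hq2, h1 ▸ hq3⟩
  obtain ⟨t, ht, htb⟩ := hb
  obtain ⟨p, hp, q, hq1, hq2, hq3⟩ := one t ht htb
  have hpos := hs_pos K0 q.1
  have hnv := norm_gv _ hpos q.2
  refine ⟨q, fun h => ?_, hq2, fun y hy => ⟨hq3 hy, hKS t ht (EdT_iff.1 htb hy)⟩, ?_⟩
  · rw [h, norm_zero] at hnv
    linarith
  · intro t' ht' htb'
    obtain ⟨p', hp', q', hq1', hq2', -⟩ := one t' ht' htb'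
    -- the same length
    have hlen : ‖Crest.Agent.R96.Coarse_538.gv (hs K0 q.1) q.2‖ =
        ‖Crest.Agent.R96.Coarse_538.gv (hs K0 q'.1) q'.2‖ := by
      have h5 := hq2.symm.trans hq2'
      rw [seg_eq_segment, seg_eq_segment] at h5
      exact (seg_int h5 (fun _ => 0)).1
    rw [hlen, norm_gv _ (hs_pos K0 q'.1)]
    obtain ⟨h6, h7⟩ := hR t' ht' p' hp'
    have h8 : (1:ℝ) / 2 ^ (p'.1.par.1.1.k + 1) ≤ hs K0 q'.1 := by
      have h9 : hs K0 q'.1 = 1 / 2 ^ (K0 + q'.1) := by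
        have := hs_eq (K0 := K0) (κ := K0 + q'.1) (by omega)
        rwa [Nat.add_sub_cancel_left] at this
      rw [h9]
      refine one_div_le_one_div_of_le (by positivity) ?_
      exact pow_le_pow_right₀ (by norm_num) (by omega)
    exact ⟨h6.trans (by gcongr), h7.trans (by gcongr)⟩

/-- **hypothesis `hm` of `sum_J_cls` for class (1)** -/
theorem outer_hm {K : Finset s} (hK : ∀ t ∈ K, Far M hk (M.φ a) hv t)
    (b : EgS (Te (meshS M hk (M.φ a) hv)) s) (K' : Finset s) (hK' : K' ⊆ K)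
    (hb : ∀ t ∈ K', EdT (Te (meshS M hk (M.φ a) hv)) s t b) : K'.card ≤ 24 := by
  classical
  rw [← Finset.card_image_of_injective K' Subtype.val_injective]
  refine card_at_le (y := Crest.Agent.R96.En10_199.P3 b.1.pt) fun t ht => ?_
  obtain ⟨t0, ht0, rfl⟩ := Finset.mem_image.1 ht
  have h0 := EdT_iff.1 (hb t0 ht0)
  have h1 : Crest.Agent.R96.En10_199.P3 b.1.pt ∈
      P ((meshS M hk (M.φ a) hv).H (t0 : SIx M hk (M.φ a) hv)) :=
    h0 (mem_image_of_mem _ (pt_mem_set b.1))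
  exact ⟨h1, touch_far (hK t0 (hK' ht0)) h1 h1⟩

end cls

end

end Crest.Agent.R96.Els_538
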