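/-
helper538, row 96, p ≤ 2, (EL): **class statement (1)** `cls1 : Cls1` (over 565's `outer_J`, 812's
`muE`).
-/
import Mathlib
import Crest.Agent.R96.Eld1_538
import Crest.Agent.R096.Elf3_565

set_option autoImplicit false
set_option linter.unusedSectionVars false
set_option linter.style.longLine false
set_option maxHeartbeats 400000

open MeasureTheory Set Filter Metric Module
open scoped ENNReal NNReal Topology

namespace Crest.Agent.R96.Eld_538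

open Crest.AnalysisR.VecCalc3 (R3)
open Crest.Agent.R96.Coarse_538 (Cb vt Dt RM)
open Crest.Agent.R96.Intr_538 (cel)
open Crest.Agent.R096.Fce_793 (pt)
open Crest.Agent.R096.Msh_715 (P I Tiling)
open Crest.Agent.R096.Mal_874 (CB MD reOm dist_cube AD AF_ne)
open Crest.Agent.R096.Br_695 (En)
open Crest.Agent.R096.Sq_55 (E3 Sys FaceOf w2)
open Crest.Agent.R096.Cob_622 (EF)
open Crest.Agent.R096.Efi_296
open Crest.Agent.R096.Cbs_296 (SysOf)
open Crest.Agent.R096.Ca_855 (MIn dist_le_P3s)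
open Crest.Agent.R096.Rmt_816 (Bj Cl2 Cl3 norm_D0)
open Crest.Agent.R096.Onf_802 (ON)
open Crest.Agent.R96.En10_199 (P3)
open Crest.Agent.R096.Msb_432 (meshS cubH_sub Kc_sub_N)
open Crest.Agent.R96.Els_538 (SIx oS Far Std Dw touch_far)
open Crest.Agent.R096.Muf_812 (muE rm_muE muE_cel)
open Crest.Agent.R096.Elf_565 (outer_J)
open Crest.Agent.R096.Cut_874 (cut_tile_sub)

noncomputable section

/-- 565's `outer_J` for `reOm` of the mesh and another name of the shift -/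
theorem outer_J_re {J : Type*} {M : MD R3 3 J} {k : J → ℕ} {hk : M.Sc k} {a : R3} {v : J → R3}
    {hv : M.Adm v} {a' : Fin 3 → ℝ} (ha : a' = M.φ a) {Om : Set R3}
    (e : M.φ ⁻¹' M.D0.Om = Om) (hS : Std M) {K0 : ℕ} (hK0 : ∀ y, M.D0.ρ y ≤ M.D0.C / 2 ^ K0)
    (hC : 2 ≤ M.D0.C) {T : Tiling Om (SIx M hk a' hv)} (hT : T = reOm (meshS M hk a' hv) e)
    {s : Finset (SIx M hk a' hv)} {pr : (Te T).Cell → Prop}
    {X : Sys s (reps (Te T) s pr)} {Om' : Set R3} {g : R3 → ℝ≥0∞}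
    (D : EF X Om' g (EgS (Te T) s) (FcS (Te T) s pr)) {c : SIx M hk a' hv → E3}
    (hc : ∀ i, c i ∈ I ((Te T).H i))
    (hXF : ∀ x : reps (Te T) s pr, FaceOf (Te T) c (x : E3) (X.F x))
    (hXP : ∀ t : s, (X.C t).P = P ((Te T).H t))
    (hfc : ∀ b, D.fc b = w2 '' b.1.set)
    (hrE : ∀ x, D.rimE x = rimS (Te T) s (x : E3))
    (hEe : ∀ b : EgS (Te T) s, ∀ y w : R3, w2 '' b.1.set = segment ℝ y (y + w) →
      D.Ee b ≤ ENNReal.ofReal (64 * ‖w‖) * ∫⁻ σ in Ioc (0:ℝ) 1, g (y + σ • w)) {CE : ℝ≥0∞}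
    (hEf : ∀ (b : FcS (Te T) s pr) (e' : Fin 2 → R3) (x' : R3)
      (Q' : Set (ℝ × ℝ)), (∀ i, ‖e' i‖ = 1) → inner ℝ (e' 0) (e' 1) = 0 → MeasurableSet Q' →
      w2 '' b.1.set = pt e' x' '' Q' → D.Ef b ≤ CE * ∫⁻ w in Q', g (pt e' x' w))
    {K : Finset s} (hK : ∀ t ∈ K, Far M hk a' hv t) {r : s → ℝ≥0}
    (hr : ∀ t ∈ K, ∀ x : reps (Te T) s pr,
      (t : SIx M hk a' hv) ∈ (Te T).at_ (x : E3) → (X.F x).ρ ≤ r t)
    {S : Set R3} (hSm : MeasurableSet S)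
    (hKS : ∀ t ∈ K, ∀ t' : SIx M hk a' hv, (P (T.H t) ∩ P (T.H t')).Nonempty → P (T.H t') ⊆ S)
    {Λ : ℝ≥0}
    (hR : ∀ t ∈ K, ∀ p, (t : SIx M hk a' hv) = oS M hk a' hv p →
      ((X.C t).R : ℝ) ≤ Λ * (1 / 2 ^ (p.1.par.1.1.k + 1)) ∧
      (r t : ℝ) ≤ Λ * (1 / 2 ^ (p.1.par.1.1.k + 1))) :
    ∑ t ∈ K, D.J t ≤ (1580544 * (Λ:ℝ≥0∞) ^ 2 + 384 * Λ * CE) *
      ∫⁻ y in S, g y ∂(muE M.φ (Dw M k) K0 a) := by
  subst ha
  subst e
  have hT' : T = meshS M hk (M.φ a) hv := hT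
  clear hT
  subst hT'
  exact outer_J hS hK0 hC D hc hXF hXP hfc hrE hEe hEf hK hr hSm hKS hR

variable {Om W : Set R3} {ρ₀ : R3 → ℝ} {J : Type} [Finite J] {Qb : J → CB R3 3} {k0 : ℕ} {σ : ℝ}

/-- the far tiles of class (1) -/
theorem far_of_cl1 (h : MIn Om W ρ₀ Qb k0 σ) {a : R3} {i : h.ιT a} (hi : Cl1 h 4 a i) :
    Far h.M h.sc (0 + h.M.φ (h.cl a)) (h.adm a) i := by
  have hd : ∀ j, ∀ x ∈ P ((h.T a).H i), ∀ y ∈ frontier (Bj h a j).N,
      2 / 2 ^ k0 < dist (P3.symm x) (P3.symm y) := by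
    intro j x hx y hy
    refine lt_of_le_of_lt ?_ (hi.2 j x hx y hy)
    exact div_le_div_of_nonneg_right (by norm_num) (by positivity)
  refine ⟨?_, hd⟩
  have h1 := hi.1
  rcases i with ⟨p | ⟨l, i⟩, hc⟩ | ⟨l, z'⟩
  · exact ⟨p, rfl⟩
  · exact absurd (fun x hx => i.2 hx) (h1 l)
  · exact absurd (fun x hx => Kc_sub_N _ (cubH_sub _ hx)) (h1 l)

/-- the diameter of an outer piece -/
theorem diam_piece (h : MIn Om W ρ₀ Qb k0 σ) {a : R3} {i : h.ιT a}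
    {p : h.M.OIx h.sc (0 + h.M.φ (h.cl a)) (h.adm a)}
    (hp : i = oS h.M h.sc (0 + h.M.φ (h.cl a)) (h.adm a) p) {x x' : R3}
    (hx : x ∈ P ((h.T a).H i)) (hx' : x' ∈ P ((h.T a).H i)) :
    ‖x - x'‖ ≤ 4 * (1 / 2 ^ (p.1.par.1.1.k + 1)) := by
  subst hp
  have hsub : P ((h.M.mesh h.sc (0 + h.M.φ (h.cl a)) (h.adm a)).H (Sum.inl p)) ⊆
      P ((h.M.ad h.sc (0 + h.M.φ (h.cl a)) (h.adm a)).T0.H p.1.par) :=
    cut_tile_sub (hA := AF_ne) p.1
  have h1 := dist_cube ((AD.tile_T0 (M := h.M.ad h.sc (0 + h.M.φ (h.cl a)) (h.adm a)) _).1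
    (hsub hx)) ((AD.tile_T0 (M := h.M.ad h.sc (0 + h.M.φ (h.cl a)) (h.adm a)) _).1 (hsub hx'))
  have h2 := dist_le_P3s x x'
  rw [← dist_eq_norm]
  refine h2.trans ?_
  have e : (4:ℝ) * (1 / 2 ^ (p.1.par.1.1.k + 1)) = 2 * (1 / 2 ^ p.1.par.1.1.k) := by
    rw [pow_succ]; field_simp; norm_num
  rw [e]
  exact mul_le_mul_of_nonneg_left h1 (by norm_num)

theorem std_M (h : MIn Om W ρ₀ Qb k0 σ) : Std h.M := fun _ _ => rfl

/-- **CLASS STATEMENT (1)** -/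
theorem cls1 : Cls1 := by
  intro mU
  set Λ : ℝ≥0 := 4 * mU + 4 * mU ^ 2 with hΛ
  refine ⟨1580544 * (Λ:ℝ) ^ 2 + 384 * Λ * 64 + 1, 36, 144, by positivity, by norm_num,
    by norm_num, ?_⟩
  intro Om W ρ₀ J _ Qb k0 σ h
  have e2 : (1:ℝ) / 2 ^ k0 = ((2:ℝ) ^ k0)⁻¹ := one_div _
  refine ⟨fun a => muE h.M.φ (Dw h.M (fun _ => k0)) k0 a, ?_, ?_, ?_⟩
  · have h1 := rm_muE h.M.φ (Dw h.M (fun _ => k0)) k0
    rw [e2]
    have e : ENNReal.ofReal 36 = 36 := by norm_num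
    rw [e]
    exact h1
  · intro a _ z s' hs'
    have hp : (0:ℝ) < 1 / 2 ^ k0 := by positivity
    refine muE_cel (std_M h) (le_of_eq rfl) a z (by linarith) ?_
    rw [← e2]
    exact hs'
  · intro p G mN a ha s pr c R ρ m X D H K hK S hSm hKS
    have hcl : h.cl a = a := h.cl_eq (norm_D0 h a ha).le
    have key := outer_J_re (M := h.M) (hk := h.sc) (a := h.cl a) (v := fun _ => h.cl a)
      (hv := h.adm a) (a' := 0 + h.M.φ (h.cl a)) (zero_add _) h.dom (std_M h) (K0 := k0)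
      (fun y => by
        show h.D0.ρ y ≤ 6 / 2 ^ k0
        rw [h.D0_ρ]
        exact min_le_right _ _)
      (by show (2:ℝ) ≤ 6; norm_num) (T := h.T a) rfl D H.sys.c_mem H.sys.F H.sys.eP H.fc H.rim
      H.Ee (CE := 64) (fun b e' x' Q' h1 h2 h3 h4 => H.Ef b e' x' Q' ⟨h1 0, h1 1, h2⟩ h3 h4)
      (K := K) (fun t ht => far_of_cl1 h (hK t ht)) (r := fun t => m t.1 * R t.1)
      (fun t ht x hx => by
        rw [H.sys.eρ]
        exact H.ρle x x.2 t.1 t.2 hx) hSm hKS (Λ := Λ)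
      (fun t ht p hp => by
        obtain ⟨y, hy, y', hy', h1⟩ := H.RdU t.1 t.2 (hK t ht)
        have h2 := diam_piece h hp hy hy'
        have h3 := H.mleU t.1 t.2 (hK t ht)
        have h3' : (m t.1 : ℝ) ≤ mU := by exact_mod_cast h3
        have hmU : (0:ℝ) ≤ mU := NNReal.coe_nonneg _
        have hm0 : (0:ℝ) ≤ m t.1 := NNReal.coe_nonneg _
        set q : ℝ := 1 / 2 ^ (p.1.par.1.1.k + 1) with hq
        have hq0 : 0 ≤ q := by positivity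
        have h4 : (R t.1 : ℝ) ≤ 4 * mU * q := by
          calc (R t.1 : ℝ) ≤ mU * ‖y - y'‖ := h1
            _ ≤ mU * (4 * q) := mul_le_mul_of_nonneg_left h2 hmU
            _ = _ := by ring
        have eΛ : (Λ : ℝ) = 4 * mU + 4 * (mU:ℝ) ^ 2 := by rw [hΛ]; push_cast; ring
        rw [H.sys.eR]
        refine ⟨?_, ?_⟩
        · rw [eΛ]
          nlinarith [mul_nonneg (sq_nonneg (mU:ℝ)) hq0]
        · have h5 : ((m t.1 * R t.1 : ℝ≥0) : ℝ) = m t.1 * R t.1 := by push_cast; ring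
          show ((m t.1 * R t.1 : ℝ≥0) : ℝ) ≤ _
          rw [h5, eΛ]
          have h6 : (m t.1 : ℝ) * R t.1 ≤ mU * (4 * mU * q) :=
            mul_le_mul h3' h4 (NNReal.coe_nonneg _) hmU
          nlinarith [mul_nonneg hmU hq0])
    have hmu : muE h.M.φ (Dw h.M (fun _ => k0)) k0 (h.cl a) =
        muE h.M.φ (Dw h.M (fun _ => k0)) k0 a := by rw [hcl]
    rw [hmu] at key
    refine key.trans (mul_le_mul' ?_ le_rfl)
    have e1 : (Λ : ℝ≥0∞) = ENNReal.ofReal (Λ : ℝ) := by rw [ENNReal.ofReal_coe_nnreal]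
    have hΛ0 : (0:ℝ) ≤ Λ := NNReal.coe_nonneg _
    rw [e1, show (1580544 : ℝ≥0∞) = ENNReal.ofReal 1580544 by norm_num,
      show (384 : ℝ≥0∞) = ENNReal.ofReal 384 by norm_num,
      show (64 : ℝ≥0∞) = ENNReal.ofReal 64 by norm_num, ← ENNReal.ofReal_pow hΛ0,
      ← ENNReal.ofReal_mul (by norm_num), ← ENNReal.ofReal_mul (by norm_num),
      ← ENNReal.ofReal_mul (by positivity), ← ENNReal.ofReal_add (by positivity) (by positivity)]
    exact ENNReal.ofReal_le_ofReal (by linarith)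

end

end Crest.Agent.R96.Eld_538
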