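import Crest.Agent.R96.Eam3_466
import Crest.Agent.R096.Fns4_360
import Crest.Agent.R96.EaP2_899

/-!
# R96, EA p < 3 (helper466): the base mesh over 899's `fX` (exact cores on `X`, point holes off `X`)

`M : MD E3 3 X` (blocks = bricks of `X`), `Φ = fX bf cmp H`.

* `hcore_fX` : 124's `HCore` for the bricks of `X`;
* `OX` : the open sets round the holes (open 3/4 core on `X`, `f (ball (x c) (R c / 2))` off `X`),
  `isOpen_OX`, `hole_OX`, `OX_not`;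
* **`fineX_MD`** : `FineX` for 874's aligned mesh;
* **`exactX_MD`** : `Exact` for the bricks of `X`.
-/

set_option autoImplicit false
set_option linter.style.longLine false
set_option linter.unusedSectionVars false

open MeasureTheory Set Filter Topology Metric

namespace Crest.Agent.R96.Eam_466

open Crest.Agent.R096.Bsp_628 Crest.Agent.R096.Brk1_582 Crest.Agent.R096.Brk2_582
open Crest.Agent.R096.Brk3_582
open Crest.Agent.R096.Brk5_582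
open Crest.Agent.R096.Msh_715
open Crest.Agent.R96.Push_899
open Crest.Agent.R096.SkC1_961 (E3 Hom3 IsPush FoamD)
open Crest.Agent.R096.Mbf_337
open Crest.Agent.R096.EaX_766 (cbx)
open Crest.Agent.R096.Bxs_627 (ctr cb zz CoriE mem_cb shape_cb' inner_cb)
open Crest.Agent.R096.Core_124 (HCore)
open Crest.Agent.R096.Mal_874 Crest.Agent.R096.Msh_810
open Crest.Agent.R096.Fns_360
open Crest.Agent.R96.EaP_899

noncomputable section

variable {δ κ0 R c0 : ℝ} {La : Set E3} {F : Set (Bx (Fin 3))}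

/-- `HCore` for the exact bricks of `fX` -/
theorem hcore_fX (bf : BoxFoam La F δ κ0) (cmp : Cmp F R) {X : Set F} {lam : F → ℝ} {zc : F → E3}
    (H : XD bf c0 X lam zc) {c : F} (hc : c ∈ X) :
    HCore (fX bf cmp H) c ∅ 0 ((1 - lam c) * c.1.sz / 2)
      (cb c.1 (bf.pos _ c.2) (lam c) (H.pos hc).le) (lam c)
      (zz c.1 (lam c)) where
  shape := shape_mono (shape_cb' (bf.pos _ c.2) H.hκ (bf.asp _ c.2) (H.pos hc) (H.hl1 c hc) H.hc
    (H.hl c hc) H.hc2) (cm_pos H.hκ H.hc) cm_le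
  inner := by
    rw [fX_B_mem bf cmp H hc]
    exact inner_cb (bf.pos _ c.2) (H.pos hc)
  pu := by
    rw [fX_pu_mem bf cmp H hc, fX_B_mem bf cmp H hc]
    rfl
  l0 := H.pos hc
  l1 := (H.hl1 c hc).le
  lo _ := rfl
  hi _ := rfl

/-! ### open neighbourhoods of the holes -/

open Classical in
/-- open sets round the holes -/
def OX (X : Set F) (lam : F → ℝ) (La : Set E3) (fi : E3 → E3) (x : {c // c ∉ X} → E3)
    (r : {c // c ∉ X} → ℝ) (c : F) : Set E3 :=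
  if hc : c ∈ X then O34 lam c else La ∩ fi ⁻¹' ball (x ⟨c, hc⟩) (r ⟨c, hc⟩)

theorem OX_mem {X : Set F} {lam : F → ℝ} {fi : E3 → E3} {x : {c // c ∉ X} → E3}
    {r : {c // c ∉ X} → ℝ} {c : F} (hc : c ∈ X) : OX X lam La fi x r c = O34 lam c := dif_pos hc

theorem OX_not {X : Set F} {lam : F → ℝ} {fi : E3 → E3} {x : {c // c ∉ X} → E3}
    {r : {c // c ∉ X} → ℝ} {c : F} (hc : c ∉ X) :
    OX X lam La fi x r c = La ∩ fi ⁻¹' ball (x ⟨c, hc⟩) (r ⟨c, hc⟩) := dif_neg hc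

theorem isOpen_OX {X : Set F} (lam : F → ℝ) (hLa : IsOpen La) {fi : E3 → E3}
    (hfi : ContinuousOn fi La) (x : {c // c ∉ X} → E3) (r : {c // c ∉ X} → ℝ) (c : F) :
    IsOpen (OX X lam La fi x r c) := by
  by_cases hc : c ∈ X
  · rw [OX_mem hc]
    exact isOpen_interior
  · rw [OX_not hc]
    exact hfi.isOpen_inter_preimage hLa isOpen_ball

/-- the holes of `fX` lie in the open sets -/
theorem hole_OX {Om : Set E3} (bf : BoxFoam La F δ κ0) (cmp : Cmp F R) {X : Set F} {lam : F → ℝ}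
    {zc : F → E3} (H : XD bf c0 X lam zc) {f fi : E3 → E3} (hfm : MapsTo f Om La)
    (hfi : ∀ x ∈ Om, fi (f x) = x) {x : {c // c ∉ X} → E3} {r : {c // c ∉ X} → ℝ}
    (hx : ∀ c, x c ∈ Om ∧ f (x c) = zc c.1 ∧ 0 < r c) (c : F) :
    ((fX bf cmp H).B c).S ⊆ OX X lam La fi x r c := by
  by_cases hc : c ∈ X
  · rw [OX_mem hc, fX_B_mem bf cmp H hc]
    exact hole_sub (bf.pos _ c.2) (H.pos hc)
  · rw [OX_not hc, fX_B_not bf cmp H hc]
    intro y hy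
    have h1 : y = zc c := by
      funext k
      have h2 := hy k
      exact le_antisymm h2.2 h2.1
    obtain ⟨h2, h3, h4⟩ := hx ⟨c, hc⟩
    rw [h1, ← h3]
    refine ⟨hfm h2, ?_⟩
    rw [mem_preimage, hfi _ h2]
    exact mem_ball_self h4

/-- the core statement in the two forms -/
theorem cori_cbx {Om : Set E3} {f A : E3 → E3} {Q : Bx (Fin 3)} {lam κ1 κ2 : ℝ}
    (h : CoriE Om f A Q lam κ1 κ2) (x : E3)
    (hx : (x ∈ Om ∧ f x ∈ cbx Q lam) ∨ A x ∈ cbx Q ((1 + 2 * κ2) * lam)) :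
    x ∈ Om ∧ ‖f x - A x‖ ≤ κ1 * (lam * Q.sz) := by
  refine h x (hx.imp (fun h1 => ⟨h1.1, fun k => h1.2 k⟩) fun h1 k => (h1 k).trans (le_of_eq ?_))
  ring

section mesh

variable {X : Set F} (M : MD E3 3 X) {k : X → ℕ} (hk : M.Sc k) (a : Fin 3 → ℝ) {v : X → E3}
  (hv : M.Adm v)

/-- **`FineX` on the aligned mesh over `fX`** -/
theorem fineX_MD (hLa : IsOpen La) (hδ : 0 < δ) (hR : 0 < R) (bf : BoxFoam La F δ κ0)
    (cmp : Cmp F R) {lam : F → ℝ} {zc : F → E3} (H : XD bf c0 X lam zc) {f fi : E3 → E3}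
    (hfi : ∀ y ∈ M.φ ⁻¹' M.D0.Om, fi (f y) = y)
    {κ1 κ2 : ℝ} (hκ1 : 0 ≤ κ1) (hκ : κ1 * κ0 ≤ 1 / 8) {A : X → E3 ≃ᵃ[ℝ] E3}
    (hK : ∀ c : X, (M.Q c).Kc = A c ⁻¹' cbx c.1.1 (lam c.1))
    (hcor : ∀ c : X, CoriE (M.φ ⁻¹' M.D0.Om) f (trA (A c) (v c)) c.1.1 (lam c.1) κ1 κ2)
    (XR : RD M) {x : {c // c ∉ X} → E3} {Rz : {c // c ∉ X} → ℝ}
    {ρ : (Fin 3 → ℝ) → ℝ} {ε : ℝ} (hρ : ∀ u, M.D0.ρ u ≤ ρ u)
    (hF : ∀ y, M.φ y ∈ M.D0.Om → FineS (fX bf cmp H) f ε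
      (M.φ ⁻¹' closedBall (M.φ y) (ρ (M.φ y)) ∩ ((M.φ ⁻¹' M.D0.Om) ∩
        offO f (OX X lam La fi x fun c => Rz c / 2))))
    {κw η uA : X → ℝ} (hN : ∀ c : X, ∀ y ∈ (M.Bk v c).N, f y ∈ c.1.1.set ∧
      ‖f y - trA (A c) (v c) y‖ ≤ κw c * c.1.1.sz)
    (huA0 : ∀ c, 0 ≤ uA c)
    (huA : ∀ c, ∀ y y', ‖A c y' - A c y‖ ≤ uA c * dist ((M.Q c).ψ y) ((M.Q c).ψ y'))
    (hη : ∀ c : X, uA c * (XR.R c / 2 ^ (M.Q c).kc) ≤ η c * c.1.1.sz)
    (hε : ∀ c, KI δ κ0 R (cm κ0 c0) * (η c + 2 * κw c) ≤ ε)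
    {ct0 : F → M.OIx hk a hv ⊕ Σ j, M.IIx hk a hv j}
    (hct0 : ∀ c : X, ct0 c.1 = Sum.inr ⟨c, M.core hk a hv c⟩) :
    FineX (fX bf cmp H) (M.mesh hk a hv) f ε X ct0 x Rz := by
  intro t ht htz
  have hcore : ∀ c : X, P ((M.mesh hk a hv).H (Sum.inr ⟨c, M.core hk a hv c⟩)) =
      trA (A c) (v c) ⁻¹' cbx c.1.1 (lam c.1) := fun c => P_core_tr M hk a hv (hK c)
  have ht' : ∀ c : X, t ≠ Sum.inr ⟨c, M.core hk a hv c⟩ := fun c e => ht c.1 c.2 (by rw [hct0, e])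
  -- the tile is mapped off the open sets
  have hoff : P ((M.mesh hk a hv).H t) ⊆ (M.φ ⁻¹' M.D0.Om) ∩
      offO f (OX X lam La fi x fun c => Rz c / 2) := by
    intro y hy
    have hyO : y ∈ M.φ ⁻¹' M.D0.Om := (M.mesh hk a hv).sub t hy
    refine ⟨hyO, fun c => ?_⟩
    by_cases hc : c ∈ X
    · rw [OX_mem hc]
      refine off_core (bf.pos _ c.2) (bf.asp _ c.2) (H.pos hc) hκ1 hκ (hcor ⟨c, hc⟩) hyO ?_
      rw [← hcore ⟨c, hc⟩, interior_P ((M.mesh hk a hv).ne _)]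
      exact fun h => Set.disjoint_left.1 (disjoint_P_I ((M.mesh hk a hv).ne t)
        ((M.mesh hk a hv).dis t _ (ht' ⟨c, hc⟩))) hy h
    · rw [OX_not hc]
      rintro ⟨-, h⟩
      rw [mem_preimage, hfi y hyO] at h
      exact Set.disjoint_left.1 (htz ⟨c, hc⟩) hy (ball_subset_closedBall h)
  rcases t with p | ⟨c, i⟩
  · refine FineT.of_S (fineS_outer M hk a hv hρ hF p) fun y hy => ⟨hy, hoff hy⟩
  · have hi : i ≠ M.core hk a hv c := by
      rintro rfl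
      exact ht' c rfl
    have hlc : 0 < lam c.1 := H.pos c.2
    have hS : FineS (fX bf cmp H) f ε (P ((M.mesh hk a hv).H (Sum.inr ⟨c, i⟩))) := by
      refine fineS_innerM M hk a hv hLa hδ hR (Φ := fX bf cmp H) XR
        (hcore_fX bf cmp H c.2) (fun y => trA (A c) (v c) y) (κw := κw c)
        (η := η c) (fun y hy hy' => ?_) (huA0 c) (fun y y' => ?_) (hη c) (hε c) i hi
      · have h1 := hN c y hy
        have hyO : y ∈ M.φ ⁻¹' M.D0.Om := M.Vsub c (MD.N_mem hv c hy)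
        have hK' : (M.Bk v c).Kc = trA (A c) (v c) ⁻¹' cbx c.1.1 (lam c.1) := by
          rw [← M.P_core hk a hv c]
          exact hcore c
        refine ⟨⟨h1.1, ?_⟩, h1.2⟩
        rw [fX_B_mem bf cmp H c.2]
        refine half_le_tt (bf.pos _ c.1.2) hlc ?_
        refine off_core (bf.pos _ c.1.2) (bf.asp _ c.1.2) hlc hκ1 hκ (hcor c) hyO ?_
        rw [← hK']
        exact hy'
      · have h1 := huA c (y - v c) (y' - v c)
        rw [trA_apply, trA_apply]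
        refine h1.trans (le_of_eq ?_)
        rw [map_sub, map_sub, dist_sub_right]
    exact FineT.of_S hS fun y hy => hy

/-- **`Exact` on the aligned mesh over `fX`** -/
theorem exactX_MD (bf : BoxFoam La F δ κ0) (cmp : Cmp F R) {lam : F → ℝ} {zc : F → E3}
    (H : XD bf c0 X lam zc) {f : E3 → E3} {κ1 κ2 : ℝ} (h2 : κ2 ≤ 1 / 4) (h20 : 0 ≤ κ2)
    (h1 : 0 ≤ κ1) (h10 : κ1 * κ0 ≤ 1 / 4) (hlam : ∀ c ∈ X, (1 + 2 * (κ1 * κ0)) * lam c < 1)
    {A : X → E3 ≃ᵃ[ℝ] E3} (hK : ∀ c : X, (M.Q c).Kc = A c ⁻¹' cbx c.1.1 (lam c.1))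
    (hcor : ∀ c : X, CoriE (M.φ ⁻¹' M.D0.Om) f (trA (A c) (v c)) c.1.1 (lam c.1) κ1 κ2)
    {ct0 : F → M.OIx hk a hv ⊕ Σ j, M.IIx hk a hv j}
    (hct0 : ∀ c : X, ct0 c.1 = Sum.inr ⟨c, M.core hk a hv c⟩) {A' : F → E3 ≃ᵃ[ℝ] E3}
    (hA' : ∀ c : X, A' c.1 = trA (A c) (v c)) :
    ∀ c ∈ X, Exact (fX bf cmp H) (M.mesh hk a hv) f κ1 κ2 c (ct0 c) (A' c) (lam c)
      (zz c.1 (lam c)) := by
  intro c hc
  rw [hct0 ⟨c, hc⟩, hA' ⟨c, hc⟩]
  exact exact_fX (p := 0) (D := fun _ => 0) (o := 0) (u := 0) bf cmp H h2 h20 h1 h10 hc (hlam c hc) (cori_cbx (hcor ⟨c, hc⟩))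
    (P_core_tr M hk a hv (hK ⟨c, hc⟩))

end mesh

end

end Crest.Agent.R96.Eam_466
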