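/-
helper520, row 96, leaf P6-STRONG, part 1: weak convergence + norm domination ==> strong
convergence, all `1 ≤ p < ∞` (also `p = 1`).
-/
import Mathlib

set_option autoImplicit false
set_option linter.unusedSectionVars false

open MeasureTheory Filter Set
open scoped Topology ENNReal

namespace Crest.Agent.R96.Str_520

noncomputable section

variable {α : Type*} {m : MeasurableSpace α} {μ : Measure α}
variable {H : Type*} [NormedAddCommGroup H] [InnerProductSpace ℝ H]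

/-- the normalised vector (0 if `v = 0`) -/
def nz (v : H) : H := ‖v‖⁻¹ • v

theorem norm_nz_le (v : H) : ‖nz v‖ ≤ 1 := by
  rw [nz, norm_smul, norm_inv, norm_norm]
  rcases eq_or_ne v 0 with rfl | hv
  · simp
  · rw [inv_mul_cancel₀ (norm_ne_zero_iff.2 hv)]

theorem norm_smul_nz (v : H) : ‖v‖ • nz v = v := by
  rcases eq_or_ne v 0 with rfl | hv
  · simp
  · rw [nz, smul_smul, mul_inv_cancel₀ (norm_ne_zero_iff.2 hv), one_smul]

theorem inner_nz_self (v : H) : inner ℝ v (nz v) = ‖v‖ := by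
  rcases eq_or_ne v 0 with rfl | hv
  · simp
  · have h := norm_ne_zero_iff.2 hv
    rw [nz, inner_smul_right, real_inner_self_eq_norm_sq]
    field_simp

theorem inner_nz_le (w v : H) : inner ℝ w (nz v) ≤ ‖w‖ :=
  (real_inner_le_norm _ _).trans
    ((mul_le_mul_of_nonneg_left (norm_nz_le v) (norm_nonneg _)).trans (by simp))

theorem abs_inner_nz_le (w v : H) : |inner ℝ w (nz v)| ≤ ‖w‖ :=
  (abs_real_inner_le_norm _ _).trans
    ((mul_le_mul_of_nonneg_left (norm_nz_le v) (norm_nonneg _)).trans (by simp))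

/-- the pointwise inequality -/
theorem key_ineq (u w : H) {g : ℝ} (hw : ‖w‖ ≤ g) :
    ‖w - u‖ ^ 2 ≤ (g ^ 2 - ‖u‖ ^ 2) + 2 * ‖u‖ * (‖u‖ - inner ℝ w (nz u)) := by
  have h1 : inner ℝ w u = ‖u‖ * inner ℝ w (nz u) := by
    conv_lhs => rw [← norm_smul_nz u, inner_smul_right]
  have h2 : ‖w - u‖ ^ 2 = ‖w‖ ^ 2 - 2 * inner ℝ w u + ‖u‖ ^ 2 := norm_sub_sq_real w u
  have h3 : ‖w‖ ^ 2 ≤ g ^ 2 := by
    have := norm_nonneg w
    nlinarith
  rw [h2, h1]
  nlinarith

theorem aesm_nz {u : α → H} (hu : AEStronglyMeasurable u μ) :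
    AEStronglyMeasurable (fun x => nz (u x)) μ := by
  have h1 : AEStronglyMeasurable (fun x => ‖u x‖⁻¹) μ :=
    (hu.norm.aemeasurable.inv).aestronglyMeasurable
  exact h1.smul hu

/-- domination passes uniform integrability -/
theorem unifIntegrable_of_le {β γ : Type*} [NormedAddCommGroup β] [NormedAddCommGroup γ]
    {ι : Type*} {f : ι → α → β} {g : ι → α → γ} {p : ℝ≥0∞}
    (hg : UnifIntegrable g p μ) (h : ∀ n, ∀ᵐ x ∂μ, ‖f n x‖ ≤ ‖g n x‖) :
    UnifIntegrable f p μ := by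
  intro ε hε
  obtain ⟨δ, hδ, h1⟩ := hg hε
  refine ⟨δ, hδ, fun i s hs hμ => (eLpNorm_mono_ae ?_).trans (h1 i s hs hμ)⟩
  filter_upwards [h i] with x hx
  by_cases hxs : x ∈ s
  · simpa [indicator_of_mem hxs] using hx
  · simp [indicator_of_notMem hxs]

/-- **(S1), sequence form.** -/
theorem tendsto_of_dominated [IsFiniteMeasure μ] {p : ℝ≥0∞} (hp : 1 ≤ p) (hp' : p ≠ ∞)
    {u : α → H} (hu : MemLp u p μ) {w : ℕ → α → H} (hw : ∀ n, AEStronglyMeasurable (w n) μ)
    {g : ℕ → α → ℝ} (hg : ∀ n, MemLp (g n) p μ) (hwg : ∀ n, ∀ᵐ x ∂μ, ‖w n x‖ ≤ g n x)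
    (hgu : Tendsto (fun n => eLpNorm (g n - fun x => ‖u x‖) p μ) atTop (𝓝 0))
    (hweak : Tendsto (fun n => ∫ x, inner ℝ (w n x) (nz (u x)) ∂μ) atTop
      (𝓝 (∫ x, ‖u x‖ ∂μ))) :
    Tendsto (fun n => eLpNorm (w n - u) p μ) atTop (𝓝 0) := by
  have hgU : UnifIntegrable g p μ := unifIntegrable_of_tendsto_Lp hp hp' hg hu.norm hgu
  have hwU : UnifIntegrable w p μ := by
    apply unifIntegrable_of_le hgU
    intro n
    filter_upwards [hwg n] with x hx
    exact hx.trans (le_abs_self _)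
  have hwL : ∀ n, MemLp (w n) p μ := by
    intro n
    refine (hg n).mono (hw n) ?_
    filter_upwards [hwg n] with x hx
    exact hx.trans (le_abs_self _)
  -- integrability
  have hui : Integrable u μ := hu.integrable hp
  have hwi : ∀ n, Integrable (w n) μ := fun n => (hwL n).integrable hp
  have hgi : ∀ n, Integrable (g n) μ := fun n => (hg n).integrable hp
  have hwni : ∀ n, Integrable (fun x => inner ℝ (w n x) (nz (u x))) μ := by
    intro n
    refine (hwi n).norm.mono ((hw n).inner (aesm_nz hu.1)) ?_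
    filter_upwards with x
    rw [Real.norm_eq_abs, Real.norm_eq_abs, abs_of_nonneg (norm_nonneg _)]
    exact abs_inner_nz_le _ _
  -- `h n = g n - ⟨w n, û⟩`
  set h : ℕ → α → ℝ := fun n x => g n x - inner ℝ (w n x) (nz (u x)) with hh
  have hh0 : ∀ n, ∀ᵐ x ∂μ, 0 ≤ h n x := by
    intro n
    filter_upwards [hwg n] with x hx
    have := inner_nz_le (w n x) (u x)
    simp only [hh]
    linarith
  have hhi : ∀ n, Integrable (h n) μ := fun n => (hgi n).sub (hwni n)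
  have hgu1 : Tendsto (fun n => eLpNorm (g n - fun x => ‖u x‖) 1 μ) atTop (𝓝 0) := by
    have h2 : ∀ n, eLpNorm (g n - fun x => ‖u x‖) 1 μ ≤
        eLpNorm (g n - fun x => ‖u x‖) p μ * (μ univ) ^ (1 / (1:ℝ≥0∞).toReal - 1 / p.toReal) :=
      fun n => eLpNorm_le_eLpNorm_mul_rpow_measure_univ hp ((hg n).1.sub hu.1.norm)
    have h4 : (μ univ) ^ (1 / (1:ℝ≥0∞).toReal - 1 / p.toReal) ≠ ∞ := by
      apply ENNReal.rpow_ne_top_of_nonneg _ (measure_ne_top μ _)
      have h5 : 1 ≤ p.toReal := by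
        rw [← ENNReal.toReal_one]
        exact (ENNReal.toReal_le_toReal (by simp) hp').2 hp
      have h6 : 1 / p.toReal ≤ 1 := by
        rw [div_le_one (by linarith)]
        exact h5
      simp only [ENNReal.toReal_one, div_one]
      simp only [one_div] at h6 ⊢
      linarith
    have h3 : Tendsto (fun n => eLpNorm (g n - fun x => ‖u x‖) p μ *
        (μ univ) ^ (1 / (1:ℝ≥0∞).toReal - 1 / p.toReal)) atTop (𝓝 0) := by
      have := ENNReal.Tendsto.mul_const hgu (Or.inr h4)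
      simpa using this
    exact tendsto_of_tendsto_of_tendsto_of_le_of_le tendsto_const_nhds h3
      (fun _ => zero_le) h2
  have hg1 : Tendsto (fun n => ∫ x, g n x ∂μ) atTop (𝓝 (∫ x, ‖u x‖ ∂μ)) :=
    tendsto_integral_of_L1' _ hui.norm.1 (Eventually.of_forall hgi) hgu1
  have hhint : Tendsto (fun n => ∫ x, h n x ∂μ) atTop (𝓝 0) := by
    have h1 : ∀ n, ∫ x, h n x ∂μ = ∫ x, g n x ∂μ - ∫ x, inner ℝ (w n x) (nz (u x)) ∂μ :=
      fun n => integral_sub (hgi n) (hwni n)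
    simp_rw [h1]
    have := hg1.sub hweak
    simpa using this
  have hhL : Tendsto (fun n => eLpNorm (h n - fun _ => (0:ℝ)) 1 μ) atTop (𝓝 0) := by
    have h1 : ∀ n, eLpNorm (h n - fun _ => (0:ℝ)) 1 μ = ENNReal.ofReal (∫ x, h n x ∂μ) := by
      intro n
      have h2 : (h n - fun _ => (0:ℝ)) = h n := by
        funext x; simp
      rw [h2, eLpNorm_one_eq_lintegral_enorm, ofReal_integral_eq_lintegral_ofReal (hhi n) (hh0 n)]
      apply lintegral_congr_ae
      filter_upwards [hh0 n] with x hx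
      rw [Real.enorm_eq_ofReal hx]
    simp_rw [h1]
    have := (ENNReal.continuous_ofReal.tendsto 0).comp hhint
    simpa [Function.comp_def] using this
  have hM1 : TendstoInMeasure μ g atTop (fun x => ‖u x‖) :=
    tendstoInMeasure_of_tendsto_eLpNorm one_ne_zero (fun n => (hg n).1) hu.1.norm hgu1
  have hM2 : TendstoInMeasure μ h atTop (fun _ => (0:ℝ)) :=
    tendstoInMeasure_of_tendsto_eLpNorm one_ne_zero (fun n => (hhi n).1)
      aestronglyMeasurable_const hhL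
  have hM : TendstoInMeasure μ w atTop u := by
    rw [exists_seq_tendstoInMeasure_atTop_iff hw]
    intro ns hns
    obtain ⟨ms, hms, h1⟩ := (hM1.comp hns.tendsto_atTop).exists_seq_tendsto_ae
    obtain ⟨ks, hks, h2⟩ := (hM2.comp (hns.comp hms).tendsto_atTop).exists_seq_tendsto_ae
    refine ⟨ms ∘ ks, hms.comp hks, ?_⟩
    filter_upwards [h1, h2, ae_all_iff.2 hwg] with x hx1 hx2 hx3
    have hx1' : Tendsto (fun i => g (ns (ms (ks i))) x) atTop (𝓝 ‖u x‖) :=
      hx1.comp hks.tendsto_atTop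
    have hx2' : Tendsto (fun i => h (ns (ms (ks i))) x) atTop (𝓝 0) := hx2
    rw [tendsto_iff_norm_sub_tendsto_zero]
    have hsq : Tendsto (fun i => ‖w (ns ((ms ∘ ks) i)) x - u x‖ ^ 2) atTop (𝓝 0) := by
      have hb : Tendsto (fun i => (g (ns (ms (ks i))) x ^ 2 - ‖u x‖ ^ 2) +
          2 * ‖u x‖ * (‖u x‖ - (g (ns (ms (ks i))) x - h (ns (ms (ks i))) x))) atTop (𝓝 0) := by
        have e1 := (((hx1'.pow 2).sub_const (‖u x‖ ^ 2))).add
          ((tendsto_const_nhds (x := ‖u x‖)).sub (hx1'.sub hx2') |>.const_mul (2 * ‖u x‖))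
        simpa using e1
      refine squeeze_zero (fun i => by positivity) (fun i => ?_) hb
      have h3 := key_ineq (u x) (w (ns (ms (ks i))) x) (hx3 (ns (ms (ks i))))
      simp only [hh, Function.comp] at h3 ⊢
      linarith
    have := hsq.sqrt
    simpa [Real.sqrt_sq (norm_nonneg _)] using this
  exact tendsto_Lp_finite_of_tendstoInMeasure hp hp' hw hu hwU hM

/-- **(S1), epsilon-delta form.** -/
theorem exists_delta_dominated [IsFiniteMeasure μ] {p : ℝ≥0∞} (hp : 1 ≤ p) (hp' : p ≠ ∞)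
    {u : α → H} (hu : MemLp u p μ) {ε : ℝ≥0∞} (hε : 0 < ε) :
    ∃ δ : ℝ, 0 < δ ∧ ∀ (w : α → H) (g : α → ℝ), AEStronglyMeasurable w μ → MemLp g p μ →
      (∀ᵐ x ∂μ, ‖w x‖ ≤ g x) → eLpNorm (g - fun x => ‖u x‖) p μ ≤ ENNReal.ofReal δ →
      |∫ x, inner ℝ (w x) (nz (u x)) ∂μ - ∫ x, ‖u x‖ ∂μ| ≤ δ →
      eLpNorm (w - u) p μ < ε := by
  by_contra hcon
  push Not at hcon
  have h1 : ∀ n : ℕ, ∃ (w : α → H) (g : α → ℝ), AEStronglyMeasurable w μ ∧ MemLp g p μ ∧
      (∀ᵐ x ∂μ, ‖w x‖ ≤ g x) ∧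
      eLpNorm (g - fun x => ‖u x‖) p μ ≤ ENNReal.ofReal (1 / ((n:ℝ) + 1)) ∧
      |∫ x, inner ℝ (w x) (nz (u x)) ∂μ - ∫ x, ‖u x‖ ∂μ| ≤ 1 / ((n:ℝ) + 1) ∧
      ε ≤ eLpNorm (w - u) p μ := by
    intro n
    obtain ⟨w, g, a1, a2, a3, a4, a5, a6⟩ := hcon (1 / ((n:ℝ) + 1)) (by positivity)
    exact ⟨w, g, a1, a2, a3, a4, a5, a6⟩
  choose w g a1 a2 a3 a4 a5 a6 using h1
  have hlim : Tendsto (fun n : ℕ => 1 / ((n:ℝ) + 1)) atTop (𝓝 0) :=
    tendsto_one_div_add_atTop_nhds_zero_nat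
  have b1 : Tendsto (fun n => eLpNorm (g n - fun x => ‖u x‖) p μ) atTop (𝓝 0) := by
    have h2 : Tendsto (fun n : ℕ => ENNReal.ofReal (1 / ((n:ℝ) + 1))) atTop (𝓝 0) := by
      have := (ENNReal.continuous_ofReal.tendsto 0).comp hlim
      simpa [Function.comp_def] using this
    exact tendsto_of_tendsto_of_tendsto_of_le_of_le tendsto_const_nhds h2
      (fun _ => zero_le) a4
  have b2 : Tendsto (fun n => ∫ x, inner ℝ (w n x) (nz (u x)) ∂μ) atTop
      (𝓝 (∫ x, ‖u x‖ ∂μ)) := by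
    rw [tendsto_iff_norm_sub_tendsto_zero]
    exact squeeze_zero (fun _ => norm_nonneg _) a5 hlim
  have b3 := tendsto_of_dominated hp hp' hu a1 a2 a3 b1 b2
  have b4 : ε ≤ 0 := ge_of_tendsto' b3 a6
  exact absurd hε (not_lt.2 b4)

end

end Crest.Agent.R96.Str_520
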