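/-
helper520, row 96, leaf P6-STRONG, part 2: smooth cut-offs, density of test functions supported in
an open set in `L^p(ν)` for a finite measure `ν` carried by the open set.
-/
import Mathlib

set_option autoImplicit false
set_option linter.unusedSectionVars false

open MeasureTheory Filter Set
open scoped Topology ENNReal ContDiff Manifold

namespace Crest.Agent.R96.Str_520

noncomputable section

variable {E : Type*} [NormedAddCommGroup E] [NormedSpace ℝ E] [FiniteDimensional ℝ E]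
variable {H : Type*} [NormedAddCommGroup H] [NormedSpace ℝ H]

/-- smooth cut-off: `1` on the compact set `K`, supported in the open set `Ω`. -/
theorem exists_cutoff {K Ω : Set E} (hK : IsCompact K) (hΩ : IsOpen Ω) (hKΩ : K ⊆ Ω) :
    ∃ χ : E → ℝ, ContDiff ℝ ∞ χ ∧ HasCompactSupport χ ∧ tsupport χ ⊆ Ω ∧
      (∀ x, χ x ∈ Icc (0:ℝ) 1) ∧ (∀ x ∈ K, χ x = 1) := by
  obtain ⟨K', hK', hKK', hK'Ω⟩ := exists_compact_between hK hΩ hKΩ
  obtain ⟨f, hf0, hf1, hf⟩ := exists_contMDiffMap_zero_one_of_isClosed (n := (⊤ : ℕ∞)) 𝓘(ℝ, E)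
    (s := (interior K')ᶜ) (t := K) isOpen_interior.isClosed_compl hK.isClosed
    (by
      rw [Set.disjoint_left]
      intro x hx hxK
      exact hx (hKK' hxK))
  have hsupp : Function.support f ⊆ K' := by
    intro x hx
    by_contra hxK
    exact hx (hf0 (fun h => hxK (interior_subset h)))
  have hts : tsupport f ⊆ K' := closure_minimal hsupp hK'.isClosed
  refine ⟨f, f.contMDiff.contDiff, ?_, hts.trans hK'Ω, hf, fun x hx => hf1 hx⟩
  exact hK'.of_isClosed_subset (isClosed_tsupport _) hts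

variable [MeasurableSpace E] [BorelSpace E]

/-- test functions on `Ω` with values in `H` -/
structure Test (Ω : Set E) (φ : E → H) : Prop where
  smooth : ContDiff ℝ ∞ φ
  cpt : HasCompactSupport φ
  supp : tsupport φ ⊆ Ω

theorem Test.memLp {Ω : Set E} {φ : E → H} (h : Test Ω φ) (ν : Measure E) [IsFiniteMeasure ν]
    (p : ℝ≥0∞) : MemLp φ p ν :=
  h.smooth.continuous.memLp_of_hasCompactSupport h.cpt

/-- **density of test functions** -/
theorem exists_test {Ω : Set E} (hΩ : IsOpen Ω) (ν : Measure E) [IsFiniteMeasure ν]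
    (hν : ν Ωᶜ = 0) {p : ℝ≥0∞} (hp : 1 ≤ p) (hp' : p ≠ ⊤) {f : E → H} (hf : MemLp f p ν) {ε : ℝ}
    (hε : 0 < ε) : ∃ φ : E → H, Test Ω φ ∧ eLpNorm (f - φ) p ν ≤ ENNReal.ofReal ε := by
  have hε2 : 0 < ε / 2 := by positivity
  obtain ⟨δ, hδ, h1⟩ := hf.eLpNorm_indicator_le hp hp' hε2
  obtain ⟨K, hKΩ, hK, h2⟩ := hΩ.measurableSet.exists_isCompact_sdiff_lt (μ := ν)
    (measure_ne_top _ _) (ε := ENNReal.ofReal δ) (by simpa using hδ)
  obtain ⟨χ, hχs, hχc, hχΩ, hχ01, hχ1⟩ := exists_cutoff hK hΩ hKΩ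
  obtain ⟨g, hgc, hgs, hg⟩ := hf.exist_eLpNorm_sub_le hp' hp hε2
  have hKc : ν Kᶜ ≤ ENNReal.ofReal δ := by
    have h3 : Kᶜ ⊆ (Ω \ K) ∪ Ωᶜ := by
      intro x hx
      by_cases hxΩ : x ∈ Ω
      · exact Or.inl ⟨hxΩ, hx⟩
      · exact Or.inr hxΩ
    calc ν Kᶜ ≤ ν ((Ω \ K) ∪ Ωᶜ) := measure_mono h3
      _ ≤ ν (Ω \ K) + ν Ωᶜ := measure_union_le _ _
      _ = ν (Ω \ K) := by rw [hν, add_zero]
      _ ≤ ENNReal.ofReal δ := h2.le
  have h4 := h1 Kᶜ hK.measurableSet.compl hKc
  refine ⟨fun x => χ x • g x, ⟨hχs.smul hgs, ?_, ?_⟩, ?_⟩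
  · exact hχc.smul_right
  · exact (tsupport_smul_subset_left χ g).trans hχΩ
  · have h5 : (f - fun x => χ x • g x) = (fun x => χ x • (f x - g x)) + fun x => (1 - χ x) • f x := by
      funext x
      simp only [Pi.sub_apply, Pi.add_apply, smul_sub, sub_smul, one_smul]
      abel
    have hχm : AEStronglyMeasurable χ ν := hχs.continuous.aestronglyMeasurable
    have hgm : AEStronglyMeasurable g ν := hgs.continuous.aestronglyMeasurable
    have h6 : eLpNorm (fun x => χ x • (f x - g x)) p ν ≤ eLpNorm (f - g) p ν := by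
      apply eLpNorm_mono
      intro x
      rw [norm_smul, Real.norm_eq_abs, abs_of_nonneg (hχ01 x).1]
      exact mul_le_of_le_one_left (norm_nonneg _) (hχ01 x).2
    have h7 : eLpNorm (fun x => (1 - χ x) • f x) p ν ≤ eLpNorm (Kᶜ.indicator f) p ν := by
      apply eLpNorm_mono
      intro x
      by_cases hx : x ∈ K
      · simp [hχ1 x hx]
      · rw [indicator_of_mem (by exact hx), norm_smul, Real.norm_eq_abs,
          abs_of_nonneg (by linarith [(hχ01 x).2])]
        exact mul_le_of_le_one_left (norm_nonneg _) (by linarith [(hχ01 x).1])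
    rw [h5]
    calc eLpNorm ((fun x => χ x • (f x - g x)) + fun x => (1 - χ x) • f x) p ν
        ≤ eLpNorm (fun x => χ x • (f x - g x)) p ν + eLpNorm (fun x => (1 - χ x) • f x) p ν :=
          eLpNorm_add_le (hχm.smul (hf.1.sub hgm))
            ((aestronglyMeasurable_const.sub hχm).smul hf.1) hp
      _ ≤ ENNReal.ofReal (ε / 2) + ENNReal.ofReal (ε / 2) :=
          add_le_add (h6.trans hg) (h7.trans h4)
      _ = ENNReal.ofReal ε := by
          rw [← ENNReal.ofReal_add hε2.le hε2.le, add_halves]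

end

end Crest.Agent.R96.Str_520
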