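/-
helper520, row 96, leaf P6-STRONG, part 3: a linear functional on test functions dominated by a
finite measure `ν` is given by a function of norm `≤ 1` (Riesz, via `L²(ν)`).
-/
import Mathlib
import Crest.Agent.R96.Str1_520
import Crest.Agent.R96.Str2_520

set_option autoImplicit false
set_option linter.unusedSectionVars false

open MeasureTheory Filter Set
open scoped Topology ENNReal

namespace Crest.Agent.R96.Str_520

noncomputable section

variable {E : Type*} [NormedAddCommGroup E] [NormedSpace ℝ E] [FiniteDimensional ℝ E]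
  [MeasurableSpace E] [BorelSpace E]
variable {H : Type*} [NormedAddCommGroup H] [InnerProductSpace ℝ H] [FiniteDimensional ℝ H]

theorem Test.add {Ω : Set E} {φ ψ : E → H} (h : Test Ω φ) (h' : Test Ω ψ) : Test Ω (φ + ψ) where
  smooth := h.smooth.add h'.smooth
  cpt := h.cpt.add h'.cpt
  supp := (tsupport_add φ ψ).trans (union_subset h.supp h'.supp)

theorem Test.zero (Ω : Set E) : Test Ω (0 : E → H) where
  smooth := contDiff_const
  cpt := HasCompactSupport.zero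
  supp := by simp [tsupport]

theorem Test.smul {Ω : Set E} {φ : E → H} (h : Test Ω φ) (c : ℝ) : Test Ω (c • φ) where
  smooth := h.smooth.const_smul c
  cpt := h.cpt.mono (Function.support_const_smul_subset c φ)
  supp := (closure_mono (Function.support_const_smul_subset c φ)).trans h.supp

/-- the space of test functions -/
def testSub (Ω : Set E) (H : Type*) [NormedAddCommGroup H] [InnerProductSpace ℝ H]
    [FiniteDimensional ℝ H] : Submodule ℝ (E → H) where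
  carrier := {φ | Test Ω φ}
  add_mem' := fun h h' => h.add h'
  zero_mem' := Test.zero Ω
  smul_mem' := fun c _ h => h.smul c

/-- the inclusion in `L²` -/
def iota (Ω : Set E) (ν : Measure E) [IsFiniteMeasure ν] : testSub Ω H →ₗ[ℝ] Lp H 2 ν where
  toFun φ := (Test.memLp φ.2 ν 2).toLp φ.1
  map_add' φ ψ := by
    ext1
    filter_upwards [(Test.memLp (φ + ψ).2 ν 2).coeFn_toLp, (Test.memLp φ.2 ν 2).coeFn_toLp,
      (Test.memLp ψ.2 ν 2).coeFn_toLp, Lp.coeFn_add ((Test.memLp φ.2 ν 2).toLp φ.1)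
        ((Test.memLp ψ.2 ν 2).toLp ψ.1)] with x h1 h2 h3 h4
    rw [h1, h4, Pi.add_apply, h2, h3]
    rfl
  map_smul' c φ := by
    ext1
    filter_upwards [(Test.memLp (c • φ).2 ν 2).coeFn_toLp, (Test.memLp φ.2 ν 2).coeFn_toLp,
      Lp.coeFn_smul c ((Test.memLp φ.2 ν 2).toLp φ.1)] with x h1 h2 h3
    rw [h1, RingHom.id_apply, h3, Pi.smul_apply, h2]
    rfl

/-- `‖f‖₁ ≤ C ‖f‖₂` -/
theorem integral_norm_le_L2 (ν : Measure E) [IsFiniteMeasure ν] (f : Lp H 2 ν) :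
    ∫ x, ‖f x‖ ∂ν ≤ ((ν univ) ^ (1 / 2 : ℝ)).toReal * ‖f‖ := by
  have h1 : eLpNorm f 1 ν ≤ eLpNorm f 2 ν * (ν univ) ^ (1 / (1:ℝ≥0∞).toReal - 1 / (2:ℝ≥0∞).toReal) :=
    eLpNorm_le_eLpNorm_mul_rpow_measure_univ (by norm_num) (Lp.aestronglyMeasurable f)
  have h2 : (1 / (1:ℝ≥0∞).toReal - 1 / (2:ℝ≥0∞).toReal) = (1 / 2 : ℝ) := by norm_num
  rw [h2] at h1
  have h3 : ∫ x, ‖f x‖ ∂ν = (eLpNorm f 1 ν).toReal := by
    rw [eLpNorm_one_eq_lintegral_enorm, integral_norm_eq_lintegral_enorm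
      (Lp.aestronglyMeasurable f)]
  rw [h3, mul_comm, Lp.norm_def, ← ENNReal.toReal_mul]
  apply ENNReal.toReal_mono _ h1
  exact ENNReal.mul_ne_top (Lp.eLpNorm_ne_top f)
    (ENNReal.rpow_ne_top_of_nonneg (by norm_num) (measure_ne_top _ _))

theorem integral_iota (Ω : Set E) (ν : Measure E) [IsFiniteMeasure ν] (φ : testSub Ω H) :
    ∫ x, ‖(iota Ω ν φ : E → H) x‖ ∂ν = ∫ x, ‖φ.1 x‖ ∂ν := by
  apply integral_congr_ae
  filter_upwards [(Test.memLp φ.2 ν 2).coeFn_toLp] with x hx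
  show ‖((Test.memLp φ.2 ν 2).toLp φ.1 : E → H) x‖ = _
  rw [hx]

/-- representation on `L²` -/
theorem exists_repr {V W : Type*} [AddCommGroup V] [Module ℝ V] [NormedAddCommGroup W]
    [InnerProductSpace ℝ W] [CompleteSpace W] (ι : V →ₗ[ℝ] W) (T : V →ₗ[ℝ] ℝ) {C : ℝ}
    (hTb : ∀ φ, |T φ| ≤ C * ‖ι φ‖) : ∃ k : W, ∀ φ, inner ℝ k (ι φ) = T φ := by
  have hker : LinearMap.ker ι ≤ LinearMap.ker T := by
    intro φ hφ
    rw [LinearMap.mem_ker] at hφ ⊢
    have := hTb φ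
    rw [hφ, norm_zero, mul_zero] at this
    exact abs_nonpos_iff.1 this
  -- the functional on the range
  let T' : LinearMap.range ι →ₗ[ℝ] ℝ :=
    ((LinearMap.ker ι).liftQ T hker) ∘ₗ (ι.quotKerEquivRange.symm).toLinearMap
  have hT' : ∀ φ : V, T' ⟨ι φ, LinearMap.mem_range_self _ φ⟩ = T φ := by
    intro φ
    have h1 : ι.quotKerEquivRange.symm
        ⟨ι φ, LinearMap.mem_range_self _ φ⟩ = Submodule.Quotient.mk φ := by
      rw [LinearEquiv.symm_apply_eq]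
      rfl
    simp only [T', LinearMap.comp_apply, LinearEquiv.coe_coe, h1]
    rfl
  have hT'b : ∀ r, ‖T' r‖ ≤ C * ‖r‖ := by
    rintro ⟨_, φ, rfl⟩
    have h1 := hT' φ
    rw [show (⟨ι φ, ⟨φ, rfl⟩⟩ : LinearMap.range ι) =
      ⟨ι φ, LinearMap.mem_range_self _ φ⟩ from rfl, h1]
    exact hTb φ
  let T'' : LinearMap.range ι →L[ℝ] ℝ := T'.mkContinuous C hT'b
  obtain ⟨G, hG, -⟩ := _root_.exists_extension_norm_eq (LinearMap.range ι) T''
  refine ⟨(InnerProductSpace.toDual ℝ W).symm G, fun φ => ?_⟩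
  rw [InnerProductSpace.toDual_symm_apply, ← hT' φ]
  exact hG ⟨ι φ, LinearMap.mem_range_self _ φ⟩

theorem bound_L2 {Ω : Set E} (hΩ : IsOpen Ω) (ν : Measure E) [IsFiniteMeasure ν]
    (hν : ν Ωᶜ = 0) (T : testSub Ω H →ₗ[ℝ] ℝ) (hT : ∀ φ, |T φ| ≤ ∫ x, ‖φ.1 x‖ ∂ν)
    (k₀ : Lp H 2 ν) (hkT : ∀ φ : testSub Ω H, inner ℝ k₀ (iota Ω ν φ) = T φ) (f : Lp H 2 ν) :
    inner ℝ k₀ f ≤ ∫ x, ‖f x‖ ∂ν := by
  set C : ℝ := ((ν univ) ^ (1 / 2 : ℝ)).toReal with hC
  have hC0 : 0 ≤ C := ENNReal.toReal_nonneg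
  apply le_of_forall_pos_le_add
  intro ε hε
  set η : ℝ := ε / (‖k₀‖ + C + 1) with hη
  have hη0 : 0 < η := by positivity
  obtain ⟨φ, hφ, h1⟩ := exists_test hΩ ν hν (p := 2) (by norm_num) (by norm_num)
    (Lp.memLp f) hη0
  set Φ : testSub Ω H := ⟨φ, hφ⟩
  have h2 : ‖f - iota Ω ν Φ‖ ≤ η := by
    rw [Lp.norm_def]
    have h3 : eLpNorm (f - iota Ω ν Φ : Lp H 2 ν) 2 ν = eLpNorm ((f : E → H) - φ) 2 ν := by
      apply eLpNorm_congr_ae
      filter_upwards [Lp.coeFn_sub f (iota Ω ν Φ), (Test.memLp Φ.2 ν 2).coeFn_toLp]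
        with x hx1 hx2
      rw [hx1, Pi.sub_apply, Pi.sub_apply]
      congr 1
    rw [h3]
    exact ENNReal.toReal_le_of_le_ofReal hη0.le h1
  have h4 : inner ℝ k₀ f = inner ℝ k₀ (f - iota Ω ν Φ) + T Φ := by
    rw [← hkT, inner_sub_right]; ring
  have h5 : inner ℝ k₀ (f - iota Ω ν Φ) ≤ ‖k₀‖ * η :=
    (real_inner_le_norm _ _).trans (mul_le_mul_of_nonneg_left h2 (norm_nonneg _))
  have h6 : T Φ ≤ ∫ x, ‖f x‖ ∂ν + C * η := by
    refine (le_abs_self _).trans ((hT Φ).trans ?_)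
    rw [← integral_iota]
    have h7 : ∫ x, ‖(iota Ω ν Φ : E → H) x‖ ∂ν ≤
        ∫ x, (‖f x‖ + ‖(f - iota Ω ν Φ : Lp H 2 ν) x‖) ∂ν := by
      apply integral_mono_ae
      · exact ((Lp.memLp (iota Ω ν Φ)).integrable (by norm_num)).norm
      · exact ((Lp.memLp f).integrable (by norm_num)).norm.add
          ((Lp.memLp (f - iota Ω ν Φ)).integrable (by norm_num)).norm
      · filter_upwards [Lp.coeFn_sub f (iota Ω ν Φ)] with x hx
        rw [hx, Pi.sub_apply]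
        have := norm_sub_norm_le ((iota Ω ν Φ : E → H) x) (f x)
        rw [norm_sub_rev] at this
        linarith
    refine h7.trans ?_
    rw [integral_add ((Lp.memLp f).integrable (by norm_num)).norm
      ((Lp.memLp (f - iota Ω ν Φ)).integrable (by norm_num)).norm]
    have h8 := integral_norm_le_L2 ν (f - iota Ω ν Φ)
    have h9 : C * ‖f - iota Ω ν Φ‖ ≤ C * η := mul_le_mul_of_nonneg_left h2 hC0
    linarith
  have h10 : (‖k₀‖ + C) * η ≤ ε := by
    rw [hη, mul_div_assoc', div_le_iff₀ (by positivity)]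
    nlinarith [norm_nonneg k₀]
  calc inner ℝ k₀ f = inner ℝ k₀ (f - iota Ω ν Φ) + T Φ := h4
    _ ≤ ‖k₀‖ * η + (∫ x, ‖f x‖ ∂ν + C * η) := add_le_add h5 h6
    _ ≤ ∫ x, ‖f x‖ ∂ν + ε := by linarith

theorem null_of_bound (ν : Measure E) [IsFiniteMeasure ν] (k₀ : Lp H 2 ν)
    (hb : ∀ f : Lp H 2 ν, inner ℝ k₀ f ≤ ∫ x, ‖f x‖ ∂ν) : ν {x | 1 < ‖k₀ x‖} = 0 := by
  have hkm := Lp.stronglyMeasurable k₀
  set A : Set E := {x | 1 < ‖k₀ x‖} with hA
  have hAm : MeasurableSet A := measurableSet_lt measurable_const hkm.norm.measurable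
  have hnzm : StronglyMeasurable (fun x => nz (k₀ x)) := by
    have h1 : StronglyMeasurable (fun x => ‖k₀ x‖⁻¹) := hkm.norm.measurable.inv.stronglyMeasurable
    exact h1.smul hkm
  have hψm : MemLp (A.indicator fun x => nz (k₀ x)) 2 ν := by
    refine MemLp.of_bound (hnzm.aestronglyMeasurable.indicator hAm) 1 ?_
    filter_upwards with x
    exact (norm_indicator_le_norm_self _ _).trans (norm_nz_le _)
  have h1 := hb hψm.toLp
  have h2 : inner ℝ k₀ hψm.toLp = ∫ x in A, ‖k₀ x‖ ∂ν := by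
    rw [L2.inner_def, ← integral_indicator hAm]
    apply integral_congr_ae
    filter_upwards [hψm.coeFn_toLp] with x hx
    rw [hx]
    by_cases hxA : x ∈ A
    · simp only [indicator_of_mem hxA]
      exact inner_nz_self _
    · simp only [indicator_of_notMem hxA, inner_zero_right]
  have h3 : ∫ x, ‖(hψm.toLp : E → H) x‖ ∂ν = ∫ x in A, (1:ℝ) ∂ν := by
    rw [← integral_indicator hAm]
    apply integral_congr_ae
    filter_upwards [hψm.coeFn_toLp] with x hx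
    rw [hx]
    by_cases hxA : x ∈ A
    · simp only [indicator_of_mem hxA]
      have h4 : ‖k₀ x‖ ≠ 0 := by
        have : 1 < ‖k₀ x‖ := hxA
        positivity
      rw [nz, norm_smul, norm_inv, norm_norm, inv_mul_cancel₀ h4]
    · simp only [indicator_of_notMem hxA, norm_zero]
  rw [h2, h3] at h1
  have hki : Integrable (fun x => ‖k₀ x‖) ν := ((Lp.memLp k₀).integrable (by norm_num)).norm
  have h5 : ∫ x in A, (‖k₀ x‖ - 1) ∂ν ≤ 0 := by
    rw [integral_sub hki.integrableOn (integrable_const _).integrableOn]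
    linarith
  have h6 : ∀ᵐ x ∂(ν.restrict A), 0 ≤ ‖k₀ x‖ - 1 := by
    filter_upwards [ae_restrict_mem hAm] with x hx
    have : 1 < ‖k₀ x‖ := hx
    linarith
  have h7 : ∫ x in A, (‖k₀ x‖ - 1) ∂ν = 0 := le_antisymm h5 (integral_nonneg_of_ae h6)
  rw [integral_eq_zero_iff_of_nonneg_ae h6
    (hki.integrableOn.sub (integrable_const _).integrableOn)] at h7
  have h8 : ∀ᵐ x ∂(ν.restrict A), False := by
    filter_upwards [ae_restrict_mem hAm, h7] with x hx1 hx2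
    have : 1 < ‖k₀ x‖ := hx1
    simp only [Pi.zero_apply] at hx2
    linarith
  rw [ae_iff] at h8
  simpa using h8

/-- **dominated functionals are functions** -/
theorem riesz_dominated {Ω : Set E} (hΩ : IsOpen Ω) (ν : Measure E) [IsFiniteMeasure ν]
    (hν : ν Ωᶜ = 0) (T : testSub Ω H →ₗ[ℝ] ℝ) (hT : ∀ φ, |T φ| ≤ ∫ x, ‖φ.1 x‖ ∂ν) :
    ∃ k : E → H, StronglyMeasurable k ∧ (∀ x, ‖k x‖ ≤ 1) ∧
      ∀ φ : testSub Ω H, T φ = ∫ x, inner ℝ (k x) (φ.1 x) ∂ν := by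
  obtain ⟨k₀, hkT⟩ := exists_repr (iota (H := H) Ω ν) T (C := ((ν univ) ^ (1 / 2 : ℝ)).toReal)
    (fun φ => by
      refine (hT φ).trans ?_
      rw [← integral_iota]
      exact integral_norm_le_L2 ν _)
  have hb := bound_L2 hΩ ν hν T hT k₀ hkT
  have hA0 := null_of_bound ν k₀ hb
  have hkm := Lp.stronglyMeasurable k₀
  have hAm : MeasurableSet {x | 1 < ‖k₀ x‖} :=
    measurableSet_lt measurable_const hkm.norm.measurable
  refine ⟨{x | 1 < ‖k₀ x‖}ᶜ.indicator k₀, hkm.indicator hAm.compl, ?_, ?_⟩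
  · intro x
    by_cases hx : x ∈ {x | 1 < ‖k₀ x‖}
    · rw [indicator_of_notMem (show x ∉ {x | 1 < ‖k₀ x‖}ᶜ from fun h => h hx), norm_zero]
      exact zero_le_one
    · rw [indicator_of_mem (show x ∈ {x | 1 < ‖k₀ x‖}ᶜ from hx)]
      exact not_lt.1 hx
  · intro φ
    rw [← hkT, L2.inner_def]
    apply integral_congr_ae
    have hA0' : ∀ᵐ x ∂ν, x ∉ {x | 1 < ‖k₀ x‖} := measure_eq_zero_iff_ae_notMem.1 hA0
    filter_upwards [hA0', (Test.memLp φ.2 ν 2).coeFn_toLp] with x hx1 hx2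
    rw [indicator_of_mem (show x ∈ {x | 1 < ‖k₀ x‖}ᶜ from hx1)]
    congr 1

end

end Crest.Agent.R96.Str_520
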