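/-
helper520, row 96, leaf P6-STRONG, part 4: vector valued weak derivatives; closedness; weak
convergence of dominated derivatives; the strong closeness theorem.
-/
import Mathlib
import Crest.Agent.R96.Str3_520

set_option autoImplicit false
set_option linter.unusedSectionVars false

open MeasureTheory Filter Set
open scoped Topology ENNReal

namespace Crest.Agent.R96.Str_520

noncomputable section

variable {E : Type*} [NormedAddCommGroup E] [NormedSpace ℝ E] [FiniteDimensional ℝ E]
  [MeasurableSpace E] [BorelSpace E] {μ : Measure E}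
variable {H : Type*} [NormedAddCommGroup H] [InnerProductSpace ℝ H] [FiniteDimensional ℝ H]

/-- `g` is the weak derivative of the vector valued function `v` in the direction `e` on `Ω`
(tested with vector valued test functions). -/
structure WDv (Ω : Set E) (μ : Measure E) (v g : E → H) (e : E) : Prop where
  lv : LocallyIntegrableOn v Ω μ
  lg : LocallyIntegrableOn g Ω μ
  weak : ∀ φ : E → H, Test Ω φ →
    ∫ x, inner ℝ (v x) (fderiv ℝ φ x e) ∂μ = - ∫ x, inner ℝ (g x) (φ x) ∂μ

theorem Test.deriv {Ω : Set E} {φ : E → H} (h : Test Ω φ) (e : E) :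
    Test Ω (fun x => fderiv ℝ φ x e) where
  smooth := (h.smooth.fderiv_right (m := (⊤ : ℕ∞)) (by simp)).clm_apply contDiff_const
  cpt := h.cpt.fderiv_apply ℝ e
  supp := (closure_mono (by
    intro x hx
    have h1 : fderiv ℝ φ x ≠ 0 := by
      intro h0
      apply hx
      show fderiv ℝ φ x e = 0
      rw [h0]; rfl
    exact h1)).trans ((tsupport_fderiv_subset ℝ (f := φ)).trans h.supp)

theorem integrable_inner {Ω : Set E} {v : E → H} (hv : LocallyIntegrableOn v Ω μ) {φ : E → H}
    (h : Test Ω φ) : Integrable (fun x => inner ℝ (v x) (φ x)) μ := by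
  have h1 : IntegrableOn v (tsupport φ) μ := hv.integrableOn_compact_subset h.supp h.cpt
  obtain ⟨C, hC⟩ := h.smooth.continuous.bounded_above_of_compact_support h.cpt
  have h2 : Integrable ((tsupport φ).indicator v) μ :=
    h1.integrable_indicator (isClosed_tsupport φ).measurableSet
  have h3 : Integrable (fun x => inner ℝ ((tsupport φ).indicator v x) (φ x)) μ := by
    refine Integrable.mono' (h2.norm.mul_const C)
      (h2.1.inner h.smooth.continuous.aestronglyMeasurable) (Eventually.of_forall fun x => ?_)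
    exact (norm_inner_le_norm _ _).trans (mul_le_mul_of_nonneg_left (hC x) (norm_nonneg _))
  refine h3.congr (Eventually.of_forall fun x => ?_)
  by_cases hx : x ∈ tsupport φ
  · simp only [indicator_of_mem hx]
  · have : φ x = 0 := image_eq_zero_of_notMem_tsupport hx
    simp [this]

theorem Test.eq_zero {Ω : Set E} {φ : E → H} (h : Test Ω φ) {x : E} (hx : x ∉ Ω) : φ x = 0 :=
  image_eq_zero_of_notMem_tsupport (fun h' => hx (h.supp h'))

/-- the functional `φ ↦ ∫ ⟨v, ∂_e φ⟩` -/
def distr {Ω : Set E} (μ : Measure E) {v : E → H} (hv : LocallyIntegrableOn v Ω μ) (e : E) :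
    testSub Ω H →ₗ[ℝ] ℝ where
  toFun φ := ∫ x, inner ℝ (v x) (fderiv ℝ φ.1 x e) ∂μ
  map_add' φ ψ := by
    rw [← integral_add (integrable_inner hv (Test.deriv φ.2 e))
      (integrable_inner hv (Test.deriv ψ.2 e))]
    apply integral_congr_ae
    filter_upwards with x
    have h1 : fderiv ℝ ((φ + ψ : testSub Ω H) : E → H) x = fderiv ℝ φ.1 x + fderiv ℝ ψ.1 x := by
      rw [Submodule.coe_add]
      exact fderiv_add ((Test.smooth φ.2).differentiable (by simp)).differentiableAt
        ((Test.smooth ψ.2).differentiable (by simp)).differentiableAt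
    show inner ℝ (v x) (fderiv ℝ ((φ + ψ : testSub Ω H) : E → H) x e) = _
    rw [h1, ContinuousLinearMap.add_apply, inner_add_right]
  map_smul' c φ := by
    rw [RingHom.id_apply, smul_eq_mul, ← integral_const_mul]
    apply integral_congr_ae
    filter_upwards with x
    have h1 : fderiv ℝ ((c • φ : testSub Ω H) : E → H) x = c • fderiv ℝ φ.1 x := by
      rw [Submodule.coe_smul]
      exact fderiv_const_smul ((Test.smooth φ.2).differentiable (by simp)).differentiableAt c
    show inner ℝ (v x) (fderiv ℝ ((c • φ : testSub Ω H) : E → H) x e) = _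
    rw [h1, ContinuousLinearMap.smul_apply, inner_smul_right]

/-- **a distributional derivative dominated by an `L¹` density is a function** (sharp norm). -/
theorem exists_wdv_of_bound {Ω : Set E} (hΩ : IsOpen Ω) {v : E → H}
    (hv : LocallyIntegrableOn v Ω μ) {e : E} {m : E → ℝ} (hm : IntegrableOn m Ω μ)
    (hm0 : ∀ x, 0 ≤ m x)
    (hb : ∀ φ : E → H, Test Ω φ →
      |∫ x, inner ℝ (v x) (fderiv ℝ φ x e) ∂μ| ≤ ∫ x in Ω, ‖φ x‖ * m x ∂μ) :
    ∃ g : E → H, WDv Ω μ v g e ∧ (∀ x, ‖g x‖ ≤ m x) ∧ IntegrableOn g Ω μ := by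
  set ν : Measure E := (μ.restrict Ω).withDensity (fun x => ENNReal.ofReal (m x)) with hν
  have hmm : AEMeasurable (fun x => ENNReal.ofReal (m x)) (μ.restrict Ω) :=
    hm.1.aemeasurable.ennreal_ofReal
  have hfin : ∀ᵐ x ∂(μ.restrict Ω), ENNReal.ofReal (m x) < ∞ :=
    Eventually.of_forall fun x => ENNReal.ofReal_lt_top
  have hνf : IsFiniteMeasure ν := by
    apply isFiniteMeasure_withDensity_ofReal hm.2
  have hν0 : ν Ωᶜ = 0 := by
    have h1 : ν ≪ μ.restrict Ω := withDensity_absolutelyContinuous _ _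
    apply h1
    rw [Measure.restrict_apply hΩ.measurableSet.compl]
    simp
  have hint : ∀ F : E → ℝ, ∫ x, F x ∂ν = ∫ x in Ω, m x * F x ∂μ := by
    intro F
    rw [hν, integral_withDensity_eq_integral_toReal_smul₀ hmm hfin]
    apply integral_congr_ae
    filter_upwards with x
    rw [ENNReal.toReal_ofReal (hm0 x), smul_eq_mul]
  obtain ⟨k, hkm, hk1, hk⟩ := riesz_dominated hΩ ν hν0 (distr μ hv e) (by
    intro φ
    rw [hint]
    refine (hb φ.1 φ.2).trans (le_of_eq ?_)
    apply integral_congr_ae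
    filter_upwards with x
    ring)
  have hgi : IntegrableOn (fun x => -(m x) • k x) Ω μ := by
    refine Integrable.mono' hm (hm.1.neg.smul hkm.aestronglyMeasurable) ?_
    filter_upwards with x
    rw [norm_smul, norm_neg, Real.norm_eq_abs, abs_of_nonneg (hm0 x)]
    exact mul_le_of_le_one_right (hm0 x) (hk1 x)
  refine ⟨fun x => -(m x) • k x, ⟨hv, hgi.locallyIntegrableOn, ?_⟩, ?_, hgi⟩
  · intro φ hφ
    have h1 := hk ⟨φ, hφ⟩
    rw [hint] at h1
    have h2 : distr μ hv e ⟨φ, hφ⟩ = ∫ x, inner ℝ (v x) (fderiv ℝ φ x e) ∂μ := rfl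
    rw [← h2, h1]
    rw [← integral_neg]
    have h3 : ∫ x in Ω, m x * inner ℝ (k x) (φ x) ∂μ = ∫ x, m x * inner ℝ (k x) (φ x) ∂μ := by
      apply setIntegral_eq_integral_of_forall_compl_eq_zero
      intro x hx
      rw [hφ.eq_zero hx, inner_zero_right, mul_zero]
    show ∫ x in Ω, m x * inner ℝ (k x) (φ x) ∂μ = _
    rw [h3]
    apply integral_congr_ae
    filter_upwards with x
    rw [inner_smul_left]
    simp
  · intro x
    rw [norm_smul, norm_neg, Real.norm_eq_abs, abs_of_nonneg (hm0 x)]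
    exact mul_le_of_le_one_right (hm0 x) (hk1 x)

/-- **weak closeness of dominated derivatives.** -/
theorem exists_delta_weak {Ω : Set E} (hΩ : IsOpen Ω) {v u : E → H} {e : E}
    (h : WDv Ω μ v u e) (hu : IntegrableOn u Ω μ) {w : E → H}
    (hw : AEStronglyMeasurable w (μ.restrict Ω)) (hw1 : ∀ x, ‖w x‖ ≤ 1)
    {m : E → ℝ} (hm : IntegrableOn m Ω μ) (hm0 : ∀ x, 0 ≤ m x) {ε : ℝ} (hε : 0 < ε) :
    ∃ K : Set E, IsCompact K ∧ K ⊆ Ω ∧ ∃ δ : ℝ, 0 < δ ∧ ∀ (v' u' : E → H) (m' : E → ℝ),
      WDv Ω μ v' u' e → IntegrableOn m' Ω μ → (∀ᵐ x ∂(μ.restrict Ω), ‖u' x‖ ≤ m' x) →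
      ∫ x in Ω, |m' x - m x| ∂μ ≤ δ → ∫ x in K, ‖v' x - v x‖ ∂μ ≤ δ →
      |∫ x in Ω, inner ℝ (u' x) (w x) ∂μ - ∫ x in Ω, inner ℝ (u x) (w x) ∂μ| ≤ ε := by
  set M : E → ℝ := fun x => m x + ‖u x‖ with hM
  have hMi : IntegrableOn M Ω μ := hm.add hu.norm
  have hM0 : ∀ x, 0 ≤ M x := fun x => add_nonneg (hm0 x) (norm_nonneg _)
  set ν : Measure E := (μ.restrict Ω).withDensity (fun x => ENNReal.ofReal (M x)) with hν
  have hmm : AEMeasurable (fun x => ENNReal.ofReal (M x)) (μ.restrict Ω) :=
    hMi.1.aemeasurable.ennreal_ofReal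
  have hfin : ∀ᵐ x ∂(μ.restrict Ω), ENNReal.ofReal (M x) < ∞ :=
    Eventually.of_forall fun x => ENNReal.ofReal_lt_top
  have hνf : IsFiniteMeasure ν := isFiniteMeasure_withDensity_ofReal hMi.2
  have hνac : ν ≪ μ.restrict Ω := withDensity_absolutelyContinuous _ _
  have hν0 : ν Ωᶜ = 0 := by
    apply hνac
    rw [Measure.restrict_apply hΩ.measurableSet.compl]
    simp
  have hint : ∀ F : E → ℝ, ∫ x, F x ∂ν = ∫ x in Ω, M x * F x ∂μ := by
    intro F
    rw [hν, integral_withDensity_eq_integral_toReal_smul₀ hmm hfin]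
    apply integral_congr_ae
    filter_upwards with x
    rw [ENNReal.toReal_ofReal (hM0 x), smul_eq_mul]
  have hwν : MemLp w 1 ν :=
    MemLp.of_bound (hw.mono_ac hνac) 1 (Eventually.of_forall hw1)
  have hε4 : 0 < ε / 4 := by positivity
  obtain ⟨φ, hφ, hφ1⟩ := exists_test hΩ ν hν0 (p := 1) le_rfl (by norm_num) hwν hε4
  -- the two bounds of the test function
  obtain ⟨C, hC⟩ := hφ.smooth.continuous.bounded_above_of_compact_support hφ.cpt
  obtain ⟨C', hC'⟩ := (hφ.deriv e).smooth.continuous.bounded_above_of_compact_support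
    (hφ.deriv e).cpt
  have hC0 : 0 ≤ C := (norm_nonneg _).trans (hC 0)
  have hC'0 : 0 ≤ C' := (norm_nonneg _).trans (hC' 0)
  have hwφ : ∫ x in Ω, M x * ‖w x - φ x‖ ∂μ ≤ ε / 4 := by
    have h1 : ∫ x, ‖w x - φ x‖ ∂ν = ∫ x in Ω, M x * ‖w x - φ x‖ ∂μ := hint _
    rw [← h1]
    have h2 : ∫ x, ‖w x - φ x‖ ∂ν = (eLpNorm (w - φ) 1 ν).toReal := by
      rw [eLpNorm_one_eq_lintegral_enorm, ← integral_norm_eq_lintegral_enorm
        (hwν.1.sub hφ.smooth.continuous.aestronglyMeasurable)]
      rfl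
    rw [h2]
    exact ENNReal.toReal_le_of_le_ofReal hε4.le hφ1
  set δ : ℝ := min (ε / (4 * (1 + C))) (ε / (4 * (1 + C'))) with hδ
  have hδ0 : 0 < δ := lt_min (by positivity) (by positivity)
  refine ⟨tsupport φ, hφ.cpt, hφ.supp, δ, hδ0, ?_⟩
  intro v' u' m' h' hm' hum' hmm' hvv'
  have hu'i : IntegrableOn u' Ω μ := by
    refine Integrable.mono' hm' ?_ hum'
    have := h'.lg
    exact this.aestronglyMeasurable
  have hwm : ∀ (z : E → H), IntegrableOn z Ω μ →
      Integrable (fun x => inner ℝ (z x) (w x)) (μ.restrict Ω) := by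
    intro z hz
    refine Integrable.mono' hz.norm (hz.1.inner hw) (Eventually.of_forall fun x => ?_)
    exact (norm_inner_le_norm _ _).trans (mul_le_of_le_one_right (norm_nonneg _) (hw1 x))
  have hφm : ∀ (z : E → H), IntegrableOn z Ω μ →
      Integrable (fun x => inner ℝ (z x) (φ x)) (μ.restrict Ω) := by
    intro z hz
    refine Integrable.mono' (hz.norm.mul_const C)
      (hz.1.inner hφ.smooth.continuous.aestronglyMeasurable) (Eventually.of_forall fun x => ?_)
    exact (norm_inner_le_norm _ _).trans (mul_le_mul_of_nonneg_left (hC x) (norm_nonneg _))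
  -- the difference
  have hzi : IntegrableOn (fun x => u' x - u x) Ω μ := hu'i.sub hu
  have e1 : ∫ x in Ω, inner ℝ (u' x) (w x) ∂μ - ∫ x in Ω, inner ℝ (u x) (w x) ∂μ =
      ∫ x in Ω, inner ℝ (u' x - u x) (w x - φ x) ∂μ +
        ∫ x in Ω, inner ℝ (u' x - u x) (φ x) ∂μ := by
    rw [← integral_sub (hwm u' hu'i) (hwm u hu), ← integral_add _ (hφm _ hzi)]
    · apply integral_congr_ae
      filter_upwards with x
      rw [inner_sub_right, inner_sub_left (𝕜 := ℝ) (u' x) (u x) (w x)]
      ring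
    · have := (hwm _ hzi).sub (hφm _ hzi)
      refine this.congr (Eventually.of_forall fun x => ?_)
      simp only [Pi.sub_apply]
      rw [inner_sub_right]
  -- second term: integrate by parts
  have e2 : ∫ x in Ω, inner ℝ (u' x - u x) (φ x) ∂μ =
      - ∫ x, inner ℝ (v' x - v x) (fderiv ℝ φ x e) ∂μ := by
    have h1 : ∫ x in Ω, inner ℝ (u' x - u x) (φ x) ∂μ = ∫ x, inner ℝ (u' x - u x) (φ x) ∂μ := by
      apply setIntegral_eq_integral_of_forall_compl_eq_zero
      intro x hx
      rw [hφ.eq_zero hx, inner_zero_right]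
    rw [h1]
    have h2 := h.weak φ hφ
    have h3 := h'.weak φ hφ
    have h4 : ∫ x, inner ℝ (u' x - u x) (φ x) ∂μ =
        ∫ x, inner ℝ (u' x) (φ x) ∂μ - ∫ x, inner ℝ (u x) (φ x) ∂μ := by
      rw [← integral_sub (integrable_inner h'.lg hφ) (integrable_inner h.lg hφ)]
      apply integral_congr_ae
      filter_upwards with x
      rw [inner_sub_left]
    have h5 : ∫ x, inner ℝ (v' x - v x) (fderiv ℝ φ x e) ∂μ =
        ∫ x, inner ℝ (v' x) (fderiv ℝ φ x e) ∂μ - ∫ x, inner ℝ (v x) (fderiv ℝ φ x e) ∂μ := by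
      rw [← integral_sub (integrable_inner h'.lv (hφ.deriv e))
        (integrable_inner h.lv (hφ.deriv e))]
      apply integral_congr_ae
      filter_upwards with x
      rw [inner_sub_left]
    rw [h4, h5, h2, h3]
    ring
  have hKm : MeasurableSet (tsupport φ) := (isClosed_tsupport φ).measurableSet
  have b2 : |∫ x, inner ℝ (v' x - v x) (fderiv ℝ φ x e) ∂μ| ≤ C' * δ := by
    have hKi : IntegrableOn (fun x => v' x - v x) (tsupport φ) μ :=
      (h'.lv.integrableOn_compact_subset hφ.supp hφ.cpt).sub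
        (h.lv.integrableOn_compact_subset hφ.supp hφ.cpt)
    have h1 : ∫ x, inner ℝ (v' x - v x) (fderiv ℝ φ x e) ∂μ =
        ∫ x in tsupport φ, inner ℝ (v' x - v x) (fderiv ℝ φ x e) ∂μ := by
      symm
      apply setIntegral_eq_integral_of_forall_compl_eq_zero
      intro x hx
      have h2 : fderiv ℝ φ x = 0 := by
        by_contra h0
        exact hx (tsupport_fderiv_subset ℝ (subset_tsupport _ h0))
      rw [h2]
      simp
    rw [h1, ← Real.norm_eq_abs]
    calc ‖∫ x in tsupport φ, inner ℝ (v' x - v x) (fderiv ℝ φ x e) ∂μ‖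
        ≤ ∫ x in tsupport φ, ‖v' x - v x‖ * C' ∂μ := by
          apply norm_integral_le_of_norm_le (hKi.norm.mul_const C')
          filter_upwards with x
          exact (norm_inner_le_norm _ _).trans
            (mul_le_mul_of_nonneg_left (hC' x) (norm_nonneg _))
      _ = (∫ x in tsupport φ, ‖v' x - v x‖ ∂μ) * C' := by rw [integral_mul_const]
      _ ≤ C' * δ := by
          rw [mul_comm]
          exact mul_le_mul_of_nonneg_left hvv' hC'0
  -- first term
  have b1 : |∫ x in Ω, inner ℝ (u' x - u x) (w x - φ x) ∂μ| ≤ ε / 4 + (1 + C) * δ := by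
    have hφw : ∀ x, ‖w x - φ x‖ ≤ 1 + C := fun x =>
      (norm_sub_le _ _).trans (add_le_add (hw1 x) (hC x))
    have hbi : Integrable (fun x => M x * ‖w x - φ x‖ + |m' x - m x| * (1 + C))
        (μ.restrict Ω) := by
      apply Integrable.add
      · refine Integrable.mono' (hMi.mul_const (1 + C))
          (hMi.1.mul (hw.sub hφ.smooth.continuous.aestronglyMeasurable).norm)
          (Eventually.of_forall fun x => ?_)
        rw [norm_mul, norm_norm, Real.norm_eq_abs, abs_of_nonneg (hM0 x)]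
        exact mul_le_mul_of_nonneg_left (hφw x) (hM0 x)
      · exact ((hm'.sub hm).abs).mul_const _
    rw [← Real.norm_eq_abs]
    calc ‖∫ x in Ω, inner ℝ (u' x - u x) (w x - φ x) ∂μ‖
        ≤ ∫ x in Ω, (M x * ‖w x - φ x‖ + |m' x - m x| * (1 + C)) ∂μ := by
          apply norm_integral_le_of_norm_le hbi
          filter_upwards [hum'] with x hx
          have h1 : ‖u' x - u x‖ ≤ M x + |m' x - m x| := by
            have h2 : ‖u' x - u x‖ ≤ ‖u' x‖ + ‖u x‖ := norm_sub_le _ _
            have h3 : m' x ≤ m x + |m' x - m x| := by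
              have := le_abs_self (m' x - m x)
              linarith
            simp only [hM]
            linarith
          have h4 : 0 ≤ |m' x - m x| := abs_nonneg _
          calc ‖inner ℝ (u' x - u x) (w x - φ x)‖ ≤ ‖u' x - u x‖ * ‖w x - φ x‖ :=
                norm_inner_le_norm _ _
            _ ≤ (M x + |m' x - m x|) * ‖w x - φ x‖ :=
                mul_le_mul_of_nonneg_right h1 (norm_nonneg _)
            _ = M x * ‖w x - φ x‖ + |m' x - m x| * ‖w x - φ x‖ := by ring
            _ ≤ M x * ‖w x - φ x‖ + |m' x - m x| * (1 + C) := by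
                have := mul_le_mul_of_nonneg_left (hφw x) h4
                linarith
      _ = ∫ x in Ω, M x * ‖w x - φ x‖ ∂μ + (∫ x in Ω, |m' x - m x| ∂μ) * (1 + C) := by
          rw [integral_add, integral_mul_const]
          · refine Integrable.mono' (hMi.mul_const (1 + C))
              (hMi.1.mul (hw.sub hφ.smooth.continuous.aestronglyMeasurable).norm)
              (Eventually.of_forall fun x => ?_)
            rw [norm_mul, norm_norm, Real.norm_eq_abs, abs_of_nonneg (hM0 x)]
            exact mul_le_mul_of_nonneg_left (hφw x) (hM0 x)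
          · exact ((hm'.sub hm).abs).mul_const _
      _ ≤ ε / 4 + (1 + C) * δ := by
          have := mul_le_mul_of_nonneg_right hmm' (show (0:ℝ) ≤ 1 + C by linarith)
          linarith
  have c1 : (1 + C) * δ ≤ ε / 4 := by
    have h1 : δ ≤ ε / (4 * (1 + C)) := min_le_left _ _
    calc (1 + C) * δ ≤ (1 + C) * (ε / (4 * (1 + C))) :=
          mul_le_mul_of_nonneg_left h1 (by linarith)
      _ = ε / 4 := by field_simp
  have c2 : C' * δ ≤ ε / 4 := by
    have h1 : δ ≤ ε / (4 * (1 + C')) := min_le_right _ _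
    calc C' * δ ≤ (1 + C') * δ := by nlinarith
      _ ≤ (1 + C') * (ε / (4 * (1 + C'))) := mul_le_mul_of_nonneg_left h1 (by linarith)
      _ = ε / 4 := by field_simp
  rw [e1, e2]
  calc |∫ x in Ω, inner ℝ (u' x - u x) (w x - φ x) ∂μ +
        -∫ x, inner ℝ (v' x - v x) (fderiv ℝ φ x e) ∂μ|
      ≤ |∫ x in Ω, inner ℝ (u' x - u x) (w x - φ x) ∂μ| +
        |-∫ x, inner ℝ (v' x - v x) (fderiv ℝ φ x e) ∂μ| := abs_add_le _ _
    _ ≤ (ε / 4 + (1 + C) * δ) + C' * δ := by
        rw [abs_neg]
        exact add_le_add b1 b2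
    _ ≤ ε := by linarith

end

end Crest.Agent.R96.Str_520
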