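/-
helper520, row 96, leaf P6-STRONG, part 5: the strong closeness theorem; `L¹ + domination ⇒ Lᵖ`;
the `l¹` version for pure directions; closeness in measure of bounded maps.
-/
import Mathlib
import Crest.Agent.R96.Str4_520

set_option autoImplicit false
set_option linter.unusedSectionVars false

open MeasureTheory Filter Set
open scoped Topology ENNReal

namespace Crest.Agent.R96.Str_520

noncomputable section

section General

variable {α : Type*} {m : MeasurableSpace α} {μ : Measure α}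

theorem exists_const_L1_le_Lp [IsFiniteMeasure μ] {p : ℝ≥0∞} (hp : 1 ≤ p) (hp' : p ≠ ∞) :
    ∃ C : ℝ, 0 < C ∧ ∀ (F : Type) [NormedAddCommGroup F] (f : α → F),
      AEStronglyMeasurable f μ → ∀ δ : ℝ, 0 ≤ δ → eLpNorm f p μ ≤ ENNReal.ofReal δ →
        ∫ x, ‖f x‖ ∂μ ≤ C * δ := by
  have h4 : (μ univ) ^ (1 / (1:ℝ≥0∞).toReal - 1 / p.toReal) ≠ ∞ := by
    apply ENNReal.rpow_ne_top_of_nonneg _ (measure_ne_top μ _)
    have h5 : 1 ≤ p.toReal := by
      rw [← ENNReal.toReal_one]
      exact (ENNReal.toReal_le_toReal (by simp) hp').2 hp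
    have h6 : 1 / p.toReal ≤ 1 := by
      rw [div_le_one (by linarith)]
      exact h5
    simp only [ENNReal.toReal_one, div_one]
    simp only [one_div] at h6 ⊢
    linarith
  refine ⟨((μ univ) ^ (1 / (1:ℝ≥0∞).toReal - 1 / p.toReal)).toReal + 1, by positivity, ?_⟩
  intro F _ f hf δ hδ h
  have h1 : eLpNorm f 1 μ ≤ eLpNorm f p μ *
      (μ univ) ^ (1 / (1:ℝ≥0∞).toReal - 1 / p.toReal) :=
    eLpNorm_le_eLpNorm_mul_rpow_measure_univ hp hf
  have h2 : ∫ x, ‖f x‖ ∂μ = (eLpNorm f 1 μ).toReal := by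
    rw [eLpNorm_one_eq_lintegral_enorm, integral_norm_eq_lintegral_enorm hf]
  rw [h2]
  calc (eLpNorm f 1 μ).toReal ≤ (ENNReal.ofReal δ *
        (μ univ) ^ (1 / (1:ℝ≥0∞).toReal - 1 / p.toReal)).toReal := by
        apply ENNReal.toReal_mono (ENNReal.mul_ne_top ENNReal.ofReal_ne_top h4)
        exact h1.trans (mul_le_mul_left h _)
    _ = δ * ((μ univ) ^ (1 / (1:ℝ≥0∞).toReal - 1 / p.toReal)).toReal := by
        rw [ENNReal.toReal_mul, ENNReal.toReal_ofReal hδ]
    _ ≤ (((μ univ) ^ (1 / (1:ℝ≥0∞).toReal - 1 / p.toReal)).toReal + 1) * δ := by nlinarith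

variable {H : Type*} [NormedAddCommGroup H]

/-- `L¹`-closeness plus domination by something `Lᵖ`-close to a fixed function gives
`Lᵖ`-closeness. -/
theorem exists_delta_L1_to_Lp [IsFiniteMeasure μ] {p : ℝ≥0∞} (hp : 1 ≤ p) (hp' : p ≠ ∞)
    {u : α → H} (hu : MemLp u p μ) {g : α → ℝ} (hg : MemLp g p μ) {ε : ℝ≥0∞} (hε : 0 < ε) :
    ∃ δ : ℝ, 0 < δ ∧ ∀ (w : α → H) (g' : α → ℝ), AEStronglyMeasurable w μ → MemLp g' p μ →
      (∀ᵐ x ∂μ, ‖w x‖ ≤ g' x) → eLpNorm (g' - g) p μ ≤ ENNReal.ofReal δ →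
      eLpNorm (w - u) 1 μ ≤ ENNReal.ofReal δ → eLpNorm (w - u) p μ < ε := by
  by_contra hcon
  push Not at hcon
  have h1 : ∀ n : ℕ, ∃ (w : α → H) (g' : α → ℝ), AEStronglyMeasurable w μ ∧ MemLp g' p μ ∧
      (∀ᵐ x ∂μ, ‖w x‖ ≤ g' x) ∧
      eLpNorm (g' - g) p μ ≤ ENNReal.ofReal (1 / ((n:ℝ) + 1)) ∧
      eLpNorm (w - u) 1 μ ≤ ENNReal.ofReal (1 / ((n:ℝ) + 1)) ∧
      ε ≤ eLpNorm (w - u) p μ := by
    intro n
    obtain ⟨w, g', a1, a2, a3, a4, a5, a6⟩ := hcon (1 / ((n:ℝ) + 1)) (by positivity)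
    exact ⟨w, g', a1, a2, a3, a4, a5, a6⟩
  choose w g' a1 a2 a3 a4 a5 a6 using h1
  have hlim : Tendsto (fun n : ℕ => ENNReal.ofReal (1 / ((n:ℝ) + 1))) atTop (𝓝 0) := by
    have := (ENNReal.continuous_ofReal.tendsto 0).comp tendsto_one_div_add_atTop_nhds_zero_nat
    simpa [Function.comp_def] using this
  have b1 : Tendsto (fun n => eLpNorm (g' n - g) p μ) atTop (𝓝 0) :=
    tendsto_of_tendsto_of_tendsto_of_le_of_le tendsto_const_nhds hlim (fun _ => zero_le) a4
  have b2 : Tendsto (fun n => eLpNorm (w n - u) 1 μ) atTop (𝓝 0) :=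
    tendsto_of_tendsto_of_tendsto_of_le_of_le tendsto_const_nhds hlim (fun _ => zero_le) a5
  have hM : TendstoInMeasure μ w atTop u :=
    tendstoInMeasure_of_tendsto_eLpNorm one_ne_zero a1 hu.1 b2
  have hgU : UnifIntegrable g' p μ := unifIntegrable_of_tendsto_Lp hp hp' a2 hg b1
  have hwU : UnifIntegrable w p μ := by
    apply unifIntegrable_of_le hgU
    intro n
    filter_upwards [a3 n] with x hx
    exact hx.trans (le_abs_self _)
  have b3 := tendsto_Lp_finite_of_tendstoInMeasure hp hp' a1 hu hwU hM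
  have b4 : ε ≤ 0 := ge_of_tendsto' b3 a6
  exact absurd hε (not_lt.2 b4)

/-- bounded and close in measure implies `L¹`-close -/
theorem integral_le_of_measure {P : Set α} (hP : MeasurableSet P) (hPf : μ P ≠ ∞) {D : α → ℝ}
    (hD : IntegrableOn D P μ) {B η : ℝ} (hB : 0 ≤ B) (hη : 0 ≤ η)
    (hDB : ∀ᵐ x ∂(μ.restrict P), D x ≤ B) (hm : μ.real {x ∈ P | η < D x} ≤ η) :
    ∫ x in P, D x ∂μ ≤ η * μ.real P + B * η := by
  have : IsFiniteMeasure (μ.restrict P) := ⟨by rw [Measure.restrict_apply_univ]; exact hPf.lt_top⟩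
  -- a measurable superset of the bad set
  set S : Set α := toMeasurable μ {x ∈ P | η < D x} with hS
  have hSm : MeasurableSet S := measurableSet_toMeasurable _ _
  have hSfin : μ {x ∈ P | η < D x} ≠ ∞ :=
    ne_top_of_le_ne_top hPf (measure_mono fun x hx => hx.1)
  have hSμ : μ.real S ≤ η := by
    rw [Measure.real, hS, measure_toMeasurable]
    exact hm
  have hSf : μ S ≠ ∞ := by rw [hS, measure_toMeasurable]; exact hSfin
  have hi1 : Integrable (fun x => η + S.indicator (fun _ => B) x) (μ.restrict P) := by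
    apply Integrable.add (integrable_const _)
    exact (integrable_const B).indicator hSm
  calc ∫ x in P, D x ∂μ ≤ ∫ x in P, (η + S.indicator (fun _ => B) x) ∂μ := by
        apply integral_mono_ae hD hi1
        filter_upwards [hDB, ae_restrict_mem hP] with x hx hxP
        by_cases hxS : x ∈ S
        · rw [indicator_of_mem hxS]
          linarith
        · rw [indicator_of_notMem hxS, add_zero]
          by_contra hlt
          exact hxS (subset_toMeasurable _ _ ⟨hxP, not_le.1 hlt⟩)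
    _ = η * μ.real P + B * (μ.restrict P).real S := by
        rw [integral_add (integrable_const _) ((integrable_const B).indicator hSm),
          integral_const, integral_indicator hSm, integral_const]
        simp only [smul_eq_mul, Measure.real, Measure.restrict_apply_univ, Measure.restrict_apply hSm]
        ring
    _ ≤ η * μ.real P + B * η := by
        have h1 : (μ.restrict P).real S ≤ μ.real S :=
          ENNReal.toReal_mono hSf (Measure.restrict_apply_le P S)
        have := mul_le_mul_of_nonneg_left (h1.trans hSμ) hB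
        linarith

/-- **`l¹` version for pure directions**: if `∑ |wᵢ| ≤ g`, then
`∫ ∑ᵢ |wᵢ - c δᵢₐ| ≤ 3 ∫ |g - c| + 2 |∫ wₐ - ∫ c|`. -/
theorem pure_L1 {ι : Type*} [Fintype ι] [DecidableEq ι] (a : ι) {w : α → ι → ℝ} {g c : α → ℝ}
    (hw : ∀ i, Integrable (fun x => w x i) μ) (hg : Integrable g μ) (hc : Integrable c μ)
    (hwg : ∀ᵐ x ∂μ, ∑ i, |w x i| ≤ g x) :
    ∫ x, ∑ i, |w x i - (if i = a then c x else 0)| ∂μ ≤
      3 * ∫ x, |g x - c x| ∂μ + 2 * |∫ x, w x a ∂μ - ∫ x, c x ∂μ| := by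
  have hgc : Integrable (fun x => |g x - c x|) μ := (hg.sub hc).abs
  have hi : Integrable (fun x => ∑ i, |w x i - (if i = a then c x else 0)|) μ := by
    apply integrable_finsetSum
    intro i _
    by_cases h : i = a
    · simp only [h, if_true]
      exact ((hw a).sub hc).abs
    · simp only [h, if_false, sub_zero]
      exact (hw i).abs
  have hmaj : Integrable (fun x => 2 * (g x - w x a) + |g x - c x|) μ :=
    ((hg.sub (hw a)).const_mul 2).add hgc
  have h1 : ∫ x, ∑ i, |w x i - (if i = a then c x else 0)| ∂μ ≤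
      ∫ x, (2 * (g x - w x a) + |g x - c x|) ∂μ := by
    apply integral_mono_ae hi hmaj
    filter_upwards [hwg] with x hx
    have h2 : ∑ i, |w x i - (if i = a then c x else 0)| =
        |w x a - c x| + ∑ i ∈ Finset.univ.erase a, |w x i| := by
      rw [← Finset.add_sum_erase _ _ (Finset.mem_univ a)]
      congr 1
      · simp
      · apply Finset.sum_congr rfl
        intro i hi
        simp [Finset.ne_of_mem_erase hi]
    have h3 : ∑ i, |w x i| = |w x a| + ∑ i ∈ Finset.univ.erase a, |w x i| := by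
      rw [← Finset.add_sum_erase _ _ (Finset.mem_univ a)]
    have h4 : w x a ≤ |w x a| := le_abs_self _
    have h5 : |w x a - c x| ≤ (g x - w x a) + |g x - c x| := by
      have h6 : 0 ≤ g x - w x a := by
        have : 0 ≤ ∑ i ∈ Finset.univ.erase a, |w x i| :=
          Finset.sum_nonneg fun i _ => abs_nonneg _
        linarith
      have h7 : w x a - c x = -(g x - w x a) + (g x - c x) := by ring
      rw [h7]
      refine (abs_add_le _ _).trans ?_
      rw [abs_neg, abs_of_nonneg h6]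
    show ∑ i, |w x i - (if i = a then c x else 0)| ≤ 2 * (g x - w x a) + |g x - c x|
    rw [h2]
    linarith
  refine h1.trans ?_
  have h10 : ∫ x, (2 * (g x - w x a) + |g x - c x|) ∂μ =
      2 * (∫ x, g x ∂μ - ∫ x, w x a ∂μ) + ∫ x, |g x - c x| ∂μ := by
    rw [← integral_sub hg (hw a), ← integral_const_mul, ← integral_add _ hgc]
    exact (hg.sub (hw a)).const_mul 2
  rw [h10]
  have h8 : ∫ x, g x ∂μ - ∫ x, c x ∂μ ≤ ∫ x, |g x - c x| ∂μ := by
    rw [← integral_sub hg hc]
    exact integral_mono (hg.sub hc) hgc fun x => le_abs_self _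
  have h9 := neg_abs_le (∫ x, w x a ∂μ - ∫ x, c x ∂μ)
  linarith

end General

variable {E : Type*} [NormedAddCommGroup E] [NormedSpace ℝ E] [FiniteDimensional ℝ E]
  [MeasurableSpace E] [BorelSpace E] {μ : Measure E}
variable {H : Type} [NormedAddCommGroup H] [InnerProductSpace ℝ H] [FiniteDimensional ℝ H]

/-- **strong closeness.** If `v'` is `L¹`-close to `v` on a fixed compact set and the norm of the
weak derivative of `v'` is dominated by something `Lᵖ`-close to the norm of the weak derivative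
of `v`, then the weak derivatives are `Lᵖ(Ω)`-close. -/
theorem strong_close {Ω : Set E} (hΩ : IsOpen Ω) (hμ : μ Ω ≠ ∞) {p : ℝ≥0∞} (hp : 1 ≤ p)
    (hp' : p ≠ ∞) {v u : E → H} {e : E} (h : WDv Ω μ v u e) (hu : MemLp u p (μ.restrict Ω))
    {ε : ℝ≥0∞} (hε : 0 < ε) :
    ∃ K : Set E, IsCompact K ∧ K ⊆ Ω ∧ ∃ δ : ℝ, 0 < δ ∧ ∀ (v' u' : E → H) (g' : E → ℝ),
      WDv Ω μ v' u' e → MemLp g' p (μ.restrict Ω) →
      (∀ᵐ x ∂(μ.restrict Ω), ‖u' x‖ ≤ g' x) →
      eLpNorm (g' - fun x => ‖u x‖) p (μ.restrict Ω) ≤ ENNReal.ofReal δ →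
      ∫ x in K, ‖v' x - v x‖ ∂μ ≤ δ → eLpNorm (u' - u) p (μ.restrict Ω) < ε := by
  have : IsFiniteMeasure (μ.restrict Ω) := ⟨by rw [Measure.restrict_apply_univ]; exact hμ.lt_top⟩
  obtain ⟨δ₁, hδ₁, h1⟩ := exists_delta_dominated hp hp' hu hε
  have hui : IntegrableOn u Ω μ := hu.integrable hp
  obtain ⟨K, hK, hKΩ, δ₂, hδ₂, h2⟩ := exists_delta_weak hΩ h hui (w := fun x => nz (u x))
    (aesm_nz hu.1) (fun x => norm_nz_le _) (m := fun x => ‖u x‖) hui.norm
    (fun x => norm_nonneg _) hδ₁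
  obtain ⟨C, hC, h3⟩ := exists_const_L1_le_Lp (μ := μ.restrict Ω) hp hp'
  have hδ : 0 < min δ₁ (min δ₂ (δ₂ / C)) := lt_min hδ₁ (lt_min hδ₂ (by positivity))
  refine ⟨K, hK, hKΩ, min δ₁ (min δ₂ (δ₂ / C)), hδ, ?_⟩
  intro v' u' g' h' hg' hug hgu hvv
  have hgi : IntegrableOn g' Ω μ := hg'.integrable hp
  have hu'm : AEStronglyMeasurable u' (μ.restrict Ω) := h'.lg.aestronglyMeasurable
  apply h1 u' g' hu'm hg' hug
  · exact hgu.trans (ENNReal.ofReal_le_ofReal (min_le_left _ _))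
  · have h4 := h2 v' u' g' h' hgi hug ?_ (hvv.trans ((min_le_right _ _).trans (min_le_left _ _)))
    · have h5 : ∫ x in Ω, inner ℝ (u x) (nz (u x)) ∂μ = ∫ x in Ω, ‖u x‖ ∂μ := by
        apply integral_congr_ae
        filter_upwards with x
        exact inner_nz_self _
      rw [h5] at h4
      exact h4
    · have h6 := h3 ℝ (g' - fun x => ‖u x‖) (hg'.1.sub hu.1.norm) _ hδ.le hgu
      have h7 : C * min δ₁ (min δ₂ (δ₂ / C)) ≤ δ₂ := by
        have h8 : min δ₁ (min δ₂ (δ₂ / C)) ≤ δ₂ / C := (min_le_right _ _).trans (min_le_right _ _)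
        calc C * min δ₁ (min δ₂ (δ₂ / C)) ≤ C * (δ₂ / C) := mul_le_mul_of_nonneg_left h8 hC.le
          _ = δ₂ := by field_simp
      refine le_trans (le_of_eq ?_) (h6.trans h7)
      apply integral_congr_ae
      filter_upwards with x
      simp [Real.norm_eq_abs]

end

end Crest.Agent.R96.Str_520
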