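/-
helper520, row 96, leaf P6-STRONG, part 6: the frozen language (`HasWeakGradOn` on `R3`).
`close_of_excess`: closeness of the maps on a compact set plus a small excess of the norms of the
three directional derivatives give `Lᵖ`-closeness of the gradients; `theta_close`: composition with
a `(1+δ)`-Lipschitz map near the identity.
-/
import Mathlib
import Crest.Agent.R96.Str5_520
import Crest.Agent.R96.Sob7_199

set_option autoImplicit false
set_option linter.unusedSectionVars false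

open MeasureTheory Filter Set
open scoped Topology ENNReal ContDiff NNReal

namespace Crest.Agent.R96.Str_520

open Crest.AnalysisR.VecCalc3 Crest.AnalysisR.Sobolev
open Crest.Agent.R96.Acl_392 Crest.Agent.R96.Sob2_199 Crest.Agent.R96.Sob4_199
  Crest.Agent.R96.Sob5_199 Crest.Agent.R96.Sob7_199

noncomputable section

/-- the derivative in the direction `e` of the map whose components have the gradients `G j` -/
def colv (G : Fin 3 → R3 → R3) (e : R3) : R3 → R3 := fun x => WithLp.toLp 2 fun j => inner ℝ (G j x) e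

/-- the derivative in the `i`-th coordinate direction -/
def col (G : Fin 3 → R3 → R3) (i : Fin 3) : R3 → R3 := fun x => WithLp.toLp 2 fun j => G j x i

@[simp] theorem colv_apply (G : Fin 3 → R3 → R3) (e x : R3) (j : Fin 3) :
    colv G e x j = inner ℝ (G j x) e := rfl

@[simp] theorem col_apply (G : Fin 3 → R3 → R3) (i : Fin 3) (x : R3) (j : Fin 3) :
    col G i x j = G j x i := rfl

theorem colv_single (G : Fin 3 → R3 → R3) (i : Fin 3) :
    colv G (EuclideanSpace.single i 1) = col G i := by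
  funext x
  ext j
  simp [EuclideanSpace.inner_single_right]

theorem vwd_colv {Ω : Set R3} (hΩ : IsOpen Ω) {f : R3 → R3} {G : Fin 3 → R3 → R3}
    (h : ∀ j, HasWeakGradOn Ω (fun x => f x j) (G j)) (e : R3) :
    VWD Ω volume f (colv G e) e := fun j => wd_of_grad hΩ (h j) e

theorem vwd_col {Ω : Set R3} (hΩ : IsOpen Ω) {f : R3 → R3} {G : Fin 3 → R3 → R3}
    (h : ∀ j, HasWeakGradOn Ω (fun x => f x j) (G j)) (i : Fin 3) :
    VWD Ω volume f (col G i) (EuclideanSpace.single i 1) := fun j => wd_of_grad_coord hΩ (h j) i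

/-- rows from columns -/
def rowOf (D : Fin 3 → R3 → R3) (j : Fin 3) : R3 → R3 := fun x => WithLp.toLp 2 fun i => D i x j

theorem col_rowOf (D : Fin 3 → R3 → R3) (i : Fin 3) : col (rowOf D) i = D i := by
  funext x
  ext j
  rfl

theorem grad_of_vwd {Ω : Set R3} {f : R3 → R3} {D : Fin 3 → R3 → R3}
    (h : ∀ i, VWD Ω volume f (D i) (EuclideanSpace.single i 1)) (j : Fin 3) :
    HasWeakGradOn Ω (fun x => f x j) (rowOf D j) :=
  grad_of_wd fun i => h i j

theorem test_apply {Ω : Set R3} {φ : R3 → R3} (h : Test Ω φ) (j : Fin 3) :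
    ContDiff ℝ ∞ (fun x => φ x j) ∧ HasCompactSupport (fun x => φ x j) ∧
      tsupport (fun x => φ x j) ⊆ Ω := by
  have hs : tsupport (fun x => φ x j) ⊆ tsupport φ := by
    apply closure_mono
    intro x hx hx0
    apply hx
    show φ x j = 0
    have : φ x = 0 := hx0
    rw [this]; rfl
  refine ⟨?_, h.cpt.mono' ((subset_tsupport _).trans hs), hs.trans h.supp⟩
  exact (EuclideanSpace.proj (𝕜 := ℝ) j : R3 →L[ℝ] ℝ).contDiff.comp h.smooth

theorem fderiv_apply_coord {φ : R3 → R3} (h : ContDiff ℝ ∞ φ) (x e : R3) (j : Fin 3) :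
    fderiv ℝ φ x e j = fderiv ℝ (fun y => φ y j) x e := by
  have h1 : DifferentiableAt ℝ φ x := (h.differentiable (by simp)).differentiableAt
  have h2 : HasFDerivAt (fun y => φ y j)
      ((EuclideanSpace.proj (𝕜 := ℝ) j : R3 →L[ℝ] ℝ).comp (fderiv ℝ φ x)) x :=
    (EuclideanSpace.proj (𝕜 := ℝ) j : R3 →L[ℝ] ℝ).hasFDerivAt.comp x h1.hasFDerivAt
  rw [h2.fderiv]
  rfl

theorem wdv_of_vwd {Ω : Set R3} {f D : R3 → R3} {e : R3} (h : VWD Ω volume f D e) :
    WDv Ω volume f D e where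
  lv := locInt_of_apply fun i => (h i).lv
  lg := locInt_of_apply fun i => (h i).lg
  weak := by
    intro φ hφ
    have h1 : ∀ j : Fin 3, Integrable (fun x => f x j * fderiv ℝ (fun y => φ y j) x e) := by
      intro j
      obtain ⟨a, b, c⟩ := test_apply hφ j
      exact wd_int1 (h j) a b c
    have h2 : ∀ j : Fin 3, Integrable (fun x => D x j * φ x j) := by
      intro j
      obtain ⟨a, b, c⟩ := test_apply hφ j
      exact wd_int2 (h j) a b c
    have e1 : ∀ x, inner ℝ (f x) (fderiv ℝ φ x e) =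
        ∑ j : Fin 3, f x j * fderiv ℝ (fun y => φ y j) x e := by
      intro x
      rw [PiLp.inner_apply]
      apply Finset.sum_congr rfl
      intro j _
      rw [fderiv_apply_coord hφ.smooth]
      simp [mul_comm]
    have e2 : ∀ x, inner ℝ (D x) (φ x) = ∑ j : Fin 3, D x j * φ x j := by
      intro x
      rw [PiLp.inner_apply]
      apply Finset.sum_congr rfl
      intro j _
      simp [mul_comm]
    simp only [e1, e2]
    rw [integral_finsetSum _ fun j _ => h1 j, integral_finsetSum _ fun j _ => h2 j,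
      ← Finset.sum_neg_distrib]
    apply Finset.sum_congr rfl
    intro j _
    obtain ⟨a, b, c⟩ := test_apply hφ j
    exact (h j).weak _ a b c


theorem memLp_col {Ω : Set R3} {p : ℝ≥0∞} {G : Fin 3 → R3 → R3}
    (hG : ∀ j, MemLp (G j) p (volume.restrict Ω)) (i : Fin 3) :
    MemLp (col G i) p (volume.restrict Ω) := by
  have h1 : ∀ j, MemLp (fun x => G j x i) p (volume.restrict Ω) := fun j =>
    (EuclideanSpace.proj (𝕜 := ℝ) i : R3 →L[ℝ] ℝ).comp_memLp' (hG j)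
  have h2 : col G i = fun x => ∑ j, G j x i • EuclideanSpace.single j (1:ℝ) := by
    funext x
    ext k
    simp [Pi.single_apply]
  rw [h2]
  apply memLp_finsetSum
  intro j _
  exact ((ContinuousLinearMap.id ℝ ℝ).smulRight (EuclideanSpace.single j (1:ℝ) : R3)).comp_memLp' (h1 j)

theorem enorm_row_le (G G' : Fin 3 → R3 → R3) (x : R3) (j : Fin 3) :
    ‖G' j x - G j x‖ₑ ≤ ∑ i, ‖col G' i x - col G i x‖ₑ := by
  have h1 : G' j x - G j x = ∑ i, (G' j x i - G j x i) • EuclideanSpace.single i (1:ℝ) := by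
    ext k
    simp [Pi.single_apply]
  rw [h1]
  refine (enorm_sum_le _ _).trans (Finset.sum_le_sum fun i _ => ?_)
  rw [enorm_smul]
  have h2 : ‖(EuclideanSpace.single i (1:ℝ) : R3)‖ₑ = 1 := by
    rw [← ofReal_norm]; simp
  rw [h2, mul_one]
  rw [← ofReal_norm, ← ofReal_norm]
  apply ENNReal.ofReal_le_ofReal
  exact PiLp.norm_apply_le (p := 2) (col G' i x - col G i x) j

theorem rpow_sum3_le {p : ℝ} (hp : 0 < p) (a : Fin 3 → ℝ≥0∞) :
    (∑ i, a i) ^ p ≤ 3 ^ p * ∑ i, a i ^ p := by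
  obtain ⟨k, -, hk⟩ := Finset.exists_max_image (Finset.univ : Finset (Fin 3)) a ⟨0, Finset.mem_univ _⟩
  have h1 : ∑ i, a i ≤ 3 * a k := by
    calc ∑ i, a i ≤ ∑ _i : Fin 3, a k := Finset.sum_le_sum fun i _ => hk i (Finset.mem_univ _)
      _ = 3 * a k := by simp
  calc (∑ i, a i) ^ p ≤ (3 * a k) ^ p := ENNReal.rpow_le_rpow h1 hp.le
    _ = 3 ^ p * a k ^ p := ENNReal.mul_rpow_of_nonneg _ _ hp.le
    _ ≤ _ := by
      gcongr
      exact Finset.single_le_sum (f := fun i => a i ^ p) (fun i _ => zero_le) (Finset.mem_univ k)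

theorem sum_row_le {p : ℝ} (hp : 0 < p) (G G' : Fin 3 → R3 → R3) (x : R3) :
    ∑ j, ‖G' j x - G j x‖ₑ ^ p ≤ 3 * 3 ^ p * ∑ i, ‖col G' i x - col G i x‖ₑ ^ p := by
  calc ∑ j, ‖G' j x - G j x‖ₑ ^ p
      ≤ ∑ _j : Fin 3, (3 ^ p * ∑ i, ‖col G' i x - col G i x‖ₑ ^ p) :=
        Finset.sum_le_sum fun j _ =>
          (ENNReal.rpow_le_rpow (enorm_row_le G G' x j) hp.le).trans (rpow_sum3_le hp _)
    _ = _ := by simp [mul_assoc]


theorem exists_small {p : ℝ} (hp : 0 < p) (C : ℝ) (hC : 0 < C) {ε : ℝ≥0∞} (hε : 0 < ε) :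
    ∃ e : ℝ, 0 < e ∧ ENNReal.ofReal C * ENNReal.ofReal e ^ p < ε := by
  obtain ⟨e0, h0, h1⟩ := ENNReal.lt_iff_exists_nnreal_btwn.1 hε
  have he0 : (0:ℝ) < e0 := by exact_mod_cast h0
  refine ⟨((e0:ℝ) / C) ^ (1 / p), by positivity, ?_⟩
  rw [ENNReal.ofReal_rpow_of_nonneg (by positivity) hp.le, ← Real.rpow_mul (by positivity),
    one_div_mul_cancel hp.ne', Real.rpow_one, ← ENNReal.ofReal_mul hC.le, mul_div_cancel₀ _ hC.ne',
    ENNReal.ofReal_coe_nnreal]
  exact h1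

/-- **strong closeness in the frozen language, excess form.** -/
theorem close_of_excess {Ω : Set R3} (hΩ : IsOpen Ω) (hμ : volume Ω ≠ (⊤ : ℝ≥0∞)) {p : ℝ} (hp : 1 ≤ p)
    {f : R3 → R3} {G : Fin 3 → R3 → R3} (h : ∀ j, HasWeakGradOn Ω (fun x => f x j) (G j))
    (hG : ∀ j, MemLp (G j) (ENNReal.ofReal p) (volume.restrict Ω)) {ε : ℝ≥0∞} (hε : 0 < ε) :
    ∃ K : Set R3, IsCompact K ∧ K ⊆ Ω ∧ ∃ δ : ℝ, 0 < δ ∧
      ∀ (f' : R3 → R3) (G' : Fin 3 → R3 → R3),
        (∀ j, HasWeakGradOn Ω (fun x => f' x j) (G' j)) →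
        (∀ i, ∫⁻ x in Ω, ENNReal.ofReal (‖col G' i x‖ - ‖col G i x‖) ^ p ≤ ENNReal.ofReal δ) →
        ∫ x in K, ‖f' x - f x‖ ≤ δ →
        ∫⁻ x in Ω, ∑ j, ‖G' j x - G j x‖ₑ ^ p < ε := by
  have hp0 : 0 < p := by linarith
  have hpt : (ENNReal.ofReal p).toReal = p := ENNReal.toReal_ofReal hp0.le
  have hpe : (1:ℝ≥0∞) ≤ ENNReal.ofReal p := by
    rw [← ENNReal.ofReal_one]; exact ENNReal.ofReal_le_ofReal hp
  have hpn : ENNReal.ofReal p ≠ 0 := by
    intro h0; rw [h0] at hpe; simp at hpe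
  obtain ⟨e, he, hee⟩ := exists_small hp0 (9 * 3 ^ p) (by positivity) hε
  have h1 := fun i : Fin 3 => strong_close hΩ hμ hpe ENNReal.ofReal_ne_top
    (wdv_of_vwd (vwd_col hΩ h i)) (memLp_col hG i) (ε := ENNReal.ofReal e) (by simpa using he)
  choose K hK hKΩ δ hδ hmain using h1
  set δ₀ : ℝ := min (min (δ 0) (min (δ 1) (δ 2))) 1 with hδ₀
  have hδ₀0 : 0 < δ₀ := by
    rw [hδ₀]; exact lt_min (lt_min (hδ 0) (lt_min (hδ 1) (hδ 2))) one_pos
  have hδ₀1 : δ₀ ≤ 1 := min_le_right _ _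
  have hδ₀i : ∀ i, δ₀ ≤ δ i := by
    intro i
    fin_cases i
    · exact (min_le_left _ _).trans (min_le_left _ _)
    · exact (min_le_left _ _).trans ((min_le_right _ _).trans (min_le_left _ _))
    · exact (min_le_left _ _).trans ((min_le_right _ _).trans (min_le_right _ _))
  refine ⟨⋃ i, K i, isCompact_iUnion hK, iUnion_subset hKΩ, δ₀ ^ p, by positivity, ?_⟩
  intro f' G' h' hex hcl
  have hle : δ₀ ^ p ≤ δ₀ := by
    calc δ₀ ^ p ≤ δ₀ ^ (1:ℝ) := Real.rpow_le_rpow_of_exponent_ge hδ₀0 hδ₀1 hp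
      _ = δ₀ := Real.rpow_one _
  -- the differences are integrable on compact sets
  have hfi : LocallyIntegrableOn f Ω := locInt_of_apply fun i => (vwd_col hΩ h 0 i).lv
  have hfi' : LocallyIntegrableOn f' Ω := locInt_of_apply fun i => (vwd_col hΩ h' 0 i).lv
  have hKi : IntegrableOn (fun x => ‖f' x - f x‖) (⋃ i, K i) := by
    have hc := isCompact_iUnion hK
    have hs := iUnion_subset hKΩ
    exact ((hfi'.integrableOn_compact_subset hs hc).sub
      (hfi.integrableOn_compact_subset hs hc)).norm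
  have key : ∀ i, eLpNorm (col G' i - col G i) (ENNReal.ofReal p) (volume.restrict Ω) <
      ENNReal.ofReal e := by
    intro i
    have hum : AEStronglyMeasurable (col G i) (volume.restrict Ω) := (memLp_col hG i).1
    have hum' : AEStronglyMeasurable (col G' i) (volume.restrict Ω) :=
      (wdv_of_vwd (vwd_col hΩ h' i)).lg.aestronglyMeasurable
    have hem : AEStronglyMeasurable (fun x => max (‖col G' i x‖ - ‖col G i x‖) 0)
        (volume.restrict Ω) := (hum'.norm.sub hum.norm).sup aestronglyMeasurable_const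
    have hval : eLpNorm (fun x => max (‖col G' i x‖ - ‖col G i x‖) 0) (ENNReal.ofReal p)
        (volume.restrict Ω) =
        (∫⁻ x in Ω, ENNReal.ofReal (‖col G' i x‖ - ‖col G i x‖) ^ p) ^ (1 / p) := by
      rw [eLpNorm_eq_lintegral_rpow_enorm_toReal hpn ENNReal.ofReal_ne_top, hpt]
      congr 1
      apply lintegral_congr
      intro x
      congr 1
      rw [← ofReal_norm, Real.norm_eq_abs, abs_of_nonneg (le_max_right _ _)]
      rcases le_total (‖col G' i x‖ - ‖col G i x‖) 0 with h0 | h0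
      · rw [max_eq_right h0, ENNReal.ofReal_of_nonpos h0, ENNReal.ofReal_zero]
      · rw [max_eq_left h0]
    have hle2 : eLpNorm (fun x => max (‖col G' i x‖ - ‖col G i x‖) 0) (ENNReal.ofReal p)
        (volume.restrict Ω) ≤ ENNReal.ofReal δ₀ := by
      rw [hval]
      calc (∫⁻ x in Ω, ENNReal.ofReal (‖col G' i x‖ - ‖col G i x‖) ^ p) ^ (1 / p)
          ≤ (ENNReal.ofReal (δ₀ ^ p)) ^ (1 / p) := ENNReal.rpow_le_rpow (hex i) (by positivity)
        _ = ENNReal.ofReal δ₀ := by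
          rw [ENNReal.ofReal_rpow_of_nonneg (by positivity) (by positivity),
            ← Real.rpow_mul hδ₀0.le, mul_one_div_cancel hp0.ne', Real.rpow_one]
    have hexm : MemLp (fun x => max (‖col G' i x‖ - ‖col G i x‖) 0) (ENNReal.ofReal p)
        (volume.restrict Ω) := ⟨hem, hle2.trans_lt ENNReal.ofReal_lt_top⟩
    refine hmain i f' (col G' i) (fun x => ‖col G i x‖ + max (‖col G' i x‖ - ‖col G i x‖) 0)
      (wdv_of_vwd (vwd_col hΩ h' i)) ((memLp_col hG i).norm.add hexm) ?_ ?_ ?_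
    · refine Eventually.of_forall fun x => ?_
      have := le_max_left (‖col G' i x‖ - ‖col G i x‖) 0
      linarith
    · have e1 : ((fun x => ‖col G i x‖ + max (‖col G' i x‖ - ‖col G i x‖) 0) -
          fun x => ‖col G i x‖) = fun x => max (‖col G' i x‖ - ‖col G i x‖) 0 := by
        funext x
        simp
      rw [e1]
      exact hle2.trans (ENNReal.ofReal_le_ofReal (hδ₀i i))
    · calc ∫ x in K i, ‖f' x - f x‖ ≤ ∫ x in ⋃ i, K i, ‖f' x - f x‖ :=
          setIntegral_mono_set hKi (Eventually.of_forall fun x => norm_nonneg _)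
            (subset_iUnion K i).eventuallyLE
        _ ≤ δ₀ ^ p := hcl
        _ ≤ δ₀ := hle
        _ ≤ δ i := hδ₀i i
  have hmeas : ∀ i, AEMeasurable (fun x => ‖col G' i x - col G i x‖ₑ ^ p) (volume.restrict Ω) := by
    intro i
    have hum : AEStronglyMeasurable (col G i) (volume.restrict Ω) := (memLp_col hG i).1
    have hum' : AEStronglyMeasurable (col G' i) (volume.restrict Ω) :=
      (wdv_of_vwd (vwd_col hΩ h' i)).lg.aestronglyMeasurable
    exact (hum'.sub hum).enorm.pow_const p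
  have hi : ∀ i, ∫⁻ x in Ω, ‖col G' i x - col G i x‖ₑ ^ p ≤ ENNReal.ofReal e ^ p := by
    intro i
    have h2 := (key i).le
    rw [eLpNorm_eq_lintegral_rpow_enorm_toReal hpn ENNReal.ofReal_ne_top, hpt] at h2
    have h3 := ENNReal.rpow_le_rpow h2 hp0.le
    rwa [← ENNReal.rpow_mul, one_div_mul_cancel hp0.ne', ENNReal.rpow_one] at h3
  calc ∫⁻ x in Ω, ∑ j, ‖G' j x - G j x‖ₑ ^ p
      ≤ ∫⁻ x in Ω, 3 * 3 ^ p * ∑ i, ‖col G' i x - col G i x‖ₑ ^ p :=
        lintegral_mono fun x => sum_row_le hp0 G G' x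
    _ = 3 * 3 ^ p * ∑ i, ∫⁻ x in Ω, ‖col G' i x - col G i x‖ₑ ^ p := by
        rw [lintegral_const_mul'' _ (Finset.aemeasurable_fun_sum _ fun i _ => hmeas i),
          lintegral_finsetSum' _ fun i _ => hmeas i]
    _ ≤ 3 * 3 ^ p * ∑ _i : Fin 3, ENNReal.ofReal e ^ p := by
        gcongr with i _
        exact hi i
    _ = ENNReal.ofReal (9 * 3 ^ p) * ENNReal.ofReal e ^ p := by
        rw [ENNReal.ofReal_mul (by norm_num), ← ENNReal.ofReal_rpow_of_nonneg (by norm_num) hp0.le]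
        simp only [Finset.sum_const, Finset.card_univ, Fintype.card_fin, nsmul_eq_mul]
        norm_num
        ring
    _ < ε := hee


/-- **factor form**: the norms of the directional derivatives grow by a factor `1 + δ` at most. -/
theorem close_of_factor {Ω : Set R3} (hΩ : IsOpen Ω) (hμ : volume Ω ≠ (⊤ : ℝ≥0∞)) {p : ℝ}
    (hp : 1 ≤ p) {f : R3 → R3} {G : Fin 3 → R3 → R3}
    (h : ∀ j, HasWeakGradOn Ω (fun x => f x j) (G j))
    (hG : ∀ j, MemLp (G j) (ENNReal.ofReal p) (volume.restrict Ω)) {ε : ℝ≥0∞} (hε : 0 < ε) :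
    ∃ δ : ℝ, 0 < δ ∧ ∀ (f' : R3 → R3) (G' : Fin 3 → R3 → R3),
        (∀ j, HasWeakGradOn Ω (fun x => f' x j) (G' j)) →
        (∀ᵐ x, x ∈ Ω → ∀ i, ‖col G' i x‖ ≤ (1 + δ) * ‖col G i x‖) →
        (∀ x ∈ Ω, ‖f' x - f x‖ ≤ δ) →
        ∫⁻ x in Ω, ∑ j, ‖G' j x - G j x‖ₑ ^ p < ε := by
  have hp0 : 0 < p := by linarith
  have hpt : (ENNReal.ofReal p).toReal = p := ENNReal.toReal_ofReal hp0.le
  have hpe : (1:ℝ≥0∞) ≤ ENNReal.ofReal p := by
    rw [← ENNReal.ofReal_one]; exact ENNReal.ofReal_le_ofReal hp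
  have hpn : ENNReal.ofReal p ≠ 0 := by
    intro h0; rw [h0] at hpe; simp at hpe
  obtain ⟨K, hK, hKΩ, δ, hδ, hmain⟩ := close_of_excess hΩ hμ hp h hG hε
  have hfin : ∀ i, ∫⁻ x in Ω, ‖col G i x‖ₑ ^ p ≠ ⊤ := by
    intro i
    have h2 := (memLp_col hG i).2
    rw [eLpNorm_eq_lintegral_rpow_enorm_toReal hpn ENNReal.ofReal_ne_top, hpt] at h2
    intro htop
    rw [htop, ENNReal.top_rpow_of_pos (by positivity)] at h2
    exact lt_irrefl _ h2
  set M : ℝ := 1 + ∑ i, (∫⁻ x in Ω, ‖col G i x‖ₑ ^ p).toReal with hM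
  have hM1 : 1 ≤ M := by
    have : 0 ≤ ∑ i, (∫⁻ x in Ω, ‖col G i x‖ₑ ^ p).toReal :=
      Finset.sum_nonneg fun i _ => ENNReal.toReal_nonneg
    linarith
  have hMi : ∀ i, ∫⁻ x in Ω, ‖col G i x‖ₑ ^ p ≤ ENNReal.ofReal M := by
    intro i
    rw [← ENNReal.ofReal_toReal (hfin i)]
    apply ENNReal.ofReal_le_ofReal
    have : (∫⁻ x in Ω, ‖col G i x‖ₑ ^ p).toReal ≤ ∑ i, (∫⁻ x in Ω, ‖col G i x‖ₑ ^ p).toReal :=
      Finset.single_le_sum (f := fun i => (∫⁻ x in Ω, ‖col G i x‖ₑ ^ p).toReal)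
        (fun i _ => ENNReal.toReal_nonneg) (Finset.mem_univ i)
    linarith
  set V : ℝ := 1 + (volume K).toReal with hV
  have hV1 : 1 ≤ V := by have : 0 ≤ (volume K).toReal := ENNReal.toReal_nonneg; linarith
  refine ⟨min (min 1 (δ / M)) (δ / V), lt_min (lt_min one_pos (by positivity)) (by positivity), ?_⟩
  set δ₂ : ℝ := min (min 1 (δ / M)) (δ / V) with hδ₂
  have hδ₂0 : 0 < δ₂ := lt_min (lt_min one_pos (by positivity)) (by positivity)
  have hδ₂1 : δ₂ ≤ 1 := (min_le_left _ _).trans (min_le_left _ _)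
  have hδ₂M : δ₂ * M ≤ δ := by
    have : δ₂ ≤ δ / M := (min_le_left _ _).trans (min_le_right _ _)
    calc δ₂ * M ≤ δ / M * M := by gcongr
      _ = δ := by field_simp
  have hδ₂V : δ₂ * V ≤ δ := by
    have : δ₂ ≤ δ / V := min_le_right _ _
    calc δ₂ * V ≤ δ / V * V := by gcongr
      _ = δ := by field_simp
  intro f' G' h' hb hcl
  apply hmain f' G' h'
  · intro i
    have hb' : ∀ᵐ x ∂(volume.restrict Ω), ENNReal.ofReal (‖col G' i x‖ - ‖col G i x‖) ^ p ≤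
        ENNReal.ofReal δ₂ ^ p * ‖col G i x‖ₑ ^ p := by
      rw [ae_restrict_iff' hΩ.measurableSet]
      filter_upwards [hb] with x hx hxΩ
      rw [← ENNReal.mul_rpow_of_nonneg _ _ hp0.le, ← ofReal_norm, ← ENNReal.ofReal_mul hδ₂0.le]
      apply ENNReal.rpow_le_rpow _ hp0.le
      apply ENNReal.ofReal_le_ofReal
      have := hx hxΩ i
      linarith
    calc ∫⁻ x in Ω, ENNReal.ofReal (‖col G' i x‖ - ‖col G i x‖) ^ p
        ≤ ∫⁻ x in Ω, ENNReal.ofReal δ₂ ^ p * ‖col G i x‖ₑ ^ p := lintegral_mono_ae hb'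
      _ = ENNReal.ofReal δ₂ ^ p * ∫⁻ x in Ω, ‖col G i x‖ₑ ^ p :=
          lintegral_const_mul'' _ ((memLp_col hG i).1.enorm.pow_const p)
      _ ≤ ENNReal.ofReal δ₂ * ENNReal.ofReal M := by
          gcongr
          · calc ENNReal.ofReal δ₂ ^ p ≤ ENNReal.ofReal δ₂ ^ (1:ℝ) :=
                ENNReal.rpow_le_rpow_of_exponent_ge
                  (by rw [← ENNReal.ofReal_one]; exact ENNReal.ofReal_le_ofReal hδ₂1) hp
              _ = ENNReal.ofReal δ₂ := ENNReal.rpow_one _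
          · exact hMi i
      _ = ENNReal.ofReal (δ₂ * M) := (ENNReal.ofReal_mul hδ₂0.le).symm
      _ ≤ ENNReal.ofReal δ := ENNReal.ofReal_le_ofReal hδ₂M
  · have hKm : volume K ≠ ⊤ := hK.measure_ne_top
    calc ∫ x in K, ‖f' x - f x‖ ≤ ∫ x in K, δ₂ := by
          apply integral_mono_of_nonneg (Eventually.of_forall fun x => norm_nonneg _)
          · exact integrableOn_const hKm
          · filter_upwards [ae_restrict_mem hK.measurableSet] with x hx using hcl x (hKΩ hx)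
      _ = (volume K).toReal * δ₂ := by simp [Measure.real]
      _ ≤ δ₂ * V := by nlinarith
      _ ≤ δ := hδ₂V

theorem memLp_of_bound {Ω : Set R3} (hΩ : IsOpen Ω) {p : ℝ≥0∞} {f : R3 → R3}
    {G G' : Fin 3 → R3 → R3} (hG : ∀ j, MemLp (G j) p (volume.restrict Ω))
    (h' : ∀ j, HasWeakGradOn Ω (fun x => f x j) (G' j)) {L : ℝ}
    (hb : ∀ᵐ x, x ∈ Ω → ∀ i, ‖col G' i x‖ ≤ L * ‖col G i x‖) (j : Fin 3) :
    MemLp (G' j) p (volume.restrict Ω) := by
  have h1 : ∀ i, MemLp (col G' i) p (volume.restrict Ω) := by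
    intro i
    have hum' : AEStronglyMeasurable (col G' i) (volume.restrict Ω) :=
      (wdv_of_vwd (vwd_col hΩ h' i)).lg.aestronglyMeasurable
    refine ((memLp_col hG i).norm.const_mul L).mono hum' ?_
    rw [ae_restrict_iff' hΩ.measurableSet]
    filter_upwards [hb] with x hx hxΩ
    refine (hx hxΩ i).trans ?_
    exact le_abs_self _
  have h2 : G' j = fun x => ∑ i, col G' i x j • EuclideanSpace.single i (1:ℝ) := by
    funext x
    ext k
    simp [Pi.single_apply]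
  rw [h2]
  apply memLp_finsetSum
  intro i _
  exact ((ContinuousLinearMap.id ℝ ℝ).smulRight (EuclideanSpace.single i (1:ℝ) : R3)).comp_memLp'
    ((EuclideanSpace.proj (𝕜 := ℝ) j : R3 →L[ℝ] ℝ).comp_memLp' (h1 i))

/-- **`θ ∘ f` is close to `f` in `W^{1,p}`** when `θ` is `(1+δ)`-Lipschitz (infinitesimally, on a set
`S ⊇ f(Ω)`) and `δ`-close to the identity on `S`. -/
theorem theta_close_loc {Ω : Set R3} (hΩ : IsOpen Ω) (hμ : volume Ω ≠ (⊤ : ℝ≥0∞)) {p : ℝ}
    (hp : 1 ≤ p) {f : R3 → R3} (hf : ContinuousOn f Ω) {G : Fin 3 → R3 → R3}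
    (h : ∀ j, HasWeakGradOn Ω (fun x => f x j) (G j))
    (hG : ∀ j, MemLp (G j) (ENNReal.ofReal p) (volume.restrict Ω)) {ε : ℝ≥0∞} (hε : 0 < ε) :
    ∃ δ : ℝ, 0 < δ ∧ ∀ (S : Set R3) (θ : R3 → R3), MapsTo f Ω S → LocallyLipschitzOn S θ →
      (∀ y ∈ S, ∀ η > 0, ∀ᶠ z in 𝓝[S] y, ‖θ z - θ y‖ ≤ (1 + δ + η) * ‖z - y‖) →
      (∀ y ∈ S, ‖θ y - y‖ ≤ δ) →
      ∃ G' : Fin 3 → R3 → R3, (∀ j, HasWeakGradOn Ω (fun x => θ (f x) j) (G' j)) ∧
        (∀ j, MemLp (G' j) (ENNReal.ofReal p) (volume.restrict Ω)) ∧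
        (∀ᵐ x, x ∈ Ω → ∀ i, ‖col G' i x‖ ≤ (1 + δ) * ‖col G i x‖) ∧
        ∫⁻ x in Ω, ∑ j, ‖G' j x - G j x‖ₑ ^ p < ε := by
  obtain ⟨δ, hδ, hmain⟩ := close_of_factor hΩ hμ hp h hG hε
  refine ⟨δ, hδ, fun S θ hS hθ hL hid => ?_⟩
  have h1 : ∀ i, ∃ D', VWD Ω volume (fun x => θ (f x)) D' (EuclideanSpace.single i (1:ℝ)) :=
    fun i => comp_exists hΩ (vwd_col hΩ h i) hf hS hθ
  choose D' hD' using h1
  have hw : ∀ j, HasWeakGradOn Ω (fun x => θ (f x) j) (rowOf D' j) := fun j => grad_of_vwd hD' j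
  have hb : ∀ᵐ x, x ∈ Ω → ∀ i, ‖col (rowOf D') i x‖ ≤ (1 + δ) * ‖col G i x‖ := by
    have h2 : ∀ i, ∀ᵐ x, x ∈ Ω → ‖D' i x‖ ≤ (1 + δ) * ‖col G i x‖ := fun i =>
      comp_bound hΩ (vwd_col hΩ h i) hf hS hθ.continuousOn (hD' i) (L := fun _ => 1 + δ)
        aemeasurable_const (fun x hx ε hε => hL (f x) (hS hx) ε hε)
    filter_upwards [ae_all_iff.2 h2] with x hx hxΩ i
    rw [col_rowOf]
    exact hx i hxΩ
  exact ⟨rowOf D', hw, memLp_of_bound hΩ hG hw hb, hb,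
    hmain (fun x => θ (f x)) (rowOf D') hw hb fun x hx => hid (f x) (hS hx)⟩

/-- **`θ ∘ f` is close to `f` in `W^{1,p}`**, global Lipschitz constant. -/
theorem theta_close {Ω : Set R3} (hΩ : IsOpen Ω) (hμ : volume Ω ≠ (⊤ : ℝ≥0∞)) {p : ℝ}
    (hp : 1 ≤ p) {f : R3 → R3} (hf : ContinuousOn f Ω) {G : Fin 3 → R3 → R3}
    (h : ∀ j, HasWeakGradOn Ω (fun x => f x j) (G j))
    (hG : ∀ j, MemLp (G j) (ENNReal.ofReal p) (volume.restrict Ω)) {ε : ℝ≥0∞} (hε : 0 < ε) :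
    ∃ δ : ℝ, 0 < δ ∧ ∀ (S : Set R3) (θ : R3 → R3), MapsTo f Ω S →
      (∀ y ∈ S, ∀ z ∈ S, ‖θ z - θ y‖ ≤ (1 + δ) * ‖z - y‖) → (∀ y ∈ S, ‖θ y - y‖ ≤ δ) →
      ∃ G' : Fin 3 → R3 → R3, (∀ j, HasWeakGradOn Ω (fun x => θ (f x) j) (G' j)) ∧
        (∀ j, MemLp (G' j) (ENNReal.ofReal p) (volume.restrict Ω)) ∧
        (∀ᵐ x, x ∈ Ω → ∀ i, ‖col G' i x‖ ≤ (1 + δ) * ‖col G i x‖) ∧
        ∫⁻ x in Ω, ∑ j, ‖G' j x - G j x‖ₑ ^ p < ε := by
  obtain ⟨δ, hδ, hmain⟩ := theta_close_loc hΩ hμ hp hf h hG hε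
  refine ⟨δ, hδ, fun S θ hS hL hid => hmain S θ hS ?_ ?_ hid⟩
  · have hlip : LipschitzOnWith ⟨1 + δ, by positivity⟩ θ S :=
      LipschitzOnWith.of_dist_le_mul fun y hy z hz => by
        rw [dist_eq_norm, dist_eq_norm]
        exact hL z hz y hy
    exact fun y hy => ⟨_, S, self_mem_nhdsWithin, hlip⟩
  · intro y hy η hη
    filter_upwards [self_mem_nhdsWithin] with z hz
    exact (hL y hy z hz).trans (mul_le_mul_of_nonneg_right (by linarith) (norm_nonneg _))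

end

end Crest.Agent.R96.Str_520
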