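/-
helper538, row 96, p = 2, leaf BAD0: the measure of the levels which are not good.
-/
import Mathlib
import Crest.Agent.R96.Gdt4_538

set_option autoImplicit false
set_option linter.unusedSectionVars false
set_option maxHeartbeats 400000

open MeasureTheory Set Filter Metric
open scoped ENNReal NNReal Topology

namespace Crest.Agent.R96.Gdt_538

open Crest.Agent.R096.Msh_715
open Crest.Agent.R096.Sk2_855 (sk1)
open Crest.Agent.R096.Ub_113 (gau le_gau exists_gau convex_gau continuous_gau)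
open Crest.Agent.R096.Sk3_812
open Crest.AnalysisR.VecCalc3 (R3)
open Crest.Agent.R96.Coarse_538 Crest.Agent.R96.Intr_538 Crest.Agent.R96.Lu_538

section general

variable {E : Type} [NormedAddCommGroup E] [NormedSpace ℝ E] [FiniteDimensional ℝ E]
variable {Om La : Set E} {ι : Type*}

/-- **BAD0**: same hypotheses as `goodT_of` (only those which are used) -/
theorem bad_vol {T : Tiling Om ι} {f : E → E} {i : ι} (hne : (T.H i).Nonempty) {c : E}
    (hc : c ∈ I (T.H i)) (A : E ≃ᵃ[ℝ] E) (hf : ContinuousOn f Om) {N : Set E}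
    {Λ ε β η' : ℝ} (hΛ0 : 0 ≤ Λ) (hΛ : ∀ h ∈ GH (T.H i) c A, ‖h.1‖ ≤ Λ) (hε : 0 < ε)
    (hβ : 0 < β) (hΛε : 4 * (Λ * ε) ≤ β)
    (hNc : ∀ x, Crs T i x → T.cc x ⊆ N)
    (near : ∀ x ∈ sk1 T, x ∈ N → ‖f x - A x‖ ≤ ε)
    (gap : ∀ x ∈ sk1 T, x ∈ N → x ∉ P (T.H i) → ¬ Crs T i x →
      1 + 4 * β ≤ ug (T.H i) hne c A (A x))
    (bv : ∀ x, Crs T i x → ∀ p q, T.cc x = segment ℝ p q →
      ∃ F : ℝ → ℝ, MonotoneOn F (Icc 0 1) ∧ F 1 - F 0 ≤ η' ∧
        ∀ s ∈ Icc (0:ℝ) 1, ∀ t ∈ Icc (0:ℝ) 1, s ≤ t →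
          ‖(f (p + t • (q - p)) - A (p + t • (q - p))) -
            (f (p + s • (q - p)) - A (p + s • (q - p)))‖ ≤ F t - F s) :
    volume (Ioo (1 + β) (1 + 3 * β) \
      GLv T f i (ug (T.H i) hne c A) (1 + β) (1 + 3 * β)) ≤
      ENNReal.ofReal ((Nat.card (KT T i) : ℝ) * (2 * (Λ * η'))) := by
  set u := ug (T.H i) hne c A with hu
  have hΛε0 : 0 ≤ Λ * ε := by positivity
  have hlip : ∀ y z, u y ≤ u z + Λ * ‖y - z‖ := fun y z => gau_lip hΛ y z
  have hn2 : ∀ x ∈ sk1 T, x ∈ N → u (A x) ≤ u (f x) + Λ * ε := fun x hx hxN =>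
    (hlip (A x) (f x)).trans (by
      have := mul_le_mul_of_nonneg_left (near x hx hxN) hΛ0
      rw [norm_sub_rev]
      linarith)
  have htile : ∀ x, x ∈ P (T.H i) → u (A x) ≤ 1 := fun x hx => by
    rw [hu, ug_le_one_iff hne hc A, A.symm_apply_apply]; exact hx
  have houtv : ∀ x, Crs T i x → ∀ w ∈ T.cc x, T.dim w = 0 → w ∉ P (T.H i) →
      1 + 4 * β - Λ * ε ≤ u (f w) := by
    intro x hx w hw hw0 hwi
    have hwO : w ∈ Om := T.cc_sub_Om hx.1 hw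
    have hws : w ∈ sk1 T := ⟨hwO, by rw [hw0]; exact zero_le_one⟩
    have h1 := gap w hws (hNc x hx hw) hwi (fun h => by
      have h2 := h.2.1
      rw [hw0] at h2
      exact absurd h2 (by norm_num))
    have h2 := hn2 w hws (hNc x hx hw)
    linarith
  set a := 1 + β with ha
  set b := 1 + 3 * β with hb
  set Bad : KT T i → Set ℝ := fun k => {t | t ∈ Ioo a b ∧ ∃ z ∈ T.cc k.e, ∃ z' ∈ T.cc k.e,
    z ≠ z' ∧ u (f z) = t ∧ u (f z') = t} with hBad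
  have hbad : ∀ k, volume (Bad k) ≤ ENNReal.ofReal (2 * (Λ * η')) := by
    intro k
    have hk := k.crs
    obtain ⟨p, q, hpq, hp0, hq0, hp, hq⟩ :=
      (Crest.Agent.R096.Tgr_335.Crs.ends (T := T) (i := i) (e := k.e)
        ⟨hk.1, hk.2.1, hk.2.2.1, hk.2.2.2⟩)
    obtain ⟨F, hF, hF1, hFb⟩ := bv _ hk p q hpq
    have hmem : ∀ s ∈ Icc (0:ℝ) 1, p + s • (q - p) ∈ T.cc k.e := by
      intro s hs
      rw [hpq, segment_eq_image']
      exact ⟨s, hs, rfl⟩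
    have hsk : T.cc k.e ⊆ sk1 T := cc_sub_sk1 hk.1 hk.2.1
    have hlin : ∀ s : ℝ, A (p + s • (q - p)) = A p + s • A.linear (q - p) := by
      intro s
      have h1 := A.map_vadd p (s • (q - p))
      simp only [vadd_eq_add, map_smul] at h1
      rw [add_comm p, h1, add_comm]
    have h1 := edge_once (hG := GH_ne hne c A) hΛ0 hΛ
      (γ := fun s => f (p + s • (q - p))) (δ := fun s => A (p + s • (q - p)))
      (hf.comp (by fun_prop) fun s hs => T.cc_sub_Om hk.1 (hmem s hs))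
      (p := A p) (v := A.linear (q - p)) hlin hε
      (fun s hs => near _ (hsk (hmem s hs)) (hNc _ hk (hmem s hs)))
      hF hFb (htile p hp) (a0 := a) (b0 := b) (by rw [ha]; linarith)
      (by
        have h2 := houtv _ hk q (by rw [hpq]; exact right_mem_segment _ _ _) hq0 hq
        have h3 : (p + (1:ℝ) • (q - p)) = q := by rw [one_smul]; abel
        rw [h3, hb]
        have h4 : u (f q) = gau (GH (T.H i) c A) (GH_ne hne c A) (f q) := rfl
        rw [← h4]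
        linarith)
    refine (measure_mono ?_).trans (h1.trans (ENNReal.ofReal_le_ofReal ?_))
    · rintro t ⟨ht, z, hz, z', hz', hzz, e1, e2⟩
      rw [hpq, segment_eq_image'] at hz hz'
      obtain ⟨s, hs, rfl⟩ := hz
      obtain ⟨s', hs', rfl⟩ := hz'
      refine ⟨ht, s, hs, s', hs', ?_, e1, e2⟩
      rintro rfl
      exact hzz rfl
    · have := mul_le_mul_of_nonneg_left hF1 hΛ0
      linarith
  have hcov : Ioo a b \ GLv T f i u a b ⊆ ⋃ k, Bad k := by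
    rintro t ⟨ht, hn⟩
    have h : ¬ ∀ x, Crs T i x → ∀ z ∈ T.cc x, ∀ z' ∈ T.cc x,
        u (f z) = t → u (f z') = t → z = z' := fun h => hn ⟨ht, h⟩
    push Not at h
    obtain ⟨x, hx, z, hz, z', hz', e1, e2, hzz⟩ := h
    obtain ⟨k, hk⟩ := exists_KT hx
    have hcc : T.cc x = T.cc k.e := T.cc_eq_of_mem_oc k.eOm hk
    rw [hcc] at hz hz'
    exact mem_iUnion.2 ⟨k, ht, z, hz, z', hz', hzz, e1, e2⟩
  refine (measure_mono hcov).trans ?_
  cases nonempty_fintype (KT T i)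
  refine (measure_iUnion_fintype_le _ _).trans ?_
  refine (Finset.sum_le_sum fun k _ => hbad k).trans ?_
  rw [Finset.sum_const, Finset.card_univ, nsmul_eq_mul, Nat.card_eq_fintype_card,
    ENNReal.ofReal_mul (Nat.cast_nonneg _), ENNReal.ofReal_natCast]

end general

variable {ι κi : Type*} {Ω La : Set R3} {T : Tiling Ω ι} {x v : κi → R3} {p : ℝ} {f fi : R3 → R3}
  {D : R3 → R3 →L[ℝ] R3} {κ τ σ₀ η t s : ℝ} {a z b : R3} {L : R3 →L[ℝ] R3} {W : Set R3}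

/-- the variation of `f - A` on the crossing edges, from a perfect cube -/
theorem perf_bv_crs (hp : 1 ≤ p) (hη : 0 < η) (ht : 0 < t)
    (hP : PerfG x v p Ω f D κ τ σ₀ η t s a z b L)
    (hA : ∀ e, ACV Ω f D (v e) (a + x e)) (hv : ∀ e, ‖v e‖ ≤ t)
    (hM : MeshG T x v a W) (hWc : cel Cb z ((1 - σ₀) * s) ⊆ W) {i : ι}
    (hNc : ∀ y, Crs T i y → T.cc y ⊆ cel Cb z ((1 - σ₀) * s)) {A : R3 → R3}
    (hAL : ∀ y, A y = b + L (y - z)) {y : R3} (hy : Crs T i y) {p₁ q₁ : R3}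
    (hpq : T.cc y = segment ℝ p₁ q₁) :
    ∃ F : ℝ → ℝ, MonotoneOn F (Icc 0 1) ∧ F 1 - F 0 ≤ 2 * η * t ∧
      ∀ s₁ ∈ Icc (0:ℝ) 1, ∀ s₂ ∈ Icc (0:ℝ) 1, s₁ ≤ s₂ →
        ‖(f (p₁ + s₂ • (q₁ - p₁)) - A (p₁ + s₂ • (q₁ - p₁))) -
          (f (p₁ + s₁ • (q₁ - p₁)) - A (p₁ + s₁ • (q₁ - p₁)))‖ ≤ F s₂ - F s₁ := by
  obtain ⟨e, he⟩ := hM.cell y hy.1 hy.2.1 ((hNc y hy).trans hWc)
  have hve : v e ≠ 0 := by
    intro h0
    obtain ⟨p', q', hne', e1, -⟩ := T.edge_eq hy.1 hy.2.1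
    have h1 : seg x v a e = {a + x e} := by
      rw [seg_eq_segment, h0, add_zero, segment_same]
    rw [he, h1] at e1
    have h2 : p' ∈ ({a + x e} : Set R3) := by rw [e1]; exact left_mem_segment _ _ _
    have h3 : q' ∈ ({a + x e} : Set R3) := by rw [e1]; exact right_mem_segment _ _ _
    exact hne' (h2.trans h3.symm)
  have hsubs : seg x v a e ⊆ cel Cb z s := by
    intro u hu
    have h1 : u ∈ cel Cb z ((1 - σ₀) * s) := hNc y hy (by rw [he]; exact hu)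
    exact (hP.near e u hu h1 u hu).1
  exact perf_bv hp hη ht hP hA hv hve hsubs hAL (hpq.symm.trans he)

/-- **BAD0 in a perfect cube** (hypotheses of `goodT_perf`) -/
theorem bad_vol_perf (hp : 1 ≤ p) (F : HF Ω La f fi) (hκ : 0 < κ) (hη : 0 < η) (ht : 0 < t)
    (hP : PerfG x v p Ω f D κ τ σ₀ η t s a z b L)
    (hA : ∀ e, ACV Ω f D (v e) (a + x e)) (hv : ∀ e, ‖v e‖ ≤ t)
    (hM : MeshG T x v a W) (hWc : cel Cb z ((1 - σ₀) * s) ⊆ W)
    {i : ι} (hne : (T.H i).Nonempty) {c : R3} (hc : c ∈ I (T.H i)) {β ρ : ℝ} (hβ : 0 < β)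
    (hρ : 0 < ρ) (hB : closedBall c ρ ⊆ P (T.H i))
    (hNc : ∀ y, Crs T i y → T.cc y ⊆ cel Cb z ((1 - σ₀) * s))
    (gap : ∀ y ∈ sk1 T, y ∈ cel Cb z ((1 - σ₀) * s) → y ∉ P (T.H i) → ¬ Crs T i y →
      1 + 4 * β ≤ ug (T.H i) hne c (AffineEquiv.refl ℝ R3) y)
    (hη1 : 4 * ((κ * ρ)⁻¹ * (η * t)) ≤ β) :
    volume (Ioo (1 + β) (1 + 3 * β) \ GLv T f i
      (ug (T.H i) hne c (affE L (inj_of_low hκ hP.low) b z)) (1 + β) (1 + 3 * β)) ≤
      ENNReal.ofReal ((Nat.card (KT T i) : ℝ) * (2 * ((κ * ρ)⁻¹ * (2 * η * t)))) := by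
  set A := affE L (inj_of_low hκ hP.low) b z with hAdef
  refine bad_vol hne hc A F.cont (N := cel Cb z ((1 - σ₀) * s)) (Λ := (κ * ρ)⁻¹)
    (ε := η * t) (β := β) (η' := 2 * η * t) (by positivity)
    (GH_norm hc A hρ hκ hB fun u => hP.low u) (by positivity) hβ hη1 hNc ?_ ?_ ?_
  · intro y hy hyN
    exact perf_near hP hM hWc hy hyN
  · intro y hy hyN hyi hyc
    rw [ug_comp]
    exact gap y hy hyN hyi hyc
  · intro y hy p₁ q₁ hpq
    exact perf_bv_crs hp hη ht hP hA hv hM hWc hNc (fun _ => rfl) hy hpq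

end Crest.Agent.R96.Gdt_538
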