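import Mathlib
import Crest.Agent.R96.Sob5_199
import Crest.Agent.R96.Str2_520

/-!
# Row 96, U2 PUSH (helper899), part 21: rigidity.

`f₂` uniformly close to `f₁`, `‖D f₂‖ ≤ (1 + β) ‖D f₁‖` on most of `Ω`, `D f₁` close to the constant
vector `v` in `L^p`: then `D f₂` is close to `v` in `L^p`.
-/

set_option autoImplicit false
set_option linter.unusedSectionVars false
set_option linter.unusedVariables false

open MeasureTheory Set Filter Topology
open scoped NNReal ENNReal ContDiff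

noncomputable section

namespace Crest.Agent.R96.Push_899

open Crest.Agent.R96.Acl_392 Crest.Agent.R96.Sob1_199 Crest.Agent.R96.Sob2_199
  Crest.Agent.R96.Sob3_199 Crest.Agent.R96.Sob4_199 Crest.Agent.R96.Sob5_199

/-! ### pointwise part -/

/-- the constant -/
def rigK (lam V p : ℝ) : ℝ := (lam * V) ^ (p - 2) + (3 * V) ^ (p - 2)

theorem rigK_pos {lam V p : ℝ} (hl : 0 < lam) (hV : 0 < V) : 0 < rigK lam V p := by
  unfold rigK; positivity

theorem rig_tp {lam V p t : ℝ} (hl : 0 < lam) (hV : 0 < V) (hp : 0 ≤ p) (ht : 0 ≤ t)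
    (ht3 : t ≤ 3 * V) : t ^ p ≤ (lam * V) ^ p + rigK lam V p * t ^ 2 := by
  have hlV : 0 < lam * V := mul_pos hl hV
  rcases le_or_gt t (lam * V) with h | h
  · have h1 : t ^ p ≤ (lam * V) ^ p := Real.rpow_le_rpow ht h hp
    have h2 : 0 ≤ rigK lam V p * t ^ 2 := mul_nonneg (rigK_pos hl hV).le (sq_nonneg t)
    linarith
  · have ht0 : 0 < t := hlV.trans h
    have e1 : t ^ p = t ^ (p - 2) * t ^ 2 := by
      rw [← Real.rpow_natCast t 2, ← Real.rpow_add ht0]; norm_num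
    have h3 : t ^ (p - 2) ≤ rigK lam V p := by
      unfold rigK
      rcases le_total 0 (p - 2) with h4 | h4
      · have := Real.rpow_le_rpow ht ht3 h4
        have := (Real.rpow_pos_of_pos hlV (p - 2)).le
        linarith
      · have := Real.rpow_le_rpow_of_nonpos hlV h.le h4
        have h5 : 0 < (3 * V) ^ (p - 2) := Real.rpow_pos_of_pos (by positivity) _
        linarith
    have h4 := mul_le_mul_of_nonneg_right h3 (sq_nonneg t)
    have h5 : 0 ≤ (lam * V) ^ p := (Real.rpow_pos_of_pos hlV p).le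
    rw [e1]; linarith

theorem rig_l1 {r p t : ℝ} (hr : 0 < r) (hp : 1 ≤ p) (ht : 0 ≤ t) :
    t ≤ r + r ^ (1 - p) * t ^ p := by
  rcases le_or_gt t r with h | h
  · have : 0 ≤ r ^ (1 - p) * t ^ p := by positivity
    linarith
  · have ht0 : 0 < t := hr.trans h
    have h1 : t ^ (1 - p) ≤ r ^ (1 - p) := Real.rpow_le_rpow_of_nonpos hr h.le (by linarith)
    have e1 : t = t ^ (1 - p) * t ^ p := by
      rw [← Real.rpow_add ht0]; norm_num
    have h2 : t ^ (1 - p) * t ^ p ≤ r ^ (1 - p) * t ^ p :=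
      mul_le_mul_of_nonneg_right h1 (by positivity)
    linarith

/-- good points -/
theorem rig_good {H : Type*} [NormedAddCommGroup H] [InnerProductSpace ℝ H] {u w v : H}
    {V τ lam p ψ : ℝ} (hV : ‖v‖ = V) (hV0 : 0 < V) (hτ : 0 < τ)
    (hτ1 : τ ≤ 1 / 4) (hlam : 0 < lam) (hp : 1 ≤ p) (hψ0 : 0 ≤ ψ) (hψ1 : ψ ≤ 1)
    (hg : ‖w‖ ≤ (1 + τ) * ‖u‖) (hn : ‖u - v‖ ≤ τ * V) :
    ‖w - v‖ ^ p ≤ (lam * V) ^ p +
      rigK lam V p * (8 * τ * V ^ 2 + 2 * (ψ * (V ^ 2 - inner ℝ w v))) +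
      (3 * V) ^ p * (1 - ψ) := by
  have hK0 := rigK_pos (p := p) hlam hV0
  have hu1 : ‖u‖ ≤ V + ‖u - v‖ := by
    have := norm_add_le v (u - v)
    rw [add_sub_cancel, hV] at this
    exact this
  have hwv : ‖w - v‖ ^ 2 = ‖w‖ ^ 2 - 2 * inner ℝ w v + V ^ 2 := by
    rw [← hV]; exact norm_sub_sq_real w v
  have hu2 : ‖u‖ ≤ (1 + τ) * V := by linarith
  have hw2 : ‖w‖ ≤ (1 + τ) * ((1 + τ) * V) :=
    hg.trans (mul_le_mul_of_nonneg_left hu2 (by linarith))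
  have h3 : ‖w‖ ^ 2 ≤ (1 + 8 * τ) * V ^ 2 := by
    have h4 : ‖w‖ ^ 2 ≤ ((1 + τ) * ((1 + τ) * V)) ^ 2 := by gcongr
    refine h4.trans ?_
    have h5 : (1 + τ) ^ 4 ≤ 1 + 8 * τ := by
      have c1 : (1 + τ) ^ 2 ≤ 1 + 9 / 4 * τ := by nlinarith
      have c2 : (1 + 9 / 4 * τ) ^ 2 ≤ 1 + 8 * τ := by nlinarith
      calc (1 + τ) ^ 4 = ((1 + τ) ^ 2) ^ 2 := by ring
        _ ≤ (1 + 9 / 4 * τ) ^ 2 := by gcongr
        _ ≤ _ := c2
    calc ((1 + τ) * ((1 + τ) * V)) ^ 2 = (1 + τ) ^ 4 * V ^ 2 := by ring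
      _ ≤ _ := mul_le_mul_of_nonneg_right h5 (sq_nonneg V)
  have ht3 : ‖w - v‖ ≤ 3 * V := by
    have h6 : ‖w - v‖ ≤ ‖w‖ + V := by rw [← hV]; exact norm_sub_le w v
    have h7 : (1 + τ) * ((1 + τ) * V) ≤ 2 * V := by
      have : (1 + τ) * (1 + τ) ≤ 2 := by nlinarith
      rw [← mul_assoc]
      exact mul_le_mul_of_nonneg_right this hV0.le
    linarith
  have h4 := rig_tp (lam := lam) (V := V) (p := p) hlam hV0 (by linarith)
    (norm_nonneg (w - v)) ht3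
  have h5 : ‖w - v‖ ^ 2 ≤ 8 * τ * V ^ 2 + 2 * (V ^ 2 - inner ℝ w v) := by
    rw [hwv]; linarith
  have h6 : ‖w - v‖ ^ p ≤ (3 * V) ^ p := Real.rpow_le_rpow (norm_nonneg _) ht3 (by linarith)
  have l0 : 0 ≤ (lam * V) ^ p := Real.rpow_nonneg (mul_pos hlam hV0).le _
  generalize rigK lam V p = K at *
  generalize (lam * V) ^ p = L at *
  generalize (3 * V) ^ p = M at *
  generalize ‖w - v‖ ^ p = T at *
  generalize ‖w - v‖ = t at *
  generalize inner ℝ w v = I at *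
  have h7 : ψ * T ≤ L + K * (8 * τ * V ^ 2 + 2 * (ψ * (V ^ 2 - I))) := by
    have a1 : ψ * T ≤ ψ * (L + K * t ^ 2) := mul_le_mul_of_nonneg_left h4 hψ0
    have a2 : ψ * L ≤ L := mul_le_of_le_one_left l0 hψ1
    have a3 : ψ * t ^ 2 ≤ 8 * τ * V ^ 2 + 2 * (ψ * (V ^ 2 - I)) := by
      have b1 := mul_le_mul_of_nonneg_left h5 hψ0
      have b2 : ψ * (8 * τ * V ^ 2) ≤ 8 * τ * V ^ 2 := mul_le_of_le_one_left (by positivity) hψ1
      linarith
    have a4 := mul_le_mul_of_nonneg_left a3 hK0.le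
    have a5 : ψ * (L + K * t ^ 2) = ψ * L + K * (ψ * t ^ 2) := by ring
    linarith
  have h8 : (1 - ψ) * T ≤ M * (1 - ψ) := by
    rw [mul_comm]
    exact mul_le_mul_of_nonneg_right h6 (by linarith)
  have h12 : T = ψ * T + (1 - ψ) * T := by ring
  linarith

/-- bad points -/
theorem rig_bad {H : Type*} [NormedAddCommGroup H] [InnerProductSpace ℝ H] {u w v : H}
    {V C τ p ψ θ K Y n : ℝ} (hV : ‖v‖ = V) (hV0 : 0 < V) (hC : 1 ≤ C) (hτ : 0 < τ)
    (hp : 1 ≤ p) (hψ0 : 0 ≤ ψ) (hψ1 : ψ ≤ 1) (hK0 : 0 < K)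
    (hw : ‖w‖ ≤ C * ‖u‖) (hone : 1 ≤ θ) (hn : ‖u - v‖ = n) (hY : n ≤ Y) :
    ‖w - v‖ ^ p ≤ K * (8 * τ * V ^ 2 + 2 * (ψ * (V ^ 2 - inner ℝ w v))) +
      2 * K * C * V * (V * θ + Y) + θ * (2 * (C + 1) * V) ^ p + (2 * C) ^ p * n ^ p := by
  have hn0 : 0 ≤ n := by rw [← hn]; exact norm_nonneg _
  have hu1 : ‖u‖ ≤ V + n := by
    have := norm_add_le v (u - v)
    rw [add_sub_cancel, hV, hn] at this
    exact this
  have hcs : inner ℝ w v ≤ ‖w‖ * V := by rw [← hV]; exact real_inner_le_norm w v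
  have hCu : C * ‖u‖ ≤ C * (V + n) := mul_le_mul_of_nonneg_left hu1 (by linarith)
  have ht : ‖w - v‖ ≤ C * n + (C + 1) * V := by
    have h6 : ‖w - v‖ ≤ ‖w‖ + V := by rw [← hV]; exact norm_sub_le w v
    have h8 : C * (V + n) = C * V + C * n := by ring
    linarith
  have h1 : ‖w - v‖ ^ p ≤ (2 * C) ^ p * n ^ p + (2 * (C + 1) * V) ^ p := by
    have a0 : 0 ≤ C * n := mul_nonneg (by linarith) hn0
    have a1 : 0 ≤ (C + 1) * V := mul_nonneg (by linarith) hV0.le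
    have a2 : ‖w - v‖ ^ p ≤ (C * n + (C + 1) * V) ^ p :=
      Real.rpow_le_rpow (norm_nonneg _) ht (by linarith)
    refine a2.trans ?_
    rcases le_total (C * n) ((C + 1) * V) with h | h
    · have a3 : (C * n + (C + 1) * V) ^ p ≤ (2 * (C + 1) * V) ^ p :=
        Real.rpow_le_rpow (by linarith) (by linarith) (by linarith)
      have a4 : 0 ≤ (2 * C) ^ p * n ^ p :=
        mul_nonneg (Real.rpow_nonneg (by linarith) _) (Real.rpow_nonneg hn0 _)
      linarith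
    · have a3 : (C * n + (C + 1) * V) ^ p ≤ (2 * C * n) ^ p :=
        Real.rpow_le_rpow (by linarith) (by linarith) (by linarith)
      rw [Real.mul_rpow (by linarith) hn0] at a3
      have a4 : 0 ≤ (2 * (C + 1) * V) ^ p := Real.rpow_nonneg (by linarith) _
      linarith
  have h2 : (2 * (C + 1) * V) ^ p ≤ θ * (2 * (C + 1) * V) ^ p :=
    le_mul_of_one_le_left (Real.rpow_nonneg (by nlinarith) _) hone
  have b1 : inner ℝ w v ≤ C * (V + n) * V :=
    hcs.trans (mul_le_mul_of_nonneg_right (hw.trans hCu) hV0.le)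
  have h3 : 0 ≤ K * (8 * τ * V ^ 2 + 2 * (ψ * (V ^ 2 - inner ℝ w v))) +
      2 * K * C * V * (V * θ + Y) := by
    generalize inner ℝ w v = I at *
    have a1 : ψ * (I - V ^ 2) ≤ C * V * (V * θ + Y) := by
      have b2 : V + n ≤ V * θ + Y := by
        have : V ≤ V * θ := le_mul_of_one_le_right hV0.le hone
        linarith
      have b3 : 0 ≤ C * (V + n) * V :=
        mul_nonneg (mul_nonneg (by linarith) (by linarith)) hV0.le
      have b4 : ψ * (I - V ^ 2) ≤ C * (V + n) * V := by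
        rcases le_total (I - V ^ 2) 0 with h | h
        · have := mul_nonpos_of_nonneg_of_nonpos hψ0 h
          linarith
        · have b5 : ψ * (I - V ^ 2) ≤ 1 * (I - V ^ 2) := mul_le_mul_of_nonneg_right hψ1 h
          linarith [sq_nonneg V]
      refine b4.trans ?_
      calc C * (V + n) * V = C * V * (V + n) := by ring
        _ ≤ _ := mul_le_mul_of_nonneg_left b2 (mul_nonneg (by linarith) hV0.le)
    have a2 := mul_le_mul_of_nonneg_left a1 hK0.le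
    have a3 : 0 ≤ K * (8 * τ * V ^ 2) := by positivity
    have a4 : K * (8 * τ * V ^ 2 + 2 * (ψ * (V ^ 2 - I))) + 2 * K * C * V * (V * θ + Y) =
      K * (8 * τ * V ^ 2) + 2 * (K * (C * V * (V * θ + Y)) - K * (ψ * (I - V ^ 2))) := by ring
    rw [a4]
    linarith
  linarith

theorem rig_point {H : Type*} [NormedAddCommGroup H] [InnerProductSpace ℝ H] {u w v : H}
    {V C τ lam p ψ χ : ℝ} (hV : ‖v‖ = V) (hV0 : 0 < V) (hC : 1 ≤ C) (hτ : 0 < τ)
    (hτ1 : τ ≤ 1 / 4) (hlam : 0 < lam) (hp : 1 ≤ p) (hψ0 : 0 ≤ ψ) (hψ1 : ψ ≤ 1)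
    (hχ : χ = 0 ∨ χ = 1) (hw : ‖w‖ ≤ C * ‖u‖) (hg : χ = 0 → ‖w‖ ≤ (1 + τ) * ‖u‖) :
    ‖w - v‖ ^ p ≤ (lam * V) ^ p +
      rigK lam V p * (8 * τ * V ^ 2 + 2 * (ψ * (V ^ 2 - inner ℝ w v))) +
      2 * rigK lam V p * C * V * (V * (χ + ‖u - v‖ ^ p / (τ * V) ^ p) +
        (τ * V + (τ * V) ^ (1 - p) * ‖u - v‖ ^ p)) +
      (3 * V) ^ p * (1 - ψ) + (χ + ‖u - v‖ ^ p / (τ * V) ^ p) * (2 * (C + 1) * V) ^ p +
      (2 * C) ^ p * ‖u - v‖ ^ p := by
  have hK0 := rigK_pos (p := p) hlam hV0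
  have hn0 : 0 ≤ ‖u - v‖ := norm_nonneg _
  have hτV : 0 < τ * V := mul_pos hτ hV0
  have hχ0 : 0 ≤ χ := by rcases hχ with h | h <;> simp [h]
  have hnp : 0 ≤ ‖u - v‖ ^ p := Real.rpow_nonneg hn0 p
  have hτVp : 0 < (τ * V) ^ p := Real.rpow_pos_of_pos hτV p
  have hq : 0 ≤ ‖u - v‖ ^ p / (τ * V) ^ p := div_nonneg hnp hτVp.le
  have hl1 := rig_l1 hτV hp hn0
  have hY0 : 0 ≤ τ * V + (τ * V) ^ (1 - p) * ‖u - v‖ ^ p := hn0.trans hl1
  have l0 : 0 ≤ (lam * V) ^ p := Real.rpow_nonneg (mul_pos hlam hV0).le _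
  have l1 : 0 ≤ (3 * V) ^ p := Real.rpow_nonneg (by linarith) _
  have l2 : 0 ≤ (2 * (C + 1) * V) ^ p := Real.rpow_nonneg (by nlinarith) _
  have l3 : 0 ≤ (2 * C) ^ p := Real.rpow_nonneg (by linarith) _
  by_cases hgood : χ = 0 ∧ ‖u - v‖ ≤ τ * V
  · obtain ⟨h0, h1⟩ := hgood
    have h2 := rig_good (u := u) (w := w) (v := v) hV hV0 hτ hτ1 hlam hp hψ0 hψ1 (hg h0) h1
    have h9 : 0 ≤ 2 * rigK lam V p * C * V * (V * (χ + ‖u - v‖ ^ p / (τ * V) ^ p) +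
        (τ * V + (τ * V) ^ (1 - p) * ‖u - v‖ ^ p)) := by
      apply mul_nonneg
      · exact mul_nonneg (mul_nonneg (by linarith) (by linarith)) hV0.le
      · exact add_nonneg (mul_nonneg hV0.le (add_nonneg hχ0 hq)) hY0
    have h10 : 0 ≤ (χ + ‖u - v‖ ^ p / (τ * V) ^ p) * (2 * (C + 1) * V) ^ p :=
      mul_nonneg (add_nonneg hχ0 hq) l2
    have h11 : 0 ≤ (2 * C) ^ p * ‖u - v‖ ^ p := mul_nonneg l3 hnp
    linarith
  · have hone : 1 ≤ χ + ‖u - v‖ ^ p / (τ * V) ^ p := by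
      rcases hχ with h | h
      · have h1 : τ * V < ‖u - v‖ := by
          by_contra hcon
          exact hgood ⟨h, not_lt.1 hcon⟩
        have h2 : (τ * V) ^ p ≤ ‖u - v‖ ^ p := Real.rpow_le_rpow hτV.le h1.le (by linarith)
        have h3 : 1 ≤ ‖u - v‖ ^ p / (τ * V) ^ p := by rw [le_div_iff₀ hτVp]; linarith
        linarith
      · linarith
    have h2 := rig_bad (u := u) (w := w) (v := v) (K := rigK lam V p) hV hV0 hC hτ hp hψ0 hψ1 hK0
      hw hone rfl hl1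
    have h5 : 0 ≤ (3 * V) ^ p * (1 - ψ) := mul_nonneg l1 (by linarith)
    linarith

end Crest.Agent.R96.Push_899
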