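import Mathlib
import Crest.Agent.R96.Push21_899

/-!
# Row 96, U2 PUSH (helper899), part 22: rigidity, integrated.
-/

set_option autoImplicit false
set_option linter.unusedSectionVars false
set_option linter.unusedVariables false

open MeasureTheory Set Filter Topology
open scoped NNReal ENNReal ContDiff

noncomputable section

namespace Crest.Agent.R96.Push_899

open Crest.Agent.R96.Acl_392 Crest.Agent.R96.Sob1_199 Crest.Agent.R96.Sob2_199
  Crest.Agent.R96.Sob3_199 Crest.Agent.R96.Sob4_199 Crest.Agent.R96.Sob5_199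

variable {E : Type*} [NormedAddCommGroup E] [NormedSpace ℝ E] [FiniteDimensional ℝ E]
  [MeasurableSpace E] [BorelSpace E] {μ : Measure E} [μ.IsAddHaarMeasure]

variable {ι : Type*} [Fintype ι]

/-- products with test functions are integrable -/
theorem integrable_mul_test {Ω : Set E} {g ψ : E → ℝ} (hg : LocallyIntegrableOn g Ω μ)
    (hψ : Continuous ψ) (hc : HasCompactSupport ψ) (hs : tsupport ψ ⊆ Ω) :
    Integrable (fun x => g x * ψ x) μ := by
  have h1 : IntegrableOn g (tsupport ψ) μ := hg.integrableOn_compact_subset hs hc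
  have h2 : IntegrableOn (fun x => g x * ψ x) (tsupport ψ) μ :=
    h1.mul_continuousOn hψ.continuousOn hc
  refine (integrableOn_iff_integrable_of_support_subset ?_).1 h2
  intro x hx
  apply subset_tsupport
  intro h0
  apply hx
  simp only [h0, mul_zero]

/-- weak pairing -/
theorem pairing {Ω : Set E} {f₁ f₂ u w : E → EuclideanSpace ℝ ι} {e : E}
    (h1 : VWD Ω μ f₁ u e) (h2 : VWD Ω μ f₂ w e) {ψ : E → ℝ} (hψ : ContDiff ℝ ∞ ψ)
    (hc : HasCompactSupport ψ) (hs : tsupport ψ ⊆ Ω) {e₀ : ℝ} (he0 : 0 ≤ e₀)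
    (hclose : ∀ x ∈ Ω, ‖f₂ x - f₁ x‖ ≤ e₀) (v : EuclideanSpace ℝ ι) :
    Integrable (fun x => ψ x * inner ℝ (w x) v) μ ∧ Integrable (fun x => ψ x * inner ℝ (u x) v) μ ∧
    |∫ x, ψ x * inner ℝ (w x) v ∂μ - ∫ x, ψ x * inner ℝ (u x) v ∂μ| ≤
      e₀ * ‖v‖ * ∫ x, |fderiv ℝ ψ x e| ∂μ := by
  have hψ' : Continuous (fun x => fderiv ℝ ψ x e) :=
    (hψ.continuous_fderiv (by simp)).clm_apply continuous_const
  have hdsup : tsupport (fun x => fderiv ℝ ψ x e) ⊆ tsupport ψ :=
    closure_minimal (fun x hx => support_fderiv_subset ℝ (by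
      intro h0
      apply hx
      simp only [h0, zero_apply])) (isClosed_tsupport _)
  have hdc : HasCompactSupport (fun x => fderiv ℝ ψ x e) :=
    IsCompact.of_isClosed_subset hc (isClosed_tsupport _) hdsup
  have i1 : ∀ i, Integrable (fun x => w x i * ψ x) μ := fun i =>
    integrable_mul_test (h2 i).lg hψ.continuous hc hs
  have i2 : ∀ i, Integrable (fun x => u x i * ψ x) μ := fun i =>
    integrable_mul_test (h1 i).lg hψ.continuous hc hs
  have i3 : ∀ i, Integrable (fun x => f₂ x i * fderiv ℝ ψ x e) μ := fun i =>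
    integrable_mul_test (h2 i).lv hψ' hdc (hdsup.trans hs)
  have i4 : ∀ i, Integrable (fun x => f₁ x i * fderiv ℝ ψ x e) μ := fun i =>
    integrable_mul_test (h1 i).lv hψ' hdc (hdsup.trans hs)
  have ein : ∀ (a : EuclideanSpace ℝ ι), inner ℝ a v = ∑ i, v i * a i := by
    intro a
    rw [PiLp.inner_apply]
    exact Finset.sum_congr rfl fun i _ => by simp
  have e1 : ∀ (g : E → EuclideanSpace ℝ ι) x, ψ x * inner ℝ (g x) v =
      ∑ i, v i * (g x i * ψ x) := by
    intro g x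
    rw [ein, Finset.mul_sum]
    exact Finset.sum_congr rfl fun i _ => by ring
  have j1 : Integrable (fun x => ψ x * inner ℝ (w x) v) μ := by
    simp only [e1]
    exact integrable_finsetSum _ fun i _ => (i1 i).const_mul _
  have j2 : Integrable (fun x => ψ x * inner ℝ (u x) v) μ := by
    simp only [e1]
    exact integrable_finsetSum _ fun i _ => (i2 i).const_mul _
  refine ⟨j1, j2, ?_⟩
  have e2 : ∫ x, ψ x * inner ℝ (w x) v ∂μ - ∫ x, ψ x * inner ℝ (u x) v ∂μ =
      - ∫ x, inner ℝ (f₂ x - f₁ x) v * fderiv ℝ ψ x e ∂μ := by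
    have a1 : ∫ x, ψ x * inner ℝ (w x) v ∂μ = ∑ i, v i * - ∫ x, f₂ x i * fderiv ℝ ψ x e ∂μ := by
      simp only [e1]
      rw [integral_finsetSum _ fun i _ => (i1 i).const_mul _]
      refine Finset.sum_congr rfl fun i _ => ?_
      rw [integral_const_mul, (h2 i).weak ψ hψ hc hs, neg_neg]
    have a2 : ∫ x, ψ x * inner ℝ (u x) v ∂μ = ∑ i, v i * - ∫ x, f₁ x i * fderiv ℝ ψ x e ∂μ := by
      simp only [e1]
      rw [integral_finsetSum _ fun i _ => (i2 i).const_mul _]
      refine Finset.sum_congr rfl fun i _ => ?_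
      rw [integral_const_mul, (h1 i).weak ψ hψ hc hs, neg_neg]
    have a3 : ∫ x, inner ℝ (f₂ x - f₁ x) v * fderiv ℝ ψ x e ∂μ =
        ∑ i, v i * (∫ x, f₂ x i * fderiv ℝ ψ x e ∂μ - ∫ x, f₁ x i * fderiv ℝ ψ x e ∂μ) := by
      have b1 : ∀ x, inner ℝ (f₂ x - f₁ x) v * fderiv ℝ ψ x e =
          ∑ i, v i * (f₂ x i * fderiv ℝ ψ x e - f₁ x i * fderiv ℝ ψ x e) := by
        intro x
        rw [ein, Finset.sum_mul]
        exact Finset.sum_congr rfl fun i _ => by simp only [PiLp.sub_apply]; ring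
      have b2 : ∀ i, Integrable (fun x => v i * (f₂ x i * fderiv ℝ ψ x e -
          f₁ x i * fderiv ℝ ψ x e)) μ := fun i => ((i3 i).sub (i4 i)).const_mul _
      simp only [b1]
      rw [integral_finsetSum _ fun i _ => b2 i]
      refine Finset.sum_congr rfl fun i _ => ?_
      rw [integral_const_mul, integral_sub (i3 i) (i4 i)]
    rw [a1, a2, a3, ← Finset.sum_sub_distrib, ← Finset.sum_neg_distrib]
    exact Finset.sum_congr rfl fun i _ => by ring
  rw [e2, abs_neg]
  have hint : Integrable (fun x => |fderiv ℝ ψ x e|) μ :=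
    (hψ'.integrable_of_hasCompactSupport hdc).abs
  rw [← integral_const_mul]
  refine (abs_integral_le_integral_abs).trans ?_
  refine integral_mono_of_nonneg (Eventually.of_forall fun x => abs_nonneg _)
    (hint.const_mul _) (Eventually.of_forall fun x => ?_)
  simp only
  rw [abs_mul]
  by_cases hx : x ∈ tsupport ψ
  · apply mul_le_mul_of_nonneg_right _ (abs_nonneg _)
    refine (abs_real_inner_le_norm _ _).trans ?_
    exact mul_le_mul_of_nonneg_right (hclose x (hs hx)) (norm_nonneg _)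
  · have h0 : fderiv ℝ ψ x e = 0 := by
      by_contra hcon
      exact hx (hdsup (subset_tsupport _ hcon))
    rw [h0, abs_zero, mul_zero, mul_zero]

/-- the coefficient of `τ` -/
def rigT (lam V C p : ℝ) : ℝ := rigK lam V p * V ^ 2 * (10 + 2 * C)

/-- the coefficient of `δ` -/
def rigZ (lam τ V C p : ℝ) : ℝ :=
  2 * rigK lam V p * (V * (τ * V) ^ (1 - p) + V ^ 2) +
  (2 * rigK lam V p * C * V * V + (2 * (C + 1) * V) ^ p) +
  (2 * rigK lam V p * C * V * (V / (τ * V) ^ p + (τ * V) ^ (1 - p)) +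
    (2 * (C + 1) * V) ^ p / (τ * V) ^ p + (2 * C) ^ p) + (3 * V) ^ p

theorem enorm_rpow_eq {F : Type*} [NormedAddCommGroup F] (z : F) {p : ℝ} (hp : 0 ≤ p) :
    ‖z‖ₑ ^ p = ENNReal.ofReal (‖z‖ ^ p) := by
  rw [← ofReal_norm, ENNReal.ofReal_rpow_of_nonneg (norm_nonneg _) hp]

theorem rig_int {Ω : Set E} (hΩ : IsOpen Ω) (hΩf : μ Ω ≠ ⊤) {u w : E → EuclideanSpace ℝ ι}
    {v : EuclideanSpace ℝ ι} {V C τ lam p δ : ℝ} (hV : ‖v‖ = V) (hV0 : 0 < V) (hC : 1 ≤ C)
    (hτ : 0 < τ) (hτ1 : τ ≤ 1 / 4) (hlam : 0 < lam) (hp : 1 ≤ p) (hδ : 0 ≤ δ)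
    (mu : AEMeasurable u (μ.restrict Ω)) (mw : AEMeasurable w (μ.restrict Ω))
    {ψ : E → ℝ} (hψc : Continuous ψ) (hψ01 : ∀ x, ψ x ∈ Icc (0:ℝ) 1)
    (hψs : ∀ x ∉ Ω, ψ x = 0)
    (iw : Integrable (fun x => ψ x * inner ℝ (w x) v) μ)
    (iu : Integrable (fun x => ψ x * inner ℝ (u x) v) μ)
    (hpair : |∫ x, ψ x * inner ℝ (w x) v ∂μ - ∫ x, ψ x * inner ℝ (u x) v ∂μ| ≤
      δ * V ^ 2 * (μ Ω).toReal)
    (hψδ : ∫ x in Ω, (1 - ψ x) ∂μ ≤ δ * (μ Ω).toReal)
    {X : Set E} (hX : MeasurableSet X) (hXδ : μ (Ω ∩ X) ≤ ENNReal.ofReal δ * μ Ω)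
    (hw : ∀ᵐ x ∂μ, x ∈ Ω → ‖w x‖ ≤ C * ‖u x‖)
    (hg : ∀ᵐ x ∂μ, x ∈ Ω → x ∉ X → ‖w x‖ ≤ (1 + τ) * ‖u x‖)
    (hu : ∫⁻ x in Ω, ‖u x - v‖ₑ ^ p ∂μ ≤ ENNReal.ofReal δ * μ Ω) :
    ∫⁻ x in Ω, ‖w x - v‖ₑ ^ p ∂μ ≤
      ENNReal.ofReal ((lam * V) ^ p + τ * rigT lam V C p + δ * rigZ lam τ V C p) * μ Ω := by
  have hp0 : 0 ≤ p := by linarith
  set ν := μ.restrict Ω with hν
  set m := (μ Ω).toReal with hm
  have hm0 : 0 ≤ m := ENNReal.toReal_nonneg
  have : IsFiniteMeasure ν := ⟨by rw [hν, Measure.restrict_apply_univ]; exact hΩf.lt_top⟩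
  have hνm : ν.real univ = m := by
    rw [hν, measureReal_restrict_apply_univ]; rfl
  have hτV : 0 < τ * V := mul_pos hτ hV0
  set K := rigK lam V p with hK
  have hK0 : 0 < K := rigK_pos hlam hV0
  have hδm : (ENNReal.ofReal δ * μ Ω).toReal = δ * m := by
    rw [ENNReal.toReal_mul, ENNReal.toReal_ofReal hδ]
  have hδt : ENNReal.ofReal δ * μ Ω ≠ ⊤ := ENNReal.mul_ne_top ENNReal.ofReal_ne_top hΩf
  -- the function `N`
  set N : E → ℝ := fun x => ‖u x - v‖ ^ p with hN
  have hN0 : ∀ x, 0 ≤ N x := fun x => Real.rpow_nonneg (norm_nonneg _) p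
  have mN : AEStronglyMeasurable N ν :=
    ((mu.sub_const v).norm.pow_const p).aestronglyMeasurable
  have eN : ∀ x, ENNReal.ofReal (N x) = ‖u x - v‖ₑ ^ p := fun x => (enorm_rpow_eq _ hp0).symm
  have lN : ∫⁻ x, ENNReal.ofReal (N x) ∂ν ≤ ENNReal.ofReal δ * μ Ω := by
    rw [lintegral_congr eN]; exact hu
  have iN : Integrable N ν := by
    refine ⟨mN, ?_⟩
    rw [hasFiniteIntegral_iff_ofReal (Eventually.of_forall hN0)]
    exact lN.trans_lt hδt.lt_top
  have bN : ∫ x, N x ∂ν ≤ δ * m := by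
    rw [integral_eq_lintegral_of_nonneg_ae (Eventually.of_forall hN0) mN, ← hδm]
    exact ENNReal.toReal_mono hδt lN
  -- the function `χ`
  set χ : E → ℝ := X.indicator (fun _ => (1:ℝ)) with hχ
  have iχ : Integrable χ ν := (integrable_const (1:ℝ)).indicator hX
  have bχ : ∫ x, χ x ∂ν ≤ δ * m := by
    rw [hχ, integral_indicator hX, setIntegral_const, smul_eq_mul, mul_one, ← hδm]
    have e1 : ν.real X = (μ (Ω ∩ X)).toReal := by
      rw [hν, measureReal_def, Measure.restrict_apply hX, inter_comm]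
    rw [e1]
    exact ENNReal.toReal_mono hδt hXδ
  have hχ01 : ∀ x, χ x = 0 ∨ χ x = 1 := by
    intro x
    by_cases hx : x ∈ X
    · right; rw [hχ, indicator_of_mem hx]
    · left; rw [hχ, indicator_of_notMem hx]
  -- `ψ`
  have iψ : Integrable ψ ν :=
    Integrable.of_bound hψc.aestronglyMeasurable 1 (Eventually.of_forall fun x => by
      rw [Real.norm_eq_abs, abs_of_nonneg (hψ01 x).1]; exact (hψ01 x).2)
  have i1ψ : Integrable (fun x => 1 - ψ x) ν := (integrable_const (1:ℝ)).sub iψ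
  -- the pairing
  set a : E → ℝ := fun x => ψ x * (V ^ 2 - inner ℝ (w x) v) with ha
  have iwν : Integrable (fun x => ψ x * inner ℝ (w x) v) ν := iw.restrict
  have iuν : Integrable (fun x => ψ x * inner ℝ (u x) v) ν := iu.restrict
  have ea : ∀ x, a x = ψ x * V ^ 2 - ψ x * inner ℝ (w x) v := fun x => by
    rw [ha]; ring
  have ia : Integrable a ν := by
    have : a = fun x => ψ x * V ^ 2 - ψ x * inner ℝ (w x) v := funext ea
    rw [this]
    exact (iψ.mul_const _).sub iwν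
  have eset : ∀ g : E → ℝ, ∫ x, ψ x * g x ∂ν = ∫ x, ψ x * g x ∂μ := by
    intro g
    rw [hν]
    apply setIntegral_eq_integral_of_forall_compl_eq_zero
    intro x hx
    rw [hψs x hx, zero_mul]
  have ba : ∫ x, a x ∂ν ≤ V * (τ * V * m + (τ * V) ^ (1 - p) * (δ * m)) + δ * V ^ 2 * m := by
    have e1 : ∫ x, a x ∂ν = ∫ x, (ψ x * V ^ 2 - ψ x * inner ℝ (u x) v) ∂ν +
        (∫ x, ψ x * inner ℝ (u x) v ∂ν - ∫ x, ψ x * inner ℝ (w x) v ∂ν) := by
      rw [integral_congr_ae (Eventually.of_forall ea), integral_sub (iψ.mul_const _) iwν,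
        integral_sub (iψ.mul_const _) iuν]
      ring
    have e2 : ∫ x, ψ x * inner ℝ (u x) v ∂ν - ∫ x, ψ x * inner ℝ (w x) v ∂ν ≤
        δ * V ^ 2 * m := by
      rw [eset, eset]
      have := (abs_le.1 hpair).1
      linarith
    have e3 : ∫ x, (ψ x * V ^ 2 - ψ x * inner ℝ (u x) v) ∂ν ≤
        ∫ x, V * (τ * V + (τ * V) ^ (1 - p) * N x) ∂ν := by
      apply integral_mono ((iψ.mul_const _).sub iuν)
      · exact (((integrable_const (τ * V)).add (iN.const_mul _))).const_mul V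
      · intro x
        change ψ x * V ^ 2 - ψ x * inner ℝ (u x) v ≤ V * (τ * V + (τ * V) ^ (1 - p) * N x)
        have h1 : ψ x * V ^ 2 - ψ x * inner ℝ (u x) v = ψ x * inner ℝ (v - u x) v := by
          rw [inner_sub_left, real_inner_self_eq_norm_sq, hV]; ring
        rw [h1]
        have h2 : inner ℝ (v - u x) v ≤ ‖u x - v‖ * V := by
          rw [← hV, norm_sub_rev]; exact real_inner_le_norm _ _
        have h3 := rig_l1 hτV hp (norm_nonneg (u x - v))
        have h4 : ψ x * inner ℝ (v - u x) v ≤ ‖u x - v‖ * V := by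
          rcases le_total (inner ℝ (v - u x) v) 0 with h | h
          · have := mul_nonpos_of_nonneg_of_nonpos (hψ01 x).1 h
            have := mul_nonneg (norm_nonneg (u x - v)) hV0.le
            linarith
          · have := mul_le_mul_of_nonneg_right (hψ01 x).2 h
            linarith
        refine h4.trans ?_
        rw [mul_comm]
        exact mul_le_mul_of_nonneg_left h3 hV0.le
    have e4 : ∫ x, V * (τ * V + (τ * V) ^ (1 - p) * N x) ∂ν =
        V * (τ * V * m + (τ * V) ^ (1 - p) * ∫ x, N x ∂ν) := by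
      have e4a : ∫ x, (τ * V) ^ (1 - p) * N x ∂ν = (τ * V) ^ (1 - p) * ∫ x, N x ∂ν :=
        integral_const_mul _ _
      rw [integral_const_mul, integral_add (integrable_const _) (iN.const_mul _),
        e4a, integral_const, hνm, smul_eq_mul]
      ring
    have e5 : V * (τ * V * m + (τ * V) ^ (1 - p) * ∫ x, N x ∂ν) ≤
        V * (τ * V * m + (τ * V) ^ (1 - p) * (δ * m)) := by
      have : 0 ≤ (τ * V) ^ (1 - p) := Real.rpow_nonneg hτV.le _
      gcongr
    rw [e1]
    linarith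
  -- the right side
  set c0 : ℝ := (lam * V) ^ p + K * (8 * τ * V ^ 2) + 2 * K * C * V * (τ * V) with hc0
  set c1 : ℝ := 2 * K * C * V * V + (2 * (C + 1) * V) ^ p with hc1
  set c2 : ℝ := 2 * K * C * V * (V / (τ * V) ^ p + (τ * V) ^ (1 - p)) +
    (2 * (C + 1) * V) ^ p / (τ * V) ^ p + (2 * C) ^ p with hc2
  set c3 : ℝ := (3 * V) ^ p with hc3
  have hc1' : 0 ≤ c1 := by positivity
  have hc2' : 0 ≤ c2 := by positivity
  have hc3' : 0 ≤ c3 := by positivity
  set R : E → ℝ := fun x => (((c0 + 2 * K * a x) + c1 * χ x) + c2 * N x) + c3 * (1 - ψ x) with hR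
  have iR1 : Integrable (fun x => c0 + 2 * K * a x) ν := (integrable_const c0).add (ia.const_mul _)
  have iR2 : Integrable (fun x => (c0 + 2 * K * a x) + c1 * χ x) ν := iR1.add (iχ.const_mul _)
  have iR3 : Integrable (fun x => ((c0 + 2 * K * a x) + c1 * χ x) + c2 * N x) ν :=
    iR2.add (iN.const_mul _)
  have iR : Integrable R ν := iR3.add (i1ψ.const_mul _)
  have hle : ∀ᵐ x ∂ν, ‖w x - v‖ ^ p ≤ R x := by
    rw [hν, ae_restrict_iff' hΩ.measurableSet]
    filter_upwards [hw, hg] with x h1 h2 hx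
    have h3 := rig_point (u := u x) (w := w x) (v := v) (ψ := ψ x) (χ := χ x) (lam := lam)
      hV hV0 hC hτ hτ1 hlam hp (hψ01 x).1 (hψ01 x).2 (hχ01 x) (h1 hx) (by
        intro h0
        refine h2 hx ?_
        intro hxX
        rw [hχ, indicator_of_mem hxX] at h0
        exact one_ne_zero h0)
    refine h3.trans (le_of_eq ?_)
    rw [hR, ha, hN, hc0, hc1, hc2, hc3]
    simp only
    ring
  have hR0 : 0 ≤ᵐ[ν] R := by
    filter_upwards [hle] with x hx
    exact (Real.rpow_nonneg (norm_nonneg _) p).trans hx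
  have bR : ∫ x, R x ∂ν ≤ ((lam * V) ^ p + τ * rigT lam V C p + δ * rigZ lam τ V C p) * m := by
    have e1 : ∫ x, R x ∂ν = c0 * m + 2 * K * ∫ x, a x ∂ν + c1 * ∫ x, χ x ∂ν + c2 * ∫ x, N x ∂ν +
        c3 * ∫ x, (1 - ψ x) ∂ν := by
      rw [hR]
      rw [integral_add iR3 (i1ψ.const_mul _), integral_add iR2 (iN.const_mul _),
        integral_add iR1 (iχ.const_mul _), integral_add (integrable_const c0) (ia.const_mul _)]
      rw [integral_const_mul, integral_const_mul, integral_const_mul, integral_const_mul,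
        integral_const, hνm, smul_eq_mul]
      ring
    rw [e1]
    have b1 := mul_le_mul_of_nonneg_left ba (by positivity : 0 ≤ 2 * K)
    have b2 := mul_le_mul_of_nonneg_left bχ hc1'
    have b3 := mul_le_mul_of_nonneg_left bN hc2'
    have b4 := mul_le_mul_of_nonneg_left hψδ hc3'
    have e2 : ((lam * V) ^ p + τ * rigT lam V C p + δ * rigZ lam τ V C p) * m =
        c0 * m + 2 * K * (V * (τ * V * m + (τ * V) ^ (1 - p) * (δ * m)) + δ * V ^ 2 * m) +
        c1 * (δ * m) + c2 * (δ * m) + c3 * (δ * m) := by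
      unfold rigT rigZ
      rw [← hK, hc0, hc1, hc2, hc3]
      ring
    rw [e2]
    linarith
  calc ∫⁻ x in Ω, ‖w x - v‖ₑ ^ p ∂μ = ∫⁻ x, ENNReal.ofReal (‖w x - v‖ ^ p) ∂ν :=
        lintegral_congr fun x => enorm_rpow_eq _ hp0
    _ ≤ ∫⁻ x, ENNReal.ofReal (R x) ∂ν := by
        apply lintegral_mono_ae
        filter_upwards [hle] with x hx using ENNReal.ofReal_le_ofReal hx
    _ = ENNReal.ofReal (∫ x, R x ∂ν) := (ofReal_integral_eq_lintegral_ofReal iR hR0).symm
    _ ≤ ENNReal.ofReal (((lam * V) ^ p + τ * rigT lam V C p + δ * rigZ lam τ V C p) * m) :=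
        ENNReal.ofReal_le_ofReal bR
    _ = _ := by
        rw [mul_comm, ENNReal.ofReal_mul hm0, mul_comm, hm, ENNReal.ofReal_toReal hΩf]

end Crest.Agent.R96.Push_899
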