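import Mathlib
import Crest.Agent.R96.Push22_899

/-!
# Row 96, U2 PUSH (helper899), part 23: rigidity, final form.
-/

set_option autoImplicit false
set_option linter.unusedSectionVars false
set_option linter.unusedVariables false

open MeasureTheory Set Filter Topology
open scoped NNReal ENNReal ContDiff

noncomputable section

namespace Crest.Agent.R96.Push_899

open Crest.Agent.R96.Acl_392 Crest.Agent.R96.Sob1_199 Crest.Agent.R96.Sob2_199
  Crest.Agent.R96.Sob3_199 Crest.Agent.R96.Sob4_199 Crest.Agent.R96.Sob5_199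

variable {E : Type*} [NormedAddCommGroup E] [NormedSpace ℝ E] [FiniteDimensional ℝ E]
  [MeasurableSpace E] [BorelSpace E] {μ : Measure E} [μ.IsAddHaarMeasure]

variable {ι : Type*} [Fintype ι]

/-- **rigidity**: `f₂` uniformly close to `f₁`, `‖D f₂‖ ≤ (1 + β) ‖D f₁‖` on most of `Ω`, bounded
factor everywhere, `D f₁` close to the constant `v` in `L^p`: then so is `D f₂`. -/
theorem near_of_contr {p : ℝ} (hp : 1 ≤ p) (v : EuclideanSpace ℝ ι) {C : ℝ} (hC : 1 ≤ C) {d : ℝ}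
    (hd : 0 < d) :
    ∃ β : ℝ, 0 < β ∧ ∃ δ : ℝ, 0 < δ ∧ ∀ (Ω : Set E), IsOpen Ω → μ Ω ≠ ⊤ → Ω.Nonempty → ∀ e : E,
      ∃ e₀ : ℝ, 0 < e₀ ∧ ∀ (f₁ f₂ u w : E → EuclideanSpace ℝ ι),
        VWD Ω μ f₁ u e → VWD Ω μ f₂ w e → (∀ x ∈ Ω, ‖f₂ x - f₁ x‖ ≤ e₀) →
        ∀ X : Set E, MeasurableSet X → μ (Ω ∩ X) ≤ ENNReal.ofReal δ * μ Ω →
        (∀ᵐ x ∂μ, x ∈ Ω → ‖w x‖ ≤ C * ‖u x‖) →
        (∀ᵐ x ∂μ, x ∈ Ω → x ∉ X → ‖w x‖ ≤ (1 + β) * ‖u x‖) →
        ∫⁻ x in Ω, ‖u x - v‖ₑ ^ p ∂μ ≤ ENNReal.ofReal δ * μ Ω →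
        ∫⁻ x in Ω, ‖w x - v‖ₑ ^ p ∂μ ≤ ENNReal.ofReal d * μ Ω := by
  have hp0 : 0 < p := by linarith
  by_cases hv : v = 0
  · subst hv
    have hCp : 0 < C ^ p := by positivity
    refine ⟨1, one_pos, d / C ^ p, by positivity, ?_⟩
    intro Ω hΩ hΩf hΩne e
    refine ⟨1, one_pos, ?_⟩
    intro f₁ f₂ u w h1 h2 hcl X hX hXδ hw hg hu
    simp only [sub_zero] at hu ⊢
    calc ∫⁻ x in Ω, ‖w x‖ₑ ^ p ∂μ ≤ ∫⁻ x in Ω, ENNReal.ofReal (C ^ p) * ‖u x‖ₑ ^ p ∂μ := by
          apply lintegral_mono_ae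
          rw [ae_restrict_iff' hΩ.measurableSet]
          filter_upwards [hw] with x hx hxΩ
          rw [enorm_rpow_eq _ hp0.le, enorm_rpow_eq _ hp0.le, ← ENNReal.ofReal_mul hCp.le,
            ← Real.mul_rpow (by linarith) (norm_nonneg _)]
          exact ENNReal.ofReal_le_ofReal (Real.rpow_le_rpow (norm_nonneg _) (hx hxΩ) hp0.le)
      _ = ENNReal.ofReal (C ^ p) * ∫⁻ x in Ω, ‖u x‖ₑ ^ p ∂μ :=
          lintegral_const_mul' _ _ ENNReal.ofReal_ne_top
      _ ≤ ENNReal.ofReal (C ^ p) * (ENNReal.ofReal (d / C ^ p) * μ Ω) := mul_le_mul' le_rfl hu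
      _ = ENNReal.ofReal d * μ Ω := by
          rw [← mul_assoc, ← ENNReal.ofReal_mul hCp.le, mul_div_cancel₀ _ hCp.ne']
  · have hV0 : 0 < ‖v‖ := norm_pos_iff.2 hv
    set V := ‖v‖ with hV
    set lam : ℝ := (d / 3) ^ (1 / p) / V with hlam
    have hl0 : 0 < lam := by positivity
    have hlV : (lam * V) ^ p = d / 3 := by
      rw [hlam, div_mul_cancel₀ _ hV0.ne', ← Real.rpow_mul (by positivity), one_div,
        inv_mul_cancel₀ hp0.ne', Real.rpow_one]
    set T := rigT lam V C p with hT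
    have hT0 : 0 < T := by
      rw [hT]; unfold rigT
      have := rigK_pos (p := p) hl0 hV0
      positivity
    set τ : ℝ := min (1 / 4) (d / 3 / (T + 1)) with hτd
    have hτ : 0 < τ := lt_min (by norm_num) (by positivity)
    have hτ1 : τ ≤ 1 / 4 := min_le_left _ _
    have hτT : τ * T ≤ d / 3 := by
      have h1 : τ ≤ d / 3 / (T + 1) := min_le_right _ _
      calc τ * T ≤ d / 3 / (T + 1) * T := mul_le_mul_of_nonneg_right h1 hT0.le
        _ ≤ d / 3 / (T + 1) * (T + 1) := mul_le_mul_of_nonneg_left (by linarith) (by positivity)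
        _ = d / 3 := div_mul_cancel₀ _ (by positivity)
    set Z := rigZ lam τ V C p with hZ
    have hZ0 : 0 ≤ Z := by
      rw [hZ]; unfold rigZ
      have := rigK_pos (p := p) hl0 hV0
      have hτV : 0 < τ * V := mul_pos hτ hV0
      positivity
    set δ : ℝ := d / 3 / (Z + 1) with hδd
    have hδ : 0 < δ := by positivity
    have hδZ : δ * Z ≤ d / 3 := by
      calc δ * Z ≤ d / 3 / (Z + 1) * (Z + 1) := mul_le_mul_of_nonneg_left (by linarith) hδ.le
        _ = d / 3 := div_mul_cancel₀ _ (by positivity)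
    refine ⟨τ, hτ, δ, hδ, ?_⟩
    intro Ω hΩ hΩf hΩne e
    have hΩ0 : μ Ω ≠ 0 := (hΩ.measure_pos μ hΩne).ne'
    set m := (μ Ω).toReal with hm
    have hm0 : 0 < m := ENNReal.toReal_pos hΩ0 hΩf
    have ht : ENNReal.ofReal δ * μ Ω ≠ 0 := mul_ne_zero (by simpa using hδ) hΩ0
    obtain ⟨K₁, hK₁Ω, hK₁, hK₁μ⟩ := hΩ.measurableSet.exists_isCompact_sdiff_lt (μ := μ) hΩf ht
    obtain ⟨ψ, hψs, hψc, hψΩ, hψ01, hψ1⟩ := Crest.Agent.R96.Str_520.exists_cutoff hK₁ hΩ hK₁Ω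
    set M := ∫ x, |fderiv ℝ ψ x e| ∂μ with hM
    have hM0 : 0 ≤ M := integral_nonneg fun x => abs_nonneg _
    refine ⟨δ * V * m / (M + 1), by positivity, ?_⟩
    intro f₁ f₂ u w h1 h2 hcl X hX hXδ hw hg hu
    obtain ⟨iw, iu, hpair⟩ := pairing h1 h2 hψs hψc hψΩ (by positivity) hcl v
    have hψ0 : ∀ x ∉ Ω, ψ x = 0 := by
      intro x hx
      by_contra hcon
      exact hx (hψΩ (subset_tsupport _ hcon))
    have hpair' : |∫ x, ψ x * inner ℝ (w x) v ∂μ - ∫ x, ψ x * inner ℝ (u x) v ∂μ| ≤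
        δ * V ^ 2 * (μ Ω).toReal := by
      refine hpair.trans ?_
      rw [← hV, ← hM, ← hm]
      calc δ * V * m / (M + 1) * V * M = δ * V ^ 2 * m * (M / (M + 1)) := by ring
        _ ≤ δ * V ^ 2 * m * 1 := by
            apply mul_le_mul_of_nonneg_left _ (by positivity)
            rw [div_le_one (by positivity)]; linarith
        _ = _ := mul_one _
    have hfin : IsFiniteMeasure (μ.restrict Ω) :=
      ⟨by rw [Measure.restrict_apply_univ]; exact hΩf.lt_top⟩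
    have hψδ : ∫ x in Ω, (1 - ψ x) ∂μ ≤ δ * (μ Ω).toReal := by
      have a1 : ∀ x, 1 - ψ x ≤ K₁ᶜ.indicator (fun _ => (1:ℝ)) x := by
        intro x
        by_cases hx : x ∈ K₁
        · rw [indicator_of_notMem (by simpa using hx), hψ1 x hx, sub_self]
        · rw [indicator_of_mem hx]; linarith [(hψ01 x).1]
      have mK : MeasurableSet K₁ᶜ := hK₁.measurableSet.compl
      have i1 : Integrable (fun x => 1 - ψ x) (μ.restrict Ω) := by
        refine (integrable_const (1:ℝ)).sub ?_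
        exact Integrable.of_bound hψs.continuous.aestronglyMeasurable 1
          (Eventually.of_forall fun x => by
            rw [Real.norm_eq_abs, abs_of_nonneg (hψ01 x).1]; exact (hψ01 x).2)
      calc ∫ x in Ω, (1 - ψ x) ∂μ ≤ ∫ x in Ω, K₁ᶜ.indicator (fun _ => (1:ℝ)) x ∂μ :=
            integral_mono i1 ((integrable_const (1:ℝ)).indicator mK) a1
        _ = (μ (Ω \ K₁)).toReal := by
            rw [integral_indicator mK, setIntegral_const, smul_eq_mul, mul_one, measureReal_def,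
              Measure.restrict_apply mK, inter_comm, ← diff_eq]
        _ ≤ (ENNReal.ofReal δ * μ Ω).toReal :=
            ENNReal.toReal_mono (ENNReal.mul_ne_top ENNReal.ofReal_ne_top hΩf) hK₁μ.le
        _ = _ := by rw [ENNReal.toReal_mul, ENNReal.toReal_ofReal hδ.le]
    have key := rig_int hΩ hΩf hV.symm hV0 hC hτ hτ1 hl0 hp hδ.le h1.aemeas h2.aemeas
      hψs.continuous hψ01 hψ0 iw iu hpair' hψδ hX hXδ hw hg hu
    refine key.trans (mul_le_mul' (ENNReal.ofReal_le_ofReal ?_) le_rfl)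
    rw [hlV, ← hT, ← hZ]
    linarith

end Crest.Agent.R96.Push_899
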