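import Mathlib
import Crest.Agent.R96.Push16_899
import Crest.Agent.R96.Push23_899

/-!
# Row 96, U2 PUSH (helper899), part 24: ingredients of `pushNO_T` (a map `T` between the stretch and
the push).
-/

set_option autoImplicit false
set_option linter.unusedSectionVars false
set_option linter.unusedVariables false

open MeasureTheory Set Filter Topology
open scoped NNReal ENNReal Function

noncomputable section

namespace Crest.Agent.R96.Push_899

open Crest.Agent.R96.Acl_392 Crest.Agent.R96.Sob1_199 Crest.Agent.R96.Sob2_199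
  Crest.Agent.R96.Sob3_199 Crest.Agent.R96.Sob4_199 Crest.Agent.R96.Sob5_199

variable {ι : Type*} [Fintype ι] [Nonempty ι] [DecidableEq ι]

variable {E : Type*} [NormedAddCommGroup E] [NormedSpace ℝ E] [FiniteDimensional ℝ E]
  [MeasurableSpace E] [BorelSpace E] {μ : Measure E} [μ.IsAddHaarMeasure]

variable {Λ : Set (EE ι)} {I : Type*} [Countable I] {Q C B : I → Box ι} {κ : I → ℝ}

/-- **final estimate**: `f` is the map which is pushed, `X` its bad set. -/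
theorem push_close {a0 η p : ℝ} (ha0 : 1 ≤ a0) (hp : 0 ≤ p) (hΛ : IsOpen Λ)
    (h : FoamC Λ Q C B ∅ (1 / (8 * a0)) κ (fun c => side (Q c))) {k : ι}
    (hη : 0 < η) (hη1 : η ≤ 1 / 2) {Ω : Set E} (hΩ : IsOpen Ω) {f : E → EE ι}
    (hf : ContinuousOn f Ω) {J : Type*} [Fintype J] {e : J → E} {D₂ D' : J → E → EE ι}
    {v : J → EE ι} (hv : ∀ l, v l k = 0) (hD₂ : ∀ l, VWD Ω μ f (D₂ l) (e l))
    (hD' : ∀ l, VWD (Ω ∩ f ⁻¹' (Pun Λ B)) μ (fun x => Psi Q C B (f x)) (D' l) (e l))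
    {X : Set E} (hX : NullMeasurableSet X μ) (hXΩ : X ⊆ Ω)
    (hgood : ∀ x ∈ Ω \ X, f x ∈ HorS Q C k (1 - η / a0)) {KK : ℝ≥0∞}
    (hbad : ∫⁻ x in X ∩ (Ω ∩ f ⁻¹' (Pun Λ B)), ∑ l, ‖D' l x‖ₑ ^ p ∂μ ≤
      KK * ∫⁻ x in X ∩ Ω, ∑ l, ‖D₂ l x‖ₑ ^ p ∂μ) :
    ∫⁻ x in Ω ∩ f ⁻¹' (Pun Λ B), ∑ l, ‖D' l x - v l‖ₑ ^ p ∂μ ≤
      (ENNReal.ofReal ((2 * (18 * a0 * Fintype.card ι)) ^ p) *
          ∫⁻ x in Ω, ∑ l, ‖D₂ l x - v l‖ₑ ^ p ∂μ
        + ENNReal.ofReal ((2 * (2 * Fintype.card ι * η)) ^ p) * (∑ l, ‖v l‖ₑ ^ p) * μ Ω) +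
      (ENNReal.ofReal ((2 * 1) ^ p) * (KK *
        (ENNReal.ofReal ((2 * 1) ^ p) * ∫⁻ x in Ω, ∑ l, ‖D₂ l x - v l‖ₑ ^ p ∂μ +
          ENNReal.ofReal ((2 * 1) ^ p) * (∑ l, ‖v l‖ₑ ^ p) * μ X)) +
      ENNReal.ofReal ((2 * 1) ^ p) * (∑ l, ‖v l‖ₑ ^ p) * μ X) := by
  set n : ℝ := ((Fintype.card ι : ℕ) : ℝ) with hn
  have hn0 : 0 ≤ n := by rw [hn]; positivity
  have a0p : 0 < a0 := by linarith
  set V : ℝ≥0∞ := ∑ l, ‖v l‖ₑ ^ p with hV
  set G : ℝ≥0∞ := ∫⁻ x in Ω, ∑ l, ‖D₂ l x - v l‖ₑ ^ p ∂μ with hG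
  set U : Set E := Ω ∩ f ⁻¹' (Pun Λ B) with hUd
  have oU : IsOpen U := h.isOpen_dom hΛ hΩ hf
  have hUΩ : U ⊆ Ω := inter_subset_left
  have nmG : NullMeasurableSet (Ω \ X) μ := hΩ.measurableSet.nullMeasurableSet.diff hX
  have ht0 : 0 < 1 - η / a0 := by
    have : η / a0 ≤ η := div_le_self hη.le ha0
    linarith
  have A2 : ∀ᵐ x ∂μ, ∀ l, x ∈ U → f x ∈ HorS Q C k (1 - η / a0) →
      (∀ i, i ≠ k → |D' l x i - D₂ l x i| ≤ (1 / (1 - η / a0) - 1) * |D₂ l x i| +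
        1 / ((1 - η / a0) * (1 / (8 * a0))) * |D₂ l x k|) ∧
      |D' l x k| ≤ (1 / (1 - η / a0) * (1 + 1 / (1 / (8 * a0)))) * |D₂ l x k| :=
    ae_all_iff.2 fun l => h.bound_hor hΛ hΩ hf (hD₂ l) (hD' l) k ht0
  -- good part
  have good : ∫⁻ x in (Ω \ X) ∩ U, ∑ l, ‖D' l x - v l‖ₑ ^ p ∂μ ≤
      ENNReal.ofReal ((2 * (18 * a0 * n)) ^ p) * G +
        ENNReal.ofReal ((2 * (2 * n * η)) ^ p) * V * μ Ω := by
    have hle : ∀ᵐ x ∂(μ.restrict ((Ω \ X) ∩ U)), ∑ l, ‖D' l x - v l‖ₑ ^ p ≤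
        ENNReal.ofReal ((2 * (18 * a0 * n)) ^ p) * (∑ l, ‖D₂ l x - v l‖ₑ ^ p) +
          ENNReal.ofReal ((2 * (2 * n * η)) ^ p) * V := by
      refine (ae_restrict_iff'₀ (nmG.inter oU.measurableSet.nullMeasurableSet)).2 ?_
      filter_upwards [A2] with x h2 hx
      have hxH := hgood x hx.1
      rw [hV, Finset.mul_sum, Finset.mul_sum, ← Finset.sum_add_distrib]
      apply Finset.sum_le_sum
      intro l _
      obtain ⟨b4, b5⟩ := h2 l hx.2 hxH
      exact enorm_two hp (by positivity) (by positivity)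
        (good_real hn.symm ha0 hη hη1 rfl (hv l) (fun _ _ => rfl) le_rfl b4 b5)
    calc _ ≤ ∫⁻ x in (Ω \ X) ∩ U,
          (ENNReal.ofReal ((2 * (18 * a0 * n)) ^ p) * (∑ l, ‖D₂ l x - v l‖ₑ ^ p) +
          ENNReal.ofReal ((2 * (2 * n * η)) ^ p) * V) ∂μ := lintegral_mono_ae hle
      _ ≤ ∫⁻ x in Ω, (ENNReal.ofReal ((2 * (18 * a0 * n)) ^ p) * (∑ l, ‖D₂ l x - v l‖ₑ ^ p) +
          ENNReal.ofReal ((2 * (2 * n * η)) ^ p) * V) ∂μ :=
          lintegral_mono_set (fun x hx => hx.1.1)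
      _ = _ := by
          rw [lintegral_add_right _ measurable_const, lintegral_const_mul' _ _
            ENNReal.ofReal_ne_top, lintegral_const, Measure.restrict_apply_univ]
  -- bad part
  have bad : ∫⁻ x in X ∩ U, ∑ l, ‖D' l x - v l‖ₑ ^ p ∂μ ≤
      ENNReal.ofReal ((2 * 1) ^ p) * (KK *
        (ENNReal.ofReal ((2 * 1) ^ p) * G + ENNReal.ofReal ((2 * 1) ^ p) * V * μ X)) +
      ENNReal.ofReal ((2 * 1) ^ p) * V * μ X := by
    have e1 : ∫⁻ x in X ∩ U, ∑ l, ‖D' l x - v l‖ₑ ^ p ∂μ ≤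
        ENNReal.ofReal ((2 * 1) ^ p) * ∫⁻ x in X ∩ U, ∑ l, ‖D' l x‖ₑ ^ p ∂μ +
          ENNReal.ofReal ((2 * 1) ^ p) * V * μ X := by
      calc _ ≤ ∫⁻ x in X ∩ U, (ENNReal.ofReal ((2 * 1) ^ p) * (∑ l, ‖D' l x‖ₑ ^ p) +
            ENNReal.ofReal ((2 * 1) ^ p) * V) ∂μ := by
            apply lintegral_mono
            intro x
            simp only
            rw [hV, Finset.mul_sum, Finset.mul_sum, ← Finset.sum_add_distrib]
            apply Finset.sum_le_sum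
            intro l _
            apply enorm_two hp zero_le_one zero_le_one
            rw [one_mul, one_mul]
            exact norm_sub_le _ _
        _ = ENNReal.ofReal ((2 * 1) ^ p) * ∫⁻ x in X ∩ U, ∑ l, ‖D' l x‖ₑ ^ p ∂μ +
            ENNReal.ofReal ((2 * 1) ^ p) * V * μ (X ∩ U) := by
            rw [lintegral_add_right _ measurable_const, lintegral_const_mul' _ _
              ENNReal.ofReal_ne_top, lintegral_const, Measure.restrict_apply_univ]
        _ ≤ _ := add_le_add le_rfl (mul_le_mul' le_rfl (measure_mono inter_subset_left))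
    refine e1.trans (add_le_add (mul_le_mul' le_rfl (hbad.trans (mul_le_mul' le_rfl ?_))) le_rfl)
    have hXX : X ∩ Ω = X := inter_eq_left.2 hXΩ
    rw [hXX]
    calc _ ≤ ∫⁻ x in X, (ENNReal.ofReal ((2 * 1) ^ p) * (∑ l, ‖D₂ l x - v l‖ₑ ^ p) +
          ENNReal.ofReal ((2 * 1) ^ p) * V) ∂μ := by
          apply lintegral_mono
          intro x
          simp only
          rw [hV, Finset.mul_sum, Finset.mul_sum, ← Finset.sum_add_distrib]
          apply Finset.sum_le_sum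
          intro l _
          apply enorm_two hp zero_le_one zero_le_one
          rw [one_mul, one_mul]
          have := norm_add_le (D₂ l x - v l) (v l)
          rwa [sub_add_cancel] at this
      _ = ENNReal.ofReal ((2 * 1) ^ p) * ∫⁻ x in X, (∑ l, ‖D₂ l x - v l‖ₑ ^ p) ∂μ +
          ENNReal.ofReal ((2 * 1) ^ p) * V * μ X := by
          rw [lintegral_add_right _ measurable_const, lintegral_const_mul' _ _
            ENNReal.ofReal_ne_top, lintegral_const, Measure.restrict_apply_univ]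
      _ ≤ _ := add_le_add (mul_le_mul' le_rfl (lintegral_mono_set hXΩ)) le_rfl
  have hsplit : U ⊆ ((Ω \ X) ∩ U) ∪ (X ∩ U) := by
    intro x hx
    by_cases h1 : x ∈ X
    · exact Or.inr ⟨h1, hx⟩
    · exact Or.inl ⟨⟨hUΩ hx, h1⟩, hx⟩
  calc _ ≤ ∫⁻ x in ((Ω \ X) ∩ U) ∪ (X ∩ U), ∑ l, ‖D' l x - v l‖ₑ ^ p ∂μ :=
        lintegral_mono_set hsplit
    _ ≤ _ := lintegral_union_le _ _ _
    _ ≤ _ := add_le_add good bad

/-- the stretch, with free parameters `m`, `ε` -/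
theorem stretch_setup (k : ι) {m : ℕ} (hm : 0 < m) {ε : ℝ} (hε : 0 < ε) (hε1 : ε < 1)
    {Ω : Set E} {Λ : Set (EE ι)} {φ : E → EE ι} (hΩ : IsOpen Ω) (hΩne : Ω.Nonempty)
    (hΩf : μ Ω ≠ ⊤) (hΛ : IsOpen Λ) (hφ : ContinuousOn φ Ω) (hmaps : MapsTo φ Ω Λ) :
    ∃ K₀ : Set (EE ι), IsCompact K₀ ∧ K₀.Nonempty ∧ K₀ ⊆ Λ ∧
      ∃ r > 0, Metric.cthickening (2 * r) K₀ ⊆ Λ ∧ ∃ s₀ > 0, ∀ s, 0 < s → s < s₀ →
      StP (cutf K₀ r) s (wm m) ε (1 / r) ∧
      ∀ b : ι → ℝ, ∃ a : ι → ℝ,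
        (∀ i, ∃ j : ℕ, j < m ∧ a i = b i + j * (if i = k then s else s / 2) / m) ∧
        μ (Ω ∩ φ ⁻¹' (GX K₀ k a s (wm m) (ηm m))ᶜ) ≤ (1 + Fintype.card ι) * (μ Ω / m) := by
  have hm' : (0:ℝ) < m := by exact_mod_cast hm
  have hm1 : (1:ℝ) ≤ m := by exact_mod_cast hm
  have hw : 0 < wm m := by unfold wm; positivity
  have hw1 : wm m ≤ 1 / 2 := by
    unfold wm; rw [div_le_div_iff₀ (by positivity) (by norm_num)]; linarith
  have hΩ0 : μ Ω ≠ 0 := (hΩ.measure_pos μ hΩne).ne'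
  have ht : μ Ω / m ≠ 0 := by
    rw [Ne, ENNReal.div_eq_zero_iff, not_or]
    exact ⟨hΩ0, ENNReal.natCast_ne_top m⟩
  obtain ⟨K₀, hK, hKΛ, hKne, hKμ⟩ := exists_compact hΩ hΩf hΩ0 hΛ hφ hmaps ht
  obtain ⟨r', hr', hrΛ⟩ := hK.exists_cthickening_subset_open hΛ hKΛ
  refine ⟨K₀, hK, hKne, hKΛ, r' / 2, by positivity, ?_, ε * (r' / 2) / 2, by positivity, ?_⟩
  · rwa [mul_div_cancel₀ _ (two_ne_zero)]
  set r := r' / 2 with hr
  have hr0 : 0 < r := by positivity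
  intro s hs hss
  have hStP : StP (cutf K₀ r) s (wm m) ε (1 / r) := by
    refine ⟨hs, hw, hw1, hε, hε1, cutf_nonneg K₀ r, cutf_le_one K₀ r, cutf_lip hr0,
      by positivity, ?_⟩
    rw [one_div, inv_mul_eq_div, div_le_iff₀ hr0]
    linarith
  refine ⟨hStP, ?_⟩
  intro b
  have mφ : ∀ i, AEMeasurable (fun x => φ x i) (μ.restrict Ω) := fun i =>
    (continuous_coord i).measurable.comp_aemeasurable
      (hφ.aestronglyMeasurable hΩ.measurableSet).aemeasurable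
  have hoff : ∀ i, ∃ j : Fin m, (i = k → μ (Ω ∩ {x | Lat s (b i + s / 2 + j * s / m)
      (s / (4 * m)) (φ x i)}) ≤ μ Ω / m) ∧ (i ≠ k → μ (Ω ∩ {x | Lat (s / 2)
      (b i + j * (s / 2) / m) (s / 2 / (4 * m)) (φ x i)}) ≤ μ Ω / m) := by
    intro i
    by_cases hi : i = k
    · obtain ⟨j, hj⟩ := exists_off hs hm (b i + s / 2) (mφ i) hΩ.measurableSet
      exact ⟨j, fun _ => hj, fun h => absurd hi h⟩
    · obtain ⟨j, hj⟩ := exists_off (half_pos hs) hm (b i) (mφ i) hΩ.measurableSet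
      exact ⟨j, fun h => absurd h hi, fun _ => hj⟩
  choose j hj1 hj2 using hoff
  refine ⟨fun i => b i + (j i : ℕ) * (if i = k then s else s / 2) / m,
    fun i => ⟨j i, (j i).2, rfl⟩, ?_⟩
  set a : ι → ℝ := fun i => b i + (j i : ℕ) * (if i = k then s else s / 2) / m with ha
  have h1 := bad_measure (μ := μ) (K₀ := K₀) (k := k) (a := a) (s := s) hm (Ω := Ω) (φ := φ)
    (by
      have h2 := hj1 k rfl
      have e1 : a k + s / 2 = b k + s / 2 + (j k : ℕ) * s / m := by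
        rw [ha]; simp only [if_true]; ring
      rw [e1]; exact h2)
    (by
      intro i hi
      have h2 := hj2 i hi
      have e1 : a i = b i + (j i : ℕ) * (s / 2) / m := by
        rw [ha]; simp only [if_neg hi]
      rw [e1]; exact h2)
    (w := wm m) (η := ηm m) (by unfold wm; field_simp) (by unfold ηm; field_simp; norm_num)
  refine h1.trans ?_
  rw [add_mul, one_mul]
  exact add_le_add hKμ le_rfl

/-- **the stretched map is close to `v`** -/
theorem stretch_close {p : ℝ} (hp : 0 ≤ p) {χ : EE ι → ℝ} {s w ε L η : ℝ}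
    (hP : StP χ s w ε L) {K₀ : Set (EE ι)} (hK : MeasurableSet K₀)
    (hχ : ∀ y ∈ K₀, ∀ᶠ y' in 𝓝 y, χ y' = 1) {k : ι} {a : ι → ℝ}
    {Ω : Set E} (hΩ : IsOpen Ω) {φ : E → EE ι} (hφ : ContinuousOn φ Ω)
    {J : Type*} [Fintype J] {e : J → E} {D D₁ : J → E → EE ι} {v : J → EE ι}
    (hv : ∀ l, v l k = 0) (hD : ∀ l, VWD Ω μ φ (D l) (e l))
    (hD₁ : ∀ l, VWD Ω μ (fun x => St k χ (a k) s w ε (φ x)) (D₁ l) (e l)) :
    ∫⁻ x in Ω, ∑ l, ‖D₁ l x - v l‖ₑ ^ p ∂μ ≤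
      (1 + ENNReal.ofReal ((2 * (2 * Fintype.card ι + 1 / (2 * w))) ^ p)) *
          ∫⁻ x in Ω, ∑ l, ‖D l x - v l‖ₑ ^ p ∂μ +
        ENNReal.ofReal ((2 * (2 * Fintype.card ι + 1)) ^ p) * (∑ l, ‖v l‖ₑ ^ p) *
          μ (Ω ∩ φ ⁻¹' (GX K₀ k a s w η)ᶜ) := by
  set n : ℝ := ((Fintype.card ι : ℕ) : ℝ) with hn
  have hn0 : 0 ≤ n := by rw [hn]; positivity
  have hs := hP.hs
  have hw := hP.hw
  set V : ℝ≥0∞ := ∑ l, ‖v l‖ₑ ^ p with hV
  set G : ℝ≥0∞ := ∫⁻ x in Ω, ∑ l, ‖D l x - v l‖ₑ ^ p ∂μ with hG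
  set Gd' : Set (EE ι) := GX K₀ k a s w η with hGd
  have mGd : MeasurableSet Gd' := measurableSet_GX hK k a hP.hs hP.hw hP.hw1
  set X : Set E := Ω ∩ φ ⁻¹' Gd'ᶜ with hX
  have mX : MeasurableSet X := measurableSet_inter_preimage hΩ.measurableSet hφ mGd.compl
  have A1 : ∀ᵐ x ∂μ, ∀ l, x ∈ Ω → (∀ i, i ≠ k → D₁ l x i = D l x i) ∧
      |D₁ l x k| ≤ 1 / (2 * w) * |D l x k| + L * s * ∑ j, |D l x j| ∧
      (φ x ∈ GoodSt k χ (a k) s w → |D₁ l x k| ≤ ε * |D l x k|) :=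
    ae_all_iff.2 fun l => St_bounds hP.hs hP.hw hP.hw1 hP.hε.le hP.hε1.le hP.χ0 hP.χ1 hP.hL
      hP.hL0 hΩ hφ (hD l) (hD₁ l)
  have good : ∫⁻ x in Ω \ X, ∑ l, ‖D₁ l x - v l‖ₑ ^ p ∂μ ≤ G := by
    refine le_trans ?_ (lintegral_mono_set (sdiff_subset : Ω \ X ⊆ Ω))
    apply lintegral_mono_ae
    refine (ae_restrict_iff' (hΩ.measurableSet.diff mX)).2 ?_
    filter_upwards [A1] with x h1 hx
    have hxΩ : x ∈ Ω := hx.1
    have hxG : φ x ∈ Gd' := by
      by_contra hcon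
      exact hx.2 ⟨hxΩ, hcon⟩
    have hgs : φ x ∈ GoodSt k χ (a k) s w := ⟨hχ _ hxG.1, hxG.2.1⟩
    apply Finset.sum_le_sum
    intro l _
    obtain ⟨b1, b2, b3⟩ := h1 l hxΩ
    have b6 : |D₁ l x k| ≤ |D l x k| := (b3 hgs).trans (by
      have := abs_nonneg (D l x k)
      nlinarith [hP.hε1])
    have hnorm : ‖D₁ l x - v l‖ ≤ ‖D l x - v l‖ := by
      rw [EuclideanSpace.norm_eq, EuclideanSpace.norm_eq]
      apply Real.sqrt_le_sqrt
      apply Finset.sum_le_sum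
      intro i _
      rw [Real.norm_eq_abs, Real.norm_eq_abs, PiLp.sub_apply, PiLp.sub_apply]
      by_cases hi : i = k
      · subst hi
        rw [hv l, sub_zero, sub_zero]
        gcongr
      · rw [b1 i hi]
    rw [enorm_rpow_eq _ hp, enorm_rpow_eq _ hp]
    exact ENNReal.ofReal_le_ofReal (Real.rpow_le_rpow (norm_nonneg _) hnorm hp)
  have bad : ∫⁻ x in X, ∑ l, ‖D₁ l x - v l‖ₑ ^ p ∂μ ≤
      ENNReal.ofReal ((2 * (2 * n + 1 / (2 * w))) ^ p) * G +
        ENNReal.ofReal ((2 * (2 * n + 1)) ^ p) * V * μ X := by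
    have hle : ∀ᵐ x ∂(μ.restrict X), ∑ l, ‖D₁ l x - v l‖ₑ ^ p ≤
        ENNReal.ofReal ((2 * (2 * n + 1 / (2 * w))) ^ p) * (∑ l, ‖D l x - v l‖ₑ ^ p) +
          ENNReal.ofReal ((2 * (2 * n + 1)) ^ p) * V := by
      refine (ae_restrict_iff' mX).2 ?_
      filter_upwards [A1] with x h1 hx
      rw [hV, Finset.mul_sum, Finset.mul_sum, ← Finset.sum_add_distrib]
      apply Finset.sum_le_sum
      intro l _
      obtain ⟨b1, b2, b3⟩ := h1 l hx.1
      have hLs0 : 0 ≤ L * s := mul_nonneg hP.hL0 hs.le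
      have hLs1 : L * s ≤ 1 := by linarith [hP.hLs, hP.hε1]
      have b4 := bad_real hn.symm hw hLs0 hLs1 (hv l) b1 b2
      have b5 : ‖D₁ l x - v l‖ ≤ (2 * n + 1 / (2 * w)) * ‖D l x - v l‖ + (2 * n + 1) * ‖v l‖ := by
        have := norm_sub_le (D₁ l x) (v l)
        linarith
      exact enorm_two hp (by positivity) (by positivity) b5
    calc _ ≤ ∫⁻ x in X, (ENNReal.ofReal ((2 * (2 * n + 1 / (2 * w))) ^ p) *
          (∑ l, ‖D l x - v l‖ₑ ^ p) + ENNReal.ofReal ((2 * (2 * n + 1)) ^ p) * V) ∂μ :=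
          lintegral_mono_ae hle
      _ = ENNReal.ofReal ((2 * (2 * n + 1 / (2 * w))) ^ p) * ∫⁻ x in X,
          (∑ l, ‖D l x - v l‖ₑ ^ p) ∂μ + ENNReal.ofReal ((2 * (2 * n + 1)) ^ p) * V * μ X := by
          rw [lintegral_add_right _ measurable_const, lintegral_const_mul' _ _
            ENNReal.ofReal_ne_top, lintegral_const, Measure.restrict_apply_univ]
      _ ≤ _ := add_le_add (mul_le_mul' le_rfl (lintegral_mono_set inter_subset_left)) le_rfl
  have hsplit : Ω ⊆ (Ω \ X) ∪ X := by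
    intro x hx
    by_cases h1 : x ∈ X
    · exact Or.inr h1
    · exact Or.inl ⟨hx, h1⟩
  calc _ ≤ ∫⁻ x in (Ω \ X) ∪ X, ∑ l, ‖D₁ l x - v l‖ₑ ^ p ∂μ := lintegral_mono_set hsplit
    _ ≤ _ := lintegral_union_le _ _ _
    _ ≤ G + (ENNReal.ofReal ((2 * (2 * n + 1 / (2 * w))) ^ p) * G +
        ENNReal.ofReal ((2 * (2 * n + 1)) ^ p) * V * μ X) := add_le_add good bad
    _ = _ := by rw [add_mul, one_mul, add_assoc]

/-- **landing and horizontality after `T`** -/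
theorem good_ptT {a0 : ℝ} (ha0 : 1 ≤ a0)
    (h : FoamC Λ Q C B ∅ (1 / (8 * a0)) κ (fun c => side (Q c)))
    (hA : ∀ c i j, (Q c).W i ≤ a0 * (Q c).W j) {χ : EE ι → ℝ} {s w ε L η : ℝ}
    (hP : StP χ s w ε L) {K₀ : Set (EE ι)} (hχ : ∀ y ∈ K₀, χ y = 1) {k : ι} {a : ι → ℝ}
    (hU : ∀ c, (∃ y ∈ SE (Q c), ∃ y₀ ∈ K₀, ‖y - y₀‖ ≤ s) → Uni k a s (Q c))
    (hη : 0 < η) (hη1 : η ≤ 1 / 2) (hε : ε ≤ η / (32 * a0 ^ 2)) {y y₂ : EE ι}
    (hy : y ∈ GX K₀ k a s w η) (hy₂ : ‖y₂ - St k χ (a k) s w ε y‖ ≤ ε * s / 2)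
    {c : I} (hc : y₂ ∈ SE (Q c)) :
    Hor (Q c) (C c) k (1 - (η / 2) / a0) (co y₂) ∧ Lands k s (Q c) y (Psi Q C B y₂) := by
  have a0p : 0 < a0 := by linarith
  have hs := hP.hs
  have hS := h.shape c
  have hN := hS.nest
  have hε0 := hP.hε
  set y₁ := St k χ (a k) s w ε y with hy₁
  obtain ⟨h1, h2, h3⟩ := hy
  obtain ⟨N, hN1, hN2⟩ := sg_off' (ε := ε) hP.hs hP.hw hP.hw1 hP.hε.le hP.hε1.le h2
  have e1 : y₁ k = sg (a k) s w ε (y k) := by
    rw [hy₁, St_k, hχ y h1, one_mul, add_sub_cancel]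
  rw [← e1] at hN2
  have hεη : ε ≤ 1 / 64 := by
    refine hε.trans ?_
    rw [div_le_iff₀ (by positivity)]
    nlinarith
  have hεη2 : ε ≤ η / 32 := by
    refine hε.trans ?_
    apply div_le_div_of_nonneg_left hη.le (by norm_num)
    nlinarith
  have hcoord : ∀ i, |y₂ i - y₁ i| ≤ ε * s / 2 := fun i => by
    have := abs_le_norm (y₂ - y₁) i
    rw [PiLp.sub_apply] at this
    exact this.trans hy₂
  -- closeness of `y₂` to `y`
  have hk2 : |y₂ k - (a k + N * s)| ≤ (2 * ε) * s / 2 := by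
    have := abs_add_le (y₂ k - y₁ k) (y₁ k - (a k + N * s))
    rw [sub_add_sub_cancel] at this
    linarith [hcoord k]
  have hne : ∀ i, i ≠ k → y₁ i = y i := fun i hi => by rw [hy₁, St_ne y hi]
  have hd1 : ‖y₁ - y‖ ≤ (1 + ε) * s / 2 := by
    have e2 : y₁ - y = EuclideanSpace.single k (y₁ k - y k) := by
      ext i
      rw [PiLp.sub_apply]
      by_cases hi : i = k
      · subst hi; rw [EuclideanSpace.single_apply, if_pos rfl]
      · rw [hne i hi, EuclideanSpace.single_apply, if_neg hi, sub_self]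
    rw [e2, EuclideanSpace.norm_single, Real.norm_eq_abs]
    have := abs_add_le (y₁ k - (a k + N * s)) ((a k + N * s) - y k)
    rw [sub_add_sub_cancel, abs_sub_comm (a k + N * s) (y k)] at this
    linarith
  have hd2 : ‖y₂ - y‖ ≤ s := by
    have := norm_add_le (y₂ - y₁) (y₁ - y)
    rw [sub_add_sub_cancel] at this
    nlinarith
  have hUc := hU c ⟨_, hc, y, h1, hd2⟩
  have hH : Hor (Q c) (C c) k (1 - (η / 2) / a0) (co y₂) := by
    apply hor_of_good hP.hs ha0 (half_pos hη) hUc (hA c) (h.shape c) hc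
      (by positivity : 0 ≤ 2 * ε) ?_ (by linarith) (N := N) hk2
    · intro i hi n
      have g1 := h3 i hi n
      have g2 := hcoord i
      rw [hne i hi] at g2
      have g3 := abs_add_le (y i - y₂ i) (y₂ i - (a i + n * (s / 2)))
      rw [sub_add_sub_cancel, abs_sub_comm (y i) (y₂ i)] at g3
      change η / 2 * s < |y₂ i - (a i + n * (s / 2))|
      nlinarith
    · calc 2 * ε ≤ 2 * (η / (32 * a0 ^ 2)) := by linarith
        _ = η / 2 / (8 * a0 ^ 2) := by field_simp; norm_num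
  refine ⟨hH, ?_⟩
  have hte := hH.tt_eq
  have hηa : η / 2 / a0 ≤ η / 2 := div_le_self (by positivity) ha0
  have ht0 : 0 < 1 - η / 2 / a0 := by linarith
  have ht : 0 < tt (Q c) (C c) (co y₂) := by rw [hte]; exact ht0.trans hH.1
  have ht1 : tt (Q c) (C c) (co y₂) ≤ 1 := (tt_le_one_iff hN _).2 hc
  have hnI : y₂ ∉ IE (C c) := by
    intro hI
    have h1 := (tt_lt_zero_iff hN (co y₂)).2 hI
    linarith
  have hPsi : ∀ i, Psi Q C B y₂ i = psh (Q c) (C c) (co y₂) i := by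
    intro i
    rw [h.Psi_apply hc, psi_out (h.inner c).nest hnI]
  have hWk : (Q c).W k = s := by unfold Box.W; rw [hUc.hi_k]; ring
  have hside2 : side (Q c) ≤ a0 * s := by
    rw [← hWk]; exact side_le fun j => hA c j k
  have hnear : ∀ i, |psh (Q c) (C c) (co y₂) i - y₂ i| ≤ η / 2 * s := by
    intro i
    refine (psh_near hN ht ht1 i (hS.hi2 i) (hS.lo2 i)).trans ?_
    have e1 : 1 - tt (Q c) (C c) (co y₂) ≤ η / 2 / a0 := by rw [hte]; linarith [hH.1]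
    calc _ ≤ η / 2 / a0 * (a0 * s) := mul_le_mul e1 hside2 (by
          have := hS.r0; exact this.le) (by positivity)
      _ = η / 2 * s := by field_simp
  have hL := Hor.lands hN ht0 hH
  refine ⟨?_, ?_, ?_⟩
  · rw [hPsi]; exact hL.1
  · intro i hi
    rw [hPsi]; exact hL.2 i hi
  · intro i
    rw [hPsi]
    by_cases hi : i = k
    · subst hi
      obtain ⟨n, hn⟩ := hUc.lo_k
      have hn' := hUc.hi_k
      have hnr := hnear i
      have hlev : psh (Q c) (C c) (co y₂) i = a i + N * s := by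
        have hdist : |psh (Q c) (C c) (co y₂) i - (a i + N * s)| < s := by
          have h4 : |psh (Q c) (C c) (co y₂) i - (a i + N * s)| ≤
              |psh (Q c) (C c) (co y₂) i - y₂ i| + |y₂ i - (a i + N * s)| := by
            have := abs_add_le (psh (Q c) (C c) (co y₂) i - y₂ i) (y₂ i - (a i + N * s))
            rwa [sub_add_sub_cancel] at this
          nlinarith
        have key : ∀ M : ℤ, psh (Q c) (C c) (co y₂) i = a i + M * s →
            psh (Q c) (C c) (co y₂) i = a i + N * s := by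
          intro M hM
          rw [hM] at hdist
          have e2 : a i + M * s - (a i + N * s) = ((M - N : ℤ) : ℝ) * s := by push_cast; ring
          rw [e2, abs_mul, abs_of_pos hs] at hdist
          have h5 : |((M - N : ℤ) : ℝ)| < 1 := by
            by_contra hcon
            have := mul_le_mul_of_nonneg_right (not_lt.1 hcon) hs.le
            linarith
          have h6 : |M - N| < 1 := by exact_mod_cast h5
          have h7 : M = N := by
            have := Int.abs_lt_one_iff.1 h6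
            omega
          rw [hM, h7]
        rcases hL.1 with h4 | h4
        · exact key n (by rw [h4, hn])
        · refine key (n + 1) ?_
          rw [h4, hn', hn]; push_cast; ring
      rw [hlev, abs_sub_comm]
      exact hN1
    · have h4 := hnear i
      have h5 := hcoord i
      rw [hne i hi] at h5
      have h6 := abs_add_le (psh (Q c) (C c) (co y₂) i - y₂ i) (y₂ i - y i)
      rw [sub_add_sub_cancel] at h6
      nlinarith

end Crest.Agent.R96.Push_899
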