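import Mathlib
import Crest.Agent.R96.Push24_899

/-!
# Row 96, helper849: `pushNO_U`, part 1: the diagonal map `Gm`, stretched derivatives, pointwise bounded
factor with brick-dependent holes, final estimate with an extra error.
-/

set_option autoImplicit false
set_option linter.unusedSectionVars false
set_option linter.unusedVariables false

open MeasureTheory Set Filter Topology
open scoped NNReal ENNReal Function

noncomputable section

namespace Crest.Agent.R96.PnU_849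

open Crest.Agent.R96.Acl_392 Crest.Agent.R96.Sob1_199 Crest.Agent.R96.Sob2_199
  Crest.Agent.R96.Sob3_199 Crest.Agent.R96.Sob4_199 Crest.Agent.R96.Sob5_199
  Crest.Agent.R96.Push_899

variable {ι : Type*} [Fintype ι] [Nonempty ι] [DecidableEq ι]

variable {E : Type*} [NormedAddCommGroup E] [NormedSpace ℝ E] [FiniteDimensional ℝ E]
  [MeasurableSpace E] [BorelSpace E] {μ : Measure E} [μ.IsAddHaarMeasure]

/-! ### the diagonal map -/

/-- the `k`-th coordinate is multiplied by `G` -/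
def Gm (k : ι) (G : ℝ) (y : EE ι) : EE ι := WithLp.toLp 2 (Function.update (co y) k (G * y k))

theorem Gm_ne {k : ι} {G : ℝ} (y : EE ι) {i : ι} (hi : i ≠ k) : Gm k G y i = y i := by
  change Function.update (co y) k _ i = y i
  rw [Function.update_of_ne hi]; rfl

theorem Gm_k {k : ι} {G : ℝ} (y : EE ι) : Gm k G y k = G * y k := by
  change Function.update (co y) k _ k = _
  rw [Function.update_self]

theorem Gm_apply (k : ι) (G : ℝ) (y : EE ι) (i : ι) :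
    Gm k G y i = (if i = k then G else 1) * y i := by
  by_cases hi : i = k
  · subst hi; rw [Gm_k, if_pos rfl]
  · rw [Gm_ne y hi, if_neg hi, one_mul]

theorem Gm_Gm {k : ι} {G H : ℝ} (h : H * G = 1) (y : EE ι) : Gm k H (Gm k G y) = y := by
  ext i
  by_cases hi : i = k
  · subst hi; rw [Gm_k, Gm_k, ← mul_assoc, h, one_mul]
  · rw [Gm_ne _ hi, Gm_ne _ hi]

theorem Gm_sub (k : ι) (G : ℝ) (y y' : EE ι) : Gm k G y - Gm k G y' = Gm k G (y - y') := by
  ext i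
  rw [PiLp.sub_apply, Gm_apply, Gm_apply, Gm_apply, PiLp.sub_apply]; ring

theorem norm_le_of_abs {A : ℝ} (hA : 0 ≤ A) {y y' : EE ι} (h : ∀ i, |y i| ≤ A * |y' i|) :
    ‖y‖ ≤ A * ‖y'‖ := by
  rw [EuclideanSpace.norm_eq, EuclideanSpace.norm_eq]
  apply Real.sqrt_le_iff.2
  refine ⟨by positivity, ?_⟩
  rw [mul_pow, Real.sq_sqrt (Finset.sum_nonneg fun _ _ => sq_nonneg _), Finset.mul_sum]
  apply Finset.sum_le_sum
  intro i _
  rw [Real.norm_eq_abs, Real.norm_eq_abs, ← mul_pow]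
  exact pow_le_pow_left₀ (abs_nonneg _) (h i) 2

theorem norm_Gm_le {k : ι} {G : ℝ} (hG : 1 ≤ G) (y : EE ι) : ‖Gm k G y‖ ≤ G * ‖y‖ := by
  apply norm_le_of_abs (by linarith)
  intro i
  rw [Gm_apply, abs_mul]
  apply mul_le_mul_of_nonneg_right _ (abs_nonneg _)
  split_ifs
  · rw [abs_of_nonneg (by linarith)]
  · rw [abs_one]; exact hG

theorem norm_Gm_inv_le {k : ι} {G : ℝ} (hG : 1 ≤ G) (y : EE ι) : ‖Gm k G⁻¹ y‖ ≤ ‖y‖ := by
  have h1 := norm_le_of_abs (A := 1) zero_le_one (y := Gm k G⁻¹ y) (y' := y) ?_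
  · rwa [one_mul] at h1
  intro i
  rw [Gm_apply, abs_mul]
  apply mul_le_mul_of_nonneg_right _ (abs_nonneg _)
  split_ifs
  · rw [abs_of_nonneg (by positivity)]; exact inv_le_one_of_one_le₀ hG
  · rw [abs_one]

theorem continuous_Gm (k : ι) (G : ℝ) : Continuous (Gm k G) := by
  have h1 : Continuous (fun y : EE ι => Function.update (co y) k (G * y k)) := by
    refine Continuous.update ?_ k ?_
    · exact PiLp.continuous_ofLp 2 _
    · exact continuous_const.mul (continuous_coord k)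
  exact (PiLp.continuous_toLp 2 _).comp h1

theorem vwd_Gm {Ω : Set E} {φ D : E → EE ι} {e : E} (h : VWD Ω μ φ D e) (k : ι) (G : ℝ) :
    VWD Ω μ (fun x => Gm k G (φ x)) (fun x => Gm k G (D x)) e := by
  intro i
  simp only [Gm_apply]
  exact wd_const_mul (h i) _

theorem Gm_fix {k : ι} {G : ℝ} {v : EE ι} (hv : v k = 0) : Gm k G v = v := by
  ext i
  by_cases hi : i = k
  · subst hi; rw [Gm_k, hv, mul_zero]
  · rw [Gm_ne v hi]

/-- the diagonal map as a continuous linear equivalence -/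
def GmL (k : ι) (G : ℝ) (hG : G ≠ 0) : EE ι ≃L[ℝ] EE ι :=
  LinearEquiv.toContinuousLinearEquiv
    { toFun := Gm k G
      invFun := Gm k G⁻¹
      map_add' := fun x y => by
        ext i
        rw [Gm_apply, PiLp.add_apply, PiLp.add_apply, Gm_apply, Gm_apply]; ring
      map_smul' := fun c x => by
        ext i
        rw [Gm_apply, RingHom.id_apply, PiLp.smul_apply, PiLp.smul_apply, Gm_apply, smul_eq_mul,
          smul_eq_mul]; ring
      left_inv := fun x => Gm_Gm (inv_mul_cancel₀ hG) x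
      right_inv := fun x => Gm_Gm (mul_inv_cancel₀ hG) x }

theorem GmL_apply (k : ι) {G : ℝ} (hG : G ≠ 0) (y : EE ι) : GmL k G hG y = Gm k G y := rfl

theorem GmL_symm_apply (k : ι) {G : ℝ} (hG : G ≠ 0) (y : EE ι) :
    (GmL k G hG).symm y = Gm k G⁻¹ y := rfl

/-! ### the constants -/

/-- half width of the middle slabs of the stretch -/
def ws (m : ℕ) : ℝ := 1 / (8 * m)

/-- slope of the stretch off the middle slabs -/
def εU (a0 : ℝ) (m : ℕ) : ℝ := 1 / (16 * m) / (8 * a0 ^ 2)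

/-- slope of the stretch in the middle slabs -/
def GU (a0 : ℝ) (m : ℕ) : ℝ := εU a0 m + (1 - εU a0 m) * (1 / (2 * ws m))

section const

variable {a0 : ℝ} {m : ℕ} (ha0 : 1 ≤ a0) (hm : 0 < m)
include hm

theorem ws_pos : 0 < ws m := by
  have : (0:ℝ) < m := by exact_mod_cast hm
  unfold ws; positivity

theorem ws_le : ws m ≤ 1 / 8 := by
  have hm1 : (1:ℝ) ≤ m := by exact_mod_cast hm
  unfold ws; rw [div_le_div_iff₀ (by positivity) (by norm_num)]; linarith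

include ha0

theorem εU_pos : 0 < εU a0 m := by
  have : (0:ℝ) < m := by exact_mod_cast hm
  unfold εU; positivity

theorem εU_le : εU a0 m ≤ 1 / 128 := by
  have hm1 : (1:ℝ) ≤ m := by exact_mod_cast hm
  unfold εU
  rw [div_div, div_le_div_iff₀ (by positivity) (by norm_num)]
  have h1 : 1 ≤ a0 ^ 2 := one_le_pow₀ ha0
  nlinarith

theorem GU_ge : 1 ≤ GU a0 m := by
  have h1 := εU_le ha0 hm
  have h0 := εU_pos ha0 hm
  have h2 := ws_pos hm
  have h3 := ws_le hm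
  have h4 : 4 ≤ 1 / (2 * ws m) := by
    rw [le_div_iff₀ (by positivity)]; linarith
  unfold GU
  nlinarith

theorem GU_slope : 1 / (2 * ws m) ≤ 2 * GU a0 m := by
  have h1 := εU_le ha0 hm
  have h0 := εU_pos ha0 hm
  have h2 := ws_pos hm
  have h4 : 0 ≤ 1 / (2 * ws m) := by positivity
  unfold GU
  nlinarith

theorem GU_ws : 0.49 ≤ GU a0 m * ws m := by
  have h1 := εU_le ha0 hm
  have h0 := εU_pos ha0 hm
  have h2 := ws_pos hm
  have h4 : 1 / (2 * ws m) * ws m = 1 / 2 := by field_simp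
  unfold GU
  rw [add_mul, mul_assoc, h4]
  have : 0 ≤ εU a0 m * ws m := by positivity
  norm_num at h1 ⊢
  linarith

end const

/-! ### stretched derivatives -/

/-- **the stretched map is close to `v`** when the derivatives are `Γ⁻¹ H` with `H` close to `v` and the
slope of the stretch is at most `2 G`. -/
theorem stretch_closeU {p : ℝ} (hp : 0 ≤ p) {χ : EE ι → ℝ} {s w ε L : ℝ}
    (hP : StP χ s w ε L) {G : ℝ} (hG1 : 1 ≤ G) (hGw : 1 / (2 * w) ≤ 2 * G) {k : ι} {a : ℝ}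
    {Ω : Set E} (hΩ : IsOpen Ω) {ψ : E → EE ι} (hψ : ContinuousOn ψ Ω)
    {J : Type*} [Fintype J] {e : J → E} {H D₂ : J → E → EE ι} {v : J → EE ι}
    (hv : ∀ l, v l k = 0) (hH : ∀ l, VWD Ω μ ψ (fun x => Gm k G⁻¹ (H l x)) (e l))
    (hD₂ : ∀ l, VWD Ω μ (fun x => St k χ a s w ε (ψ x)) (D₂ l) (e l)) :
    (∀ᵐ x ∂μ, ∀ l, x ∈ Ω → ‖D₂ l x‖ ≤ (2 * Fintype.card ι + 2) * ‖H l x‖) ∧
    ∀ X : Set E, MeasurableSet X → X ⊆ Ω → (∀ x ∈ Ω \ X, ψ x ∈ GoodSt k χ a s w) →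
    ∫⁻ x in Ω, ∑ l, ‖D₂ l x - v l‖ₑ ^ p ∂μ ≤
      (1 + ENNReal.ofReal ((2 * (2 * Fintype.card ι + 3)) ^ p)) *
          ∫⁻ x in Ω, ∑ l, ‖H l x - v l‖ₑ ^ p ∂μ +
        ENNReal.ofReal ((2 * (2 * Fintype.card ι + 1)) ^ p) * (∑ l, ‖v l‖ₑ ^ p) * μ X := by
  set n : ℝ := ((Fintype.card ι : ℕ) : ℝ) with hn
  have hn0 : 0 ≤ n := by rw [hn]; positivity
  have hs := hP.hs
  have hw := hP.hw
  have hG0 : 0 < G := by linarith
  have hLs0 : 0 ≤ L * s := mul_nonneg hP.hL0 hs.le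
  have hLs1 : L * s ≤ 1 := by linarith [hP.hLs, hP.hε1]
  have A1 : ∀ᵐ x ∂μ, ∀ l, x ∈ Ω → (∀ i, i ≠ k → D₂ l x i = H l x i) ∧
      |D₂ l x k| ≤ 1 / (2 * (1 / 4)) * |H l x k| + L * s * ∑ j, |H l x j| ∧
      (ψ x ∈ GoodSt k χ a s w → |D₂ l x k| ≤ |H l x k|) := by
    have h0 : ∀ᵐ x ∂μ, ∀ l, x ∈ Ω → (∀ i, i ≠ k → D₂ l x i = Gm k G⁻¹ (H l x) i) ∧
        |D₂ l x k| ≤ 1 / (2 * w) * |Gm k G⁻¹ (H l x) k| + L * s * ∑ j, |Gm k G⁻¹ (H l x) j| ∧
        (ψ x ∈ GoodSt k χ a s w → |D₂ l x k| ≤ ε * |Gm k G⁻¹ (H l x) k|) :=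
      ae_all_iff.2 fun l => St_bounds hP.hs hP.hw hP.hw1 hP.hε.le hP.hε1.le hP.χ0 hP.χ1 hP.hL
        hP.hL0 hΩ hψ (hH l) (hD₂ l)
    filter_upwards [h0] with x hx l hxΩ
    obtain ⟨h1, h2, h3⟩ := hx l hxΩ
    have hle : ∀ j, |Gm k G⁻¹ (H l x) j| ≤ |H l x j| := by
      intro j
      rw [Gm_apply, abs_mul]
      apply mul_le_of_le_one_left (abs_nonneg _)
      split_ifs
      · rw [abs_of_nonneg (by positivity)]; exact inv_le_one_of_one_le₀ hG1
      · rw [abs_one]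
    refine ⟨fun i hi => by rw [h1 i hi, Gm_ne _ hi], ?_, ?_⟩
    · refine h2.trans (add_le_add ?_ ?_)
      · rw [Gm_k, abs_mul, abs_of_nonneg (by positivity : 0 ≤ G⁻¹)]
        have e1 : 1 / (2 * w) * (G⁻¹ * |H l x k|) = (1 / (2 * w) * G⁻¹) * |H l x k| := by ring
        rw [e1]
        apply mul_le_mul_of_nonneg_right _ (abs_nonneg _)
        rw [← div_eq_mul_inv, div_le_iff₀ hG0]
        refine hGw.trans (le_of_eq ?_)
        norm_num
      · exact mul_le_mul_of_nonneg_left (Finset.sum_le_sum fun j _ => hle j) hLs0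
    · intro hx2
      refine (h3 hx2).trans ?_
      calc ε * |Gm k G⁻¹ (H l x) k| ≤ 1 * |H l x k| :=
            mul_le_mul hP.hε1.le (hle k) (abs_nonneg _) zero_le_one
        _ = _ := one_mul _
  refine ⟨?_, ?_⟩
  · filter_upwards [A1] with x h1 l hx
    obtain ⟨b1, b2, b3⟩ := h1 l hx
    have := bad_real hn.symm (by norm_num : (0:ℝ) < 1 / 4) hLs0 hLs1 (v := (0 : EE ι)) rfl b1 b2
    rw [norm_zero, mul_zero, zero_add, sub_zero] at this
    refine this.trans (le_of_eq ?_)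
    norm_num
  intro X mX hXΩ hgood
  set V : ℝ≥0∞ := ∑ l, ‖v l‖ₑ ^ p with hV
  set I1 : ℝ≥0∞ := ∫⁻ x in Ω, ∑ l, ‖H l x - v l‖ₑ ^ p ∂μ with hI1
  have good : ∫⁻ x in Ω \ X, ∑ l, ‖D₂ l x - v l‖ₑ ^ p ∂μ ≤ I1 := by
    refine le_trans ?_ (lintegral_mono_set (sdiff_subset : Ω \ X ⊆ Ω))
    apply lintegral_mono_ae
    refine (ae_restrict_iff' (hΩ.measurableSet.diff mX)).2 ?_
    filter_upwards [A1] with x h1 hx
    apply Finset.sum_le_sum
    intro l _
    obtain ⟨b1, b2, b3⟩ := h1 l hx.1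
    have b6 := b3 (hgood x hx)
    have hnorm : ‖D₂ l x - v l‖ ≤ ‖H l x - v l‖ := by
      rw [EuclideanSpace.norm_eq, EuclideanSpace.norm_eq]
      apply Real.sqrt_le_sqrt
      apply Finset.sum_le_sum
      intro i _
      rw [Real.norm_eq_abs, Real.norm_eq_abs, PiLp.sub_apply, PiLp.sub_apply]
      by_cases hi : i = k
      · subst hi
        rw [hv l, sub_zero, sub_zero]
        gcongr
      · rw [b1 i hi]
    rw [enorm_rpow_eq _ hp, enorm_rpow_eq _ hp]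
    exact ENNReal.ofReal_le_ofReal (Real.rpow_le_rpow (norm_nonneg _) hnorm hp)
  have bad : ∫⁻ x in X, ∑ l, ‖D₂ l x - v l‖ₑ ^ p ∂μ ≤
      ENNReal.ofReal ((2 * (2 * n + 3)) ^ p) * I1 +
        ENNReal.ofReal ((2 * (2 * n + 1)) ^ p) * V * μ X := by
    have hle : ∀ᵐ x ∂(μ.restrict X), ∑ l, ‖D₂ l x - v l‖ₑ ^ p ≤
        ENNReal.ofReal ((2 * (2 * n + 3)) ^ p) * (∑ l, ‖H l x - v l‖ₑ ^ p) +
          ENNReal.ofReal ((2 * (2 * n + 1)) ^ p) * V := by
      refine (ae_restrict_iff' mX).2 ?_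
      filter_upwards [A1] with x h1 hx
      rw [hV, Finset.mul_sum, Finset.mul_sum, ← Finset.sum_add_distrib]
      apply Finset.sum_le_sum
      intro l _
      obtain ⟨b1, b2, b3⟩ := h1 l (hXΩ hx)
      have b4 := bad_real hn.symm (by norm_num : (0:ℝ) < 1 / 4) hLs0 hLs1 (hv l) b1 b2
      have b5 : ‖D₂ l x - v l‖ ≤ (2 * n + 3) * ‖H l x - v l‖ + (2 * n + 1) * ‖v l‖ := by
        have := norm_sub_le (D₂ l x) (v l)
        have h2 : (1:ℝ) / (2 * (1 / 4)) = 2 := by norm_num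
        rw [h2] at b4
        have h3 := norm_nonneg (H l x - v l)
        linarith
      exact enorm_two hp (by positivity) (by positivity) b5
    calc _ ≤ ∫⁻ x in X, (ENNReal.ofReal ((2 * (2 * n + 3)) ^ p) *
          (∑ l, ‖H l x - v l‖ₑ ^ p) + ENNReal.ofReal ((2 * (2 * n + 1)) ^ p) * V) ∂μ :=
          lintegral_mono_ae hle
      _ = ENNReal.ofReal ((2 * (2 * n + 3)) ^ p) * ∫⁻ x in X,
          (∑ l, ‖H l x - v l‖ₑ ^ p) ∂μ + ENNReal.ofReal ((2 * (2 * n + 1)) ^ p) * V * μ X := by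
          rw [lintegral_add_right _ measurable_const, lintegral_const_mul' _ _
            ENNReal.ofReal_ne_top, lintegral_const, Measure.restrict_apply_univ]
      _ ≤ _ := add_le_add (mul_le_mul' le_rfl (lintegral_mono_set hXΩ)) le_rfl
  have hsplit : Ω ⊆ (Ω \ X) ∪ X := by
    intro x hx
    by_cases h1 : x ∈ X
    · exact Or.inr h1
    · exact Or.inl ⟨hx, h1⟩
  calc _ ≤ ∫⁻ x in (Ω \ X) ∪ X, ∑ l, ‖D₂ l x - v l‖ₑ ^ p ∂μ := lintegral_mono_set hsplit
    _ ≤ _ := lintegral_union_le _ _ _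
    _ ≤ I1 + (ENNReal.ofReal ((2 * (2 * n + 3)) ^ p) * I1 +
        ENNReal.ofReal ((2 * (2 * n + 1)) ^ p) * V * μ X) := add_le_add good bad
    _ = _ := by rw [add_mul, one_mul, add_assoc]

/-! ### bounded factor with brick-dependent holes -/

variable {Λ : Set (EE ι)} {I : Type*} [Countable I] {Q C B : I → Box ι} {P : Finset ι} {c₀ : ℝ}
  {κ ρ : I → ℝ}

/-- **pointwise bounded factor off the holes**, the constant at `x` only sees the brick whose core
contains `φ x`. -/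
theorem bound_ptwV (h : FoamC Λ Q C B P c₀ κ ρ) (hΛ : IsOpen Λ) {Ω : Set E}
    (hΩ : IsOpen Ω) {φ D D' : E → EE ι} {e : E} (hφ : ContinuousOn φ Ω) (hD : VWD Ω μ φ D e)
    (hD' : VWD (Ω ∩ φ ⁻¹' (Pun Λ B)) μ (fun x => Psi Q C B (φ x)) D' e) {a : ℝ} (ha0 : 0 ≤ a)
    (ha : ∀ c i j, (Q c).W i ≤ a * (C c).W j) {M : I → ℝ}
    (hM : ∀ c i, (C c).W i ≤ M c * (B c).W i) (hB : ∀ c i, 0 < (B c).W i) :
    ∀ᵐ x ∂μ, x ∈ Ω ∩ φ ⁻¹' (Pun Λ B) → ∀ N : ℝ, 1 ≤ N → (∀ c, φ x ∈ IE (C c) → M c ≤ N) →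
      ‖D' x‖ ≤ (Fintype.card ι ^ 2 * (2 / c₀ ^ 2 + 18 * a * N)) * ‖D x‖ := by
  filter_upwards [h.bound_off hΛ hΩ hφ hD hD' ha0 ha,
    h.bound_core hΛ hΩ hφ hD hD' (fun _ _ => a) ha] with x h1 h2 hx N hN1 hN
  have h0 : 0 ≤ 2 / c₀ ^ 2 + 18 * a := by positivity
  by_cases hc : ∃ c, φ x ∈ IE (C c)
  · obtain ⟨c, hc⟩ := hc
    have h3 := h2 hx c hc
    have ht := h.tt_pos hx.2 c
    have hmm := (mm_le_of (h.inner c) (hM c) (hB c) ht).trans (hN c hc)
    have hmm0 := mm_pos (h.inner c) ht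
    have key : ∀ i, |D' x i| ≤ (18 * a * N) * (Fintype.card ι * ‖D x‖) := by
      intro i
      refine (h3 i).trans ?_
      rw [← Finset.mul_sum]
      calc _ ≤ 18 * N * (a * (Fintype.card ι * ‖D x‖)) := by
            apply mul_le_mul
            · linarith
            · exact mul_le_mul_of_nonneg_left (sum_abs_le _) ha0
            · exact mul_nonneg ha0 (Finset.sum_nonneg fun _ _ => abs_nonneg _)
            · linarith
        _ = _ := by ring
    calc ‖D' x‖ ≤ ∑ i, |D' x i| := norm_le_sum _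
      _ ≤ ∑ i : ι, (18 * a * N) * (Fintype.card ι * ‖D x‖) := Finset.sum_le_sum fun i _ => key i
      _ = (Fintype.card ι ^ 2 * (18 * a * N)) * ‖D x‖ := by
          rw [Finset.sum_const, Finset.card_univ, nsmul_eq_mul]; ring
      _ ≤ _ := by
          apply mul_le_mul_of_nonneg_right _ (norm_nonneg _)
          apply mul_le_mul_of_nonneg_left _ (by positivity)
          have : 0 ≤ 2 / c₀ ^ 2 := by positivity
          linarith
  · push Not at hc
    refine (h1 hx hc).trans ?_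
    apply mul_le_mul_of_nonneg_right _ (norm_nonneg _)
    apply mul_le_mul_of_nonneg_left _ (by positivity)
    have : 18 * a ≤ 18 * a * N := by nlinarith
    linarith

/-- **pushBF with box holes of two kinds**: `Hole c₂` everywhere, `Hole c₁` for the bricks `Nr`. -/
theorem pushBF_two {a0 c₁ c₂ : ℝ} (ha0 : 1 ≤ a0) (hc₁ : c₁ ≤ 1) (hc₂ : c₂ ≤ 1) (hΛ : IsOpen Λ)
    (h : Foam0 Λ Q) (hA : ∀ c i j, (Q c).W i ≤ a0 * (Q c).W j) {z : I → ι → ℝ}
    (hz : ∀ c, z c ∈ Mid (Q c)) (hc0 : 0 < c₁) (hc02 : 0 < c₂)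
    (hB : ∀ c, Hole c₂ (Q c) (z c) (B c)) {Nr : I → Prop}
    (hB1 : ∀ c, Nr c → Hole c₁ (Q c) (z c) (B c)) {Ω : Set E} (hΩ : IsOpen Ω) {φ : E → EE ι}
    (hφ : ContinuousOn φ Ω) {e : E} {D D' : E → EE ι} (hD : VWD Ω μ φ D e)
    (hD' : VWD (Ω ∩ φ ⁻¹' (Pun Λ B)) μ
      (fun x => Psi Q (fun c => coreBF (Q c) (z c)) B (φ x)) D' e) :
    ∀ᵐ x ∂μ, x ∈ Ω ∩ φ ⁻¹' (Pun Λ B) → ‖D' x‖ ≤ (Kge ι a0 c₁ + Kge ι a0 c₂) * ‖D x‖ ∧
      ((∀ c, φ x ∈ SE (Q c) → Nr c) → ‖D' x‖ ≤ Kge ι a0 c₁ * ‖D x‖) := by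
  classical
  have a0pos : 0 < a0 := by linarith
  have hF := foamHole ha0 h hA hz hB
  have ha : ∀ c i j, (Q c).W i ≤ (4 * a0) * (coreBF (Q c) (z c)).W j := by
    intro c i j
    rw [coreBF_W (h.W0 c)]
    have := hA c i j
    linarith
  have hBW : ∀ c i, 0 < (B c).W i := fun c i =>
    lt_of_lt_of_le (mul_pos hc02 (h.W0 c i)) ((hB c).W i)
  have hMg : ∀ (c' : ℝ), 0 < c' → ∀ c, Hole c' (Q c) (z c) (B c) → ∀ i,
      (coreBF (Q c) (z c)).W i ≤ (1 / c') * (B c).W i := by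
    intro c' hc' c hh i
    rw [coreBF_W (h.W0 c), one_div, inv_mul_eq_div, le_div_iff₀ hc']
    have h1 := hh.W i
    have h2 := h.W0 c i
    nlinarith [mul_pos hc' h2]
  have hM : ∀ c i, (coreBF (Q c) (z c)).W i ≤
      (if Nr c then 1 / c₁ else 1 / c₂) * (B c).W i := by
    intro c i
    split_ifs with hN
    · exact hMg c₁ hc0 c (hB1 c hN) i
    · exact hMg c₂ hc02 c (hB c) i
  have h1M : 1 ≤ 1 / c₁ := by rw [le_div_iff₀ hc0]; linarith
  have h2M : 1 ≤ 1 / c₂ := by rw [le_div_iff₀ hc02]; linarith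
  have e5 : 2 / (1 / (8 * a0)) ^ 2 = 128 * a0 ^ 2 := by field_simp; norm_num
  filter_upwards [bound_ptwV hF hΛ hΩ hφ hD hD' (by positivity) ha hM hBW] with x hx hx2
  constructor
  · refine (hx hx2 (1 / c₁ + 1 / c₂) (by linarith) ?_).trans ?_
    · intro c _
      split_ifs <;> linarith
    · apply mul_le_mul_of_nonneg_right _ (norm_nonneg _)
      rw [e5]
      unfold Kge
      have : (0:ℝ) ≤ (Fintype.card ι : ℝ) ^ 2 * (128 * a0 ^ 2) := by positivity
      nlinarith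
  · intro hNr
    refine (hx hx2 (1 / c₁) h1M ?_).trans (le_of_eq ?_)
    · intro c hc
      have hcQ : φ x ∈ SE (Q c) := by
        have hN := (shapeBF ha0 (h.W0 c) (hA c) (hz c)).nest
        intro i
        have h1 := hc i
        have h2 := hN.g1 i
        have h3 := hN.g2 i
        exact ⟨by linarith [h1.1], by linarith [h1.2]⟩
      rw [if_pos (hNr c hcQ)]
    · rw [e5]
      unfold Kge
      ring

end Crest.Agent.R96.PnU_849
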