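import Crest.Agent.R96.Eap1_348

/-!
# R96, EA-POST, part 2 (helper348): all `p`, the output of the machine tile by tile, tolerances
-/

set_option autoImplicit false
set_option linter.style.longLine false

open Set Metric Filter Topology MeasureTheory Module
open scoped ENNReal NNReal

namespace Crest.Agent.R96.EaPost_348

open Crest.Agent.R96.Hole_348
open Crest.Agent.R096.Ce_537 Crest.Agent.R096.Msh_715
open Crest.Agent.R096.Ea_713 (lin)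

variable {Om La : Set E3} {ι : Type} {κ : Type*}
variable {T : Tiling Om ι} {g : E3 → E3} {Kt Vt : Set ι} {a : κ → E3} {R0 R1 : κ → ℝ} {κv : ℝ}
  {ℓ : ι → ℝ}

/-- **EA-POST for all `p`** (`p < 3`, or no macro balls at all) -/
theorem Post.post_gen (h : Post T La g Kt Vt a R0 R1 κv ℓ) {p : ℝ} (hp0 : 0 < p)
    (hp3 : p < 3 ∨ IsEmpty κ)
    (hκ : 0 < κv) {f : E3 → E3} {ρ ρ' : E3 → ℝ} (near : ∀ x ∈ Om, ‖g x - f x‖ ≤ ρ x)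
    (hρ : ∀ x ∈ Om, ρ x ≤ ρ' x)
    (hosc : ∀ c, ∀ x ∈ closedBall (a c) (R1 c), ∀ x' ∈ closedBall (a c) (R1 c),
      ‖f x' - f x‖ + ρ x' ≤ ρ' x) {ε : ℝ≥0∞} (hε : ε ≠ 0) :
    ∃ g' : E3 → E3, Hom g' Om La ∧ Crest.Agent.R096.Str_696.LocPL g' Om ∧
      (∀ x ∈ Om, ‖g' x - f x‖ ≤ ρ' x) ∧
      (∀ x, (∀ c, x ∉ closedBall (a c) (R1 c)) → g' x = g x) ∧
      (∀ x ∈ Om, (∀ c, x ∉ closedBall (a c) (R1 c)) → g' =ᶠ[𝓝 x] g) ∧
      (∀ i ∈ Kt, ∀ x ∈ P (T.H i), g' =ᶠ[𝓝 x] g) ∧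
      ∀ Q : Set ι, Disjoint Q Kt →
        (∀ c, (∃ i ∈ Q, (P (T.H i) ∩ closedBall (a c) (R1 c)).Nonempty) →
          ∀ i, (P (T.H i) ∩ rg a R0 R1 c).Nonempty → i ∈ Q) →
        ∫⁻ x in ⋃ i ∈ Q, P (T.H i), ‖fderiv ℝ g' x‖ₑ ^ p ≤
          (ENNReal.ofReal (Chr 3 p 8 / κv) + 1) *
            (∑' i : {i // i ∈ Q ∧ i ∉ Vt}, ENNReal.ofReal (ℓ i ^ p) * volume (P (T.H i.1))) + ε := by
  rcases hp3 with hp3 | hκe
  · exact h.post hp0 hp3 hκ near hρ hosc hε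
  · have hcι : Countable ι := Crest.Agent.R096.Ea_713.countable_ix T
    refine ⟨g, h.hom, h.pl, fun x hx => (near x hx).trans (hρ x hx), fun _ _ => rfl,
      fun _ _ _ => EventuallyEq.rfl, fun _ _ _ _ => EventuallyEq.rfl, fun Q hQK _ => ?_⟩
    have hVt : ∀ i, i ∉ Vt := fun i hi => by
      obtain ⟨c, _⟩ := h.vt i hi
      exact hκe.elim c
    have hsub : (⋃ i ∈ Q, P (T.H i)) ⊆ ⋃ i : {i // i ∈ Q ∧ i ∉ Vt}, P (T.H i.1) := by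
      intro x hx
      simp only [mem_iUnion] at hx
      obtain ⟨i, hiQ, hxi⟩ := hx
      exact mem_iUnion.2 ⟨⟨i, hiQ, hVt i⟩, hxi⟩
    have hA : ∀ i : {i // i ∈ Q ∧ i ∉ Vt}, ∫⁻ x in P (T.H i.1), ‖fderiv ℝ g x‖ₑ ^ p ≤
        ENNReal.ofReal (ℓ i ^ p) * volume (P (T.H i.1)) := by
      rintro ⟨i, hiQ, hiV⟩
      have hiK : i ∉ Kt := fun hk => Set.disjoint_left.1 hQK hiQ hk
      refine Crest.Agent.R096.Ea_713.lint_tile volume (T.ne i) fun x hx => ?_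
      exact Crest.Agent.R096.Ea_713.enorm_fderiv_rpow_le (h.lip0 i hiK hiV) hp0.le
        (h.lip i hiK hiV x hx)
    calc ∫⁻ x in ⋃ i ∈ Q, P (T.H i), ‖fderiv ℝ g x‖ₑ ^ p
        ≤ ∫⁻ x in ⋃ i : {i // i ∈ Q ∧ i ∉ Vt}, P (T.H i.1), ‖fderiv ℝ g x‖ₑ ^ p :=
          lintegral_mono_set hsub
      _ ≤ ∑' i : {i // i ∈ Q ∧ i ∉ Vt}, ∫⁻ x in P (T.H i.1), ‖fderiv ℝ g x‖ₑ ^ p :=
          lintegral_iUnion_le _ _
      _ ≤ ∑' i : {i // i ∈ Q ∧ i ∉ Vt}, ENNReal.ofReal (ℓ i ^ p) * volume (P (T.H i.1)) :=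
          ENNReal.tsum_le_tsum hA
      _ = 1 * (∑' i : {i // i ∈ Q ∧ i ∉ Vt}, ENNReal.ofReal (ℓ i ^ p) * volume (P (T.H i.1))) :=
          (one_mul _).symm
      _ ≤ _ := le_add_right (mul_le_mul' le_add_self le_rfl)

/-- `(u + v)^p` in `ℝ≥0∞` -/
lemma ofReal_add_rpow_le {p : ℝ} (hp : 1 ≤ p) {u v : ℝ} (hu : 0 ≤ u) (hv : 0 ≤ v) :
    ENNReal.ofReal ((u + v) ^ p) ≤
      2 ^ (p - 1) * (ENNReal.ofReal (u ^ p) + ENNReal.ofReal (v ^ p)) := by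
  have hp0 : 0 ≤ p := by linarith
  rw [← ENNReal.ofReal_rpow_of_nonneg (add_nonneg hu hv) hp0,
    ← ENNReal.ofReal_rpow_of_nonneg hu hp0, ← ENNReal.ofReal_rpow_of_nonneg hv hp0,
    ENNReal.ofReal_add hu hv]
  exact ENNReal.rpow_add_le_mul_rpow_add_rpow _ _ hp

/-- the local Lipschitz constant that comes out of the machine -/
noncomputable def ell (K tol : ι → ℝ) (B : ι → E3 ≃ᵃ[ℝ] E3) (i : ι) : ℝ :=
  K i * ‖lin (B i)‖ + tol i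

/-- the geometric part of `Post` -/
structure Geo (T : Tiling Om ι) (Kt Vt : Set ι) (a : κ → E3) (R0 R1 : κ → ℝ) (κv : ℝ) : Prop where
  ring : RingFam Om a R0 R1
  half : ∀ c, 4 * R0 c ≤ 3 * R1 c
  vt : ∀ i ∈ Vt, ∃ c, P (T.H i) ⊆ closedBall (a c) (R0 c)
  kt : ∀ i ∈ Kt, ∀ c, Disjoint (P (T.H i)) (closedBall (a c) (R1 c))
  one : ∀ i c c', (P (T.H i) ∩ rg a R0 R1 c).Nonempty → (P (T.H i) ∩ rg a R0 R1 c').Nonempty →
    c = c'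
  fat : ∀ c i, (P (T.H i) ∩ rg a R0 R1 c).Nonempty →
    ∃ d : ℝ, 0 < d ∧ (∀ x ∈ P (T.H i), ∀ y ∈ P (T.H i), ‖x - y‖ ≤ d) ∧
      ENNReal.ofReal (κv * d^3) ≤ volume (P (T.H i))

/-- **EA-POST, final form**: from the machine's output on the ordinary tiles -/
theorem Geo.post (h : Geo T Kt Vt a R0 R1 κv) {p : ℝ} (hp1 : 1 ≤ p) (hp3 : p < 3 ∨ IsEmpty κ)
    (hκ : 0 < κv) (hom : Hom g Om La) (pl : Crest.Agent.R096.Str_696.LocPL g Om)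
    {K tol : ι → ℝ} {B : ι → E3 ≃ᵃ[ℝ] E3} (hK : ∀ i, 0 ≤ K i) (htol : ∀ i, 0 ≤ tol i)
    (lip : ∀ i, i ∉ Kt → i ∉ Vt → ∀ x ∈ I (T.H i), ∀ᶠ y in 𝓝 x,
      ‖g y - g x‖ ≤ K i * ‖B i y - B i x‖ + tol i * ‖y - x‖)
    {f : E3 → E3} {ρ ρ' : E3 → ℝ} (near : ∀ x ∈ Om, ‖g x - f x‖ ≤ ρ x)
    (hρ : ∀ x ∈ Om, ρ x ≤ ρ' x)
    (hosc : ∀ c, ∀ x ∈ closedBall (a c) (R1 c), ∀ x' ∈ closedBall (a c) (R1 c),
      ‖f x' - f x‖ + ρ x' ≤ ρ' x) {ε : ℝ≥0∞} (hε : ε ≠ 0) :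
    ∃ g' : E3 → E3, Hom g' Om La ∧ Crest.Agent.R096.Str_696.LocPL g' Om ∧
      (∀ x ∈ Om, ‖g' x - f x‖ ≤ ρ' x) ∧
      (∀ x ∈ Om, (∀ c, x ∉ closedBall (a c) (R1 c)) → g' =ᶠ[𝓝 x] g) ∧
      (∀ i ∈ Kt, ∀ x ∈ P (T.H i), g' =ᶠ[𝓝 x] g) ∧
      ∀ Q : Set ι, Disjoint Q Kt →
        (∀ c, (∃ i ∈ Q, (P (T.H i) ∩ closedBall (a c) (R1 c)).Nonempty) →
          ∀ i, (P (T.H i) ∩ rg a R0 R1 c).Nonempty → i ∈ Q) →
        ∫⁻ x in ⋃ i ∈ Q, P (T.H i), ‖fderiv ℝ g' x‖ₑ ^ p ≤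
          (ENNReal.ofReal (Chr 3 p 8 / κv) + 1) * 2 ^ (p - 1) *
            ((∑' i : {i // i ∈ Q ∧ i ∉ Vt},
                ENNReal.ofReal ((K i * ‖lin (B i.1)‖) ^ p) * volume (P (T.H i.1))) +
              ∑' i, ENNReal.ofReal (tol i ^ p) * volume (P (T.H i))) + ε := by
  have hpost : Post T La g Kt Vt a R0 R1 κv (ell K tol B) :=
    { hom := hom
      pl := pl
      ring := h.ring
      half := h.half
      vt := h.vt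
      kt := h.kt
      one := h.one
      fat := h.fat
      lip0 := fun i _ _ => add_nonneg (mul_nonneg (hK i) (norm_nonneg _)) (htol i)
      lip := fun i hi hi' x hx =>
        Crest.Agent.R096.Ea_713.LLV_of_affine (hK i) (lip i hi hi' x hx) }
  obtain ⟨g', h1, h2, h3, _, h5, h6, h7⟩ := hpost.post_gen (by linarith) hp3 hκ near hρ hosc hε
  refine ⟨g', h1, h2, h3, h5, h6, fun Q hQK hQ => (h7 Q hQK hQ).trans ?_⟩
  refine add_le_add ?_ le_rfl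
  rw [mul_assoc]
  refine mul_le_mul' le_rfl ?_
  calc ∑' i : {i // i ∈ Q ∧ i ∉ Vt}, ENNReal.ofReal (ell K tol B i ^ p) * volume (P (T.H i.1))
      ≤ ∑' i : {i // i ∈ Q ∧ i ∉ Vt}, 2 ^ (p - 1) *
          (ENNReal.ofReal ((K i * ‖lin (B i.1)‖) ^ p) * volume (P (T.H i.1)) +
            ENNReal.ofReal (tol i ^ p) * volume (P (T.H i.1))) := by
        refine ENNReal.tsum_le_tsum fun i => ?_
        have := ofReal_add_rpow_le hp1 (mul_nonneg (hK i.1) (norm_nonneg (lin (B i.1)))) (htol i.1)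
        calc _ ≤ (2 ^ (p - 1) * (ENNReal.ofReal ((K i * ‖lin (B i.1)‖) ^ p) +
                ENNReal.ofReal (tol i ^ p))) * volume (P (T.H i.1)) := mul_le_mul' this le_rfl
          _ = _ := by ring
    _ = 2 ^ (p - 1) * ((∑' i : {i // i ∈ Q ∧ i ∉ Vt},
          ENNReal.ofReal ((K i * ‖lin (B i.1)‖) ^ p) * volume (P (T.H i.1))) +
            ∑' i : {i // i ∈ Q ∧ i ∉ Vt}, ENNReal.ofReal (tol i ^ p) * volume (P (T.H i.1))) := by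
        rw [ENNReal.tsum_mul_left, ENNReal.tsum_add]
    _ ≤ _ := by
        refine mul_le_mul' le_rfl (add_le_add le_rfl ?_)
        exact ENNReal.tsum_comp_le_tsum_of_injective Subtype.val_injective
          (fun i => ENNReal.ofReal (tol i ^ p) * volume (P (T.H i)))

/-- all tiles except the exact cores -/
lemma diff_sub (T : Tiling Om ι) (Kt : Set ι) :
    Om \ ⋃ i ∈ Kt, P (T.H i) ⊆ ⋃ i ∈ Ktᶜ, P (T.H i) := by
  rintro x ⟨hx, hx2⟩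
  obtain ⟨i, hi⟩ := T.cov x hx
  simp only [mem_iUnion]
  refine ⟨i, fun hk => hx2 ?_, hi⟩
  simp only [mem_iUnion]
  exact ⟨i, hk, hi⟩

/-- energies on sets where the maps have the same germs -/
lemma lint_congr_germ {g g' : E3 → E3} {S : Set E3} (hS : MeasurableSet S)
    (h : ∀ x ∈ S, g' =ᶠ[𝓝 x] g) (Q : E3 → (E3 →L[ℝ] E3) → ℝ≥0∞) :
    ∫⁻ x in S, Q x (fderiv ℝ g' x) = ∫⁻ x in S, Q x (fderiv ℝ g x) := by
  refine setLIntegral_congr_fun hS fun x hx => ?_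
  simp only [(h x hx).fderiv_eq]

/-- **EA-POST, energy off the exact cores** -/
theorem Geo.post_off (h : Geo T Kt Vt a R0 R1 κv) {g' : E3 → E3} {p : ℝ} {A : ℝ≥0∞}
    (H : ∀ Q : Set ι, Disjoint Q Kt →
        (∀ c, (∃ i ∈ Q, (P (T.H i) ∩ closedBall (a c) (R1 c)).Nonempty) →
          ∀ i, (P (T.H i) ∩ rg a R0 R1 c).Nonempty → i ∈ Q) →
        ∫⁻ x in ⋃ i ∈ Q, P (T.H i), ‖fderiv ℝ g' x‖ₑ ^ p ≤ A) :
    ∫⁻ x in Om \ ⋃ i ∈ Kt, P (T.H i), ‖fderiv ℝ g' x‖ₑ ^ p ≤ A := by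
  refine (lintegral_mono_set (diff_sub T Kt)).trans (H Ktᶜ disjoint_compl_left ?_)
  rintro c _ i ⟨x, hx, hx1, _⟩ hk
  exact Set.disjoint_left.1 (h.kt i hk c) hx (ball_subset_closedBall hx1)

end Crest.Agent.R96.EaPost_348
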