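import Crest.Agent.R96.Ea0g_348
import Crest.Agent.R096.Pgn6_112

/-!
# R96, EA0 (helper348), part 4: 112's `GenOut` ⟹ `PreMesh0`
-/

set_option autoImplicit false
set_option linter.style.longLine false
set_option linter.unusedSectionVars false

open MeasureTheory Set Filter Topology Metric
open scoped ENNReal NNReal

namespace Crest.Agent.R96.Ea0p_348

open Crest.Agent.R096.SkC1_961 (E3 Hom3 FoamD)
open Crest.Agent.R096.Er_594 (SH3)
open Crest.Agent.R096.Bsp_628 Crest.Agent.R096.Brk5_582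
open Crest.Agent.R096.EaX_766 (lin cbx Kor)
open Crest.Agent.R096.Acc_365 (K1 K2)
open Crest.Agent.R096.Msh_715 (Tiling P I)
open Crest.Agent.R096.Mal_874 (CB MD RD)
open Crest.Agent.R096.Ls_222 (Edg)
open Crest.Agent.R096.Ea0_961 (Blk InS Tw Ly)
open Crest.Agent.R096.Fns_360 (trA trA_apply)
open Crest.Agent.R96.EaCore_348 (EE Ord Macro)
open Crest.Agent.R96.EaPost_348 (Geo)
open Crest.Agent.R96.Eam_466 (InB)
open Crest.Agent.R96.Pm_199 (Dec)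
open Crest.Agent.R096.Pmc_112 (PreOut Kl)
open Crest.Agent.R096.Mfa_880 (NmB)
open Crest.Agent.R96.EaP_899 (XD fX cm)
open Crest.Agent.R096.Pgn_112 (ZD COu)

noncomputable section

/-- **112's `GenOut` ⟹ `PreMesh0`** -/
theorem preMesh0_gen {δ κ0 R c0 : ℝ} {La : Set E3} {F : Set (Bx (Fin 3))}
    {bf : BoxFoam La F δ κ0} {cmp : Cmp F R} {p : ℝ} {C : Set (Set E3) → ℝ} {κp κ1 κ2 : ℝ}
    {Om : Set E3} {f : E3 → E3} {D D' : E3 → E3 →L[ℝ] E3} {X : Set F} {A : F → E3 ≃ᵃ[ℝ] E3}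
    {lam : F → ℝ} {Q : F → CB E3 3} {k0 : F → ℕ} (hk : ∀ c, (Q c).kc ≤ k0 c) {er : F → ℝ≥0∞}
    {Bx Gd : X → Set E3} {z : F → E3} {H : XD bf c0 X lam z} {KO C1g CAg : ℝ≥0}
    {B : X → ℝ≥0∞} {ε : ℝ≥0∞} {εb : F → ℝ≥0∞} {zc : F → E3} {Mc : F → ℕ} {M : MD E3 3 X}
    {Zd : ZD F X} {Cs : ℝ}
    (hQ : ∀ c : X, M.Q c = Q c.1)
    (hcore : ∀ c ∈ X, (Q c).Kc = A c ⁻¹' cbx c.1 (lam c))
    (hGd : ∀ c : X, Gd c ⊆ Tw (Q c.1) (k0 c.1))
    (hInB : InB (fX bf cmp H) f X Zd.x Zd.R) (hR : ∀ c, 0 < Zd.R c)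
    (hEo : (ENNReal.ofReal Cs * Kl δ R) ^ p * (COu p * ∫⁻ x in Om \ NmB M Bx, ‖D' x‖ₑ ^ p) ≤
      KO * (Jn p Om D F X Q + ∑' c : X, Ln p D F Q k0 c))
    (hB : ∀ c : X, B c ≤ C1g * (Sn p F A lam Q c + er c) + CAg * Ln p D F Q k0 c)
    (h : Crest.Agent.R096.Pgn_112.GenOut (fX bf cmp H) Om f D' p κp κ1 κ2 X A lam zc Mc M Bx Gd B
      Zd C Cs ε (fun c => εb c.1)) :
    PreMesh0 (c0 := c0) bf cmp p C κp κ1 κ2 Om f D X A lam Q k0 er (KO + C1g)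
      (KO + CAg) ε εb := by
  obtain ⟨v, Dd, h1, h2, h3, h4, h5, Qb, h6, h7, h8, h9, h10, h11⟩ := h
  have key := preMesh0_of (KK := 1) (bf := bf) (cmp := cmp) (p := p) (C := C) (κp := κp)
    (κ1 := κ1) (κ2 := κ2) (Om := Om) (f := f) (D := D) (X := X) (A := A) (lam := lam) (Q := Q)
    (k0 := k0) hk (er := er) (Gd := Gd) (z := z) (H := H) (KO := KO) (C1g := C1g) (CAg := CAg)
    (Eo := (ENNReal.ofReal Cs * Kl δ R) ^ p * (COu p * ∫⁻ x in Om \ NmB M Bx, ‖D' x‖ₑ ^ p))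
    (B := B) (ε := ε) (εb := εb) hcore hGd hEo hB
  rw [one_mul, one_mul] at key
  refine key ⟨Dd, _, v, _, Zd.x, _, _, fun c => c.1, Qb, h2, h3, ?_, ?_, ?_, h6, ?_⟩
  · intro c y hy j
    refine hInB c y (closedBall_subset_closedBall ?_ hy) j
    have := hR c
    linarith
  · intro c
    obtain ⟨g1, g2, g3, g4, g5⟩ := h4 c
    rw [hQ c] at g1
    exact ⟨h1 c, g1, g2, g4⟩
  · refine h5.trans (le_of_eq ?_)
    rw [ENNReal.coe_one, one_mul]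
    rfl
  · intro c
    refine ⟨fun i hi => h9 c i hi, ?_, ?_, ?_⟩
    · intro i hi x hx k hk'
      refine h10 c i hi x (Crest.Agent.R096.Msh_715.I_sub_P _ hx) k
        (closedBall_subset_closedBall ?_ hk')
      have := hR k
      linarith
    · rintro x ⟨hx1, hx2⟩
      rw [← hQ c] at hx1 hx2
      obtain ⟨i, hi, hxi⟩ := h8 c x hx1 hx2
      exact mem_iUnion₂.2 ⟨i, hi, hxi⟩
    · refine (h11 c).trans (le_of_eq ?_)
      rw [ENNReal.coe_one, one_mul]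

end

end Crest.Agent.R96.Ea0p_348
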