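import Crest.Agent.R96.Wm5_72
import Crest.Agent.R096.Eog5_922

/-!
# Row 96, (OUT-MEAN): the mean of the plain outer class of the instance of `MF` (324's `QP`)
-/

set_option autoImplicit false

open MeasureTheory Set Filter Metric
open scoped Topology ENNReal Pointwise

namespace Crest.Agent.R96.Wm5_72

open Crest.Agent.R096.Msh_810 Crest.Agent.R096.Mal_874 Crest.Agent.R096.Mou_324
open Crest.Agent.R096.SkC1_961 (E3)
open Crest.Agent.R96.Sg1_199 (li sgm)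
open Crest.Agent.R96.Wm_72 (Tw Aw)
open Crest.Agent.R096.Mfa_880 (PT)
open Crest.Agent.R096.Mfe_161 (PTn)

noncomputable section

/-- the number of potential edges of a plain outer cube (universal) -/
def nO : ℕ := (⋃₀ {c : Set (Set E3) | c ∈ simL (N0 3) 1 2 ∧ c.Finite}).ncard

variable {J : Type} {M : MD E3 3 J} {W : J → Set E3}

/-- **THE MEAN OF THE PLAIN OUTER CLASS** -/
theorem mean_QP [Countable J] (k : J → ℕ) (Wc : ∀ j, (W j).Countable) (r : ℝ) {c : ℝ}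
    (hc0 : 0 ≤ c) (hc : ∀ x y : E3, dist x y ≤ c * dist (M.φ x) (M.φ y)) {A : Set E3}
    (Am : MeasurableSet A) {G : E3 → E3 → ℝ≥0∞} (hGm : ∀ v, Measurable (G v)) {H : E3 → ℝ≥0∞}
    (hGH : ∀ᵐ y : E3, ∀ v, G v y ≤ ‖v‖ₑ * H y) {p : ℝ} (hp : 1 ≤ p) :
    ∫⁻ a in A, (QP M k Wc r).toPT.EnC G p () a ≤
      (nO * ENNReal.ofReal (2 * ‖(M.φ : E3 →L[ℝ] (Fin 3 → ℝ))‖ * c)) ^ p *
        (3 * volume (closedBall (0 : E3) (r + c / 6))) *
        ∫⁻ z in M.φ ⁻¹' M.D0.Om \ Nm M, H z ^ p := by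
  classical
  have hφ : 0 ≤ ‖(M.φ : E3 →L[ℝ] (Fin 3 → ℝ))‖ := norm_nonneg _
  have hOm : (outD M.D0 k M.W 0).Om = M.D0.Om := M.outD_Om_eq 0
  have := (QP M k Wc r).toPT.cτ
  have e1 := enA_restrict (μ := (volume : Measure E3))
    (Til := fun t : {t // (QP M k Wc r).toPT.cl t = ()} => (QP M k Wc r).toPT.Til t.1)
    (Ac := fun t => (QP M k Wc r).toPT.Ac t.1) (Ed := fun t => (QP M k Wc r).toPT.Ed t.1)
    (β := fun t => ENNReal.ofReal ((QP M k Wc r).toPT.β t.1))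
    (G := fun j => G ((QP M k Wc r).toPT.v j)) (x := (QP M k Wc r).toPT.x)
    (v := (QP M k Wc r).toPT.v) (p := p) Am
  refine (le_of_eq e1).trans ?_
  have key := Crest.Agent.R096.Eog_922.outer_avg_mis (μ := (volume : Measure E3)) (φ := M.φ)
    (D := outD M.D0 k M.W 0) (a₀ := 0) (r := r)
    (Til := fun t : {t // (QP M k Wc r).toPT.cl t = ()} => (QP M k Wc r).toPT.Til t.1)
    (Ac := fun t => (QP M k Wc r).toPT.Ac t.1 ∩ A) (fun t => t.1.1) (fun t => t.1.2)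
    (fun t t' h1 h2 => Subtype.ext (Prod.ext h1 h2)) (fun t => rfl) (isOpen_Nm M)
    (fun t b hb => ⟨hb.1.1, hb.1.2⟩) (fun t => ((QP M k Wc r).toPT.Acm t.1).inter Am) hc0 hc
    (δ := 1) (fun x => (outD M.D0 k M.W 0).le_one x) (fun t => (QP M k Wc r).toPT.Ed t.1)
    (m := nO) (fun t => PTn.card_Ed_le (QP M k Wc r) t.1) (QP M k Wc r).toPT.x
    (QP M k Wc r).toPT.v (fun t j hj => ((QP M k Wc r).toPT.sub t.1 j hj).2)
    (fun t => ENNReal.ofReal ((QP M k Wc r).toPT.β t.1)) (G := fun j => G ((QP M k Wc r).toPT.v j))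
    (fun j => hGm _) (H := H) (cc := fun j => ‖(QP M k Wc r).toPT.v j‖ₑ)
    (by
      filter_upwards [hGH] with y hy t j _
      exact hy _)
    (K := ENNReal.ofReal (2 * ‖(M.φ : E3 →L[ℝ] (Fin 3 → ℝ))‖ * c)) ENNReal.ofReal_ne_top ?_ hp
  · refine key.trans ?_
    rw [hOm]
    gcongr
    have h1 : (outD M.D0 k M.W 0).C = M.D0.C := rfl
    rw [h1, mul_one_div]
    exact div_le_div_of_nonneg_left hc0 (by norm_num) M.hC
  · rintro ⟨⟨s, z⟩, h1⟩ e he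
    obtain ⟨-, hsub⟩ := (QP M k Wc r).toPT.sub _ e he
    have hx : (QP M k Wc r).toPT.x e ∈ Tw M.φ 0 s z :=
      hsub ⟨0, ⟨le_rfl, zero_le_one⟩, by simp⟩
    have hx' : (QP M k Wc r).toPT.x e + (QP M k Wc r).toPT.v e ∈ Tw M.φ 0 s z :=
      hsub ⟨1, ⟨zero_le_one, le_rfl⟩, by simp⟩
    have h5 : ‖(QP M k Wc r).toPT.v e‖ ≤ c / 2 ^ s := by
      have h4 := Wm_72.Tw_dist hc0 hc hx hx'
      rwa [dist_eq_norm, add_sub_cancel_left] at h4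
    have e1 : ‖(QP M k Wc r).toPT.v e‖ₑ = ENNReal.ofReal ‖(QP M k Wc r).toPT.v e‖ :=
      (ofReal_norm _).symm
    show ENNReal.ofReal ((QP M k Wc r).toPT.β (s, z)) * ‖(QP M k Wc r).toPT.v e‖ₑ ≤ _
    rw [e1]
    have e2 : (QP M k Wc r).toPT.β (s, z) =
      2 ^ (s + 1) * ‖(M.φ : E3 →L[ℝ] (Fin 3 → ℝ))‖ := rfl
    rw [e2, ← ENNReal.ofReal_mul (by positivity)]
    refine ENNReal.ofReal_le_ofReal ?_
    calc 2 ^ (s + 1) * ‖(M.φ : E3 →L[ℝ] (Fin 3 → ℝ))‖ * ‖(QP M k Wc r).toPT.v e‖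
        ≤ 2 ^ (s + 1) * ‖(M.φ : E3 →L[ℝ] (Fin 3 → ℝ))‖ * (c / 2 ^ s) :=
          mul_le_mul_of_nonneg_left h5 (by positivity)
      _ = _ := by
          have hp2 : (2 : ℝ) ^ s ≠ 0 := by positivity
          rw [pow_succ]
          field_simp

/-- the form for `φ = refl` (operator norm `≤ 1`, `c = 1`), shifts in a set `A` of volume `1` -/
theorem mean_QP' [Countable J] (k : J → ℕ) (Wc : ∀ j, (W j).Countable) {r : ℝ}
    (h1 : ‖(M.φ : E3 →L[ℝ] (Fin 3 → ℝ))‖ ≤ 1)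
    (hc : ∀ x y : E3, dist x y ≤ dist (M.φ x) (M.φ y)) {A : Set E3}
    (Am : MeasurableSet A) {CA : ℝ≥0∞}
    (hCA : 3 * volume (closedBall (0 : E3) (r + 1)) ≤ CA * volume A)
    {G : E3 → E3 → ℝ≥0∞} (hGm : ∀ v, Measurable (G v)) {H : E3 → ℝ≥0∞}
    (hGH : ∀ᵐ y : E3, ∀ v, G v y ≤ ‖v‖ₑ * H y) {p : ℝ} (hp : 1 ≤ p) :
    ∫⁻ a in A, (QP M k Wc r).toPT.EnC G p () a ≤
      ((nO * 2) ^ p * CA * ∫⁻ z in M.φ ⁻¹' M.D0.Om \ Nm M, H z ^ p) * volume A := by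
  refine (mean_QP (M := M) k Wc r zero_le_one (by simpa using hc) Am hGm hGH hp).trans ?_
  have h2 : ENNReal.ofReal (2 * ‖(M.φ : E3 →L[ℝ] (Fin 3 → ℝ))‖ * 1) ≤ 2 := by
    rw [show (2 : ℝ≥0∞) = ENNReal.ofReal 2 by simp]
    exact ENNReal.ofReal_le_ofReal (by linarith)
  calc (nO * ENNReal.ofReal (2 * ‖(M.φ : E3 →L[ℝ] (Fin 3 → ℝ))‖ * 1)) ^ p *
        (3 * volume (closedBall (0 : E3) (r + 1 / 6))) * ∫⁻ z in M.φ ⁻¹' M.D0.Om \ Nm M, H z ^ p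
      ≤ (nO * 2) ^ p * (CA * volume A) * ∫⁻ z in M.φ ⁻¹' M.D0.Om \ Nm M, H z ^ p := by
        gcongr ?_ ^ p * ?_ * _
        · exact mul_le_mul_of_nonneg_left h2 bot_le
        · refine le_trans ?_ hCA
          gcongr
          norm_num
    _ = _ := by ring

end

end Crest.Agent.R96.Wm5_72
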