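import Crest.Agent.R96.Pm2_199
import Crest.Agent.R096.Cnt1_324
import Crest.Agent.R096.Tms2_582
import Crest.Agent.R096.Eab1_747

/-!
# R96, EA p < 3 (helper348): the zones of the tiny cores are patched into a shiftable mesh

`ZIn M0 X` = a shiftable mesh `M0` whose decorated meshes have only the exact cores `X`, are lattices
in the zones of the other bricks, and the local families (582's `LocF`).  `ZIn.mf` = the patched
shiftable mesh: same classes, same potential tiles, same energies `EnC`.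
-/

set_option autoImplicit false
set_option linter.style.longLine false
set_option linter.unusedSectionVars false

open Set Metric Filter Topology MeasureTheory
open scoped ENNReal

namespace Crest.Agent.R96.Zpatch_348

open Crest.Agent.R096.Msh_715
open Crest.Agent.R096.Msh_810 (Cu Hc)
open Crest.Agent.R096.SkC1_961 (E3 Cfg)
open Crest.Agent.R096.Ls_222 (Edg ea ev eIn mem_eIn sgm_edg)
open Crest.Agent.R096.Cnt_324 (HS Eix ex edge_code)
open Crest.Agent.R096.Tms_582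
open Crest.Agent.R096.Eab_747 (ZoneFam VZ)
open Crest.Agent.R096.Mal_874 (Co)
open Crest.Agent.R96.Pm_199
open Crest.Agent.R96.Sg1_199 (li sgm)
open Crest.Agent.R96.Sg8_199 (EnA)
open Crest.Agent.R96.EaPost_348 (Geo)

noncomputable section

variable {Om : Set E3} {F J : Type}

/-- the vector `2^-k z` -/
def lv (k : ℕ) (z : Fin 3 → ℤ) : E3 := fun i => (2 : ℝ)⁻¹ ^ k * z i

/-- **input of the zone patch** -/
structure ZIn (M0 : MF Om F J) (X : Set F) where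
  /-- the inequalities of the unpatched meshes are shifted inequalities of a countable family -/
  Hf : Set ((E3 →L[ℝ] ℝ) × ℝ)
  Hf_c : Hf.Countable
  hs : ∀ a w (h : M0.Ok a w), HS (M0.md a w h).T a Hf
  hX : ∀ a w (h : M0.Ok a w), ∀ c ∈ X, (M0.md a w h).V c = {(M0.md a w h).ct c}
  hX' : ∀ a w (h : M0.Ok a w), ∀ c ∉ X, (M0.md a w h).V c = ∅
  cF : Countable {c // c ∉ X}
  x : {c // c ∉ X} → E3
  R : {c // c ∉ X} → ℝ
  k : {c // c ∉ X} → ℕ
  wz : {c // c ∉ X} → E3 → E3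
  wz_lat : ∀ c a, ∃ z : Fin 3 → ℤ, wz c a = a + lv (k c) z
  Z : ∀ a w (h : M0.Ok a w), Zones (M0.md a w h).T x R k (fun c => wz c a)
  core_off : ∀ a w (h : M0.Ok a w), ∀ c ∈ X, ∀ c',
    Disjoint (P ((M0.md a w h).T.H ((M0.md a w h).ct c))) (closedBall (x c') (R c'))
  Zc : {c // c ∉ X} → Finset (Fin 3 → ℤ)
  κ : {c // c ∉ X} → Type
  H : ∀ c, κ c → Finset ((E3 →L[ℝ] ℝ) × ℝ)
  F : LocF x R k Zc H
  J0 : ∀ c, Set (κ c)
  J : ∀ c, Set (κ c)
  θ : {c // c ∉ X} → E3 → E3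
  φ : {c // c ∉ X} → E3 → ℝ

namespace ZIn

variable {M0 : MF Om F J} {X : Set F} (Zi : ZIn M0 X) {a : E3} {w : J → E3} (h : M0.Ok a w)

/-- the indices of the patched mesh -/
abbrev Ix : Type :=
  {i // i ∉ Ar (M0.md a w h).T Zi.k (fun c => Zi.wz c a) Zi.Zc} ⊕ Σ c, Zi.κ c

/-- the patched mesh -/
def T : Tiling Om (Zi.Ix h) := tmesh (Zi.Z a w h) Zi.F

/-- the core tiles are not replaced -/
theorem ct_not {c : F} (hc : c ∈ X) :
    (M0.md a w h).ct c ∉ Ar (M0.md a w h).T Zi.k (fun c => Zi.wz c a) Zi.Zc := by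
  rintro ⟨c', z, hz, he⟩
  obtain ⟨y, hy⟩ := (M0.md a w h).T.ne ((M0.md a w h).ct c)
  have h1 := I_sub_P _ hy
  have h2 := h1
  rw [he, P_Hc_idE] at h2
  have h3 := cube_in (Zi.Z a w h) Zi.F hz h2
  have h4 := (Zi.Z a w h).R0 c'
  exact Set.disjoint_left.1 (Zi.core_off a w h c hc c') h1
    ((ball_subset_closedBall.trans (closedBall_subset_closedBall (by linarith))) h3)

theorem ne_ix (c : F) : Nonempty (Zi.Ix h) := by
  obtain ⟨y, hy⟩ := (M0.md a w h).T.ne ((M0.md a w h).ct c)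
  obtain ⟨i, -⟩ := (Zi.T h).cov y ((M0.md a w h).T.sub _ (I_sub_P _ hy))
  exact ⟨i⟩

open Classical in
/-- the core tiles in the patched mesh -/
def ct (c : F) : Zi.Ix h :=
  if hc : (M0.md a w h).ct c ∉ Ar (M0.md a w h).T Zi.k (fun c => Zi.wz c a) Zi.Zc then
    Sum.inl ⟨_, hc⟩ else (Zi.ne_ix h c).some

theorem ct_of {c : F} (hc : c ∈ X) : Zi.ct h c = Sum.inl ⟨(M0.md a w h).ct c, Zi.ct_not h hc⟩ := by
  unfold ct
  rw [dif_pos (Zi.ct_not h hc)]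

/-- the new tiles of the zone `c` -/
def en (c : {c // c ∉ X}) (j : Zi.κ c) : Zi.Ix h := Sum.inr ⟨c, j⟩

/-- the tiles near the centre `c` -/
def Vz (c : {c // c ∉ X}) : Set (Zi.Ix h) := VZ (Zi.T h) Zi.x Zi.R c

open Classical in
/-- **the decorated patched mesh** -/
def dec : Dec Om F where
  ι := Zi.Ix h
  T := Zi.T h
  J0 c := if hc : c ∉ X then Zi.en h ⟨c, hc⟩ '' Zi.J0 ⟨c, hc⟩ else {Zi.ct h c}
  J c := if hc : c ∉ X then Zi.en h ⟨c, hc⟩ '' Zi.J ⟨c, hc⟩ else {Zi.ct h c}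
  V c := if hc : c ∉ X then Zi.Vz h ⟨c, hc⟩ else {Zi.ct h c}
  ct := Zi.ct h
  A := (M0.md a w h).A
  lam := (M0.md a w h).lam
  z := (M0.md a w h).z
  θ c := if hc : c ∉ X then fun y => Zi.θ ⟨c, hc⟩ (y - Zi.wz ⟨c, hc⟩ a) else (M0.md a w h).θ c
  φ c := if hc : c ∉ X then fun y => Zi.φ ⟨c, hc⟩ (y - Zi.wz ⟨c, hc⟩ a) else (M0.md a w h).φ c
  M := (M0.md a w h).M
  fr := Sum.elim (fun i => (M0.md a w h).fr i.1) (fun _ => AffineEquiv.refl ℝ E3)

theorem dec_T : (Zi.dec h).T = Zi.T h := rfl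
theorem dec_ct : (Zi.dec h).ct = Zi.ct h := rfl

theorem dec_V_of {c : F} (hc : c ∈ X) : (Zi.dec h).V c = ({Zi.ct h c} : Set (Zi.Ix h)) :=
  dif_neg (not_not.2 hc)

theorem dec_J0_of {c : F} (hc : c ∈ X) : (Zi.dec h).J0 c = ({Zi.ct h c} : Set (Zi.Ix h)) :=
  dif_neg (not_not.2 hc)

theorem dec_J_of {c : F} (hc : c ∈ X) : (Zi.dec h).J c = ({Zi.ct h c} : Set (Zi.Ix h)) :=
  dif_neg (not_not.2 hc)

theorem dec_V_not {c : F} (hc : c ∉ X) : (Zi.dec h).V c = Zi.Vz h ⟨c, hc⟩ := dif_pos hc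

theorem dec_J0_not {c : F} (hc : c ∉ X) : (Zi.dec h).J0 c = Zi.en h ⟨c, hc⟩ '' Zi.J0 ⟨c, hc⟩ :=
  dif_pos hc

theorem dec_J_not {c : F} (hc : c ∉ X) : (Zi.dec h).J c = Zi.en h ⟨c, hc⟩ '' Zi.J ⟨c, hc⟩ :=
  dif_pos hc

theorem dec_θ_not {c : F} (hc : c ∉ X) :
    (Zi.dec h).θ c = fun y => Zi.θ ⟨c, hc⟩ (y - Zi.wz ⟨c, hc⟩ a) := dif_pos hc

theorem dec_φ_not {c : F} (hc : c ∉ X) :
    (Zi.dec h).φ c = fun y => Zi.φ ⟨c, hc⟩ (y - Zi.wz ⟨c, hc⟩ a) := dif_pos hc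

/-- **the ordinary tiles of the patched mesh are ordinary tiles of the old one, off the half balls** -/
theorem ord {i : Zi.Ix h} (hi : (Zi.dec h).Ord i) :
    ∃ i0, i = Sum.inl i0 ∧ (M0.md a w h).Ord i0.1 ∧
      ∀ c, Disjoint (P ((M0.md a w h).T.H i0.1)) (closedBall (Zi.x c) (Zi.R c / 2)) := by
  obtain ⟨i0, rfl, h2⟩ := off_zones (Zi.Z a w h) Zi.F (i := i) (fun c hc => by
    have := hi c.1
    rw [Zi.dec_V_not h c.2] at this
    exact this hc)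
  refine ⟨i0, rfl, fun c hc => ?_, h2⟩
  by_cases hcX : c ∈ X
  · rw [Zi.hX a w h c hcX] at hc
    have h3 : i0.1 = (M0.md a w h).ct c := hc
    have h5 : (Sum.inl i0 : Zi.Ix h) ∉ ({Zi.ct h c} : Set (Zi.Ix h)) := by
      rw [← Zi.dec_V_of h hcX]
      exact hi c
    apply h5
    rw [Zi.ct_of h hcX]
    have h6 : i0 = ⟨(M0.md a w h).ct c, Zi.ct_not h hcX⟩ := Subtype.ext h3
    exact congrArg (fun q => (Sum.inl q : Zi.Ix h)) h6
  · rw [Zi.hX' a w h c hcX] at hc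
    exact hc

/-- the edges of an ordinary tile are edges of the old mesh -/
theorem edge_old {i0 : {i // i ∉ Ar (M0.md a w h).T Zi.k (fun c => Zi.wz c a) Zi.Zc}}
    (hi : ∀ c, Disjoint (P ((M0.md a w h).T.H i0.1)) (closedBall (Zi.x c) (Zi.R c / 2)))
    {e : Edg (Zi.T h)} (he : e ∈ eIn (Zi.T h) (Sum.inl i0)) :
    ∃ e0 ∈ eIn (M0.md a w h).T i0.1, e0.1 = e.1 := by
  have h1 : e.1 ⊆ P ((M0.md a w h).T.H i0.1) := mem_eIn.1 he
  obtain ⟨y, hy, hd, he1⟩ := e.2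
  have h2 : y ∈ P ((M0.md a w h).T.H i0.1) := h1 (by rw [he1]; exact (Zi.T h).self_mem_cc y)
  have hoff : ∀ c, y ∉ ball (Zi.x c) (Zi.R c / 2) := fun c hc =>
    Set.disjoint_left.1 (hi c) h2 (ball_subset_closedBall hc)
  have h3 := (cells_off (Zi.Z a w h) Zi.F hoff).1
  have h4 := dim_off (Zi.Z a w h) Zi.F hoff
  refine ⟨⟨e.1, y, hy, ?_, ?_⟩, mem_eIn.2 h1, rfl⟩
  · rw [← h4]; exact hd
  · rw [← h3]; exact he1

/-! ### the countable family of inequalities -/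

/-- the inequalities of the zones -/
def Hz : Set ((E3 →L[ℝ] ℝ) × ℝ) :=
  ⋃ c : {c // c ∉ X}, ⋃ j : Zi.κ c, ⋃ z : Fin 3 → ℤ,
    (fun g : (E3 →L[ℝ] ℝ) × ℝ => ((g.1, g.2 + g.1 (lv (Zi.k c) z)) : (E3 →L[ℝ] ℝ) × ℝ)) ''
      (Zi.H c j : Set ((E3 →L[ℝ] ℝ) × ℝ))

theorem Hz_countable : (Zi.Hz).Countable := by
  have := Zi.cF
  unfold Hz
  refine countable_iUnion fun c => ?_
  have := (Zi.F.rep c).fin
  have : Countable (Zi.κ c) := Finite.to_countable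
  refine countable_iUnion fun j => countable_iUnion fun z => ?_
  exact ((Zi.H c j).countable_toSet).image _

/-- all inequalities -/
def Hall : Set ((E3 →L[ℝ] ℝ) × ℝ) := Zi.Hf ∪ Zi.Hz

instance countable_Hall : Countable Zi.Hall :=
  (Zi.Hf_c.union Zi.Hz_countable).to_subtype

theorem hs_T : HS (Zi.T h) a Zi.Hall := by
  rintro (i | ⟨c, j⟩) g hg
  · exact Or.inl (Zi.hs a w h i.1 g hg)
  · right
    have hg' : g ∈ trH (Zi.wz c a) (Zi.H c j) := hg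
    obtain ⟨g0, hg0, rfl⟩ : ∃ g0 ∈ Zi.H c j, trh (Zi.wz c a) g0 = g := by
      classical
      unfold trH at hg'
      exact Finset.mem_image.1 hg'
    obtain ⟨z, hz⟩ := Zi.wz_lat c a
    refine mem_iUnion.2 ⟨c, mem_iUnion.2 ⟨j, mem_iUnion.2 ⟨z, g0, hg0, ?_⟩⟩⟩
    show (g0.1, g0.2 + g0.1 (lv (Zi.k c) z)) = (g0.1, g0.2 + g0.1 (Zi.wz c a) - g0.1 a)
    rw [hz, map_add]
    congr 1
    ring

/-! ### the patched shiftable mesh -/

/-- a tile of the unpatched mesh (exists because `Om` is not empty if there is a tile) -/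
theorem ne_ι (i : Zi.Ix h) : Nonempty (M0.md a w h).ι := by
  obtain ⟨y, hy⟩ := (Zi.T h).ne i
  obtain ⟨i0, -⟩ := (M0.md a w h).T.cov y ((Zi.T h).sub _ (I_sub_P _ hy))
  exact ⟨i0⟩

/-- potential tile of a tile -/
def pot (i : Zi.Ix h) : M0.τ :=
  Sum.elim (fun i0 => M0.pot a w h i0.1) (fun _ => M0.pot a w h (Zi.ne_ι h i).some) i

/-- **the patched shiftable mesh** -/
def mf : MF Om F J where
  A := M0.A
  Am := M0.Am
  A0 := M0.A0
  A1 := M0.A1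
  W := M0.W
  Wc := M0.Wc
  Bx := M0.Bx
  cJ := M0.cJ
  md a w h := Zi.dec h
  κ := M0.κ
  τ := M0.τ
  η := M0.η ⊕ Eix Zi.Hall
  cκ := M0.cκ
  cτ := M0.cτ
  cη := by
    have := M0.cη
    infer_instance
  cl := M0.cl
  bl := M0.bl
  Til := M0.Til
  Ac := M0.Ac
  Acm := M0.Acm
  eb := Sum.elim M0.eb (fun _ => none)
  x := Sum.elim M0.x (fun j => ex j)
  v := Sum.elim M0.v (fun j => Crest.Agent.R096.Cnt_324.ev j)
  Ed t := (M0.Ed t).map ⟨Sum.inl, Sum.inl_injective⟩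
  sub t j hj := by
    rw [Finset.mem_map] at hj
    obtain ⟨j0, hj0, rfl⟩ := hj
    exact M0.sub t j0 hj0
  β := M0.β
  Sh := M0.Sh
  shf := M0.shf
  edge a w h e := by
    obtain ⟨e1, y, hy, hd, he1⟩ := e
    obtain ⟨j, hj⟩ := edge_code (Zi.hs_T h) hy hd
    exact ⟨Sum.inr j, he1.trans hj⟩
  pot a w h := Zi.pot h
  inj a w h := by
    intro i hi i' hi' he
    obtain ⟨i0, rfl, h1, -⟩ := Zi.ord h hi
    obtain ⟨i0', rfl, h1', -⟩ := Zi.ord h hi'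
    congr 1
    exact Subtype.ext (M0.inj a w h h1 h1' he)
  act a w h i hi := by
    obtain ⟨i0, rfl, h1, -⟩ := Zi.ord h hi
    exact M0.act a w h i0.1 h1
  tile a w h i hi := by
    obtain ⟨i0, rfl, h1, -⟩ := Zi.ord h hi
    exact M0.tile a w h i0.1 h1
  tedge a w h i hi e he := by
    obtain ⟨i0, rfl, h1, h2⟩ := Zi.ord h hi
    obtain ⟨e0, he0, hee⟩ := Zi.edge_old h h2 he
    have h3 := M0.tedge a w h i0.1 h1 e0 he0
    rw [sgm_edg, hee] at h3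
    rw [sgm_edg]
    refine h3.trans ?_
    intro y hy
    obtain ⟨j, hj, hyj⟩ := mem_iUnion₂.1 hy
    exact mem_iUnion₂.2 ⟨Sum.inl j, Finset.mem_map.2 ⟨j, hj, rfl⟩, hyj⟩
  frn a w h i hi := by
    obtain ⟨i0, rfl, h1, -⟩ := Zi.ord h hi
    exact M0.frn a w h i0.1 h1
  shp a w h i hi := by
    obtain ⟨i0, rfl, h1, h2⟩ := Zi.ord h hi
    have h3 := M0.shp a w h i0.1 h1
    have h4 : Cfg (Zi.T h) (Sum.inl i0) = Cfg (M0.md a w h).T i0.1 :=
      cfg_off (Zi.Z a w h) Zi.F h2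
    show (fun K => (M0.md a w h).fr i0.1 '' K) '' Cfg (Zi.T h) (Sum.inl i0) ∈ _
    rw [h4]
    exact h3

theorem mf_A : Zi.mf.A = M0.A := rfl
theorem mf_W : Zi.mf.W = M0.W := rfl
theorem mf_Bx : Zi.mf.Bx = M0.Bx := rfl
theorem mf_md : Zi.mf.md a w h = Zi.dec h := rfl

/-- **the energies of the classes do not change** -/
theorem mf_EnC (G : E3 → E3 → ℝ≥0∞) (p : ℝ) (k : M0.κ) (s : E3) :
    Zi.mf.EnC G p k s = M0.EnC G p k s := by
  unfold MF.EnC EnA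
  refine tsum_congr fun t => ?_
  congr 1
  funext b
  congr 2
  congr 1
  show ∑ j ∈ (M0.Ed t.1).map ⟨Sum.inl, Sum.inl_injective⟩, _ = _
  rw [Finset.sum_map]
  rfl

/-! ### the zones of the patched mesh -/

theorem zoneFam : ZoneFam (Zi.dec h).T Zi.x Zi.R Zi.k (fun c => Zi.wz c a) Zi.Zc Zi.H
    (fun c => Zi.en h c) ((Zi.dec h).ct '' X) := by
  have hZ := Zi.Z a w h
  have hsub : ∀ c, closedBall (Zi.x c) (Zi.R c) ⊆ closedBall (Zi.x c) (2 * Zi.R c) := fun c =>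
    closedBall_subset_closedBall (by have := hZ.R0 c; linarith)
  refine
    { pos := hZ.R0
      sub := fun c => (hsub c).trans (hZ.sub c)
      disj := fun c c' hcc => (hZ.dis c c' hcc).mono (hsub c) (hsub c')
      lf := ?_
      scale := hZ.sm
      zone := fun c => tmesh_zone hZ Zi.F c (by have := hZ.R0 c; linarith)
      w0 := hZ.w01
      zc := Zi.F.inb
      repl := Zi.F.rep
      kt := ?_ }
  · intro y hy
    obtain ⟨r, hr, hf⟩ := hZ.lf y hy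
    refine ⟨ball y r, ball_mem_nhds y hr, hf.subset ?_⟩
    rintro c ⟨u, hu, hu2⟩
    exact ⟨u, hsub c hu, hu2⟩
  · rintro _ ⟨c, hc, rfl⟩ c'
    show Disjoint (P ((Zi.T h).H (Zi.ct h c))) _
    rw [Zi.ct_of h hc]
    exact Zi.core_off a w h c hc c'

/-- **the geometry of the rings** -/
theorem geo : Geo (Zi.dec h).T ((Zi.dec h).ct '' X) {i | ∃ c, c ∉ X ∧ i ∈ (Zi.dec h).V c} Zi.x
    (fun c => 5 / 8 * Zi.R c) (fun c => 7 / 8 * Zi.R c) 1 := by
  have h1 := (Zi.zoneFam h).geo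
  have h2 : {i | ∃ c, c ∉ X ∧ i ∈ (Zi.dec h).V c} =
      {i | ∃ c, i ∈ VZ (Zi.dec h).T Zi.x Zi.R c} := by
    ext i
    constructor
    · rintro ⟨c, hc, hi⟩
      rw [Zi.dec_V_not h hc] at hi
      exact ⟨⟨c, hc⟩, hi⟩
    · rintro ⟨c, hi⟩
      refine ⟨c.1, c.2, ?_⟩
      rw [Zi.dec_V_not h c.2]
      exact hi
  rw [h2]
  exact h1

end ZIn

end

end Crest.Agent.R96.Zpatch_348
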