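import Crest.Agent.R96.Eam2_466
import Crest.Agent.R096.Tms2_582
import Crest.Agent.R096.Ls4_222

/-!
# R96, [MIX] of 348 #11024 (helper466): `Mok` minus words for 582's patched tiling `tmesh`

`T0` = the base mesh (exact cores on `X`), `Z : Zones T0 x R k w` (index type `{c // c ∉ X}`), local
families `LF`.

* `exact_congr` : `Exact` sees only the polytope of the core tile;
* `zoneFam_tmesh` : 747's `ZoneFam` for `tmesh`;
* `core_zone_disj` : core tiles miss the macro balls;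
* `FineX T0 ..` : what is asked from the base mesh: all tiles which are not core tiles and miss the half
  balls are fine;
* **`mix_tmesh`** : `Cores` and `Fine` for `tmesh`, any decoration which is `{ct c}` on `X` and the one
  of `TLAt` off `X`;
* **`geo_tmesh`** : 348's `Geo`;
* **`words_tmesh`** : `Words` for `tmesh` from `Words` for the base mesh;
* `RegS`, `regV_of`, `regV_of_edg` : `RegV` from regularity of all closed 1-cells.
-/

set_option autoImplicit false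
set_option linter.style.longLine false
set_option linter.unusedSectionVars false

open MeasureTheory Set Filter Topology Metric

namespace Crest.Agent.R96.Eam_466

open Crest.Agent.R096.Bsp_628 Crest.Agent.R096.Brk1_582 Crest.Agent.R096.Brk3_582
open Crest.Agent.R096.Brk5_582
open Crest.Agent.R096.Msh_715
open Crest.Agent.R096.Msh_810 (Cu)
open Crest.Agent.R96.Push_899
open Crest.Agent.R096.SkC1_961 (E3 Hom3 IsPush FoamD)
open Crest.Agent.R096.Mbf_337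
open Crest.Agent.R096.Fns_360
open Crest.Agent.R096.Tms_582
open Crest.Agent.R096.Eab_747 (ZoneFam VZ)
open Crest.Agent.R96.EaPost_348 (Geo)

noncomputable section

variable {δ κ0 Rc c0 : ℝ} {La Om : Set E3}

/-- `Exact` sees only the polytope of the core tile -/
theorem exact_congr {ι ι' : Type} {Φ : FoamD δ κ0 Rc c0 La} {T : Tiling Om ι} {T' : Tiling Om ι'}
    {f : E3 → E3} {κ1 κ2 : ℝ} {c : Φ.F} {i : ι} {i' : ι'} {A : E3 ≃ᵃ[ℝ] E3} {lam : ℝ} {z : E3}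
    (h : P (T'.H i') = P (T.H i)) (hE : Exact Φ T f κ1 κ2 c i A lam z) :
    Exact Φ T' f κ1 κ2 c i' A lam z where
  lam0 := hE.lam0
  lam1 := hE.lam1
  box_in := hE.box_in
  hole := hE.hole
  ray := hE.ray
  tile := h.trans hE.tile
  nbd := by rw [h]; exact hE.nbd
  inside := by rw [h]; exact hE.inside
  miss := by rw [h]; exact hE.miss

/-! ### the zones -/

section zones

variable {ι0 : Type} {T0 : Tiling Om ι0} {𝒞 : Type} {x : 𝒞 → E3} {R : 𝒞 → ℝ} {k : 𝒞 → ℕ}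
  {w : 𝒞 → E3} {Zc : 𝒞 → Finset (Fin 3 → ℤ)} {κ : 𝒞 → Type}
  {H : ∀ c, κ c → Finset ((E3 →L[ℝ] ℝ) × ℝ)}

/-- 747's `ZoneFam` for 582's patched tiling -/
theorem zoneFam_tmesh (Z : Zones T0 x R k w) (F : LocF x R k Zc H)
    {Kt : Set ({i // i ∉ Ar T0 k w Zc} ⊕ Σ c, κ c)}
    (hkt : ∀ i ∈ Kt, ∀ c, Disjoint (P ((tmesh Z F).H i)) (closedBall (x c) (R c))) :
    ZoneFam (tmesh Z F) x R k w Zc H (fun c => en T0 k w Zc c) Kt where
  pos := Z.R0
  sub c := (closedBall_subset_closedBall (by have := Z.R0 c; linarith)).trans (Z.sub c)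
  disj c c' h := (Z.dis c c' h).mono
    (closedBall_subset_closedBall (by have := Z.R0 c; linarith))
    (closedBall_subset_closedBall (by have := Z.R0 c'; linarith))
  lf y hy := by
    obtain ⟨r, hr, hf⟩ := Z.lf y hy
    refine ⟨ball y r, ball_mem_nhds _ hr, hf.subset ?_⟩
    rintro c ⟨u, hu, hub⟩
    exact ⟨u, closedBall_subset_closedBall (by have := Z.R0 c; linarith) hu, hub⟩
  scale := Z.sm
  zone c := tmesh_zone Z F c (by have := Z.R0 c; linarith)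
  w0 := Z.w01
  zc := F.inb
  repl := F.rep
  kt := hkt

/-- the replaced tiles lie in the half balls -/
theorem Ar_sub (Z : Zones T0 x R k w) (F : LocF x R k Zc H) {i : ι0} (hi : i ∈ Ar T0 k w Zc) :
    ∃ c, P (T0.H i) ⊆ ball (x c) (R c / 2) := by
  obtain ⟨c, z, hz, h⟩ := hi
  exact ⟨c, by rw [h, P_Hc_idE]; exact cube_in Z F hz⟩

/-- a base tile which misses the half balls is a tile of the new tiling -/
theorem not_Ar (Z : Zones T0 x R k w) (F : LocF x R k Zc H) {i : ι0}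
    (hi : ∀ c, Disjoint (P (T0.H i)) (closedBall (x c) (R c / 2))) : i ∉ Ar T0 k w Zc := by
  intro h
  obtain ⟨c, hc⟩ := Ar_sub Z F h
  obtain ⟨y, hy⟩ := T0.ne i
  have hy' := I_sub_P _ hy
  exact Set.disjoint_left.1 (hi c) hy' (ball_subset_closedBall (hc hy'))

end zones

/-! ### regularity on the edges -/

/-- all Lipschitz functions of `f` have finite level sets on the set `S`, for almost all levels -/
def RegS (f : E3 → E3) (S : Set E3) : Prop :=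
  ∀ ℓ : E3 → ℝ, (∃ k, LipschitzWith k ℓ) → ∀ᵐ t : ℝ, {y ∈ S | ℓ (f y) = t}.Finite

theorem RegS.mono {f : E3 → E3} {S S' : Set E3} (h : RegS f S) (hS : S' ⊆ S) : RegS f S' := by
  intro ℓ hℓ
  filter_upwards [h ℓ hℓ] with t ht
  exact ht.subset fun y hy => ⟨hS hy.1, hy.2⟩

/-- `RegV` from the regularity of all closed 1-cells -/
theorem regV_of {ι : Type} {T : Tiling Om ι} {f : E3 → E3}
    (h : ∀ x ∈ Om, T.dim x = 1 → RegS f (T.cc x)) (V : Set ι) : RegV T f V := by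
  intro x hx hd ℓ hℓ
  obtain ⟨i, hi, hxi⟩ := mem_iUnion₂.1 hx
  exact h x (T.sub i hxi) hd ℓ hℓ

/-- the form with the edges of 222 -/
theorem regV_of_edg {ι : Type} {T : Tiling Om ι} {f : E3 → E3}
    (h : ∀ e : Crest.Agent.R096.Ls_222.Edg T, RegS f e.1) (V : Set ι) : RegV T f V :=
  regV_of (fun x hx hd => h ⟨T.cc x, x, hx, hd, rfl⟩) V

/-! ### the mixed mesh -/

section mix

variable {ι0 : Type} {Φ : FoamD δ κ0 Rc c0 La} {T0 : Tiling Om ι0} {f : E3 → E3} {κ1 κ2 : ℝ}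
  {X : Set Φ.F} {ct0 : Φ.F → ι0} {A : Φ.F → E3 ≃ᵃ[ℝ] E3} {lam : Φ.F → ℝ} {z : Φ.F → E3}
  {x : {c // c ∉ X} → E3} {R : {c // c ∉ X} → ℝ} {k : {c // c ∉ X} → ℕ} {w : {c // c ∉ X} → E3}
  {Zc : {c // c ∉ X} → Finset (Fin 3 → ℤ)} {κ : {c // c ∉ X} → Type}
  {H : ∀ c, κ c → Finset ((E3 →L[ℝ] ℝ) × ℝ)}

/-- **what is asked from the base mesh**: every tile which is not a core tile and misses the half balls
of the zones is fine -/
def FineX (Φ : FoamD δ κ0 Rc c0 La) (T0 : Tiling Om ι0) (f : E3 → E3) (κ1 : ℝ) (X : Set Φ.F)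
    (ct0 : Φ.F → ι0) (x : {c // c ∉ X} → E3) (R : {c // c ∉ X} → ℝ) : Prop :=
  ∀ i, (∀ c ∈ X, i ≠ ct0 c) → (∀ c, Disjoint (P (T0.H i)) (closedBall (x c) (R c / 2))) →
    FineT Φ T0 f κ1 i

/-- the macro balls are mapped into their bricks -/
def InB (Φ : FoamD δ κ0 Rc c0 La) (f : E3 → E3) (X : Set Φ.F) (x : {c // c ∉ X} → E3)
    (R : {c // c ∉ X} → ℝ) : Prop :=
  ∀ c : {c // c ∉ X}, ∀ y ∈ closedBall (x c) (R c), ∀ j, c.1.1.lo j < f y j ∧ f y j < c.1.1.hi j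

/-- the local families from the data of the tiny cores -/
theorem locF_of_tl {j0 j1 : ∀ c, Set (κ c)} {θ0 : {c // c ∉ X} → E3 → E3}
    {φ0 : {c // c ∉ X} → E3 → ℝ}
    (htl : ∀ c, TLAt Φ Om f κ1 c.1 (x c) (R c) (k c) (Zc c) (H c) (j0 c) (j1 c) (θ0 c) (φ0 c)) :
    LocF x R k Zc H where
  rep c := (htl c).1
  inb c := (htl c).2.1

/-- core tiles miss the macro balls -/
theorem core_zone_disj (hex : ∀ c ∈ X, Exact Φ T0 f κ1 κ2 c (ct0 c) (A c) (lam c) (z c))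
    (hB : InB Φ f X x R) {c : Φ.F} (hc : c ∈ X) (c' : {c // c ∉ X}) :
    Disjoint (P (T0.H (ct0 c))) (closedBall (x c') (R c')) := by
  rw [Set.disjoint_left]
  intro y hy hy'
  exact brick_disj Φ (c := c) (c' := c'.1) (fun e => c'.2 (by rw [← e]; exact hc))
    ((hex c hc).inside y hy) (hB c' y hy')

theorem tmesh_hsub {ι1 : Type} {T1 : Tiling Om ι1} {i1 : ι1} {i0 : ι0} (h : T1.H i1 = T0.H i0)
    (hF : FineT Φ T0 f κ1 i0) : FineT Φ T1 f κ1 i1 := by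
  unfold FineT at *
  rw [h]
  exact hF

/-- **[MIX]: `Cores` and `Fine` for `tmesh`.** -/
theorem mix_tmesh (Z : Zones T0 x R k w) (LF : LocF x R k Zc H)
    (hex : ∀ c ∈ X, Exact Φ T0 f κ1 κ2 c (ct0 c) (A c) (lam c) (z c))
    (hF : FineX Φ T0 f κ1 X ct0 x R)
    {j0 j1 : ∀ c, Set (κ c)} {θ0 : {c // c ∉ X} → E3 → E3} {φ0 : {c // c ∉ X} → E3 → ℝ}
    (htl : ∀ c, TLAt Φ Om f κ1 c.1 (x c) (R c) (k c) (Zc c) (H c) (j0 c) (j1 c) (θ0 c) (φ0 c))
    (hreg : ∀ c, RegV (tmesh Z LF) f (Vc (tmesh Z LF) x R c))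
    (hx₀ : ∀ c, ∃ i, x c ∈ I ((tmesh Z LF).H i))
    {J0 J V : Φ.F → Set ({i // i ∉ Ar T0 k w Zc} ⊕ Σ c, κ c)}
    {ct : Φ.F → {i // i ∉ Ar T0 k w Zc} ⊕ Σ c, κ c} {θ : Φ.F → E3 → E3} {φ : Φ.F → E3 → ℝ}
    (hct : ∀ c ∈ X, (tmesh Z LF).H (ct c) = T0.H (ct0 c))
    (hJX : ∀ c ∈ X, J0 c = {ct c} ∧ J c = {ct c} ∧ V c = {ct c})
    (hJ : ∀ c : {c // c ∉ X}, J0 c.1 = en T0 k w Zc c '' j0 c ∧ J c.1 = en T0 k w Zc c '' j1 c ∧
      V c.1 = Vc (tmesh Z LF) x R c)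
    (hθ : ∀ c : {c // c ∉ X}, θ c.1 = (fun y => θ0 c (y - w c)) ∧
      φ c.1 = fun y => φ0 c (y - w c)) :
    Cores Φ (tmesh Z LF) f κ1 κ2 X J0 J V ct A lam z θ φ ∧ Fine Φ (tmesh Z LF) f κ1 J0 := by
  have hzf : ZoneFam (tmesh Z LF) x R k w Zc H (fun c => en T0 k w Zc c) ∅ :=
    zoneFam_tmesh Z LF (fun i hi => absurd hi (notMem_empty i))
  have hT : ∀ c : {c // c ∉ X}, Tiny Φ (tmesh Z LF) f κ1 c.1 (J0 c.1) (J c.1) (V c.1) (θ c.1)
      (φ c.1) ∧ ∀ i ∈ V c.1, i ∉ J0 c.1 → FineT Φ (tmesh Z LF) f κ1 i := by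
    intro c
    have h1 := (htl c).2.2 (w c) (fun i => Z.w01 c i) _ (tmesh Z LF) (en T0 k w Zc c)
      (tmesh_zone Z LF c (by have := Z.R0 c; linarith)) (Vc (tmesh Z LF) x R c) (hzf.e_mem c)
      (hzf.V_sub c) (fun i hi => hi) (hreg c) (hx₀ c)
    rw [(hJ c).1, (hJ c).2.1, (hJ c).2.2, (hθ c).1, (hθ c).2]
    exact h1
  have hE : ∀ c ∈ X, Exact Φ (tmesh Z LF) f κ1 κ2 c (ct c) (A c) (lam c) (z c) := fun c hc =>
    exact_congr (by rw [hct c hc]) (hex c hc)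
  refine ⟨cores_mix hJX hE fun c hc => (hT ⟨c, hc⟩).1, fine_of_tiles fun i hi => ?_⟩
  by_cases hV : ∃ c, i ∈ V c
  · obtain ⟨c, hc⟩ := hV
    by_cases hX : c ∈ X
    · have h1 := hi c
      rw [(hJX c hX).1] at h1
      rw [(hJX c hX).2.2] at hc
      exact absurd hc h1
    · exact (hT ⟨c, hX⟩).2 i hc (hi c)
  · push Not at hV
    obtain ⟨i0, rfl, hi0⟩ := off_zones Z LF (i := i) fun c => by
      rw [← (hJ c).2.2]; exact hV c.1
    refine tmesh_hsub (tmesh_inl Z LF i0) (hF i0.1 (fun c hc e => ?_) hi0)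
    -- a tile with the polytope of a core tile is the core tile
    have h1 : ct c ≠ Sum.inl i0 := fun e' => hV c (by rw [(hJX c hc).2.2, ← e']; rfl)
    have h2 := (tmesh Z LF).dis _ _ h1
    rw [hct c hc, tmesh_inl, ← e, disjoint_self] at h2
    obtain ⟨y, hy⟩ := T0.ne i0.1
    rw [h2] at hy
    exact hy

/-- **348's `Geo` for the patched tiling** -/
theorem geo_tmesh (Z : Zones T0 x R k w) (LF : LocF x R k Zc H)
    (hex : ∀ c ∈ X, Exact Φ T0 f κ1 κ2 c (ct0 c) (A c) (lam c) (z c)) (hB : InB Φ f X x R)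
    {V : Φ.F → Set ({i // i ∉ Ar T0 k w Zc} ⊕ Σ c, κ c)}
    {ct : Φ.F → {i // i ∉ Ar T0 k w Zc} ⊕ Σ c, κ c}
    (hct : ∀ c ∈ X, (tmesh Z LF).H (ct c) = T0.H (ct0 c))
    (hV : ∀ c : {c // c ∉ X}, V c.1 = Vc (tmesh Z LF) x R c) :
    Geo (tmesh Z LF) (ct '' X) {i | ∃ c, c ∉ X ∧ i ∈ V c} x (fun c => 5 / 8 * R c)
      (fun c => 7 / 8 * R c) 1 := by
  have hzf : ZoneFam (tmesh Z LF) x R k w Zc H (fun c => en T0 k w Zc c) (ct '' X) := by
    refine zoneFam_tmesh Z LF ?_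
    rintro _ ⟨c, hc, rfl⟩ c'
    rw [hct c hc]
    exact core_zone_disj hex hB hc c'
  have h := hzf.geo
  have e : {i | ∃ c, c ∉ X ∧ i ∈ V c} = {i | ∃ c, i ∈ VZ (tmesh Z LF) x R c} := by
    ext i
    constructor
    · rintro ⟨c, hc, hi⟩
      rw [hV ⟨c, hc⟩] at hi
      exact ⟨⟨c, hc⟩, hi⟩
    · rintro ⟨c, hi⟩
      refine ⟨c.1, c.2, ?_⟩
      rw [hV c]
      exact hi
  rw [e]
  exact h

/-- **`Words` of the base mesh ⟹ `Words` of the patched mesh** (the core tiles miss the zones) -/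
theorem words_tmesh (Z : Zones T0 x R k w) (LF : LocF x R k Zc H)
    (hex : ∀ c ∈ X, Exact Φ T0 f κ1 κ2 c (ct0 c) (A c) (lam c) (z c)) (hB : InB Φ f X x R)
    {ct : Φ.F → {i // i ∉ Ar T0 k w Zc} ⊕ Σ c, κ c}
    (hct : ∀ c ∈ X, (tmesh Z LF).H (ct c) = T0.H (ct0 c)) {M : Φ.F → ℕ} {L : Φ.F → Finset ℝ}
    (hW : Words Φ T0 f X ct0 A lam z M L) : Words Φ (tmesh Z LF) f X ct A lam z M L := by
  have hoff : ∀ c ∈ X, ∀ y ∈ P (T0.H (ct0 c)), (tmesh Z LF).cc y = T0.cc y ∧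
      (tmesh Z LF).dim y = T0.dim y := by
    intro c hc y hy
    have h1 : ∀ c' : {c // c ∉ X}, y ∉ ball (x c') (R c' / 2) := fun c' hy' =>
      Set.disjoint_left.1 (core_zone_disj hex hB hc c') hy
        (closedBall_subset_closedBall (by have := Z.R0 c'; linarith) (ball_subset_closedBall hy'))
    exact ⟨(cells_off Z LF h1).1, dim_off Z LF h1⟩
  refine ⟨fun c hc => ⟨(hW.grid c hc).1, fun y hy hyI => ?_⟩, fun c hc y hy hd => ?_,
    fun c hc y hy hd => ?_⟩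
  · rw [hct c hc] at hy hyI ⊢
    rw [(hoff c hc y hy).1, (hoff c hc y hy).2]
    exact (hW.grid c hc).2 y hy hyI
  · rw [hct c hc] at hy
    rw [(hoff c hc y hy).2] at hd
    rw [(hoff c hc y hy).1]
    exact hW.word c hc y hy hd
  · rw [hct c hc] at hy
    rw [(hoff c hc y hy).2] at hd
    exact hW.sign c hc y hy hd

end mix

end

end Crest.Agent.R96.Eam_466
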