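import Mathlib
import Crest.Agent.R96.Push24_899

/-!
# Row 96, U2 PUSH (helper899), part 25: `pushNO_T`: `Psi ∘ T ∘ S ∘ φ` (for `p ≥ 3`: `T` = the
hole-opening homeomorphism).
-/

set_option autoImplicit false
set_option linter.unusedSectionVars false
set_option linter.unusedVariables false

open MeasureTheory Set Filter Topology
open scoped NNReal ENNReal Function

noncomputable section

namespace Crest.Agent.R96.Push_899

open Crest.Agent.R96.Acl_392 Crest.Agent.R96.Sob1_199 Crest.Agent.R96.Sob2_199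
  Crest.Agent.R96.Sob3_199 Crest.Agent.R96.Sob4_199 Crest.Agent.R96.Sob5_199

variable {ι : Type*} [Fintype ι] [Nonempty ι] [DecidableEq ι]

variable {E : Type*} [NormedAddCommGroup E] [NormedSpace ℝ E] [FiniteDimensional ℝ E]
  [MeasurableSpace E] [BorelSpace E] {μ : Measure E} [μ.IsAddHaarMeasure]

theorem exists_pos_le {J : Type*} [Finite J] (f : J → ℝ) (hf : ∀ l, 0 < f l) :
    ∃ c : ℝ, 0 < c ∧ ∀ l, c ≤ f l := by
  rcases isEmpty_or_nonempty J with h | h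
  · exact ⟨1, one_pos, fun l => h.elim l⟩
  · obtain ⟨l₀, h0⟩ := Finite.exists_min f
    exact ⟨f l₀, hf l₀, h0⟩

/-- a positive real below a positive extended real -/
theorem exists_real_le {x : ℝ≥0∞} (hx : 0 < x) : ∃ r : ℝ, 0 < r ∧ ENNReal.ofReal r ≤ x := by
  have h1 : 0 < min x 1 := lt_min hx one_pos
  have h2 : min x 1 ≠ ⊤ := ((min_le_right _ _).trans_lt ENNReal.one_lt_top).ne
  refine ⟨(min x 1).toReal, ENNReal.toReal_pos h1.ne' h2, ?_⟩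
  rw [ENNReal.ofReal_toReal h2]
  exact min_le_left _ _

/-- `ε` of the stretch -/
def εT (a0 : ℝ) (m : ℕ) : ℝ := 1 / (8 * m) / (32 * a0 ^ 2)

/-- **pushNO with a map `T` after the stretch** (`p ≥ 1`, box holes). -/
theorem pushNO_T (k : ι) {a0 c₁ CT p : ℝ} (ha0 : 1 ≤ a0) (hc0 : 0 < c₁) (hc₁ : c₁ ≤ 1)
    (hCT : 1 ≤ CT) (hp : 1 ≤ p)
    {J : Type*} [Fintype J] (v : J → EE ι) (hv : ∀ l, v l k = 0) {d : ℝ≥0∞} (hd : 0 < d) :
    ∃ m : ℕ, 0 < m ∧ ∃ β : ℝ, 0 < β ∧ ∃ δ : ℝ≥0∞, 0 < δ ∧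
      ∀ (Ω : Set E) (Λ : Set (EE ι)) (φ : E → EE ι) (e : J → E) (D : J → E → EE ι),
        IsOpen Ω → Ω.Nonempty → μ Ω ≠ ⊤ → IsOpen Λ → ContinuousOn φ Ω → MapsTo φ Ω Λ →
        (∀ l, VWD Ω μ φ (D l) (e l)) →
        ∫⁻ x in Ω, ∑ l, ‖D l x - v l‖ₑ ^ p ∂μ ≤ δ * μ Ω →
      ∃ K₀ : Set (EE ι), IsCompact K₀ ∧ K₀ ⊆ Λ ∧ ∃ s₀ > 0, ∀ s, 0 < s → s < s₀ →
      ∀ b : ι → ℝ, ∃ a : ι → ℝ,
        (∀ i, ∃ j : ℕ, j < m ∧ a i = b i + j * (if i = k then s else s / 2) / m) ∧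
      ∃ S : EE ι ≃ₜ EE ι, IsStretch k Λ s S ∧
      ∃ X ⊆ Ω, MeasurableSet X ∧ μ X ≤ d * μ Ω ∧ (∀ x ∈ Ω \ X, φ x ∈ K₀) ∧
      ∃ e₀ : ℝ, 0 < e₀ ∧ ∀ T : EE ι → EE ι,
        (∀ y y', ‖T y - T y'‖ ≤ CT * ‖y - y'‖) → (∀ y ∈ Λ, T y ∈ Λ) → (∀ y, ‖T y - y‖ ≤ e₀) →
        (∀ y, (∃ y₀ ∈ K₀, ‖y - y₀‖ ≤ s) → (∃ N : ℤ, |y k - (a k + N * s)| ≤ s / 8) →
          ∀ᶠ y' in 𝓝 y, ‖T y' - T y‖ ≤ (1 + β) * ‖y' - y‖) →
      ∀ (I : Type) [Countable I] (Q : I → Box ι), Foam0 Λ Q →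
        (∀ c i j, (Q c).W i ≤ a0 * (Q c).W j) →
        (∀ c, (∃ y ∈ SE (Q c), ∃ y₀ ∈ K₀, ‖y - y₀‖ ≤ s) → Uni k a s (Q c)) →
      ∀ (z : I → ι → ℝ) (B : I → Box ι), (∀ c, z c ∈ Mid (Q c)) →
        (∀ c, Hole c₁ (Q c) (z c) (B c)) →
      (∀ x ∈ Ω \ X, ∀ c, T (S (φ x)) ∈ SE (Q c) →
        Lands k s (Q c) (φ x) (Psi Q (fun c => coreBF (Q c) (z c)) B (T (S (φ x))))) ∧
      ∀ (D' : J → E → EE ι),
        (∀ l, VWD (Ω ∩ (fun x => T (S (φ x))) ⁻¹' (Pun Λ B)) μ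
          (fun x => Psi Q (fun c => coreBF (Q c) (z c)) B (T (S (φ x)))) (D' l) (e l)) →
        ∫⁻ x in Ω ∩ (fun x => T (S (φ x))) ⁻¹' (Pun Λ B),
          ∑ l, ‖D' l x - v l‖ₑ ^ p ∂μ ≤ d * μ Ω := by
  have hp0 : 0 < p := by linarith
  have a0p : 0 < a0 := by linarith
  set n : ℝ := ((Fintype.card ι : ℕ) : ℝ) with hn
  have hn0 : 0 ≤ n := by rw [hn]; positivity
  set KK : ℝ≥0∞ := ENNReal.ofReal (Kge ι a0 c₁ ^ p) with hKKd
  have hKge : 0 ≤ Kge ι a0 c₁ := by unfold Kge; positivity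
  have hKK : KK ≠ ⊤ := ENNReal.ofReal_ne_top
  set V : ℝ≥0∞ := ∑ l, ‖v l‖ₑ ^ p with hV
  have hVt : V ≠ ⊤ := ENNReal.sum_ne_top.2 fun l _ =>
    ENNReal.rpow_ne_top_of_nonneg hp0.le enorm_ne_top
  set P2 : ℝ≥0∞ := ENNReal.ofReal ((2 * 1) ^ p) with hP2
  set R1 : ℝ≥0∞ := ENNReal.ofReal ((2 * (18 * a0 * n)) ^ p) with hR1
  set R2 : ℝ≥0∞ := R1 + P2 * (KK * P2) + 1 with hR2
  have hR2t : R2 ≠ ⊤ := ENNReal.add_ne_top.2 ⟨ENNReal.add_ne_top.2 ⟨ENNReal.ofReal_ne_top,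
      ENNReal.mul_ne_top ENNReal.ofReal_ne_top (ENNReal.mul_ne_top hKK ENNReal.ofReal_ne_top)⟩,
      ENNReal.one_ne_top⟩
  have hR20 : R2 ≠ 0 := by rw [hR2]; simp
  have hd2 : 0 < d / 2 := ENNReal.half_pos hd.ne'
  -- target for the rigidity
  obtain ⟨d₂, hd₂, hd₂le⟩ := exists_real_le (x := d / 2 / R2 / (Fintype.card J + 1))
    (ENNReal.div_pos (ENNReal.div_pos hd2.ne' hR2t).ne' (by
      exact ENNReal.add_ne_top.2 ⟨ENNReal.natCast_ne_top _, ENNReal.one_ne_top⟩))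
  have hrig := fun l => near_of_contr (μ := μ) (E := E) hp (v l) hCT hd₂
  choose βl hβl δl hδl Hl using hrig
  obtain ⟨β, hβ, hβle⟩ := exists_pos_le βl hβl
  obtain ⟨δc, hδc, hδcle⟩ := exists_pos_le δl hδl
  -- choice of `m`
  have hδc2 : 0 < ENNReal.ofReal δc / 2 := ENNReal.half_pos (by simpa using hδc)
  set c5 : ℝ≥0∞ := ENNReal.ofReal ((2 * (2 * n + 1)) ^ p) with hc5
  set Acard : ℝ≥0∞ := 1 + Fintype.card ι with hAcard
  have hAct : Acard ≠ ⊤ := ENNReal.add_ne_top.2 ⟨ENNReal.one_ne_top, ENNReal.natCast_ne_top _⟩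
  set A1 : ℝ≥0∞ := (P2 * (KK * P2) + P2) * V * Acard with hA1
  set A2 : ℝ≥0∞ := c5 * V * Acard with hA2
  have hA1t : A1 ≠ ⊤ := ENNReal.mul_ne_top (ENNReal.mul_ne_top (ENNReal.add_ne_top.2
    ⟨ENNReal.mul_ne_top ENNReal.ofReal_ne_top (ENNReal.mul_ne_top hKK ENNReal.ofReal_ne_top),
      ENNReal.ofReal_ne_top⟩) hVt) hAct
  have hA2t : A2 ≠ ⊤ := ENNReal.mul_ne_top (ENNReal.mul_ne_top ENNReal.ofReal_ne_top hVt) hAct
  set A3 : ℝ≥0∞ := A1 + Acard + A2 with hA3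
  have hA3t : A3 ≠ ⊤ := ENNReal.add_ne_top.2 ⟨ENNReal.add_ne_top.2 ⟨hA1t, hAct⟩, hA2t⟩
  obtain ⟨m, hm, hmd⟩ := exists_m hn0 hp0 hVt hA3t (lt_min hd2 hδc2)
  have hm' : (0:ℝ) < m := by exact_mod_cast hm
  have hm1 : (1:ℝ) ≤ m := by exact_mod_cast hm
  have hA3m : A3 / m ≤ min (d / 2) (ENNReal.ofReal δc / 2) := le_trans le_add_self hmd
  have hmd1 : ENNReal.ofReal ((2 * (2 * n * (1 / (8 * m)))) ^ p) * V + A1 / m ≤ d / 2 := by
    refine le_trans (add_le_add le_rfl ?_) (hmd.trans (min_le_left _ _))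
    exact ENNReal.div_le_div_right (le_self_add.trans le_self_add) _
  have hAm : Acard / m ≤ min (d / 2) (ENNReal.ofReal δc / 2) :=
    (ENNReal.div_le_div_right (le_add_self.trans le_self_add) _).trans hA3m
  have hA2m : A2 / m ≤ ENNReal.ofReal δc / 2 :=
    (ENNReal.div_le_div_right le_add_self _).trans (hA3m.trans (min_le_right _ _))
  -- parameters of the stretch
  have hη : 0 < ηm m := by unfold ηm; positivity
  have hη1 : ηm m ≤ 1 / 2 := by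
    unfold ηm; rw [div_le_div_iff₀ (by positivity) (by norm_num)]; linarith
  have hε : 0 < εT a0 m := by unfold εT; positivity
  have hεη : εT a0 m ≤ ηm m / (32 * a0 ^ 2) := le_of_eq rfl
  have hε1 : εT a0 m < 1 := by
    refine lt_of_le_of_lt hεη ?_
    rw [div_lt_one (by positivity)]
    nlinarith
  set c4 : ℝ≥0∞ := 1 + ENNReal.ofReal ((2 * (2 * n + 1 / (2 * wm m))) ^ p) with hc4
  have hc4t : c4 ≠ ⊤ := ENNReal.add_ne_top.2 ⟨ENNReal.one_ne_top, ENNReal.ofReal_ne_top⟩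
  have hc40 : c4 ≠ 0 := by rw [hc4]; simp
  refine ⟨m, hm, β, hβ, ENNReal.ofReal δc / 2 / c4, ENNReal.div_pos hδc2.ne' hc4t, ?_⟩
  intro Ω Λ φ e D hΩ hΩne hΩf hΛ hφ hmaps hD hδ
  have hΩ0 : μ Ω ≠ 0 := (hΩ.measure_pos μ hΩne).ne'
  obtain ⟨K₀, hK, hne, hKΛ, r, hr, hrΛ, s₀, hs₀, H1⟩ :=
    stretch_setup (μ := μ) k hm hε hε1 hΩ hΩne hΩf hΛ hφ hmaps
  refine ⟨K₀, hK, hKΛ, s₀, hs₀, ?_⟩
  intro s hs hss b
  obtain ⟨hStP, H2⟩ := H1 s hs hss
  obtain ⟨a, ha, hXm⟩ := H2 b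
  obtain ⟨S, hS, hSe⟩ := isStretch_of (k := k) (a := a k) hr hK hrΛ hne hStP
  have mG : MeasurableSet (GX K₀ k a s (wm m) (ηm m)) :=
    measurableSet_GX hK.measurableSet k a hStP.hs hStP.hw hStP.hw1
  set X : Set E := Ω ∩ φ ⁻¹' (GX K₀ k a s (wm m) (ηm m))ᶜ with hX
  have mX : MeasurableSet X := measurableSet_inter_preimage hΩ.measurableSet hφ mG.compl
  have hXle : μ X ≤ Acard / m * μ Ω := hXm.trans (le_of_eq (by
    rw [hAcard, div_eq_mul_inv, div_eq_mul_inv]; ring))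
  have hgoodG : ∀ x ∈ Ω \ X, φ x ∈ GX K₀ k a s (wm m) (ηm m) := by
    rintro x ⟨hx, hx2⟩
    by_contra hcon
    exact hx2 ⟨hx, hcon⟩
  refine ⟨a, ha, S, hS, X, inter_subset_left, mX, ?_, fun x hx => (hgoodG x hx).1, ?_⟩
  · refine hXle.trans (mul_le_mul' (hAm.trans ((min_le_left _ _).trans ENNReal.half_le_self)) le_rfl)
  -- the closeness for the rigidity
  have he := fun l => Hl l Ω hΩ hΩf hΩne (e l)
  choose el hel Hel using he
  obtain ⟨e₁, he₁, he₁le⟩ := exists_pos_le el hel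
  refine ⟨min e₁ (εT a0 m * s / 2), lt_min he₁ (by positivity), ?_⟩
  intro T hTL hTΛ hTn hTβ I _ Q hF hA hU z B hz hB
  have hSc : Continuous S := S.continuous
  have hφ₁ : ContinuousOn (fun x => S (φ x)) Ω := hSc.comp_continuousOn hφ
  have hTlip : LipschitzWith (Real.toNNReal CT) T := by
    apply LipschitzWith.of_dist_le_mul
    intro y y'
    rw [dist_eq_norm, dist_eq_norm, Real.coe_toNNReal _ (by linarith)]
    exact hTL y y'
  have hφ₂ : ContinuousOn (fun x => T (S (φ x))) Ω := hTlip.continuous.comp_continuousOn hφ₁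
  have hFC := foamHole ha0 hF hA hz hB
  have hpt : ∀ x ∈ Ω \ X, ∀ c, T (S (φ x)) ∈ SE (Q c) →
      Hor (Q c) (coreBF (Q c) (z c)) k (1 - (ηm m / 2) / a0) (co (T (S (φ x)))) ∧
      Lands k s (Q c) (φ x) (Psi Q (fun c => coreBF (Q c) (z c)) B (T (S (φ x)))) := by
    intro x hx c hc
    refine good_ptT ha0 hFC hA hStP (fun y hy => (cutf_near hr hy).self_of_nhds) hU hη hη1 hεη
      (hgoodG x hx) ?_ hc
    rw [← hSe]
    exact (hTn _).trans (min_le_right _ _)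
  refine ⟨fun x hx c hc => (hpt x hx c hc).2, ?_⟩
  intro D' hD'
  -- weak derivatives of `S ∘ φ` and `T ∘ S ∘ φ`
  have hex : ∀ l, ∃ D₁, VWD Ω μ (fun x => S (φ x)) D₁ (e l) := by
    intro l
    rw [hSe]
    exact St_wd (k := k) (a := a k) hStP.hs hStP.hw hStP.hw1 hStP.hε.le hStP.hε1.le hStP.χ0
      hStP.χ1 hStP.hL hStP.hL0 hΩ hφ (hD l)
  choose D₁ hD₁ using hex
  have hex2 : ∀ l, ∃ D₂, VWD Ω μ (fun x => T (S (φ x))) D₂ (e l) := fun l =>
    comp_exists hΩ (hD₁ l) hφ₁ (S := univ) (fun x _ => mem_univ _)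
      hTlip.locallyLipschitz.locallyLipschitzOn
  choose D₂ hD₂ using hex2
  -- bounds
  have hb1 : ∀ l, ∀ᵐ x ∂μ, x ∈ Ω → ‖D₂ l x‖ ≤ CT * ‖D₁ l x‖ := by
    intro l
    refine comp_bound hΩ (hD₁ l) hφ₁ (S := univ) (fun x _ => mem_univ _)
      hTlip.continuous.continuousOn (hD₂ l) aemeasurable_const ?_
    intro x hx ε' hε'
    refine Eventually.of_forall fun y => ?_
    refine (hTL y (S (φ x))).trans ?_
    gcongr
    linarith
  have hb2 : ∀ l, ∀ᵐ x ∂μ, x ∈ Ω → x ∉ X → ‖D₂ l x‖ ≤ (1 + β) * ‖D₁ l x‖ := by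
    intro l
    have hm2 : AEMeasurable (fun x => X.indicator (fun _ => CT) x +
        Xᶜ.indicator (fun _ => 1 + β) x) (μ.restrict Ω) :=
      ((measurable_const.indicator mX).add (measurable_const.indicator mX.compl)).aemeasurable
    have h1 := comp_bound hΩ (hD₁ l) hφ₁ (S := univ) (fun x _ => mem_univ _)
      hTlip.continuous.continuousOn (hD₂ l) hm2 (by
        intro x hx ε' hε'
        rw [nhdsWithin_univ]
        by_cases hxX : x ∈ X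
        · rw [indicator_of_mem hxX, indicator_of_notMem (by simpa using hxX), add_zero]
          refine Eventually.of_forall fun y => ?_
          refine (hTL y (S (φ x))).trans ?_
          gcongr
          linarith
        · rw [indicator_of_notMem hxX, indicator_of_mem (by simpa using hxX), zero_add]
          have hxG := hgoodG x ⟨hx, hxX⟩
          have hk := hTβ (S (φ x)) ⟨φ x, hxG.1, hS.near _⟩ (by
            obtain ⟨N, hN1, hN2⟩ := sg_off' (ε := εT a0 m) hStP.hs hStP.hw hStP.hw1 hStP.hε.le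
              hStP.hε1.le hxG.2.1
            refine ⟨N, ?_⟩
            have e1 : S (φ x) k = sg (a k) s (wm m) (εT a0 m) (φ x k) := by
              rw [hSe, St_k, (cutf_near hr hxG.1).self_of_nhds, one_mul, add_sub_cancel]
            rw [e1]
            refine hN2.trans ?_
            have h5 : εT a0 m ≤ 1 / 64 := by
              refine hεη.trans ?_
              rw [div_le_iff₀ (by positivity)]
              nlinarith
            nlinarith)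
          filter_upwards [hk] with y hy
          refine hy.trans ?_
          exact mul_le_mul_of_nonneg_right (by linarith) (norm_nonneg _))
    filter_upwards [h1] with x hx hxΩ hxX
    have h2 := hx hxΩ
    rwa [indicator_of_notMem hxX, indicator_of_mem (by simpa using hxX), zero_add] at h2
  -- `S ∘ φ` is close to `v`
  have hclose1 : ∫⁻ x in Ω, ∑ l, ‖D₁ l x - v l‖ₑ ^ p ∂μ ≤ ENNReal.ofReal δc * μ Ω := by
    have h1 := stretch_close (μ := μ) (η := ηm m) hp0.le hStP hK.measurableSet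
      (fun y hy => cutf_near hr hy) hΩ hφ hv hD (by rw [← hSe]; exact hD₁)
    refine h1.trans ?_
    rw [← hX, ← hn, ← hc4, ← hc5, ← hV]
    calc _ ≤ c4 * (ENNReal.ofReal δc / 2 / c4 * μ Ω) + c5 * V * (Acard / m * μ Ω) :=
          add_le_add (mul_le_mul' le_rfl hδ) (mul_le_mul' le_rfl hXle)
      _ = ENNReal.ofReal δc / 2 * μ Ω + A2 / m * μ Ω := by
          rw [← mul_assoc, ENNReal.mul_div_cancel hc40 hc4t, hA2]
          congr 1
          rw [div_eq_mul_inv, div_eq_mul_inv]; ring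
      _ ≤ ENNReal.ofReal δc / 2 * μ Ω + ENNReal.ofReal δc / 2 * μ Ω :=
          add_le_add le_rfl (mul_le_mul' hA2m le_rfl)
      _ = ENNReal.ofReal δc * μ Ω := by rw [← add_mul, ENNReal.add_halves]
  have hclose2 : ∀ l, ∫⁻ x in Ω, ‖D₂ l x - v l‖ₑ ^ p ∂μ ≤ ENNReal.ofReal d₂ * μ Ω := by
    intro l
    refine Hel l (fun x => S (φ x)) (fun x => T (S (φ x))) (D₁ l) (D₂ l) (hD₁ l) (hD₂ l)
      (fun x _ => (hTn _).trans ((min_le_left _ _).trans (he₁le l))) X mX ?_ (hb1 l) ?_ ?_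
    · have h2 : Ω ∩ X = X := inter_eq_right.2 inter_subset_left
      rw [h2]
      refine hXle.trans (mul_le_mul' (hAm.trans ((min_le_right _ _).trans ?_)) le_rfl)
      exact ENNReal.half_le_self.trans (ENNReal.ofReal_le_ofReal (hδcle l))
    · filter_upwards [hb2 l] with x hx h1 h2
      refine (hx h1 h2).trans ?_
      gcongr
      exact hβle l
    · refine le_trans ?_ (hclose1.trans (mul_le_mul' (ENNReal.ofReal_le_ofReal (hδcle l)) le_rfl))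
      apply lintegral_mono
      intro x
      exact Finset.single_le_sum (f := fun l => ‖D₁ l x - v l‖ₑ ^ p) (fun _ _ => zero_le)
        (Finset.mem_univ l)
  set G₂ : ℝ≥0∞ := ∫⁻ x in Ω, ∑ l, ‖D₂ l x - v l‖ₑ ^ p ∂μ with hG₂
  have hG₂le : R2 * G₂ ≤ d / 2 * μ Ω := by
    have h1 : G₂ ≤ (Fintype.card J) * (ENNReal.ofReal d₂ * μ Ω) := by
      have hmeas : ∀ l ∈ Finset.univ (α := J),
          AEMeasurable (fun x => ‖D₂ l x - v l‖ₑ ^ p) (μ.restrict Ω) := fun l _ =>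
        ((((hD₂ l).aemeas.sub aemeasurable_const).enorm).pow_const p)
      rw [hG₂, lintegral_finsetSum' _ hmeas]
      refine (Finset.sum_le_sum fun l _ => hclose2 l).trans (le_of_eq ?_)
      rw [Finset.sum_const, Finset.card_univ, nsmul_eq_mul]
    calc R2 * G₂ ≤ R2 * ((Fintype.card J) * (d / 2 / R2 / (Fintype.card J + 1) * μ Ω)) :=
          mul_le_mul' le_rfl (h1.trans (mul_le_mul' le_rfl (mul_le_mul' hd₂le le_rfl)))
      _ ≤ R2 * (((Fintype.card J) + 1) * (d / 2 / R2 / (Fintype.card J + 1) * μ Ω)) :=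
          mul_le_mul' le_rfl (mul_le_mul' le_self_add le_rfl)
      _ = d / 2 * μ Ω := by
          rw [← mul_assoc ((Fintype.card J : ℝ≥0∞) + 1), ENNReal.mul_div_cancel (by simp)
            (ENNReal.add_ne_top.2 ⟨ENNReal.natCast_ne_top _, ENNReal.one_ne_top⟩), ← mul_assoc,
            ENNReal.mul_div_cancel hR20 hR2t]
  -- the bounded factor
  have hO := hFC.isOpen_dom hΛ hΩ hφ₂
  have hbad : ∫⁻ x in X ∩ (Ω ∩ (fun x => T (S (φ x))) ⁻¹' (Pun Λ B)),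
      ∑ l, ‖D' l x‖ₑ ^ p ∂μ ≤ KK * ∫⁻ x in X ∩ Ω, ∑ l, ‖D₂ l x‖ₑ ^ p ∂μ := by
    rw [← lintegral_const_mul' _ _ hKK]
    have hsub : X ∩ (Ω ∩ (fun x => T (S (φ x))) ⁻¹' (Pun Λ B)) ⊆ X ∩ Ω :=
      fun x hx => ⟨hx.1, hx.2.1⟩
    refine le_trans ?_ (lintegral_mono_set hsub)
    apply lintegral_mono_ae
    refine (ae_restrict_iff' (mX.inter hO.measurableSet)).2 ?_
    have h1 : ∀ᵐ x ∂μ, ∀ l, x ∈ Ω ∩ (fun x => T (S (φ x))) ⁻¹' (Pun Λ B) →
        ‖D' l x‖ ≤ Kge ι a0 c₁ * ‖D₂ l x‖ := ae_all_iff.2 fun l =>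
      pushBF_ge ha0 hc₁ hΛ hF hA hz hc0 hB hΩ hφ₂ (hD₂ l) (hD' l)
    filter_upwards [h1] with x hx hx2
    rw [Finset.mul_sum]
    apply Finset.sum_le_sum
    intro l _
    rw [hKKd, ← ofReal_norm (D₂ l x), ENNReal.ofReal_rpow_of_nonneg (norm_nonneg _) hp0.le,
      ← ENNReal.ofReal_mul (by positivity), ← Real.mul_rpow hKge (norm_nonneg _)]
    exact enorm_rpow_le hp0.le (hx l hx2.2)
  have hgoodH : ∀ x ∈ Ω \ X, T (S (φ x)) ∈
      HorS Q (fun c => coreBF (Q c) (z c)) k (1 - (ηm m / 2) / a0) :=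
    fun x hx c hc => (hpt x hx c hc).1
  have key := push_close (μ := μ) (η := ηm m / 2) ha0 hp0.le hΛ hFC (by positivity) (by linarith)
    hΩ hφ₂ hv hD₂ hD' mX.nullMeasurableSet inter_subset_left hgoodH hbad
  refine key.trans ?_
  rw [← hn, ← hR1, ← hP2, ← hV, ← hG₂]
  have hη2 : ENNReal.ofReal ((2 * (2 * n * (ηm m / 2))) ^ p) ≤
      ENNReal.ofReal ((2 * (2 * n * (1 / (8 * m)))) ^ p) := by
    apply ENNReal.ofReal_le_ofReal
    apply Real.rpow_le_rpow (by positivity) _ hp0.le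
    have : ηm m = 1 / (8 * m) := rfl
    rw [this]
    have h8 : 0 ≤ n * (1 / (8 * (m:ℝ))) := by positivity
    linarith
  calc (R1 * G₂ + ENNReal.ofReal ((2 * (2 * n * (ηm m / 2))) ^ p) * V * μ Ω) +
        (P2 * (KK * (P2 * G₂ + P2 * V * μ X)) + P2 * V * μ X)
      = (R1 + P2 * (KK * P2)) * G₂ + (ENNReal.ofReal ((2 * (2 * n * (ηm m / 2))) ^ p) * V * μ Ω +
        (P2 * (KK * P2) + P2) * V * μ X) := by ring
    _ ≤ R2 * G₂ + (ENNReal.ofReal ((2 * (2 * n * (1 / (8 * m)))) ^ p) * V * μ Ω +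
        (P2 * (KK * P2) + P2) * V * (Acard / m * μ Ω)) := by
        gcongr
        exact le_self_add
    _ = R2 * G₂ + (ENNReal.ofReal ((2 * (2 * n * (1 / (8 * m)))) ^ p) * V + A1 / m) * μ Ω := by
        rw [hA1]; simp only [div_eq_mul_inv]; ring
    _ ≤ d / 2 * μ Ω + d / 2 * μ Ω := add_le_add hG₂le (mul_le_mul' hmd1 le_rfl)
    _ = d * μ Ω := by rw [← add_mul, ENNReal.add_halves]

end Crest.Agent.R96.Push_899
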