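import Mathlib
import Crest.Agent.R96.Push25_899
import Crest.Agent.R96.PnU1_849

/-!
# Row 96, helper849: `pushNO_U`, part 2: final estimate with an extra error, the compact sets, the
offsets for another map, transfer of the good set.
-/

set_option autoImplicit false
set_option linter.unusedSectionVars false
set_option linter.unusedVariables false

open MeasureTheory Set Filter Topology
open scoped NNReal ENNReal Function

noncomputable section

namespace Crest.Agent.R96.PnU_849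

open Crest.Agent.R96.Acl_392 Crest.Agent.R96.Sob1_199 Crest.Agent.R96.Sob2_199
  Crest.Agent.R96.Sob3_199 Crest.Agent.R96.Sob4_199 Crest.Agent.R96.Sob5_199
  Crest.Agent.R96.Push_899

variable {ι : Type*} [Fintype ι] [Nonempty ι] [DecidableEq ι]

variable {E : Type*} [NormedAddCommGroup E] [NormedSpace ℝ E] [FiniteDimensional ℝ E]
  [MeasurableSpace E] [BorelSpace E] {μ : Measure E} [μ.IsAddHaarMeasure]

variable {Λ : Set (EE ι)} {I : Type*} [Countable I] {Q C B : I → Box ι} {κ : I → ℝ}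

/-- **final estimate**, with an additional error `Er` on the bad set. -/
theorem push_closeU {a0 η p : ℝ} (ha0 : 1 ≤ a0) (hp : 0 ≤ p) (hΛ : IsOpen Λ)
    (h : FoamC Λ Q C B ∅ (1 / (8 * a0)) κ (fun c => side (Q c))) {k : ι}
    (hη : 0 < η) (hη1 : η ≤ 1 / 2) {Ω : Set E} (hΩ : IsOpen Ω) {f : E → EE ι}
    (hf : ContinuousOn f Ω) {J : Type*} [Fintype J] {e : J → E} {D₂ D' : J → E → EE ι}
    {v : J → EE ι} (hv : ∀ l, v l k = 0) (hD₂ : ∀ l, VWD Ω μ f (D₂ l) (e l))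
    (hD' : ∀ l, VWD (Ω ∩ f ⁻¹' (Pun Λ B)) μ (fun x => Psi Q C B (f x)) (D' l) (e l))
    {X : Set E} (hX : NullMeasurableSet X μ) (hXΩ : X ⊆ Ω)
    (hgood : ∀ x ∈ Ω \ X, f x ∈ HorS Q C k (1 - η / a0)) {KK Er : ℝ≥0∞}
    (hbad : ∫⁻ x in X ∩ (Ω ∩ f ⁻¹' (Pun Λ B)), ∑ l, ‖D' l x‖ₑ ^ p ∂μ ≤
      KK * ∫⁻ x in X ∩ Ω, ∑ l, ‖D₂ l x‖ₑ ^ p ∂μ + Er) :
    ∫⁻ x in Ω ∩ f ⁻¹' (Pun Λ B), ∑ l, ‖D' l x - v l‖ₑ ^ p ∂μ ≤
      (ENNReal.ofReal ((2 * (18 * a0 * Fintype.card ι)) ^ p) *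
          ∫⁻ x in Ω, ∑ l, ‖D₂ l x - v l‖ₑ ^ p ∂μ
        + ENNReal.ofReal ((2 * (2 * Fintype.card ι * η)) ^ p) * (∑ l, ‖v l‖ₑ ^ p) * μ Ω) +
      (ENNReal.ofReal ((2 * 1) ^ p) * (KK *
        (ENNReal.ofReal ((2 * 1) ^ p) * ∫⁻ x in Ω, ∑ l, ‖D₂ l x - v l‖ₑ ^ p ∂μ +
          ENNReal.ofReal ((2 * 1) ^ p) * (∑ l, ‖v l‖ₑ ^ p) * μ X) + Er) +
      ENNReal.ofReal ((2 * 1) ^ p) * (∑ l, ‖v l‖ₑ ^ p) * μ X) := by
  set n : ℝ := ((Fintype.card ι : ℕ) : ℝ) with hn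
  have hn0 : 0 ≤ n := by rw [hn]; positivity
  have a0p : 0 < a0 := by linarith
  set V : ℝ≥0∞ := ∑ l, ‖v l‖ₑ ^ p with hV
  set G : ℝ≥0∞ := ∫⁻ x in Ω, ∑ l, ‖D₂ l x - v l‖ₑ ^ p ∂μ with hG
  set U : Set E := Ω ∩ f ⁻¹' (Pun Λ B) with hUd
  have oU : IsOpen U := h.isOpen_dom hΛ hΩ hf
  have hUΩ : U ⊆ Ω := inter_subset_left
  have nmG : NullMeasurableSet (Ω \ X) μ := hΩ.measurableSet.nullMeasurableSet.diff hX
  have ht0 : 0 < 1 - η / a0 := by
    have : η / a0 ≤ η := div_le_self hη.le ha0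
    linarith
  have A2 : ∀ᵐ x ∂μ, ∀ l, x ∈ U → f x ∈ HorS Q C k (1 - η / a0) →
      (∀ i, i ≠ k → |D' l x i - D₂ l x i| ≤ (1 / (1 - η / a0) - 1) * |D₂ l x i| +
        1 / ((1 - η / a0) * (1 / (8 * a0))) * |D₂ l x k|) ∧
      |D' l x k| ≤ (1 / (1 - η / a0) * (1 + 1 / (1 / (8 * a0)))) * |D₂ l x k| :=
    ae_all_iff.2 fun l => h.bound_hor hΛ hΩ hf (hD₂ l) (hD' l) k ht0
  have good : ∫⁻ x in (Ω \ X) ∩ U, ∑ l, ‖D' l x - v l‖ₑ ^ p ∂μ ≤
      ENNReal.ofReal ((2 * (18 * a0 * n)) ^ p) * G +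
        ENNReal.ofReal ((2 * (2 * n * η)) ^ p) * V * μ Ω := by
    have hle : ∀ᵐ x ∂(μ.restrict ((Ω \ X) ∩ U)), ∑ l, ‖D' l x - v l‖ₑ ^ p ≤
        ENNReal.ofReal ((2 * (18 * a0 * n)) ^ p) * (∑ l, ‖D₂ l x - v l‖ₑ ^ p) +
          ENNReal.ofReal ((2 * (2 * n * η)) ^ p) * V := by
      refine (ae_restrict_iff'₀ (nmG.inter oU.measurableSet.nullMeasurableSet)).2 ?_
      filter_upwards [A2] with x h2 hx
      have hxH := hgood x hx.1
      rw [hV, Finset.mul_sum, Finset.mul_sum, ← Finset.sum_add_distrib]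
      apply Finset.sum_le_sum
      intro l _
      obtain ⟨b4, b5⟩ := h2 l hx.2 hxH
      exact enorm_two hp (by positivity) (by positivity)
        (good_real hn.symm ha0 hη hη1 rfl (hv l) (fun _ _ => rfl) le_rfl b4 b5)
    calc _ ≤ ∫⁻ x in (Ω \ X) ∩ U,
          (ENNReal.ofReal ((2 * (18 * a0 * n)) ^ p) * (∑ l, ‖D₂ l x - v l‖ₑ ^ p) +
          ENNReal.ofReal ((2 * (2 * n * η)) ^ p) * V) ∂μ := lintegral_mono_ae hle
      _ ≤ ∫⁻ x in Ω, (ENNReal.ofReal ((2 * (18 * a0 * n)) ^ p) * (∑ l, ‖D₂ l x - v l‖ₑ ^ p) +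
          ENNReal.ofReal ((2 * (2 * n * η)) ^ p) * V) ∂μ :=
          lintegral_mono_set (fun x hx => hx.1.1)
      _ = _ := by
          rw [lintegral_add_right _ measurable_const, lintegral_const_mul' _ _
            ENNReal.ofReal_ne_top, lintegral_const, Measure.restrict_apply_univ]
  have bad : ∫⁻ x in X ∩ U, ∑ l, ‖D' l x - v l‖ₑ ^ p ∂μ ≤
      ENNReal.ofReal ((2 * 1) ^ p) * (KK *
        (ENNReal.ofReal ((2 * 1) ^ p) * G + ENNReal.ofReal ((2 * 1) ^ p) * V * μ X) + Er) +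
      ENNReal.ofReal ((2 * 1) ^ p) * V * μ X := by
    have e1 : ∫⁻ x in X ∩ U, ∑ l, ‖D' l x - v l‖ₑ ^ p ∂μ ≤
        ENNReal.ofReal ((2 * 1) ^ p) * ∫⁻ x in X ∩ U, ∑ l, ‖D' l x‖ₑ ^ p ∂μ +
          ENNReal.ofReal ((2 * 1) ^ p) * V * μ X := by
      calc _ ≤ ∫⁻ x in X ∩ U, (ENNReal.ofReal ((2 * 1) ^ p) * (∑ l, ‖D' l x‖ₑ ^ p) +
            ENNReal.ofReal ((2 * 1) ^ p) * V) ∂μ := by
            apply lintegral_mono
            intro x
            simp only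
            rw [hV, Finset.mul_sum, Finset.mul_sum, ← Finset.sum_add_distrib]
            apply Finset.sum_le_sum
            intro l _
            apply enorm_two hp zero_le_one zero_le_one
            rw [one_mul, one_mul]
            exact norm_sub_le _ _
        _ = ENNReal.ofReal ((2 * 1) ^ p) * ∫⁻ x in X ∩ U, ∑ l, ‖D' l x‖ₑ ^ p ∂μ +
            ENNReal.ofReal ((2 * 1) ^ p) * V * μ (X ∩ U) := by
            rw [lintegral_add_right _ measurable_const, lintegral_const_mul' _ _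
              ENNReal.ofReal_ne_top, lintegral_const, Measure.restrict_apply_univ]
        _ ≤ _ := add_le_add le_rfl (mul_le_mul' le_rfl (measure_mono inter_subset_left))
    refine e1.trans (add_le_add (mul_le_mul' le_rfl (hbad.trans (add_le_add
      (mul_le_mul' le_rfl ?_) le_rfl))) le_rfl)
    have hXX : X ∩ Ω = X := inter_eq_left.2 hXΩ
    rw [hXX]
    calc _ ≤ ∫⁻ x in X, (ENNReal.ofReal ((2 * 1) ^ p) * (∑ l, ‖D₂ l x - v l‖ₑ ^ p) +
          ENNReal.ofReal ((2 * 1) ^ p) * V) ∂μ := by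
          apply lintegral_mono
          intro x
          simp only
          rw [hV, Finset.mul_sum, Finset.mul_sum, ← Finset.sum_add_distrib]
          apply Finset.sum_le_sum
          intro l _
          apply enorm_two hp zero_le_one zero_le_one
          rw [one_mul, one_mul]
          have := norm_add_le (D₂ l x - v l) (v l)
          rwa [sub_add_cancel] at this
      _ = ENNReal.ofReal ((2 * 1) ^ p) * ∫⁻ x in X, (∑ l, ‖D₂ l x - v l‖ₑ ^ p) ∂μ +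
          ENNReal.ofReal ((2 * 1) ^ p) * V * μ X := by
          rw [lintegral_add_right _ measurable_const, lintegral_const_mul' _ _
            ENNReal.ofReal_ne_top, lintegral_const, Measure.restrict_apply_univ]
      _ ≤ _ := add_le_add (mul_le_mul' le_rfl (lintegral_mono_set hXΩ)) le_rfl
  have hsplit : U ⊆ ((Ω \ X) ∩ U) ∪ (X ∩ U) := by
    intro x hx
    by_cases h1 : x ∈ X
    · exact Or.inr ⟨h1, hx⟩
    · exact Or.inl ⟨⟨hUΩ hx, h1⟩, hx⟩
  calc _ ≤ ∫⁻ x in ((Ω \ X) ∩ U) ∪ (X ∩ U), ∑ l, ‖D' l x - v l‖ₑ ^ p ∂μ :=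
        lintegral_mono_set hsplit
    _ ≤ _ := lintegral_union_le _ _ _
    _ ≤ _ := add_le_add good bad

/-- the energy of a map close to `v` on a set `X` -/
theorem energy_on {p : ℝ} (hp : 0 ≤ p) {Ω X : Set E} (hX : X ⊆ Ω) {J : Type*} [Fintype J]
    (D : J → E → EE ι) (v : J → EE ι) :
    ∫⁻ x in X, ∑ l, ‖D l x‖ₑ ^ p ∂μ ≤
      ENNReal.ofReal ((2 * 1) ^ p) * ∫⁻ x in Ω, (∑ l, ‖D l x - v l‖ₑ ^ p) ∂μ +
        ENNReal.ofReal ((2 * 1) ^ p) * (∑ l, ‖v l‖ₑ ^ p) * μ X := by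
  set V : ℝ≥0∞ := ∑ l, ‖v l‖ₑ ^ p with hV
  calc _ ≤ ∫⁻ x in X, (ENNReal.ofReal ((2 * 1) ^ p) * (∑ l, ‖D l x - v l‖ₑ ^ p) +
          ENNReal.ofReal ((2 * 1) ^ p) * V) ∂μ := by
        apply lintegral_mono
        intro x
        simp only
        rw [hV, Finset.mul_sum, Finset.mul_sum, ← Finset.sum_add_distrib]
        apply Finset.sum_le_sum
        intro l _
        apply enorm_two hp zero_le_one zero_le_one
        rw [one_mul, one_mul]
        have := norm_add_le (D l x - v l) (v l)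
        rwa [sub_add_cancel] at this
    _ = ENNReal.ofReal ((2 * 1) ^ p) * ∫⁻ x in X, (∑ l, ‖D l x - v l‖ₑ ^ p) ∂μ +
          ENNReal.ofReal ((2 * 1) ^ p) * V * μ X := by
        rw [lintegral_add_right _ measurable_const, lintegral_const_mul' _ _
          ENNReal.ofReal_ne_top, lintegral_const, Measure.restrict_apply_univ]
    _ ≤ _ := add_le_add (mul_le_mul' le_rfl (lintegral_mono_set hX)) le_rfl

/-- `‖u‖ ≤ A ‖x‖` for extended norms with powers -/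
theorem enorm_one {F F' : Type*} [NormedAddCommGroup F] [NormedAddCommGroup F'] {u : F} {x : F'}
    {A p : ℝ} (hp : 0 ≤ p) (hA : 0 ≤ A) (h : ‖u‖ ≤ A * ‖x‖) :
    ‖u‖ₑ ^ p ≤ ENNReal.ofReal (A ^ p) * ‖x‖ₑ ^ p := by
  rw [enorm_rpow_eq _ hp, enorm_rpow_eq _ hp, ← ENNReal.ofReal_mul (by positivity),
    ← Real.mul_rpow hA (norm_nonneg _)]
  exact ENNReal.ofReal_le_ofReal (Real.rpow_le_rpow (norm_nonneg _) h hp)

/-- the compact sets: `K₁` is hit by `φ` up to measure `t`, `K₀` contains the `e₀`-neighbourhood of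
`K₁`. -/
theorem setupU {Ω : Set E} {Λ : Set (EE ι)} {φ : E → EE ι} (hΩ : IsOpen Ω) (hΩne : Ω.Nonempty)
    (hΩf : μ Ω ≠ ⊤) (hΛ : IsOpen Λ) (hφ : ContinuousOn φ Ω) (hmaps : MapsTo φ Ω Λ)
    {t : ℝ≥0∞} (ht : t ≠ 0) :
    ∃ K₁ K₀ : Set (EE ι), IsCompact K₁ ∧ IsCompact K₀ ∧ K₀.Nonempty ∧ K₁ ⊆ K₀ ∧ K₀ ⊆ Λ ∧
      μ (Ω ∩ φ ⁻¹' K₁ᶜ) ≤ t ∧
      ∃ r > 0, Metric.cthickening (2 * r) K₀ ⊆ Λ ∧ ∃ e₀ > 0,
        (∀ y ∈ K₁, ∀ y', ‖y' - y‖ ≤ e₀ → y' ∈ K₀) ∧
        ∀ ε : ℝ, 0 < ε → ε < 1 → ∃ s₀ > 0, ∀ w : ℝ, 0 < w → w ≤ 1 / 2 → ∀ s, 0 < s → s < s₀ →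
          StP (cutf K₀ r) s w ε (1 / r) := by
  have hΩ0 : μ Ω ≠ 0 := (hΩ.measure_pos μ hΩne).ne'
  obtain ⟨K₁, hK, hKΛ, hKne, hKμ⟩ := exists_compact hΩ hΩf hΩ0 hΛ hφ hmaps ht
  obtain ⟨r', hr', hrΛ⟩ := hK.exists_cthickening_subset_open hΛ hKΛ
  set r : ℝ := r' / 4 with hr
  have hr0 : 0 < r := by positivity
  have hth : Metric.cthickening (2 * r) (Metric.cthickening (r' / 2) K₁) ⊆ Λ := by
    refine (Metric.cthickening_cthickening_subset (by positivity) (by positivity) K₁).trans ?_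
    have : 2 * r + r' / 2 = r' := by rw [hr]; ring
    rw [this]; exact hrΛ
  refine ⟨K₁, Metric.cthickening (r' / 2) K₁, hK, hK.cthickening, ?_, Metric.self_subset_cthickening K₁,
    (Metric.self_subset_cthickening _).trans hth, hKμ, r, hr0, hth, r' / 2, by positivity, ?_, ?_⟩
  · exact hKne.mono (Metric.self_subset_cthickening K₁)
  · intro y hy y' hyy
    apply Metric.mem_cthickening_of_dist_le y' y _ _ hy
    rw [dist_eq_norm]; exact hyy
  · intro ε hε hε1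
    refine ⟨ε * r / 2, by positivity, ?_⟩
    intro w hw hw1 s hs hss
    refine ⟨hs, hw, hw1, hε, hε1, cutf_nonneg _ r, cutf_le_one _ r, cutf_lip hr0,
      by positivity, ?_⟩
    rw [one_div, inv_mul_eq_div, div_le_iff₀ hr0]
    linarith

/-- the offsets, for an arbitrary map `φ` -/
theorem offsetsU (k : ι) {m : ℕ} (hm : 0 < m) {s : ℝ} (hs : 0 < s) {Ω : Set E} (hΩ : IsOpen Ω)
    {φ : E → EE ι} (hφ : ContinuousOn φ Ω) (b : ι → ℝ) :
    ∃ a : ι → ℝ, (∀ i, ∃ j : ℕ, j < m ∧ a i = b i + j * (if i = k then s else s / 2) / m) ∧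
      ∀ K₀ : Set (EE ι), μ (Ω ∩ φ ⁻¹' (GX K₀ k a s (wm m) (ηm m))ᶜ) ≤
        μ (Ω ∩ φ ⁻¹' K₀ᶜ) + Fintype.card ι * (μ Ω / m) := by
  have hm' : (0:ℝ) < m := by exact_mod_cast hm
  have mφ : ∀ i, AEMeasurable (fun x => φ x i) (μ.restrict Ω) := fun i =>
    (continuous_coord i).measurable.comp_aemeasurable
      (hφ.aestronglyMeasurable hΩ.measurableSet).aemeasurable
  have hoff : ∀ i, ∃ j : Fin m, (i = k → μ (Ω ∩ {x | Lat s (b i + s / 2 + j * s / m)
      (s / (4 * m)) (φ x i)}) ≤ μ Ω / m) ∧ (i ≠ k → μ (Ω ∩ {x | Lat (s / 2)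
      (b i + j * (s / 2) / m) (s / 2 / (4 * m)) (φ x i)}) ≤ μ Ω / m) := by
    intro i
    by_cases hi : i = k
    · obtain ⟨j, hj⟩ := exists_off hs hm (b i + s / 2) (mφ i) hΩ.measurableSet
      exact ⟨j, fun _ => hj, fun h => absurd hi h⟩
    · obtain ⟨j, hj⟩ := exists_off (half_pos hs) hm (b i) (mφ i) hΩ.measurableSet
      exact ⟨j, fun h => absurd h hi, fun _ => hj⟩
  choose j hj1 hj2 using hoff
  refine ⟨fun i => b i + (j i : ℕ) * (if i = k then s else s / 2) / m,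
    fun i => ⟨j i, (j i).2, rfl⟩, fun K₀ => ?_⟩
  set a : ι → ℝ := fun i => b i + (j i : ℕ) * (if i = k then s else s / 2) / m with ha
  exact bad_measure (μ := μ) (K₀ := K₀) (k := k) (a := a) (s := s) hm (Ω := Ω) (φ := φ)
    (by
      have h2 := hj1 k rfl
      have e1 : a k + s / 2 = b k + s / 2 + (j k : ℕ) * s / m := by
        rw [ha]; simp only [if_true]; ring
      rw [e1]; exact h2)
    (by
      intro i hi
      have h2 := hj2 i hi
      have e1 : a i = b i + (j i : ℕ) * (s / 2) / m := by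
        rw [ha]; simp only [if_neg hi]
      rw [e1]; exact h2)
    (w := wm m) (η := ηm m) (by unfold wm; field_simp) (by unfold ηm; field_simp; norm_num)

/-- transfer of the good set to a nearby point -/
theorem gx_near {K₀ : Set (EE ι)} {k : ι} {a : ι → ℝ} {s : ℝ} {m : ℕ} (hm : 0 < m) (hs : 0 < s)
    {y y' : EE ι} (hy : y ∈ GX K₀ k a s (wm m) (ηm m)) (hy' : y' ∈ K₀)
    (hd : ‖y' - y‖ ≤ s / (16 * m)) : y' ∈ GX K₀ k a s (ws m) (ηm m / 2) := by
  have hm' : (0:ℝ) < m := by exact_mod_cast hm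
  have hc : ∀ i, |y' i - y i| ≤ s / (16 * m) := fun i => by
    have := abs_le_norm (y' - y) i
    rw [PiLp.sub_apply] at this
    exact this.trans hd
  have e0 : 0 < s / (16 * m) := by positivity
  have e1 : wm m * s = 4 * (s / (16 * m)) := by unfold wm; field_simp; norm_num
  have e2 : ws m * s = 2 * (s / (16 * m)) := by unfold ws; field_simp; norm_num
  have e3 : ηm m * s = 2 * (s / (16 * m)) := by unfold ηm; field_simp; norm_num
  refine ⟨hy', ?_, ?_⟩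
  · intro n
    have h1 := hy.2.1 n
    have h2 := hc k
    have h3 := abs_add_le (y k - y' k) (y' k - (a k + s / 2 + n * s))
    rw [sub_add_sub_cancel, abs_sub_comm (y k) (y' k)] at h3
    rw [e2]; rw [e1] at h1
    linarith
  · intro i hi n
    have h1 := hy.2.2 i hi n
    have h2 := hc i
    have h3 := abs_add_le (y i - y' i) (y' i - (a i + n * (s / 2)))
    rw [sub_add_sub_cancel, abs_sub_comm (y i) (y' i)] at h3
    have e4 : ηm m / 2 * s = s / (16 * m) := by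
      have : ηm m / 2 * s = (ηm m * s) / 2 := by ring
      rw [this, e3]; ring
    rw [e4]; rw [e3] at h1
    linarith

/-- `S ∘ Γ⁻¹` is a translation in the middle slabs, where the cut-off is `1` -/
theorem sg_mid {a s w ε : ℝ} (hs : 0 < s) (hw : 0 < w) (hw1 : w ≤ 1 / 4) {t : ℝ} (n : ℤ)
    (h : |t - (a + s / 2 + n * s)| ≤ w * s) :
    sg a s w ε t = a + s / 2 + n * s +
      (ε + (1 - ε) * (1 / (2 * w))) * (t - (a + s / 2 + n * s)) := by
  have h0 : (t - a) / s = n + 1 / 2 + (t - (a + s / 2 + n * s)) / s := by field_simp; ring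
  set u := (t - (a + s / 2 + n * s)) / s with hu
  have hu1 : |u| ≤ w := by rw [hu, abs_div, abs_of_pos hs, div_le_iff₀ hs]; exact h
  have hu2 := abs_le.1 hu1
  have hfl : ⌊(t - a) / s⌋ = n := by
    rw [h0, Int.floor_eq_iff]
    constructor
    · linarith [hu2.1]
    · linarith [hu2.2]
  have hfr : Int.fract ((t - a) / s) = 1 / 2 + u := by
    have : Int.fract ((t - a) / s) = (t - a) / s - ⌊(t - a) / s⌋ := rfl
    rw [this, hfl, h0]; ring
  have hcc : cc w (1 / 2 + u) = 1 / 2 + u / (2 * w) := by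
    unfold cc
    have h3 : (1 / 2 + u - 1 / 2) / (2 * w) + 1 / 2 = 1 / 2 + u / (2 * w) := by ring
    have h4 : 0 ≤ 1 / 2 + u / (2 * w) := by
      have : -(1 / 2) ≤ u / (2 * w) := by rw [le_div_iff₀ (by positivity)]; linarith [hu2.1]
      linarith
    have h5 : 1 / 2 + u / (2 * w) ≤ 1 := by
      have : u / (2 * w) ≤ 1 / 2 := by rw [div_le_iff₀ (by positivity)]; linarith [hu2.2]
      linarith
    rw [h3, min_eq_right h5, max_eq_right h4]
  unfold sg GG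
  rw [hfr, hfl, hcc, h0]
  have h6 : t - (a + s / 2 + n * s) = s * u := by rw [hu]; field_simp
  rw [h6]
  field_simp
  ring

end Crest.Agent.R96.PnU_849
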