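import Mathlib
import Crest.Agent.R96.PnU2_849

/-!
# Row 96, helper849: `pushNO_U`, part 4: the map `S ∘ Γ⁻¹` near the centres of the bricks, and the geometry
of the good set `GX`.
-/

set_option autoImplicit false
set_option linter.unusedSectionVars false
set_option linter.unusedVariables false

open MeasureTheory Set Filter Topology
open scoped NNReal ENNReal Function

noncomputable section

namespace Crest.Agent.R96.PnU_849

open Crest.Agent.R96.Acl_392 Crest.Agent.R96.Sob1_199 Crest.Agent.R96.Sob2_199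
  Crest.Agent.R96.Sob3_199 Crest.Agent.R96.Sob4_199 Crest.Agent.R96.Sob5_199
  Crest.Agent.R96.Push_899

variable {ι : Type*} [Fintype ι] [Nonempty ι] [DecidableEq ι]

/-- middle height of the `n`-th slab -/
def mid (a s : ℝ) (n : ℤ) : ℝ := a + s / 2 + n * s

/-- slope in the middle slabs -/
def Gs (w ε : ℝ) : ℝ := ε + (1 - ε) * (1 / (2 * w))

theorem Gs_U (a0 : ℝ) (m : ℕ) : Gs (ws m) (εU a0 m) = GU a0 m := rfl

/-- **the stretch in a middle slab**, any cut-off -/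
theorem St_mid {k : ι} {χ : EE ι → ℝ} {a s w ε : ℝ} (hs : 0 < s) (hw : 0 < w) (hw1 : w ≤ 1 / 4)
    {y : EE ι} (n : ℤ) (h : |y k - mid a s n| ≤ w * s) :
    St k χ a s w ε y k = mid a s n + (1 + χ y * (Gs w ε - 1)) * (y k - mid a s n) := by
  rw [St_k, sg_mid hs hw hw1 n h]
  unfold Gs mid
  ring

/-- the frozen map at the centre `P` (in the stretched coordinates): `B z = Γ⁻¹ P + diag(1, g) (z - P)`,
`g = (1 + χ (G - 1)) / G`, `χ` = the cut-off at `Γ⁻¹ P` -/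
def gF (G χ : ℝ) : ℝ := (1 + χ * (G - 1)) / G

theorem gF_le {G χ : ℝ} (hG : 1 ≤ G) (h1 : χ ≤ 1) : gF G χ ≤ 1 := by
  unfold gF
  rw [div_le_one (by linarith)]
  nlinarith

theorem gF_ge {G χ : ℝ} (hG : 1 ≤ G) (h0 : 0 ≤ χ) : 1 / G ≤ gF G χ := by
  unfold gF
  apply div_le_div_of_nonneg_right _ (by linarith)
  nlinarith

theorem gF_one {G : ℝ} (hG : 1 ≤ G) : gF G 1 = 1 := by
  unfold gF
  rw [one_mul, add_sub_cancel, div_self (by linarith)]

theorem gF_pos {G χ : ℝ} (hG : 1 ≤ G) (h0 : 0 ≤ χ) : 0 < gF G χ :=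
  lt_of_lt_of_le (by positivity) (gF_ge hG h0)

theorem norm_Gm_le_one {k : ι} {g : ℝ} (h0 : 0 ≤ g) (h1 : g ≤ 1) (y : EE ι) :
    ‖Gm k g y‖ ≤ ‖y‖ := by
  have h := norm_le_of_abs (A := 1) zero_le_one (y := Gm k g y) (y' := y) ?_
  · rwa [one_mul] at h
  intro i
  rw [Gm_apply, abs_mul]
  apply mul_le_mul_of_nonneg_right _ (abs_nonneg _)
  split_ifs
  · rw [abs_of_nonneg h0]; exact h1
  · rw [abs_one]

/-- `‖B₀⁻¹‖ ≤ G` -/
theorem le_norm_Gm {k : ι} {G g : ℝ} (hG : 1 ≤ G) (hg : 1 / G ≤ g) (y : EE ι) :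
    ‖y‖ ≤ G * ‖Gm k g y‖ := by
  apply norm_le_of_abs (by linarith)
  intro i
  have Gp : 0 < G := by linarith
  have gp : 0 < g := lt_of_lt_of_le (by positivity) hg
  rw [Gm_apply, abs_mul, ← mul_assoc]
  apply le_mul_of_one_le_left (abs_nonneg _)
  split_ifs
  · rw [abs_of_pos gp]
    rw [div_le_iff₀ Gp] at hg
    linarith
  · rw [abs_one]; linarith

theorem abs_le_norm (y : EE ι) (i : ι) : |y i| ≤ ‖y‖ := by
  have := PiLp.norm_apply_le y i
  rwa [Real.norm_eq_abs] at this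

theorem norm_eq_abs_of {k : ι} {y : EE ι} (h : ∀ i, i ≠ k → y i = 0) : ‖y‖ = |y k| := by
  apply le_antisymm _ (abs_le_norm y k)
  rw [EuclideanSpace.norm_eq]
  apply Real.sqrt_le_iff.2
  refine ⟨abs_nonneg _, ?_⟩
  rw [Finset.sum_eq_single k]
  · rw [Real.norm_eq_abs]
  · intro i _ hi
    rw [h i hi, norm_zero]; ring
  · intro h; exact absurd (Finset.mem_univ k) h

section

variable {k : ι} {χ : EE ι → ℝ} {a s w ε L : ℝ} (hP : StP χ s w ε L) (hw1 : w ≤ 1 / 4)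
  (hG : 1 ≤ Gs w ε)

include hP hw1 hG

/-- the error map `S Γ⁻¹ z - B z`: only the `k`-th coordinate -/
theorem SG_sub {P : EE ι} {R : ℝ} (n : ℤ) (hPn : P k = Gs w ε * mid a s n)
    (hR : R ≤ Gs w ε * w * s) {z : EE ι} (hz : ‖z - P‖ ≤ R) :
    (∀ i, i ≠ k → (St k χ a s w ε (Gm k (Gs w ε)⁻¹ z) -
      (Gm k (Gs w ε)⁻¹ P + Gm k (gF (Gs w ε) (χ (Gm k (Gs w ε)⁻¹ P))) (z - P))) i = 0) ∧
    (St k χ a s w ε (Gm k (Gs w ε)⁻¹ z) -
      (Gm k (Gs w ε)⁻¹ P + Gm k (gF (Gs w ε) (χ (Gm k (Gs w ε)⁻¹ P))) (z - P))) k =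
      (χ (Gm k (Gs w ε)⁻¹ z) - χ (Gm k (Gs w ε)⁻¹ P)) * ((Gs w ε - 1) / Gs w ε * (z k - P k)) := by
  set G := Gs w ε with hGd
  have Gp : 0 < G := by linarith
  constructor
  · intro i hi
    rw [PiLp.sub_apply, PiLp.add_apply, St_ne _ hi, Gm_ne _ hi, Gm_ne _ hi, Gm_ne _ hi,
      PiLp.sub_apply]
    ring
  · have h1 : |(Gm k G⁻¹ z) k - mid a s n| ≤ w * s := by
      rw [Gm_k]
      have h2 : G⁻¹ * z k - mid a s n = G⁻¹ * (z k - P k) := by
        rw [hPn]; field_simp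
      have h3 : |z k - P k| ≤ R := by
        have := abs_le_norm (z - P) k
        rw [PiLp.sub_apply] at this
        exact this.trans hz
      rw [h2, abs_mul, abs_of_pos (by positivity), inv_mul_le_iff₀ Gp]
      calc |z k - P k| ≤ R := h3
        _ ≤ G * w * s := hR
        _ = G * (w * s) := by ring
    rw [PiLp.sub_apply, PiLp.add_apply, St_mid hP.hs hP.hw hw1 n h1, Gm_k, Gm_k, Gm_k,
      PiLp.sub_apply, ← hGd, hPn]
    unfold gF
    field_simp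
    ring

/-- **(b) of #11063**: the frozen map is Lipschitz close to `S ∘ Γ⁻¹` in the ball around a centre. -/
theorem SG_lip {P : EE ι} {R : ℝ} (n : ℤ) (hPn : P k = Gs w ε * mid a s n)
    (hR0 : 0 ≤ R) (hR : R ≤ Gs w ε * w * s) {z z' : EE ι} (hz : ‖z - P‖ ≤ R) (hz' : ‖z' - P‖ ≤ R) :
    ‖(St k χ a s w ε (Gm k (Gs w ε)⁻¹ z) -
      (Gm k (Gs w ε)⁻¹ P + Gm k (gF (Gs w ε) (χ (Gm k (Gs w ε)⁻¹ P))) (z - P))) -
     (St k χ a s w ε (Gm k (Gs w ε)⁻¹ z') -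
      (Gm k (Gs w ε)⁻¹ P + Gm k (gF (Gs w ε) (χ (Gm k (Gs w ε)⁻¹ P))) (z' - P)))‖ ≤
      2 * L * R * ‖z - z'‖ := by
  obtain ⟨h1, h2⟩ := SG_sub (k := k) (a := a) hP hw1 hG n hPn hR hz
  obtain ⟨h1', h2'⟩ := SG_sub (k := k) (a := a) hP hw1 hG n hPn hR hz'
  set G := Gs w ε with hGd
  have Gp : 0 < G := by linarith
  rw [norm_eq_abs_of (k := k) (fun i hi => by rw [PiLp.sub_apply, h1 i hi, h1' i hi, sub_zero]),
    PiLp.sub_apply, h2, h2']
  set q : ℝ := (G - 1) / G with hq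
  have q0 : 0 ≤ q := div_nonneg (by linarith) Gp.le
  have q1 : q ≤ 1 := by rw [hq, div_le_one Gp]; linarith
  have e1 : (χ (Gm k G⁻¹ z) - χ (Gm k G⁻¹ P)) * (q * (z k - P k)) -
      (χ (Gm k G⁻¹ z') - χ (Gm k G⁻¹ P)) * (q * (z' k - P k)) =
      (χ (Gm k G⁻¹ z) - χ (Gm k G⁻¹ z')) * (q * (z k - P k)) +
      (χ (Gm k G⁻¹ z') - χ (Gm k G⁻¹ P)) * (q * (z k - z' k)) := by ring
  have hc : ∀ u v : EE ι, |χ (Gm k G⁻¹ u) - χ (Gm k G⁻¹ v)| ≤ L * ‖u - v‖ := by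
    intro u v
    refine (hP.hL _ _).trans ?_
    apply mul_le_mul_of_nonneg_left _ hP.hL0
    rw [Gm_sub]
    exact norm_Gm_inv_le hG _
  have hk : ∀ u v : EE ι, |q * (u k - v k)| ≤ ‖u - v‖ := by
    intro u v
    rw [abs_mul, abs_of_nonneg q0]
    have := abs_le_norm (u - v) k
    rw [PiLp.sub_apply] at this
    have h0 := abs_nonneg (u k - v k)
    nlinarith
  rw [e1]
  refine (abs_add_le _ _).trans ?_
  have a1 := mul_le_mul (hc z z') ((hk z P).trans hz) (abs_nonneg _)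
    (mul_nonneg hP.hL0 (norm_nonneg _))
  have a2 := mul_le_mul (hc z' P) (hk z z') (abs_nonneg _)
    (mul_nonneg hP.hL0 (norm_nonneg _))
  rw [← abs_mul] at a1 a2
  have a3 : L * ‖z' - P‖ * ‖z - z'‖ ≤ L * R * ‖z - z'‖ :=
    mul_le_mul_of_nonneg_right (mul_le_mul_of_nonneg_left hz' hP.hL0) (norm_nonneg _)
  have a4 : 2 * L * R * ‖z - z'‖ = L * ‖z - z'‖ * R + L * R * ‖z - z'‖ := by ring
  rw [a4]
  exact add_le_add a1 (a2.trans a3)

/-- sup distance to the frozen map -/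
theorem SG_near {P : EE ι} {R : ℝ} (n : ℤ) (hPn : P k = Gs w ε * mid a s n)
    (hR0 : 0 ≤ R) (hR : R ≤ Gs w ε * w * s) {z : EE ι} (hz : ‖z - P‖ ≤ R) :
    ‖St k χ a s w ε (Gm k (Gs w ε)⁻¹ z) -
      (Gm k (Gs w ε)⁻¹ P + Gm k (gF (Gs w ε) (χ (Gm k (Gs w ε)⁻¹ P))) (z - P))‖ ≤
      L * R * R := by
  obtain ⟨h1, h2⟩ := SG_sub (k := k) (a := a) hP hw1 hG n hPn hR hz
  set G := Gs w ε with hGd
  have Gp : 0 < G := by linarith
  rw [norm_eq_abs_of (k := k) h1, h2, abs_mul]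
  set q : ℝ := (G - 1) / G with hq
  have q0 : 0 ≤ q := div_nonneg (by linarith) Gp.le
  have q1 : q ≤ 1 := by rw [hq, div_le_one Gp]; linarith
  apply mul_le_mul _ _ (abs_nonneg _) (mul_nonneg hP.hL0 hR0)
  · refine (hP.hL _ _).trans ?_
    apply mul_le_mul_of_nonneg_left _ hP.hL0
    rw [Gm_sub]
    exact (norm_Gm_inv_le hG _).trans hz
  · rw [abs_mul, abs_of_nonneg q0]
    have := abs_le_norm (z - P) k
    rw [PiLp.sub_apply] at this
    have h0 := abs_nonneg (z k - P k)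
    nlinarith

/-- **(a) of #11063**: where the cut-off is one, `S ∘ Γ⁻¹` is a translation in the middle slabs -/
theorem SG_mid {z : EE ι} (n : ℤ) (hz : |z k - Gs w ε * mid a s n| ≤ Gs w ε * w * s)
    (hχ : χ (Gm k (Gs w ε)⁻¹ z) = 1) :
    St k χ a s w ε (Gm k (Gs w ε)⁻¹ z) =
      z + EuclideanSpace.single k (-((Gs w ε - 1) * mid a s n)) := by
  set G := Gs w ε with hGd
  have Gp : 0 < G := by linarith
  have h1 : |(Gm k G⁻¹ z) k - mid a s n| ≤ w * s := by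
    rw [Gm_k]
    have h2 : G⁻¹ * z k - mid a s n = G⁻¹ * (z k - G * mid a s n) := by
      field_simp
    rw [h2, abs_mul, abs_of_pos (by positivity), inv_mul_le_iff₀ Gp]
    calc _ ≤ G * w * s := hz
      _ = G * (w * s) := by ring
  ext i
  by_cases hi : i = k
  · subst hi
    rw [St_mid hP.hs hP.hw hw1 n h1, hχ, Gm_k, PiLp.add_apply, PiLp.single_apply,
      if_pos rfl, ← hGd]
    field_simp
    ring
  · rw [St_ne _ hi, Gm_ne _ hi, PiLp.add_apply, PiLp.single_apply, if_neg hi, add_zero]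

end

/-! ### sharper displacement -/

theorem abs_GG_sub_le_half {w : ℝ} (hw : 0 < w) (hw1 : w ≤ 1 / 2) (x : ℝ) :
    |GG w x - x| ≤ 1 / 2 - w := by
  have hxf : Int.fract x = x - ⌊x⌋ := rfl
  have h0 := Int.fract_nonneg x
  have h1 := (Int.fract_lt_one x).le
  have e : GG w x - x = cc w (Int.fract x) - Int.fract x := by
    unfold GG; rw [hxf]; ring
  rw [e]
  rcases le_total (Int.fract x) (1 / 2 - w) with h2 | h2
  · rw [cc_eq_zero hw h2, zero_sub, abs_neg, abs_of_nonneg h0]; exact h2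
  rcases le_total (1 / 2 + w) (Int.fract x) with h3 | h3
  · rw [cc_eq_one hw h3, abs_of_nonneg (by linarith)]; linarith
  · have h4 : cc w (Int.fract x) = 1 / 2 + (Int.fract x - 1 / 2) / (2 * w) := by
      unfold cc
      have e1 : (Int.fract x - 1 / 2) / (2 * w) ≤ 1 / 2 := by
        rw [div_le_iff₀ (by positivity)]; linarith
      have e2 : -(1 / 2) ≤ (Int.fract x - 1 / 2) / (2 * w) := by
        rw [le_div_iff₀ (by positivity)]; linarith
      rw [min_eq_right (by linarith), max_eq_right (by linarith)]; ring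
    rw [h4]
    have e3 : 1 / 2 + (Int.fract x - 1 / 2) / (2 * w) - Int.fract x =
        (Int.fract x - 1 / 2) * ((1 - 2 * w) / (2 * w)) := by field_simp; ring
    rw [e3, abs_mul, abs_of_nonneg (div_nonneg (by linarith) (by linarith) :
      0 ≤ (1 - 2 * w) / (2 * w))]
    have h5 : |Int.fract x - 1 / 2| ≤ w := by rw [abs_le]; constructor <;> linarith
    calc _ ≤ w * ((1 - 2 * w) / (2 * w)) :=
          mul_le_mul_of_nonneg_right h5 (div_nonneg (by linarith) (by linarith))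
      _ = _ := by field_simp

/-- **(c) of #11063**, one variable -/
theorem abs_sg_sub_le_half {a s w ε : ℝ} (hs : 0 < s) (hw : 0 < w) (hw1 : w ≤ 1 / 2) (hε : 0 ≤ ε)
    (hε1 : ε ≤ 1) (t : ℝ) : |sg a s w ε t - t| ≤ s / 2 := by
  have h1 : sg a s w ε t - t = s * ((1 - ε) * (GG w ((t - a) / s) - (t - a) / s)) := by
    unfold sg; field_simp; ring
  rw [h1, abs_mul, abs_of_pos hs, abs_mul, abs_of_nonneg (by linarith)]
  have h2 := abs_GG_sub_le_half hw hw1 ((t - a) / s)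
  have h3 := abs_nonneg (GG w ((t - a) / s) - (t - a) / s)
  have h4 : (1 - ε) * |GG w ((t - a) / s) - (t - a) / s| ≤ 1 / 2 := by
    calc _ ≤ 1 * |GG w ((t - a) / s) - (t - a) / s| :=
          mul_le_mul_of_nonneg_right (by linarith) h3
      _ ≤ 1 / 2 := by linarith
  nlinarith

/-- **(c) of #11063** -/
theorem St_dist_half {k : ι} {χ : EE ι → ℝ} {a s w ε L : ℝ} (hP : StP χ s w ε L) (y : EE ι) :
    ‖St k χ a s w ε y - y‖ ≤ s / 2 := by
  rw [norm_eq_abs_of (k := k) (fun i hi => by rw [PiLp.sub_apply, St_ne y hi, sub_self]),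
    PiLp.sub_apply, St_k, add_sub_cancel_left, abs_mul, abs_of_nonneg (hP.χ0 y)]
  have h1 := abs_sg_sub_le_half (a := a) hP.hs hP.hw hP.hw1 hP.hε.le hP.hε1.le (y k)
  have h2 := abs_nonneg (sg a s w ε (y k) - y k)
  have h3 := hP.χ1 y
  have h4 := hP.χ0 y
  nlinarith

/-! ### the geometry of `GX` -/

/-- **(d) of #11063**: points over the good set are far from the middle heights -/
theorem gx_far {K₀ : Set (EE ι)} {k : ι} {a : ι → ℝ} {s w η G : ℝ} (hG : 0 < G) {z : EE ι}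
    (h : Gm k G⁻¹ z ∈ GX K₀ k a s w η) (n : ℤ) : G * w * s < |z k - G * mid (a k) s n| := by
  have h1 := h.2.1 n
  rw [Gm_k] at h1
  have h2 : z k - G * mid (a k) s n = G * (G⁻¹ * z k - (a k + s / 2 + n * s)) := by
    unfold mid; field_simp
  rw [h2, abs_mul, abs_of_pos hG, mul_assoc]
  exact mul_lt_mul_of_pos_left h1 hG

/-- distance to a centre at a middle height -/
theorem gx_far_ball {K₀ : Set (EE ι)} {k : ι} {a : ι → ℝ} {s w η G : ℝ} (hG : 0 < G) {z : EE ι}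
    (h : Gm k G⁻¹ z ∈ GX K₀ k a s w η) {P : EE ι} {n : ℤ} (hP : P k = G * mid (a k) s n) :
    G * w * s < ‖z - P‖ := by
  have h1 := gx_far hG h n
  have h2 := abs_le_norm (z - P) k
  rw [PiLp.sub_apply, hP] at h2
  exact h1.trans_le h2

/-- distance to a centre away from `K₀` -/
theorem gx_far_ball' {K₀ : Set (EE ι)} {k : ι} {a : ι → ℝ} {s w η G : ℝ} (hG : 1 ≤ G) {z : EE ι}
    (h : Gm k G⁻¹ z ∈ GX K₀ k a s w η) {P : EE ι} {ρ : ℝ}
    (hP : ∀ y ∈ K₀, ρ < ‖Gm k G⁻¹ P - y‖) : ρ < ‖z - P‖ := by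
  have h1 := hP _ h.1
  rw [Gm_sub] at h1
  have h2 := norm_Gm_inv_le (k := k) hG (P - z)
  rw [norm_sub_rev P z] at h2
  linarith

/-- `GU · wm ≥ 0.98` -/
theorem GU_wm {a0 : ℝ} {m : ℕ} (ha0 : 1 ≤ a0) (hm : 0 < m) : 0.98 ≤ GU a0 m * wm m := by
  have h1 := GU_ws ha0 hm
  have h2 : wm m = 2 * ws m := by
    unfold wm ws
    have : (0:ℝ) < m := by exact_mod_cast hm
    field_simp; norm_num
  rw [h2]; linarith

/-- the centre of a brick aligned with the slabs is at a middle height -/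
theorem uni_mid {k : ι} {a : ι → ℝ} {s : ℝ} {Q : Box ι} (h : Uni k a s Q) :
    ∃ n : ℤ, (Q.lo k + Q.hi k) / 2 = mid (a k) s n := by
  obtain ⟨n, hn⟩ := h.lo_k
  refine ⟨n, ?_⟩
  rw [h.hi_k, hn]
  unfold mid
  ring

/-! ### `S ∘ Γ⁻¹` as a homeomorphism -/

/-- `S ∘ Γ⁻¹` -/
def SGh (k : ι) (G : ℝ) (hG : G ≠ 0) (S : EE ι ≃ₜ EE ι) : EE ι ≃ₜ EE ι :=
  (GmL k G hG).symm.toHomeomorph.trans S

theorem SGh_apply {k : ι} {G : ℝ} (hG : G ≠ 0) (S : EE ι ≃ₜ EE ι) (z : EE ι) :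
    SGh k G hG S z = S (Gm k G⁻¹ z) := rfl

/-- `S Γ⁻¹ z ∈ Λ ↔ z ∈ Γ Λ` -/
theorem SGh_mem {k : ι} {G : ℝ} (hG : G ≠ 0) {Λ : Set (EE ι)} {s : ℝ} {S : EE ι ≃ₜ EE ι}
    (h : IsStretch k Λ s S) (z : EE ι) : S (Gm k G⁻¹ z) ∈ Λ ↔ z ∈ Gm k G '' Λ := by
  constructor
  · intro h1
    rw [← h.image] at h1
    obtain ⟨y, hy, hy2⟩ := h1
    have h2 := S.injective hy2
    refine ⟨y, hy, ?_⟩
    rw [h2, Gm_Gm (mul_inv_cancel₀ hG)]
  · rintro ⟨y, hy, rfl⟩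
    rw [Gm_Gm (inv_mul_cancel₀ hG), ← h.image]
    exact mem_image_of_mem _ hy

/-- `S ∘ Γ⁻¹` is 4-Lipschitz everywhere -/
theorem SG_lipK {k : ι} {χ : EE ι → ℝ} {a s w ε L G : ℝ} (hP : StP χ s w ε L) (hG : 1 ≤ G)
    (hsl : 1 / (2 * w) ≤ 2 * G) (z z' : EE ι) :
    ‖St k χ a s w ε (Gm k G⁻¹ z) - St k χ a s w ε (Gm k G⁻¹ z')‖ ≤ 4 * ‖z - z'‖ := by
  have Gp : 0 < G := by linarith
  have h1 := St_sub_k (k := k) (a := a) hP.hs hP.hw hP.hw1 hP.hε.le hP.hε1.le hP.χ0 hP.χ1 hP.hL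
    (Gm k G⁻¹ z') (Gm k G⁻¹ z)
  have h2 : ‖Gm k G⁻¹ z - Gm k G⁻¹ z'‖ ≤ ‖z - z'‖ := by
    rw [Gm_sub]; exact norm_Gm_inv_le hG _
  have h3 : 1 / (2 * w) * |Gm k G⁻¹ z k - Gm k G⁻¹ z' k| ≤ 2 * ‖z - z'‖ := by
    rw [Gm_k, Gm_k, ← mul_sub, abs_mul, abs_of_pos (by positivity : 0 < G⁻¹)]
    have h4 := abs_le_norm (z - z') k
    rw [PiLp.sub_apply] at h4
    calc 1 / (2 * w) * (G⁻¹ * |z k - z' k|) ≤ 2 * G * (G⁻¹ * |z k - z' k|) :=
          mul_le_mul_of_nonneg_right hsl (by positivity)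
      _ = 2 * |z k - z' k| := by field_simp
      _ ≤ 2 * ‖z - z'‖ := by linarith
  have h5 : L * s * ‖Gm k G⁻¹ z - Gm k G⁻¹ z'‖ ≤ 1 / 2 * ‖z - z'‖ := by
    have h6 : L * s ≤ 1 / 2 := by linarith [hP.hLs, hP.hε1]
    exact mul_le_mul h6 h2 (norm_nonneg _) (by norm_num)
  set u := St k χ a s w ε (Gm k G⁻¹ z) - St k χ a s w ε (Gm k G⁻¹ z') with hu
  have hk : |u k| ≤ 5 / 2 * ‖z - z'‖ := by
    rw [hu, PiLp.sub_apply]
    linarith
  -- the other coordinates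
  have hs1 : ‖u - EuclideanSpace.single k (u k)‖ ≤ 1 * ‖z - z'‖ := by
    apply norm_le_of_abs zero_le_one
    intro i
    rw [PiLp.sub_apply, PiLp.single_apply]
    by_cases hi : i = k
    · subst hi
      rw [if_pos rfl, sub_self, abs_zero]
      positivity
    · rw [if_neg hi, sub_zero, hu, PiLp.sub_apply, St_ne _ hi, St_ne _ hi, Gm_ne _ hi, Gm_ne _ hi,
        one_mul, PiLp.sub_apply]
  have hs2 : ‖(EuclideanSpace.single k (u k) : EE ι)‖ = |u k| := by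
    rw [EuclideanSpace.norm_single, Real.norm_eq_abs]
  have e : u = (u - EuclideanSpace.single k (u k)) + EuclideanSpace.single k (u k) := by abel
  rw [e]
  refine (norm_add_le _ _).trans ?_
  rw [hs2]
  nlinarith [norm_nonneg (z - z')]

/-- the frozen map in the form of `LipschitzOnWith` -/
theorem SG_lipOn {k : ι} {χ : EE ι → ℝ} {a s w ε L : ℝ} (hP : StP χ s w ε L) (hw1 : w ≤ 1 / 4)
    (hG : 1 ≤ Gs w ε) {P : EE ι} {R : ℝ} (n : ℤ) (hPn : P k = Gs w ε * mid a s n) (hR0 : 0 ≤ R)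
    (hR : R ≤ Gs w ε * w * s) {K : ℝ≥0} (hK : 2 * L * R ≤ K) :
    LipschitzOnWith K (fun z => St k χ a s w ε (Gm k (Gs w ε)⁻¹ z) -
      Gm k (gF (Gs w ε) (χ (Gm k (Gs w ε)⁻¹ P))) z) (Metric.closedBall P R) := by
  apply LipschitzOnWith.of_dist_le_mul
  intro z hz z' hz'
  rw [mem_closedBall_iff_norm] at hz hz'
  have h1 := SG_lip (k := k) (a := a) hP hw1 hG n hPn hR0 hR hz hz'
  rw [dist_eq_norm, dist_eq_norm]
  set g := gF (Gs w ε) (χ (Gm k (Gs w ε)⁻¹ P)) with hg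
  have e : (St k χ a s w ε (Gm k (Gs w ε)⁻¹ z) - Gm k g z) -
      (St k χ a s w ε (Gm k (Gs w ε)⁻¹ z') - Gm k g z') =
      (St k χ a s w ε (Gm k (Gs w ε)⁻¹ z) - (Gm k (Gs w ε)⁻¹ P + Gm k g (z - P))) -
      (St k χ a s w ε (Gm k (Gs w ε)⁻¹ z') - (Gm k (Gs w ε)⁻¹ P + Gm k g (z' - P))) := by
    rw [← Gm_sub, ← Gm_sub]; abel
  rw [e]
  exact h1.trans (mul_le_mul_of_nonneg_right hK (norm_nonneg _))

end Crest.Agent.R96.PnU_849
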