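import Mathlib
import Crest.Agent.R96.PnU2_849

/-!
# Row 96, helper849: `pushNO_U` (962 #10559 [U1], order of 627 #10669): `F = Psi ∘ S ∘ Γ⁻¹ ∘ T ∘ Γ ∘ φ`
with the hole opening `T` BEFORE the stretch `S`, in the stretched coordinates `Γ`.
-/

set_option autoImplicit false
set_option linter.unusedSectionVars false
set_option linter.unusedVariables false

open MeasureTheory Set Filter Topology
open scoped NNReal ENNReal Function

noncomputable section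

namespace Crest.Agent.R96.PnU_849

open Crest.Agent.R96.Acl_392 Crest.Agent.R96.Sob1_199 Crest.Agent.R96.Sob2_199
  Crest.Agent.R96.Sob3_199 Crest.Agent.R96.Sob4_199 Crest.Agent.R96.Sob5_199
  Crest.Agent.R96.Push_899

variable {ι : Type*} [Fintype ι] [Nonempty ι] [DecidableEq ι]

variable {E : Type*} [NormedAddCommGroup E] [NormedSpace ℝ E] [FiniteDimensional ℝ E]
  [MeasurableSpace E] [BorelSpace E] {μ : Measure E} [μ.IsAddHaarMeasure]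

/-- the brick `Q` is near `K₀` -/
def Nr (K₀ : Set (EE ι)) (s : ℝ) (Q : Box ι) : Prop := ∃ y ∈ SE Q, ∃ y₀ ∈ K₀, ‖y - y₀‖ ≤ s

/-- **pushNO with the hole opening before the stretch** -/
theorem pushNO_U (k : ι) {a0 c₁ CT p : ℝ} (ha0 : 1 ≤ a0) (hc0 : 0 < c₁) (hc₁ : c₁ ≤ 1)
    (hCT : 1 ≤ CT) (hp : 1 ≤ p)
    {J : Type*} [Fintype J] (v : J → EE ι) (hv : ∀ l, v l k = 0) {d : ℝ≥0∞} (hd : 0 < d) :
    ∃ m : ℕ, 0 < m ∧ ∃ β : ℝ, 0 < β ∧ ∀ c₂ : ℝ, 0 < c₂ → c₂ ≤ 1 → ∃ δ : ℝ≥0∞, 0 < δ ∧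
      ∀ (Ω : Set E) (Λ : Set (EE ι)) (φ : E → EE ι) (e : J → E) (D : J → E → EE ι),
        IsOpen Ω → Ω.Nonempty → μ Ω ≠ ⊤ → IsOpen Λ → ContinuousOn φ Ω → MapsTo φ Ω Λ →
        (∀ l, VWD Ω μ φ (D l) (e l)) →
        ∫⁻ x in Ω, ∑ l, ‖D l x - v l‖ₑ ^ p ∂μ ≤ δ * μ Ω →
      ∃ K₀ : Set (EE ι), IsCompact K₀ ∧ K₀.Nonempty ∧ K₀ ⊆ Λ ∧
      ∃ r : ℝ, 0 < r ∧ Metric.cthickening (2 * r) K₀ ⊆ Λ ∧
      ∃ e₀ : ℝ, 0 < e₀ ∧ ∃ s₀ : ℝ, 0 < s₀ ∧ ∀ s, 0 < s → s < s₀ →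
      StP (cutf K₀ r) s (ws m) (εU a0 m) (1 / r) ∧
      ∀ th : EE ι → EE ι, ContinuousOn th (Gm k (GU a0 m) '' Λ) → (∀ y, ‖th y - y‖ ≤ e₀) →
      ∀ b : ι → ℝ, ∃ a : ι → ℝ,
        (∀ i, ∃ j : ℕ, j < m ∧ a i = b i + j * (if i = k then s else s / 2) / m) ∧
      ∃ S : EE ι ≃ₜ EE ι, IsStretch k Λ s S ∧
        ⇑S = St k (cutf K₀ r) (a k) s (ws m) (εU a0 m) ∧
      ∃ X ⊆ Ω, MeasurableSet X ∧ μ X ≤ d * μ Ω ∧
        (∀ x ∈ Ω \ X, φ x ∈ K₀ ∧ Gm k (GU a0 m)⁻¹ (th (Gm k (GU a0 m) (φ x))) ∈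
          GX K₀ k a s (wm m) (ηm m)) ∧
      ∀ T : EE ι → EE ι,
        (∀ y y', ‖T y - T y'‖ ≤ CT * ‖y - y'‖) → (∀ y, ‖T y - y‖ ≤ e₀) →
        (∀ y ∈ Gm k (GU a0 m) '' Λ, Gm k (GU a0 m)⁻¹ (th y) ∈ GX K₀ k a s (wm m) (ηm m) →
          ‖T y - th y‖ ≤ s / (16 * m) ∧ ∀ᶠ y' in 𝓝 y, ‖T y' - T y‖ ≤ (1 + β) * ‖y' - y‖) →
      ∀ (I : Type) [Countable I] (Q : I → Box ι), Foam0 Λ Q →
        (∀ c i j, (Q c).W i ≤ a0 * (Q c).W j) →
        (∀ c, Nr K₀ s (Q c) → Uni k a s (Q c)) →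
      ∀ (z : I → ι → ℝ) (B : I → Box ι), (∀ c, z c ∈ Mid (Q c)) →
        (∀ c, Hole c₂ (Q c) (z c) (B c)) → (∀ c, Nr K₀ s (Q c) → Hole c₁ (Q c) (z c) (B c)) →
      (∀ x ∈ Ω \ X, Gm k (GU a0 m)⁻¹ (T (Gm k (GU a0 m) (φ x))) ∈ K₀ ∧
        ∀ c, S (Gm k (GU a0 m)⁻¹ (T (Gm k (GU a0 m) (φ x)))) ∈ SE (Q c) →
        Lands k s (Q c) (Gm k (GU a0 m)⁻¹ (T (Gm k (GU a0 m) (φ x))))
          (Psi Q (fun c => coreBF (Q c) (z c)) B
            (S (Gm k (GU a0 m)⁻¹ (T (Gm k (GU a0 m) (φ x))))))) ∧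
      ∀ (D' : J → E → EE ι),
        (∀ l, VWD (Ω ∩ (fun x => S (Gm k (GU a0 m)⁻¹ (T (Gm k (GU a0 m) (φ x))))) ⁻¹' (Pun Λ B)) μ
          (fun x => Psi Q (fun c => coreBF (Q c) (z c)) B
            (S (Gm k (GU a0 m)⁻¹ (T (Gm k (GU a0 m) (φ x)))))) (D' l) (e l)) →
        ∫⁻ x in Ω ∩ (fun x => S (Gm k (GU a0 m)⁻¹ (T (Gm k (GU a0 m) (φ x))))) ⁻¹' (Pun Λ B),
          ∑ l, ‖D' l x - v l‖ₑ ^ p ∂μ ≤ d * μ Ω := by
  have hp0 : 0 < p := by linarith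
  have a0p : 0 < a0 := by linarith
  set n : ℝ := ((Fintype.card ι : ℕ) : ℝ) with hn
  have hn0 : 0 ≤ n := by rw [hn]; positivity
  set KK : ℝ≥0∞ := ENNReal.ofReal (Kge ι a0 c₁ ^ p) with hKKd
  have hKge : 0 ≤ Kge ι a0 c₁ := by unfold Kge; positivity
  have hKK : KK ≠ ⊤ := ENNReal.ofReal_ne_top
  set V : ℝ≥0∞ := ∑ l, ‖v l‖ₑ ^ p with hV
  have hVt : V ≠ ⊤ := ENNReal.sum_ne_top.2 fun l _ =>
    ENNReal.rpow_ne_top_of_nonneg hp0.le enorm_ne_top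
  set P2 : ℝ≥0∞ := ENNReal.ofReal ((2 * 1) ^ p) with hP2
  have hP2t : P2 ≠ ⊤ := ENNReal.ofReal_ne_top
  set R1 : ℝ≥0∞ := ENNReal.ofReal ((2 * (18 * a0 * n)) ^ p) with hR1
  set R2 : ℝ≥0∞ := R1 + P2 * (KK * P2) + 1 with hR2
  have hR2t : R2 ≠ ⊤ := ENNReal.add_ne_top.2 ⟨ENNReal.add_ne_top.2 ⟨ENNReal.ofReal_ne_top,
      ENNReal.mul_ne_top ENNReal.ofReal_ne_top (ENNReal.mul_ne_top hKK ENNReal.ofReal_ne_top)⟩,
      ENNReal.one_ne_top⟩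
  have hR20 : R2 ≠ 0 := by rw [hR2]; simp
  -- factors of the stretch
  set q3 : ℝ≥0∞ := 1 + ENNReal.ofReal ((2 * (2 * n + 3)) ^ p) with hq3
  set q1 : ℝ≥0∞ := ENNReal.ofReal ((2 * (2 * n + 1)) ^ p) with hq1
  have hq3t : q3 ≠ ⊤ := ENNReal.add_ne_top.2 ⟨ENNReal.one_ne_top, ENNReal.ofReal_ne_top⟩
  have hq30 : q3 ≠ 0 := by rw [hq3]; simp
  have hq1t : q1 ≠ ⊤ := ENNReal.ofReal_ne_top
  set R3 : ℝ≥0∞ := R2 * q3 with hR3
  have hR3t : R3 ≠ ⊤ := ENNReal.mul_ne_top hR2t hq3t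
  have hR30 : R3 ≠ 0 := mul_ne_zero hR20 hq30
  have hd2 : 0 < d / 2 := ENNReal.half_pos hd.ne'
  have hd4 : 0 < d / 2 / 2 := ENNReal.half_pos hd2.ne'
  -- target for the rigidity
  obtain ⟨d₂, hd₂, hd₂le⟩ := exists_real_le (x := d / 2 / R3 / (Fintype.card J + 1))
    (ENNReal.div_pos (ENNReal.div_pos hd2.ne' hR3t).ne' (by
      exact ENNReal.add_ne_top.2 ⟨ENNReal.natCast_ne_top _, ENNReal.one_ne_top⟩))
  have hrig := fun l => near_of_contr (μ := μ) (E := E) hp (v l) hCT hd₂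
  choose βl hβl δl hδl Hl using hrig
  obtain ⟨β, hβ, hβle⟩ := exists_pos_le βl hβl
  obtain ⟨δc, hδc, hδcle⟩ := exists_pos_le δl hδl
  -- choice of `m`
  have hδc0 : 0 < ENNReal.ofReal δc := by simpa using hδc
  set Acard : ℝ≥0∞ := 1 + Fintype.card ι with hAcard
  have hAct : Acard ≠ ⊤ := ENNReal.add_ne_top.2 ⟨ENNReal.one_ne_top, ENNReal.natCast_ne_top _⟩
  set A1 : ℝ≥0∞ := (R2 * q1 + (P2 * (KK * P2) + P2)) * V * Acard with hA1
  have hA1t : A1 ≠ ⊤ := ENNReal.mul_ne_top (ENNReal.mul_ne_top (ENNReal.add_ne_top.2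
    ⟨ENNReal.mul_ne_top hR2t hq1t, ENNReal.add_ne_top.2
    ⟨ENNReal.mul_ne_top ENNReal.ofReal_ne_top (ENNReal.mul_ne_top hKK ENNReal.ofReal_ne_top),
      ENNReal.ofReal_ne_top⟩⟩) hVt) hAct
  set A3 : ℝ≥0∞ := A1 + Acard with hA3
  have hA3t : A3 ≠ ⊤ := ENNReal.add_ne_top.2 ⟨hA1t, hAct⟩
  obtain ⟨m, hm, hmd⟩ := exists_m hn0 hp0 hVt hA3t (lt_min hd4 hδc0)
  have hm' : (0:ℝ) < m := by exact_mod_cast hm
  have hm1 : (1:ℝ) ≤ m := by exact_mod_cast hm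
  have hA3m : A3 / m ≤ min (d / 2 / 2) (ENNReal.ofReal δc) := le_trans le_add_self hmd
  have hmd1 : ENNReal.ofReal ((2 * (2 * n * (1 / (8 * m)))) ^ p) * V + A1 / m ≤ d / 2 / 2 := by
    refine le_trans (add_le_add le_rfl ?_) (hmd.trans (min_le_left _ _))
    exact ENNReal.div_le_div_right le_self_add _
  have hAm : Acard / m ≤ min (d / 2 / 2) (ENNReal.ofReal δc) :=
    (ENNReal.div_le_div_right le_add_self _).trans hA3m
  -- parameters of the stretch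
  have hη : 0 < ηm m := by unfold ηm; positivity
  have hη1 : ηm m ≤ 1 / 2 := by
    unfold ηm; rw [div_le_div_iff₀ (by positivity) (by norm_num)]; linarith
  have hε : 0 < εU a0 m := εU_pos ha0 hm
  have hε128 : εU a0 m ≤ 1 / 128 := εU_le ha0 hm
  have hε1 : εU a0 m < 1 := by linarith
  have hεη : εU a0 m ≤ ηm m / 2 / (8 * a0 ^ 2) := le_of_eq (by
    unfold εU ηm; field_simp; norm_num)
  have hw : 0 < ws m := ws_pos hm
  have hw1 : ws m ≤ 1 / 2 := by have := ws_le hm; linarith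
  set G : ℝ := GU a0 m with hGd
  have hG1 : 1 ≤ G := GU_ge ha0 hm
  have hG0 : 0 < G := by linarith
  have hGw : 1 / (2 * ws m) ≤ 2 * G := GU_slope ha0 hm
  have hGG : G⁻¹ * G = 1 := inv_mul_cancel₀ hG0.ne'
  set gp : ℝ≥0∞ := ENNReal.ofReal (G ^ p) with hgp
  have hgp0 : gp ≠ 0 := by rw [hgp]; simpa using Real.rpow_pos_of_pos hG0 p
  have hgpt : gp ≠ ⊤ := ENNReal.ofReal_ne_top
  refine ⟨m, hm, β, hβ, ?_⟩
  intro c₂ hc02 hc₂
  -- constants after `c₂`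
  have hKge2 : 0 ≤ Kge ι a0 c₁ + Kge ι a0 c₂ := by unfold Kge; positivity
  set Z : ℝ≥0∞ := P2 * (ENNReal.ofReal ((Kge ι a0 c₁ + Kge ι a0 c₂) ^ p) *
    ENNReal.ofReal (((2 * n + 2) * CT) ^ p)) * P2 + 1 with hZ
  have hZt : Z ≠ ⊤ := ENNReal.add_ne_top.2 ⟨ENNReal.mul_ne_top (ENNReal.mul_ne_top hP2t
    (ENNReal.mul_ne_top ENNReal.ofReal_ne_top ENNReal.ofReal_ne_top)) hP2t, ENNReal.one_ne_top⟩
  have hZ0 : Z ≠ 0 := by rw [hZ]; simp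
  have hd8 : 0 < d / 2 / 2 / 2 := ENNReal.half_pos hd4.ne'
  set t' : ℝ≥0∞ := min (1 / m / 2) (d / 2 / 2 / 2 / (Z * (V + 1))) with ht'
  have hV1 : V + 1 ≠ ⊤ := ENNReal.add_ne_top.2 ⟨hVt, ENNReal.one_ne_top⟩
  have ht'0 : t' ≠ 0 := by
    rw [ht']
    refine (lt_min ?_ ?_).ne'
    · exact ENNReal.half_pos (ENNReal.div_pos one_ne_zero (ENNReal.natCast_ne_top _)).ne'
    · exact ENNReal.div_pos hd8.ne' (ENNReal.mul_ne_top hZt hV1)
  set δ : ℝ≥0∞ := min (ENNReal.ofReal δc / gp) (d / 2 / 2 / 2 / (Z * gp)) with hδd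
  have hδ0 : 0 < δ := by
    rw [hδd]
    refine lt_min (ENNReal.div_pos hδc0.ne' hgpt) ?_
    exact ENNReal.div_pos hd8.ne' (ENNReal.mul_ne_top hZt hgpt)
  have hδ1 : gp * δ ≤ ENNReal.ofReal δc := by
    calc gp * δ ≤ gp * (ENNReal.ofReal δc / gp) := mul_le_mul' le_rfl (min_le_left _ _)
      _ = _ := ENNReal.mul_div_cancel hgp0 hgpt
  have hδ2 : Z * (gp * δ) ≤ d / 2 / 2 / 2 := by
    rw [← mul_assoc]
    calc Z * gp * δ ≤ Z * gp * (d / 2 / 2 / 2 / (Z * gp)) := mul_le_mul' le_rfl (min_le_right _ _)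
      _ = _ := ENNReal.mul_div_cancel (mul_ne_zero hZ0 hgp0) (ENNReal.mul_ne_top hZt hgpt)
  have ht2 : Z * (V * t') ≤ d / 2 / 2 / 2 := by
    calc Z * (V * t') ≤ Z * ((V + 1) * (d / 2 / 2 / 2 / (Z * (V + 1)))) :=
          mul_le_mul' le_rfl (mul_le_mul' le_self_add (min_le_right _ _))
      _ = Z * (V + 1) * (d / 2 / 2 / 2 / (Z * (V + 1))) := by rw [mul_assoc]
      _ = _ := ENNReal.mul_div_cancel (mul_ne_zero hZ0 (by simp)) (ENNReal.mul_ne_top hZt hV1)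
  refine ⟨δ, hδ0, ?_⟩
  intro Ω Λ φ e D hΩ hΩne hΩf hΛ hφ hmaps hD hδ
  have hΩ0 : μ Ω ≠ 0 := (hΩ.measure_pos μ hΩne).ne'
  obtain ⟨K₁, K₀, hK₁, hK, hne, hK₁₀, hKΛ, hμ1, r, hr, hrΛ, e₁, he₁, hnb, Hs⟩ :=
    setupU (μ := μ) hΩ hΩne hΩf hΛ hφ hmaps (t := t' * μ Ω) (mul_ne_zero ht'0 hΩ0)
  obtain ⟨s₀, hs₀, H1⟩ := Hs (εU a0 m) hε hε1
  -- the closeness for the rigidity
  have he := fun l => Hl l Ω hΩ hΩf hΩne (e l)
  choose el hel Hel using he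
  obtain ⟨e₂, he₂, he₂le⟩ := exists_pos_le el hel
  refine ⟨K₀, hK, hne, hKΛ, r, hr, hrΛ, min e₁ e₂, lt_min he₁ he₂, s₀, hs₀, ?_⟩
  intro s hs hss
  have hStP := H1 (ws m) hw hw1 s hs hss
  refine ⟨hStP, ?_⟩
  intro th hth hthn b
  -- `φ₂`
  have hΓφ : ContinuousOn (fun x => Gm k G (φ x)) Ω := (continuous_Gm k G).comp_continuousOn hφ
  have hφ₂ : ContinuousOn (fun x => Gm k G⁻¹ (th (Gm k G (φ x)))) Ω :=
    (continuous_Gm k G⁻¹).comp_continuousOn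
      (hth.comp hΓφ fun x hx => mem_image_of_mem _ (hmaps hx))
  have hdist : ∀ (f : EE ι → EE ι), (∀ y, ‖f y - y‖ ≤ min e₁ e₂) → ∀ y : EE ι,
      ‖Gm k G⁻¹ (f (Gm k G y)) - y‖ ≤ e₁ := by
    intro f hf y
    have h1 : Gm k G⁻¹ (f (Gm k G y)) - y = Gm k G⁻¹ (f (Gm k G y) - Gm k G y) := by
      rw [← Gm_sub, Gm_Gm hGG]
    rw [h1]
    exact (norm_Gm_inv_le hG1 _).trans ((hf _).trans (min_le_left _ _))
  obtain ⟨a, ha, hXm⟩ := offsetsU (μ := μ) k hm hs hΩ hφ₂ b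
  obtain ⟨S, hS, hSe⟩ := isStretch_of (k := k) (a := a k) hr hK hrΛ hne hStP
  have mG : MeasurableSet (GX K₀ k a s (wm m) (ηm m)) :=
    measurableSet_GX hK.measurableSet k a hs (by unfold wm; positivity) (by
      unfold wm; rw [div_le_div_iff₀ (by positivity) (by norm_num)]; linarith)
  set X₀ : Set E := Ω ∩ φ ⁻¹' K₁ᶜ with hX₀
  have mX₀ : MeasurableSet X₀ :=
    measurableSet_inter_preimage hΩ.measurableSet hφ hK₁.measurableSet.compl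
  set X₂ : Set E := Ω ∩ (fun x => Gm k G⁻¹ (th (Gm k G (φ x)))) ⁻¹'
    (GX K₀ k a s (wm m) (ηm m))ᶜ with hX₂
  have mX₂ : MeasurableSet X₂ :=
    measurableSet_inter_preimage hΩ.measurableSet hφ₂ mG.compl
  set X : Set E := X₀ ∪ X₂ with hX
  have mX : MeasurableSet X := mX₀.union mX₂
  have hXΩ : X ⊆ Ω := union_subset inter_subset_left inter_subset_left
  have hX₀le : μ X₀ ≤ t' * μ Ω := hμ1
  have hX₂le : μ X₂ ≤ t' * μ Ω + Fintype.card ι * (μ Ω / m) := by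
    refine (hXm K₀).trans (add_le_add (le_trans (measure_mono ?_) hμ1) le_rfl)
    rintro x ⟨hx, hx2⟩
    refine ⟨hx, fun hx3 => hx2 ?_⟩
    exact hnb _ hx3 _ (hdist th hthn (φ x))
  have hXle : μ X ≤ Acard / m * μ Ω := by
    calc μ X ≤ μ X₀ + μ X₂ := measure_union_le _ _
      _ ≤ t' * μ Ω + (t' * μ Ω + Fintype.card ι * (μ Ω / m)) := add_le_add hX₀le hX₂le
      _ ≤ 1 / m / 2 * μ Ω + (1 / m / 2 * μ Ω + Fintype.card ι * (μ Ω / m)) := by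
          have := min_le_left (1 / (m : ℝ≥0∞) / 2) (d / 2 / 2 / 2 / (Z * (V + 1)))
          gcongr
      _ = (1 / m / 2 + 1 / m / 2) * μ Ω + Fintype.card ι * (μ Ω / m) := by ring
      _ = Acard / m * μ Ω := by
          rw [ENNReal.add_halves, hAcard]
          simp only [div_eq_mul_inv]; ring
  have hgoodφ : ∀ x ∈ Ω \ X, φ x ∈ K₁ := by
    rintro x ⟨hx, hx2⟩
    by_contra hcon
    exact hx2 (Or.inl ⟨hx, hcon⟩)
  have hgoodG : ∀ x ∈ Ω \ X, Gm k G⁻¹ (th (Gm k G (φ x))) ∈ GX K₀ k a s (wm m) (ηm m) := by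
    rintro x ⟨hx, hx2⟩
    by_contra hcon
    exact hx2 (Or.inr ⟨hx, hcon⟩)
  refine ⟨a, ha, S, hS, hSe, X, hXΩ, mX, ?_, fun x hx => ⟨hK₁₀ (hgoodφ x hx), hgoodG x hx⟩, ?_⟩
  · refine hXle.trans (mul_le_mul' (hAm.trans ((min_le_left _ _).trans ?_)) le_rfl)
    exact ENNReal.half_le_self.trans ENNReal.half_le_self
  intro T hTL hTn hT4 I _ Q hF hA hU z B hz hB hB1
  have hSc : Continuous S := S.continuous
  have hTlip : LipschitzWith (Real.toNNReal CT) T := by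
    apply LipschitzWith.of_dist_le_mul
    intro y y'
    rw [dist_eq_norm, dist_eq_norm, Real.coe_toNNReal _ (by linarith)]
    exact hTL y y'
  have hTφ : ContinuousOn (fun x => T (Gm k G (φ x))) Ω := hTlip.continuous.comp_continuousOn hΓφ
  have hψ : ContinuousOn (fun x => Gm k G⁻¹ (T (Gm k G (φ x)))) Ω :=
    (continuous_Gm k G⁻¹).comp_continuousOn hTφ
  have hf : ContinuousOn (fun x => S (Gm k G⁻¹ (T (Gm k G (φ x))))) Ω :=
    hSc.comp_continuousOn hψ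
  have hFC := foamHole ha0 hF hA hz hB
  -- the good points
  have hψK : ∀ x, φ x ∈ K₁ → Gm k G⁻¹ (T (Gm k G (φ x))) ∈ K₀ := fun x hx =>
    hnb _ hx _ (hdist T hTn (φ x))
  have hψG : ∀ x ∈ Ω \ X, Gm k G⁻¹ (T (Gm k G (φ x))) ∈ GX K₀ k a s (ws m) (ηm m / 2) := by
    intro x hx
    refine gx_near hm hs (hgoodG x hx) (hψK x (hgoodφ x hx)) ?_
    rw [Gm_sub]
    exact (norm_Gm_inv_le hG1 _).trans
      (hT4 _ (mem_image_of_mem _ (hmaps hx.1)) (hgoodG x hx)).1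
  have hχ1 : ∀ y ∈ K₀, ∀ᶠ y' in 𝓝 y, cutf K₀ r y' = 1 := fun y hy => cutf_near hr hy
  have hχ0 : ∀ y ∈ K₀, cutf K₀ r y = 1 := fun y hy => (hχ1 y hy).self_of_nhds
  refine ⟨fun x hx => ⟨hψK x (hgoodφ x hx), fun c hc => ?_⟩, ?_⟩
  · rw [hSe] at hc ⊢
    exact good_lands ha0 hFC hA hStP hχ0 hU (by positivity) (by linarith) hεη (hψG x hx) hc
  intro D' hD'
  -- weak derivatives
  have hD₁ : ∀ l, VWD Ω μ (fun x => Gm k G (φ x)) (fun x => Gm k G (D l x)) (e l) :=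
    fun l => vwd_Gm (hD l) k G
  have hexH : ∀ l, ∃ H, VWD Ω μ (fun x => T (Gm k G (φ x))) H (e l) := fun l =>
    comp_exists hΩ (hD₁ l) hΓφ (S := univ) (fun x _ => mem_univ _)
      hTlip.locallyLipschitz.locallyLipschitzOn
  choose H hH using hexH
  have hH' : ∀ l, VWD Ω μ (fun x => Gm k G⁻¹ (T (Gm k G (φ x)))) (fun x => Gm k G⁻¹ (H l x))
      (e l) := fun l => vwd_Gm (hH l) k G⁻¹
  have hex2 : ∀ l, ∃ D₂, VWD Ω μ (fun x => S (Gm k G⁻¹ (T (Gm k G (φ x))))) D₂ (e l) := by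
    intro l
    rw [hSe]
    exact St_wd (k := k) (a := a k) hStP.hs hStP.hw hStP.hw1 hStP.hε.le hStP.hε1.le hStP.χ0
      hStP.χ1 hStP.hL hStP.hL0 hΩ hψ (hH' l)
  choose D₂ hD₂ using hex2
  -- bounds for `H`
  have hb1 : ∀ l, ∀ᵐ x ∂μ, x ∈ Ω → ‖H l x‖ ≤ CT * ‖Gm k G (D l x)‖ := by
    intro l
    refine comp_bound hΩ (hD₁ l) hΓφ (S := univ) (fun x _ => mem_univ _)
      hTlip.continuous.continuousOn (hH l) aemeasurable_const ?_
    intro x hx ε' hε'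
    refine Eventually.of_forall fun y => ?_
    refine (hTL y (Gm k G (φ x))).trans ?_
    gcongr
    linarith
  have hb2 : ∀ l, ∀ᵐ x ∂μ, x ∈ Ω → x ∉ X → ‖H l x‖ ≤ (1 + β) * ‖Gm k G (D l x)‖ := by
    intro l
    have hm2 : AEMeasurable (fun x => X.indicator (fun _ => CT) x +
        Xᶜ.indicator (fun _ => 1 + β) x) (μ.restrict Ω) :=
      ((measurable_const.indicator mX).add (measurable_const.indicator mX.compl)).aemeasurable
    have h1 := comp_bound hΩ (hD₁ l) hΓφ (S := univ) (fun x _ => mem_univ _)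
      hTlip.continuous.continuousOn (hH l) hm2 (by
        intro x hx ε' hε'
        rw [nhdsWithin_univ]
        by_cases hxX : x ∈ X
        · rw [indicator_of_mem hxX, indicator_of_notMem (by simpa using hxX), add_zero]
          refine Eventually.of_forall fun y => ?_
          refine (hTL y (Gm k G (φ x))).trans ?_
          gcongr
          linarith
        · rw [indicator_of_notMem hxX, indicator_of_mem (by simpa using hxX), zero_add]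
          have hk := (hT4 _ (mem_image_of_mem _ (hmaps hx)) (hgoodG x ⟨hx, hxX⟩)).2
          filter_upwards [hk] with y hy
          refine hy.trans ?_
          exact mul_le_mul_of_nonneg_right (by linarith) (norm_nonneg _))
    filter_upwards [h1] with x hx hxΩ hxX
    have h2 := hx hxΩ
    rwa [indicator_of_notMem hxX, indicator_of_mem (by simpa using hxX), zero_add] at h2
  -- `Γ φ` is close to `v`
  have hclose1 : ∫⁻ x in Ω, ∑ l, ‖Gm k G (D l x) - v l‖ₑ ^ p ∂μ ≤ gp * (δ * μ Ω) := by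
    refine le_trans ?_ (mul_le_mul' le_rfl hδ)
    rw [← lintegral_const_mul' _ _ hgpt]
    apply lintegral_mono
    intro x
    simp only
    rw [Finset.mul_sum]
    apply Finset.sum_le_sum
    intro l _
    apply enorm_one hp0.le hG0.le
    have h1 : Gm k G (D l x) - v l = Gm k G (D l x - v l) := by
      rw [← Gm_sub, Gm_fix (hv l)]
    rw [h1]
    exact norm_Gm_le hG1 _
  have hclose2 : ∀ l, ∫⁻ x in Ω, ‖H l x - v l‖ₑ ^ p ∂μ ≤ ENNReal.ofReal d₂ * μ Ω := by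
    intro l
    refine Hel l (fun x => Gm k G (φ x)) (fun x => T (Gm k G (φ x))) (fun x => Gm k G (D l x)) (H l)
      (hD₁ l) (hH l)
      (fun x _ => (hTn _).trans ((min_le_right _ _).trans (he₂le l))) X mX ?_ (hb1 l) ?_ ?_
    · have h2 : Ω ∩ X = X := inter_eq_right.2 hXΩ
      rw [h2]
      refine hXle.trans (mul_le_mul' (hAm.trans ((min_le_right _ _).trans ?_)) le_rfl)
      exact ENNReal.ofReal_le_ofReal (hδcle l)
    · filter_upwards [hb2 l] with x hx h1 h2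
      refine (hx h1 h2).trans ?_
      gcongr
      exact hβle l
    · refine le_trans ?_ (hclose1.trans (?_ : _ ≤ ENNReal.ofReal (δl l) * μ Ω))
      · apply lintegral_mono
        intro x
        exact Finset.single_le_sum (f := fun l => ‖Gm k G (D l x) - v l‖ₑ ^ p)
          (fun _ _ => zero_le) (Finset.mem_univ l)
      · rw [← mul_assoc]
        exact mul_le_mul' (hδ1.trans (ENNReal.ofReal_le_ofReal (hδcle l))) le_rfl
  set G₁ : ℝ≥0∞ := ∫⁻ x in Ω, ∑ l, ‖H l x - v l‖ₑ ^ p ∂μ with hG₁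
  have hG₁le : R3 * G₁ ≤ d / 2 * μ Ω := by
    have h1 : G₁ ≤ (Fintype.card J) * (ENNReal.ofReal d₂ * μ Ω) := by
      have hmeas : ∀ l ∈ Finset.univ (α := J),
          AEMeasurable (fun x => ‖H l x - v l‖ₑ ^ p) (μ.restrict Ω) := fun l _ =>
        ((((hH l).aemeas.sub aemeasurable_const).enorm).pow_const p)
      rw [hG₁, lintegral_finsetSum' _ hmeas]
      refine (Finset.sum_le_sum fun l _ => hclose2 l).trans (le_of_eq ?_)
      rw [Finset.sum_const, Finset.card_univ, nsmul_eq_mul]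
    calc R3 * G₁ ≤ R3 * ((Fintype.card J) * (d / 2 / R3 / (Fintype.card J + 1) * μ Ω)) :=
          mul_le_mul' le_rfl (h1.trans (mul_le_mul' le_rfl (mul_le_mul' hd₂le le_rfl)))
      _ ≤ R3 * (((Fintype.card J) + 1) * (d / 2 / R3 / (Fintype.card J + 1) * μ Ω)) :=
          mul_le_mul' le_rfl (mul_le_mul' le_self_add le_rfl)
      _ = d / 2 * μ Ω := by
          rw [← mul_assoc ((Fintype.card J : ℝ≥0∞) + 1), ENNReal.mul_div_cancel (by simp)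
            (ENNReal.add_ne_top.2 ⟨ENNReal.natCast_ne_top _, ENNReal.one_ne_top⟩), ← mul_assoc,
            ENNReal.mul_div_cancel hR30 hR3t]
  -- the stretched map
  obtain ⟨hptw, hstr⟩ := stretch_closeU (μ := μ) hp0.le hStP hG1 hGw (a := a k) hΩ hψ hv hH' (by
    rw [← hSe]; exact hD₂)
  set G₂ : ℝ≥0∞ := ∫⁻ x in Ω, ∑ l, ‖D₂ l x - v l‖ₑ ^ p ∂μ with hG₂
  have hG₂le : G₂ ≤ q3 * G₁ + q1 * V * μ X :=
    hstr X mX hXΩ fun x hx => ⟨hχ1 _ (hψK x (hgoodφ x hx)), (hψG x hx).2.1⟩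
  -- the bounded factor
  have hO := hFC.isOpen_dom hΛ hΩ hf
  set U : Set E := Ω ∩ (fun x => S (Gm k G⁻¹ (T (Gm k G (φ x))))) ⁻¹' (Pun Λ B) with hUd
  have hptw2 : ∀ᵐ x ∂μ, ∀ l, x ∈ U → ‖D' l x‖ ≤ (Kge ι a0 c₁ + Kge ι a0 c₂) * ‖D₂ l x‖ ∧
      ((∀ c, S (Gm k G⁻¹ (T (Gm k G (φ x)))) ∈ SE (Q c) → Nr K₀ s (Q c)) →
        ‖D' l x‖ ≤ Kge ι a0 c₁ * ‖D₂ l x‖) := ae_all_iff.2 fun l =>
    pushBF_two ha0 hc₁ hc₂ hΛ hF hA hz hc0 hc02 hB hB1 hΩ hf (hD₂ l) (hD' l)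
  have hnear : ∀ x, φ x ∈ K₁ → ∀ c, S (Gm k G⁻¹ (T (Gm k G (φ x)))) ∈ SE (Q c) →
      Nr K₀ s (Q c) := fun x hx c hc => ⟨_, hc, _, hψK x hx, hS.near _⟩
  set Er : ℝ≥0∞ := ENNReal.ofReal ((Kge ι a0 c₁ + Kge ι a0 c₂) ^ p) *
    (ENNReal.ofReal (((2 * n + 2) * CT) ^ p) * (P2 * (gp * (δ * μ Ω)) + P2 * V * (t' * μ Ω)))
    with hEr
  have hbad1 : ∫⁻ x in X₀ ∩ U, ∑ l, ‖D' l x‖ₑ ^ p ∂μ ≤ Er := by
    have h1 : ∫⁻ x in X₀ ∩ U, ∑ l, ‖D' l x‖ₑ ^ p ∂μ ≤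
        ∫⁻ x in X₀, ENNReal.ofReal ((Kge ι a0 c₁ + Kge ι a0 c₂) ^ p) *
          (ENNReal.ofReal (((2 * n + 2) * CT) ^ p) * ∑ l, ‖Gm k G (D l x)‖ₑ ^ p) ∂μ := by
      refine le_trans ?_ (lintegral_mono_set (inter_subset_left : X₀ ∩ U ⊆ X₀))
      apply lintegral_mono_ae
      refine (ae_restrict_iff' (mX₀.inter hO.measurableSet)).2 ?_
      filter_upwards [hptw2, hptw, ae_all_iff.2 hb1] with x h1 h2 h3 hx
      rw [Finset.mul_sum, Finset.mul_sum]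
      apply Finset.sum_le_sum
      intro l _
      refine (enorm_one hp0.le hKge2 (h1 l hx.2).1).trans (mul_le_mul' le_rfl ?_)
      apply enorm_one hp0.le (by positivity)
      refine (h2 l hx.2.1).trans ?_
      rw [mul_assoc]
      exact mul_le_mul_of_nonneg_left (h3 l hx.2.1) (by positivity)
    refine h1.trans ?_
    rw [lintegral_const_mul' _ _ ENNReal.ofReal_ne_top, lintegral_const_mul' _ _
      ENNReal.ofReal_ne_top, hEr]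
    refine mul_le_mul' le_rfl (mul_le_mul' le_rfl ?_)
    refine (energy_on hp0.le (inter_subset_left : X₀ ⊆ Ω) (fun l x => Gm k G (D l x)) v).trans ?_
    exact add_le_add (mul_le_mul' le_rfl hclose1) (mul_le_mul' le_rfl hX₀le)
  have hbad2 : ∫⁻ x in (X \ X₀) ∩ U, ∑ l, ‖D' l x‖ₑ ^ p ∂μ ≤
      KK * ∫⁻ x in X ∩ Ω, ∑ l, ‖D₂ l x‖ₑ ^ p ∂μ := by
    rw [← lintegral_const_mul' _ _ hKK]
    have hsub : (X \ X₀) ∩ U ⊆ X ∩ Ω := fun x hx => ⟨hx.1.1, hx.2.1⟩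
    refine le_trans ?_ (lintegral_mono_set hsub)
    apply lintegral_mono_ae
    refine (ae_restrict_iff' ((mX.diff mX₀).inter hO.measurableSet)).2 ?_
    filter_upwards [hptw2] with x h1 hx
    rw [Finset.mul_sum]
    apply Finset.sum_le_sum
    intro l _
    have hxK : φ x ∈ K₁ := by
      by_contra hcon
      exact hx.1.2 ⟨hx.2.1, hcon⟩
    exact enorm_one hp0.le hKge ((h1 l hx.2).2 (hnear x hxK))
  have hbad : ∫⁻ x in X ∩ U, ∑ l, ‖D' l x‖ₑ ^ p ∂μ ≤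
      KK * ∫⁻ x in X ∩ Ω, ∑ l, ‖D₂ l x‖ₑ ^ p ∂μ + Er := by
    have hsplit : X ∩ U ⊆ ((X \ X₀) ∩ U) ∪ (X₀ ∩ U) := by
      rintro x ⟨hx, hx2⟩
      by_cases h1 : x ∈ X₀
      · exact Or.inr ⟨h1, hx2⟩
      · exact Or.inl ⟨⟨hx, h1⟩, hx2⟩
    calc _ ≤ ∫⁻ x in ((X \ X₀) ∩ U) ∪ (X₀ ∩ U), ∑ l, ‖D' l x‖ₑ ^ p ∂μ :=
          lintegral_mono_set hsplit
      _ ≤ _ := lintegral_union_le _ _ _
      _ ≤ _ := add_le_add hbad2 hbad1
  have hgoodH : ∀ x ∈ Ω \ X, S (Gm k G⁻¹ (T (Gm k G (φ x)))) ∈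
      HorS Q (fun c => coreBF (Q c) (z c)) k (1 - (ηm m / 2) / a0) := by
    intro x hx
    rw [hSe]
    exact good_mem ha0 hFC hA hStP hχ0 hU (by positivity) hεη (hψG x hx)
  have key := push_closeU (μ := μ) (η := ηm m / 2) ha0 hp0.le hΛ hFC (by positivity) (by linarith)
    hΩ hf hv hD₂ hD' mX.nullMeasurableSet hXΩ hgoodH hbad
  refine key.trans ?_
  rw [← hn, ← hR1, ← hP2, ← hV, ← hG₂]
  have hη2 : ENNReal.ofReal ((2 * (2 * n * (ηm m / 2))) ^ p) ≤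
      ENNReal.ofReal ((2 * (2 * n * (1 / (8 * m)))) ^ p) := by
    apply ENNReal.ofReal_le_ofReal
    apply Real.rpow_le_rpow (by positivity) _ hp0.le
    have : ηm m = 1 / (8 * m) := rfl
    rw [this]
    have h8 : 0 ≤ n * (1 / (8 * (m:ℝ))) := by positivity
    linarith
  have hErle : P2 * Er ≤ d / 2 / 2 * μ Ω := by
    calc P2 * Er = (P2 * (ENNReal.ofReal ((Kge ι a0 c₁ + Kge ι a0 c₂) ^ p) *
          ENNReal.ofReal (((2 * n + 2) * CT) ^ p)) * P2) * (gp * δ + V * t') * μ Ω := by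
          rw [hEr]; ring
      _ ≤ Z * (gp * δ + V * t') * μ Ω := by
          gcongr
          rw [hZ]; exact le_self_add
      _ = (Z * (gp * δ) + Z * (V * t')) * μ Ω := by ring
      _ ≤ (d / 2 / 2 / 2 + d / 2 / 2 / 2) * μ Ω := by gcongr
      _ = _ := by rw [ENNReal.add_halves]
  calc (R1 * G₂ + ENNReal.ofReal ((2 * (2 * n * (ηm m / 2))) ^ p) * V * μ Ω) +
        (P2 * (KK * (P2 * G₂ + P2 * V * μ X) + Er) + P2 * V * μ X)
      = (R1 + P2 * (KK * P2)) * G₂ + (ENNReal.ofReal ((2 * (2 * n * (ηm m / 2))) ^ p) * V * μ Ω +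
        (P2 * (KK * P2) + P2) * V * μ X) + P2 * Er := by ring
    _ ≤ R2 * (q3 * G₁ + q1 * V * μ X) +
        (ENNReal.ofReal ((2 * (2 * n * (1 / (8 * m)))) ^ p) * V * μ Ω +
        (P2 * (KK * P2) + P2) * V * μ X) + P2 * Er := by
        gcongr
        exact le_self_add
    _ = R3 * G₁ + (ENNReal.ofReal ((2 * (2 * n * (1 / (8 * m)))) ^ p) * V * μ Ω +
        (R2 * q1 + (P2 * (KK * P2) + P2)) * V * μ X) + P2 * Er := by rw [hR3]; ring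
    _ ≤ R3 * G₁ + (ENNReal.ofReal ((2 * (2 * n * (1 / (8 * m)))) ^ p) * V * μ Ω +
        (R2 * q1 + (P2 * (KK * P2) + P2)) * V * (Acard / m * μ Ω)) + P2 * Er := by
        gcongr
    _ = R3 * G₁ + (ENNReal.ofReal ((2 * (2 * n * (1 / (8 * m)))) ^ p) * V + A1 / m) * μ Ω +
        P2 * Er := by
        rw [hA1]; simp only [div_eq_mul_inv]; ring
    _ ≤ d / 2 * μ Ω + d / 2 / 2 * μ Ω + d / 2 / 2 * μ Ω :=
        add_le_add (add_le_add hG₁le (mul_le_mul' hmd1 le_rfl)) hErle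
    _ = d / 2 * μ Ω + (d / 2 / 2 + d / 2 / 2) * μ Ω := by ring
    _ = d / 2 * μ Ω + d / 2 * μ Ω := by rw [ENNReal.add_halves]
    _ = d * μ Ω := by rw [← add_mul, ENNReal.add_halves]

end Crest.Agent.R96.PnU_849
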