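/-
helper538, row 96, p ≤ 2, COMPOSITE B (622), (1') = clause `gam` of `Ea0_961.InS`: on a thin tube round
a part `E` of the 1-skeleton the squeezed map is close to the affine map.
-/
import Mathlib
import Crest.Agent.R096.Sqt7_143

set_option autoImplicit false
set_option linter.unusedSectionVars false
set_option maxHeartbeats 400000

open Set Metric Filter Topology
open scoped NNReal

namespace Crest.Agent.R96.Gam_538

open Crest.Agent.R096.Sq_55 Crest.Agent.R096.Sqt_143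
open Crest.AnalysisR.VecCalc3 (R3)

/-- a closed cell is the closure of its open part -/
theorem Cell.sub_closure (C : Cell) : C.P ⊆ closure C.U := by
  intro x hx
  have h1 : ContinuousOn C.e' (closure (ball (0 : E3) 1)) := by
    rw [closure_ball (0 : E3) one_ne_zero]
    exact C.cht.lip'.continuousOn
  have h2 : C.e x ∈ closure (ball (0 : E3) 1) := by
    rw [closure_ball (0 : E3) one_ne_zero]
    exact C.cht.maps hx
  have h3 := h1.image_closure ⟨C.e x, h2, rfl⟩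
  rw [C.cht.inv x hx] at h3
  refine closure_mono ?_ h3
  rintro _ ⟨z, hz, rfl⟩
  exact (C.cht.mem' (ball_subset_closedBall hz)).2 hz

variable {κ ι : Type*} [Fintype κ] [Fintype ι] {X : Sys κ ι} {p δ : ℝ}

/-- where `chi` maps the points near a point `y0` of the closed cells, with uniform constants -/
theorem chi_near (h : X.Adm p δ) (N₁ N₂ : ℕ) {k : κ} {x y0 : E3} {u m : ℝ} (hm1 : 1 ≤ m)
    (hx : x ∈ (X.C k).U) (hy : y0 ∉ (X.C k).U) (hyV : ∀ j, y0 ∉ (X.F j).V) (hxy : ‖x - y0‖ ≤ u)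
    (hmk : (X.m k : ℝ) ≤ m) (hu : 4 * m * u ≤ (X.C k).R)
    (huF : ∀ j, ((X.F j).V ∩ (X.C k).P).Nonempty → 40 * m ^ 3 * u ≤ (X.F j).ρ) :
    ‖Sys.chi h (N₁+1) (N₂+1) x - x‖ ≤ 24 * m ^ 4 * u ∧
    ∃ y, (y ∈ X.Z ∨ ∃ j, y ∈ (X.F j).rim) ∧ ‖Sys.chi h (N₁+1) (N₂+1) x - y‖ ≤ m * δ := by
  have hmk1 := Sys.m_one (X := X) k
  have hu0 : 0 ≤ u := (norm_nonneg _).trans hxy
  have hR := (X.C k).R_pos
  have hδ := h.d0
  have hmk0 : (0:ℝ) ≤ X.m k := by linarith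
  have hu' : 4 * (X.m k : ℝ) * u ≤ (X.C k).R :=
    (mul_le_mul_of_nonneg_right (by linarith) hu0).trans hu
  have h3 : (X.m k : ℝ) ^ 3 ≤ m ^ 3 := pow_le_pow_left₀ hmk0 hmk 3
  have h4 : (X.m k : ℝ) ^ 4 ≤ m ^ 4 := pow_le_pow_left₀ hmk0 hmk 4
  have huF' : ∀ j, ((X.F j).V ∩ (X.C k).P).Nonempty → 40 * (X.m k : ℝ) ^ 3 * u ≤ (X.F j).ρ :=
    fun j hj => (mul_le_mul_of_nonneg_right (by linarith) hu0).trans (huF j hj)
  obtain ⟨-, a1, a2, a3⟩ := chi_pt h N₁ N₂ hx hy hyV hxy hu' huF'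
  refine ⟨a1.trans (mul_le_mul_of_nonneg_right (by linarith) hu0), ?_⟩
  -- the numbers
  have hm0 : 0 < (X.m k : ℝ) := by linarith
  have c1 : δ / (X.C k).R * u * (4 * X.m k) ≤ δ := by
    have e1 : δ / (X.C k).R * u * (4 * X.m k) = δ * ((4 * X.m k * u) / (X.C k).R) := by
      field_simp
    rw [e1]
    have : (4 * (X.m k : ℝ) * u) / (X.C k).R ≤ 1 := (div_le_one hR).2 hu'
    exact (mul_le_mul_of_nonneg_left this hδ.le).trans (le_of_eq (mul_one _))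
  have c0 : 0 ≤ δ / (X.C k).R * u := by positivity
  by_cases hV : ∀ j, Sys.Y h (N₂+1) x ∉ (X.F j).V
  · rcases a2 hV with ⟨y, hyZ, hy2⟩ | ⟨j, y, hyr, hy2⟩
    · refine ⟨y, Or.inl hyZ, hy2.trans ?_⟩
      nlinarith
    · refine ⟨y, Or.inr ⟨j, hyr⟩, hy2.trans ?_⟩
      have e1 : 3 * (X.m k : ℝ) ^ 2 * (δ / (X.C k).R) * u =
          (3 / 4) * X.m k * (δ / (X.C k).R * u * (4 * X.m k)) := by ring
      rw [e1]
      nlinarith
  · push Not at hV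
    obtain ⟨j, hj⟩ := hV
    obtain ⟨-, y, hyr, hy2⟩ := a3 j hj
    refine ⟨y, Or.inr ⟨j, hyr⟩, hy2.trans ?_⟩
    have hρ := (X.F j).ρ_pos
    have hYP : Sys.Y h (N₂+1) x ∈ (X.C k).P := (Sys.Y_P h (N₂+1) k x).2 ((X.C k).cht.sub hx)
    have c2 : δ / (X.F j).ρ * u * (40 * (X.m k : ℝ) ^ 3) ≤ δ := by
      have e1 : δ / (X.F j).ρ * u * (40 * (X.m k : ℝ) ^ 3) =
          δ * ((40 * (X.m k : ℝ) ^ 3 * u) / (X.F j).ρ) := by field_simp
      rw [e1]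
      have : (40 * (X.m k : ℝ) ^ 3 * u) / (X.F j).ρ ≤ 1 := (div_le_one hρ).2 (huF' j ⟨_, hj, hYP⟩)
      exact (mul_le_mul_of_nonneg_left this hδ.le).trans (le_of_eq (mul_one _))
    have e1 : (X.m k : ℝ) ^ 2 * (δ / (X.C k).R) * u + 10 * (X.m k : ℝ) ^ 3 * (δ / (X.F j).ρ) * u =
        (1 / 4) * X.m k * (δ / (X.C k).R * u * (4 * X.m k)) +
          (1 / 4) * (δ / (X.F j).ρ * u * (40 * (X.m k : ℝ) ^ 3)) := by ring
    rw [e1]
    nlinarith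

/-- **(1')**: near a compact part `E` of the 1-skeleton the map `F ∘ chi` is close to the affine map
`A`, if `F` is close to `A` on the 1-skeleton `T1` (`F = f ∘ Φ`; `E` = edges of the core). -/
theorem gam_tube {E : Set E3} {u u1 m : ℝ} (hm1 : 1 ≤ m) (hu0 : 0 ≤ u)
    (hu1 : u < u1) (hEU : ∀ y ∈ E, ∀ k, y ∉ (X.C k).U) (hEV : ∀ y ∈ E, ∀ j, y ∉ (X.F j).V)
    (hcov : ∀ y ∈ E, ∀ x, ‖x - y‖ ≤ u → ∃ k, x ∈ (X.C k).P)
    (hmk : ∀ y ∈ E, ∀ k, ∀ x ∈ (X.C k).P, ‖x - y‖ ≤ u1 → (X.m k : ℝ) ≤ m ∧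
      4 * m * u1 ≤ (X.C k).R ∧
      ∀ j, ((X.F j).V ∩ (X.C k).P).Nonempty → 40 * m ^ 3 * u1 ≤ (X.F j).ρ)
    {T1 : Set E3} (hT1 : ∀ y, (y ∈ X.Z ∨ ∃ j, y ∈ (X.F j).rim) →
      (∃ y0 ∈ E, ‖y - y0‖ ≤ 26 * m ^ 4 * u1) → y ∈ T1)
    {F : R3 → R3} {K' : Set E3} (hK' : IsCompact K') (hF : ContinuousOn F (w2 '' K'))
    (hEK : ∀ y0 ∈ E, closedBall y0 (26 * m ^ 4 * u1) ⊆ K') {A : E3 → R3} {Λ ε0 : ℝ}
    (hA : ∀ x y, ‖A x - A y‖ ≤ Λ * ‖x - y‖) (hΛ : 0 ≤ Λ)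
    (hT : ∀ y ∈ T1, (∃ y0 ∈ E, ‖y - y0‖ ≤ 26 * m ^ 4 * u1) → ‖F (w2 y) - A y‖ ≤ ε0)
    {e : ℝ} (he : 0 < e) :
    ∃ δ₀ : ℝ, 0 < δ₀ ∧ ∀ (p δ : ℝ) (h : X.Adm p δ), δ < δ₀ → ∀ N₁ N₂ : ℕ, ∀ y0 ∈ E, ∀ x,
      ‖x - y0‖ ≤ u → ‖F (w2 (Sys.chi h (N₁+1) (N₂+1) x)) - A x‖ ≤
        ε0 + Λ * (25 * m ^ 4 * u1) + e := by
  have hu1' : 0 < u1 := lt_of_le_of_lt hu0 hu1
  have hm4 : (1:ℝ) ≤ m ^ 4 := one_le_pow₀ hm1
  have hF' : ContinuousOn (fun y => F (w2 y)) K' :=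
    hF.comp w2.continuous.continuousOn fun y hy => mem_image_of_mem _ hy
  obtain ⟨μ, hμ, Hμ⟩ := Metric.uniformContinuousOn_iff.1
    (hK'.uniformContinuousOn_of_continuous hF') e he
  have hm0 : 0 < m := by linarith
  refine ⟨min (μ / (2 * m)) u1, lt_min (by positivity) hu1', fun p δ h hδ N₁ N₂ y0 hy0 x hx => ?_⟩
  have hδ1 : m * δ < μ := by
    have h1 := hδ.trans_le (min_le_left _ _)
    rw [lt_div_iff₀ (by positivity)] at h1
    have := h.d0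
    nlinarith
  have hδ2 : m * δ ≤ m ^ 4 * u1 := by
    have h1 := (hδ.trans_le (min_le_right _ _)).le
    have h2 : m ≤ m ^ 4 := by
      calc m = m ^ 1 := (pow_one m).symm
        _ ≤ m ^ 4 := pow_le_pow_right₀ hm1 (by norm_num)
    exact mul_le_mul h2 h1 h.d0.le (by positivity)
  obtain ⟨k, hk⟩ := hcov y0 hy0 x hx
  obtain ⟨b1, b2, b3⟩ := hmk y0 hy0 k x hk (hx.trans hu1.le)
  set ch := Sys.chi h (N₁+1) (N₂+1) with hch
  set W : Set E3 := {x' | ‖x' - y0‖ < u1} ∩ (X.C k).U with hW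
  have hWo : IsOpen {x' : E3 | ‖x' - y0‖ < u1} :=
    isOpen_lt ((continuous_id.sub continuous_const).norm) continuous_const
  have hxW : x ∈ closure W :=
    hWo.inter_closure ⟨lt_of_le_of_lt hx hu1, Cell.sub_closure _ hk⟩
  -- displacement
  have hd : ∀ x' ∈ closure W, ‖ch x' - x'‖ ≤ 24 * m ^ 4 * u1 ∧ ‖x' - y0‖ ≤ u1 := by
    intro x' hx'
    constructor
    · refine le_on_closure (f := fun z => ‖ch z - z‖) (g := fun _ => 24 * m ^ 4 * u1)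
        (fun z hz => ?_) ((ch.continuous.sub continuous_id).norm.continuousOn)
        continuousOn_const hx'
      exact (chi_near h N₁ N₂ hm1 hz.2 (hEU y0 hy0 k) (hEV y0 hy0) (le_of_lt hz.1) b1 b2 b3).1
    · exact le_on_closure (f := fun z => ‖z - y0‖) (g := fun _ => u1)
        (fun z hz => le_of_lt hz.1) ((continuous_id.sub continuous_const).norm.continuousOn)
        continuousOn_const hx'
  have hin : ∀ x' ∈ closure W, ch x' ∈ K' := by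
    intro x' hx'
    obtain ⟨h1, h2⟩ := hd x' hx'
    refine hEK y0 hy0 ?_
    rw [mem_closedBall, dist_eq_norm]
    have e1 : ch x' - y0 = (ch x' - x') + (x' - y0) := by abel
    rw [e1]
    refine (norm_add_le _ _).trans ?_
    nlinarith
  have hAc : Continuous A := by
    refine (LipschitzWith.of_dist_le_mul (K := Λ.toNNReal) fun x y => ?_).continuous
    rw [dist_eq_norm, dist_eq_norm, Real.coe_toNNReal _ hΛ]
    exact hA x y
  refine le_on_closure (f := fun z => ‖F (w2 (ch z)) - A z‖)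
    (g := fun _ => ε0 + Λ * (25 * m ^ 4 * u1) + e) (fun z hz => ?_)
    ((hF'.comp ch.continuous.continuousOn hin).sub hAc.continuousOn).norm
    continuousOn_const hxW
  obtain ⟨h1, y, hy, hy2⟩ :=
    chi_near h N₁ N₂ hm1 hz.2 (hEU y0 hy0 k) (hEV y0 hy0) (le_of_lt hz.1) b1 b2 b3
  have hzy0 : ‖z - y0‖ ≤ u1 := le_of_lt hz.1
  have hyz : ‖y - z‖ ≤ 25 * m ^ 4 * u1 := by
    have e1 : y - z = (ch z - z) - (ch z - y) := by abel
    rw [e1]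
    refine (norm_sub_le _ _).trans ?_
    nlinarith
  have hyy0 : ‖y - y0‖ ≤ 26 * m ^ 4 * u1 := by
    have e1 : y - y0 = (y - z) + (z - y0) := by abel
    rw [e1]
    refine (norm_add_le _ _).trans ?_
    nlinarith
  have hyT := hT1 y hy ⟨y0, hy0, hyy0⟩
  have h5 := hT y hyT ⟨y0, hy0, hyy0⟩
  have h6 : ‖F (w2 (ch z)) - F (w2 y)‖ ≤ e := by
    have hyK : y ∈ K' := hEK y0 hy0 (by rw [mem_closedBall, dist_eq_norm]; exact hyy0)
    have h7 := Hμ (ch z) (hin z (subset_closure hz)) y hyK (by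
      rw [dist_eq_norm]; exact lt_of_le_of_lt hy2 hδ1)
    rw [dist_eq_norm] at h7
    exact h7.le
  have h8 : ‖A y - A z‖ ≤ Λ * (25 * m ^ 4 * u1) :=
    (hA y z).trans (mul_le_mul_of_nonneg_left hyz hΛ)
  calc ‖F (w2 (ch z)) - A z‖ = ‖(F (w2 (ch z)) - F (w2 y)) + (F (w2 y) - A y) + (A y - A z)‖ := by
        congr 1; abel
    _ ≤ ‖F (w2 (ch z)) - F (w2 y)‖ + ‖F (w2 y) - A y‖ + ‖A y - A z‖ := norm_add₃_le
    _ ≤ e + ε0 + Λ * (25 * m ^ 4 * u1) := add_le_add (add_le_add h6 h5) h8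
    _ = _ := by ring

end Crest.Agent.R96.Gam_538
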