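import Crest.Agent.R96.Eap2_348
import Crest.Agent.R096.Mbf_337
import Crest.Agent.R096.Ls5_222
import Crest.Agent.R096.Ea2_713
import Crest.Agent.R96.Sg4_199

/-!
# R96, EA-CORE (helper348): `MachBF` + numbers for one mesh ⟹ the final map and its energies
-/

set_option autoImplicit false
set_option linter.style.longLine false

open Set Metric Filter Topology MeasureTheory Module
open scoped ENNReal NNReal

namespace Crest.Agent.R96.EaCore_348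

open Crest.Agent.R96.Hole_348 Crest.Agent.R96.EaPost_348
open Crest.Agent.R096.Msh_715
open Crest.Agent.R096.SkC1_961 (FoamD Cfg NN Hom3)
open Crest.Agent.R096.Mbf_337
open Crest.Agent.R096.Ls_222 (Edg eIn finite_tiles_edg)
open Crest.Agent.R096.Ea_713 (lin)

noncomputable section

variable {δ κ0 R c0 : ℝ} {La Om : Set E3} {ι : Type}

/-- the factor of the tile `i` in the frame `fr i` -/
def bt (C : Set (Set E3) → ℝ) (T : Tiling Om ι) (fr : ι → E3 ≃ᵃ[ℝ] E3) (i : ι) : ℝ≥0∞ :=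
  ENNReal.ofReal (C ((fun K => fr i '' K) '' Cfg T i) * ‖lin (fr i)‖)

/-- **energy of the edges**, ordinary tiles only -/
def EE (C : Set (Set E3) → ℝ) (T : Tiling Om ι) (fr : ι → E3 ≃ᵃ[ℝ] E3) (O : Set ι)
    (l : Edg T → ℝ≥0∞) (p : ℝ) : ℝ≥0∞ :=
  ∑' i : O, volume (P (T.H i.1)) * (bt C T fr i.1 * ∑ e ∈ eIn T i.1, l e) ^ p

/-- the machine's constants depend on `e`, `κp`, `μ`, `κ1` as in `MachBF` -/
def Choice (Φ : FoamD δ κ0 R c0 La) (T : Tiling Om ι) (f : E3 → E3) (κp μ κ3 : ℝ) (X : Set Φ.F)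
    (V : Φ.F → Set ι) (ct : Φ.F → ι) (A : Φ.F → E3 ≃ᵃ[ℝ] E3) (lam : Φ.F → ℝ) (z : Φ.F → E3)
    (M : Φ.F → ℕ) (l : Edg T → ℝ≥0∞) : Prop :=
  ∀ (err : Edg T → ℝ≥0∞), (∀ e, err e ≠ 0) → ∀ (Z : Φ.F → Set ℝ) (m0 : Φ.F → ℕ),
    (∀ c, volume (Z c) = 0) → ∃ (κ : Φ.F → ℕ) (L : Φ.F → Finset ℝ),
      Levels Φ T f κp μ κ3 Z m0 κ L ∧ Words Φ T f X ct A lam z M L ∧
      ∀ i, (∀ c, i ∉ V c) → NN Φ T f κ L i ≤ ∑ e ∈ eIn T i, (l e + err e)

/-- the mesh part of the data -/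
structure Data (Φ : FoamD δ κ0 R c0 La) (T : Tiling Om ι) (f : E3 → E3) (κp μ κ1 κ2 κ3 κv : ℝ)
    (X : Set Φ.F) (J0 J V : Φ.F → Set ι) (ct : Φ.F → ι) (A : Φ.F → E3 ≃ᵃ[ℝ] E3) (lam : Φ.F → ℝ)
    (z : Φ.F → E3) (θ : Φ.F → E3 → E3) (φ : Φ.F → E3 → ℝ) (M : Φ.F → ℕ) (l : Edg T → ℝ≥0∞)
    {κ : Type} (a : κ → E3) (R0 R1 : κ → ℝ) : Prop where
  star : Star Φ
  cores : Cores Φ T f κ1 κ2 X J0 J V ct A lam z θ φ
  fine : Fine Φ T f κ1 J0
  fin : ∀ i, (∀ c, i ∉ V c) → ∀ e ∈ eIn T i, l e ≠ ∞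
  choice : Choice Φ T f κp μ κ3 X V ct A lam z M l
  geo : Geo T (ct '' X) {i | ∃ c, c ∉ X ∧ i ∈ V c} a R0 R1 κv

/-- the ordinary tiles -/
def Ord {Φ : FoamD δ κ0 R c0 La} (V : Φ.F → Set ι) : Set ι := {i | ∀ c, i ∉ V c}

/-- the constant in front of the energies -/
def Kea (p κv : ℝ) : ℝ≥0∞ := ENNReal.ofReal (Chr 3 p 8 / κv) + 1

/-- the set of tiles `Q` contains no exact core, and all ring tiles of every macro ball it meets -/
def Sat (T : Tiling Om ι) (Kt : Set ι) {κ : Type} (a : κ → E3) (R0 R1 : κ → ℝ) (Q : Set ι) : Prop :=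
  Disjoint Q Kt ∧ ∀ c, (∃ i ∈ Q, (P (T.H i) ∩ closedBall (a c) (R1 c)).Nonempty) →
    ∀ i, (P (T.H i) ∩ rg a R0 R1 c).Nonempty → i ∈ Q

/-- the conclusion -/
structure Res (C0 : ℝ) (C : Set (Set E3) → ℝ) (e : ℝ) (Φ : FoamD δ κ0 R c0 La) (T : Tiling Om ι)
    (f : E3 → E3) (κv : ℝ) (X : Set Φ.F) (V : Φ.F → Set ι) (ct : Φ.F → ι)
    (A : Φ.F → E3 ≃ᵃ[ℝ] E3) (lam : Φ.F → ℝ) (l : Edg T → ℝ≥0∞) (p : ℝ) (ε : ℝ≥0∞)
    (fr : ι → E3 ≃ᵃ[ℝ] E3) (ρ' : E3 → ℝ) {κ : Type} (a : κ → E3) (R0 R1 : κ → ℝ)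
    (η : ι → ℝ≥0∞) (g : E3 → E3) : Prop where
  hom : Hom3 g Om La
  pl : Crest.Agent.R096.Str_696.LocPL g Om
  near : ∀ x ∈ Om, ‖g x - f x‖ ≤ ρ' x
  /-- energy off the exact cores -/
  energy : ∫⁻ x in Om \ ⋃ i ∈ ct '' X, P (T.H i), ‖fderiv ℝ g x‖ₑ ^ p ≤
    Kea p κv * 2 ^ (p - 1) * EE C T fr (Ord V) l p + ε
  /-- energy on a saturated set of tiles -/
  energyQ : ∀ Q, Sat T (ct '' X) a R0 R1 Q → ∫⁻ x in ⋃ i ∈ Q, P (T.H i), ‖fderiv ℝ g x‖ₑ ^ p ≤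
    Kea p κv * 2 ^ (p - 1) * EE C T fr (Ord V ∩ Q) l p + ε
  /-- pointwise bound on the ordinary tiles off the macro balls -/
  lip : ∀ i ∈ Ord V, ∀ x ∈ I (T.H i), (∀ k, x ∉ closedBall (a k) (R1 k)) →
    ‖fderiv ℝ g x‖ₑ ≤ bt C T fr i * ∑ e ∈ eIn T i, l e + η i
  core : ∀ c ∈ X, ∫⁻ x in P (T.H (ct c)), ‖fderiv ℝ g x - (1 / lam c) • lin (A c)‖ₑ ^ p ≤
    ENNReal.ofReal ((e ^ p + (C0 + 1) ^ p * e) * (‖lin (A c)‖ / lam c) ^ p) *
      volume (P (T.H (ct c)))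

/-- **EA-CORE**: from the output of the machine for one mesh -/
theorem res_of_out {Φ : FoamD δ κ0 R c0 La} {T : Tiling Om ι} {f : E3 → E3} {X : Set Φ.F}
    {V : Φ.F → Set ι} {ct : Φ.F → ι} {A : Φ.F → E3 ≃ᵃ[ℝ] E3} {lam : Φ.F → ℝ} {l err : Edg T → ℝ≥0∞}
    {κ : Type} {a : κ → E3} {R0 R1 : κ → ℝ} {C0 e κv : ℝ} {C : Set (Set E3) → ℝ}
    {κw : Φ.F → ℕ} {L : Φ.F → Finset ℝ} {tol : ι → ℝ} {g : E3 → E3}
    (hC0 : 0 ≤ C0) (hC : ∀ 𝒦, 0 ≤ C 𝒦) (he : 0 ≤ e) (hlam : ∀ c ∈ X, 0 < lam c)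
    (hVX : ∀ c ∈ X, V c = {ct c})
    (hout : Out C0 C e Φ T f X V ct A lam κw L tol g) (htol : ∀ i, 0 ≤ tol i)
    (fr : ι → E3 ≃ᵃ[ℝ] E3) (hfin : ∀ i, (∀ c, i ∉ V c) → ∀ e ∈ eIn T i, l e ≠ ∞)
    (herr : ∀ e, err e ≠ ∞)
    (hNN : ∀ i, (∀ c, i ∉ V c) → NN Φ T f κw L i ≤ ∑ e ∈ eIn T i, (l e + err e))
    {p : ℝ} (hp1 : 1 ≤ p) (hp3 : p < 3 ∨ IsEmpty κ)
    (hκv : 0 < κv) (hgeo : Geo T (ct '' X) {i | ∃ c, c ∉ X ∧ i ∈ V c} a R0 R1 κv)
    {ρ ρ' : E3 → ℝ} (hρ : ∀ x ∈ Om, ∃ c : Φ.F, f x ∈ c.1.set ∧ C0 * c.1.sz ≤ ρ x)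
    (hρ' : ∀ x ∈ Om, ρ x ≤ ρ' x)
    (hosc : ∀ c, ∀ x ∈ closedBall (a c) (R1 c), ∀ x' ∈ closedBall (a c) (R1 c),
      ‖f x' - f x‖ + ρ x' ≤ ρ' x) {ε : ℝ≥0∞} (hε : ε ≠ 0)
    (hsmall : ∑' i : Ord V, volume (P (T.H i.1)) *
      (1 * (bt C T fr i.1 * ∑ e ∈ eIn T i.1, err e) + ENNReal.ofReal (tol i.1)) ^ p ≤ ε) :
    ∃ g' : E3 → E3, Res C0 C e Φ T f κv X V ct A lam l p (Kea p κv * 2 ^ (p - 1) * ε + ε) fr ρ'
      a R0 R1 (fun i => bt C T fr i * ∑ e ∈ eIn T i, err e + ENNReal.ofReal (tol i)) g' := by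
  classical
  have hp0 : 0 < p := by linarith
  -- numbers
  set t : Edg T → ℝ≥0∞ := fun e => l e + err e with ht
  set N : ι → ℝ := fun i => (∑ e ∈ eIn T i, t e).toReal with hN
  have hNt : ∀ i, (∀ c, i ∉ V c) → ENNReal.ofReal (N i) = ∑ e ∈ eIn T i, t e := by
    intro i hi
    rw [hN, ENNReal.ofReal_toReal]
    exact (ENNReal.sum_lt_top.2 fun e he => (ENNReal.add_lt_top.2
      ⟨(hfin i hi e he).lt_top, (herr e).lt_top⟩)).ne
  have hN0 : ∀ i, 0 ≤ N i := fun i => ENNReal.toReal_nonneg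
  set K : ι → ℝ := fun i => C ((fun K => fr i '' K) '' Cfg T i) * N i with hK
  have hK0 : ∀ i, 0 ≤ K i := fun i => mul_nonneg (hC _) (hN0 i)
  have hord : ∀ i, i ∉ ct '' X → i ∉ {i | ∃ c, c ∉ X ∧ i ∈ V c} → ∀ c, i ∉ V c := by
    intro i h1 h2 c hc
    by_cases hcX : c ∈ X
    · rw [hVX c hcX] at hc
      exact h1 ⟨c, hcX, hc.symm⟩
    · exact h2 ⟨c, hcX, hc⟩
  have hpost : Post T La g (ct '' X) {i | ∃ c, c ∉ X ∧ i ∈ V c} a R0 R1 κv (ell K tol fr) :=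
    { hom := hout.homeo
      pl := hout.pl
      ring := hgeo.ring
      half := hgeo.half
      vt := hgeo.vt
      kt := hgeo.kt
      one := hgeo.one
      fat := hgeo.fat
      lip0 := fun i _ _ => add_nonneg (mul_nonneg (hK0 i) (norm_nonneg _)) (htol i)
      lip := fun i hi hi' x hx => by
        have hi2 := hord i hi hi'
        refine Crest.Agent.R096.Ea_713.LLV_of_affine (hK0 i) ?_
        exact hout.lip i hi2 (fr i) (N i) (hN0 i) ((hNN i hi2).trans (hNt i hi2).ge) x hx }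
  have hnear : ∀ x ∈ Om, ‖g x - f x‖ ≤ ρ x := by
    intro x hx
    obtain ⟨c, hc, hcρ⟩ := hρ x hx
    exact (hout.near x hx c hc).trans hcρ
  obtain ⟨g', h1, h2, h3, _, h5, h6, h7⟩ := hpost.post_gen hp0 hp3 hκv hnear hρ' hosc hε
  -- the bound of an ordinary tile
  have hell : ∀ i, (∀ c, i ∉ V c) → ENNReal.ofReal (ell K tol fr i) =
      bt C T fr i * ∑ e ∈ eIn T i, t e + ENNReal.ofReal (tol i) := by
    intro i hi2
    unfold ell
    rw [ENNReal.ofReal_add (mul_nonneg (hK0 i) (norm_nonneg _)) (htol i), ← hNt i hi2]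
    congr 1
    unfold bt
    rw [← ENNReal.ofReal_mul (mul_nonneg (hC _) (norm_nonneg _))]
    congr 1
    simp only [hK]
    ring
  -- energy on saturated sets
  have hQ : ∀ Q, Sat T (ct '' X) a R0 R1 Q → ∫⁻ x in ⋃ i ∈ Q, P (T.H i), ‖fderiv ℝ g' x‖ₑ ^ p ≤
      Kea p κv * 2 ^ (p - 1) * EE C T fr (Ord V ∩ Q) l p + (Kea p κv * 2 ^ (p - 1) * ε + ε) := by
    rintro Q ⟨hQK, hQ⟩
    refine (h7 Q hQK hQ).trans ?_
    rw [← add_assoc]
    refine add_le_add ?_ le_rfl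
    rw [← mul_add, mul_assoc]
    refine mul_le_mul' le_rfl ?_
    have hinc : ∀ i : {i // i ∈ Q ∧ i ∉ {i | ∃ c, c ∉ X ∧ i ∈ V c}}, i.1 ∈ Ord V ∩ Q :=
      fun i => ⟨hord i.1 (fun hk => Set.disjoint_left.1 hQK i.2.1 hk) i.2.2, i.2.1⟩
    calc ∑' i : {i // i ∈ Q ∧ i ∉ {i | ∃ c, c ∉ X ∧ i ∈ V c}},
          ENNReal.ofReal (ell K tol fr i ^ p) * volume (P (T.H i.1))
        ≤ ∑' i : ↥(Ord V ∩ Q), ENNReal.ofReal (ell K tol fr i ^ p) * volume (P (T.H i.1)) := by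
          have hinj : Function.Injective
              (fun i : {i // i ∈ Q ∧ i ∉ {i | ∃ c, c ∉ X ∧ i ∈ V c}} =>
                (⟨i.1, hinc i⟩ : ↥(Ord V ∩ Q))) := by
            intro i j hij
            exact Subtype.ext (congrArg (fun z => z.1) hij)
          exact ENNReal.tsum_comp_le_tsum_of_injective hinj
            (fun i : ↥(Ord V ∩ Q) => ENNReal.ofReal (ell K tol fr i ^ p) * volume (P (T.H i.1)))
      _ = ∑' i : ↥(Ord V ∩ Q), volume (P (T.H i.1)) *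
            (1 * (bt C T fr i.1 * ∑ e ∈ eIn T i.1, t e) + ENNReal.ofReal (tol i.1)) ^ p := by
          refine tsum_congr fun i => ?_
          have hi2 : ∀ c, i.1 ∉ V c := i.2.1
          rw [mul_comm (volume _)]
          congr 1
          rw [one_mul, ← hell i.1 hi2]
          unfold ell
          rw [← ENNReal.ofReal_rpow_of_nonneg
            (add_nonneg (mul_nonneg (hK0 i.1) (norm_nonneg (lin (fr i.1)))) (htol i.1)) hp0.le]
      _ ≤ 2 ^ (p - 1) * ((1:ℝ≥0∞) ^ p * Crest.Agent.R96.Sg3_199.EnF volume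
            (fun i : ↥(Ord V ∩ Q) => P (T.H i.1)) (fun i => eIn T i.1) (fun i => bt C T fr i.1) l p +
          ∑' i : ↥(Ord V ∩ Q), volume (P (T.H i.1)) *
            (1 * (bt C T fr i.1 * ∑ e ∈ eIn T i.1, err e) + ENNReal.ofReal (tol i.1)) ^ p) :=
          Crest.Agent.R96.Sg4_199.EnF_split (μ := volume) (fun i : ↥(Ord V ∩ Q) => P (T.H i.1))
            (fun i => eIn T i.1) (fun i => bt C T fr i.1) (fun _ => 1)
            (fun i => ENNReal.ofReal (tol i.1)) (fun i e _ => le_rfl) hp1 (fun _ => le_rfl)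
      _ ≤ 2 ^ (p - 1) * (EE C T fr (Ord V ∩ Q) l p + ε) := by
          refine mul_le_mul' le_rfl (add_le_add ?_ ?_)
          · rw [ENNReal.one_rpow, one_mul]
            exact le_rfl
          · refine le_trans ?_ hsmall
            have hinj : Function.Injective
                (fun i : ↥(Ord V ∩ Q) => (⟨i.1, i.2.1⟩ : Ord V)) := by
              intro i j hij
              exact Subtype.ext (congrArg (fun z => z.1) hij)
            exact ENNReal.tsum_comp_le_tsum_of_injective hinj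
              (fun i : Ord V => volume (P (T.H i.1)) *
                (1 * (bt C T fr i.1 * ∑ e ∈ eIn T i.1, err e) + ENNReal.ofReal (tol i.1)) ^ p)
  refine ⟨g', h1, h2, h3, ?_, hQ, ?_, ?_⟩
  · have h8 := hgeo.post_off (g' := g') (p := p)
      (A := Kea p κv * 2 ^ (p - 1) * EE C T fr (Ord V) l p + (Kea p κv * 2 ^ (p - 1) * ε + ε)) (by
        intro Q hQK hQ'
        refine (hQ Q ⟨hQK, hQ'⟩).trans (add_le_add (mul_le_mul' le_rfl ?_) le_rfl)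
        have hinj : Function.Injective (fun i : ↥(Ord V ∩ Q) => (⟨i.1, i.2.1⟩ : Ord V)) := by
          intro i j hij
          exact Subtype.ext (congrArg (fun z => z.1) hij)
        exact ENNReal.tsum_comp_le_tsum_of_injective hinj
          (fun i : Ord V => volume (P (T.H i.1)) * (bt C T fr i.1 * ∑ e ∈ eIn T i.1, l e) ^ p))
    exact h8
  · intro i hi x hx hxk
    have hi2 : ∀ c, i ∉ V c := hi
    have hx0 : x ∈ Om := T.sub i (I_sub_P _ hx)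
    rw [(h5 x hx0 hxk).fderiv_eq]
    have hg : LLV (ell K tol fr i) g x := by
      refine Crest.Agent.R096.Ea_713.LLV_of_affine (hK0 i) ?_
      exact hout.lip i hi2 (fr i) (N i) (hN0 i) ((hNN i hi2).trans (hNt i hi2).ge) x hx
    have h9 := Crest.Agent.R096.Ea_713.enorm_fderiv_rpow_le (p := 1)
      (add_nonneg (mul_nonneg (hK0 i) (norm_nonneg _)) (htol i)) zero_le_one hg
    rw [ENNReal.rpow_one, Real.rpow_one] at h9
    refine h9.trans (le_of_eq ?_)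
    have h10 := hell i hi2
    unfold ell at h10
    rw [h10, ht]
    simp only [Finset.sum_add_distrib, mul_add]
    ring
  · intro c hc
    obtain ⟨h9, W, hW, h10⟩ := hout.core c hc
    have h11 := Crest.Agent.R096.Ea_713.core_energy volume (T.ne (ct c)) (A c) (hlam c hc) hC0 he
      h9 hW h10 hp0.le
    refine le_trans (le_of_eq ?_) h11
    exact lint_congr_germ (T.cpt (ct c)).isClosed.measurableSet
      (fun x hx => h6 (ct c) ⟨c, hc, rfl⟩ x hx)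
      (fun _ D => ‖D - (1 / lam c) • lin (A c)‖ₑ ^ p)

/-- small errors and tolerances: small energy, and pointwise below given positive numbers -/
theorem exists_small2 {T : Tiling Om ι} {O : Set ι} {β : ι → ℝ≥0∞} (hβ : ∀ i, β i ≠ ∞)
    {ε : ℝ≥0∞} (hε : ε ≠ 0) {p : ℝ} (hp : 1 ≤ p) {η : ι → ℝ≥0∞} (hη : ∀ i, η i ≠ 0) :
    ∃ (err : Edg T → ℝ≥0∞) (tol : ι → ℝ), (∀ e, err e ≠ 0) ∧ (∀ e, err e ≠ ∞) ∧ (∀ i, 0 < tol i) ∧
      ∑' i : O, volume (P (T.H i.1)) *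
        (1 * (β i.1 * ∑ e ∈ eIn T i.1, err e) + ENNReal.ofReal (tol i.1)) ^ p ≤ ε ∧
      ∀ i, β i * ∑ e ∈ eIn T i, err e + ENNReal.ofReal (tol i) ≤ η i := by
  classical
  have hcι : Countable ι := Crest.Agent.R096.Ea_713.countable_ix T
  obtain ⟨err0, tol0, he0, hetop, htol0, hsm⟩ := Crest.Agent.R96.Sg4_199.exists_small
    (τ := O) (η := Edg T) (m := fun i => volume (P (T.H i.1)))
    (fun i => (T.cpt i.1).measure_lt_top.ne) (fun i : O => eIn T i.1)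
    (fun j => by
      refine ((finite_tiles_edg j).preimage (f := fun i : O => i.1)
        Subtype.val_injective.injOn).subset ?_
      intro i hi
      exact hi)
    (β := fun i => β i.1) (C := fun _ => 1) (fun i => hβ _)
    (fun _ => ENNReal.one_ne_top) hε hp
  -- the pointwise bounds
  set den : ι → ℝ≥0∞ := fun i => (β i + 1) * ((eIn T i).card + 1) with hden
  have hden0 : ∀ i, den i ≠ 0 := fun i => by simp [hden]
  have hdent : ∀ i, den i ≠ ∞ := fun i => by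
    refine ENNReal.mul_ne_top (ENNReal.add_ne_top.2 ⟨hβ i, ENNReal.one_ne_top⟩) ?_
    exact ENNReal.add_ne_top.2 ⟨ENNReal.natCast_ne_top _, ENNReal.one_ne_top⟩
  set q : ι → ℝ≥0∞ := fun i => η i / 2 / den i with hq
  have hη2 : ∀ i, η i / 2 ≠ 0 := fun i => by
    rw [Ne, ENNReal.div_eq_zero_iff, not_or]
    exact ⟨hη i, by simp⟩
  have hq0 : ∀ i, q i ≠ 0 := fun i => by
    rw [hq, Ne, ENNReal.div_eq_zero_iff, not_or]
    exact ⟨hη2 i, hdent i⟩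
  set err : Edg T → ℝ≥0∞ := fun e => min (err0 e) ((finite_tiles_edg e).toFinset.inf q) with herr
  have h1 : ∀ e, err e ≠ 0 := by
    intro e
    have h2 : 0 < (finite_tiles_edg e).toFinset.inf q := by
      rw [Finset.lt_inf_iff ENNReal.zero_lt_top]
      exact fun i _ => pos_iff_ne_zero.2 (hq0 i)
    exact (lt_min (pos_iff_ne_zero.2 (he0 e)) h2).ne'
  have h2 : ∀ e, err e ≤ err0 e := fun e => min_le_left _ _
  have h3 : ∀ i, ∀ e ∈ eIn T i, err e ≤ q i := fun i e he =>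
    (min_le_right _ _).trans (Finset.inf_le ((finite_tiles_edg e).mem_toFinset.2 he))
  have h4 : ∀ i, ∃ t : ℝ, 0 < t ∧ ENNReal.ofReal t ≤ η i / 2 := by
    intro i
    obtain ⟨r, hr0, hr⟩ := ENNReal.lt_iff_exists_nnreal_btwn.1 (pos_iff_ne_zero.2 (hη2 i))
    refine ⟨r, by exact_mod_cast hr0, ?_⟩
    rw [ENNReal.ofReal_coe_nnreal]
    exact hr.le
  choose t1 ht1 ht2 using h4
  set tol : ι → ℝ := fun i => if h : i ∈ O then min (tol0 ⟨i, h⟩) (t1 i) else t1 i with htol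
  have h5 : ∀ i, 0 < tol i := by
    intro i
    simp only [htol]
    split_ifs with h
    · exact lt_min (htol0 _) (ht1 i)
    · exact ht1 i
  have h6 : ∀ i, tol i ≤ t1 i := by
    intro i
    simp only [htol]
    split_ifs with h
    · exact min_le_right _ _
    · exact le_rfl
  refine ⟨err, tol, h1, fun e => ((h2 e).trans_lt (hetop e).lt_top).ne, h5, ?_, ?_⟩
  · refine le_trans (le_of_eq ?_) (hsm err (fun i => tol i.1) h2 fun i => ?_)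
    · rfl
    · have : tol i.1 = min (tol0 ⟨i.1, i.2⟩) (t1 i.1) := by
        simp only [htol]
        rw [dif_pos i.2]
      rw [this]
      exact min_le_left _ _
  · intro i
    have h7 : β i * ∑ e ∈ eIn T i, err e ≤ η i / 2 := by
      calc β i * ∑ e ∈ eIn T i, err e ≤ β i * ∑ e ∈ eIn T i, q i :=
            mul_le_mul' le_rfl (Finset.sum_le_sum (h3 i))
        _ = β i * ((eIn T i).card * q i) := by rw [Finset.sum_const, nsmul_eq_mul]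
        _ ≤ (β i + 1) * (((eIn T i).card + 1) * q i) :=
            mul_le_mul' le_self_add (mul_le_mul' le_self_add le_rfl)
        _ = den i * (η i / 2 / den i) := by rw [hden, hq]; ring
        _ ≤ η i / 2 := ENNReal.mul_div_le
    calc β i * ∑ e ∈ eIn T i, err e + ENNReal.ofReal (tol i) ≤ η i / 2 + η i / 2 :=
          add_le_add h7 ((ENNReal.ofReal_le_ofReal (h6 i)).trans (ht2 i))
      _ = η i := ENNReal.add_halves _

/-- **EA-CORE**: `MachBF` ⟹ the final map with its energies, for any decorated mesh with `Data`.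
Order of the constants as in `MachBF`.  The pointwise bound holds up to arbitrary positive numbers
`η i`. -/
theorem ea_core (HM : MachBF) {δ κ0 R c0 κ2 κ3 : ℝ} (hδ : 0 < δ) (hκ0 : 1 ≤ κ0) (hR : 1 ≤ R)
    (hc0 : 0 < c0) (hκ2 : 0 < κ2) (hκ3 : 8 ≤ κ3) :
    ∃ (C0 : ℝ) (C : Set (Set E3) → ℝ), 0 < C0 ∧ (∀ 𝒦, 0 < C 𝒦) ∧ ∀ e : ℝ, 0 < e →
    ∃ κp : ℝ, 0 < κp ∧ ∀ μ : ℝ, 0 < μ → μ ≤ κp → ∃ κ1 : ℝ, 0 < κ1 ∧
    ∀ (Om La : Set E3) (f : E3 → E3), IsOpen Om → Bornology.IsBounded Om → IsConnected Om →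
      IsOpen La → Bornology.IsBounded La → IsConnected La → Hom3 f Om La →
    ∀ (Φ : FoamD δ κ0 R c0 La) (ι : Type) (T : Tiling Om ι) (X : Set Φ.F) (J0 J V : Φ.F → Set ι)
      (ct : Φ.F → ι) (A : Φ.F → E3 ≃ᵃ[ℝ] E3) (lam : Φ.F → ℝ) (z : Φ.F → E3) (θ : Φ.F → E3 → E3)
      (φ : Φ.F → E3 → ℝ) (M : Φ.F → ℕ) (l : Edg T → ℝ≥0∞) (κ : Type) (a : κ → E3)
      (R0 R1 : κ → ℝ) (κv : ℝ), 0 < κv →
      Data Φ T f κp μ κ1 κ2 κ3 κv X J0 J V ct A lam z θ φ M l a R0 R1 →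
    ∀ (p : ℝ), 1 ≤ p → (p < 3 ∨ IsEmpty κ) → ∀ (fr : ι → E3 ≃ᵃ[ℝ] E3) (ρ ρ' : E3 → ℝ),
      (∀ x ∈ Om, ∃ c : Φ.F, f x ∈ c.1.set ∧ C0 * c.1.sz ≤ ρ x) → (∀ x ∈ Om, ρ x ≤ ρ' x) →
      (∀ c, ∀ x ∈ closedBall (a c) (R1 c), ∀ x' ∈ closedBall (a c) (R1 c),
        ‖f x' - f x‖ + ρ x' ≤ ρ' x) →
    ∀ ε : ℝ≥0∞, ε ≠ 0 → ∀ η : ι → ℝ≥0∞, (∀ i, η i ≠ 0) →
    ∃ g : E3 → E3, Res C0 C e Φ T f κv X V ct A lam l p ε fr ρ' a R0 R1 η g := by
  classical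
  obtain ⟨C0, C, hC0, hC, H⟩ := HM δ κ0 R c0 κ2 κ3 hδ hκ0 hR hc0 hκ2 hκ3
  refine ⟨C0, C, hC0, hC, fun e he => ?_⟩
  obtain ⟨κp, hκp, H⟩ := H e he
  refine ⟨κp, hκp, fun μ hμ hμp => ?_⟩
  obtain ⟨κ1, hκ1, H⟩ := H μ hμ hμp
  refine ⟨κ1, hκ1, ?_⟩
  intro Om La f hO hOb hOc hLa hLb hLc hf Φ ι T X J0 J V ct A lam z θ φ M l κ a R0 R1 κv hκv hD
    p hp1 hp3 fr ρ ρ' hρ hρ' hosc ε hε η hη
  obtain ⟨Z, m0, hZ, H⟩ := H Om La f hO hOb hOc hLa hLb hLc hf Φ ι T X J0 J V ct A lam z θ φ M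
    hD.star hD.cores hD.fine
  -- the small number
  have hKfin : Kea p κv * 2 ^ (p - 1) ≠ ∞ := by
    refine ENNReal.mul_ne_top ?_ (ENNReal.rpow_ne_top_of_nonneg (by linarith) (by simp))
    unfold Kea
    exact ENNReal.add_ne_top.2 ⟨ENNReal.ofReal_ne_top, ENNReal.one_ne_top⟩
  have hK1 : Kea p κv * 2 ^ (p - 1) + 1 ≠ ∞ := ENNReal.add_ne_top.2 ⟨hKfin, ENNReal.one_ne_top⟩
  set ε1 : ℝ≥0∞ := ε / (Kea p κv * 2 ^ (p - 1) + 1) with hε1
  have hε10 : ε1 ≠ 0 := by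
    rw [hε1, Ne, ENNReal.div_eq_zero_iff, not_or]
    exact ⟨hε, hK1⟩
  have hεε : Kea p κv * 2 ^ (p - 1) * ε1 + ε1 ≤ ε := by
    have e1 : Kea p κv * 2 ^ (p - 1) * ε1 + ε1 = (Kea p κv * 2 ^ (p - 1) + 1) * ε1 := by
      rw [add_mul, one_mul]
    rw [e1, hε1]
    exact ENNReal.mul_div_le
  -- errors and tolerances
  obtain ⟨err, tol, he0, hetop, htol, hsmall, hpt⟩ := exists_small2 (T := T) (O := Ord V)
    (β := bt C T fr) (fun i => ENNReal.ofReal_ne_top) hε10 hp1 hη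
  obtain ⟨κw, L, hLev, hW, hNN⟩ := hD.choice err he0 Z m0 hZ
  obtain ⟨g, hg⟩ := H κw L hLev hW tol htol
  obtain ⟨g', hg'⟩ := res_of_out hC0.le (fun 𝒦 => (hC 𝒦).le) he.le
    (fun c hc => (hD.cores.exact_ c hc).lam0) (fun c hc => (hD.cores.one c hc).2.2) hg
    (fun i => (htol i).le) fr hD.fin hetop hNN hp1 hp3 hκv hD.geo hρ hρ' hosc hε10 hsmall
  exact ⟨g', hg'.hom, hg'.pl, hg'.near, hg'.energy.trans (add_le_add le_rfl hεε),
    fun Q hQ => (hg'.energyQ Q hQ).trans (add_le_add le_rfl hεε),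
    fun i hi x hx hxk => (hg'.lip i hi x hx hxk).trans (add_le_add le_rfl (hpt i)), hg'.core⟩

end

end Crest.Agent.R96.EaCore_348
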