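import Mathlib

/-!
# Row 96, P6-BULK (helper348): from pinned vertices to the bulk of a grid block

`V = ι → Fin (M+1)` = the vertices of a cubical block with `M` edges per side, `w i p` = weight of the
edge which leaves `p` in direction `i` (a bound for the variation of any admissible map on this edge).
There is ONE vertex `x`, depending only on the weights, such that every `G` with edge variation `≤ w`
satisfies `∑_z dist (G z) (G x) ≤ (M+1) ∑_edges w`. Hence a map which is pinned at `x` is close to the
pinned value at most vertices of the block, uniformly in the map. No capacity, no Morrey, any exponent.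
-/

set_option autoImplicit false

open Finset

namespace Crest.Agent.R96.Bulk_348

variable {n M : ℕ}

/-- vertices of the block -/
abbrev V (n M : ℕ) : Type := Fin n → Fin (M + 1)

/-- hybrid point: the first `j` coordinates from `z`, the others from `x` -/
def hyb (j : ℕ) (x z : V n M) : V n M := fun i => if (i : ℕ) < j then z i else x i

theorem hyb_zero (x z : V n M) : hyb 0 x z = x := by
  funext i; simp [hyb]

theorem hyb_top (x z : V n M) : hyb n x z = z := by
  funext i; simp [hyb, i.2]

/-- the involution swapping the first `j` coordinates of `x` and `z` -/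
def swp (j : ℕ) : V n M × V n M ≃ V n M × V n M where
  toFun p := (hyb j p.1 p.2, hyb j p.2 p.1)
  invFun p := (hyb j p.1 p.2, hyb j p.2 p.1)
  left_inv p := by
    ext i <;> simp only [hyb] <;> split_ifs <;> rfl
  right_inv p := by
    ext i <;> simp only [hyb] <;> split_ifs <;> rfl

theorem card_V : Fintype.card (V n M) = (M + 1) ^ n := by
  simp

/-- summing a function of the hybrid point -/
theorem sum_hyb (j : ℕ) (f : V n M → ℝ) :
    ∑ x : V n M, ∑ z : V n M, f (hyb j x z) = ((M : ℝ) + 1) ^ n * ∑ h : V n M, f h := by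
  have h1 : ∑ x : V n M, ∑ z : V n M, f (hyb j x z) =
      ∑ p : V n M × V n M, f ((swp j p).1) := by
    rw [Fintype.sum_prod_type]
    rfl
  rw [h1, Equiv.sum_comp (swp j) (fun p => f p.1), Fintype.sum_prod_type]
  simp only [sum_const, card_univ, card_V, nsmul_eq_mul]
  rw [← mul_sum]
  push_cast
  ring

/-- sum of the weights of the line in direction `i` through `h` -/
def line (w : Fin n → V n M → ℝ) (i : Fin n) (h : V n M) : ℝ :=
  ∑ t : Fin M, w i (Function.update h i t.castSucc)

/-- the path weight from `x` to `z` -/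
def path (w : Fin n → V n M → ℝ) (x z : V n M) : ℝ :=
  ∑ i : Fin n, line w i (hyb i x z)

/-- the total weight of the block -/
def tot (w : Fin n → V n M → ℝ) : ℝ :=
  ∑ i : Fin n, ∑ p : V n M, if (p i : ℕ) < M then w i p else 0

theorem line_nonneg {w : Fin n → V n M → ℝ} (hw : ∀ i p, 0 ≤ w i p) (i : Fin n) (h : V n M) :
    0 ≤ line w i h := sum_nonneg fun _ _ => hw _ _

theorem path_nonneg {w : Fin n → V n M → ℝ} (hw : ∀ i p, 0 ≤ w i p) (x z : V n M) :
    0 ≤ path w x z := sum_nonneg fun _ _ => line_nonneg hw _ _

/-- `∑_h f (update h i t)` summed over `h` and over the values `t` -/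
theorem sum_line (w : Fin n → V n M → ℝ) (i : Fin n) :
    ∑ h : V n M, line w i h = ((M : ℝ) + 1) *
      ∑ p : V n M, if (p i : ℕ) < M then w i p else 0 := by
  -- the equivalence (h, t) ↔ (update h i t, h i)
  let e : V n M × Fin (M + 1) ≃ V n M × Fin (M + 1) :=
    { toFun := fun p => (Function.update p.1 i p.2, p.1 i)
      invFun := fun p => (Function.update p.1 i p.2, p.1 i)
      left_inv := fun p => by
        ext <;> simp
      right_inv := fun p => by
        ext <;> simp }
  have h1 : ∀ h : V n M, line w i h =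
      ∑ t : Fin (M + 1), if (t : ℕ) < M then w i (Function.update h i t) else 0 := by
    intro h
    rw [Fin.sum_univ_castSucc]
    unfold line
    simp
  simp only [h1]
  have h2 : ∑ h : V n M, ∑ t : Fin (M + 1),
        (if (t : ℕ) < M then w i (Function.update h i t) else 0) =
      ∑ p : V n M × Fin (M + 1),
        (fun q : V n M × Fin (M + 1) => if (q.1 i : ℕ) < M then w i q.1 else 0) (e p) := by
    rw [Fintype.sum_prod_type]
    refine sum_congr rfl fun h _ => sum_congr rfl fun t _ => ?_
    simp [e]
  rw [h2, Equiv.sum_comp e (fun q : V n M × Fin (M + 1) => if (q.1 i : ℕ) < M then w i q.1 else 0),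
    Fintype.sum_prod_type]
  simp only [sum_const, card_univ, Fintype.card_fin, nsmul_eq_mul]
  rw [← mul_sum]
  push_cast
  ring

theorem sum_path (w : Fin n → V n M → ℝ) :
    ∑ x : V n M, ∑ z : V n M, path w x z = ((M : ℝ) + 1) ^ (n + 1) * tot w := by
  unfold path tot
  have h1 : ∀ x : V n M, ∑ z : V n M, ∑ i : Fin n, line w i (hyb i x z) =
      ∑ i : Fin n, ∑ z : V n M, line w i (hyb i x z) := fun x => sum_comm
  simp only [h1]
  rw [sum_comm, mul_sum]
  refine sum_congr rfl fun i _ => ?_
  rw [sum_hyb, sum_line]
  ring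

/-- **the good vertex**: it depends only on the weights -/
theorem exists_vertex (w : Fin n → V n M → ℝ) :
    ∃ x : V n M, ∑ z : V n M, path w x z ≤ ((M : ℝ) + 1) * tot w := by
  by_contra hcon
  push Not at hcon
  have h1 : ∑ x : V n M, ((M : ℝ) + 1) * tot w < ∑ x : V n M, ∑ z : V n M, path w x z :=
    sum_lt_sum_of_nonempty univ_nonempty fun x _ => hcon x
  rw [sum_path] at h1
  simp only [sum_const, card_univ, card_V, nsmul_eq_mul] at h1
  push_cast at h1
  have : ((M : ℝ) + 1) ^ n * (((M : ℝ) + 1) * tot w) = ((M : ℝ) + 1) ^ (n + 1) * tot w := by ring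
  linarith

variable {X : Type*} [PseudoMetricSpace X]

/-- `G` has variation at most `w` on every edge of the block -/
def Adm (w : Fin n → V n M → ℝ) (G : V n M → X) : Prop :=
  ∀ (i : Fin n) (p : V n M) (t : Fin M),
    dist (G (Function.update p i t.castSucc)) (G (Function.update p i t.succ)) ≤
      w i (Function.update p i t.castSucc)

theorem dist_line {w : Fin n → V n M → ℝ} {G : V n M → X}
    (hG : Adm w G) (i : Fin n) (p : V n M) (a b : Fin (M + 1)) :
    dist (G (Function.update p i a)) (G (Function.update p i b)) ≤ line w i p := by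
  wlog hab : a ≤ b generalizing a b
  · rw [dist_comm]
    exact this b a (le_of_not_ge hab)
  -- the function on ℕ
  let f : ℕ → X := fun s => G (Function.update p i (Fin.ofNat (M + 1) s))
  have hfa : f a = G (Function.update p i a) := by simp [f]
  have hfb : f b = G (Function.update p i b) := by simp [f]
  have h1 : dist (f a) (f b) ≤ ∑ s ∈ Finset.Ico (a : ℕ) b, dist (f s) (f (s + 1)) :=
    dist_le_Ico_sum_dist f (by exact_mod_cast hab)
  rw [hfa, hfb] at h1
  refine h1.trans ?_
  have h2 : ∑ s ∈ Finset.Ico (a : ℕ) b, dist (f s) (f (s + 1)) ≤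
      ∑ s ∈ Finset.range M, dist (f s) (f (s + 1)) := by
    refine sum_le_sum_of_subset_of_nonneg ?_ fun _ _ _ => dist_nonneg
    intro s hs
    rw [Finset.mem_Ico] at hs
    rw [Finset.mem_range]
    have := b.2
    omega
  refine h2.trans ?_
  rw [Finset.sum_range]
  unfold line
  refine sum_le_sum fun t _ => ?_
  have h3 : (Fin.ofNat (M + 1) (t : ℕ)) = t.castSucc := by
    ext
    simp only [Fin.ofNat, Fin.val_castSucc]
    exact Nat.mod_eq_of_lt (by omega)
  have h4 : (Fin.ofNat (M + 1) ((t : ℕ) + 1)) = t.succ := by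
    ext
    simp only [Fin.ofNat, Fin.val_succ]
    exact Nat.mod_eq_of_lt (by omega)
  simp only [f, h3, h4]
  exact hG i p t

theorem hyb_succ (i : Fin n) (x z : V n M) :
    hyb ((i : ℕ) + 1) x z = Function.update (hyb i x z) i (z i) := by
  funext k
  by_cases hk : k = i
  · subst hk
    simp [hyb]
  · rw [Function.update_of_ne hk]
    have hk' : (k : ℕ) ≠ i := fun h => hk (Fin.ext h)
    simp only [hyb]
    by_cases h1 : (k : ℕ) < i
    · simp [h1, Nat.lt_succ_of_lt h1]
    · have h2 : ¬ (k : ℕ) < i + 1 := by omega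
      simp [h1, h2]

/-- the path weight controls the distance -/
theorem dist_le_path {w : Fin n → V n M → ℝ} {G : V n M → X}
    (hG : Adm w G) (x z : V n M) : dist (G x) (G z) ≤ path w x z := by
  let f : ℕ → X := fun j => G (hyb j x z)
  have h0 : f 0 = G x := by simp only [f, hyb_zero]
  have hn : f n = G z := by simp only [f, hyb_top]
  have h1 : dist (f 0) (f n) ≤ ∑ j ∈ Finset.range n, dist (f j) (f (j + 1)) :=
    dist_le_range_sum_dist f n
  rw [h0, hn, Finset.sum_range] at h1
  refine h1.trans ?_
  unfold path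
  refine sum_le_sum fun i _ => ?_
  have h2 : f i = G (Function.update (hyb i x z) i ((hyb i x z) i)) := by
    simp [f]
  have h3 : f ((i : ℕ) + 1) = G (Function.update (hyb i x z) i (z i)) := by
    simp only [f, hyb_succ]
  rw [h2, h3]
  exact dist_line hG i _ _ _

/-- **P6-BULK, discrete form.** One vertex `x`, depending only on the weights, from which every
admissible map is controlled in the mean. -/
theorem bulk_sum (w : Fin n → V n M → ℝ) :
    ∃ x : V n M, ∀ (X : Type) [PseudoMetricSpace X] (G : V n M → X), Adm w G →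
      ∑ z : V n M, dist (G x) (G z) ≤ ((M : ℝ) + 1) * tot w := by
  obtain ⟨x, hx⟩ := exists_vertex w
  exact ⟨x, fun X _ G hG => (sum_le_sum fun z _ => dist_le_path hG x z).trans hx⟩

/-- **P6-BULK, counting form**: `F` varies at most `ε` on the block, `G` is pinned at `x` up to `b`:
the vertices with `dist (G z) (F z) > 2 ε + b` are at most `(M+1) tot w / ε`. -/
theorem bulk_count (w : Fin n → V n M → ℝ) :
    ∃ x : V n M, ∀ (X : Type) [PseudoMetricSpace X] (F G : V n M → X) (ε b : ℝ), Adm w G →
      (∀ z, dist (F x) (F z) ≤ ε) → dist (G x) (F x) ≤ b → 0 < ε →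
      ε * ((univ.filter fun z => 2 * ε + b < dist (G z) (F z)).card : ℝ) ≤
        ((M : ℝ) + 1) * tot w := by
  obtain ⟨x, hx⟩ := bulk_sum w
  refine ⟨x, fun X _ F G ε b hG hF hb hε => le_trans ?_ (hx X G hG)⟩
  have h1 : ε * ((univ.filter fun z => 2 * ε + b < dist (G z) (F z)).card : ℝ) =
      ∑ z ∈ univ.filter (fun z => 2 * ε + b < dist (G z) (F z)), ε := by
    rw [sum_const, nsmul_eq_mul]; ring
  rw [h1]
  refine (sum_le_sum (fun z hz => ?_)).trans
    (sum_le_sum_of_subset_of_nonneg (subset_univ _) fun _ _ _ => dist_nonneg)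
  rw [mem_filter] at hz
  have h2 := dist_triangle4 (G z) (G x) (F x) (F z)
  have h3 := hF z
  rw [dist_comm (G z) (G x)] at h2
  linarith [hz.2]

end Crest.Agent.R96.Bulk_348
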