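/-
helper520, row 96, leaf NO-PURE: the discrete purity lemma (edge data and labels at vertices only).

Block `V n M = Fin n → Fin (M+1)` of 348.  One direction `i`; `v` = bound of the total variation on
the edge leaving `p` in direction `i`, `W a` = variation of the family (coordinate) `a`, `c` =
increment of the linear model per edge.
-/
import Mathlib
import Crest.Agent.R96.Bulk1_348

set_option autoImplicit false
set_option linter.unusedSectionVars false

open Finset

namespace Crest.Agent.R96.Pure_520

open Crest.Agent.R96.Bulk_348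

/-- one row, indexed by `ℕ` -/
theorem row {M h : ℕ} (h2 : 2 * h ≤ M + 1) {G W : ℕ → ℝ} {c b : ℝ}
    (hW : ∀ t < M, |G (t + 1) - G t| ≤ W t) :
    (h : ℝ) * (c * (M + 1 - h)) - ∑ t ∈ range (M + 1), |G t - (c * t + b)| ≤
      h * ∑ t ∈ range M, W t := by
  set D : ℕ → ℝ := fun t => |G t - (c * t + b)| with hD
  have hW0 : ∀ t < M, 0 ≤ W t := fun t ht => (abs_nonneg _).trans (hW t ht)
  -- one shift
  have hj : ∀ j ∈ range h, c * (M + 1 - h) - D j - D (j + (M + 1 - h)) ≤ ∑ t ∈ range M, W t := by
    intro j hj
    rw [mem_range] at hj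
    have hjM : j + (M + 1 - h) ≤ M := by omega
    have h3 : ∑ t ∈ Ico j (j + (M + 1 - h)), W t ≤ ∑ t ∈ range M, W t := by
      apply sum_le_sum_of_subset_of_nonneg
      · intro t ht
        rw [mem_Ico] at ht
        rw [mem_range]
        omega
      · intro t ht _
        exact hW0 t (mem_range.1 ht)
    have h4 : G (j + (M + 1 - h)) - G j ≤ ∑ t ∈ Ico j (j + (M + 1 - h)), W t := by
      rw [← sum_Ico_sub G (by omega : j ≤ j + (M + 1 - h))]
      apply sum_le_sum
      intro t ht
      rw [mem_Ico] at ht
      exact (le_abs_self _).trans (hW t (by omega))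
    have h5 : G (j + (M + 1 - h)) ≥ (c * ((j + (M + 1 - h) : ℕ) : ℝ) + b) - D (j + (M + 1 - h)) := by
      have := neg_abs_le (G (j + (M + 1 - h)) - (c * ((j + (M + 1 - h) : ℕ) : ℝ) + b))
      simp only [hD]
      linarith
    have h6 : G j ≤ (c * (j : ℝ) + b) + D j := by
      have := le_abs_self (G j - (c * (j : ℝ) + b))
      simp only [hD]
      linarith
    have h7 : ((j + (M + 1 - h) : ℕ) : ℝ) = j + (M + 1 - h) := by
      rw [Nat.cast_add, Nat.cast_sub (by omega)]
      push_cast
      ring
    rw [h7] at h5
    nlinarith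
  have h8 := sum_le_sum hj
  rw [sum_const, card_range, nsmul_eq_mul, sum_sub_distrib, sum_sub_distrib, sum_const, card_range,
    nsmul_eq_mul] at h8
  have h9 : ∑ j ∈ range h, D j + ∑ j ∈ range h, D (j + (M + 1 - h)) ≤
      ∑ t ∈ range (M + 1), D t := by
    have h10 : ∑ j ∈ range h, D (j + (M + 1 - h)) = ∑ t ∈ Ico (M + 1 - h) (M + 1), D t := by
      rw [sum_Ico_eq_sum_range]
      have h11 : M + 1 - (M + 1 - h) = h := by omega
      rw [h11]
      apply sum_congr rfl
      intro j _
      rw [add_comm]
    rw [h10, ← sum_union]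
    · apply sum_le_sum_of_subset_of_nonneg
      · intro t ht
        rw [mem_union, mem_range, mem_Ico] at ht
        rw [mem_range]
        omega
      · intro t _ _
        exact abs_nonneg _
    · rw [disjoint_left]
      intro t ht
      rw [mem_range] at ht
      rw [mem_Ico]
      omega
  linarith

variable {n M : ℕ}

/-- summing over a row and over all rows -/
theorem sum_upd (f : V n M → ℝ) (i : Fin n) :
    ∑ p : V n M, ∑ t : Fin (M + 1), f (Function.update p i t) = ((M : ℝ) + 1) * ∑ p : V n M, f p := by
  let e : V n M × Fin (M + 1) ≃ V n M × Fin (M + 1) :=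
    { toFun := fun p => (Function.update p.1 i p.2, p.1 i)
      invFun := fun p => (Function.update p.1 i p.2, p.1 i)
      left_inv := fun p => by
        ext <;> simp
      right_inv := fun p => by
        ext <;> simp }
  have h2 : ∑ p : V n M, ∑ t : Fin (M + 1), f (Function.update p i t) =
      ∑ p : V n M × Fin (M + 1), (fun q : V n M × Fin (M + 1) => f q.1) (e p) := by
    rw [Fintype.sum_prod_type]
    rfl
  rw [h2, Equiv.sum_comp e (fun q : V n M × Fin (M + 1) => f q.1), Fintype.sum_prod_type]
  simp only [sum_const, card_univ, Fintype.card_fin, nsmul_eq_mul]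
  rw [← mul_sum]
  push_cast
  ring

/-- sum over the edges of direction `i` -/
def es (i : Fin n) (f : V n M → ℝ) : ℝ := ∑ p : V n M, if (p i : ℕ) < M then f p else 0

theorem es_add (i : Fin n) (f g : V n M → ℝ) :
    es i (fun p => f p + g p) = es i f + es i g := by
  unfold es
  rw [← sum_add_distrib]
  apply sum_congr rfl
  intro p _
  split_ifs <;> simp

theorem es_mul (i : Fin n) (k : ℝ) (f : V n M → ℝ) :
    es i (fun p => k * f p) = k * es i f := by
  unfold es
  rw [mul_sum]
  apply sum_congr rfl
  intro p _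
  split_ifs <;> simp

theorem es_mono (i : Fin n) {f g : V n M → ℝ} (h : ∀ p : V n M, (p i : ℕ) < M → f p ≤ g p) :
    es i f ≤ es i g := by
  unfold es
  apply sum_le_sum
  intro p _
  split_ifs with hp
  · exact h p hp
  · exact le_rfl

theorem es_nonneg (i : Fin n) {f : V n M → ℝ} (h : ∀ p : V n M, (p i : ℕ) < M → 0 ≤ f p) :
    0 ≤ es i f := by
  unfold es
  apply sum_nonneg
  intro p _
  split_ifs with hp
  · exact h p hp
  · exact le_rfl

/-- **deficit of the pure family**: `∑ₑ (v - W) ≤ ∑ₑ (v - c) + c h N/(M+1) + (1/h) ∑ₚ |G - model|`,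
`N = (M+1)^n` the number of vertices. -/
theorem deficit (i : Fin n) {h : ℕ} (h1 : 1 ≤ h) (h2 : 2 * h ≤ M + 1) {G W v : V n M → ℝ} {c b : ℝ}
    (hc : 0 ≤ c)
    (hW : ∀ (p : V n M) (t : Fin M),
      |G (Function.update p i t.succ) - G (Function.update p i t.castSucc)| ≤
        W (Function.update p i t.castSucc)) :
    es i (fun p => v p - W p) ≤ es i (fun p => v p - c) +
      c * h * (((M:ℝ) + 1) ^ n / ((M:ℝ) + 1)) +
        (1 / h) * ∑ p : V n M, |G p - (c * (p i : ℕ) + b)| := by
  have hM1 : (0:ℝ) < (M:ℝ) + 1 := by positivity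
  have hh : (0:ℝ) < (h:ℝ) := by exact_mod_cast h1
  -- the extension of a row to `ℕ`
  have key : ∀ p : V n M, (h:ℝ) * (c * (M + 1 - h)) -
      ∑ t : Fin (M + 1), |G (Function.update p i t) - (c * (t : ℕ) + b)| ≤
        h * ∑ t : Fin M, W (Function.update p i t.castSucc) := by
    intro p
    set g : ℕ → ℝ := fun t => if ht : t < M + 1 then G (Function.update p i ⟨t, ht⟩) else 0 with hg
    set w : ℕ → ℝ := fun t => if ht : t < M + 1 then W (Function.update p i ⟨t, ht⟩) else 0 with hw
    have h3 : ∀ t < M, |g (t + 1) - g t| ≤ w t := by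
      intro t ht
      have h4 := hW p ⟨t, ht⟩
      have e1 : g (t + 1) = G (Function.update p i (Fin.succ ⟨t, ht⟩)) := by
        simp only [hg]
        rw [dif_pos (by omega)]
        rfl
      have e2 : g t = G (Function.update p i (Fin.castSucc ⟨t, ht⟩)) := by
        simp only [hg]
        rw [dif_pos (by omega)]
        rfl
      have e3 : w t = W (Function.update p i (Fin.castSucc ⟨t, ht⟩)) := by
        simp only [hw]
        rw [dif_pos (by omega)]
        rfl
      rw [e1, e2, e3]
      exact h4
    have h5 := row (c := c) (b := b) h2 h3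
    have h6 : ∑ t ∈ range (M + 1), |g t - (c * t + b)| =
        ∑ t : Fin (M + 1), |G (Function.update p i t) - (c * (t : ℕ) + b)| := by
      rw [← Fin.sum_univ_eq_sum_range (fun t => |g t - (c * t + b)|) (M + 1)]
      apply sum_congr rfl
      intro t _
      have : g t = G (Function.update p i t) := by
        simp only [hg]
        rw [dif_pos t.2]
      rw [this]
    have h7 : ∑ t ∈ range M, w t = ∑ t : Fin M, W (Function.update p i t.castSucc) := by
      rw [← Fin.sum_univ_eq_sum_range (fun t => w t) M]
      apply sum_congr rfl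
      intro t _
      simp only [hw]
      rw [dif_pos (by omega)]
      rfl
    rw [h6, h7] at h5
    exact h5
  have key2 := sum_le_sum fun (p : V n M) (_ : p ∈ univ) => key p
  rw [sum_sub_distrib, sum_const, card_univ, card_V, nsmul_eq_mul, ← mul_sum] at key2
  have e1 : ∑ p : V n M, ∑ t : Fin (M + 1), |G (Function.update p i t) - (c * (t : ℕ) + b)| =
      ((M:ℝ) + 1) * ∑ p : V n M, |G p - (c * (p i : ℕ) + b)| := by
    rw [← sum_upd (fun p : V n M => |G p - (c * (p i : ℕ) + b)|) i]
    apply sum_congr rfl
    intro p _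
    apply sum_congr rfl
    intro t _
    simp
  have e2 : ∑ p : V n M, ∑ t : Fin M, W (Function.update p i t.castSucc) =
      ((M:ℝ) + 1) * es i W := by
    unfold es
    rw [← sum_upd (fun p : V n M => if (p i : ℕ) < M then W p else 0) i]
    apply sum_congr rfl
    intro p _
    rw [Fin.sum_univ_castSucc]
    simp
  have e3 : ((M:ℝ) + 1) * es (M := M) i (fun _ => (1:ℝ)) = ((M:ℝ) + 1) ^ n * M := by
    unfold es
    rw [← sum_upd (fun p : V n M => if (p i : ℕ) < M then (1:ℝ) else 0) i]
    have : ∀ p : V n M, ∑ t : Fin (M + 1),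
        (if ((Function.update p i t) i : ℕ) < M then (1:ℝ) else 0) = M := by
      intro p
      rw [Fin.sum_univ_castSucc]
      simp
    simp only [this]
    rw [sum_const, card_univ, card_V, nsmul_eq_mul]
    push_cast
    ring
  rw [e1, e2] at key2
  have e4 : es i (fun p => v p - W p) = es i v - es i W := by
    have := es_add i (fun p => v p) (fun p => (-1) * W p)
    rw [es_mul] at this
    have h3 : es i (fun p => v p - W p) = es i (fun p => v p + (-1) * W p) := by
      congr 1
      funext p
      ring
    rw [h3, this]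
    ring
  have e5 : es i (fun p => v p - c) = es i v - c * es (M := M) i (fun _ => (1:ℝ)) := by
    have := es_add i (fun p => v p) (fun _ => (-c) * (1:ℝ))
    rw [es_mul] at this
    have h3 : es i (fun p => v p - c) = es i (fun p => v p + (-c) * (1:ℝ)) := by
      congr 1
      funext p
      ring
    rw [h3, this]
    ring
  rw [e4, e5]
  push_cast at key2
  set S := ∑ p : V n M, |G p - (c * (p i : ℕ) + b)| with hS
  set A := es i W with hA
  set B := es (M := M) i (fun _ => (1:ℝ)) with hB
  set N := ((M:ℝ) + 1) ^ n with hN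
  have hN0 : 0 < N := by positivity
  -- key2 : N * (h * (c * (M+1-h))) - (M+1) * S ≤ h * ((M+1) * A)
  have f1 : c * B ≤ c * (N * M / (M + 1)) := by
    apply mul_le_mul_of_nonneg_left _ hc
    rw [le_div_iff₀ hM1]
    linarith
  have f2 : N / (M + 1) * (c * (M + 1 - h)) - (1 / h) * S ≤ A := by
    have : (N / (M + 1) * (c * (M + 1 - h)) - (1 / h) * S) * (h * (M + 1)) =
        N * (h * (c * (M + 1 - h))) - (M + 1) * S := by
      field_simp
    have h10 : (0:ℝ) < h * (M + 1) := by positivity
    have h11 : (N / (M + 1) * (c * (M + 1 - h)) - (1 / h) * S) * (h * (M + 1)) ≤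
        A * (h * (M + 1)) := by
      rw [this]
      linarith
    exact le_of_mul_le_mul_right h11 h10
  have f3 : c * (N * M / (M + 1)) = N / (M + 1) * (c * M) := by ring
  have f4 : N / (M + 1) * (c * M) - N / (M + 1) * (c * (M + 1 - h)) =
      c * (h - 1) * (N / (M + 1)) := by ring
  have f5 : c * (h - 1) * (N / (M + 1)) ≤ c * h * (N / (M + 1)) := by
    have : 0 ≤ N / (M + 1) := by positivity
    nlinarith [mul_nonneg hc this]
  linarith

end Crest.Agent.R96.Pure_520
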