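/-
helper520, row 96, leaf NO-PURE, part 2: from the deficit to purity of most edges (`L¹`, `Lᵖ`),
small mass of the impure cells.
-/
import Mathlib
import Crest.Agent.R96.Pure1_520

set_option autoImplicit false
set_option linter.unusedSectionVars false

open Finset

namespace Crest.Agent.R96.Pure_520

open Crest.Agent.R96.Bulk_348

variable {n M : ℕ}

/-- the impurity of an edge: `|W_{a₀} - c| + ∑_{a ≠ a₀} W_a` -/
def imp {A : Type*} [Fintype A] [DecidableEq A] (a₀ : A) (W : A → V n M → ℝ) (c : ℝ)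
    (p : V n M) : ℝ := |W a₀ p - c| + ∑ a ∈ univ.erase a₀, W a p

theorem imp_nonneg {A : Type*} [Fintype A] [DecidableEq A] (a₀ : A) {W : A → V n M → ℝ} {c : ℝ}
    {p : V n M} (hW : ∀ a, 0 ≤ W a p) : 0 ≤ imp a₀ W c p :=
  add_nonneg (abs_nonneg _) (sum_nonneg fun a _ => hW a)

/-- pointwise: impurity ≤ `2 (v - W_{a₀}) + |v - c|` -/
theorem imp_le {A : Type*} [Fintype A] [DecidableEq A] (a₀ : A) {W : A → V n M → ℝ} {c v : ℝ}
    {p : V n M} (hW : ∀ a, 0 ≤ W a p) (hs : ∑ a, W a p ≤ v) :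
    imp a₀ W c p ≤ 2 * (v - W a₀ p) + |v - c| := by
  have h1 : ∑ a, W a p = W a₀ p + ∑ a ∈ univ.erase a₀, W a p :=
    (add_sum_erase _ _ (mem_univ a₀)).symm
  have h2 : 0 ≤ ∑ a ∈ univ.erase a₀, W a p := sum_nonneg fun a _ => hW a
  have h3 : |W a₀ p - c| ≤ (v - W a₀ p) + |v - c| := by
    have h4 : 0 ≤ v - W a₀ p := by linarith
    have h5 : W a₀ p - c = -(v - W a₀ p) + (v - c) := by ring
    rw [h5]
    refine (abs_add_le _ _).trans ?_
    rw [abs_neg, abs_of_nonneg h4]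
  unfold imp
  linarith

/-- pointwise: impurity ≤ `2 c + 2 |v - c|` -/
theorem imp_le' {A : Type*} [Fintype A] [DecidableEq A] (a₀ : A) {W : A → V n M → ℝ} {c v : ℝ}
    {p : V n M} (hc : 0 ≤ c) (hW : ∀ a, 0 ≤ W a p) (hs : ∑ a, W a p ≤ v) :
    imp a₀ W c p ≤ 2 * c + 2 * |v - c| := by
  have h1 : ∑ a, W a p = W a₀ p + ∑ a ∈ univ.erase a₀, W a p :=
    (add_sum_erase _ _ (mem_univ a₀)).symm
  have h2 : 0 ≤ ∑ a ∈ univ.erase a₀, W a p := sum_nonneg fun a _ => hW a
  have h3 : |W a₀ p - c| ≤ W a₀ p + c := by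
    rw [abs_le]
    constructor <;> linarith [hW a₀]
  have h4 : v ≤ c + |v - c| := by linarith [le_abs_self (v - c)]
  have h5 : 0 ≤ |v - c| := abs_nonneg _
  unfold imp
  linarith

/-- **L¹ purity** -/
theorem pure_sum {A : Type*} [Fintype A] [DecidableEq A] (a₀ : A) (i : Fin n) {h : ℕ} (h1 : 1 ≤ h)
    (h2 : 2 * h ≤ M + 1) {G : V n M → ℝ} {W : A → V n M → ℝ} {v : V n M → ℝ} {c b : ℝ}
    (hc : 0 ≤ c) (hW0 : ∀ a p, (p i : ℕ) < M → 0 ≤ W a p)
    (hs : ∀ p, (p i : ℕ) < M → ∑ a, W a p ≤ v p)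
    (hG : ∀ (p : V n M) (t : Fin M),
      |G (Function.update p i t.succ) - G (Function.update p i t.castSucc)| ≤
        W a₀ (Function.update p i t.castSucc)) :
    es i (imp a₀ W c) ≤ 3 * es i (fun p => |v p - c|) +
      2 * (c * h * (((M:ℝ) + 1) ^ n / ((M:ℝ) + 1))) +
        (2 / h) * ∑ p : V n M, |G p - (c * (p i : ℕ) + b)| := by
  have h3 := deficit (v := v) (b := b) i h1 h2 hc hG
  have h4 : es i (imp a₀ W c) ≤ es i (fun p => 2 * (v p - W a₀ p) + |v p - c|) :=
    es_mono i fun p hp => imp_le a₀ (fun a => hW0 a p hp) (hs p hp)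
  rw [es_add i (fun p => 2 * (v p - W a₀ p)) (fun p => |v p - c|), es_mul] at h4
  have h5 : es i (fun p => v p - c) ≤ es i (fun p => |v p - c|) :=
    es_mono i fun p _ => le_abs_self _
  have h6 : (2 / (h:ℝ)) * ∑ p : V n M, |G p - (c * (p i : ℕ) + b)| =
      2 * ((1 / h) * ∑ p : V n M, |G p - (c * (p i : ℕ) + b)|) := by ring
  rw [h6]
  linarith

/-- the elementary inequality behind `L¹ ⇒ Lᵖ` -/
theorem rpow_split {x t s q : ℝ} (hq : 1 ≤ q) (hx : 0 ≤ x) (ht : 0 ≤ t) (hs : 0 ≤ s)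
    (h : x ≤ 2 * s + 2 * t) : x ^ q ≤ (4:ℝ) ^ q * t ^ q + (4 * s) ^ (q - 1) * x := by
  rcases le_or_gt (4 * s) x with h1 | h1
  · have h2 : x ≤ 4 * t := by linarith
    have h3 : x ^ q ≤ (4 * t) ^ q := Real.rpow_le_rpow hx h2 (by linarith)
    rw [Real.mul_rpow (by norm_num) ht] at h3
    have h4 : 0 ≤ (4 * s) ^ (q - 1) * x := by positivity
    linarith
  · have h2 : x ^ q ≤ (4 * s) ^ (q - 1) * x := by
      rcases hx.eq_or_lt with h0 | h0
      · rw [← h0, Real.zero_rpow (by linarith), mul_zero]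
      · have h3 : x ^ q = x ^ (q - 1) * x := by
          rw [← Real.rpow_add_one h0.ne']
          congr 1
          ring
        rw [h3]
        exact mul_le_mul_of_nonneg_right
          (Real.rpow_le_rpow hx h1.le (by linarith)) hx
    have h4 : 0 ≤ (4:ℝ) ^ q * t ^ q := by positivity
    linarith

/-- **Lᵖ purity**: `x = imp / r`, `t = |v - c| / r`, `c = s r`. -/
theorem pure_rpow {A : Type*} [Fintype A] [DecidableEq A] (a₀ : A) (i : Fin n) {W : A → V n M → ℝ}
    {v : V n M → ℝ} {s r q : ℝ} (hs0 : 0 ≤ s) (hr : 0 < r) (hq : 1 ≤ q)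
    (hW0 : ∀ a p, (p i : ℕ) < M → 0 ≤ W a p)
    (hs : ∀ p, (p i : ℕ) < M → ∑ a, W a p ≤ v p) :
    es i (fun p => (imp a₀ W (s * r) p / r) ^ q) ≤
      (4:ℝ) ^ q * es i (fun p => (|v p - s * r| / r) ^ q) +
        (4 * s) ^ (q - 1) * es i (fun p => imp a₀ W (s * r) p / r) := by
  rw [← es_mul, ← es_mul, ← es_add]
  apply es_mono
  intro p hp
  apply rpow_split hq (div_nonneg (imp_nonneg a₀ fun a => hW0 a p hp) hr.le)
    (div_nonneg (abs_nonneg _) hr.le) hs0
  have h1 := imp_le' a₀ (c := s * r) (by positivity) (fun a => hW0 a p hp) (hs p hp)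
  rw [div_le_iff₀ hr]
  have h2 : (2 * s + 2 * (|v p - s * r| / r)) * r = 2 * (s * r) + 2 * |v p - s * r| := by
    field_simp
  rw [h2]
  exact h1

/-- bounded, and small at most vertices -/
theorem sum_le_of_most {ι : Type*} [Fintype ι] (D : ι → ℝ) {B η : ℝ} (hB : ∀ p, D p ≤ B)
    (hη : 0 ≤ η) :
    ∑ p, D p ≤ η * Fintype.card ι + B * (univ.filter fun p => η < D p).card := by
  classical
  calc ∑ p, D p ≤ ∑ p, (η + if η < D p then B else 0) := by
        apply sum_le_sum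
        intro p _
        split_ifs with h
        · linarith [hB p]
        · linarith [not_lt.1 h]
    _ = η * Fintype.card ι + B * (univ.filter fun p => η < D p).card := by
        rw [sum_add_distrib, sum_const, card_univ, nsmul_eq_mul, ← sum_filter, sum_const,
          nsmul_eq_mul]
        ring

/-- **small mass of the impure cells** (abstract incidence). -/
theorem bad_mass {Q E : Type*} [Fintype Q] [Fintype E] [DecidableEq E] (inc : Q → Finset E)
    {κ κ' : ℕ} (hκ' : ∀ c, (inc c).card ≤ κ') (hκ : ∀ e, (univ.filter fun c => e ∈ inc c).card ≤ κ)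
    {x y : E → ℝ} {s η q : ℝ} (hq : 1 ≤ q) (hη : 0 < η) (hs : 0 ≤ s) (hx : ∀ e, 0 ≤ x e)
    (hy : ∀ e, 0 ≤ y e) (hyx : ∀ e, y e ≤ s + x e) :
    ∑ c ∈ univ.filter (fun c => ∃ e ∈ inc c, η < x e), ∑ e ∈ inc c, (y e) ^ q ≤
      κ * ((2:ℝ) ^ q * (κ' * s ^ q * (1 / η) ^ q + 1)) * ∑ e, (x e) ^ q := by
  classical
  set C : ℝ := (2:ℝ) ^ q * (κ' * s ^ q * (1 / η) ^ q + 1) with hC
  have hC0 : 0 ≤ C := by positivity
  have hq0 : 0 ≤ q := by linarith
  -- one bad cell
  have h1 : ∀ c ∈ univ.filter (fun c => ∃ e ∈ inc c, η < x e), ∑ e ∈ inc c, (y e) ^ q ≤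
      C * ∑ e ∈ inc c, (x e) ^ q := by
    intro c hc
    rw [mem_filter] at hc
    obtain ⟨-, e₀, he₀, hlt⟩ := hc
    have h2 : ∀ e ∈ inc c, (y e) ^ q ≤ (2:ℝ) ^ q * (s ^ q + (x e) ^ q) := by
      intro e _
      have h3 : (y e) ^ q ≤ (2 * max s (x e)) ^ q := by
        apply Real.rpow_le_rpow (hy e) _ hq0
        have := hyx e
        have a1 := le_max_left s (x e)
        have a2 := le_max_right s (x e)
        linarith
      rw [Real.mul_rpow (by norm_num) (hs.trans (le_max_left _ _))] at h3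
      refine h3.trans (mul_le_mul_of_nonneg_left ?_ (by positivity))
      rcases le_total s (x e) with h4 | h4
      · rw [max_eq_right h4]
        have : 0 ≤ s ^ q := by positivity
        linarith
      · rw [max_eq_left h4]
        have : 0 ≤ (x e) ^ q := Real.rpow_nonneg (hx e) _
        linarith
    have h5 : (1:ℝ) ≤ (1 / η) ^ q * ∑ e ∈ inc c, (x e) ^ q := by
      have h6 : (1:ℝ) ≤ (1 / η) ^ q * (x e₀) ^ q := by
        rw [← Real.mul_rpow (by positivity) (hx e₀)]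
        apply Real.one_le_rpow _ hq0
        rw [one_div, inv_mul_eq_div, one_le_div hη]
        exact hlt.le
      refine h6.trans (mul_le_mul_of_nonneg_left ?_ (by positivity))
      exact single_le_sum (f := fun e => (x e) ^ q) (fun e _ => Real.rpow_nonneg (hx e) _) he₀
    calc ∑ e ∈ inc c, (y e) ^ q ≤ ∑ e ∈ inc c, (2:ℝ) ^ q * (s ^ q + (x e) ^ q) :=
          sum_le_sum h2
      _ = (2:ℝ) ^ q * ((inc c).card * s ^ q + ∑ e ∈ inc c, (x e) ^ q) := by
          rw [← mul_sum, sum_add_distrib, sum_const, nsmul_eq_mul]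
      _ ≤ (2:ℝ) ^ q * (κ' * s ^ q * ((1 / η) ^ q * ∑ e ∈ inc c, (x e) ^ q) +
            ∑ e ∈ inc c, (x e) ^ q) := by
          apply mul_le_mul_of_nonneg_left _ (by positivity)
          have h7 : ((inc c).card : ℝ) * s ^ q ≤ κ' * s ^ q :=
            mul_le_mul_of_nonneg_right (by exact_mod_cast hκ' c) (by positivity)
          have h8 : (κ' : ℝ) * s ^ q * 1 ≤ κ' * s ^ q * ((1 / η) ^ q * ∑ e ∈ inc c, (x e) ^ q) :=
            mul_le_mul_of_nonneg_left h5 (by positivity)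
          linarith
      _ = C * ∑ e ∈ inc c, (x e) ^ q := by
          rw [hC]
          ring
  calc ∑ c ∈ univ.filter (fun c => ∃ e ∈ inc c, η < x e), ∑ e ∈ inc c, (y e) ^ q
      ≤ ∑ c ∈ univ.filter (fun c => ∃ e ∈ inc c, η < x e), C * ∑ e ∈ inc c, (x e) ^ q :=
        sum_le_sum h1
    _ ≤ ∑ c, C * ∑ e ∈ inc c, (x e) ^ q := by
        apply sum_le_sum_of_subset_of_nonneg (filter_subset _ _)
        intro c _ _
        exact mul_nonneg hC0 (sum_nonneg fun e _ => Real.rpow_nonneg (hx e) _)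
    _ = C * ∑ e, ((univ.filter fun c => e ∈ inc c).card : ℝ) * (x e) ^ q := by
        rw [← mul_sum]
        congr 1
        have h9 : ∀ c, ∑ e ∈ inc c, (x e) ^ q = ∑ e, if e ∈ inc c then (x e) ^ q else 0 := by
          intro c
          rw [← sum_filter]
          apply sum_congr _ fun _ _ => rfl
          ext e
          simp
        simp only [h9]
        rw [sum_comm]
        apply sum_congr rfl
        intro e _
        rw [← sum_filter, sum_const, nsmul_eq_mul]
    _ ≤ C * ∑ e, (κ : ℝ) * (x e) ^ q := by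
        apply mul_le_mul_of_nonneg_left _ hC0
        apply sum_le_sum
        intro e _
        exact mul_le_mul_of_nonneg_right (by exact_mod_cast hκ e) (Real.rpow_nonneg (hx e) _)
    _ = κ * C * ∑ e, (x e) ^ q := by
        rw [← mul_sum]
        ring

/-- the total variation is controlled by `s` and the impurity -/
theorem total_le {A : Type*} [Fintype A] [DecidableEq A] (a₀ : A) {W : A → V n M → ℝ} {s r : ℝ}
    (hr : 0 < r) {p : V n M} : (∑ a, W a p) / r ≤ s + imp a₀ W (s * r) p / r := by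
  have h1 : ∑ a, W a p = W a₀ p + ∑ a ∈ univ.erase a₀, W a p :=
    (add_sum_erase _ _ (mem_univ a₀)).symm
  have h2 : W a₀ p - s * r ≤ |W a₀ p - s * r| := le_abs_self _
  rw [div_le_iff₀ hr, add_mul, div_mul_cancel₀ _ hr.ne']
  unfold imp
  linarith

end Crest.Agent.R96.Pure_520
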