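/-
helper520, row 96, leaf NO-PURE, part 3: epsilon-delta form of the discrete purity lemma.
-/
import Mathlib
import Crest.Agent.R96.Pure2_520

set_option autoImplicit false
set_option linter.unusedSectionVars false

open Finset

namespace Crest.Agent.R96.Pure_520

open Crest.Agent.R96.Bulk_348

theorem le_young {t τ q : ℝ} (hq : 1 ≤ q) (ht : 0 ≤ t) (hτ : 0 < τ) :
    t ≤ τ + τ ^ (1 - q) * t ^ q := by
  rcases le_or_gt t τ with h | h
  · have : 0 ≤ τ ^ (1 - q) * t ^ q := by positivity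
    linarith
  · have ht0 : 0 < t := hτ.trans h
    have h1 : t = t ^ (1 - q) * t ^ q := by
      rw [← Real.rpow_add ht0]
      simp
    have h2 : t ^ (1 - q) ≤ τ ^ (1 - q) :=
      Real.rpow_le_rpow_of_nonpos hτ h.le (by linarith)
    have h3 : t ^ (1 - q) * t ^ q ≤ τ ^ (1 - q) * t ^ q :=
      mul_le_mul_of_nonneg_right h2 (by positivity)
    linarith

/-- `L¹` purity after division by `r`. -/
theorem pure_mean {n M : ℕ} {A : Type*} [Fintype A] [DecidableEq A] (a₀ : A) (i : Fin n) {h : ℕ}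
    (h1 : 1 ≤ h) (h2 : 2 * h ≤ M + 1) {G : V n M → ℝ} {W : A → V n M → ℝ} {v : V n M → ℝ}
    {s r b : ℝ} (hs : 0 ≤ s) (hr : 0 < r) (hW0 : ∀ a p, (p i : ℕ) < M → 0 ≤ W a p)
    (hsum : ∀ p, (p i : ℕ) < M → ∑ a, W a p ≤ v p)
    (hG : ∀ (p : V n M) (t : Fin M),
      |G (Function.update p i t.succ) - G (Function.update p i t.castSucc)| ≤
        W a₀ (Function.update p i t.castSucc)) :
    es i (fun p => imp a₀ W (s * r) p / r) ≤ 3 * es i (fun p => |v p - s * r| / r) +
      2 * s * (h / ((M:ℝ) + 1)) * ((M:ℝ) + 1) ^ n +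
        (2 / (h * r)) * ∑ p : V n M, |G p - (s * r * (p i : ℕ) + b)| := by
  have p1 := pure_sum (b := b) a₀ i h1 h2 (v := v) (c := s * r) (by positivity) hW0 hsum hG
  have e1 : es i (fun p => imp a₀ W (s * r) p / r) = (1 / r) * es i (imp a₀ W (s * r)) := by
    rw [← es_mul]
    congr 1
    funext p
    ring
  have e2 : es i (fun p => |v p - s * r| / r) = (1 / r) * es i (fun p => |v p - s * r|) := by
    rw [← es_mul]
    congr 1
    funext p
    ring
  rw [e1, e2]
  set S := ∑ p : V n M, |G p - (s * r * (p i : ℕ) + b)|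
  set X := es i (fun p => |v p - s * r|)
  set Y := es i (imp a₀ W (s * r))
  set N := ((M:ℝ) + 1) ^ n
  set m := (M:ℝ) + 1
  have e3 := mul_le_mul_of_nonneg_left p1 (show 0 ≤ 1 / r by positivity)
  refine e3.trans (le_of_eq ?_)
  have hh : (h:ℝ) ≠ 0 := by
    have : (0:ℝ) < h := by exact_mod_cast h1
    exact this.ne'
  have hr' := hr.ne'
  have f1 : 1 / r * (2 * (s * r * h * (N / m))) = 2 * s * (h / m) * N := by
    field_simp
  have f2 : 1 / r * (2 / h * S) = 2 / (h * r) * S := by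
    field_simp
  have f3 : 1 / r * (3 * X + 2 * (s * r * h * (N / m)) + 2 / h * S) =
      1 / r * (3 * X) + 1 / r * (2 * (s * r * h * (N / m))) + 1 / r * (2 / h * S) := by ring
  rw [f3, f1, f2]
  ring

/-- **discrete purity, epsilon-delta form.** Block of side `M r`, edges of length `r`, direction
`i`, pure family `a₀`, slope `s`.  If the labels `G` of the pure family are `δ M r`-close to the
linear model on average over the vertices, the families are dominated by `v` on every edge and `v`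
is `Lᵠ`-close to `s r`, then the impurity is `Lᵠ`-small.  Uniform in the dimension, the number of
families, `r`, `b` and in `M ≥ M₀`. -/
theorem no_pure {q s ε : ℝ} (hq : 1 ≤ q) (hs : 0 ≤ s) (hε : 0 < ε) :
    ∃ δ : ℝ, 0 < δ ∧ ∃ M₀ : ℕ, ∀ (n M : ℕ), M₀ ≤ M → ∀ (A : Type) [Fintype A] [DecidableEq A]
      (a₀ : A) (i : Fin n) (r b : ℝ) (G : V n M → ℝ) (W : A → V n M → ℝ) (v : V n M → ℝ),
      0 < r → (∀ a p, (p i : ℕ) < M → 0 ≤ W a p) → (∀ p, (p i : ℕ) < M → ∑ a, W a p ≤ v p) →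
      (∀ (p : V n M) (t : Fin M),
        |G (Function.update p i t.succ) - G (Function.update p i t.castSucc)| ≤
          W a₀ (Function.update p i t.castSucc)) →
      ∑ p : V n M, |G p - (s * r * (p i : ℕ) + b)| ≤ δ * (M * r) * ((M:ℝ) + 1) ^ n →
      es i (fun p => (|v p - s * r| / r) ^ q) ≤ δ * ((M:ℝ) + 1) ^ n →
      es i (fun p => (imp a₀ W (s * r) p / r) ^ q) ≤ ε * ((M:ℝ) + 1) ^ n := by
  set K : ℝ := (4 * s) ^ (q - 1) + 1 with hK
  have hK0 : 1 ≤ K := by
    have : 0 ≤ (4 * s) ^ (q - 1) := by positivity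
    linarith
  set τ : ℝ := ε / (12 * K) with hτ
  have hτ0 : 0 < τ := by positivity
  set lam : ℝ := min (1 / 4) (ε / (16 * K * (s + 1))) with hlam
  have hlam0 : 0 < lam := lt_min (by norm_num) (by positivity)
  set T : ℝ := (4:ℝ) ^ q + K * (3 * τ ^ (1 - q) + 2 / lam) with hT
  have hT0 : 0 < T := by positivity
  refine ⟨ε / (2 * T), by positivity, ⌈1 / lam⌉₊ + 4, ?_⟩
  intro n M hM A _ _ a₀ i r b G W v hr hW0 hsum hG hD hv
  set δ : ℝ := ε / (2 * T) with hδ
  have hδ0 : 0 < δ := by positivity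
  set N : ℝ := ((M:ℝ) + 1) ^ n with hN
  have hN0 : 0 < N := by positivity
  have hM1 : (0:ℝ) < (M:ℝ) + 1 := by positivity
  -- the integer `h`
  set h : ℕ := ⌈lam * ((M:ℝ) + 1)⌉₊ with hh
  have hMlam : 1 / lam ≤ (M:ℝ) := by
    have h1 : (⌈1 / lam⌉₊ : ℝ) ≤ M := by exact_mod_cast (by omega : ⌈1 / lam⌉₊ ≤ M)
    exact (Nat.le_ceil _).trans h1
  have hlM : 1 ≤ lam * ((M:ℝ) + 1) := by
    rw [div_le_iff₀ hlam0] at hMlam
    nlinarith
  have hh1 : lam * ((M:ℝ) + 1) ≤ h := Nat.le_ceil _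
  have hh2 : (h:ℝ) < lam * ((M:ℝ) + 1) + 1 := Nat.ceil_lt_add_one (by positivity)
  have hh3 : 1 ≤ h := by
    have : (1:ℝ) ≤ h := hlM.trans hh1
    exact_mod_cast this
  have hh0 : (0:ℝ) < h := by exact_mod_cast hh3
  have hh4 : (h:ℝ) ≤ 2 * (lam * ((M:ℝ) + 1)) := by linarith
  have hh5 : 2 * h ≤ M + 1 := by
    have h4M : 4 ≤ M := by omega
    have h1 : lam * ((M:ℝ) + 1) ≤ ((M:ℝ) + 1) / 4 := by
      have := min_le_left (1 / 4) (ε / (16 * K * (s + 1)))
      nlinarith
    have h2 : 2 * (h:ℝ) < ((M:ℝ) + 1) / 2 + 2 := by linarith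
    have h3 : (4:ℝ) ≤ M := by exact_mod_cast h4M
    have h5 : 2 * (h:ℝ) < (M:ℝ) + 1 + 1 := by linarith
    have h6 : 2 * h < M + 1 + 1 := by exact_mod_cast h5
    omega
  -- L¹
  have p2 : es i (fun p => |v p - s * r| / r) ≤ τ * N + τ ^ (1 - q) * (δ * N) := by
    have h1 : es i (fun p => |v p - s * r| / r) ≤
        es i (fun p => τ + τ ^ (1 - q) * (|v p - s * r| / r) ^ q) :=
      es_mono i fun p _ => le_young hq (div_nonneg (abs_nonneg _) hr.le) hτ0
    rw [es_add i (fun _ => τ) (fun p => τ ^ (1 - q) * (|v p - s * r| / r) ^ q), es_mul] at h1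
    have h2 : es (M := M) i (fun _ => τ) ≤ τ * N := by
      unfold es
      calc ∑ p : V n M, (if (p i : ℕ) < M then τ else 0) ≤ ∑ _p : V n M, τ := by
            apply sum_le_sum
            intro p _
            split_ifs
            · exact le_rfl
            · exact hτ0.le
        _ = τ * N := by
            rw [sum_const, card_univ, card_V, nsmul_eq_mul, hN]
            push_cast
            ring
    have h3 : τ ^ (1 - q) * es i (fun p => (|v p - s * r| / r) ^ q) ≤ τ ^ (1 - q) * (δ * N) :=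
      mul_le_mul_of_nonneg_left hv (by positivity)
    linarith
  have p3 : es i (fun p => imp a₀ W (s * r) p / r) ≤
      N * (3 * τ + 3 * τ ^ (1 - q) * δ + 4 * s * lam + 2 * δ / lam) := by
    have e3 := pure_mean (b := b) a₀ i hh3 hh5 hs hr hW0 hsum hG
    have e5 : 2 * s * ((h:ℝ) / ((M:ℝ) + 1)) * N ≤ 4 * s * lam * N := by
      have h1 : (h:ℝ) / ((M:ℝ) + 1) ≤ 2 * lam := by
        rw [div_le_iff₀ hM1]
        linarith
      have h2 : 2 * s * ((h:ℝ) / ((M:ℝ) + 1)) ≤ 2 * s * (2 * lam) :=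
        mul_le_mul_of_nonneg_left h1 (by positivity)
      nlinarith
    have e6 : (2 / (h * r)) * ∑ p : V n M, |G p - (s * r * (p i : ℕ) + b)| ≤ 2 * δ / lam * N := by
      calc (2 / (h * r)) * ∑ p : V n M, |G p - (s * r * (p i : ℕ) + b)|
          ≤ (2 / (h * r)) * (δ * (M * r) * N) := mul_le_mul_of_nonneg_left hD (by positivity)
        _ = 2 * δ * N * (M / h) := by
            field_simp
        _ ≤ 2 * δ * N * (1 / lam) := by
            apply mul_le_mul_of_nonneg_left _ (by positivity)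
            rw [div_le_div_iff₀ hh0 hlam0]
            nlinarith
        _ = 2 * δ / lam * N := by ring
    calc es i (fun p => imp a₀ W (s * r) p / r)
        ≤ 3 * es i (fun p => |v p - s * r| / r) + 2 * s * (h / ((M:ℝ) + 1)) * N +
          (2 / (h * r)) * ∑ p : V n M, |G p - (s * r * (p i : ℕ) + b)| := e3
      _ ≤ 3 * (τ * N + τ ^ (1 - q) * (δ * N)) + 4 * s * lam * N + 2 * δ / lam * N := by
          linarith
      _ = N * (3 * τ + 3 * τ ^ (1 - q) * δ + 4 * s * lam + 2 * δ / lam) := by ring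
  -- Lᵠ
  have p4 := pure_rpow a₀ i hs hr hq hW0 hsum
  have k1 : (4 * s) ^ (q - 1) ≤ K := by linarith
  have k2 : 0 ≤ es i (fun p => imp a₀ W (s * r) p / r) :=
    es_nonneg i fun p hp => div_nonneg (imp_nonneg a₀ fun a => hW0 a p hp) hr.le
  have k3 : (4 * s) ^ (q - 1) * es i (fun p => imp a₀ W (s * r) p / r) ≤
      K * (N * (3 * τ + 3 * τ ^ (1 - q) * δ + 4 * s * lam + 2 * δ / lam)) :=
    (mul_le_mul_of_nonneg_right k1 k2).trans (mul_le_mul_of_nonneg_left p3 (by linarith))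
  have k4 : (4:ℝ) ^ q * es i (fun p => (|v p - s * r| / r) ^ q) ≤ (4:ℝ) ^ q * (δ * N) :=
    mul_le_mul_of_nonneg_left hv (by positivity)
  have k5 : K * (3 * τ) = ε / 4 := by
    rw [hτ]
    field_simp
    ring
  have k6 : K * (4 * s * lam) ≤ ε / 4 := by
    have h1 : lam ≤ ε / (16 * K * (s + 1)) := min_le_right _ _
    have h2 : K * (4 * s * lam) ≤ K * (4 * (s + 1) * (ε / (16 * K * (s + 1)))) := by
      apply mul_le_mul_of_nonneg_left _ (by linarith)
      apply mul_le_mul _ h1 hlam0.le (by positivity)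
      linarith
    have h3 : K * (4 * (s + 1) * (ε / (16 * K * (s + 1)))) = ε / 4 := by
      field_simp
      ring
    linarith
  have k7 : (4:ℝ) ^ q * δ + K * (3 * τ ^ (1 - q) * δ + 2 * δ / lam) = ε / 2 := by
    have h1 : (4:ℝ) ^ q * δ + K * (3 * τ ^ (1 - q) * δ + 2 * δ / lam) = T * δ := by
      rw [hT]
      ring
    rw [h1, hδ]
    field_simp
  calc es i (fun p => (imp a₀ W (s * r) p / r) ^ q)
      ≤ (4:ℝ) ^ q * (δ * N) +
        K * (N * (3 * τ + 3 * τ ^ (1 - q) * δ + 4 * s * lam + 2 * δ / lam)) := by linarith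
    _ = N * (K * (3 * τ) + K * (4 * s * lam) +
        ((4:ℝ) ^ q * δ + K * (3 * τ ^ (1 - q) * δ + 2 * δ / lam))) := by ring
    _ ≤ N * (ε / 4 + ε / 4 + ε / 2) := by
        apply mul_le_mul_of_nonneg_left _ hN0.le
        rw [k5, k7]
        linarith
    _ = ε * N := by ring

end Crest.Agent.R96.Pure_520
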