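import Crest.Agent.R96.Ea0p_348
import Crest.Agent.R096.Zac1_447
import Crest.Agent.R096.Ez1_961

/-!
# R96, EA0 (helper348), part 2: `MachBF → Pre0 p → EA0 p`
-/

set_option autoImplicit false
set_option linter.style.longLine false
set_option linter.unusedSectionVars false

open MeasureTheory Set Filter Topology Metric
open scoped ENNReal NNReal

namespace Crest.Agent.R96.Ea0p_348

open Crest.Agent.R096.SkC1_961 (E3 Hom3 FoamD)
open Crest.Agent.R096.Er_594 (SH3)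
open Crest.Agent.R096.Bsp_628 Crest.Agent.R096.Brk5_582
open Crest.Agent.R096.EaX_766 (lin cbx Kor)
open Crest.Agent.R096.Acc_365
open Crest.Agent.R096.Msh_715 (Tiling P I)
open Crest.Agent.R096.Mal_874 (CB)
open Crest.Agent.R096.Ls_222 (Edg)
open Crest.Agent.R096.Ea0_961 (Blk InS Tw Ly)
open Crest.Agent.R96.EaCore_348 (EE Ord Macro ea_one Kea)
open Crest.Agent.R96.EaPost_348 (Geo)
open Crest.Agent.R96.Pm_199 (Dec)
open Crest.Agent.R096.Pmc_112 (PreOut)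
open Crest.Agent.R96.EaP_899 (XD fX cm)
open Crest.Agent.R096.Mbf_337 (MachBF Star)
open Crest.Agent.R096.Zac_447
open Crest.Agent.R096.Ez_961
open Crest.Agent.R096.Eau_365 (exists_em kea_ne_top arith4)

noncomputable section

/-- the linear part of an affine equivalence is not zero -/
theorem enorm_lin_ne (A : E3 ≃ᵃ[ℝ] E3) : ‖lin A‖ₑ ≠ 0 := by
  intro h'
  rw [← ofReal_norm, ENNReal.ofReal_eq_zero] at h'
  have h : lin A = 0 := norm_le_zero_iff.1 h'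
  have h1 : ∀ x : E3, A.linear x = 0 := fun x => by
    have : lin A x = 0 := by rw [h]; rfl
    exact this
  have h2 : (Pi.single 0 1 : E3) = 0 := A.linear.injective (by rw [h1, h1])
  have := congrFun h2 0
  simp at this

/-- the core has positive volume -/
theorem vol_kor_ne {F : Set (Bx (Fin 3))} (A : F → E3 ≃ᵃ[ℝ] E3) {lam : F → ℝ} {c : F}
    (hc : c.1.Pos) (hl : 0 < lam c) : volume (Kor F A lam c) ≠ 0 := by
  have h1 : Kor F A lam c = K1 (A c) c.1 (lam c) := rfl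
  rw [h1, volume_K1 hc hl.le, Ne, ENNReal.ofReal_eq_zero, not_le]
  have hdet : (lin (A c)).det ≠ 0 := by
    have h2 : (lin (A c)).det = LinearMap.det ((A c).linear : E3 →ₗ[ℝ] E3) := rfl
    rw [h2]
    exact (LinearEquiv.isUnit_det' (A c).linear).ne_zero
  refine mul_pos (inv_pos.2 (abs_pos.2 hdet)) (Finset.prod_pos fun k _ => mul_pos hl ?_)
  have := hc k
  show 0 < c.1.side k
  unfold Bx.side
  linarith

/-- the factor `2 ^ (p - 1)` -/
def P2 (p : ℝ) : ℝ≥0 := (2 : ℝ≥0) ^ (p - 1)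

theorem P2_coe (p : ℝ) : ((P2 p : ℝ≥0) : ℝ≥0∞) = 2 ^ (p - 1) := by
  unfold P2
  rw [ENNReal.coe_rpow_of_ne_zero (by norm_num)]
  rfl

theorem P2_real (p : ℝ) : ENNReal.ofReal (2 ^ (p - 1)) = ((P2 p : ℝ≥0) : ℝ≥0∞) := by
  rw [P2_coe, ← ENNReal.ofReal_rpow_of_pos (by norm_num)]
  norm_num

/-- **`MachBF → Pre0 p → EA0 p`** -/
theorem ea0_of_pre {p : ℝ} (hp : 1 ≤ p) (hp3 : p < 3) (HM : MachBF) (HP : Pre0 p) :
    Crest.Agent.R096.Ea0_961.EA0 p := by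
  classical
  intro δ κ0 R c0 κ2 Cc Bs hδ hκ0 hR hc0 hcκ hκ2 hκ2' hCc hBs
  have hp0 : 0 < p := by linarith
  have hcm : 0 < cm κ0 c0 := Crest.Agent.R96.EaP_899.cm_pos hκ0 hc0
  obtain ⟨C0, C, hC0, hC, HM⟩ := ea_one HM hδ hκ0 hR hcm (κ2 := κ2 / 2) (by positivity)
    (κ3 := 8) le_rfl
  obtain ⟨C1, HP⟩ := HP δ κ0 R c0 κ2 Cc Bs hδ hκ0 hR hc0 hcκ hκ2 hκ2' hCc hBs C hC
  set KK : ℝ≥0 := (Kea p 1 * 2 ^ (p - 1)).toNNReal with hKK
  have hKKe : ((KK : ℝ≥0) : ℝ≥0∞) = Kea p 1 * 2 ^ (p - 1) :=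
    ENNReal.coe_toNNReal (kea_ne_top p 1 hp)
  set BB : ℝ≥0 := ((C0 + 1) * R).toNNReal with hBB
  have hBpos : 0 < (C0 + 1) * R := by positivity
  have hBe : (BB : ℝ) = (C0 + 1) * R := Real.coe_toNNReal _ hBpos.le
  set K4 : ℝ≥0 := P2 p * P2 p with hK4
  refine ⟨(KK + K4) * C1 + BB, add_pos_of_nonneg_of_pos (by positivity)
    (Real.toNNReal_pos.2 hBpos), ?_⟩
  intro e he lam1 hlam1
  obtain ⟨e1, τ, he1, hτ, hsc⟩ := shift_choice p (c0 := c0) (κ0 := κ0) (e := e / 2) hc0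
    (by linarith) (by positivity)
  obtain ⟨em, hem, hem1⟩ := exists_em p hp hC0 hc0 he1
  obtain ⟨κp, κ1', hκp, hκp1, hκ1', hκ12, HM⟩ := HM em hem
  obtain ⟨κ1, hκ1, M0, HP⟩ := HP κp κ1' τ lam1 hκp hκp1 hκ1' hκ12 hτ hlam1
  refine ⟨κ1, hκ1, M0, fun M hM => ?_⟩
  obtain ⟨κw, hκw, HP⟩ := HP M hM
  refine ⟨κw, hκw, fun Nn => ?_⟩
  obtain ⟨CA, κt, hκt, hκtτ, HP⟩ := HP Nn
  refine ⟨(KK + K4) * CA, κt, hκt, ?_⟩
  intro Om La f D hO hOb hOc hLa hLb hLc hSH u hu F bf cmp hst X A lam Q k0 hk er hlam hB hIn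
    e' he'
  -- the small numbers
  obtain ⟨ε, hε0, hεe⟩ := arith4 (KK := KK) he'
  have hpos : ∀ c : F, c.1.Pos := fun c => bf.pos c.1 c.2
  set tn : F → ℝ≥0∞ := fun c =>
    (ENNReal.ofReal (e / 2) * (‖lin (A c)‖ₑ ^ p * volume (Kor F A lam c))) / (2 * K4 + 1) with htn
  have hden : (2 * K4 + 1 : ℝ≥0∞) ≠ ∞ := ENNReal.add_ne_top.2
    ⟨ENNReal.mul_ne_top (by norm_num) ENNReal.coe_ne_top, ENNReal.one_ne_top⟩
  have htn0 : ∀ c ∈ X, tn c ≠ 0 := by
    intro c hc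
    have hl : 0 < lam c := hc0.trans_le (hlam c hc).1
    rw [htn]
    refine (ENNReal.div_pos ?_ hden).ne'
    refine mul_ne_zero (ENNReal.ofReal_pos.2 (by positivity)).ne' (mul_ne_zero ?_
      (vol_kor_ne A (hpos c) hl))
    exact (ENNReal.rpow_pos_of_nonneg (pos_iff_ne_zero.2 (enorm_lin_ne (A c))) hp0.le).ne'
  have htn1 : ∀ c, (K4 : ℝ≥0∞) * (tn c + tn c) ≤
      ENNReal.ofReal (e / 2) * (‖lin (A c)‖ₑ ^ p * volume (Kor F A lam c)) := by
    intro c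
    calc (K4 : ℝ≥0∞) * (tn c + tn c) = (2 * K4) * tn c := by ring
      _ ≤ (2 * K4 + 1) * tn c := by gcongr; exact le_self_add
      _ ≤ _ := ENNReal.mul_div_le
  obtain ⟨z, H, Dd, l, v, κ, x₀, R0, R1, b, Qb, h1, h2, h3, h5, h6, h7, h8⟩ :=
    HP Om La f D hO hOb hOc hLa hLb hLc hSH u hu F bf cmp hst X A lam Q k0 hk er hlam hB hIn
      ε hε0 tn htn0
  have hstar : Star (fX bf cmp H) := Crest.Agent.R096.Sta_161.star_of_starF
    (fun c => by
      obtain ⟨S, g1, g2, g3, g4⟩ := hst c.1 c.2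
      exact ⟨S, g1, g2, g3, fun c' hc' => g4 c'.1 c'.2 hc'⟩)
  -- weights of the tiles
  have : Countable Dd.ι := Crest.Agent.R096.Ea_713.countable_ix Dd.T
  obtain ⟨w, hw0, hw⟩ := exists_w (ι := Dd.ι) (κ := X) (Qc := fun c => Qb c.1)
    (fun c c' hcc => h7 c.1 c.2 c'.1 c'.2 fun e => hcc (Subtype.ext e))
    (ε := fun c => tn c.1) (fun c => htn0 c.1 c.2)
  obtain ⟨η, hη0, hη⟩ := exists_eta0 Dd.T hp hw0
  obtain ⟨ρ', g, hg, hgn⟩ := HM Om La f hO hOb hOc hLa hLb hLc hSH.homeo (fX bf cmp H) hstar X Dd l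
    κ1' le_rfl h1 κ x₀ R0 R1 b 1 one_pos h2 h3 p hp (Or.inl hp3) ε hε0 η hη0
  -- the accounting
  have hG : ShiftD p c0 κ0 (κt / 10) e1 F X A lam v (fun x => fderiv ℝ g x) :=
    { cnt := bf.countable
      pos := fun c _ => hpos c
      asp := fun c _ k => bf.asp c.1 c.2 k
      hc0 := hc0
      hκ0 := by linarith
      hτ := by positivity
      he1 := he1.le
      hlam := fun c hc => (hlam c hc).1
      shift := fun c hc k => (shift_small (hB c hc) hu hκt (h5 c hc).2.2.2 k).1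
      core := fun c hc => by
        obtain ⟨g1, g2, g3, -⟩ := h5 c hc
        have g5 := hg.core c hc
        have g6 : Crest.Agent.R096.Ea_713.lin (Dd.A c) = lin (A c) := g3
        rw [g1, g2, g6, one_div] at g5
        refine g5.trans ?_
        rw [← mul_assoc]
        gcongr
        rw [← ofReal_norm, ENNReal.ofReal_rpow_of_nonneg (norm_nonneg _) hp0.le,
          ← ENNReal.ofReal_mul he1.le]
        apply ENNReal.ofReal_le_ofReal
        have hq : 0 ≤ em ^ p + (C0 + 1) ^ p * em := by positivity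
        have hl' : c0 ≤ lam c := (hlam c hc).1
        have hl0 : 0 < lam c := hc0.trans_le hl'
        calc (em ^ p + (C0 + 1) ^ p * em) * (‖lin (A c)‖ / lam c) ^ p
            ≤ (em ^ p + (C0 + 1) ^ p * em) * (‖lin (A c)‖ / c0) ^ p := by gcongr
          _ = (em ^ p + (C0 + 1) ^ p * em) / c0 ^ p * ‖lin (A c)‖ ^ p := by
              rw [Real.div_rpow (norm_nonneg _) hc0.le]
              ring
          _ ≤ e1 * ‖lin (A c)‖ ^ p := by gcongr }
  obtain ⟨hEc, hEz⟩ := hsc (κt / 10) (by positivity) (by linarith)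
  refine ⟨g, hg.hom, hg.pl, ?_, ?_, ?_⟩
  · intro x hx c hc
    refine (hgn x hx c hc).trans ?_
    have hs : 0 ≤ c.1.sz := (Bx.sz_pos (hpos c)).le
    have h9 : (C0 + 1) * R ≤ (((KK + K4) * C1 + BB : ℝ≥0) : ℝ) := by
      rw [NNReal.coe_add, hBe]
      have : 0 ≤ (((KK + K4) * C1 : ℝ≥0) : ℝ) := NNReal.coe_nonneg _
      linarith
    exact mul_le_mul_of_nonneg_right h9 hs
  · have hun : (⋃ i ∈ Dd.ct '' X, P (Dd.T.H i)) = ⋃ c ∈ X, K2 (A c) c.1 (lam c) (v c) := by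
      ext x
      simp only [mem_iUnion, mem_image, exists_prop]
      constructor
      · rintro ⟨i, ⟨c, hc, rfl⟩, hx⟩
        exact ⟨c, hc, by rw [← (h5 c hc).1]; exact hx⟩
      · rintro ⟨c, hc, hx⟩
        exact ⟨_, ⟨c, hc, rfl⟩, by rw [(h5 c hc).1]; exact hx⟩
    have h9 := (show ∫⁻ x in Om \ ⋃ i ∈ Dd.ct '' X, P (Dd.T.H i), ‖fderiv ℝ g x‖ₑ ^ p ≤
      Kea p 1 * 2 ^ (p - 1) * EE C Dd.T Dd.fr (Ord (Φ := fX bf cmp H) Dd.V) l p + ε from hg.energy)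
    rw [show (Om \ ⋃ i ∈ Dd.ct '' X, P (Dd.T.H i)) =
      Om \ ⋃ c ∈ X, K2 (A c) c.1 (lam c) (v c) by rw [hun], ← hKKe] at h9
    refine (hG.acc hp (Om := Om) (J0 := _) h9).trans ?_
    have h10 : (KK : ℝ≥0∞) * EE C Dd.T Dd.fr (Ord (Φ := fX bf cmp H) Dd.V) l p + ε ≤
        (KK : ℝ≥0∞) * C1 * (Jn p Om D F X Q + ∑' c : X, Sn p F A lam Q c + ∑' c : X, er c) +
          (KK : ℝ≥0∞) * CA * (∑' c : X, Ln p D F Q k0 c) + e' := by
      calc (KK : ℝ≥0∞) * EE C Dd.T Dd.fr (Ord (Φ := fX bf cmp H) Dd.V) l p + ε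
          ≤ (KK : ℝ≥0∞) * (C1 * (Jn p Om D F X Q + ∑' c : X, Sn p F A lam Q c + ∑' c : X, er c) +
            CA * (∑' c : X, Ln p D F Q k0 c) + ε) + ε := by gcongr
        _ = (KK : ℝ≥0∞) * C1 * (Jn p Om D F X Q + ∑' c : X, Sn p F A lam Q c + ∑' c : X, er c) +
          (KK : ℝ≥0∞) * CA * (∑' c : X, Ln p D F Q k0 c) + (KK * ε + ε) := by ring
        _ ≤ _ := by gcongr
    have hCle : (KK : ℝ≥0∞) * C1 ≤ (((KK + K4) * C1 + BB : ℝ≥0) : ℝ≥0∞) := by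
      rw [← ENNReal.coe_mul]
      exact ENNReal.coe_le_coe.2 (le_add_right (mul_le_mul' le_self_add le_rfl))
    have hCAle : (KK : ℝ≥0∞) * CA ≤ (((KK + K4) * CA : ℝ≥0) : ℝ≥0∞) := by
      rw [← ENNReal.coe_mul]
      exact ENNReal.coe_le_coe.2 (mul_le_mul' le_self_add le_rfl)
    have hEz' : ENNReal.ofReal (Szone p c0 κ0 (κt / 10) e1) ≤ ENNReal.ofReal e :=
      ENNReal.ofReal_le_ofReal (hEz.trans (by linarith))
    refine (add_le_add h10 (mul_le_mul' hEz' le_rfl)).trans ?_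
    have h11 := add_le_add (add_le_add (mul_le_mul' hCle
      (le_refl (Jn p Om D F X Q + ∑' c : X, Sn p F A lam Q c + ∑' c : X, er c)))
      (mul_le_mul' hCAle (le_refl (∑' c : X, Ln p D F Q k0 c))))
      (le_refl (ENNReal.ofReal e * (∑' c : X, (1 + ‖lin (A c)‖ₑ ^ p) * volume (Kor F A lam c)) + e'))
    refine le_trans (le_of_eq ?_) (h11.trans (le_of_eq ?_))
    · ring
    · unfold Jn Sn Ln
      ring
  · intro c hc
    obtain ⟨g1, g2, g3, g4⟩ := h8 c hc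
    have h9 : ∫⁻ x in ⋃ i ∈ Qb c, P (Dd.T.H i), ‖fderiv ℝ g x‖ₑ ^ p ≤
        2 ^ (p - 1) * (EE C Dd.T Dd.fr (Ord (Φ := fX bf cmp H) Dd.V ∩ Qb c) l p +
          ∑' i : Qb c, w i) := by
      have g6 := lint_split (T := Dd.T) (Q := Qb c) (h := fun x => ‖fderiv ℝ g x‖ₑ)
        (b := fun i => EaCore_348.bt C Dd.T Dd.fr i * ∑ e ∈ Crest.Agent.R096.Ls_222.eIn Dd.T i, l e)
        hp hη fun i hi x hx => hg.lip i (g1 hi) x hx (g2 i hi x hx)
      refine g6.trans ?_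
      rw [inter_eq_right.2 g1]
      exact le_rfl
    have h10 : ∫⁻ x in Kor F A lam c \ K2 (A c) c.1 (lam c) (v c), ‖fderiv ℝ g x‖ₑ ^ p ≤
        2 ^ (p - 1) * (C1 * (Sn p F A lam Q c + er c) + CA * Ln p D F Q k0 c + (tn c + tn c)) := by
      refine (lintegral_mono_set g3).trans (h9.trans ?_)
      refine mul_le_mul' le_rfl ?_
      have g5 : EE C Dd.T Dd.fr (Ord (Φ := fX bf cmp H) Dd.V ∩ Qb c) l p + ∑' i : Qb c, w i ≤
          (C1 * (Sn p F A lam Q c + er c) + CA * Ln p D F Q k0 c + tn c) + tn c :=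
        add_le_add g4 (hw ⟨c, hc⟩)
      refine g5.trans (le_of_eq ?_)
      ring
    have h12 := hG.core1 hp hc h10
    refine h12.trans ?_
    rw [P2_real, ← P2_coe]
    have hEc' : ENNReal.ofReal (Score p c0 κ0 (κt / 10) e1) ≤ ENNReal.ofReal (e / 2) :=
      ENNReal.ofReal_le_ofReal hEc
    have hCle : (K4 : ℝ≥0∞) * C1 ≤ (((KK + K4) * C1 + BB : ℝ≥0) : ℝ≥0∞) := by
      rw [← ENNReal.coe_mul]
      exact ENNReal.coe_le_coe.2 (le_add_right (mul_le_mul' le_add_self le_rfl))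
    have hCAle : (K4 : ℝ≥0∞) * CA ≤ (((KK + K4) * CA : ℝ≥0) : ℝ≥0∞) := by
      rw [← ENNReal.coe_mul]
      exact ENNReal.coe_le_coe.2 (mul_le_mul' le_add_self le_rfl)
    have hK4' : ((P2 p : ℝ≥0) : ℝ≥0∞) * (P2 p : ℝ≥0) = (K4 : ℝ≥0∞) := by
      rw [hK4, ENNReal.coe_mul]
    have hsplit : ENNReal.ofReal e = ENNReal.ofReal (e / 2) + ENNReal.ofReal (e / 2) := by
      rw [← ENNReal.ofReal_add (by positivity) (by positivity)]
      congr 1
      ring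
    calc ENNReal.ofReal (Score p c0 κ0 (κt / 10) e1) * (‖lin (A c)‖ₑ ^ p * volume (Kor F A lam c)) +
          (P2 p : ℝ≥0∞) * ((P2 p : ℝ≥0∞) * (C1 * (Sn p F A lam Q c + er c) +
            CA * Ln p D F Q k0 c + (tn c + tn c)))
        = ENNReal.ofReal (Score p c0 κ0 (κt / 10) e1) *
            (‖lin (A c)‖ₑ ^ p * volume (Kor F A lam c)) +
          ((K4 : ℝ≥0∞) * C1 * (Sn p F A lam Q c + er c) + (K4 : ℝ≥0∞) * CA * Ln p D F Q k0 c +
            K4 * (tn c + tn c)) := by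
          rw [← hK4']
          ring
      _ ≤ ENNReal.ofReal (e / 2) * (‖lin (A c)‖ₑ ^ p * volume (Kor F A lam c)) +
          ((((KK + K4) * C1 + BB : ℝ≥0) : ℝ≥0∞) * (Sn p F A lam Q c + er c) +
            (((KK + K4) * CA : ℝ≥0) : ℝ≥0∞) * Ln p D F Q k0 c +
            ENNReal.ofReal (e / 2) * (‖lin (A c)‖ₑ ^ p * volume (Kor F A lam c))) := by
          refine add_le_add (mul_le_mul' hEc' le_rfl) (add_le_add (add_le_add ?_ ?_) (htn1 c))
          · exact mul_le_mul' hCle le_rfl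
          · exact mul_le_mul' hCAle le_rfl
      _ = _ := by
          rw [hsplit]
          unfold Sn Ln
          ring

end

end Crest.Agent.R96.Ea0p_348
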