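import Mathlib

/-!
Row 96, P6-BULK (helper324), part 1: grids, staircases, the pathwise estimate.
-/

open MeasureTheory Set Filter Function
open scoped ENNReal Topology

namespace Crest.Agent.R96.Blk_324

variable {d : ℕ}

/-- index of the cell of the grid `a + r ℤ^d` that contains `z` -/
noncomputable def cl (r : ℝ) (a z : Fin d → ℝ) : Fin d → ℤ := fun i => ⌊(z i - a i) / r⌋

/-- the vertex of the grid with index `k` -/
def vt (r : ℝ) (a : Fin d → ℝ) (k : Fin d → ℤ) : Fin d → ℝ := fun i => a i + r * (k i : ℝ)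

/-- the closed edge of the grid from the vertex `k` in the positive direction `i` -/
def edge (r : ℝ) (a : Fin d → ℝ) (k : Fin d → ℤ) (i : Fin d) : Set (Fin d → ℝ) :=
  (fun s : ℝ => update (vt r a k) i s) '' Icc (a i + r * (k i : ℝ)) (a i + r * ((k i : ℝ) + 1))

/-- `G` (a map on the vertices) is dominated by `g` on every edge inside `U` -/
def Adm {Y : Type*} [PseudoEMetricSpace Y] (g : (Fin d → ℝ) → ℝ≥0∞) (r : ℝ) (a : Fin d → ℝ)
    (U : Set (Fin d → ℝ)) (G : (Fin d → ℤ) → Y) : Prop :=
  ∀ (k : Fin d → ℤ) (i : Fin d), edge r a k i ⊆ U →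
    edist (G k) (G (update k i (k i + 1))) ≤
      ∫⁻ s in Ioc (a i + r * (k i : ℝ)) (a i + r * ((k i : ℝ) + 1)), g (update (vt r a k) i s)

/-- first `t` coordinates from `l`, the others from `k` -/
def hyb {α : Type*} (t : ℕ) (k l : Fin d → α) : Fin d → α := fun j => if (j : ℕ) < t then l j else k j

theorem hyb_zero {α : Type*} (k l : Fin d → α) : hyb 0 k l = k := by
  funext j; simp [hyb]

theorem hyb_last {α : Type*} (k l : Fin d → α) : hyb d k l = l := by
  funext j; simp [hyb]

theorem hyb_self {α : Type*} (i : Fin d) (k l : Fin d → α) :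
    hyb (i : ℕ) k l = update (hyb (i : ℕ) k l) i (k i) := by
  funext j
  by_cases h : j = i
  · subst h; simp [hyb]
  · simp [update_of_ne h]

theorem hyb_succ {α : Type*} (i : Fin d) (k l : Fin d → α) :
    hyb ((i : ℕ) + 1) k l = update (hyb (i : ℕ) k l) i (l i) := by
  funext j
  by_cases h : j = i
  · subst h; simp [hyb]
  · rw [update_of_ne h]
    have h' : (j : ℕ) ≠ (i : ℕ) := fun e => h (Fin.ext e)
    simp only [hyb]
    by_cases h1 : (j : ℕ) < (i : ℕ)
    · rw [if_pos h1, if_pos (by omega)]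
    · rw [if_neg h1, if_neg (by omega)]

theorem cl_hyb (r : ℝ) (a x z : Fin d → ℝ) (t : ℕ) :
    cl r a (hyb t x z) = hyb t (cl r a x) (cl r a z) := by
  funext j
  simp only [cl, hyb]
  split_ifs <;> rfl

theorem vt_update (r : ℝ) (a : Fin d → ℝ) (k : Fin d → ℤ) (i : Fin d) (m : ℤ) (s : ℝ) :
    update (vt r a (update k i m)) i s = update (vt r a k) i s := by
  funext j
  by_cases h : j = i
  · subst h; simp
  · simp [update_of_ne h, vt]

/-- the rounding of `z` : `vt r a (cl r a z)` is in `∏ (z j - r, z j]`. -/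
theorem rnd_mem {r : ℝ} (hr : 0 < r) (a z : Fin d → ℝ) (j : Fin d) :
    vt r a (cl r a z) j ∈ Ioc (z j - r) (z j) := by
  simp only [vt, cl]
  have h1 := Int.floor_le ((z j - a j) / r)
  have h2 := Int.lt_floor_add_one ((z j - a j) / r)
  constructor
  · have : (z j - a j) < r * ((⌊(z j - a j) / r⌋ : ℝ) + 1) := by
      rw [div_lt_iff₀ hr] at h2; linarith
    linarith
  · have : r * (⌊(z j - a j) / r⌋ : ℝ) ≤ z j - a j := by
      rw [le_div_iff₀ hr] at h1; linarith
    linarith

variable {Y : Type*} [PseudoEMetricSpace Y] {g : (Fin d → ℝ) → ℝ≥0∞} {r : ℝ} {a : Fin d → ℝ}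
  {U : Set (Fin d → ℝ)} {G : (Fin d → ℤ) → Y}

theorem line_aux (hr : 0 < r) (hG : Adm g r a U G) (k : Fin d → ℤ) (i : Fin d) (m : ℤ) (n : ℕ)
    (hU : ∀ s ∈ Icc (a i + r * (m : ℝ)) (a i + r * ((m : ℝ) + n)), update (vt r a k) i s ∈ U) :
    edist (G (update k i m)) (G (update k i (m + n))) ≤
      ∫⁻ s in Ioc (a i + r * (m : ℝ)) (a i + r * ((m : ℝ) + n)), g (update (vt r a k) i s) := by
  induction n with
  | zero => simp
  | succ n ih =>
    have hsub : Icc (a i + r * (m : ℝ)) (a i + r * ((m : ℝ) + n)) ⊆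
        Icc (a i + r * (m : ℝ)) (a i + r * ((m : ℝ) + (n + 1 : ℕ))) := by
      apply Icc_subset_Icc_right
      push_cast
      nlinarith
    have h1 := ih (fun s hs => hU s (hsub hs))
    have h2 := hG (update k i (m + n)) i (by
      rintro _ ⟨s, hs, rfl⟩
      simp only
      rw [vt_update]
      apply hU
      simp only [update_self] at hs
      push_cast at hs ⊢
      refine ⟨?_, ?_⟩
      · have : (0:ℝ) ≤ r * n := by positivity
        nlinarith [hs.1]
      · linarith [hs.2])
    have e1 : update (update k i (m + (n : ℤ))) i (update k i (m + (n : ℤ)) i + 1) =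
        update k i (m + ((n + 1 : ℕ) : ℤ)) := by
      rw [update_idem, update_self]; push_cast; congr 1; ring
    rw [e1] at h2
    have e2 : ∀ s : ℝ, update (vt r a (update k i (m + (n : ℤ)))) i s = update (vt r a k) i s :=
      fun s => vt_update _ _ _ _ _ _
    simp only [e2, update_self] at h2
    have e3 : Ioc (a i + r * (m : ℝ)) (a i + r * ((m : ℝ) + (n + 1 : ℕ))) =
        Ioc (a i + r * (m : ℝ)) (a i + r * ((m : ℝ) + n)) ∪
        Ioc (a i + r * (((m + (n:ℤ) : ℤ)) : ℝ)) (a i + r * ((((m + (n:ℤ) : ℤ)) : ℝ) + 1)) := by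
      push_cast
      rw [Ioc_union_Ioc_eq_Ioc]
      · congr 2; ring
      · have : (0:ℝ) ≤ r * n := by positivity
        nlinarith
      · nlinarith
    rw [e3, lintegral_union measurableSet_Ioc]
    · exact (edist_triangle _ _ _).trans (add_le_add h1 h2)
    · push_cast
      rw [Set.disjoint_left]
      rintro s hs hs'
      exact absurd hs.2 (not_le.2 hs'.1)

/-- the distance between the ends of a grid segment, in an interval `I` -/
theorem line (hr : 0 < r) (hG : Adm g r a U G) (k : Fin d → ℤ) (i : Fin d) (m n : ℤ) {lo hi : ℝ}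
    (hm : a i + r * (m : ℝ) ∈ Icc lo hi) (hn : a i + r * (n : ℝ) ∈ Icc lo hi)
    (hU : ∀ s ∈ Icc lo hi, update (vt r a k) i s ∈ U) :
    edist (G (update k i m)) (G (update k i n)) ≤
      ∫⁻ s in Icc lo hi, g (update (vt r a k) i s) := by
  have key : ∀ m n : ℤ, m ≤ n → a i + r * (m : ℝ) ∈ Icc lo hi → a i + r * (n : ℝ) ∈ Icc lo hi →
      edist (G (update k i m)) (G (update k i n)) ≤
      ∫⁻ s in Icc lo hi, g (update (vt r a k) i s) := by
    intro m n hmn hm hn
    obtain ⟨t, rfl⟩ := Int.le.dest hmn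
    push_cast at hn
    have hsub : Icc (a i + r * (m : ℝ)) (a i + r * ((m : ℝ) + t)) ⊆ Icc lo hi :=
      Icc_subset_Icc hm.1 hn.2
    refine (line_aux hr hG k i m t (fun s hs => hU s (hsub hs))).trans ?_
    exact lintegral_mono_set (Ioc_subset_Icc_self.trans hsub)
  rcases le_total m n with h | h
  · exact key m n h hm hn
  · rw [edist_comm]; exact key n m h hn hm

/-- **(B1)** the pathwise estimate: `x z` in the cube with corner `c` and side `ρ`. -/
theorem B1 (hr : 0 < r) (hG : Adm g r a U G) {c : Fin d → ℝ} {ρ : ℝ}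
    (hU : (Icc (fun j => c j - r) (fun j => c j + ρ) : Set (Fin d → ℝ)) ⊆ U)
    {x z : Fin d → ℝ} (hx : x ∈ Icc c (fun j => c j + ρ)) (hz : z ∈ Icc c (fun j => c j + ρ)) :
    edist (G (cl r a x)) (G (cl r a z)) ≤
      ∑ i : Fin d, ∫⁻ s in Icc (c i - r) (c i + ρ),
        g (update (vt r a (cl r a (hyb (i : ℕ) x z))) i s) := by
  have h0 := edist_le_range_sum_edist (fun t : ℕ => G (hyb t (cl r a x) (cl r a z))) d
  rw [hyb_zero, hyb_last, Finset.sum_range] at h0
  refine h0.trans (Finset.sum_le_sum fun i _ => ?_)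
  rw [hyb_succ]
  conv_lhs => rw [hyb_self, update_idem]
  rw [cl_hyb]
  have mem : ∀ y ∈ Icc c (fun j => c j + ρ), ∀ j, vt r a (cl r a y) j ∈ Icc (c j - r) (c j + ρ) := by
    intro y hy j
    have h := rnd_mem hr a y j
    exact ⟨by linarith [h.1, hy.1 j], h.2.trans (hy.2 j)⟩
  have hh : ∀ t, hyb t x z ∈ Icc c (fun j => c j + ρ) := by
    intro t
    constructor
    · intro j; simp only [hyb]; split_ifs
      · exact hz.1 j
      · exact hx.1 j
    · intro j; simp only [hyb]; split_ifs
      · exact hz.2 j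
      · exact hx.2 j
  refine line hr hG _ i _ _ ?_ ?_ ?_
  · exact mem x hx i
  · exact mem z hz i
  · intro s hs
    apply hU
    rw [← cl_hyb]
    constructor
    · intro j
      by_cases h : j = i
      · subst h; simpa using hs.1
      · rw [update_of_ne h]; exact (mem _ (hh _) j).1
    · intro j
      by_cases h : j = i
      · subst h; simpa using hs.2
      · rw [update_of_ne h]; exact (mem _ (hh _) j).2

end Crest.Agent.R96.Blk_324
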