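import Crest.Agent.R96.Blk1_324

/-!
Row 96, P6-BULK (helper324), part 2: the average over the translates of the grid.
-/

open MeasureTheory Set Filter Function
open scoped ENNReal Topology

namespace Crest.Agent.R96.Blk_324

variable {d : ℕ}

/-- the box of translates `[0,r)^d` -/
def tb (d : ℕ) (r : ℝ) : Set (Fin d → ℝ) := univ.pi fun _ => Ico 0 r

/-- the half open cube with corner `c` and side `ρ` -/
def cube (c : Fin d → ℝ) (ρ : ℝ) : Set (Fin d → ℝ) := univ.pi fun j => Ico (c j) (c j + ρ)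

/-- the enlarged cube `∏ [c j - r, c j + ρ]` -/
def cubeP (c : Fin d → ℝ) (r ρ : ℝ) : Set (Fin d → ℝ) :=
  Icc (fun j => c j - r) (fun j => c j + ρ)

theorem measurableSet_tb (r : ℝ) : MeasurableSet (tb d r) :=
  MeasurableSet.univ_pi fun _ => measurableSet_Ico

theorem measurableSet_cube (c : Fin d → ℝ) (ρ : ℝ) : MeasurableSet (cube c ρ) :=
  MeasurableSet.univ_pi fun _ => measurableSet_Ico

theorem measurableSet_cubeP (c : Fin d → ℝ) (r ρ : ℝ) : MeasurableSet (cubeP c r ρ) :=
  measurableSet_Icc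

theorem volume_tb (r : ℝ) : volume (tb d r) = ENNReal.ofReal r ^ d := by
  simp [tb, volume_pi, Measure.pi_pi, Finset.prod_const]

theorem volume_cube (c : Fin d → ℝ) (ρ : ℝ) : volume (cube c ρ) = ENNReal.ofReal ρ ^ d := by
  simp [cube, volume_pi, Measure.pi_pi, Finset.prod_const]

theorem map_rnd1 {r : ℝ} (hr : 0 < r) (y : ℝ) :
    ((volume : Measure ℝ).restrict (Ico 0 r)).map (fun a : ℝ => a + r * (⌊(y - a) / r⌋ : ℝ)) =
      (volume : Measure ℝ).restrict (Ioc (y - r) y) := by
  have hm : Measurable (fun a : ℝ => a + r * (⌊(y - a) / r⌋ : ℝ)) := by fun_prop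
  apply Measure.ext_of_lintegral
  intro f hf
  rw [lintegral_map hf hm, Measure.restrict_congr_set (Ico_ae_eq_Ioc (μ := (volume : Measure ℝ)))]
  have d1 := isAddFundamentalDomain_Ioc (T := r) hr 0 (volume : Measure ℝ)
  have d2 := isAddFundamentalDomain_Ioc (T := r) hr (y - r) (volume : Measure ℝ)
  rw [zero_add] at d1
  rw [sub_add_cancel] at d2
  rw [d1.setLIntegral_eq d2]
  · apply setLIntegral_congr_fun measurableSet_Ioc
    intro a ha
    have : ⌊(y - a) / r⌋ = 0 := by
      rw [Int.floor_eq_zero_iff]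
      constructor
      · apply div_nonneg _ hr.le; linarith [ha.2]
      · rw [div_lt_one hr]; linarith [ha.1]
    simp only
    rw [this]; simp
  · rintro ⟨m, hm⟩ x
    obtain ⟨n, rfl⟩ := AddSubgroup.mem_zmultiples_iff.1 hm
    have e1 : ((⟨n • r, hm⟩ : AddSubgroup.zmultiples r) +ᵥ x : ℝ) = (n : ℝ) * r + x := by
      change n • r + x = _
      simp
    rw [e1]
    have e2 : (y - ((n : ℝ) * r + x)) / r = (y - x) / r - (n : ℝ) := by
      field_simp; ring
    rw [e2, Int.floor_sub_intCast]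
    congr 1
    push_cast
    ring

theorem map_rnd {r : ℝ} (hr : 0 < r) (y : Fin d → ℝ) :
    ((volume : Measure (Fin d → ℝ)).restrict (tb d r)).map (fun a => vt r a (cl r a y)) =
      (volume : Measure (Fin d → ℝ)).restrict (univ.pi fun j => Ioc (y j - r) (y j)) := by
  rw [tb, volume_pi, Measure.restrict_pi_pi, Measure.restrict_pi_pi]
  have hs : ∀ j, SigmaFinite (((volume : Measure ℝ).restrict (Ico 0 r)).map
      (fun a : ℝ => a + r * (⌊(y j - a) / r⌋ : ℝ))) := by
    intro j; rw [map_rnd1 hr (y j)]; infer_instance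
  have := Measure.pi_map_pi (μ := fun _ : Fin d => (volume : Measure ℝ).restrict (Ico 0 r))
    (f := fun (j : Fin d) (a : ℝ) => a + r * (⌊(y j - a) / r⌋ : ℝ))
    (fun j => by fun_prop)
  have e : (fun (a : Fin d → ℝ) => vt r a (cl r a y)) =
    fun (x : Fin d → ℝ) j => x j + r * (⌊(y j - x j) / r⌋ : ℝ) := rfl
  rw [e, this]
  congr 1
  funext j
  exact map_rnd1 hr (y j)

theorem measurable_hyb {α : Type*} [MeasurableSpace α] (t : ℕ) :
    Measurable (fun p : (Fin d → α) × (Fin d → α) => hyb t p.1 p.2) := by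
  rw [measurable_pi_iff]
  intro j
  simp only [hyb]
  split_ifs
  · exact (measurable_pi_apply j).comp measurable_snd
  · exact (measurable_pi_apply j).comp measurable_fst

theorem map_hyb (t : ℕ) {I : Fin d → Set ℝ} {c : ℝ≥0∞}
    (hc : c ≠ ∞) (hv : ∀ j, volume (I j) = c) :
    (((volume : Measure (Fin d → ℝ)).restrict (univ.pi I)).prod
      ((volume : Measure (Fin d → ℝ)).restrict (univ.pi I))).map (fun p => hyb t p.1 p.2) =
      c ^ d • (volume : Measure (Fin d → ℝ)).restrict (univ.pi I) := by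
  have hfin : ∀ j, IsFiniteMeasure ((volume : Measure ℝ).restrict (I j)) := by
    intro j
    refine ⟨?_⟩
    rw [Measure.restrict_apply_univ, hv]; exact hc.lt_top
  have hfin' : ∀ j, IsFiniteMeasure (c • (volume : Measure ℝ).restrict (I j)) := by
    intro j
    exact Measure.smul_finite _ hc
  have h1 : Measure.pi (fun j => c • (volume : Measure ℝ).restrict (I j)) =
      (((volume : Measure (Fin d → ℝ)).restrict (univ.pi I)).prod
      ((volume : Measure (Fin d → ℝ)).restrict (univ.pi I))).map (fun p => hyb t p.1 p.2) := by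
    apply Measure.pi_eq
    intro s hs
    rw [Measure.map_apply (measurable_hyb t) (MeasurableSet.univ_pi hs)]
    have e : (fun p : (Fin d → ℝ) × (Fin d → ℝ) => hyb t p.1 p.2) ⁻¹' (univ.pi s) =
        (univ.pi (fun j : Fin d => if (j : ℕ) < t then univ else s j)) ×ˢ
        (univ.pi (fun j : Fin d => if (j : ℕ) < t then s j else univ)) := by
      ext ⟨x, z⟩
      simp only [mem_preimage, mem_univ_pi, mem_prod, hyb]
      constructor
      · intro h
        refine ⟨fun j => ?_, fun j => ?_⟩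
        · have := h j; split_ifs at this ⊢ <;> simp_all
        · have := h j; split_ifs at this ⊢ <;> simp_all
      · rintro ⟨h1, h2⟩ j
        have a1 := h1 j
        have a2 := h2 j
        split_ifs at a1 a2 ⊢ <;> simp_all
    rw [e, Measure.prod_prod, volume_pi, Measure.restrict_pi_pi, Measure.pi_pi, Measure.pi_pi,
      ← Finset.prod_mul_distrib]
    apply Finset.prod_congr rfl
    intro j _
    rw [Measure.smul_apply, smul_eq_mul]
    split_ifs
    · rw [Measure.restrict_apply_univ, hv]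
    · rw [Measure.restrict_apply_univ, hv, mul_comm]
  have h2 : Measure.pi (fun j => c • (volume : Measure ℝ).restrict (I j)) =
      c ^ d • (volume : Measure (Fin d → ℝ)).restrict (univ.pi I) := by
    apply Measure.pi_eq
    intro s hs
    rw [Measure.smul_apply, smul_eq_mul, volume_pi, Measure.restrict_pi_pi, Measure.pi_pi]
    simp only [Measure.smul_apply, smul_eq_mul, Finset.prod_mul_distrib, Finset.prod_const,
      Finset.card_univ, Fintype.card_fin]
  rw [← h1, h2]

theorem swap_le {r : ℝ} (c : Fin d → ℝ) (ρ : ℝ) {Φ : (Fin d → ℝ) → ℝ≥0∞}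
    (hΦ : Measurable Φ) :
    ∫⁻ y in cube c ρ, ∫⁻ h in (univ.pi fun j => Ioc (y j - r) (y j)), Φ h ≤
      ENNReal.ofReal r ^ d * ∫⁻ h in cubeP c r ρ, Φ h := by
  classical
  set S : Set ((Fin d → ℝ) × (Fin d → ℝ)) := {p | ∀ j, p.2 j ∈ Ioc (p.1 j - r) (p.1 j)} with hS
  have mS : MeasurableSet S := by
    rw [hS, ofPred_forall]
    refine MeasurableSet.iInter fun j => ?_
    have : {p : (Fin d → ℝ) × (Fin d → ℝ) | p.2 j ∈ Ioc (p.1 j - r) (p.1 j)} =
        {p | p.1 j - r < p.2 j} ∩ {p | p.2 j ≤ p.1 j} := by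
      ext p; simp [Ioc]
    rw [this]
    refine MeasurableSet.inter ?_ ?_
    · exact measurableSet_lt (by fun_prop) (by fun_prop)
    · exact measurableSet_le (by fun_prop) (by fun_prop)
  have e1 : ∀ y : Fin d → ℝ, ∫⁻ h in (univ.pi fun j => Ioc (y j - r) (y j)), Φ h =
      ∫⁻ h, S.indicator (fun p => Φ p.2) (y, h) := by
    intro y
    rw [← lintegral_indicator (MeasurableSet.univ_pi fun _ => measurableSet_Ioc)]
    apply lintegral_congr
    intro h
    simp only [indicator, mem_univ_pi, hS, mem_ofPred_eq]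
  simp only [e1]
  have mI : Measurable (S.indicator (fun p : (Fin d → ℝ) × (Fin d → ℝ) => Φ p.2)) :=
    (hΦ.comp measurable_snd).indicator mS
  rw [lintegral_lintegral_swap (f := fun y h => S.indicator (fun p => Φ p.2) (y, h))
    mI.aemeasurable]
  rw [← lintegral_indicator (measurableSet_cubeP c r ρ), ← lintegral_const_mul]
  · apply lintegral_mono
    intro h
    simp only
    have e2 : ∀ y : Fin d → ℝ, S.indicator (fun p => Φ p.2) (y, h) =
        ({y | ∀ j, h j ∈ Ioc (y j - r) (y j)} : Set (Fin d → ℝ)).indicator (fun _ => Φ h) y := by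
      intro y
      simp only [indicator, hS, mem_ofPred_eq]
    simp only [e2]
    have mset : MeasurableSet ({y | ∀ j, h j ∈ Ioc (y j - r) (y j)} : Set (Fin d → ℝ)) := by
      have : ({y | ∀ j, h j ∈ Ioc (y j - r) (y j)} : Set (Fin d → ℝ)) =
          univ.pi fun j => Ico (h j) (h j + r) := by
        ext y
        simp only [mem_ofPred_eq, mem_univ_pi, mem_Ioc, mem_Ico]
        exact forall_congr' fun j => ⟨fun q => ⟨q.2, by linarith [q.1]⟩,
          fun q => ⟨by linarith [q.2], q.1⟩⟩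
      rw [this]
      exact MeasurableSet.univ_pi fun _ => measurableSet_Ico
    rw [lintegral_indicator mset, setLIntegral_const, Measure.restrict_apply mset]
    by_cases hh : h ∈ cubeP c r ρ
    · rw [indicator_of_mem hh, mul_comm]
      gcongr
      refine (measure_mono (inter_subset_left (t := cube c ρ))).trans ?_
      have : ({y | ∀ j, h j ∈ Ioc (y j - r) (y j)} : Set (Fin d → ℝ)) =
          univ.pi fun j => Ico (h j) (h j + r) := by
        ext y
        simp only [mem_ofPred_eq, mem_univ_pi, mem_Ioc, mem_Ico]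
        exact forall_congr' fun j => ⟨fun q => ⟨q.2, by linarith [q.1]⟩,
          fun q => ⟨by linarith [q.2], q.1⟩⟩
      rw [this]
      exact (volume_cube h r).le
    · have : ({y | ∀ j, h j ∈ Ioc (y j - r) (y j)} : Set (Fin d → ℝ)) ∩ cube c ρ = ∅ := by
        rw [eq_empty_iff_forall_notMem]
        rintro y ⟨hy, hyQ⟩
        apply hh
        simp only [cube, mem_univ_pi, mem_Ico] at hyQ
        simp only [mem_ofPred_eq, mem_Ioc] at hy
        constructor
        · intro j; show c j - r ≤ h j; linarith [(hyQ j).1, (hy j).1]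
        · intro j; show h j ≤ c j + ρ; linarith [(hyQ j).2, (hy j).2]
      rw [this]; simp
  · exact hΦ.indicator (measurableSet_cubeP c r ρ)

theorem line_avg (c : Fin d → ℝ) {r ρ : ℝ} (i : Fin d) {g : (Fin d → ℝ) → ℝ≥0∞}
    (hg : Measurable g) :
    ∫⁻ h in cubeP c r ρ, ∫⁻ s in Icc (c i - r) (c i + ρ), g (update h i s) =
      ENNReal.ofReal (ρ + r) * ∫⁻ h in cubeP c r ρ, g h := by
  have e : cubeP c r ρ = univ.pi fun j => Icc (c j - r) (c j + ρ) := by
    rw [cubeP, pi_univ_Icc]
  rw [e, volume_pi, Measure.restrict_pi_pi]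
  set μ : Fin d → Measure ℝ := fun j => (volume : Measure ℝ).restrict (Icc (c j - r) (c j + ρ))
    with hμ
  have e1 : ∀ h : Fin d → ℝ, ∫⁻ s in Icc (c i - r) (c i + ρ), g (update h i s) =
      lmarginal μ {i} g h := by
    intro h
    rw [lmarginal_singleton]
  simp only [e1]
  have x0 : Fin d → ℝ := c
  rw [lintegral_eq_lmarginal_univ x0, lintegral_eq_lmarginal_univ x0]
  have hu : (Finset.univ : Finset (Fin d)) = {i} ∪ {i}ᶜ := by
    rw [Finset.union_compl]
  have hu' : (Finset.univ : Finset (Fin d)) = {i}ᶜ ∪ {i} := by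
    rw [Finset.union_comm, Finset.union_compl]
  have hd : Disjoint ({i} : Finset (Fin d)) {i}ᶜ := disjoint_compl_right
  have mm : Measurable (lmarginal μ {i} g) := hg.lmarginal μ
  have k1 : lmarginal μ Finset.univ (lmarginal μ {i} g) =
      lmarginal μ {i} (lmarginal μ Finset.univ g) := by
    rw [hu, lmarginal_union μ _ mm hd, ← hu]
    congr 1
    rw [← lmarginal_union μ _ hg hd.symm, ← hu']
  rw [k1, lmarginal_singleton]
  have k2 : ∀ x y, lmarginal μ Finset.univ g x = lmarginal μ Finset.univ g y := by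
    intro x y
    rw [← lintegral_eq_lmarginal_univ x, ← lintegral_eq_lmarginal_univ y]
  have k3 : ∀ s : ℝ, lmarginal μ Finset.univ g (update x0 i s) = lmarginal μ Finset.univ g x0 :=
    fun s => k2 _ _
  simp only [k3]
  rw [lintegral_const, mul_comm]
  congr 1
  simp only [hμ, Measure.restrict_apply_univ, Real.volume_Icc]
  congr 1; ring

/-- the sum of the `g`-lengths of the lines that carry the staircase from `x` to `z` -/
noncomputable def Hf (g : (Fin d → ℝ) → ℝ≥0∞) (c : Fin d → ℝ) (r ρ : ℝ) (a x z : Fin d → ℝ) : ℝ≥0∞ :=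
  ∑ i : Fin d, ∫⁻ s in Icc (c i - r) (c i + ρ),
        g (update (vt r a (cl r a (hyb (i : ℕ) x z))) i s)

theorem measurable_rnd (r : ℝ) :
    Measurable (fun p : (Fin d → ℝ) × (Fin d → ℝ) => vt r p.1 (cl r p.1 p.2)) := by
  rw [measurable_pi_iff]
  intro j
  simp only [vt, cl]
  fun_prop

theorem measurable_upd (i : Fin d) :
    Measurable (fun p : (Fin d → ℝ) × ℝ => update p.1 i p.2) := by
  rw [measurable_pi_iff]
  intro j
  by_cases h : j = i
  · subst h; simp only [update_self]; exact measurable_snd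
  · simp only [update_of_ne h]; exact (measurable_pi_apply j).comp measurable_fst

theorem measurable_lineInt {g : (Fin d → ℝ) → ℝ≥0∞} (hg : Measurable g) (i : Fin d) (A : Set ℝ) :
    Measurable (fun h : Fin d → ℝ => ∫⁻ s in A, g (update h i s)) := by
  have : Measurable (fun p : (Fin d → ℝ) × ℝ => g (update p.1 i p.2)) := hg.comp (measurable_upd i)
  exact this.lintegral_prod_right'

theorem measurable_Hf {g : (Fin d → ℝ) → ℝ≥0∞} (hg : Measurable g) (c : Fin d → ℝ) (r ρ : ℝ) :
    Measurable (fun p : (Fin d → ℝ) × (Fin d → ℝ) × (Fin d → ℝ) => Hf g c r ρ p.1 p.2.1 p.2.2) := by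
  unfold Hf
  apply Finset.measurable_sum
  intro i _
  have h1 : Measurable (fun p : (Fin d → ℝ) × (Fin d → ℝ) × (Fin d → ℝ) =>
      vt r p.1 (cl r p.1 (hyb (i : ℕ) p.2.1 p.2.2))) := by
    have := (measurable_rnd (d := d) r).comp
      (measurable_fst.prodMk ((measurable_hyb (d := d) (α := ℝ) (i : ℕ)).comp measurable_snd) :
        Measurable (fun p : (Fin d → ℝ) × (Fin d → ℝ) × (Fin d → ℝ) =>
          (p.1, hyb (i : ℕ) p.2.1 p.2.2)))
    exact this
  exact (measurable_lineInt hg i _).comp h1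

/-- **(B2)** the average bound. -/
theorem B2 {g : (Fin d → ℝ) → ℝ≥0∞} (hg : Measurable g) (c : Fin d → ℝ) {r : ℝ} (hr : 0 < r)
    (ρ : ℝ) :
    ∫⁻ x in cube c ρ, ∫⁻ a in tb d r, ∫⁻ z in cube c ρ, Hf g c r ρ a x z ≤
      d * (ENNReal.ofReal ρ ^ d * (ENNReal.ofReal r ^ d *
        (ENNReal.ofReal (ρ + r) * ∫⁻ h in cubeP c r ρ, g h))) := by
  have hmeas : ∀ i : Fin d, Measurable (fun p : (Fin d → ℝ) × (Fin d → ℝ) × (Fin d → ℝ) =>
      ∫⁻ s in Icc (c i - r) (c i + ρ), g (update (vt r p.1 (cl r p.1 (hyb (i : ℕ) p.2.1 p.2.2))) i s)) := by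
    intro i
    have h1 : Measurable (fun p : (Fin d → ℝ) × (Fin d → ℝ) × (Fin d → ℝ) =>
        vt r p.1 (cl r p.1 (hyb (i : ℕ) p.2.1 p.2.2))) := by
      have := (measurable_rnd (d := d) r).comp
        (measurable_fst.prodMk ((measurable_hyb (d := d) (α := ℝ) (i : ℕ)).comp measurable_snd) :
          Measurable (fun p : (Fin d → ℝ) × (Fin d → ℝ) × (Fin d → ℝ) =>
            (p.1, hyb (i : ℕ) p.2.1 p.2.2)))
      exact this
    exact (measurable_lineInt hg i _).comp h1
  -- each summand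
  have key : ∀ i : Fin d,
      ∫⁻ x in cube c ρ, ∫⁻ a in tb d r, ∫⁻ z in cube c ρ,
        ∫⁻ s in Icc (c i - r) (c i + ρ), g (update (vt r a (cl r a (hyb (i : ℕ) x z))) i s) ≤
      ENNReal.ofReal ρ ^ d * (ENNReal.ofReal r ^ d *
        (ENNReal.ofReal (ρ + r) * ∫⁻ h in cubeP c r ρ, g h)) := by
    intro i
    set Φ : (Fin d → ℝ) → ℝ≥0∞ := fun h => ∫⁻ s in Icc (c i - r) (c i + ρ), g (update h i s)
      with hΦ
    have mΦ : Measurable Φ := measurable_lineInt hg i _
    set Ψ : (Fin d → ℝ) → ℝ≥0∞ := fun y => ∫⁻ a in tb d r, Φ (vt r a (cl r a y)) with hΨ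
    have mΨ : Measurable Ψ := by
      have : Measurable (fun p : (Fin d → ℝ) × (Fin d → ℝ) => Φ (vt r p.2 (cl r p.2 p.1))) :=
        mΦ.comp ((measurable_rnd (d := d) r).comp measurable_swap)
      exact this.lintegral_prod_right'
    have s1 : ∀ x : Fin d → ℝ, ∫⁻ a in tb d r, ∫⁻ z in cube c ρ, Φ (vt r a (cl r a (hyb (i : ℕ) x z))) =
        ∫⁻ z in cube c ρ, Ψ (hyb (i : ℕ) x z) := by
      intro x
      rw [lintegral_lintegral_swap]
      have h1 : Measurable (fun p : (Fin d → ℝ) × (Fin d → ℝ) => (p.1, x, p.2)) := by fun_prop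
      exact ((hmeas i).comp h1).aemeasurable
    have s2 : ∫⁻ x in cube c ρ, ∫⁻ a in tb d r, ∫⁻ z in cube c ρ,
        Φ (vt r a (cl r a (hyb (i : ℕ) x z))) =
        ∫⁻ x in cube c ρ, ∫⁻ z in cube c ρ, Ψ (hyb (i : ℕ) x z) := by
      simp only [s1]
    change ∫⁻ x in cube c ρ, ∫⁻ a in tb d r, ∫⁻ z in cube c ρ,
        Φ (vt r a (cl r a (hyb (i : ℕ) x z))) ≤ _
    rw [s2]
    have s3 : ∫⁻ x in cube c ρ, ∫⁻ z in cube c ρ, Ψ (hyb (i : ℕ) x z) =
        ENNReal.ofReal ρ ^ d * ∫⁻ y in cube c ρ, Ψ y := by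
      have hl := lintegral_prod (μ := (volume : Measure (Fin d → ℝ)).restrict (cube c ρ))
        (ν := (volume : Measure (Fin d → ℝ)).restrict (cube c ρ))
        (fun p : (Fin d → ℝ) × (Fin d → ℝ) => Ψ (hyb (i : ℕ) p.1 p.2))
        (mΨ.comp (measurable_hyb (i : ℕ))).aemeasurable
      rw [← hl, ← lintegral_map mΨ (measurable_hyb (i : ℕ))]
      have hm := map_hyb (d := d) (i : ℕ) (I := fun j => Ico (c j) (c j + ρ))
        (c := ENNReal.ofReal ρ) ENNReal.ofReal_ne_top
        (fun j => by rw [Real.volume_Ico]; congr 1; ring)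
      rw [cube, hm, lintegral_smul_measure, smul_eq_mul]
    rw [s3]
    gcongr
    have s4 : ∀ y, Ψ y = ∫⁻ h in (univ.pi fun j => Ioc (y j - r) (y j)), Φ h := by
      intro y
      rw [← map_rnd hr y, lintegral_map mΦ]
      exact (measurable_rnd (d := d) r).comp (measurable_id.prodMk measurable_const)
    simp only [s4]
    refine (swap_le c ρ mΦ).trans ?_
    gcongr
    exact (line_avg c i hg).le
  have e : ∫⁻ x in cube c ρ, ∫⁻ a in tb d r, ∫⁻ z in cube c ρ, Hf g c r ρ a x z =
      ∑ i : Fin d, ∫⁻ x in cube c ρ, ∫⁻ a in tb d r, ∫⁻ z in cube c ρ,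
        ∫⁻ s in Icc (c i - r) (c i + ρ), g (update (vt r a (cl r a (hyb (i : ℕ) x z))) i s) := by
    unfold Hf
    have q1 : ∀ (x a : Fin d → ℝ), ∫⁻ z in cube c ρ, ∑ i : Fin d, ∫⁻ s in Icc (c i - r) (c i + ρ),
        g (update (vt r a (cl r a (hyb (i : ℕ) x z))) i s) =
        ∑ i : Fin d, ∫⁻ z in cube c ρ, ∫⁻ s in Icc (c i - r) (c i + ρ),
        g (update (vt r a (cl r a (hyb (i : ℕ) x z))) i s) := by
      intro x a
      apply lintegral_finsetSum
      intro i _
      have h1 : Measurable (fun z : Fin d → ℝ => (a, x, z)) := by fun_prop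
      exact (hmeas i).comp h1
    have q2 : ∀ (x : Fin d → ℝ), ∫⁻ a in tb d r, ∑ i : Fin d, ∫⁻ z in cube c ρ,
        ∫⁻ s in Icc (c i - r) (c i + ρ),
        g (update (vt r a (cl r a (hyb (i : ℕ) x z))) i s) =
        ∑ i : Fin d, ∫⁻ a in tb d r, ∫⁻ z in cube c ρ, ∫⁻ s in Icc (c i - r) (c i + ρ),
        g (update (vt r a (cl r a (hyb (i : ℕ) x z))) i s) := by
      intro x
      apply lintegral_finsetSum
      intro i _
      have h1 : Measurable (fun p : (Fin d → ℝ) × (Fin d → ℝ) => (p.1, x, p.2)) := by fun_prop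
      exact ((hmeas i).comp h1).lintegral_prod_right'
    simp only [q1, q2]
    apply lintegral_finsetSum
    intro i _
    have h1 : Measurable (fun p : ((Fin d → ℝ) × (Fin d → ℝ)) × (Fin d → ℝ) => (p.1.2, p.1.1, p.2)) := by
      fun_prop
    have h2 := ((hmeas i).comp h1).lintegral_prod_right'
      (ν := (volume : Measure (Fin d → ℝ)).restrict (cube c ρ))
    exact h2.lintegral_prod_right'
  rw [e]
  refine (Finset.sum_le_sum fun i _ => key i).trans ?_
  rw [Finset.sum_const, Finset.card_univ, Fintype.card_fin, nsmul_eq_mul]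

end Crest.Agent.R96.Blk_324
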