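import Crest.Agent.R96.Blk2_324

/-!
Row 96, P6-BULK (helper324), part 3: the choice of the points by Fatou, and the theorem.
-/

open MeasureTheory Set Filter Function
open scoped ENNReal Topology

namespace Crest.Agent.R96.Blk_324

/-- **Fatou choice**: finitely many points, generic, with the sum of the averages small along a
subsequence. -/
theorem fatou_choice {κ : Type*} [Fintype κ] {X : κ → Type*} [∀ k, MeasurableSpace (X k)]
    (ν : ∀ k, Measure (X k)) [∀ k, IsProbabilityMeasure (ν k)] (K : ℕ → ∀ k, X k → ℝ≥0∞)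
    (hK : ∀ n k, Measurable (K n k)) {C : ℝ≥0∞} (hC : ∀ n, ∑ k, ∫⁻ x, K n k x ∂(ν k) ≤ C)
    (N : ∀ k, Set (X k)) (hN : ∀ k, ν k (N k) = 0) :
    ∃ x : ∀ k, X k, (∀ k, x k ∉ N k) ∧ liminf (fun n => ∑ k, K n k (x k)) atTop ≤ C := by
  classical
  have hm : ∀ n, Measurable (fun x : ∀ k, X k => ∑ k, K n k (x k)) := by
    intro n
    exact Finset.measurable_sum _ fun k _ => (hK n k).comp (measurable_pi_apply k)
  have h1 : ∀ n, ∫⁻ x, ∑ k, K n k (x k) ∂(Measure.pi ν) ≤ C := by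
    intro n
    have hl : ∫⁻ x, ∑ k, K n k (x k) ∂(Measure.pi ν) = ∑ k, ∫⁻ x, K n k (x k) ∂(Measure.pi ν) :=
      lintegral_finsetSum (μ := Measure.pi ν) (f := fun k (x : ∀ k, X k) => K n k (x k)) _
        fun k _ => (hK n k).comp (measurable_pi_apply k)
    rw [hl]
    refine le_trans (le_of_eq ?_) (hC n)
    refine Finset.sum_congr rfl fun k _ => ?_
    have := (measurePreserving_eval ν k).lintegral_comp (hK n k)
    exact this
  set N' : Set (∀ k, X k) := ⋃ k, (Function.eval k) ⁻¹' (N k) with hN'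
  have hN0 : Measure.pi ν N' = 0 := by
    rw [hN', measure_iUnion_null_iff]
    intro k
    exact (measurePreserving_eval ν k).quasiMeasurePreserving.preimage_null (hN k)
  obtain ⟨x, hx, hle⟩ := exists_notMem_null_le_lintegral
    (μ := Measure.pi ν) (f := fun x => liminf (fun n => ∑ k, K n k (x k)) atTop)
    (Measurable.liminf hm).aemeasurable hN0
  refine ⟨x, fun k hk => hx (mem_iUnion.2 ⟨k, hk⟩), hle.trans ?_⟩
  refine (lintegral_liminf_le hm).trans ?_
  refine (liminf_le_liminf (Eventually.of_forall h1)).trans ?_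
  simp

variable {d : ℕ}

/-- the cubes `cubeP (ρ m) r ρ`, `m ∈ ℤ^d`, `r ≤ ρ`, cover every point at most `3^d` times. -/
theorem overlap {ρ r : ℝ} (hρ : 0 < ρ) (hrρ : r ≤ ρ) (κ : Finset (Fin d → ℤ))
    {g : (Fin d → ℝ) → ℝ≥0∞} (hg : Measurable g) :
    ∑ m ∈ κ, ∫⁻ h in cubeP (fun j => ρ * (m j : ℝ)) r ρ, g h ≤ 3 ^ d * ∫⁻ h, g h := by
  classical
  have e1 : ∀ m : Fin d → ℤ, ∫⁻ h in cubeP (fun j => ρ * (m j : ℝ)) r ρ, g h =
      ∫⁻ h, (cubeP (fun j => ρ * (m j : ℝ)) r ρ).indicator g h := by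
    intro m
    rw [lintegral_indicator (measurableSet_cubeP _ _ _)]
  simp only [e1]
  rw [← lintegral_finsetSum _ fun m _ => hg.indicator (measurableSet_cubeP _ _ _),
    ← lintegral_const_mul _ hg]
  apply lintegral_mono
  intro h
  simp only
  have e2 : ∑ m ∈ κ, (cubeP (fun j => ρ * (m j : ℝ)) r ρ).indicator g h =
      ∑ m ∈ κ.filter (fun m => h ∈ cubeP (fun j => ρ * (m j : ℝ)) r ρ), g h := by
    rw [Finset.sum_filter]
    refine Finset.sum_congr rfl fun m _ => ?_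
    simp only [indicator]
  rw [e2, Finset.sum_const, nsmul_eq_mul]
  gcongr
  set T : Finset (Fin d → ℤ) := Fintype.piFinset (fun j =>
    Finset.Icc (⌈h j / ρ⌉ - 1) (⌊h j / ρ⌋ + 1)) with hT
  have hsub : κ.filter (fun m => h ∈ cubeP (fun j => ρ * (m j : ℝ)) r ρ) ⊆ T := by
    intro m hm
    rw [Finset.mem_filter] at hm
    rw [hT, Fintype.mem_piFinset]
    intro j
    rw [Finset.mem_Icc]
    have hl : ρ * (m j : ℝ) - r ≤ h j := hm.2.1 j
    have hu : h j ≤ ρ * (m j : ℝ) + ρ := hm.2.2 j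
    constructor
    · have : ⌈h j / ρ⌉ ≤ m j + 1 := by
        rw [Int.ceil_le, div_le_iff₀ hρ]; push_cast; linarith
      omega
    · have : m j - 1 ≤ ⌊h j / ρ⌋ := by
        rw [Int.le_floor, le_div_iff₀ hρ]; push_cast; linarith
      omega
  have hcard : T.card ≤ 3 ^ d := by
    rw [hT, Fintype.card_piFinset]
    refine (Finset.prod_le_prod' (g := fun _ => 3) fun j _ => ?_).trans ?_
    · rw [Int.card_Icc]
      have := Int.floor_le_ceil (h j / ρ)
      omega
    · simp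
  calc ((κ.filter (fun m => h ∈ cubeP (fun j => ρ * (m j : ℝ)) r ρ)).card : ℝ≥0∞) ≤
      ((3 ^ d : ℕ) : ℝ≥0∞) := by
        exact_mod_cast (Finset.card_le_card hsub).trans hcard
    _ = 3 ^ d := by push_cast; rfl

theorem mem_cube_iff {ρ : ℝ} (hρ : 0 < ρ) (m : Fin d → ℤ) (z : Fin d → ℝ) :
    z ∈ cube (fun j => ρ * (m j : ℝ)) ρ ↔ cl ρ 0 z = m := by
  simp only [cube, mem_univ_pi, mem_Ico]
  constructor
  · intro h
    funext j
    simp only [cl, Pi.zero_apply, sub_zero]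
    rw [Int.floor_eq_iff]
    have := h j
    constructor
    · rw [le_div_iff₀ hρ]; linarith [this.1]
    · rw [div_lt_iff₀ hρ]; nlinarith [this.2]
  · rintro rfl j
    simp only [cl, Pi.zero_apply, sub_zero]
    have h1 := Int.floor_le (z j / ρ)
    have h2 := Int.lt_floor_add_one (z j / ρ)
    rw [le_div_iff₀ hρ] at h1
    rw [div_lt_iff₀ hρ] at h2
    constructor
    · linarith
    · nlinarith

variable {Y : Type*} [PseudoEMetricSpace Y]

theorem Adm.indicator {g : (Fin d → ℝ) → ℝ≥0∞} {r : ℝ} {a : Fin d → ℝ}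
    {U : Set (Fin d → ℝ)} {G : (Fin d → ℤ) → Y} (h : Adm g r a U G) :
    Adm (U.indicator g) r a U G := by
  intro k i hk
  refine (h k i hk).trans (le_of_eq ?_)
  apply setLIntegral_congr_fun measurableSet_Ioc
  intro s hs
  have : update (vt r a k) i s ∈ U := hk ⟨s, Ioc_subset_Icc_self hs, rfl⟩
  simp only
  rw [indicator_of_mem this]

/-- **P6-BULK: from points to the bulk.**  `F` continuous on the open set `Ω`, `g` integrable on
`Ω`, `X ⊆ Ω` compact, `N` null, `r n → 0`.  There are finitely many points `S ⊆ Ω \ N` and a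
subsequence `r (φ n)` such that for most translates `a` of the grid (all but the fraction `η`) and
all points `z` of `X` up to a set `B` of measure `η` (independent of `G`): every map `G` on the vertices of the grid that is
dominated by `g` on the edges inside `Ω` and `ε`-close to `F` at the points of `S` is `3 ε`-close
to `F` at `z`. -/
theorem bulk {Ω : Set (Fin d → ℝ)} (hΩ : IsOpen Ω) {g : (Fin d → ℝ) → ℝ≥0∞} (hg : Measurable g)
    (hgi : ∫⁻ x in Ω, g x ≠ ∞) {F : (Fin d → ℝ) → Y} (hF : ContinuousOn F Ω)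
    {X : Set (Fin d → ℝ)} (hX : IsCompact X) (hXΩ : X ⊆ Ω) {ε η : ℝ≥0∞} (hε : ε ≠ 0)
    (hε' : ε ≠ ∞) (hη : η ≠ 0) (hη' : η ≠ ∞)
    {N : Set (Fin d → ℝ)} (hN : volume N = 0) {r : ℕ → ℝ} (hr : ∀ n, 0 < r n)
    (hr0 : Tendsto r atTop (𝓝 0)) :
    ∃ S : Finset (Fin d → ℝ), (∀ x ∈ S, x ∈ Ω ∧ x ∉ N) ∧ ∃ φ : ℕ → ℕ, StrictMono φ ∧
      ∀ n, ∃ Z : Set (Fin d → ℝ), MeasurableSet Z ∧
        volume Z ≤ η * volume (tb d (r (φ n))) ∧
        ∀ a ∈ tb d (r (φ n)) \ Z, ∃ B : Set (Fin d → ℝ), MeasurableSet B ∧ volume B ≤ η ∧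
          ∀ G : (Fin d → ℤ) → Y, Adm g (r (φ n)) a Ω G →
            (∀ x ∈ S, edist (G (cl (r (φ n)) a x)) (F x) ≤ ε) →
            ∀ z ∈ X \ B, edist (G (cl (r (φ n)) a z)) (F z) ≤ 3 * ε := by
  classical
  -- uniformity of F near X
  obtain ⟨δ, hδ, hδΩ⟩ : ∃ δ > 0, ∀ z ∈ X, ∀ y, dist y z < δ → y ∈ Ω ∧ edist (F y) (F z) ≤ ε := by
    have hε2 : ε / 2 ≠ 0 := by simp [hε]
    have h0 : ∀ z : X, ∃ V : Set (Fin d → ℝ), IsOpen V ∧ (z : Fin d → ℝ) ∈ V ∧ V ⊆ Ω ∧
        ∀ y ∈ V, edist (F y) (F z) < ε / 2 := by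
      rintro ⟨z, hz⟩
      have hc : ContinuousAt F z := hF.continuousAt (hΩ.mem_nhds (hXΩ hz))
      have hev : ∀ᶠ y in 𝓝 z, edist (F y) (F z) < ε / 2 := by
        have := EMetric.tendsto_nhds.1 hc (ε / 2) (pos_iff_ne_zero.2 hε2)
        exact this
      have hev2 : ∀ᶠ y in 𝓝 z, y ∈ Ω ∧ edist (F y) (F z) < ε / 2 :=
        (hΩ.eventually_mem (hXΩ hz)).and hev
      obtain ⟨V, hV, hVo, hzV⟩ := eventually_nhds_iff.1 hev2
      exact ⟨V, hVo, hzV, fun y hy => (hV y hy).1, fun y hy => (hV y hy).2⟩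
    choose V hVo hzV hVΩ hV using h0
    obtain ⟨δ, hδ, hL⟩ := lebesgue_number_lemma_of_metric hX hVo
      (fun z hz => mem_iUnion.2 ⟨⟨z, hz⟩, hzV ⟨z, hz⟩⟩)
    refine ⟨δ, hδ, fun z hz y hy => ?_⟩
    obtain ⟨i, hi⟩ := hL z hz
    have hy' : y ∈ V i := hi (Metric.mem_ball.2 hy)
    have hz' : z ∈ V i := hi (Metric.mem_ball_self hδ)
    refine ⟨hVΩ i hy', ?_⟩
    calc edist (F y) (F z) ≤ edist (F y) (F i) + edist (F i) (F z) := edist_triangle _ _ _
      _ ≤ ε / 2 + ε / 2 := by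
        refine add_le_add (hV i y hy').le ?_
        rw [edist_comm]; exact (hV i z hz').le
      _ = ε := ENNReal.add_halves ε
  -- the side of the cubes
  set gΩ : (Fin d → ℝ) → ℝ≥0∞ := Ω.indicator g with hgΩ
  have mgΩ : Measurable gΩ := hg.indicator hΩ.measurableSet
  have hI : ∫⁻ x, gΩ x ≠ ∞ := by
    rw [hgΩ, lintegral_indicator hΩ.measurableSet]; exact hgi
  set M : ℝ≥0∞ := d * (3 ^ d * ∫⁻ x, gΩ x) with hM
  have hMt : M ≠ ∞ := by
    rw [hM]
    exact ENNReal.mul_ne_top (ENNReal.natCast_ne_top d)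
      (ENNReal.mul_ne_top (ENNReal.pow_ne_top (by simp)) hI)
  have hηε : η * ε ≠ 0 := mul_ne_zero hη hε
  have hηε' : η * ε ≠ ∞ := ENNReal.mul_ne_top hη' hε'
  have he3 : η * (η * ε) ≠ ∞ := ENNReal.mul_ne_top hη' hηε'
  have he3' : 0 < (η * (η * ε)).toReal := ENNReal.toReal_pos (mul_ne_zero hη hηε) he3
  obtain ⟨ρ, hρ, hρδ, hρM⟩ : ∃ ρ : ℝ, 0 < ρ ∧ 2 * ρ < δ ∧ ENNReal.ofReal (2 * ρ) * M < η * (η * ε) := by
    have hM0 : 0 ≤ M.toReal := ENNReal.toReal_nonneg
    set ρ : ℝ := min (δ / 4) ((η * (η * ε)).toReal / (4 * (M.toReal + 1))) with hρ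
    have hpos : 0 < ρ := by
      rw [hρ]; exact lt_min (by positivity) (by positivity)
    refine ⟨ρ, hpos, ?_, ?_⟩
    · have : ρ ≤ δ / 4 := min_le_left _ _
      linarith
    · have h1 : ρ ≤ (η * (η * ε)).toReal / (4 * (M.toReal + 1)) := min_le_right _ _
      rw [le_div_iff₀ (by positivity)] at h1
      rw [← ENNReal.ofReal_toReal hMt, ← ENNReal.ofReal_mul (by positivity),
        ← ENNReal.ofReal_toReal he3, ENNReal.ofReal_lt_ofReal_iff he3']
      nlinarith
  -- the finite index set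
  obtain ⟨κ, hκ⟩ : ∃ κ : Finset (Fin d → ℤ), ∀ m, m ∈ κ ↔ ∃ z ∈ X, cl ρ 0 z = m := by
    have hfin : (cl ρ 0 '' X : Set (Fin d → ℤ)).Finite := by
      obtain ⟨b, hb⟩ := hX.isBounded.subset_closedBall 0
      have : cl ρ 0 '' X ⊆ Icc (fun _ => ⌊-b / ρ⌋) (fun _ => ⌊b / ρ⌋) := by
        rintro _ ⟨z, hz, rfl⟩
        have hz' : ‖z‖ ≤ b := by simpa using hb hz
        constructor
        · intro j
          simp only [cl, Pi.zero_apply, sub_zero]
          apply Int.floor_le_floor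
          apply div_le_div_of_nonneg_right _ hρ.le
          have := norm_le_pi_norm z j
          rw [Real.norm_eq_abs] at this
          linarith [neg_abs_le (z j)]
        · intro j
          simp only [cl, Pi.zero_apply, sub_zero]
          apply Int.floor_le_floor
          apply div_le_div_of_nonneg_right _ hρ.le
          have := norm_le_pi_norm z j
          rw [Real.norm_eq_abs] at this
          linarith [le_abs_self (z j)]
      exact (Set.finite_Icc _ _).subset this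
    refine ⟨hfin.toFinset, fun m => ?_⟩
    rw [Set.Finite.mem_toFinset]
    rfl
  set c : (Fin d → ℤ) → (Fin d → ℝ) := fun m j => ρ * (m j : ℝ) with hc
  -- cubes of the family are inside Ω (with the enlargement), and F varies little
  have hQ : ∀ m ∈ κ, ∃ z ∈ X, z ∈ cube (c m) ρ := by
    intro m hm
    obtain ⟨z, hz, h⟩ := (hκ m).1 hm
    exact ⟨z, hz, (mem_cube_iff hρ m z).2 h⟩
  have hQΩ : ∀ m ∈ κ, ∀ s ≤ ρ, cubeP (c m) s ρ ⊆ Ω := by
    intro m hm s hs y hy
    obtain ⟨z, hz, hzm⟩ := hQ m hm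
    refine (hδΩ z hz y ?_).1
    refine lt_of_le_of_lt ?_ hρδ
    rw [dist_pi_le_iff (by positivity)]
    intro j
    simp only [cube, mem_univ_pi, mem_Ico] at hzm
    have h1 := hzm j
    have h2 : c m j - s ≤ y j := hy.1 j
    have h3 : y j ≤ c m j + ρ := hy.2 j
    rw [Real.dist_eq, abs_le]
    constructor <;> linarith [h1.1, h1.2]
  -- shift the sequence
  obtain ⟨n0, hn0⟩ : ∃ n0, ∀ n ≥ n0, r n ≤ ρ := by
    have := hr0.eventually (ge_mem_nhds hρ)
    exact eventually_atTop.1 this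
  set R : ℕ → ℝ := fun n => r (n + n0) with hR
  have hRpos : ∀ n, 0 < R n := fun n => hr _
  have hRρ : ∀ n, R n ≤ ρ := fun n => hn0 _ (Nat.le_add_left _ _)
  have hρd0 : (ENNReal.ofReal ρ) ^ d ≠ 0 := pow_ne_zero _ (by simpa using hρ)
  have hρdt : (ENNReal.ofReal ρ) ^ d ≠ ∞ := ENNReal.pow_ne_top ENNReal.ofReal_ne_top
  -- Fatou
  set ν : κ → Measure (Fin d → ℝ) := fun m =>
    (ENNReal.ofReal ρ ^ d)⁻¹ • (volume : Measure (Fin d → ℝ)).restrict (cube (c m) ρ) with hν
  have hprob : ∀ m, IsProbabilityMeasure (ν m) := by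
    intro m
    refine ⟨?_⟩
    rw [hν]
    simp only [Measure.smul_apply, Measure.restrict_apply_univ, smul_eq_mul, volume_cube]
    exact ENNReal.inv_mul_cancel hρd0 hρdt
  set K : ℕ → κ → (Fin d → ℝ) → ℝ≥0∞ := fun n m x =>
    (ENNReal.ofReal (R n) ^ d)⁻¹ * ∫⁻ a in tb d (R n), ∫⁻ z in cube (c m) ρ,
      Hf gΩ (c m) (R n) ρ a x z with hK
  have mint : ∀ (n : ℕ) (m : Fin d → ℤ), Measurable (fun p : (Fin d → ℝ) × (Fin d → ℝ) =>
      ∫⁻ z in cube (c m) ρ, Hf gΩ (c m) (R n) ρ p.2 p.1 z) := by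
    intro n m
    have h1 : Measurable (fun p : ((Fin d → ℝ) × (Fin d → ℝ)) × (Fin d → ℝ) =>
      (p.1.2, p.1.1, p.2)) := by fun_prop
    exact ((measurable_Hf mgΩ (c m) (R n) ρ).comp h1).lintegral_prod_right'
  have mK : ∀ n m, Measurable (K n m) := by
    intro n m
    rw [hK]
    exact (mint n m).lintegral_prod_right'.const_mul _
  have hKC : ∀ n, ∑ m, ∫⁻ x, K n m x ∂(ν m) ≤ ENNReal.ofReal (2 * ρ) * M := by
    intro n
    have hRd0 : (ENNReal.ofReal (R n)) ^ d ≠ 0 := pow_ne_zero _ (by simpa using hRpos n)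
    have hRdt : (ENNReal.ofReal (R n)) ^ d ≠ ∞ := ENNReal.pow_ne_top ENNReal.ofReal_ne_top
    have h1 : ∀ m : κ, ∫⁻ x, K n m x ∂(ν m) ≤
        d * (ENNReal.ofReal (2 * ρ) * ∫⁻ h in cubeP (c m) (R n) ρ, gΩ h) := by
      intro m
      rw [hν, hK]
      simp only
      rw [lintegral_smul_measure, smul_eq_mul, lintegral_const_mul]
      swap
      · exact (mint n m).lintegral_prod_right'
      calc (ENNReal.ofReal ρ ^ d)⁻¹ * ((ENNReal.ofReal (R n) ^ d)⁻¹ *
            ∫⁻ x in cube (c m) ρ, ∫⁻ a in tb d (R n), ∫⁻ z in cube (c m) ρ,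
              Hf gΩ (c m) (R n) ρ a x z) ≤
          (ENNReal.ofReal ρ ^ d)⁻¹ * ((ENNReal.ofReal (R n) ^ d)⁻¹ *
            (d * (ENNReal.ofReal ρ ^ d * (ENNReal.ofReal (R n) ^ d *
              (ENNReal.ofReal (ρ + R n) * ∫⁻ h in cubeP (c m) (R n) ρ, gΩ h))))) := by
            gcongr
            exact B2 mgΩ (c m) (hRpos n) ρ
        _ = ((ENNReal.ofReal ρ ^ d)⁻¹ * ENNReal.ofReal ρ ^ d) *
            (((ENNReal.ofReal (R n) ^ d)⁻¹ * ENNReal.ofReal (R n) ^ d) *
            (d * (ENNReal.ofReal (ρ + R n) * ∫⁻ h in cubeP (c m) (R n) ρ, gΩ h))) := by ring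
        _ = d * (ENNReal.ofReal (ρ + R n) * ∫⁻ h in cubeP (c m) (R n) ρ, gΩ h) := by
            rw [ENNReal.inv_mul_cancel hρd0 hρdt, ENNReal.inv_mul_cancel hRd0 hRdt, one_mul,
              one_mul]
        _ ≤ d * (ENNReal.ofReal (2 * ρ) * ∫⁻ h in cubeP (c m) (R n) ρ, gΩ h) := by
            gcongr
            linarith [hRρ n]
    refine (Finset.sum_le_sum fun m _ => h1 m).trans ?_
    rw [← Finset.mul_sum, ← Finset.mul_sum]
    have h2 : ∑ m : κ, ∫⁻ h in cubeP (c m) (R n) ρ, gΩ h =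
        ∑ m ∈ κ, ∫⁻ h in cubeP (c m) (R n) ρ, gΩ h :=
      Finset.sum_coe_sort κ (fun m => ∫⁻ h in cubeP (c m) (R n) ρ, gΩ h)
    rw [h2, hM]
    calc (d : ℝ≥0∞) * (ENNReal.ofReal (2 * ρ) * ∑ m ∈ κ, ∫⁻ h in cubeP (c m) (R n) ρ, gΩ h) ≤
        d * (ENNReal.ofReal (2 * ρ) * (3 ^ d * ∫⁻ h, gΩ h)) := by
          gcongr
          exact overlap hρ (hRρ n) κ mgΩ
      _ = ENNReal.ofReal (2 * ρ) * (d * (3 ^ d * ∫⁻ h, gΩ h)) := by ring
  obtain ⟨x, hxN, hxlim⟩ := fatou_choice ν K mK hKC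
    (fun m => N ∪ (cube (c m) ρ)ᶜ) (by
      intro m
      rw [hν]
      simp only [Measure.smul_apply, smul_eq_mul, mul_eq_zero]
      right
      rw [Measure.restrict_apply' (measurableSet_cube _ _)]
      refine measure_mono_null ?_ hN
      rintro y ⟨hy | hy, hy2⟩
      · exact hy
      · exact absurd hy2 hy)
  have hxQ : ∀ m : κ, x m ∈ cube (c m) ρ := by
    intro m
    by_contra h
    exact hxN m (Or.inr h)
  have hxN' : ∀ m : κ, x m ∉ N := fun m h => hxN m (Or.inl h)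
  have hfreq := frequently_lt_of_liminf_lt (by isBoundedDefault) (hxlim.trans_lt hρM)
  obtain ⟨φ, hφ, hφ2⟩ := extraction_of_frequently_atTop hfreq
  have cube_sub : ∀ m : Fin d → ℤ, cube (c m) ρ ⊆ Icc (c m) (fun j => c m j + ρ) := by
    intro m y hy
    simp only [cube, mem_univ_pi, mem_Ico] at hy
    exact ⟨fun j => (hy j).1, fun j => (hy j).2.le⟩
  refine ⟨Finset.univ.image x, ?_, fun n => φ n + n0, fun p q h => by
    have := hφ h; simp only; omega, ?_⟩
  · intro y hy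
    obtain ⟨m, -, rfl⟩ := Finset.mem_image.1 hy
    refine ⟨?_, hxN' m⟩
    apply hQΩ m m.2 0 hρ.le
    have := cube_sub m (hxQ m)
    exact ⟨fun j => by simpa using this.1 j, this.2⟩
  · intro n
    change ∃ Z : Set (Fin d → ℝ), MeasurableSet Z ∧
        volume Z ≤ η * volume (tb d (R (φ n))) ∧
        ∀ a ∈ tb d (R (φ n)) \ Z, ∃ B : Set (Fin d → ℝ), MeasurableSet B ∧ volume B ≤ η ∧
          ∀ G : (Fin d → ℤ) → Y, Adm g (R (φ n)) a Ω G →
            (∀ x' ∈ Finset.univ.image x, edist (G (cl (R (φ n)) a x')) (F x') ≤ ε) →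
            ∀ z ∈ X \ B, edist (G (cl (R (φ n)) a z)) (F z) ≤ 3 * ε
    set s : ℝ := R (φ n) with hs
    have hspos : 0 < s := hRpos _
    have hsρ : s ≤ ρ := hRρ _
    have hsd0 : (ENNReal.ofReal s) ^ d ≠ 0 := pow_ne_zero _ (by simpa using hspos)
    have hsdt : (ENNReal.ofReal s) ^ d ≠ ∞ := ENNReal.pow_ne_top ENNReal.ofReal_ne_top
    -- the total
    set T : (Fin d → ℝ) → ℝ≥0∞ := fun a => ∑ m : κ, ∫⁻ z in cube (c m) ρ,
      Hf gΩ (c m) s ρ a (x m) z with hT
    have mTm : ∀ m : κ, Measurable (fun a => ∫⁻ z in cube (c m) ρ, Hf gΩ (c m) s ρ a (x m) z) := by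
      intro m
      have h1 : Measurable (fun a : Fin d → ℝ => (x m, a)) := by fun_prop
      exact (mint (φ n) m).comp h1
    have mT : Measurable T := Finset.measurable_sum _ fun m _ => mTm m
    have hTint : ∫⁻ a in tb d s, T a ≤ ENNReal.ofReal s ^ d * (η * (η * ε)) := by
      rw [hT, lintegral_finsetSum _ fun m _ => mTm m]
      have h1 : ∑ m : κ, K (φ n) m (x m) < η * (η * ε) := hφ2 n
      have h2 : ∑ m : κ, ∫⁻ a in tb d s, ∫⁻ z in cube (c m) ρ, Hf gΩ (c m) s ρ a (x m) z =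
          ENNReal.ofReal s ^ d * ∑ m : κ, K (φ n) m (x m) := by
        rw [Finset.mul_sum]
        refine Finset.sum_congr rfl fun m _ => ?_
        rw [hK]
        simp only
        rw [← mul_assoc, ENNReal.mul_inv_cancel hsd0 hsdt, one_mul]
      rw [h2]
      exact mul_le_mul_right h1.le _
    refine ⟨tb d s ∩ {a | η * ε ≤ T a}, (measurableSet_tb s).inter (mT measurableSet_Ici), ?_, ?_⟩
    · have h1 := mul_meas_ge_le_lintegral₀ (μ := (volume : Measure (Fin d → ℝ)).restrict (tb d s))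
        mT.aemeasurable (η * ε)
      have h1' : η * ε * volume (tb d s ∩ {a | η * ε ≤ T a}) ≤ ∫⁻ a in tb d s, T a := by
        refine le_trans (le_of_eq ?_) h1
        rw [inter_comm, Measure.restrict_apply' (measurableSet_tb s)]
      have h2 : η * ε * volume (tb d s ∩ {a | η * ε ≤ T a}) ≤ η * ε * (η * volume (tb d s)) := by
        refine h1'.trans (hTint.trans (le_of_eq ?_))
        rw [volume_tb]; ring
      exact (ENNReal.mul_le_mul_iff_right hηε hηε').1 h2
    · rintro a ⟨ha, haZ⟩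
      have hTa : T a < η * ε := by
        by_contra h
        exact haZ ⟨ha, not_lt.1 h⟩
      have mHm : ∀ m : κ, Measurable (fun z => Hf gΩ (c m) s ρ a (x m) z) := by
        intro m
        have h1 : Measurable (fun z : Fin d → ℝ => (a, x m, z)) := by fun_prop
        exact (measurable_Hf mgΩ (c m) s ρ).comp h1
      refine ⟨⋃ m : κ, (cube (c m) ρ ∩ {z | ε ≤ Hf gΩ (c m) s ρ a (x m) z}), ?_, ?_, ?_⟩
      · exact MeasurableSet.iUnion fun m => (measurableSet_cube _ _).inter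
          ((mHm m) measurableSet_Ici)
      · have h1 : ∀ m : κ, ε * volume (cube (c m) ρ ∩ {z | ε ≤ Hf gΩ (c m) s ρ a (x m) z}) ≤
            ∫⁻ z in cube (c m) ρ, Hf gΩ (c m) s ρ a (x m) z := by
          intro m
          have h1 := mul_meas_ge_le_lintegral₀
            (μ := (volume : Measure (Fin d → ℝ)).restrict (cube (c m) ρ)) (mHm m).aemeasurable ε
          refine le_trans (le_of_eq ?_) h1
          rw [inter_comm, Measure.restrict_apply' (measurableSet_cube _ _)]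
        have h2 : ε * volume (⋃ m : κ, (cube (c m) ρ ∩ {z | ε ≤ Hf gΩ (c m) s ρ a (x m) z})) ≤
            ε * η := by
          calc ε * volume (⋃ m : κ, (cube (c m) ρ ∩ {z | ε ≤ Hf gΩ (c m) s ρ a (x m) z})) ≤
              ε * ∑ m : κ, volume (cube (c m) ρ ∩ {z | ε ≤ Hf gΩ (c m) s ρ a (x m) z}) := by
                gcongr
                exact measure_iUnion_fintype_le _ _
            _ = ∑ m : κ, ε * volume (cube (c m) ρ ∩ {z | ε ≤ Hf gΩ (c m) s ρ a (x m) z}) := by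
                rw [Finset.mul_sum]
            _ ≤ T a := Finset.sum_le_sum fun m _ => h1 m
            _ ≤ ε * η := by rw [mul_comm]; exact hTa.le
        exact (ENNReal.mul_le_mul_iff_right hε hε').1 h2
      · rintro G hG hGS z ⟨hzX, hzB⟩
        have hmκ : cl ρ 0 z ∈ κ := (hκ _).2 ⟨z, hzX, rfl⟩
        set m : κ := ⟨cl ρ 0 z, hmκ⟩ with hm
        have hzm : z ∈ cube (c m) ρ := (mem_cube_iff hρ _ z).2 rfl
        have h1 : edist (G (cl s a (x m))) (G (cl s a z)) ≤ ε := by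
          have hb := B1 hspos hG.indicator (c := c m) (ρ := ρ) (hQΩ m m.2 s hsρ)
            (cube_sub m (hxQ m)) (cube_sub m hzm)
          refine hb.trans ?_
          by_contra hcon
          exact hzB (mem_iUnion.2 ⟨m, hzm, (not_le.1 hcon).le⟩)
        have h2 : edist (G (cl s a (x m))) (F (x m)) ≤ ε :=
          hGS _ (Finset.mem_image_of_mem _ (Finset.mem_univ m))
        have h3 : edist (F (x m)) (F z) ≤ ε := by
          refine (hδΩ z hzX (x m) ?_).2
          refine lt_of_le_of_lt ?_ hρδ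
          rw [dist_pi_le_iff (by positivity)]
          intro j
          have q1 := cube_sub m (hxQ m)
          have q2 := cube_sub m hzm
          have q3 := q1.1 j
          have q4 : x m j ≤ c m j + ρ := q1.2 j
          have q5 := q2.1 j
          have q6 : z j ≤ c m j + ρ := q2.2 j
          rw [Real.dist_eq, abs_le]
          constructor <;> linarith
        calc edist (G (cl s a z)) (F z) ≤
            edist (G (cl s a z)) (G (cl s a (x m))) + edist (G (cl s a (x m))) (F (x m)) +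
              edist (F (x m)) (F z) := edist_triangle4 _ _ _ _
          _ ≤ ε + ε + ε := by
              refine add_le_add (add_le_add ?_ h2) h3
              rw [edist_comm]; exact h1
          _ = 3 * ε := by ring

end Crest.Agent.R96.Blk_324
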