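import Crest.Agent.R96.Blk3_324

/-!
Row 96, P6-BULK (helper324), part 4: the theorem for the grid spanned by any basis of a finite
dimensional normed space with any Haar measure.
-/

open MeasureTheory Set Filter Function
open scoped ENNReal Topology

namespace Crest.Agent.R96.Blk_324

variable {d : ℕ} {E : Type*} [NormedAddCommGroup E] [NormedSpace ℝ E] [FiniteDimensional ℝ E]

/-- the vertex with index `k` of the grid `a + r (ℤ b_1 + ... + ℤ b_d)` -/
noncomputable def vtE (b : Module.Basis (Fin d) ℝ E) (r : ℝ) (a : E) (k : Fin d → ℤ) : E :=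
  a + r • ∑ i, (k i : ℝ) • b i

/-- the index of the cell that contains `z` -/
noncomputable def clE (b : Module.Basis (Fin d) ℝ E) (r : ℝ) (a z : E) : Fin d → ℤ :=
  fun i => ⌊b.repr (z - a) i / r⌋

/-- the box of translates -/
def tbE (b : Module.Basis (Fin d) ℝ E) (r : ℝ) : Set E := {a | ∀ i, b.repr a i ∈ Ico 0 r}

/-- `G` (a map on the vertices) is dominated by `g` on every edge inside `U` -/
def AdmE {Y : Type*} [PseudoEMetricSpace Y] (b : Module.Basis (Fin d) ℝ E) (g : E → ℝ≥0∞) (r : ℝ)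
    (a : E) (U : Set E) (G : (Fin d → ℤ) → Y) : Prop :=
  ∀ (k : Fin d → ℤ) (i : Fin d), segment ℝ (vtE b r a k) (vtE b r a k + r • b i) ⊆ U →
    edist (G k) (G (update k i (k i + 1))) ≤ ∫⁻ s in Ioc 0 r, g (vtE b r a k + s • b i)

/-- the coordinates as a continuous linear equivalence -/
noncomputable def Lc (b : Module.Basis (Fin d) ℝ E) : E ≃L[ℝ] (Fin d → ℝ) :=
  b.equivFun.toContinuousLinearEquiv

theorem Lc_apply (b : Module.Basis (Fin d) ℝ E) (z : E) (i : Fin d) : Lc b z i = b.repr z i := rfl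

theorem Lc_symm (b : Module.Basis (Fin d) ℝ E) (v : Fin d → ℝ) : (Lc b).symm v = ∑ i, v i • b i := by
  have : (Lc b).symm v = b.equivFun.symm v := rfl
  rw [this, Module.Basis.equivFun_symm_apply]

theorem cl_Lc (b : Module.Basis (Fin d) ℝ E) (r : ℝ) (a z : E) :
    cl r (Lc b a) (Lc b z) = clE b r a z := by
  funext i
  simp only [cl, clE, Lc_apply, map_sub, Finsupp.sub_apply]

theorem symm_vt (b : Module.Basis (Fin d) ℝ E) (r : ℝ) (a : E) (k : Fin d → ℤ) :
    (Lc b).symm (vt r (Lc b a) k) = vtE b r a k := by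
  have h : vt r (Lc b a) k = Lc b a + r • (fun i => (k i : ℝ)) := by
    funext i; simp [vt]
  rw [h, map_add, ContinuousLinearEquiv.symm_apply_apply, map_smul, vtE, Lc_symm]

theorem symm_update (b : Module.Basis (Fin d) ℝ E) (v : Fin d → ℝ) (i : Fin d) (s : ℝ) :
    (Lc b).symm (update v i s) = (Lc b).symm v + (s - v i) • b i := by
  have h : update v i s = v + Pi.single i (s - v i) := by
    funext j
    by_cases hj : j = i
    · subst hj; simp
    · simp [update_of_ne hj, Pi.single_eq_of_ne hj]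
  rw [h, map_add]
  congr 1
  rw [Lc_symm]
  rw [Finset.sum_eq_single i]
  · simp
  · intro j _ hj; simp [Pi.single_eq_of_ne hj]
  · simp

theorem AdmE.toAdm {Y : Type*} [PseudoEMetricSpace Y] {b : Module.Basis (Fin d) ℝ E}
    {g : E → ℝ≥0∞} {r : ℝ} {a : E} {U : Set E} {G : (Fin d → ℤ) → Y} (hr : 0 < r)
    (h : AdmE b g r a U G) :
    Adm (fun v => g ((Lc b).symm v)) r (Lc b a) ((Lc b).symm ⁻¹' U) G := by
  intro k i hk
  have e1 : ∀ s : ℝ, (Lc b).symm (update (vt r (Lc b a) k) i s) =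
      vtE b r a k + (s - (Lc b a i + r * (k i : ℝ))) • b i := by
    intro s
    rw [symm_update, symm_vt]; rfl
  have hk' : segment ℝ (vtE b r a k) (vtE b r a k + r • b i) ⊆ U := by
    rintro y hy
    rw [segment_eq_image'] at hy
    obtain ⟨t, ht, rfl⟩ := hy
    have h1 : update (vt r (Lc b a) k) i (Lc b a i + r * (k i : ℝ) + t * r) ∈
        (Lc b).symm ⁻¹' U := by
      apply hk
      refine ⟨_, ⟨?_, ?_⟩, rfl⟩
      · nlinarith [ht.1]
      · nlinarith [ht.2]
    rw [mem_preimage, e1] at h1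
    convert h1 using 2
    rw [add_sub_cancel_left, add_sub_cancel_left, mul_smul]
  refine (h k i hk').trans (le_of_eq ?_)
  simp only [e1]
  set A : ℝ := Lc b a i + r * (k i : ℝ) with hA
  have e2 : Lc b a i + r * ((k i : ℝ) + 1) = A + r := by rw [hA]; ring
  rw [e2]
  have h3 := lintegral_add_right_eq_self (μ := (volume : Measure ℝ))
    (fun s => (Ioc A (A + r)).indicator (fun s => g (vtE b r a k + (s - A) • b i)) s) A
  rw [← lintegral_indicator measurableSet_Ioc, ← lintegral_indicator measurableSet_Ioc, ← h3]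
  apply lintegral_congr
  intro s
  by_cases hs : s ∈ Ioc 0 r
  · rw [indicator_of_mem hs, indicator_of_mem, add_sub_cancel_right]
    exact ⟨by linarith [hs.1], by linarith [hs.2]⟩
  · rw [indicator_of_notMem hs, indicator_of_notMem]
    intro hs'
    exact hs ⟨by linarith [hs'.1], by linarith [hs'.2]⟩

theorem tb_Lc (b : Module.Basis (Fin d) ℝ E) (r : ℝ) : (Lc b) ⁻¹' (tb d r) = tbE b r := by
  ext a
  simp only [mem_preimage, tb, mem_univ_pi, tbE, Lc_apply]
  rfl

variable {Y : Type*} [PseudoEMetricSpace Y]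

/-- **P6-BULK for the grid of any basis `b` and any Haar measure `μ`.** -/
theorem bulkE [MeasurableSpace E] [BorelSpace E] (b : Module.Basis (Fin d) ℝ E) (μ : Measure E)
    [μ.IsAddHaarMeasure] {Ω : Set E} (hΩ : IsOpen Ω) {g : E → ℝ≥0∞} (hg : Measurable g)
    (hgi : ∫⁻ x in Ω, g x ∂μ ≠ ∞) {F : E → Y} (hF : ContinuousOn F Ω)
    {X : Set E} (hX : IsCompact X) (hXΩ : X ⊆ Ω) {ε η : ℝ≥0∞} (hε : ε ≠ 0)
    (hε' : ε ≠ ∞) (hη : η ≠ 0) (hη' : η ≠ ∞)
    {N : Set E} (hN : μ N = 0) {r : ℕ → ℝ} (hr : ∀ n, 0 < r n)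
    (hr0 : Tendsto r atTop (𝓝 0)) :
    ∃ S : Finset E, (∀ x ∈ S, x ∈ Ω ∧ x ∉ N) ∧ ∃ φ : ℕ → ℕ, StrictMono φ ∧
      ∀ n, ∃ Z : Set E, MeasurableSet Z ∧
        μ Z ≤ η * μ (tbE b (r (φ n))) ∧
        ∀ a ∈ tbE b (r (φ n)) \ Z, ∃ B : Set E, MeasurableSet B ∧ μ B ≤ η ∧
          ∀ G : (Fin d → ℤ) → Y, AdmE b g (r (φ n)) a Ω G →
            (∀ x ∈ S, edist (G (clE b (r (φ n)) a x)) (F x) ≤ ε) →
            ∀ z ∈ X \ B, edist (G (clE b (r (φ n)) a z)) (F z) ≤ 3 * ε := by
  classical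
  set L := Lc b with hL
  set ν : Measure (Fin d → ℝ) := μ.map L with hν
  have hνH : ν.IsAddHaarMeasure := L.isAddHaarMeasure_map μ
  set c : ℝ≥0∞ := (Measure.addHaarScalarFactor ν volume : ℝ≥0∞) with hc
  have hνc : ν = c • (volume : Measure (Fin d → ℝ)) := by
    exact Measure.isAddLeftInvariant_eq_smul ν (volume : Measure (Fin d → ℝ))
  have hc0 : c ≠ 0 := by
    rw [hc]
    exact_mod_cast (Measure.addHaarScalarFactor_pos_of_isAddHaarMeasure ν volume).ne'
  have hct : c ≠ ∞ := ENNReal.coe_ne_top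
  have hμ : ∀ A : Set E, MeasurableSet A → μ A = c * volume (L.symm ⁻¹' A) := by
    intro A hA
    have h1 : μ A = ν (L.symm ⁻¹' A) := by
      rw [hν, Measure.map_apply L.continuous.measurable (hA.preimage L.symm.continuous.measurable)]
      congr 1
      ext x; simp
    rw [h1, hνc, Measure.smul_apply, smul_eq_mul]
  have hμ' : ∀ A : Set (Fin d → ℝ), MeasurableSet A → μ (L ⁻¹' A) = c * volume A := by
    intro A hA
    rw [hμ _ (hA.preimage L.continuous.measurable)]
    congr 2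
    ext x; simp
  have hgL : Measurable (fun v => g (L.symm v)) := hg.comp L.symm.continuous.measurable
  have hΩL : IsOpen (L.symm ⁻¹' Ω) := hΩ.preimage L.symm.continuous
  have hgiL : ∫⁻ v in L.symm ⁻¹' Ω, g (L.symm v) ≠ ∞ := by
    intro htop
    apply hgi
    have h1 : ∫⁻ x in Ω, g x ∂μ = ∫⁻ v in L.symm ⁻¹' Ω, g (L.symm v) ∂ν := by
      rw [hν, setLIntegral_map (hΩL.measurableSet) hgL L.continuous.measurable]
      have : L ⁻¹' (L.symm ⁻¹' Ω) = Ω := by ext x; simp
      rw [this]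
      simp
    rw [h1, hνc, Measure.restrict_smul, lintegral_smul_measure, htop, smul_eq_mul,
      ENNReal.mul_top hc0]
  have hFL : ContinuousOn (fun v => F (L.symm v)) (L.symm ⁻¹' Ω) :=
    hF.comp L.symm.continuous.continuousOn (fun v hv => hv)
  have hXL : IsCompact (L.symm ⁻¹' X) := by
    have : L.symm ⁻¹' X = L '' X := by
      ext v
      constructor
      · intro hv; exact ⟨L.symm v, hv, by simp⟩
      · rintro ⟨x, hx, rfl⟩; simpa using hx
    rw [this]; exact hX.image L.continuous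
  have hNL : volume (L.symm ⁻¹' N) = 0 := by
    have h1 := measure_toMeasurable N (μ := μ)
    rw [hN, hμ _ (measurableSet_toMeasurable μ N)] at h1
    have h2 := (mul_eq_zero.1 h1).resolve_left hc0
    exact measure_mono_null (preimage_mono (subset_toMeasurable μ N)) h2
  have hηc : min η (η / c) ≠ 0 := by
    rw [← pos_iff_ne_zero, lt_min_iff]
    exact ⟨pos_iff_ne_zero.2 hη, ENNReal.div_pos hη hct⟩
  obtain ⟨S, hS, φ, hφ, H⟩ := bulk hΩL hgL hgiL hFL hXL (preimage_mono hXΩ) hε hε' hηc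
    (ne_top_of_le_ne_top hη' (min_le_left _ _)) hNL hr hr0
  refine ⟨S.image L.symm, ?_, φ, hφ, fun n => ?_⟩
  · intro x hx
    obtain ⟨v, hv, rfl⟩ := Finset.mem_image.1 hx
    exact hS v hv
  · obtain ⟨Z, mZ, hZ, HZ⟩ := H n
    refine ⟨L ⁻¹' Z, mZ.preimage L.continuous.measurable, ?_, ?_⟩
    · rw [← tb_Lc, hμ' _ mZ, hμ' _ (measurableSet_tb _)]
      calc c * volume Z ≤ c * (min η (η / c) * volume (tb d (r (φ n)))) := by gcongr
        _ ≤ c * (η * volume (tb d (r (φ n)))) := by gcongr; exact min_le_left _ _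
        _ = η * (c * volume (tb d (r (φ n)))) := by ring
    · rintro a ⟨ha, haZ⟩
      obtain ⟨B, mB, hB, HB⟩ := HZ (L a) ⟨by rw [← tb_Lc] at ha; exact ha, haZ⟩
      refine ⟨L ⁻¹' B, mB.preimage L.continuous.measurable, ?_, ?_⟩
      · rw [hμ' _ mB]
        calc c * volume B ≤ c * (min η (η / c)) := by gcongr
          _ ≤ c * (η / c) := by gcongr; exact min_le_right _ _
          _ ≤ η := ENNReal.mul_div_le
      · rintro G hG hGS z ⟨hzX, hzB⟩
        have h1 := HB G (hG.toAdm (hr _)) (by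
          intro v hv
          have := hGS (L.symm v) (Finset.mem_image_of_mem _ hv)
          rw [← cl_Lc, ← hL, ContinuousLinearEquiv.apply_symm_apply] at this
          exact this) (L z) ⟨by simpa using hzX, hzB⟩
        rw [hL, cl_Lc, ContinuousLinearEquiv.symm_apply_apply] at h1
        exact h1

end Crest.Agent.R96.Blk_324
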