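import Mathlib
import Crest.Agent.R96.Push19_899

/-!
# Row 96, EA-PUSH (helper899), part 1: mixed cores with general constants: prescribed cores (of any
ratio) in the bricks of `G` with a pointwise factor; random point holes in the others, with an averaged
factor, brick by brick.
-/

set_option autoImplicit false
set_option linter.unusedSectionVars false
set_option linter.unusedVariables false

open MeasureTheory Set Filter Topology
open scoped NNReal ENNReal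

noncomputable section

namespace Crest.Agent.R96.EaP_899

open Crest.Agent.R96.Acl_392 Crest.Agent.R96.Sob1_199 Crest.Agent.R96.Sob2_199
  Crest.Agent.R96.Sob3_199 Crest.Agent.R96.Sob4_199 Crest.Agent.R96.Sob5_199
  Crest.Agent.R96.Push_899

variable {ι : Type*} [Fintype ι] [Nonempty ι] [DecidableEq ι]

variable {E : Type*} [NormedAddCommGroup E] [NormedSpace ℝ E] [FiniteDimensional ℝ E]
  [MeasurableSpace E] [BorelSpace E] {μ : Measure E} [μ.IsAddHaarMeasure]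

omit [Nonempty ι] [DecidableEq ι] in
theorem shape_mono {P : Finset ι} {c c' κ ρ : ℝ} {Q C : Box ι} (h : Shape P c κ ρ Q C)
    (h0 : 0 < c') (h1 : c' ≤ c) : Shape P c' κ ρ Q C := by
  have hr := h.r0
  exact ⟨h0, h1.trans h.c1, h.r0, h.k0, h.W0,
    fun i => (mul_le_mul_of_nonneg_right h1 hr.le).trans (h.lo1 i), h.lo2,
    fun i => (mul_le_mul_of_nonneg_right h1 hr.le).trans (h.hi1 i), h.hi2,
    fun i => (mul_le_mul_of_nonneg_right h1 (h.W0 i).le).trans (h.wd i), h.wdP⟩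

/-- the prescribed cores and holes: shape constant `c₁`, the core is at most `a` times narrower than
the brick, the hole at most `M` times narrower than the core -/
structure Giv {I : Type*} (G : Set I) (c₁ a M : ℝ) (Q C₁ B₁ : I → Box ι) (ρ₁ : I → ℝ) : Prop where
  shape : ∀ c ∈ G, Shape ∅ c₁ 0 (ρ₁ c) (Q c) (C₁ c)
  inner : ∀ c ∈ G, Inner (C₁ c) (B₁ c)
  asp : ∀ c ∈ G, ∀ i j, (Q c).W i ≤ a * (C₁ c).W j
  hole : ∀ c ∈ G, ∀ i, (C₁ c).W i ≤ M * (B₁ c).W i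
  pos : ∀ c ∈ G, ∀ i, 0 < (B₁ c).W i

/-- the pointwise constant -/
def K1 (ι : Type*) [Fintype ι] (c₁ a M : ℝ) : ℝ := Fintype.card ι ^ 2 * (2 / c₁ ^ 2 + 18 * a * M)

/-- the averaged constant -/
def K2 (ι : Type*) [Fintype ι] [Nonempty ι] (c₁ a M p : ℝ) : ℝ≥0∞ :=
  ENNReal.ofReal ((18 * Fintype.card ι * (a * Fintype.card ι)) ^ p) * Kc ι p +
    ENNReal.ofReal (K1 ι c₁ a M ^ p)

theorem K2_lt_top {c₁ a M p : ℝ} (hp : p < Fintype.card ι) : K2 ι c₁ a M p < ⊤ :=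
  ENNReal.add_lt_top.2 ⟨ENNReal.mul_lt_top ENNReal.ofReal_lt_top (Kc_lt_top hp), ENNReal.ofReal_lt_top⟩

variable {Λ : Set (EE ι)} {I : Type*} {Q C₁ B₁ : I → Box ι} {ρ₁ : I → ℝ} {G : Set I}
  {a0 c₁ a M : ℝ}

theorem foamMix2 (ha0 : 1 ≤ a0) (hc₁ : 0 < c₁) (hc₁' : c₁ ≤ 1 / (8 * a0)) (h : Foam0 Λ Q)
    (hA : ∀ c i j, (Q c).W i ≤ a0 * (Q c).W j) (hG : Giv G c₁ a M Q C₁ B₁ ρ₁)
    {z : I → ι → ℝ} (hz : ∀ c, c ∉ G → z c ∈ Mid (Q c)) :
    FoamC Λ Q (mixC G Q C₁ z) (mixB G B₁ z) ∅ c₁ (fun _ => 0) (mixρ G Q ρ₁) := by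
  refine ⟨h.cells, h.disj, fun c => ?_, fun c => ?_⟩
  · by_cases hc : c ∈ G
    · rw [mixC_mem hc, mixρ_mem hc]; exact hG.shape c hc
    · rw [mixC_not hc, mixρ_not hc]
      exact shape_mono (shapeBF ha0 (h.W0 c) (hA c) (hz c hc)) hc₁ hc₁'
  · by_cases hc : c ∈ G
    · rw [mixC_mem hc, mixB_mem hc]; exact hG.inner c hc
    · rw [mixC_not hc, mixB_not hc]; exact (admBF (h.W0 c)).inner (hz c hc)

theorem mix_asp2 (ha0 : 1 ≤ a0) (h : Foam0 Λ Q) (hA : ∀ c i j, (Q c).W i ≤ a0 * (Q c).W j)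
    (ha : 4 * a0 ≤ a) (hG : Giv G c₁ a M Q C₁ B₁ ρ₁) (z : I → ι → ℝ) :
    ∀ c i j, (Q c).W i ≤ a * (mixC G Q C₁ z c).W j := by
  intro c i j
  by_cases hc : c ∈ G
  · rw [mixC_mem hc]; exact hG.asp c hc i j
  · rw [mixC_not hc, coreBF_W (h.W0 c)]
    have h1 := hA c i j
    have h2 := h.W0 c j
    have h3 : 4 * a0 * ((Q c).W j / 4) ≤ a * ((Q c).W j / 4) :=
      mul_le_mul_of_nonneg_right ha (by positivity)
    linarith

variable [Countable I]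

/-- **pointwise factor** off the cores of the bricks which are not in `G` -/
theorem mix_ptw2 (ha0 : 1 ≤ a0) (hc₁ : 0 < c₁) (hc₁' : c₁ ≤ 1 / (8 * a0)) (ha4 : 4 * a0 ≤ a)
    (hM : 1 ≤ M) (hΛ : IsOpen Λ) (h : Foam0 Λ Q)
    (hA : ∀ c i j, (Q c).W i ≤ a0 * (Q c).W j) (hG : Giv G c₁ a M Q C₁ B₁ ρ₁)
    {z : I → ι → ℝ} (hz : ∀ c, c ∉ G → z c ∈ Mid (Q c)) {Ω : Set E} (hΩ : IsOpen Ω) {φ : E → EE ι}
    (hφ : ContinuousOn φ Ω) {e : E} {D D' : E → EE ι} (hD : VWD Ω μ φ D e)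
    (hD' : VWD (Ω ∩ φ ⁻¹' (Pun Λ (mixB G B₁ z))) μ
      (fun x => Psi Q (mixC G Q C₁ z) (mixB G B₁ z) (φ x)) D' e) :
    ∀ᵐ x ∂μ, x ∈ Ω ∩ φ ⁻¹' (Pun Λ (mixB G B₁ z)) →
      (∀ c, φ x ∈ IE (mixC G Q C₁ z c) → c ∈ G) → ‖D' x‖ ≤ K1 ι c₁ a M * ‖D x‖ := by
  have a0p : 0 < a0 := by linarith
  have ap : 0 < a := by linarith
  have hF := foamMix2 ha0 hc₁ hc₁' h hA hG hz
  have ha := mix_asp2 ha0 h hA ha4 hG z
  filter_upwards [hF.bound_off hΛ hΩ hφ hD hD' ap.le ha,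
    hF.bound_core hΛ hΩ hφ hD hD' (fun _ _ => a) ha] with x h1 h2 hx hxG
  by_cases hc : ∃ c, φ x ∈ IE (mixC G Q C₁ z c)
  · obtain ⟨c, hc⟩ := hc
    have hcG := hxG c hc
    have h3 := h2 hx c hc
    have ht := hF.tt_pos hx.2 c
    have hmm : mm (mixC G Q C₁ z c) (mixB G B₁ z c) (co (φ x)) ≤ M := by
      have e1 : mixC G Q C₁ z c = C₁ c := mixC_mem hcG
      have e2 : mixB G B₁ z c = B₁ c := mixB_mem hcG
      rw [e1, e2] at ht ⊢
      exact mm_le_of (hG.inner c hcG) (hG.hole c hcG) (hG.pos c hcG) ht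
    have hmm0 := mm_pos (hF.inner c) ht
    have key : ∀ i, |D' x i| ≤ (18 * a * M) * (Fintype.card ι * ‖D x‖) := by
      intro i
      refine (h3 i).trans ?_
      rw [← Finset.mul_sum]
      calc _ ≤ 18 * M * (a * (Fintype.card ι * ‖D x‖)) := by
            apply mul_le_mul
            · linarith
            · exact mul_le_mul_of_nonneg_left (sum_abs_le _) ap.le
            · exact mul_nonneg ap.le (Finset.sum_nonneg fun _ _ => abs_nonneg _)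
            · linarith
        _ = _ := by ring
    calc ‖D' x‖ ≤ ∑ i, |D' x i| := norm_le_sum _
      _ ≤ ∑ i : ι, (18 * a * M) * (Fintype.card ι * ‖D x‖) :=
          Finset.sum_le_sum fun i _ => key i
      _ = (Fintype.card ι ^ 2 * (18 * a * M)) * ‖D x‖ := by
          rw [Finset.sum_const, Finset.card_univ, nsmul_eq_mul]; ring
      _ ≤ _ := by
          apply mul_le_mul_of_nonneg_right _ (norm_nonneg _)
          unfold K1
          apply mul_le_mul_of_nonneg_left _ (by positivity)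
          have : 0 ≤ 2 / c₁ ^ 2 := by positivity
          linarith
  · push Not at hc
    refine (h1 hx hc).trans ?_
    apply mul_le_mul_of_nonneg_right _ (norm_nonneg _)
    unfold K1
    apply mul_le_mul_of_nonneg_left _ (by positivity)
    nlinarith

/-- **mixed cores, `p < n`, brick by brick.** -/
theorem push_mix2 {p : ℝ} (ha0 : 1 ≤ a0) (hc₁ : 0 < c₁) (hc₁' : c₁ ≤ 1 / (8 * a0))
    (ha4 : 4 * a0 ≤ a) (hM : 1 ≤ M) (hp0 : 0 ≤ p) (hΛ : IsOpen Λ)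
    (h : Foam0 Λ Q) (hA : ∀ c i j, (Q c).W i ≤ a0 * (Q c).W j) (hG : Giv G c₁ a M Q C₁ B₁ ρ₁)
    {Ω : Set E} (hΩ : IsOpen Ω) {φ : E → EE ι}
    (hφ : ContinuousOn φ Ω) {J : Type*} [Fintype J] {e : J → E} {D : J → E → EE ι}
    (hD : ∀ l, VWD Ω μ φ (D l) (e l)) {N : Set (ι → ℝ)} (hN : volume N = 0) :
    ∃ z : I → ι → ℝ, (∀ c, z c ∈ Mid (Q c)) ∧ (∀ c, z c ∉ N) ∧
      ∀ D' : J → E → EE ι, (∀ l, VWD (Ω ∩ φ ⁻¹' (Pun Λ (mixB G B₁ z))) μ
        (fun x => Psi Q (mixC G Q C₁ z) (mixB G B₁ z) (φ x)) (D' l) (e l)) →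
      ∀ c, c ∉ G → (∫⁻ x in Ω ∩ φ ⁻¹' (Pun Λ (mixB G B₁ z) ∩ IE (mixC G Q C₁ z c)),
        ∑ l, ‖D' l x‖ₑ ^ p ∂μ ≤ K2 ι c₁ a M p * ∫⁻ x in Ω ∩ φ ⁻¹' (IE (Q c)),
        ∑ l, ‖D l x‖ₑ ^ p ∂μ) ∧
        (∫⁻ x in Ω ∩ φ ⁻¹' (Pun Λ (mixB G B₁ z) ∩ SE (Q c)),
        ∑ l, ‖D' l x‖ₑ ^ p ∂μ ≤ K2 ι c₁ a M p * ∫⁻ x in Ω ∩ φ ⁻¹' (SE (Q c)),
        ∑ l, ‖D l x‖ₑ ^ p ∂μ) := by
  have a0p : 0 < a0 := by linarith
  have ap : 0 < a := by linarith
  have hn : (1:ℝ) ≤ Fintype.card ι := by exact_mod_cast Fintype.card_pos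
  have hK1 : 0 ≤ K1 ι c₁ a M := by unfold K1; positivity
  -- measurability
  have mD : ∀ l, AEMeasurable (fun x => ‖D l x‖ₑ ^ p) (μ.restrict Ω) := fun l =>
    ((hD l).aemeas.enorm).pow_const p
  set g : E → ℝ≥0∞ := fun x => ∑ l, ‖D l x‖ₑ ^ p with hg
  have mg : AEMeasurable g (μ.restrict Ω) := Finset.aemeasurable_fun_sum _ fun l _ => mD l
  have mφ : AEMeasurable (fun x => co (φ x)) (μ.restrict Ω) :=
    continuous_co.measurable.comp_aemeasurable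
      (hφ.aestronglyMeasurable hΩ.measurableSet).aemeasurable
  have hs0 : ∀ c, Ω ∩ φ ⁻¹' (IE (Q c)) ⊆ Ω := fun c x hx => hx.1
  have hcen : ∀ c, ∃ z ∈ Mid (Q c), z ∉ N ∧
      ∫⁻ x, gW (wN ∅ 1 (1/4) (Q c)) p (co (φ x) - z) * g x
        ∂(μ.restrict (Ω ∩ φ ⁻¹' (IE (Q c)))) ≤
      ENNReal.ofReal (2 ^ Fintype.card ι * (1/4) ^ (∅ᶜ : Finset ι).card) * Kc ι p *
        ∫⁻ x, g x ∂(μ.restrict (Ω ∩ φ ⁻¹' (IE (Q c)))) := fun c =>
    (admBF (h.W0 c)).centre p (mφ.mono_measure (Measure.restrict_mono (hs0 c) le_rfl))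
      (mg.mono_measure (Measure.restrict_mono (hs0 c) le_rfl)) hN
  choose z hz hzN hb using hcen
  refine ⟨z, hz, hzN, ?_⟩
  intro D' hD' c hcG
  have hF := foamMix2 ha0 hc₁ hc₁' h hA hG (fun c _ => hz c)
  have ha := mix_asp2 ha0 h hA ha4 hG z
  set B : I → Box ι := mixB G B₁ z with hB
  set C : I → Box ι := mixC G Q C₁ z with hC
  have hCW : ∀ i, (C c).W i = 1 / 4 * (Q c).W i := by
    intro i
    rw [hC, mixC_not hcG, coreBF_W (h.W0 c)]; ring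
  have hO := hF.isOpen_dom hΛ hΩ hφ
  have mPun := (hF.isOpen_pun hΛ).measurableSet
  -- core part
  have hBc : B c = Box.pt (z c) := by rw [hB]; exact mixB_not hcG
  have part1 : ∫⁻ x in Ω ∩ φ ⁻¹' (Pun Λ B ∩ IE (C c)), ∑ l, ‖D' l x‖ₑ ^ p ∂μ ≤
      (ENNReal.ofReal ((18 * Fintype.card ι * (a * Fintype.card ι)) ^ p) * Kc ι p) *
        ∫⁻ x in Ω ∩ φ ⁻¹' (IE (Q c)), g x ∂μ := by
    rw [mul_assoc]
    have hs1 : Ω ∩ φ ⁻¹' (Pun Λ B ∩ IE (C c)) ⊆ Ω ∩ φ ⁻¹' (Pun Λ B) :=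
      fun x hx => ⟨hx.1, hx.2.1⟩
    have hs2 : Ω ∩ φ ⁻¹' (IE (C c)) ⊆ Ω ∩ φ ⁻¹' (IE (Q c)) :=
      fun x hx => ⟨hx.1, hF.core_sub c (IE_subset_SE _ hx.2)⟩
    have mD' : ∀ l, AEMeasurable (fun x => ‖D' l x‖ₑ ^ p)
        (μ.restrict (Ω ∩ φ ⁻¹' (Pun Λ B ∩ IE (C c)))) := fun l =>
      (((hD' l).aemeas.enorm).pow_const p).mono_measure (Measure.restrict_mono hs1 le_rfl)
    rw [lintegral_finsetSum' _ fun l _ => mD' l]
    have e1 : ∀ l, ∫⁻ x in Ω ∩ φ ⁻¹' (Pun Λ B ∩ IE (C c)), ‖D' l x‖ₑ ^ p ∂μ ≤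
        ENNReal.ofReal ((18 * Fintype.card ι * (a * Fintype.card ι)) ^ p) *
          ∫⁻ x in Ω ∩ φ ⁻¹' (IE (Q c)), gW (C c).W p (co (φ x) - z c) *
            ‖D l x‖ₑ ^ p ∂μ := by
      intro l
      have h1 := hF.core_int hΛ hΩ hφ (hD l) (hD' l) hp0 (fun _ _ => a)
        (fun c i j => ha c i j) c (z := z c) hBc (X := univ) nullMeasurableSet_univ
      rw [univ_inter, univ_inter] at h1
      refine h1.trans ?_
      have e2 : ∀ x, ENNReal.ofReal ((∑ j, a * |D l x j|) ^ p) ≤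
          ENNReal.ofReal ((a * Fintype.card ι) ^ p) * ‖D l x‖ₑ ^ p := by
        intro x
        rw [← ofReal_norm, ENNReal.ofReal_rpow_of_nonneg (norm_nonneg _) hp0,
          ← ENNReal.ofReal_mul (by positivity), ← Real.mul_rpow (by positivity) (norm_nonneg _)]
        apply ENNReal.ofReal_le_ofReal
        apply Real.rpow_le_rpow _ _ hp0
        · exact Finset.sum_nonneg fun j _ => by positivity
        · rw [← Finset.mul_sum]
          refine (mul_le_mul_of_nonneg_left (sum_abs_le (D l x)) ap.le).trans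
            (le_of_eq (by ring))
      calc _ ≤ ENNReal.ofReal ((18 * Fintype.card ι) ^ p) *
            ∫⁻ x in Ω ∩ φ ⁻¹' (IE (Q c)), gW (C c).W p (co (φ x) - z c) *
              (ENNReal.ofReal ((a * Fintype.card ι) ^ p) * ‖D l x‖ₑ ^ p) ∂μ := by
            refine mul_le_mul' le_rfl ?_
            refine (lintegral_mono_set hs2).trans (lintegral_mono fun x => ?_)
            exact mul_le_mul' le_rfl (e2 x)
        _ = ENNReal.ofReal ((18 * Fintype.card ι) ^ p) * (ENNReal.ofReal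
            ((a * Fintype.card ι) ^ p) * ∫⁻ x in Ω ∩ φ ⁻¹' (IE (Q c)),
              gW (C c).W p (co (φ x) - z c) * ‖D l x‖ₑ ^ p ∂μ) := by
            congr 1
            rw [← lintegral_const_mul' _ _ ENNReal.ofReal_ne_top]
            apply lintegral_congr
            intro x; ring
        _ = _ := by
            rw [← mul_assoc, ← ENNReal.ofReal_mul (by positivity),
              ← Real.mul_rpow (by positivity) (by positivity)]
    refine (Finset.sum_le_sum fun l _ => e1 l).trans ?_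
    rw [← Finset.mul_sum]
    refine mul_le_mul' le_rfl ?_
    rw [← lintegral_finsetSum']
    · have e3 : ∀ x, ∑ l, gW (C c).W p (co (φ x) - z c) * ‖D l x‖ₑ ^ p =
          gW (wN ∅ 1 (1/4) (Q c)) p (co (φ x) - z c) * g x := by
        intro x
        rw [← Finset.mul_sum]
        congr 2
        funext i
        rw [hCW]; simp [wN]
      rw [lintegral_congr e3]
      refine (hb c).trans ?_
      have e4 : ENNReal.ofReal (2 ^ Fintype.card ι * (1/4) ^ (∅ᶜ : Finset ι).card) ≤ 1 := by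
        rw [Finset.compl_empty, Finset.card_univ, ← mul_pow]
        apply ENNReal.ofReal_le_one.2
        exact pow_le_one₀ (by norm_num) (by norm_num)
      calc _ ≤ 1 * Kc ι p * ∫⁻ x, g x ∂(μ.restrict (Ω ∩ φ ⁻¹' (IE (Q c)))) := by gcongr
        _ = _ := by rw [one_mul]
    · intro l _
      apply AEMeasurable.mul
      · refine (measurable_gW _ p).comp_aemeasurable ?_
        exact (mφ.mono_measure (Measure.restrict_mono (hs0 c) le_rfl)).sub aemeasurable_const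
      · exact (mD l).mono_measure (Measure.restrict_mono (hs0 c) le_rfl)
  refine ⟨part1.trans (mul_le_mul' (by unfold K2; exact le_self_add) le_rfl), ?_⟩
  -- the rest of the brick
  have part2 : ∫⁻ x in Ω ∩ φ ⁻¹' (Pun Λ B ∩ (SE (Q c) \ IE (C c))), ∑ l, ‖D' l x‖ₑ ^ p ∂μ ≤
        ENNReal.ofReal (K1 ι c₁ a M ^ p) *
          ∫⁻ x in Ω ∩ φ ⁻¹' (Pun Λ B ∩ (SE (Q c) \ IE (C c))), g x ∂μ := by
    rw [← lintegral_const_mul' _ _ ENNReal.ofReal_ne_top]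
    apply lintegral_mono_ae
    have hT : MeasurableSet (Pun Λ B ∩ (SE (Q c) \ IE (C c))) :=
      mPun.inter ((isClosed_SE (Q c)).measurableSet.diff (isOpen_IE (C c)).measurableSet)
    have hm : NullMeasurableSet (Ω ∩ φ ⁻¹' (Pun Λ B ∩ (SE (Q c) \ IE (C c)))) μ := by
      have h1 := hF.nm (μ := μ) hΩ hφ hT
      have h2 := (nullMeasurableSet_restrict hΩ.measurableSet.nullMeasurableSet).1 h1
      rw [inter_comm] at h2
      exact h2
    refine (ae_restrict_iff'₀ hm).2 ?_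
    have h1 : ∀ᵐ x ∂μ, ∀ l, x ∈ Ω ∩ φ ⁻¹' (Pun Λ B) → (∀ c, φ x ∉ IE (C c)) →
        ‖D' l x‖ ≤ (Fintype.card ι ^ 2 * (2 / c₁ ^ 2 + 18 * a)) * ‖D l x‖ :=
      ae_all_iff.2 fun l => hF.bound_off hΛ hΩ hφ (hD l) (hD' l) ap.le ha
    filter_upwards [h1] with x hx hx2
    rw [hg]
    simp only
    rw [Finset.mul_sum]
    apply Finset.sum_le_sum
    intro l _
    have h2 := hx l ⟨hx2.1, hx2.2.1⟩ (hF.not_core hx2.2.2.1 hx2.2.2.2)
    rw [← ofReal_norm (D l x), ENNReal.ofReal_rpow_of_nonneg (norm_nonneg _) hp0,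
          ← ENNReal.ofReal_mul (by positivity), ← Real.mul_rpow hK1 (norm_nonneg _)]
    apply enorm_rpow_le hp0
    refine h2.trans (mul_le_mul_of_nonneg_right ?_ (norm_nonneg _))
    unfold K1
    apply mul_le_mul_of_nonneg_left _ (by positivity)
    nlinarith
  set GG' := ∫⁻ x in Ω ∩ φ ⁻¹' (SE (Q c)), g x ∂μ with hGG
  have s1 : Ω ∩ φ ⁻¹' (Pun Λ B ∩ SE (Q c)) ⊆
      (Ω ∩ φ ⁻¹' (Pun Λ B ∩ IE (C c))) ∪
      (Ω ∩ φ ⁻¹' (Pun Λ B ∩ (SE (Q c) \ IE (C c)))) := by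
    intro x h1
    rcases hF.brick_split c h1 with h2 | h2
    · exact Or.inl h2
    · exact Or.inr h2
  have s2 : Ω ∩ φ ⁻¹' (IE (Q c)) ⊆ Ω ∩ φ ⁻¹' (SE (Q c)) :=
    fun x hx => ⟨hx.1, IE_subset_SE _ hx.2⟩
  have s3 : Ω ∩ φ ⁻¹' (Pun Λ B ∩ (SE (Q c) \ IE (C c))) ⊆ Ω ∩ φ ⁻¹' (SE (Q c)) :=
    fun x hx => ⟨hx.1, hx.2.2.1⟩
  calc _ ≤ ∫⁻ x in (Ω ∩ φ ⁻¹' (Pun Λ B ∩ IE (C c))) ∪
        (Ω ∩ φ ⁻¹' (Pun Λ B ∩ (SE (Q c) \ IE (C c)))), ∑ l, ‖D' l x‖ₑ ^ p ∂μ :=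
        lintegral_mono_set s1
    _ ≤ _ := lintegral_union_le _ _ _
    _ ≤ (ENNReal.ofReal ((18 * Fintype.card ι * (a * Fintype.card ι)) ^ p) * Kc ι p) * GG' +
        ENNReal.ofReal (K1 ι c₁ a M ^ p) * GG' := by
        refine add_le_add (part1.trans ?_) (part2.trans ?_)
        · exact mul_le_mul' le_rfl (lintegral_mono_set s2)
        · exact mul_le_mul' le_rfl (lintegral_mono_set s3)
    _ = K2 ι c₁ a M p * GG' := by unfold K2; ring

end Crest.Agent.R96.EaP_899
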