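import Crest.Agent.R96.Eac4_348
import Crest.Agent.R096.Mfa2_880
import Crest.Agent.R096.Zlt2_798

/-!
# R96, EA p < 3 (helper348), part 5: the zone patch of 880's record `mfMD`
-/

set_option autoImplicit false
set_option linter.style.longLine false
set_option linter.unusedSectionVars false

open Set Metric Filter Topology MeasureTheory
open scoped ENNReal

namespace Crest.Agent.R96.Zpatch_348

open Crest.Agent.R096.Msh_715 Crest.Agent.R096.Msh_810 Crest.Agent.R096.Cut_874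
  Crest.Agent.R096.Mal_874
open Crest.Agent.R096.SkC1_961 (E3 Cfg)
open Crest.Agent.R096.Tms_582 (idE Zones LocF LatRepl)
open Crest.Agent.R096.Zlt_798
open Crest.Agent.R096.Mfa_880
open Crest.Agent.R096.Cnt_324 (HS Hfam countable_Hfam)
open Crest.Agent.R96.Pm_199

noncomputable section

/-- the lattice vector between `a` and its representative -/
theorem wz_lat' (a : E3) (k : ℕ) : ∃ z : Fin 3 → ℤ, wz a k = a + lv k z := by
  refine ⟨fun i => -⌊2 ^ k * a i⌋, ?_⟩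
  funext i
  show a i - ⌊2 ^ k * a i⌋ / 2 ^ k = a i + (2 : ℝ)⁻¹ ^ k * ((-⌊2 ^ k * a i⌋ : ℤ) : ℝ)
  rw [inv_pow]
  push_cast
  ring

section fam

variable {F : Type} {X : Set F} (M : MD E3 3 X) {k : X → ℕ} (hk : M.Sc k) [Countable X]
  (hOm : (M.φ ⁻¹' M.D0.Om).Nonempty) (A : Set E3) (Am : MeasurableSet A)
  (A0 : volume A ≠ 0) (A1 : volume A ≠ ∞) (W : X → Set E3) (Wc : ∀ j, (W j).Countable)
  (deco : E3 → (X → E3) → Deco F) {a : E3} {w : X → E3}
  (h : (famMD M hk hOm A Am A0 A1 W Wc deco).Ok a w)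

theorem fam_V {c : F} (hc : c ∈ X) :
    ((famMD M hk hOm A Am A0 A1 W Wc deco).md a w h).V c =
      {((famMD M hk hOm A Am A0 A1 W Wc deco).md a w h).ct c} :=
  Deco.mkX_V (D := deco a w) (X := X)
    (T := M.mesh hk (M.φ a) (adm_of M fun j => (h.2 j).2))
    (i0 := (tile_ne M hk hOm (M.φ a) (adm_of M fun j => (h.2 j).2)).some)
    (ct := fun c => Sum.inr ⟨c, M.core hk (M.φ a) (adm_of M fun j => (h.2 j).2) c⟩) hc

theorem fam_V' {c : F} (hc : c ∉ X) :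
    ((famMD M hk hOm A Am A0 A1 W Wc deco).md a w h).V c = ∅ :=
  Deco.mkX_V' (D := deco a w) (X := X)
    (T := M.mesh hk (M.φ a) (adm_of M fun j => (h.2 j).2))
    (i0 := (tile_ne M hk hOm (M.φ a) (adm_of M fun j => (h.2 j).2)).some)
    (ct := fun c => Sum.inr ⟨c, M.core hk (M.φ a) (adm_of M fun j => (h.2 j).2) c⟩) hc

theorem fam_ct {c : F} (hc : c ∈ X) :
    ((famMD M hk hOm A Am A0 A1 W Wc deco).md a w h).ct c =
      Sum.inr ⟨⟨c, hc⟩, M.core hk (M.φ a) (adm_of M fun j => (h.2 j).2) ⟨c, hc⟩⟩ :=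
  Deco.mkX_ct (D := deco a w) (X := X)
    (T := M.mesh hk (M.φ a) (adm_of M fun j => (h.2 j).2))
    (i0 := (tile_ne M hk hOm (M.φ a) (adm_of M fun j => (h.2 j).2)).some)
    (ct := fun c => Sum.inr ⟨c, M.core hk (M.φ a) (adm_of M fun j => (h.2 j).2) c⟩) hc

/-- the core tiles are the translated cores -/
theorem fam_core {c : F} (hc : c ∈ X) :
    P (((famMD M hk hOm A Am A0 A1 W Wc deco).md a w h).T.H
      (((famMD M hk hOm A Am A0 A1 W Wc deco).md a w h).ct c)) =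
      (M.Bk (fun j => a + w j) ⟨c, hc⟩).Kc := by
  rw [fam_ct M hk hOm A Am A0 A1 W Wc deco h hc]
  exact M.P_core hk (M.φ a) (adm_of M fun j => (h.2 j).2) ⟨c, hc⟩

end fam

theorem Kc_sub_N (Q : CB E3 3) : Q.Kc ⊆ Q.N := by
  intro y hy
  rw [CB.mem_N]
  intro l
  have h1 : ps Q.a' Q.kc (Q.ψ y) ∈ Q.S.B0 := hy
  have h2 := h1 l
  have h3 := Q.w_real
  have h4 : (0 : ℝ) < Q.S.t := by exact_mod_cast Q.S.t0
  constructor <;> linarith [h2.1, h2.2]

variable {F : Type} {X : Set F} {M : MD E3 3 X} {x : {c // c ∉ X} → E3} {R : {c // c ∉ X} → ℝ}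

/-- **the zone patch of `mfMD`** -/
def zinMD (Z : ZBall M x R) {kz : {c // c ∉ X} → ℕ} {m : {c // c ∉ X} → ℝ}
    (hm : Room M (fun c => closedBall (x c) (2 * R c)) m) (hz : Fin1 M m kz)
    (hs : ∀ c, (2 : ℝ)⁻¹ ^ kz c ≤ R c / 16) {k : X → ℕ} (hk : (zn Z.zn kz).Sc k)
    [Countable X] (cF : Countable {c // c ∉ X})
    (hOm : ((zn Z.zn kz).φ ⁻¹' (zn Z.zn kz).D0.Om).Nonempty) (A : Set E3)
    (Am : MeasurableSet A) (A0 : volume A ≠ 0) (A1 : volume A ≠ ∞) (W : X → Set E3)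
    (Wc : ∀ j, (W j).Countable) (deco : E3 → (X → E3) → Deco F) (QO : PT X) (QI : X → PT X)
    (hO : ∀ (a : E3) (w : X → E3) (hv : (zn Z.zn kz).Adm fun j => a + w j), a ∈ A →
      (∀ j, w j ∈ W j) → ∀ p : (zn Z.zn kz).OIx hk ((zn Z.zn kz).φ a) hv,
        QO.Cov a w ((zn Z.zn kz).mesh hk ((zn Z.zn kz).φ a) hv) (Sum.inl p))
    (hI : ∀ (a : E3) (w : X → E3) (hv : (zn Z.zn kz).Adm fun j => a + w j), a ∈ A →
      (∀ j, w j ∈ W j) → ∀ (j : X) (i : (zn Z.zn kz).IIx hk ((zn Z.zn kz).φ a) hv j),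
        i ≠ (zn Z.zn kz).core hk ((zn Z.zn kz).φ a) hv j →
        (QO.sum (PT.sigma QI)).Cov a w ((zn Z.zn kz).mesh hk ((zn Z.zn kz).φ a) hv) (Sum.inr ⟨j, i⟩))
    {Zc : {c // c ∉ X} → Finset (Fin 3 → ℤ)} {κ : {c // c ∉ X} → Type}
    {H : ∀ c, κ c → Finset ((E3 →L[ℝ] ℝ) × ℝ)} (LF : LocF x R kz Zc H)
    (J0 J : ∀ c, Set (κ c)) (θ : {c // c ∉ X} → E3 → E3) (φ : {c // c ∉ X} → E3 → ℝ) :
    ZIn (mfMD (zn Z.zn kz) hk hOm A Am A0 A1 W Wc deco QO QI hO hI) X where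
  Hf := Hfam (zn Z.zn kz) (⋃ j, W j)
  Hf_c := countable_Hfam (zn Z.zn kz) (countable_iUnion Wc)
  hs a w h := hs_famMD (zn Z.zn kz) hk (adm_of (zn Z.zn kz) fun j => (h.2 j).2)
    (fun j => (h.2 j).1)
  hX a w h c hc := fam_V (zn Z.zn kz) hk hOm A Am A0 A1 W Wc deco h hc
  hX' a w h c hc := fam_V' (zn Z.zn kz) hk hOm A Am A0 A1 W Wc deco h hc
  cF := cF
  x := x
  R := R
  k := kz
  wz c a := wz a (kz c)
  wz_lat c a := wz_lat' a (kz c)
  Z a w h := by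
    have h1 := zones_of Z hm hz hs hk a (v := fun j => a + w j)
      (adm_of (zn Z.zn kz) fun j => (h.2 j).2)
    have h2 : (zn Z.zn kz).φ a = a := by
      show M.φ a = a
      rw [Z.id]
      rfl
    show Zones ((zn Z.zn kz).mesh hk ((zn Z.zn kz).φ a) _) x R kz _
    rw [h2]
    exact h1
  core_off a w h c hc c' := by
    have hv : (zn Z.zn kz).Adm fun j => a + w j := adm_of (zn Z.zn kz) fun j => (h.2 j).2
    have h0 := fam_core (zn Z.zn kz) hk hOm A Am A0 A1 W Wc deco h hc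
    show Disjoint (P (((famMD (zn Z.zn kz) hk hOm A Am A0 A1 W Wc deco).md a w h).T.H
      (((famMD (zn Z.zn kz) hk hOm A Am A0 A1 W Wc deco).md a w h).ct c))) _
    rw [h0, Set.disjoint_left]
    intro y hy hyb
    have h1 : M.φ y ∈ M.V ⟨c, hc⟩ := MD.N_mem (M := M) hv ⟨c, hc⟩ (by
      exact Kc_sub_N _ hy)
    have h2 : M.φ y = y := by
      rw [Z.id]
      rfl
    rw [h2] at h1
    have h3 : y ∈ closedBall (x c') (2 * R c') :=
      closedBall_subset_closedBall (by have := Z.R0 c'; linarith) hyb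
    exact Set.disjoint_left.1 (Z.disV c' ⟨c, hc⟩) h3 h1
  Zc := Zc
  κ := κ
  H := H
  F := LF
  J0 := J0
  J := J
  θ := θ
  φ := φ

end

end Crest.Agent.R96.Zpatch_348
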