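import Crest.Agent.R096.Fns1_360
import Crest.Agent.R096.Tms1_582
import Crest.Agent.R096.Bxs10_627

/-!
# R96, EA-C (helper466; 348 #10593): `Cores` and `Fine` for a mesh with exact cores (bricks in `X`) and
tiny cores (bricks off `X`)

* `interior_P`, `tile_disj` : the interior of a tile is its open polytope, other tiles miss it;
* `brick_disj` : different bricks have disjoint open boxes;
* **`cores_mix`** : `Mbf_337.Cores` from `Exact` on `X` and `Tiny` off `X` (no disjointness needed);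
* `Bad` : the open sets where nothing is asked (open core / open ball round the tiny core);
* `exact_hole`, `cori_hole`, `bad_hole` : they contain the preimages of the holes;
* **`exists_rho_mix`** : the size function off the bad sets, chosen before the mesh;
* **`fine_mix`**, **`cores_fine_mix`** : `Mbf_337.Fine`.
-/

set_option autoImplicit false
set_option linter.style.longLine false
set_option linter.unusedSectionVars false

open MeasureTheory Set Filter Topology Metric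

namespace Crest.Agent.R96.Eam_466

open Crest.Agent.R096.Bsp_628 Crest.Agent.R096.Brk1_582 Crest.Agent.R096.Brk3_582
open Crest.Agent.R096.Brk5_582
open Crest.Agent.R096.Msh_715
open Crest.Agent.R96.Push_899
open Crest.Agent.R096.SkC1_961 (E3 Hom3 IsPush FoamD)
open Crest.Agent.R096.Mbf_337
open Crest.Agent.R096.Fns_360

noncomputable section

/-! ### polytopes -/

section poly

variable {E : Type*} [NormedAddCommGroup E] [NormedSpace ℝ E]

theorem interior_P {H : Finset ((E →L[ℝ] ℝ) × ℝ)} (hne : (I H).Nonempty) : interior (P H) = I H := by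
  apply Subset.antisymm
  · intro x hx h hh
    obtain ⟨z, hz⟩ := hne
    have hxP : x ∈ P H := interior_subset hx
    have hc : Tendsto (fun s : ℝ => x + s • (x - z)) (𝓝 0) (𝓝 (x + (0 : ℝ) • (x - z))) := by
      apply Continuous.tendsto
      fun_prop
    rw [zero_smul, add_zero] at hc
    have h1 : ∀ᶠ s in 𝓝[>] (0 : ℝ), x + s • (x - z) ∈ interior (P H) :=
      (hc.eventually (isOpen_interior.mem_nhds hx)).filter_mono nhdsWithin_le_nhds
    obtain ⟨s, hs, hs0⟩ := (h1.and self_mem_nhdsWithin).exists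
    have h2 := interior_subset hs h hh
    have h3 := hz h hh
    have h4 := hxP h hh
    have hs0' : (0 : ℝ) < s := hs0
    simp only [map_add, map_smul, map_sub, smul_eq_mul] at h2
    by_contra h5
    have h6 : h.1 x = h.2 := le_antisymm h4 (not_lt.1 h5)
    nlinarith
  · exact interior_maximal (I_sub_P H) (isOpen_I H)

/-- a tile misses the interior of every other tile -/
theorem tile_disj {Om : Set E} {ι : Type*} (T : Tiling Om ι) {i j : ι} (hij : i ≠ j) :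
    Disjoint (P (T.H i)) (interior (P (T.H j))) := by
  rw [interior_P (T.ne j)]
  exact disjoint_P_I (T.ne i) (T.dis i j hij)

end poly

variable {δ κ0 R c0 : ℝ} {La Om : Set E3} {ι : Type}

/-- different bricks have disjoint open boxes -/
theorem brick_disj (Φ : FoamD δ κ0 R c0 La) {c c' : Φ.F} (hne : c ≠ c') {y : E3}
    (h : ∀ k, c.1.lo k < y k ∧ y k < c.1.hi k) (h' : ∀ k, c'.1.lo k < y k ∧ y k < c'.1.hi k) :
    False := by
  obtain ⟨k, hk⟩ := Φ.bf.inv.disj c.2 c'.2 (Φ.bf.pos _ c.2) (Φ.bf.pos _ c'.2)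
    (fun e => hne (Subtype.ext e))
  have h1 := h k
  have h2 := h' k
  rcases hk with hk | hk <;> linarith [h1.1, h1.2, h2.1, h2.2]

/-! ### the cores -/

section cores

variable {Φ : FoamD δ κ0 R c0 La} {T : Tiling Om ι} {f : E3 → E3} {κ1 κ2 : ℝ} {X : Set Φ.F}
  {J0 J V : Φ.F → Set ι} {ct : Φ.F → ι} {A : Φ.F → E3 ≃ᵃ[ℝ] E3} {lam : Φ.F → ℝ} {z : Φ.F → E3}
  {θ : Φ.F → E3 → E3} {φ : Φ.F → E3 → ℝ}

/-- the tiles of `V c` are mapped into the open brick `c` -/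
theorem inside_V (one : ∀ c ∈ X, J0 c = {ct c} ∧ J c = {ct c} ∧ V c = {ct c})
    (hex : ∀ c ∈ X, Exact Φ T f κ1 κ2 c (ct c) (A c) (lam c) (z c))
    (htl : ∀ c ∉ X, Tiny Φ T f κ1 c (J0 c) (J c) (V c) (θ c) (φ c)) (c : Φ.F) {i : ι}
    (hi : i ∈ V c) {x : E3} (hx : x ∈ P (T.H i)) (k : Fin 3) :
    c.1.lo k < f x k ∧ f x k < c.1.hi k := by
  by_cases hc : c ∈ X
  · rw [(one c hc).2.2, mem_singleton_iff] at hi
    rw [hi] at hx
    exact (hex c hc).inside x hx k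
  · exact (htl c hc).inside x (mem_biUnion hi hx) k

/-- **CORES-MIX** -/
theorem cores_mix (one : ∀ c ∈ X, J0 c = {ct c} ∧ J c = {ct c} ∧ V c = {ct c})
    (hex : ∀ c ∈ X, Exact Φ T f κ1 κ2 c (ct c) (A c) (lam c) (z c))
    (htl : ∀ c ∉ X, Tiny Φ T f κ1 c (J0 c) (J c) (V c) (θ c) (φ c)) :
    Cores Φ T f κ1 κ2 X J0 J V ct A lam z θ φ where
  disj c c' hcc := by
    rw [Set.disjoint_left]
    intro i hi hi'
    obtain ⟨x, hx⟩ := T.ne i
    have hxP := I_sub_P _ hx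
    exact brick_disj Φ hcc (inside_V one hex htl c hi hxP) (inside_V one hex htl c' hi' hxP)
  one := one
  exact_ := hex
  tiny := htl

end cores

/-! ### the bad sets -/

open Classical in
/-- the open sets where `Fine` asks nothing: the open core tile (`c ∈ X`), the ball round the
preimage of the hole (`c ∉ X`) -/
def Bad {κ : Type*} (X : Set κ) (K : κ → Set E3) (x₀ : κ → E3) (r : κ → ℝ) (c : κ) : Set E3 :=
  if c ∈ X then interior (K c) else ball (x₀ c) (r c)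

theorem isOpen_Bad {κ : Type*} (X : Set κ) (K : κ → Set E3) (x₀ : κ → E3) (r : κ → ℝ) (c : κ) :
    IsOpen (Bad X K x₀ r c) := by
  unfold Bad
  split_ifs
  · exact isOpen_interior
  · exact isOpen_ball

theorem Bad_mem {κ : Type*} {X : Set κ} (K : κ → Set E3) (x₀ : κ → E3) (r : κ → ℝ) {c : κ}
    (hc : c ∈ X) : Bad X K x₀ r c = interior (K c) := if_pos hc

theorem Bad_not {κ : Type*} {X : Set κ} (K : κ → Set E3) (x₀ : κ → E3) (r : κ → ℝ) {c : κ}
    (hc : c ∉ X) : Bad X K x₀ r c = ball (x₀ c) (r c) := if_neg hc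

/-- the interior of an affine box -/
theorem mem_interior_box (A : E3 ≃ᵃ[ℝ] E3) {a b : E3} {x : E3} (h : ∀ k, a k < A x k ∧ A x k < b k) :
    x ∈ interior (A ⁻¹' {y : E3 | ∀ k, a k ≤ y k ∧ y k ≤ b k}) := by
  have hA : Continuous A := A.toAffineMap.continuous_of_finiteDimensional
  have hO : IsOpen {x : E3 | ∀ k, a k < A x k ∧ A x k < b k} := by
    have e : {x : E3 | ∀ k, a k < A x k ∧ A x k < b k} =
        ⋂ k, ({x : E3 | a k < A x k} ∩ {x : E3 | A x k < b k}) := by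
      ext x
      simp [Set.mem_iInter]
    rw [e]
    refine isOpen_iInter_of_finite fun k => ?_
    exact (isOpen_lt continuous_const ((continuous_apply k).comp hA)).inter
      (isOpen_lt ((continuous_apply k).comp hA) continuous_const)
  exact interior_maximal (fun y hy k => ⟨(hy k).1.le, (hy k).2.le⟩) hO h

/-- the preimage of the hole of an exact core is in the open core tile -/
theorem exact_hole {Φ : FoamD δ κ0 R c0 La} {T : Tiling Om ι} {f : E3 → E3} {κ1 κ2 : ℝ} {c : Φ.F}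
    {i : ι} {A : E3 ≃ᵃ[ℝ] E3} {lam : ℝ} {z : E3} (h : Exact Φ T f κ1 κ2 c i A lam z)
    (hκ1 : 0 ≤ κ1) (hκ : κ1 * κ0 < κ2) (hκ2 : 0 ≤ κ2) {x : E3} (hx : x ∈ Om)
    (hfx : f x ∈ (Φ.B c).S) : x ∈ interior (P (T.H i)) := by
  by_contra hni
  have hxt : x ∈ P (T.H i) := by
    by_contra hxt
    exact h.miss x hx hxt hfx
  have hbox := hxt
  rw [h.tile, mem_preimage, mem_ofPred_eq] at hbox
  have hpos := Φ.bf.pos _ c.2
  have hside : ∀ k, 0 < lam * c.1.side k := fun k => mul_pos h.lam0 (Bx.side_pos hpos k)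
  have hcol := (h.nbd x (fun k => by
    have h1 := hbox k
    have h2 := mul_nonneg hκ2 (hside k).le
    constructor <;> linarith)).2 hni
  have hk : ∀ k, |f x k - A x k| < κ2 * (lam * c.1.side k) := by
    intro k
    have h1 : |f x k - A x k| ≤ κ1 * (lam * c.1.sz) := (norm_le_pi_norm (f x - A x) k).trans hcol
    have h2 := Φ.bf.asp _ c.2 k
    calc |f x k - A x k| ≤ κ1 * (lam * c.1.sz) := h1
      _ ≤ κ1 * (lam * (κ0 * c.1.side k)) := by
        refine mul_le_mul_of_nonneg_left (mul_le_mul_of_nonneg_left h2 h.lam0.le) hκ1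
      _ = κ1 * κ0 * (lam * c.1.side k) := by ring
      _ < κ2 * (lam * c.1.side k) := mul_lt_mul_of_pos_right hκ (hside k)
  refine hni ?_
  rw [h.tile]
  refine mem_interior_box A fun k => ?_
  have h1 := hfx k
  have h2 := h.hole k
  have h3 := abs_lt.1 (hk k)
  constructor <;> linarith [h1.1, h1.2, h2.1, h2.2, h3.1, h3.2]

open Crest.Agent.R096.Bxs_627 (CoriE cb ctr mem_cb) in
/-- the same before the mesh, from the core statement -/
theorem cori_hole {f : E3 → E3} {A : E3 ≃ᵃ[ℝ] E3} {Q : Bx (Fin 3)} (hQ : Q.Pos) {lam κ1 κ2 : ℝ}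
    (hl : 0 < lam) (hκ1 : 0 ≤ κ1) (asp : ∀ k, Q.sz ≤ κ0 * Q.side k) (hκ : κ1 * κ0 < 1 / 4)
    (h : CoriE Om f A Q lam κ1 κ2) {x : E3} (hx : x ∈ Om)
    (hfx : f x ∈ (cb Q hQ (lam / 2) (half_pos hl).le).S) :
    x ∈ interior (A ⁻¹' Crest.Agent.R096.EaX_766.cbx Q lam) := by
  rw [mem_cb] at hfx
  have hside : ∀ k, 0 < lam * Q.side k := fun k => mul_pos hl (Bx.side_pos hQ k)
  have h1 := (h x (Or.inl ⟨hx, fun k => (hfx k).trans (by have := hside k; linarith)⟩)).2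
  have hk : ∀ k, |f x k - A x k| < 1 / 4 * (lam * Q.side k) := by
    intro k
    calc |f x k - A x k| ≤ κ1 * (lam * Q.sz) := (norm_le_pi_norm (f x - A x) k).trans h1
      _ ≤ κ1 * (lam * (κ0 * Q.side k)) :=
        mul_le_mul_of_nonneg_left (mul_le_mul_of_nonneg_left (asp k) hl.le) hκ1
      _ = κ1 * κ0 * (lam * Q.side k) := by ring
      _ < 1 / 4 * (lam * Q.side k) := mul_lt_mul_of_pos_right hκ (hside k)
  have e : Crest.Agent.R096.EaX_766.cbx Q lam =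
      {y : E3 | ∀ k, (fun k => ctr Q k - lam * Q.side k / 2) k ≤ y k ∧
        y k ≤ (fun k => ctr Q k + lam * Q.side k / 2) k} := by
    ext y
    refine forall_congr' fun k => ?_
    rw [abs_le]
    constructor <;> rintro ⟨h2, h3⟩ <;> constructor <;> linarith
  rw [e]
  refine mem_interior_box A fun k => ?_
  have h2 := abs_le.1 (hfx k)
  have h3 := abs_lt.1 (hk k)
  constructor
  · show ctr Q k - lam * Q.side k / 2 < A x k
    linarith [h2.1, h3.2, hside k]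
  · show A x k < ctr Q k + lam * Q.side k / 2
    linarith [h2.2, h3.1, hside k]

/-- the bad sets contain the preimages of the holes -/
theorem bad_hole (Φ : FoamD δ κ0 R c0 La) {f : E3 → E3} (hf : Hom3 f Om La) {X : Set Φ.F}
    {K : Φ.F → Set E3} {x₀ : Φ.F → E3} {r : Φ.F → ℝ}
    (hexh : ∀ c ∈ X, ∀ x ∈ Om, f x ∈ (Φ.B c).S → x ∈ interior (K c))
    (htl : ∀ c ∉ X, (Φ.B c).lo = (Φ.B c).hi ∧ x₀ c ∈ Om ∧ f (x₀ c) = (Φ.B c).lo ∧ 0 < r c)
    (c : Φ.F) (x : E3) (hx : x ∈ Om) (hfx : f x ∈ (Φ.B c).S) : x ∈ Bad X K x₀ r c := by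
  by_cases hc : c ∈ X
  · rw [Bad_mem K x₀ r hc]
    exact hexh c hc x hx hfx
  · rw [Bad_not K x₀ r hc]
    obtain ⟨h1, h2, h3, h4⟩ := htl c hc
    obtain ⟨fi, -, -, hfi, -⟩ := hf
    have h5 : f x = f (x₀ c) := by
      rw [h3]
      funext k
      have h6 := hfx k
      rw [← h1] at h6
      exact le_antisymm h6.2 h6.1
    have h6 : x = x₀ c := by rw [← hfi x hx, ← hfi (x₀ c) h2, h5]
    rw [h6]
    exact mem_ball_self h4

/-- **the size function, before the mesh**: off the bad sets everything of size `ρ` is fine -/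
theorem exists_rho_mix (Φ : FoamD δ κ0 R c0 La) (hOm : IsOpen Om) (hLa : IsOpen La) (hδ : 0 < δ)
    (hR : 0 < R) {f : E3 → E3} (hf : Hom3 f Om La) {G : Φ.F → Set E3} (hG : ∀ c, IsOpen (G c))
    (hGh : ∀ c, ∀ x ∈ Om, f x ∈ (Φ.B c).S → x ∈ G c) {ε : ℝ} (hε : 0 < ε) :
    ∃ ρ : E3 → ℝ, (∀ x y, ρ x ≤ ρ y + dist x y) ∧ (∀ x, 0 ≤ ρ x) ∧ (∀ x, ρ x ≤ 1) ∧
      (∀ x, 0 < ρ x ↔ x ∈ Om) ∧ ∀ x ∈ Om, closedBall x (ρ x) ⊆ Om ∧
        FineS Φ f ε (closedBall x (ρ x) \ ⋃ c, G c) := by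
  obtain ⟨fi, hm, -, -, -, hc, -⟩ := hf
  obtain ⟨ρ, h1, h2, h3, h4, h5⟩ := exists_fine_rho Φ hOm hLa hδ hR hm hc (X := (⋃ c, G c)ᶜ)
    (fun x _ hx => by
      rw [mem_compl_iff, not_not] at hx
      filter_upwards [(isOpen_iUnion hG).mem_nhds hx] with y hy hy'
      exact hy' hy)
    (fun x hx hx' c hc => hx' (mem_iUnion.2 ⟨c, hGh c x hx hc⟩)) hε
  refine ⟨ρ, h1, h2, h3, h4, fun x hx => ⟨(h5 x hx).1, (h5 x hx).2.mono ?_⟩⟩
  exact fun y hy => ⟨hy.1, (h5 x hx).1 hy.1, hy.2⟩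

/-! ### fineness -/

section fine

variable {Φ : FoamD δ κ0 R c0 La} {T : Tiling Om ι} {f : E3 → E3} {κ1 κ2 : ℝ} {X : Set Φ.F}
  {J0 J V : Φ.F → Set ι} {ct : Φ.F → ι} {A : Φ.F → E3 ≃ᵃ[ℝ] E3} {lam : Φ.F → ℝ} {z : Φ.F → E3}
  {θ : Φ.F → E3 → E3} {φ : Φ.F → E3 → ℝ}

/-- the two clauses of `Fine` on one tile -/
def FineT (Φ : FoamD δ κ0 R c0 La) (T : Tiling Om ι) (f : E3 → E3) (κ1 : ℝ) (i : ι) : Prop :=
  ∀ x ∈ P (T.H i), ∀ y ∈ P (T.H i), ∀ c' : Φ.F,
    (Φ.Psi (f x) ∈ c'.1.set → ‖Φ.Psi (f y) - Φ.Psi (f x)‖ ≤ κ1 * c'.1.sz) ∧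
      |Φ.lev c' (f y) - Φ.lev c' (f x)| ≤ κ1

theorem FineT.of_S {i : ι} {S : Set E3} (h : FineS Φ f κ1 S) (hS : P (T.H i) ⊆ S) :
    FineT Φ T f κ1 i := fun x hx y hy c' =>
  ⟨h.psi x (hS hx) y (hS hy) c', h.lev x (hS hx) y (hS hy) c'⟩

/-- `Fine` tile by tile -/
theorem fine_of_tiles (h : ∀ i, (∀ c, i ∉ J0 c) → FineT Φ T f κ1 i) : Fine Φ T f κ1 J0 where
  psi i hi x hx y hy c := (h i hi x hx y hy c).1
  lev i hi x hx y hy c := (h i hi x hx y hy c).2

/-- **FINE-MIX** with abstract bad sets -/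
theorem fine_mix {G : Φ.F → Set E3} {ρ : E3 → ℝ}
    (hρ : ∀ x ∈ Om, FineS Φ f κ1 (closedBall x (ρ x) \ ⋃ c, G c))
    (hin : ∀ c, ∀ i ∈ V c, i ∉ J0 c → FineT Φ T f κ1 i)
    (hmiss : ∀ i, (∀ c, i ∉ V c) → ∀ c, Disjoint (P (T.H i)) (G c))
    (hsm : ∀ i, (∀ c, i ∉ V c) → ∃ x ∈ Om, P (T.H i) ⊆ closedBall x (ρ x)) :
    Fine Φ T f κ1 J0 := by
  refine fine_of_tiles fun i hi => ?_
  by_cases hV : ∃ c, i ∈ V c
  · obtain ⟨c, hc⟩ := hV
    exact hin c i hc (hi c)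
  · push Not at hV
    obtain ⟨x, hx, hxi⟩ := hsm i hV
    refine FineT.of_S (hρ x hx) fun y hy => ⟨hxi hy, fun hy' => ?_⟩
    obtain ⟨c, hc⟩ := mem_iUnion.1 hy'
    exact Set.disjoint_left.1 (hmiss i hV c) hy hc

/-- **CORES-MIX + FINE-MIX**: `K c` = the core tile of `c ∈ X`, `ball (x₀ c) (r c)` = the ball round the
preimage of the hole of `c ∉ X`; every tile meeting it is in `V c`. -/
theorem cores_fine_mix (one : ∀ c ∈ X, J0 c = {ct c} ∧ J c = {ct c} ∧ V c = {ct c})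
    (hex : ∀ c ∈ X, Exact Φ T f κ1 κ2 c (ct c) (A c) (lam c) (z c))
    (htl : ∀ c ∉ X, Tiny Φ T f κ1 c (J0 c) (J c) (V c) (θ c) (φ c) ∧
      ∀ i ∈ V c, i ∉ J0 c → ∀ x ∈ P (T.H i), ∀ y ∈ P (T.H i), ∀ c' : Φ.F,
        (Φ.Psi (f x) ∈ c'.1.set → ‖Φ.Psi (f y) - Φ.Psi (f x)‖ ≤ κ1 * c'.1.sz) ∧
          |Φ.lev c' (f y) - Φ.lev c' (f x)| ≤ κ1)
    {K : Φ.F → Set E3} {x₀ : Φ.F → E3} {r : Φ.F → ℝ} {ρ : E3 → ℝ}
    (hK : ∀ c ∈ X, K c ⊆ P (T.H (ct c)))
    (hball : ∀ c ∉ X, ∀ i, (P (T.H i) ∩ closedBall (x₀ c) (r c)).Nonempty → i ∈ V c)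
    (hρ : ∀ x ∈ Om, FineS Φ f κ1 (closedBall x (ρ x) \ ⋃ c, Bad X K x₀ r c))
    (hsm : ∀ i, (∀ c, i ∉ V c) → ∃ x ∈ Om, P (T.H i) ⊆ closedBall x (ρ x)) :
    Cores Φ T f κ1 κ2 X J0 J V ct A lam z θ φ ∧ Fine Φ T f κ1 J0 := by
  refine ⟨cores_mix one hex fun c hc => (htl c hc).1, fine_mix hρ ?_ ?_ hsm⟩
  · intro c i hi hi'
    by_cases hc : c ∈ X
    · rw [(one c hc).1] at hi'
      rw [(one c hc).2.2] at hi
      exact absurd hi hi'
    · exact (htl c hc).2 i hi hi'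
  · intro i hi c
    by_cases hc : c ∈ X
    · rw [Bad_mem K x₀ r hc]
      have hne : i ≠ ct c := fun e => hi c (by rw [(one c hc).2.2, e]; rfl)
      exact (tile_disj T hne).mono_right (interior_mono (hK c hc))
    · rw [Bad_not K x₀ r hc, Set.disjoint_left]
      exact fun x hx hx' => hi c (hball c hc i ⟨x, hx, ball_subset_closedBall hx'⟩)

/-- a tile of diameter `≤ ρ` at one of its points -/
theorem small_of_diam {ρ : E3 → ℝ} {i : ι}
    (h : ∀ x ∈ P (T.H i), ∀ y ∈ P (T.H i), ‖y - x‖ ≤ ρ x) : ∃ x ∈ Om, P (T.H i) ⊆ closedBall x (ρ x) := by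
  obtain ⟨x, hx⟩ := T.ne i
  have hxP := I_sub_P _ hx
  exact ⟨x, T.sub i hxP, fun y hy => by rw [mem_closedBall, dist_eq_norm]; exact h x hxP y hy⟩

end fine

end

end Crest.Agent.R96.Eam_466
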