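import Crest.Agent.R96.Eam1_466
import Crest.Agent.R096.Eab1_747

/-!
# R96, EA-C, part 2 (helper466): `Cores` and `Fine` from `TinyLoc` (582) and the zones (747)

* `TLAt` : the data of one tiny core at the scale `k`; `tinyLoc_iff`; **`exists_tl`** : chosen for all
  `c ∉ X` at once, for every family of scales `k c ≥ k0 c`;
* `mx X g h` : `g` on `X`, `h` off `X`;
* **`mix_of_loc`** : `Mbf_337.Cores` and `Mbf_337.Fine` with `J0 = mx X {ct} (e '' J0)`,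
  `V = mx X {ct} VZ`;
* `V_off_iff`, `V_union` : the ordinary tiles, the union of the `V c`, `c ∉ X` (for 348's `Geo`).
-/

set_option autoImplicit false
set_option linter.style.longLine false
set_option linter.unusedSectionVars false

open MeasureTheory Set Filter Topology Metric

namespace Crest.Agent.R96.Eam_466

open Crest.Agent.R096.Bsp_628 Crest.Agent.R096.Brk1_582 Crest.Agent.R096.Brk3_582
open Crest.Agent.R096.Brk5_582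
open Crest.Agent.R096.Msh_715
open Crest.Agent.R096.Msh_810 (Cu)
open Crest.Agent.R96.Push_899
open Crest.Agent.R096.SkC1_961 (E3 Hom3 IsPush FoamD)
open Crest.Agent.R096.Mbf_337
open Crest.Agent.R096.Fns_360
open Crest.Agent.R096.Tms_582
open Crest.Agent.R096.Eab_747 (ZoneFam VZ)

noncomputable section

variable {δ κ0 Rc c0 : ℝ} {La Om : Set E3}

/-! ### the data of one tiny core -/

/-- the data of one tiny core at the scale `k` (the body of `TinyLoc`) -/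
def TLAt (Φ : FoamD δ κ0 Rc c0 La) (Om : Set E3) (f : E3 → E3) (κ1 : ℝ) (c : Φ.F) (x₀ : E3) (R : ℝ)
    (k : ℕ) (Zc : Finset (Fin 3 → ℤ)) {κ : Type} (H : κ → Finset ((E3 →L[ℝ] ℝ) × ℝ))
    (J0 J : Set κ) (θ : E3 → E3) (φ : E3 → ℝ) : Prop :=
  LatRepl k Zc H ∧ (∀ z ∈ Zc, Cu (0 : E3) k z ⊆ ball x₀ (R / 4)) ∧
    ∀ w : E3, (∀ i, 0 ≤ w i ∧ w i ≤ (2 : ℝ)⁻¹ ^ k) → ∀ (ι : Type) (T : Tiling Om ι) (e : κ → ι),
      InZone T x₀ R k w Zc H e → ∀ V : Set ι, range e ⊆ V →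
      (∀ i ∈ V, P (T.H i) ⊆ closedBall x₀ R) →
      (∀ i, (P (T.H i) ∩ closedBall x₀ (R / 2)).Nonempty → i ∈ V) →
      RegV T f V → (∃ i, x₀ ∈ I (T.H i)) →
      Tiny Φ T f κ1 c (e '' J0) (e '' J) V (fun x => θ (x - w)) (fun x => φ (x - w)) ∧
      ∀ i ∈ V, i ∉ e '' J0 → ∀ x ∈ P (T.H i), ∀ y ∈ P (T.H i), ∀ c' : Φ.F,
        (Φ.Psi (f x) ∈ c'.1.set → ‖Φ.Psi (f y) - Φ.Psi (f x)‖ ≤ κ1 * c'.1.sz) ∧
        |Φ.lev c' (f y) - Φ.lev c' (f x)| ≤ κ1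

theorem tinyLoc_iff {Φ : FoamD δ κ0 Rc c0 La} {f : E3 → E3} {κ1 : ℝ} {c : Φ.F} {x₀ : E3} {R : ℝ} :
    TinyLoc Φ Om f κ1 c x₀ R ↔ ∃ k0 : ℕ, ∀ k : ℕ, k0 ≤ k → ∃ (Zc : Finset (Fin 3 → ℤ)) (κ : Type)
      (H : κ → Finset ((E3 →L[ℝ] ℝ) × ℝ)) (J0 J : Set κ) (θ : E3 → E3) (φ : E3 → ℝ),
      TLAt Φ Om f κ1 c x₀ R k Zc H J0 J θ φ := Iff.rfl

/-- the data of all tiny cores at once -/
theorem exists_tl {Φ : FoamD δ κ0 Rc c0 La} {f : E3 → E3} {κ1 : ℝ} {X : Set Φ.F}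
    {x₀ : {c // c ∉ X} → E3} {R : {c // c ∉ X} → ℝ}
    (h : ∀ c : {c // c ∉ X}, TinyLoc Φ Om f κ1 c.1 (x₀ c) (R c)) :
    ∃ k0 : {c // c ∉ X} → ℕ, ∀ k : {c // c ∉ X} → ℕ, (∀ c, k0 c ≤ k c) →
      ∃ (Zc : {c // c ∉ X} → Finset (Fin 3 → ℤ)) (κ : {c // c ∉ X} → Type)
        (H : ∀ c, κ c → Finset ((E3 →L[ℝ] ℝ) × ℝ)) (J0 J : ∀ c, Set (κ c))
        (θ : {c // c ∉ X} → E3 → E3) (φ : {c // c ∉ X} → E3 → ℝ),
        ∀ c, TLAt Φ Om f κ1 c.1 (x₀ c) (R c) (k c) (Zc c) (H c) (J0 c) (J c) (θ c) (φ c) := by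
  choose k0 hk0 using fun c => tinyLoc_iff.1 (h c)
  refine ⟨k0, fun k hk => ?_⟩
  choose Zc κ H J0 J θ φ hT using fun c => hk0 c (k c) (hk c)
  exact ⟨Zc, κ, H, J0, J, θ, φ, hT⟩

/-! ### mixed families -/

section mx

variable {κ α : Type*}

open Classical in
/-- `g` on `X`, `h` off `X` -/
def mx (X : Set κ) (g : κ → α) (h : {c // c ∉ X} → α) (c : κ) : α :=
  if hc : c ∈ X then g c else h ⟨c, hc⟩

theorem mx_mem {X : Set κ} (g : κ → α) (h : {c // c ∉ X} → α) {c : κ} (hc : c ∈ X) :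
    mx X g h c = g c := dif_pos hc

theorem mx_not {X : Set κ} (g : κ → α) (h : {c // c ∉ X} → α) {c : κ} (hc : c ∉ X) :
    mx X g h c = h ⟨c, hc⟩ := dif_neg hc

end mx

/-- the union of the bad sets of the mixed family -/
theorem iUnion_Bad {κ : Type*} (X : Set κ) (K : κ → Set E3) (x₀ : {c // c ∉ X} → E3)
    (r : {c // c ∉ X} → ℝ) :
    ⋃ c, Bad X K (mx X (fun _ => 0) x₀) (mx X (fun _ => 0) r) c =
      (⋃ c ∈ X, interior (K c)) ∪ ⋃ c : {c // c ∉ X}, ball (x₀ c) (r c) := by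
  ext y
  simp only [mem_iUnion, mem_union]
  constructor
  · rintro ⟨c, hc⟩
    by_cases hX : c ∈ X
    · rw [Bad_mem _ _ _ hX] at hc
      exact Or.inl ⟨c, hX, hc⟩
    · rw [Bad_not _ _ _ hX, mx_not _ _ hX, mx_not _ _ hX] at hc
      exact Or.inr ⟨⟨c, hX⟩, hc⟩
  · rintro (⟨c, hX, hc⟩ | ⟨⟨c, hX⟩, hc⟩)
    · exact ⟨c, by rw [Bad_mem _ _ _ hX]; exact hc⟩
    · exact ⟨c, by rw [Bad_not _ _ _ hX, mx_not _ _ hX, mx_not _ _ hX]; exact hc⟩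

/-- **the size function of the mixed mesh, before the mesh**: `K c` = the core of `c ∈ X` (as a set),
`x₀ c`, `R c` the macro ball of the tiny core `c ∉ X`. -/
theorem exists_rho_mx (Φ : FoamD δ κ0 Rc c0 La) (hOm : IsOpen Om) (hLa : IsOpen La) (hδ : 0 < δ)
    (hR : 0 < Rc) {f : E3 → E3} (hf : Hom3 f Om La) {X : Set Φ.F} {K : Φ.F → Set E3}
    {x₀ : {c // c ∉ X} → E3} {R : {c // c ∉ X} → ℝ}
    (hexh : ∀ c ∈ X, ∀ x ∈ Om, f x ∈ (Φ.B c).S → x ∈ interior (K c))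
    (htl : ∀ c : {c // c ∉ X}, (Φ.B c.1).lo = (Φ.B c.1).hi ∧ x₀ c ∈ Om ∧
      f (x₀ c) = (Φ.B c.1).lo ∧ 0 < R c) {ε : ℝ} (hε : 0 < ε) :
    ∃ ρ : E3 → ℝ, (∀ x y, ρ x ≤ ρ y + dist x y) ∧ (∀ x, 0 ≤ ρ x) ∧ (∀ x, ρ x ≤ 1) ∧
      (∀ x, 0 < ρ x ↔ x ∈ Om) ∧ ∀ x ∈ Om, closedBall x (ρ x) ⊆ Om ∧
        FineS Φ f ε (closedBall x (ρ x) \ ((⋃ c ∈ X, interior (K c)) ∪
          ⋃ c : {c // c ∉ X}, ball (x₀ c) (R c / 2))) := by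
  have h := exists_rho_mix Φ hOm hLa hδ hR hf
    (G := Bad X K (mx X (fun _ => 0) x₀) (mx X (fun _ => 0) fun c => R c / 2))
    (isOpen_Bad X K _ _) (bad_hole Φ hf hexh fun c hc => by
      rw [mx_not _ _ hc, mx_not _ _ hc]
      obtain ⟨h1, h2, h3, h4⟩ := htl ⟨c, hc⟩
      exact ⟨h1, h2, h3, half_pos h4⟩) hε
  rwa [iUnion_Bad] at h

/-! ### the mixed mesh -/

section mesh

variable {ι : Type} {Φ : FoamD δ κ0 Rc c0 La} {T : Tiling Om ι} {f : E3 → E3} {κ1 κ2 : ℝ}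
  {X : Set Φ.F} {ct : Φ.F → ι}

/-- the ordinary tiles -/
theorem V_off_iff {κ : Type*} {X : Set κ} {ct : κ → ι} {VV : {c // c ∉ X} → Set ι} {i : ι} :
    (∀ c, i ∉ mx X (fun c => {ct c}) VV c) ↔ (∀ c ∈ X, i ≠ ct c) ∧ ∀ c : {c // c ∉ X}, i ∉ VV c := by
  constructor
  · intro h
    refine ⟨fun c hc e => h c ?_, fun c hi => h c.1 ?_⟩
    · rw [mx_mem _ _ hc, e]; rfl
    · rw [mx_not _ _ c.2]; exact hi
  · rintro ⟨h1, h2⟩ c hi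
    by_cases hc : c ∈ X
    · rw [mx_mem _ _ hc] at hi
      exact h1 c hc hi
    · rw [mx_not _ _ hc] at hi
      exact h2 _ hi

/-- the tiles without estimate -/
theorem V_union {κ : Type*} {X : Set κ} {g : κ → Set ι} {VV : {c // c ∉ X} → Set ι} :
    {i | ∃ c ∉ X, i ∈ mx X g VV c} = {i | ∃ c : {c // c ∉ X}, i ∈ VV c} := by
  ext i
  constructor
  · rintro ⟨c, hc, hi⟩
    rw [mx_not _ _ hc] at hi
    exact ⟨⟨c, hc⟩, hi⟩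
  · rintro ⟨⟨c, hc⟩, hi⟩
    exact ⟨c, hc, by rw [mx_not _ _ hc]; exact hi⟩

/-- **`Cores` and `Fine` of a mesh with exact cores on `X` and the zones of `TinyLoc` off `X`** -/
theorem mix_of_loc {A : Φ.F → E3 ≃ᵃ[ℝ] E3} {lam : Φ.F → ℝ} {z : Φ.F → E3}
    (hex : ∀ c ∈ X, Exact Φ T f κ1 κ2 c (ct c) (A c) (lam c) (z c))
    {x₀ : {c // c ∉ X} → E3} {R : {c // c ∉ X} → ℝ} {k : {c // c ∉ X} → ℕ} {w : {c // c ∉ X} → E3}
    {Zc : {c // c ∉ X} → Finset (Fin 3 → ℤ)} {κ : {c // c ∉ X} → Type}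
    {H : ∀ c, κ c → Finset ((E3 →L[ℝ] ℝ) × ℝ)} {e : ∀ c, κ c → ι} {Kt : Set ι}
    {J0 J : ∀ c, Set (κ c)} {θ : {c // c ∉ X} → E3 → E3} {φ : {c // c ∉ X} → E3 → ℝ}
    (htl : ∀ c, TLAt Φ Om f κ1 c.1 (x₀ c) (R c) (k c) (Zc c) (H c) (J0 c) (J c) (θ c) (φ c))
    (hz : ZoneFam T x₀ R k w Zc H e Kt) (hreg : ∀ c, RegV T f (VZ T x₀ R c))
    (hx₀ : ∀ c, ∃ i, x₀ c ∈ I (T.H i)) {K : Φ.F → Set E3} (hK : ∀ c ∈ X, K c ⊆ P (T.H (ct c)))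
    {ρ : E3 → ℝ} (hρ : ∀ x ∈ Om, FineS Φ f κ1 (closedBall x (ρ x) \ ((⋃ c ∈ X, interior (K c)) ∪
      ⋃ c : {c // c ∉ X}, ball (x₀ c) (R c / 2))))
    (hsm : ∀ i, (∀ c ∈ X, i ≠ ct c) → (∀ c, i ∉ VZ T x₀ R c) →
      ∃ x ∈ Om, P (T.H i) ⊆ closedBall x (ρ x)) :
    Cores Φ T f κ1 κ2 X (mx X (fun c => {ct c}) fun c => e c '' J0 c)
      (mx X (fun c => {ct c}) fun c => e c '' J c) (mx X (fun c => {ct c}) (VZ T x₀ R)) ct A lam z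
      (mx X (fun _ => id) fun c x => θ c (x - w c)) (mx X (fun _ _ => 0) fun c x => φ c (x - w c)) ∧
    Fine Φ T f κ1 (mx X (fun c => {ct c}) fun c => e c '' J0 c) := by
  refine cores_fine_mix (K := K) (x₀ := mx X (fun _ => 0) x₀)
    (r := mx X (fun _ => 0) fun c => R c / 2) (ρ := ρ) ?_ hex ?_ hK ?_ ?_ ?_
  · intro c hc
    exact ⟨mx_mem _ _ hc, mx_mem _ _ hc, mx_mem _ _ hc⟩
  · intro c hc
    rw [mx_not _ _ hc, mx_not _ _ hc, mx_not _ _ hc, mx_not _ _ hc, mx_not _ _ hc]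
    exact (htl ⟨c, hc⟩).2.2 (w ⟨c, hc⟩) (fun i => hz.w0 ⟨c, hc⟩ i) ι T (e ⟨c, hc⟩) (hz.zone ⟨c, hc⟩)
      (VZ T x₀ R ⟨c, hc⟩) (hz.e_mem ⟨c, hc⟩) (hz.V_sub ⟨c, hc⟩) (fun i hi => hi) (hreg ⟨c, hc⟩)
      (hx₀ ⟨c, hc⟩)
  · intro c hc i hi
    rw [mx_not _ _ hc, mx_not _ _ hc] at hi
    rw [mx_not _ _ hc]
    exact hi
  · intro x hx
    rw [iUnion_Bad]
    exact hρ x hx
  · intro i hi
    obtain ⟨h1, h2⟩ := V_off_iff.1 hi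
    exact hsm i h1 h2

end mesh

end

end Crest.Agent.R96.Eam_466
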