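/-
helper538, row 96, p ≤ 2: **THE ENERGY LIST** `elP : ElP p Els`, closed.
-/
import Mathlib
import Crest.Agent.R96.Cl1a_538
import Crest.Agent.R096.Rmt6_816
import Crest.Agent.R096.Elc2_812

set_option autoImplicit false

namespace Crest.Agent.R96.Eld_538

/-- **THE ENERGY LIST** (753's literal `ElP` over the concrete predicate `Els`) -/
theorem elP {p : ℝ} (hp : 1 ≤ p) (hp2 : p ≤ 2) : Crest.Agent.R096.Pas_753.ElP p Els :=
  Crest.Agent.R096.Elc_812.elP_of hp hp2 cls1 Crest.Agent.R096.Rmt_816.cls2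
    Crest.Agent.R096.Rmt_816.cls3

end Crest.Agent.R96.Eld_538
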