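/-
helper538, row 96, p ≤ 2, [ELIST] (753), part 5: the mass of the random measure `muO` in a cube
(the count `ncE` of `coarse_E` / `energies`); the generic count serves for edges and faces.
-/
import Mathlib
import Crest.Agent.R96.Rmo1_538
import Crest.Agent.R096.Rmt1_816

set_option autoImplicit false
set_option linter.unusedSectionVars false
set_option maxHeartbeats 400000

open MeasureTheory Set Filter Metric Module
open scoped ENNReal NNReal Topology

namespace Crest.Agent.R96.Els_538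

open Crest.AnalysisR.VecCalc3 (R3)
open Crest.Agent.R96.Intr_538 Crest.Agent.R96.Coarse_538
open Crest.Agent.R096.Msh_810 (Dat)
open Crest.Agent.R96.Wm_72 (Zr)
open Crest.Agent.R96.Rmo_538 (Zg meas_Zg mem_Zg hs hs_pos hs_mul muO)

noncomputable section

/-! ### the enlarged regions -/

/-- the enlarged region of the scale `κ` -/
def Zb (D : Dat 3) (κ : ℕ) : Set (Fin 3 → ℝ) :=
  {x | D.C - 1 ≤ 2 ^ κ * D.ρ x ∧ 2 ^ κ * D.ρ x < 4 * D.C + 7}

theorem meas_Zb (D : Dat 3) (s : ℕ) : MeasurableSet (Zb D s) := by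
  have hc : Measurable fun x => (2 : ℝ) ^ s * D.ρ x := D.continuous_ρ.measurable.const_mul _
  exact (measurableSet_le measurable_const hc).inter (measurableSet_lt hc measurable_const)

theorem encard_Zb (D : Dat 3) (hC : 6 ≤ D.C) (x : Fin 3 → ℝ) : {s | x ∈ Zb D s}.encard ≤ 3 := by
  by_cases hne : {s | x ∈ Zb D s}.Nonempty
  · set m := sInf {s | x ∈ Zb D s} with hm
    have hmm : x ∈ Zb D m := Nat.sInf_mem hne
    have hsub : {s | x ∈ Zb D s} ⊆ (Finset.Icc m (m + 2) : Finset ℕ) := by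
      intro s hs
      have h1 : m ≤ s := Nat.sInf_le hs
      rw [Finset.coe_Icc]
      refine ⟨h1, ?_⟩
      by_contra h2
      push Not at h2
      have h3 : (2 : ℝ) ^ (m + 3) ≤ 2 ^ s := pow_le_pow_right₀ one_le_two (by omega)
      have h4 : (2 : ℝ) ^ (m + 3) * D.ρ x ≤ 2 ^ s * D.ρ x :=
        mul_le_mul_of_nonneg_right h3 (D.nonneg x)
      have h5 : (2 : ℝ) ^ (m + 3) * D.ρ x = 8 * (2 ^ m * D.ρ x) := by rw [pow_add]; ring
      have h6 := hmm.1
      have h7 := hs.2
      linarith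
    refine (encard_le_encard hsub).trans ?_
    rw [encard_coe_eq_coe_finsetCard, Nat.card_Icc, show m + 2 + 1 - m = 3 by omega]
    rfl
  · rw [not_nonempty_iff_eq_empty.1 hne]; simp

/-- points near a region lie in the enlarged region -/
theorem Zb_of_near {φ : R3 ≃L[ℝ] (Fin 3 → ℝ)} (hφ : ∀ x l, φ x l = x l) {D : Dat 3} {κ : ℕ}
    {y0 y : R3} (h0 : y0 ∈ Zg φ D κ) (h : ∀ i, 2 ^ κ * |y i - y0 i| ≤ 1) : φ y ∈ Zb D κ := by
  obtain ⟨s, hs, h1, h2⟩ := mem_Zg.1 h0
  have hp : (0:ℝ) < 2 ^ κ := by positivity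
  have hC := D.C_pos
  have hd : 2 ^ κ * dist (φ y) (φ y0) ≤ 1 := by
    rw [← le_div_iff₀' hp, dist_pi_le_iff (by positivity)]
    intro i
    rw [Real.dist_eq, hφ, hφ, le_div_iff₀' hp]
    exact h i
  have h3 := D.lip (φ y) (φ y0)
  have h4 := D.lip (φ y0) (φ y)
  rw [dist_comm (φ y0)] at h4
  have h5 : 2 ^ κ * D.ρ (φ y) ≤ 2 ^ κ * D.ρ (φ y0) + 1 := by nlinarith
  have h6 : 2 ^ κ * D.ρ (φ y0) ≤ 2 ^ κ * D.ρ (φ y) + 1 := by nlinarith
  have h7 : D.C ≤ 2 ^ κ * D.ρ (φ y0) ∧ 2 ^ κ * D.ρ (φ y0) < 4 * D.C + 6 := by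
    rcases hs with rfl | rfl
    · exact ⟨h1, by linarith⟩
    · rw [pow_succ]
      constructor <;> nlinarith
  exact ⟨by linarith [h7.1], by linarith [h7.2]⟩

/-- overlap of measurable sets -/
theorem sum_overlap_le {Z : ℕ → Set R3} (hZ : ∀ j, MeasurableSet (Z j)) {K : ℕ}
    (hK : ∀ y, {j | y ∈ Z j}.encard ≤ K) (T : Set R3) :
    ∑' j, volume (Z j ∩ T) ≤ K * volume T := by
  have h1 : ∀ j, volume (Z j ∩ T) = ∫⁻ y, (Z j).indicator 1 y ∂(volume.restrict T) := by
    intro j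
    rw [lintegral_indicator_one (hZ j), Measure.restrict_apply (hZ j)]
  calc ∑' j, volume (Z j ∩ T) = ∑' j, ∫⁻ y, (Z j).indicator 1 y ∂(volume.restrict T) :=
        tsum_congr h1
    _ = ∫⁻ y, ∑' j, (Z j).indicator 1 y ∂(volume.restrict T) :=
        (lintegral_tsum fun j => (measurable_one.indicator (hZ j)).aemeasurable).symm
    _ ≤ ∫⁻ _, (K : ℝ≥0∞) ∂(volume.restrict T) := by
        refine lintegral_mono fun y => ?_
        have h8 : ∀ j, (Z j).indicator (1 : R3 → ℝ≥0∞) y =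
            {j | y ∈ Z j}.indicator (1 : ℕ → ℝ≥0∞) j := by
          intro j
          by_cases hj : y ∈ Z j
          · rw [indicator_of_mem hj, indicator_of_mem (show j ∈ {j | y ∈ Z j} from hj)]
            rfl
          · rw [indicator_of_notMem hj, indicator_of_notMem (show j ∉ {j | y ∈ Z j} from hj)]
        rw [tsum_congr h8, ← tsum_subtype, Pi.one_def, ENNReal.tsum_set_one]
        calc ({j | y ∈ Z j}.encard : ℝ≥0∞) ≤ ((K : ℕ∞) : ℝ≥0∞) := by
              gcongr
              exact hK y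
          _ = K := by simp
    _ = K * volume T := by rw [lintegral_const, Measure.restrict_apply_univ]

/-- the half open cube of the grid -/
def Cq (a : R3) (h : ℝ) (z : Fin 3 → ℤ) : Set R3 :=
  {y | ∀ i, a i + h * z i ≤ y i ∧ y i < a i + h * (z i + 1)}

theorem meas_Cq (a : R3) (h : ℝ) (z : Fin 3 → ℤ) : MeasurableSet (Cq a h z) := by
  have : Cq a h z = ⋂ i : Fin 3, {y : R3 | a i + h * z i ≤ y i ∧ y i < a i + h * (z i + 1)} := by
    ext y; simp [Cq]
  rw [this]
  refine MeasurableSet.iInter fun i => ?_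
  have hm : Measurable fun y : R3 => y i := by fun_prop
  exact (measurableSet_le measurable_const hm).inter (measurableSet_lt hm measurable_const)

theorem vol_Cq (a : R3) {h : ℝ} (hh : 0 < h) (z : Fin 3 → ℤ) :
    volume (Cq a h z) = ENNReal.ofReal (h ^ 3) := by
  have h1 : Cq a h z =
      {x : R3 | ∀ i, x i ∈ (fun i : Fin 3 => Ico (a i + h * z i) (a i + h * (z i + 1))) i} := by
    ext y; simp [Cq]
  rw [h1, vol_box fun _ => measurableSet_Ico]
  have h2 : ∀ i : Fin 3, a i + h * (z i + 1) - (a i + h * z i) = h := fun i => by ring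
  simp only [Real.volume_Ico, h2, Finset.prod_const, Finset.card_univ, Fintype.card_fin]
  rw [ENNReal.ofReal_pow hh.le]

theorem disj_Cq (a : R3) {h : ℝ} (hh : 0 < h) :
    Pairwise (Function.onFun Disjoint (Cq a h)) := by
  intro z z' hne
  rw [Function.onFun, Set.disjoint_left]
  intro y hy hy'
  apply hne
  funext i
  obtain ⟨h1, h2⟩ := hy i
  obtain ⟨h3, h4⟩ := hy' i
  have h5 : (z i : ℝ) < z' i + 1 := by
    by_contra hcon
    push Not at hcon
    nlinarith
  have h6 : (z' i : ℝ) < z i + 1 := by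
    by_contra hcon
    push Not at hcon
    nlinarith
  have h7 : z i < z' i + 1 := by exact_mod_cast h5
  have h8 : z' i < z i + 1 := by exact_mod_cast h6
  omega

/-- the number of cubes inside a set -/
theorem sum_cubes_le (a : R3) {h : ℝ} (hh : 0 < h) {Z : Set (Fin 3 → ℤ)} {G : Set R3}
    (hZ : ∀ z ∈ Z, Cq a h z ⊆ G) :
    ∑' z, Z.indicator (fun _ => ENNReal.ofReal (h ^ 3)) z ≤ volume G := by
  calc ∑' z, Z.indicator (fun _ => ENNReal.ofReal (h ^ 3)) z
      ≤ ∑' z, (volume.restrict G) (Cq a h z) := by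
        refine ENNReal.tsum_le_tsum fun z => ?_
        by_cases hz : z ∈ Z
        · rw [indicator_of_mem hz, Measure.restrict_apply (meas_Cq a h z),
            inter_eq_self_of_subset_left (hZ z hz), vol_Cq a hh z]
        · rw [indicator_of_notMem hz]; exact zero_le
    _ = (volume.restrict G) (⋃ z, Cq a h z) :=
        (measure_iUnion (disj_Cq a hh) fun z => meas_Cq a h z).symm
    _ ≤ (volume.restrict G) univ := measure_mono (subset_univ _)
    _ = volume G := Measure.restrict_apply_univ _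

/-- the neighbourhood of a set in the sup norm -/
def Sth (S : Set R3) (r : ℝ) : Set R3 := {y | ∃ y0 ∈ S, ∀ i, |y i - y0 i| ≤ r}

/-- **THE COUNT OF THE GRADED MESH**: objects of the grid cubes of all scales (index `l : L`) which have a
point of the region of their scale in `S`, weight `h³`. -/
theorem grid_count {L : Type*} [Fintype L] {φ : R3 ≃L[ℝ] (Fin 3 → ℝ)} (hφ : ∀ x l, φ x l = x l)
    {D : Dat 3} (hC : 6 ≤ D.C) (K0 : ℕ) (a : R3) (S : Set R3)
    (pr : ℕ → (Fin 3 → ℤ) → L → Prop)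
    (hpr : ∀ j z l, pr j z l → ∃ y0 ∈ S, y0 ∈ Zg φ D (K0 + j) ∧
      ∀ i, a i + hs K0 j * z i ≤ y0 i ∧ y0 i ≤ a i + hs K0 j * (z i + 1)) :
    ∑' j, ∑' z, ∑' l, {l | pr j z l}.indicator (fun _ => ENNReal.ofReal (hs K0 j ^ 3)) l ≤
      3 * (Fintype.card L : ℝ≥0∞) * volume (Sth S ((2:ℝ) ^ K0)⁻¹) := by
  classical
  set T := Sth S ((2:ℝ) ^ K0)⁻¹ with hT
  have h1 : ∀ j, ∑' z, ∑' l, {l | pr j z l}.indicator
      (fun _ => ENNReal.ofReal (hs K0 j ^ 3)) l ≤
      Fintype.card L * volume (φ ⁻¹' Zb D (K0 + j) ∩ T) := by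
    intro j
    have hh := hs_pos K0 j
    set Z : Set (Fin 3 → ℤ) := {z | ∃ l, pr j z l} with hZ
    have h2 : ∀ z, ∑' l, {l | pr j z l}.indicator (fun _ => ENNReal.ofReal (hs K0 j ^ 3)) l ≤
        Fintype.card L * Z.indicator (fun _ => ENNReal.ofReal (hs K0 j ^ 3)) z := by
      intro z
      rw [tsum_fintype]
      by_cases hz : z ∈ Z
      · rw [indicator_of_mem hz]
        calc ∑ l, {l | pr j z l}.indicator (fun _ => ENNReal.ofReal (hs K0 j ^ 3)) l
            ≤ ∑ _l : L, ENNReal.ofReal (hs K0 j ^ 3) :=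
              Finset.sum_le_sum fun l _ => indicator_le_self _ _ _
          _ = _ := by rw [Finset.sum_const, Finset.card_univ, nsmul_eq_mul]
      · rw [indicator_of_notMem hz, mul_zero]
        refine le_of_eq (Finset.sum_eq_zero fun l _ => ?_)
        rw [indicator_of_notMem]
        intro hl
        exact hz ⟨l, hl⟩
    calc ∑' z, ∑' l, {l | pr j z l}.indicator (fun _ => ENNReal.ofReal (hs K0 j ^ 3)) l
        ≤ ∑' z, Fintype.card L * Z.indicator (fun _ => ENNReal.ofReal (hs K0 j ^ 3)) z :=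
          ENNReal.tsum_le_tsum h2
      _ = Fintype.card L * ∑' z, Z.indicator (fun _ => ENNReal.ofReal (hs K0 j ^ 3)) z :=
          ENNReal.tsum_mul_left
      _ ≤ _ := by
          refine mul_le_mul' le_rfl (sum_cubes_le a hh fun z hz y hy => ?_)
          obtain ⟨l, hl⟩ := hz
          obtain ⟨y0, hy0, hy1, hy2⟩ := hpr j z l hl
          have h3 : ∀ i, |y i - y0 i| ≤ hs K0 j := by
            intro i
            obtain ⟨h4, h5⟩ := hy i
            obtain ⟨h6, h7⟩ := hy2 i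
            rw [abs_le]
            constructor <;> nlinarith
          have h8 := hs_mul K0 j
          have h9 : hs K0 j ≤ ((2:ℝ) ^ K0)⁻¹ := by
            unfold hs
            refine div_le_self (by positivity) ?_
            push_cast
            exact one_le_pow₀ (by norm_num)
          refine ⟨?_, y0, hy0, fun i => (h3 i).trans h9⟩
          refine Zb_of_near hφ hy1 fun i => ?_
          calc (2:ℝ) ^ (K0 + j) * |y i - y0 i| ≤ 2 ^ (K0 + j) * hs K0 j := by
                gcongr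
                exact h3 i
            _ = 1 := h8
  calc _ ≤ ∑' j, (Fintype.card L : ℝ≥0∞) * volume (φ ⁻¹' Zb D (K0 + j) ∩ T) :=
        ENNReal.tsum_le_tsum h1
    _ = Fintype.card L * ∑' j, volume (φ ⁻¹' Zb D (K0 + j) ∩ T) := ENNReal.tsum_mul_left
    _ ≤ Fintype.card L * ((3 : ℕ) * volume T) := by
        refine mul_le_mul' le_rfl (sum_overlap_le
          (fun j => (meas_Zb D _).preimage φ.continuous.measurable) (fun y => ?_) T)
        refine le_trans ?_ (encard_Zb D hC (φ y))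
        refine encard_le_encard_of_injOn (f := fun j => K0 + j) (fun j hj => hj) ?_
        intro j _ j' _ h
        simp only at h
        omega
    _ = _ := by push_cast; ring

/-- the neighbourhood of a cube -/
theorem Sth_cel {z : R3} {s r : ℝ} (hs : 0 < s) (hrs : r ≤ s) :
    volume (Sth (cel Cb z s) r) ≤ ENNReal.ofReal (8 * (2 * s) ^ 3) := by
  have h1 : Sth (cel Cb z s) r ⊆ cel Cb z (2 * s) := by
    rintro y ⟨y0, hy0, hy⟩
    rw [mem_cel (by positivity)]
    intro i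
    have h2 := (mem_cel hs).1 hy0 i
    have h3 := hy i
    calc |y i - z i| ≤ |y i - y0 i| + |y0 i - z i| := abs_sub_le _ _ _
      _ ≤ 2 * s := by linarith
  refine (measure_mono h1).trans ?_
  rw [vol_cel (by positivity)]
  refine ENNReal.ofReal_le_ofReal (le_of_eq ?_)
  ring

/-- **the mass of `muO` in a set** -/
theorem muO_le {φ : R3 ≃L[ℝ] (Fin 3 → ℝ)} (hφ : ∀ x l, φ x l = x l) {D : Dat 3} (hC : 6 ≤ D.C)
    (K0 : ℕ) (a : R3) {S : Set R3} (hS : MeasurableSet S) :
    muO φ D K0 a S ≤ 9 * volume (Sth S ((2:ℝ) ^ K0)⁻¹) := by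
  classical
  rw [← lintegral_indicator_one hS, muO, lint_segM (fun q => meas_Zg φ D _)
    (measurable_one.indicator hS)]
  set pr : ℕ → (Fin 3 → ℤ) → Fin 3 → Prop := fun j z l =>
    ∃ σ ∈ Ioc (0:ℝ) 1, a + gx (hs K0 j) (z, l) + σ • gv (hs K0 j) (z, l) ∈
      Zg φ D (K0 + j) ∩ S with hpr
  have h1 : ∀ j z l, ENNReal.ofReal (hs K0 j ^ 3) * ∫⁻ σ in Ioc (0:ℝ) 1,
      (Zg φ D (K0 + j)).indicator (S.indicator (1 : R3 → ℝ≥0∞))
        (a + gx (hs K0 j) (z, l) + σ • gv (hs K0 j) (z, l)) ≤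
      {l | pr j z l}.indicator (fun _ => ENNReal.ofReal (hs K0 j ^ 3)) l := by
    intro j z l
    have h0 : ∀ σ : ℝ, (Zg φ D (K0 + j)).indicator (S.indicator (1 : R3 → ℝ≥0∞))
        (a + gx (hs K0 j) (z, l) + σ • gv (hs K0 j) (z, l)) =
        (Zg φ D (K0 + j) ∩ S).indicator (1 : R3 → ℝ≥0∞)
          (a + gx (hs K0 j) (z, l) + σ • gv (hs K0 j) (z, l)) := by
      intro σ
      rw [indicator_indicator]
    simp only [h0]
    by_cases hl : pr j z l
    · rw [indicator_of_mem (show l ∈ {l | pr j z l} from hl)]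
      exact mul_le_of_le_one_right' (Crest.Agent.R096.Rmt_816.lint_le_one _ _)
    · rw [Crest.Agent.R096.Rmt_816.lint_zero _ _ hl, mul_zero]
      exact zero_le
  have h2 := grid_count hφ hC K0 a S pr (fun j z l h => by
    obtain ⟨σ, hσ, hy⟩ := h
    refine ⟨_, hy.2, hy.1, fun i => ?_⟩
    have hh := hs_pos K0 j
    have e1 : (a + gx (hs K0 j) (z, l) + σ • gv (hs K0 j) (z, l)) i =
        a i + hs K0 j * z i + σ * (hs K0 j * (ed l : R3) i) := by
      rw [PiLp.add_apply, PiLp.add_apply, PiLp.smul_apply, gx, gv, ihom_apply, PiLp.smul_apply]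
      rfl
    rw [e1]
    have h3 : 0 ≤ (ed l : R3) i ∧ (ed l : R3) i ≤ 1 := by
      unfold ed
      rw [PiLp.single_apply]
      split_ifs <;> norm_num
    have h4 : 0 ≤ σ * (hs K0 j * (ed l : R3) i) :=
      mul_nonneg hσ.1.le (mul_nonneg hh.le h3.1)
    have h5 : σ * (hs K0 j * (ed l : R3) i) ≤ hs K0 j := by
      calc σ * (hs K0 j * (ed l : R3) i) ≤ 1 * (hs K0 j * 1) :=
            mul_le_mul hσ.2 (mul_le_mul_of_nonneg_left h3.2 hh.le)
              (mul_nonneg hh.le h3.1) zero_le_one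
        _ = hs K0 j := by ring
    constructor <;> nlinarith)
  rw [Fintype.card_fin] at h2
  calc _ = ∑' j, ∑' z, ∑' l, ENNReal.ofReal (hs K0 j ^ 3) * ∫⁻ σ in Ioc (0:ℝ) 1,
      (Zg φ D (K0 + j)).indicator (S.indicator (1 : R3 → ℝ≥0∞))
        (a + gx (hs K0 j) (z, l) + σ • gv (hs K0 j) (z, l)) := by
        rw [ENNReal.tsum_prod' (f := fun q : ℕ × (Fin 3 → ℤ) × Fin 3 => _)]
        refine tsum_congr fun j => ?_
        rw [ENNReal.tsum_prod' (f := fun q : (Fin 3 → ℤ) × Fin 3 => _)]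
    _ ≤ ∑' j, ∑' z, ∑' l, {l | pr j z l}.indicator
          (fun _ => ENNReal.ofReal (hs K0 j ^ 3)) l :=
        ENNReal.tsum_le_tsum fun j => ENNReal.tsum_le_tsum fun z =>
          ENNReal.tsum_le_tsum fun l => h1 j z l
    _ ≤ _ := h2.trans (le_of_eq (by
        push_cast
        norm_num))

/-- **the count of `coarse_E` / `energies`** -/
theorem muO_cel {φ : R3 ≃L[ℝ] (Fin 3 → ℝ)} (hφ : ∀ x l, φ x l = x l) {D : Dat 3} (hC : 6 ≤ D.C)
    {K0 : ℕ} (a z : R3) {s : ℝ} (hs : 0 < s) (hK0 : ((2:ℝ) ^ K0)⁻¹ ≤ s) :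
    muO φ D K0 a (cel Cb z s) ≤ ENNReal.ofReal (72 * (2 * s) ^ 3) := by
  refine (muO_le hφ hC K0 a (isClosed_cel z s).measurableSet).trans ?_
  calc 9 * volume (Sth (cel Cb z s) ((2:ℝ) ^ K0)⁻¹)
      ≤ ENNReal.ofReal 9 * ENNReal.ofReal (8 * (2 * s) ^ 3) := by
        gcongr
        · norm_num
        · exact Sth_cel hs hK0
    _ = _ := by
        rw [← ENNReal.ofReal_mul (by norm_num)]
        congr 1
        ring

end

end Crest.Agent.R96.Els_538
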