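/-
helper538, row 96, p = 2, leaf L1 of helper465: nearness on the crossing edges.
-/
import Mathlib
import Crest.Agent.R96.Gdt5_538

set_option autoImplicit false
set_option linter.unusedSectionVars false
set_option maxHeartbeats 400000

open MeasureTheory Set Filter Metric
open scoped ENNReal NNReal Topology

namespace Crest.Agent.R96.Gdt_538

open Crest.Agent.R096.Msh_715
open Crest.Agent.R096.Sk2_855 (sk1)
open Crest.Agent.R096.Sk3_812
open Crest.AnalysisR.VecCalc3 (R3)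
open Crest.Agent.R96.Coarse_538 Crest.Agent.R96.Intr_538 Crest.Agent.R96.Lu_538

variable {ι κi : Type*} {Ω La : Set R3} {T : Tiling Ω ι} {x v : κi → R3} {p : ℝ} {f fi : R3 → R3}
  {D : R3 → R3 →L[ℝ] R3} {κ τ σ₀ η t s : ℝ} {a z b : R3} {L : R3 →L[ℝ] R3} {W : Set R3}

/-- **nearness on the crossing edges** -/
theorem near_crs (hP : PerfG x v p Ω f D κ τ σ₀ η t s a z b L) (hM : MeshG T x v a W)
    (hWc : cel Cb z ((1 - σ₀) * s) ⊆ W) {i : ι}
    (hNc : ∀ y, Crs T i y → T.cc y ⊆ cel Cb z ((1 - σ₀) * s)) {A : R3 → R3}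
    (hAL : ∀ y, A y = b + L (y - z)) {e : R3} (he : Crs T i e) {w : R3} (hw : w ∈ T.cc e) :
    ‖f w - A w‖ ≤ η * t := by
  rw [hAL]
  exact perf_near hP hM hWc (cc_sub_sk1 he.1 he.2.1 hw) (hNc e he hw)

end Crest.Agent.R96.Gdt_538
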