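/-
helper872, row 96, `EA0` (p ≤ 2), [Z5] in the form of 874 #11270: total shifts in ANY bounded measurable
sets `B c` (for instance the half-open boxes `TwS ψ h = {v | ∀ l, 0 ≤ ψ v l < h}`), dense sets `G' c` of
good shifts, one energy per block.
-/
import Crest.Agent.R96.Gj3_872

set_option autoImplicit false
set_option linter.unusedSectionVars false

open MeasureTheory Set Filter Metric
open scoped Topology ENNReal Pointwise

namespace Crest.Agent.R96.Gj_872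

open Crest.Agent.R096.SkC1_961 (E3)
open Crest.Agent.R096.EaX_766 (lin)
open Crest.Agent.R096.Exa_365 (Wt)

noncomputable section

section box

variable {E : Type*} [NormedAddCommGroup E] [NormedSpace ℝ E] {n : ℕ}

/-- half-open box of side `h` in the frame `ψ` -/
def TwS (ψ : E ≃L[ℝ] (Fin n → ℝ)) (h : ℝ) : Set E := {v | ∀ l, 0 ≤ ψ v l ∧ ψ v l < h}

/-- closed box of side `h` in the frame `ψ` -/
def TwC (ψ : E ≃L[ℝ] (Fin n → ℝ)) (h : ℝ) : Set E := {v | ∀ l, 0 ≤ ψ v l ∧ ψ v l ≤ h}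

theorem TwS_sub_TwC (ψ : E ≃L[ℝ] (Fin n → ℝ)) (h : ℝ) : TwS ψ h ⊆ TwC ψ h :=
  fun _ hv l => ⟨(hv l).1, (hv l).2.le⟩

theorem TwC_eq (ψ : E ≃L[ℝ] (Fin n → ℝ)) (h : ℝ) : TwC ψ h = ψ ⁻¹' Icc 0 (fun _ => h) := by
  ext w
  show (∀ l, 0 ≤ ψ w l ∧ ψ w l ≤ h) ↔ _
  rw [mem_preimage, mem_Icc, Pi.le_def, Pi.le_def, ← forall_and]
  rfl

theorem isCompact_TwC (ψ : E ≃L[ℝ] (Fin n → ℝ)) (h : ℝ) : IsCompact (TwC ψ h) := by
  have e : TwC ψ h = ψ.symm '' Icc 0 (fun _ => h) := by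
    rw [TwC_eq]
    exact (ψ.symm.toEquiv.image_eq_preimage_symm _).symm
  rw [e]
  exact isCompact_Icc.image ψ.symm.continuous

theorem isBounded_TwS (ψ : E ≃L[ℝ] (Fin n → ℝ)) (h : ℝ) : Bornology.IsBounded (TwS ψ h) :=
  (isCompact_TwC ψ h).isBounded.subset (TwS_sub_TwC ψ h)

/-- norm of the admissible shifts -/
theorem norm_TwC [NeZero n] {ψ : E ≃L[ℝ] (Fin n → ℝ)} {h : ℝ} {v : E} (hv : v ∈ TwC ψ h) :
    ‖ψ v‖ ≤ h := by
  have h0 : 0 ≤ h := (hv 0).1.trans (hv 0).2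
  refine (pi_norm_le_iff_of_nonneg h0).2 fun l => ?_
  rw [Real.norm_eq_abs, abs_of_nonneg (hv l).1]
  exact (hv l).2

variable [MeasurableSpace E] [BorelSpace E]

theorem measurableSet_TwS (ψ : E ≃L[ℝ] (Fin n → ℝ)) (h : ℝ) : MeasurableSet (TwS ψ h) := by
  have e : TwS ψ h = ⋂ l, {v | 0 ≤ ψ v l ∧ ψ v l < h} := by
    ext v
    simp only [TwS, mem_ofPred_eq, mem_iInter]
  rw [e]
  refine MeasurableSet.iInter fun l => ?_
  have hc : Measurable fun v : E => ψ v l :=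
    ((continuous_apply l).comp ψ.continuous).measurable
  exact (measurableSet_le measurable_const hc).inter (measurableSet_lt hc measurable_const)

theorem measurableSet_TwC (ψ : E ≃L[ℝ] (Fin n → ℝ)) (h : ℝ) : MeasurableSet (TwC ψ h) :=
  (isCompact_TwC ψ h).isClosed.measurableSet

variable {μ : Measure E} [μ.IsAddHaarMeasure]

theorem volume_TwS_ne (ψ : E ≃L[ℝ] (Fin n → ℝ)) {h : ℝ} (hh : 0 < h) : μ (TwS ψ h) ≠ 0 := by
  have h2 : (ψ ⁻¹' (univ.pi fun _ => Ioo (0:ℝ) h)) ⊆ TwS ψ h := by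
    intro w hw l
    have h3 : ψ w l ∈ Ioo (0:ℝ) h := hw l (mem_univ l)
    exact ⟨h3.1.le, h3.2⟩
  have h3 : IsOpen (ψ ⁻¹' (univ.pi fun _ => Ioo (0:ℝ) h)) :=
    (isOpen_set_pi finite_univ fun _ _ => isOpen_Ioo).preimage ψ.continuous
  have h4 : (ψ ⁻¹' (univ.pi fun _ => Ioo (0:ℝ) h)).Nonempty := by
    refine ⟨ψ.symm fun _ => h / 2, fun l _ => ?_⟩
    rw [ContinuousLinearEquiv.apply_symm_apply]
    exact ⟨half_pos hh, half_lt_self hh⟩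
  exact ((h3.measure_pos μ h4).trans_le (measure_mono h2)).ne'

end box

/-- the closed box is 365's `Wt` (so 748's means hold on it) -/
theorem TwC_eq_Wt {ψ : E3 ≃L[ℝ] (Fin 3 → ℝ)} {A : E3 ≃ᵃ[ℝ] E3} {u : ℝ} (hu : 0 < u)
    (h : ∀ x, A.linear x = u • ψ x) (r : ℝ) : TwC ψ r = Wt A (u * r) := by
  ext w
  have hl : lin A w = u • ψ w := h w
  constructor
  · intro hw
    refine ⟨fun l => ?_, fun l => ?_⟩
    · show 0 ≤ lin A w l
      rw [hl]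
      exact mul_nonneg hu.le (hw l).1
    · show lin A w l ≤ u * r
      rw [hl]
      exact mul_le_mul_of_nonneg_left (hw l).2 hu.le
  · rintro ⟨h1, h2⟩ l
    have h3 : 0 ≤ lin A w l := h1 l
    have h4 : lin A w l ≤ u * r := h2 l
    rw [hl] at h3 h4
    have h3' : 0 ≤ u * ψ w l := h3
    have h4' : u * ψ w l ≤ u * r := h4
    exact ⟨nonneg_of_mul_nonneg_right h3' hu, le_of_mul_le_mul_left h4' hu⟩

/-- a face of the box is a null set -/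
theorem volume_face {ψ : E3 ≃L[ℝ] (Fin 3 → ℝ)} (l : Fin 3) (h : ℝ) :
    volume {v : E3 | ψ v l = h} = 0 := by
  have hL : ((ContinuousLinearMap.proj (R := ℝ) (φ := fun _ : Fin 3 => ℝ) l).comp
      (ψ : E3 →L[ℝ] (Fin 3 → ℝ))) ≠ 0 := by
    intro h0
    have h1 := congrArg (fun L : E3 →L[ℝ] ℝ => L (ψ.symm fun _ => 1)) h0
    simp at h1
  have h1 : {v : E3 | ψ v l = h} ⊆ ((AffineSubspace.mk' (ψ.symm fun _ => h)
      (LinearMap.ker (((ContinuousLinearMap.proj (R := ℝ) (φ := fun _ : Fin 3 => ℝ) l).comp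
      (ψ : E3 →L[ℝ] (Fin 3 → ℝ))) : E3 →ₗ[ℝ] ℝ)) : AffineSubspace ℝ E3) : Set E3) := by
    intro v hv
    have hv' : ψ v l = h := hv
    rw [SetLike.mem_coe, AffineSubspace.mem_mk']
    rw [LinearMap.mem_ker]
    show ψ (v - ψ.symm fun _ => h) l = 0
    rw [map_sub, ContinuousLinearEquiv.apply_symm_apply, Pi.sub_apply, hv', sub_self]
  refine measure_mono_null h1 (Measure.addHaar_affineSubspace volume _ ?_)
  intro htop
  apply hL
  have h2 := congrArg AffineSubspace.direction htop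
  rw [AffineSubspace.direction_mk', AffineSubspace.direction_top, LinearMap.ker_eq_top] at h2
  ext v
  exact congrArg (fun L : E3 →ₗ[ℝ] ℝ => L v) h2

theorem TwS_ae_eq (ψ : E3 ≃L[ℝ] (Fin 3 → ℝ)) (h : ℝ) :
    (TwS ψ h : Set E3) =ᵐ[volume] (TwC ψ h : Set E3) := by
  have h1 : volume (⋃ l, {v : E3 | ψ v l = h}) = 0 := measure_iUnion_null fun l => volume_face l h
  refine (LE.le.eventuallyLE (TwS_sub_TwC ψ h)).antisymm ?_
  refine (ae_le_set).2 (measure_mono_null ?_ h1)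
  rintro v ⟨hv, hn⟩
  by_contra hcon
  apply hn
  intro l
  refine ⟨(hv l).1, lt_of_le_of_ne (hv l).2 fun he => hcon ?_⟩
  exact mem_iUnion.2 ⟨l, he⟩

theorem volume_TwS (ψ : E3 ≃L[ℝ] (Fin 3 → ℝ)) (h : ℝ) :
    volume (TwS ψ h) = volume (TwC ψ h) := measure_congr (TwS_ae_eq ψ h)

theorem lintegral_TwS (ψ : E3 ≃L[ℝ] (Fin 3 → ℝ)) (h : ℝ) (F : E3 → ℝ≥0∞) :
    ∫⁻ v in TwS ψ h, F v = ∫⁻ v in TwC ψ h, F v := setLIntegral_congr (TwS_ae_eq ψ h)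

/-- **G_c AND LISTS, ONE ENERGY, ANY BOXES**: `B c` bounded, measurable, not null; `G' c` has density
`≥ 3/4` in `B c` (no measurability); the energies have mean `≤ m c` -/
theorem exists_blocks_S {E : Type*} [NormedAddCommGroup E] [NormedSpace ℝ E]
    [FiniteDimensional ℝ E] [MeasurableSpace E] [BorelSpace E] {μ : Measure E} [μ.IsAddHaarMeasure]
    {n : ℕ} {J : Type*} [Countable J] (φ : E ≃L[ℝ] (Fin n → ℝ)) {A0 : Set E}
    (hA : MeasurableSet A0) (hA0 : μ A0 ≠ 0) (hAb : Bornology.IsBounded A0)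
    {B : J → Set E} (hB : ∀ j, MeasurableSet (B j)) (hB0 : ∀ j, μ (B j) ≠ 0)
    (hBb : ∀ j, Bornology.IsBounded (B j))
    {F : J → E → ℝ≥0∞} (hF : ∀ j, Measurable (F j)) {m : J → ℝ≥0∞} (hm0 : ∀ j, m j ≠ 0)
    (hm : ∀ j, ∫⁻ v in B j, F j v ∂μ ≤ m j * μ (B j))
    {P : J → E → Prop} (hP : ∀ j, ∀ᵐ v ∂μ, v ∈ B j → P j v)
    {G' : J → Set E} (hG' : ∀ j, μ (B j \ G' j) ≤ ENNReal.ofReal (1 / 4) * μ (B j))
    (κ0 : J → ℕ) {θ : ℝ≥0∞} (hθ0 : θ ≠ 0) :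
    ∃ (G : J → Set E) (κ : J → ℕ) (W : J → Set E), (∀ c, G c ⊆ B c ∧ G c ⊆ G' c ∧
      MeasurableSet (G c) ∧ μ (G c) ≠ 0 ∧ ∀ v ∈ G c, P c v ∧ F c v ≤ 8 * m c) ∧
      (∀ c, κ0 c ≤ κ c) ∧ (∀ c, (W c).Finite) ∧
      (∀ c, ∀ w ∈ W c, w ∈ Dy φ (κ c) ∧ ∃ a ∈ A0, a + w ∈ G c) ∧
      μ (⋃ c, {a | a ∈ A0 ∧ ∀ w ∈ W c, a + w ∉ G c}) ≤ θ * μ A0 := by
  have hθ : (8:ℝ≥0∞)⁻¹ + ENNReal.ofReal (1 / 4) < 1 := by
    have h1 : (8:ℝ≥0∞)⁻¹ = ENNReal.ofReal (1 / 8) := by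
      rw [one_div, ENNReal.ofReal_inv_of_pos (by norm_num)]
      norm_num
    rw [h1, ← ENNReal.ofReal_add (by norm_num) (by norm_num), ← ENNReal.ofReal_one]
    exact (ENNReal.ofReal_lt_ofReal_iff one_pos).2 (by norm_num)
  obtain ⟨G, κ, W, h1, h2, h3, h4, h5⟩ := exists_blocks (μ := μ) φ hA hA0 hAb hB hB0 hBb
    (ι' := fun _ => Unit) (F := fun j _ => F j) (fun j _ => hF j) (lam := fun _ _ => 8)
    (m := fun j _ => m j) (fun j _ => hm0 j) (fun _ _ => by norm_num) (fun _ _ => by norm_num)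
    (fun j _ => hm j) (θ₁ := 8⁻¹) (θ₂ := ENNReal.ofReal (1 / 4))
    (fun _ => by rw [tsum_fintype]; simp) hP
    (Gw := fun j v => v ∈ G' j) (fun j => le_trans (measure_mono (fun v hv => hv)) (hG' j))
    hθ κ0 hθ0
  refine ⟨G, κ, W, fun c => ⟨(h1 c).1, fun v hv => ((h1 c).2.2.2.2 v hv).2.1, (h1 c).2.1,
    (h1 c).2.2.1, fun v hv => ?_⟩, h2, h3, h4, h5⟩
  obtain ⟨h6, -, h8⟩ := (h1 c).2.2.2.2 v hv
  exact ⟨h6, h8 ()⟩

end

end Crest.Agent.R96.Gj_872
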