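/-
helper872, row 96, `EA0` (p ≤ 2), pigeonhole for 874 #11270: the box of the translations is cut into
`L ^ 3` small boxes; in one of them the good translations have the same density.
-/
import Crest.Agent.R96.Gj4_872

set_option autoImplicit false
set_option linter.unusedSectionVars false

open MeasureTheory Set Filter Metric
open scoped Topology ENNReal Pointwise

namespace Crest.Agent.R96.Gj_872

open Crest.Agent.R096.SkC1_961 (E3)
open Crest.Agent.R096.Ea0_961 (Tw)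

noncomputable section

variable {ψ : E3 ≃L[ℝ] (Fin 3 → ℝ)}

/-- corner of the small box `i` -/
def crn (ψ : E3 ≃L[ℝ] (Fin 3 → ℝ)) (h : ℝ) (i : Fin 3 → ℕ) : E3 := ψ.symm fun l => i l * h

theorem psi_crn (h : ℝ) (i : Fin 3 → ℕ) (l : Fin 3) : ψ (crn ψ h i) l = i l * h := by
  unfold crn
  rw [ContinuousLinearEquiv.apply_symm_apply]

/-- the small box `i` -/
def Cel (ψ : E3 ≃L[ℝ] (Fin 3 → ℝ)) (h : ℝ) (i : Fin 3 → ℕ) : Set E3 :=
  {w | ∀ l, i l * h ≤ ψ w l ∧ ψ w l < (i l + 1) * h}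

theorem mem_Cel {h : ℝ} {i : Fin 3 → ℕ} {w : E3} : w ∈ Cel ψ h i ↔ w - crn ψ h i ∈ TwS ψ h := by
  refine forall_congr' fun l => ?_
  rw [map_sub, Pi.sub_apply, psi_crn]
  constructor
  · rintro ⟨h1, h2⟩
    constructor <;> linarith
  · rintro ⟨h1, h2⟩
    constructor <;> linarith

theorem Cel_eq (h : ℝ) (i : Fin 3 → ℕ) : Cel ψ h i = (fun w => w - crn ψ h i) ⁻¹' TwS ψ h := by
  ext w
  exact mem_Cel

theorem vol_sub (c : E3) (S : Set E3) : volume ((fun w => w - c) ⁻¹' S) = volume S := by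
  simp only [sub_eq_add_neg]
  exact measure_preimage_add_right volume (-c) S

theorem measurableSet_Cel (h : ℝ) (i : Fin 3 → ℕ) : MeasurableSet (Cel ψ h i) := by
  rw [Cel_eq]
  exact (measurable_id.sub_const _) (measurableSet_TwS ψ h)

theorem volume_Cel (h : ℝ) (i : Fin 3 → ℕ) : volume (Cel ψ h i) = volume (TwS ψ h) := by
  rw [Cel_eq]
  exact vol_sub _ _

theorem disjoint_Cel {h : ℝ} (hh : 0 < h) {i j : Fin 3 → ℕ} (hij : i ≠ j) :
    Disjoint (Cel ψ h i) (Cel ψ h j) := by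
  obtain ⟨l, hl⟩ := Function.ne_iff.1 hij
  rw [Set.disjoint_left]
  intro w h1 h2
  have a1 := h1 l
  have a2 := h2 l
  rcases lt_or_gt_of_ne hl with h3 | h3
  · have h4 : (i l : ℝ) + 1 ≤ j l := by exact_mod_cast h3
    have h5 := mul_le_mul_of_nonneg_right h4 hh.le
    linarith [a1.2, a2.1]
  · have h4 : (j l : ℝ) + 1 ≤ i l := by exact_mod_cast h3
    have h5 := mul_le_mul_of_nonneg_right h4 hh.le
    linarith [a2.2, a1.1]

theorem iUnion_Cel {h : ℝ} (hh : 0 < h) (L : ℕ) :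
    ⋃ i : Fin 3 → Fin L, Cel ψ h (fun l => (i l : ℕ)) = TwS ψ (L * h) := by
  ext w
  rw [mem_iUnion]
  constructor
  · rintro ⟨i, hi⟩ l
    have h1 := hi l
    have h2 : ((i l : ℕ) : ℝ) + 1 ≤ L := by exact_mod_cast (i l).2
    have h3 := mul_le_mul_of_nonneg_right h2 hh.le
    have h4 : (0:ℝ) ≤ ((i l : ℕ) : ℝ) * h := by positivity
    exact ⟨h4.trans h1.1, lt_of_lt_of_le h1.2 h3⟩
  · intro hw
    have h0 : ∀ l, 0 ≤ ψ w l / h := fun l => div_nonneg (hw l).1 hh.le
    have h1 : ∀ l, ⌊ψ w l / h⌋₊ < L := by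
      intro l
      rw [Nat.floor_lt (h0 l), div_lt_iff₀ hh]
      exact (hw l).2
    refine ⟨fun l => ⟨⌊ψ w l / h⌋₊, h1 l⟩, fun l => ?_⟩
    have h2 := Nat.floor_le (h0 l)
    have h3 := Nat.lt_floor_add_one (ψ w l / h)
    rw [le_div_iff₀ hh] at h2
    rw [div_lt_iff₀ hh] at h3
    exact ⟨h2, h3⟩

/-- **PIGEONHOLE**: one of the `L ^ 3` small boxes has the density of `G` in the big one -/
theorem exists_w0 (ψ : E3 ≃L[ℝ] (Fin 3 → ℝ)) {H : ℝ} (hH : 0 < H) {L : ℕ} (hL : 0 < L)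
    {G : Set E3} {θ : ℝ≥0∞} (hG : volume (TwC ψ H \ G) ≤ θ * volume (TwC ψ H)) :
    ∃ i : Fin 3 → ℕ, (∀ l, i l < L) ∧
      (∀ v ∈ TwC ψ (H / L), crn ψ (H / L) i + v ∈ TwC ψ H) ∧
      volume (TwS ψ (H / L) \ {v | crn ψ (H / L) i + v ∈ G}) ≤ θ * volume (TwS ψ (H / L)) := by
  have hL' : (0:ℝ) < L := by exact_mod_cast hL
  have hh : 0 < H / L := by positivity
  set h := H / L with hhd
  have hLh : (L : ℝ) * h = H := by rw [hhd]; field_simp
  have hne : Nonempty (Fin L) := ⟨⟨0, hL⟩⟩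
  set N : Set E3 := toMeasurable volume (TwC ψ H \ G) with hN
  have hNm : MeasurableSet N := measurableSet_toMeasurable _ _
  have hN1 : volume N ≤ θ * volume (TwC ψ H) := by rw [hN, measure_toMeasurable]; exact hG
  have hdis : Pairwise (Function.onFun Disjoint fun i : Fin 3 → Fin L =>
      Cel ψ h (fun l => (i l : ℕ))) := by
    intro i j hij
    refine disjoint_Cel hh fun he => hij ?_
    funext l
    exact Fin.ext (congrFun he l)
  have hsum : volume (TwC ψ H) = ∑ i : Fin 3 → Fin L, volume (Cel ψ h (fun l => (i l : ℕ))) := by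
    rw [← volume_TwS, ← hLh, ← iUnion_Cel hh L, measure_iUnion hdis fun i => measurableSet_Cel _ _,
      tsum_fintype]
  have hsumN : ∑ i : Fin 3 → Fin L, volume (Cel ψ h (fun l => (i l : ℕ)) ∩ N) ≤ volume N := by
    rw [← tsum_fintype (L := SummationFilter.unconditional _), ← measure_iUnion
      (fun i j hij => (hdis hij).mono inter_subset_left inter_subset_left)
      fun i => (measurableSet_Cel _ _).inter hNm]
    exact measure_mono (iUnion_subset fun i => inter_subset_right)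
  have key : ∃ i : Fin 3 → Fin L, volume (Cel ψ h (fun l => (i l : ℕ)) ∩ N) ≤
      θ * volume (Cel ψ h (fun l => (i l : ℕ))) := by
    by_contra hcon
    push Not at hcon
    have h1 : ∑ i : Fin 3 → Fin L, θ * volume (Cel ψ h (fun l => (i l : ℕ))) <
        ∑ i : Fin 3 → Fin L, volume (Cel ψ h (fun l => (i l : ℕ)) ∩ N) :=
      ENNReal.sum_lt_sum_of_nonempty Finset.univ_nonempty fun i _ => hcon i
    rw [← Finset.mul_sum, ← hsum] at h1
    exact absurd (h1.trans_le (hsumN.trans hN1)) (lt_irrefl _)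
  obtain ⟨i, hi⟩ := key
  refine ⟨fun l => (i l : ℕ), fun l => (i l).2, fun v hv l => ?_, ?_⟩
  · rw [map_add, Pi.add_apply, psi_crn]
    have h1 := hv l
    have h2 : ((i l : ℕ) : ℝ) + 1 ≤ L := by exact_mod_cast (i l).2
    have h3 := mul_le_mul_of_nonneg_right h2 hh.le
    have h4 : (0:ℝ) ≤ ((i l : ℕ) : ℝ) * h := by positivity
    constructor
    · linarith [h1.1]
    · linarith [h1.2]
  · rw [volume_Cel] at hi
    refine le_trans ?_ hi
    rw [← vol_sub (crn ψ h fun l => (i l : ℕ))]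
    refine measure_mono ?_
    rintro w ⟨hw1, hw2⟩
    have h5 : w ∈ Cel ψ h fun l => (i l : ℕ) := mem_Cel.2 hw1
    refine ⟨h5, subset_toMeasurable _ _ ⟨?_, fun hwG => hw2 ?_⟩⟩
    · have h6 : w ∈ TwS ψ (L * h) := by
        rw [← iUnion_Cel hh L]
        exact mem_iUnion.2 ⟨i, h5⟩
      rw [hLh] at h6
      exact TwS_sub_TwC ψ H h6
    · show crn ψ h (fun l => (i l : ℕ)) + (w - crn ψ h fun l => (i l : ℕ)) ∈ G
      rw [add_sub_cancel]
      exact hwG

end

end Crest.Agent.R96.Gj_872
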