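/-
helper872, row 96, EaX (p > 2), 365's pre-translation: a set of positive measure has a dyadic centre, and
the total shifts near the centre keep positive measure.
-/
import Crest.Agent.R96.Gj1_872

set_option autoImplicit false
set_option linter.unusedSectionVars false

open MeasureTheory Set Filter Metric
open scoped Topology ENNReal Pointwise

namespace Crest.Agent.R96.Gj_872

noncomputable section

variable {E : Type*} [NormedAddCommGroup E] [NormedSpace ℝ E] [FiniteDimensional ℝ E]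
  [MeasurableSpace E] [BorelSpace E] {μ : Measure E} [μ.IsAddHaarMeasure] {n : ℕ}

/-- the shifts near the centre `w0` -/
def Cen (G : Set E) (r : ℝ) (w0 : E) : Set E := {s | ‖s‖ ≤ r ∧ w0 + s ∈ G}

theorem Cen_eq (G : Set E) (r : ℝ) (w0 : E) :
    Cen G r w0 = (fun s => w0 + s) ⁻¹' (G ∩ closedBall w0 r) := by
  ext s
  simp only [Cen, mem_ofPred_eq, mem_preimage, mem_inter_iff, mem_closedBall, dist_eq_norm,
    add_sub_cancel_left]
  tauto

theorem measurableSet_Cen {G : Set E} (hG : MeasurableSet G) (r : ℝ) (w0 : E) :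
    MeasurableSet (Cen G r w0) := by
  rw [Cen_eq]
  exact (measurable_id.const_add w0) (hG.inter isClosed_closedBall.measurableSet)

theorem volume_Cen (G : Set E) (r : ℝ) (w0 : E) : μ (Cen G r w0) = μ (G ∩ closedBall w0 r) := by
  rw [Cen_eq]
  exact measure_preimage_add μ w0 _

theorem isBounded_Cen (G : Set E) (r : ℝ) (w0 : E) : Bornology.IsBounded (Cen G r w0) :=
  isBounded_closedBall.subset fun s hs => by
    rw [mem_closedBall, dist_zero_right]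
    exact hs.1

/-- **DYADIC CENTRE**: `w0` dyadic (of level `κ ≥ κ0`), at distance `≤ r` of a point of `G`, with
`μ {s | ‖s‖ ≤ r ∧ w0 + s ∈ G} ≠ 0` -/
theorem exists_center (φ : E ≃L[ℝ] (Fin n → ℝ)) {G : Set E} (hG0 : μ G ≠ 0) {r : ℝ} (hr : 0 < r)
    (κ0 : ℕ) : ∃ κ : ℕ, κ0 ≤ κ ∧ ∃ w0 ∈ Dy φ κ, μ (Cen G r w0) ≠ 0 ∧ ∃ x ∈ G, ‖x - w0‖ ≤ r := by
  by_contra hcon
  have h0 : ∀ κ, κ0 ≤ κ → ∀ w0 ∈ Dy φ κ, μ (Cen G r w0) = 0 := by
    intro κ hκ w0 hw0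
    by_contra h1
    refine hcon ⟨κ, hκ, w0, hw0, h1, ?_⟩
    by_contra h2
    push Not at h2
    apply h1
    have h3 : Cen G r w0 = ∅ := by
      rw [eq_empty_iff_forall_notMem]
      rintro s ⟨hs1, hs2⟩
      have h4 := h2 _ hs2
      rw [add_sub_cancel_left] at h4
      exact absurd hs1 (not_le.2 h4)
    rw [h3, measure_empty]
  apply hG0
  have hcov : G ⊆ ⋃ κ : ℕ, ⋃ w0 ∈ Dy φ (max κ κ0), G ∩ closedBall w0 r := by
    intro x hx
    obtain ⟨y, hy, hxy⟩ := (dy_dense φ).exists_dist_lt x hr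
    obtain ⟨κ, hκ⟩ := mem_iUnion.1 hy
    refine mem_iUnion.2 ⟨κ, mem_iUnion₂.2 ⟨y, dy_mono φ (le_max_left _ _) hκ, hx, ?_⟩⟩
    exact mem_closedBall.2 hxy.le
  refine measure_mono_null hcov (measure_iUnion_null fun κ => ?_)
  refine (measure_biUnion_null_iff (dy_countable φ _)).2 fun w0 hw0 => ?_
  rw [← volume_Cen]
  exact h0 _ (le_max_right _ _) w0 hw0

/-- the same for a family, together with the finite dyadic lists for the sets `Cen (G j) (r j) (w0 j)` -/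
theorem exists_centers_lists {J : Type*} [Countable J] (φ : E ≃L[ℝ] (Fin n → ℝ)) {A : Set E}
    (hA : MeasurableSet A) (hA0 : μ A ≠ 0) (hAb : Bornology.IsBounded A)
    {G : J → Set E} (hG : ∀ j, MeasurableSet (G j)) (hG0 : ∀ j, μ (G j) ≠ 0)
    {r : J → ℝ} (hr : ∀ j, 0 < r j) (κ0 : J → ℕ) {θ : ℝ≥0∞} (hθ : θ ≠ 0) :
    ∃ (κw : J → ℕ) (w0 : J → E) (κ : J → ℕ) (W : J → Set E), (∀ j, κ0 j ≤ κw j) ∧
      (∀ j, w0 j ∈ Dy φ (κw j)) ∧ (∀ j, ∃ x ∈ G j, ‖x - w0 j‖ ≤ r j) ∧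
      (∀ j, MeasurableSet (Cen (G j) (r j) (w0 j)) ∧ μ (Cen (G j) (r j) (w0 j)) ≠ 0) ∧
      (∀ j, κw j ≤ κ j) ∧ (∀ j, (W j).Finite) ∧
      (∀ j, ∀ w ∈ W j, w ∈ Dy φ (κ j) ∧ ∃ a ∈ A, a + w ∈ Cen (G j) (r j) (w0 j)) ∧
      μ (⋃ j, {a | a ∈ A ∧ ∀ w ∈ W j, a + w ∉ Cen (G j) (r j) (w0 j)}) ≤ θ * μ A := by
  have h1 := fun j => exists_center (μ := μ) φ (hG0 j) (hr j) (κ0 j)
  choose κw h2 w0 h3 h4 h5 using h1
  obtain ⟨κ, W, h6, h7, h8, h9⟩ := exists_dyadic_lists (μ := μ) φ hA hA0 hAb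
    (fun j => measurableSet_Cen (hG j) (r j) (w0 j)) h4 (fun j => isBounded_Cen _ _ _) κw hθ
  exact ⟨κw, w0, κ, W, h2, h3, h5, fun j => ⟨measurableSet_Cen (hG j) _ _, h4 j⟩, h6, h7, h8, h9⟩

end

end Crest.Agent.R96.Gj_872
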