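/-
helper538, row 96, p ≤ 2, COMPOSITE B, (O1), leaf [G] of 961 #12131: the clause `gam` of one block of
`h.T a` from 143's `DeepS` and the zone of the M-edges (over 968's `gam_perf'`).
-/
import Mathlib
import Crest.Agent.R096.Gam3_968
import Crest.Agent.R096.Dps1_476
import Crest.Agent.R096.Oi1_961

set_option autoImplicit false
set_option linter.unusedSectionVars false
set_option linter.unusedVariables false
set_option linter.style.longLine false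
set_option maxHeartbeats 400000

open MeasureTheory Set Filter Metric Module
open scoped ENNReal NNReal Topology

namespace Crest.Agent.R96.Gmt_538

open Crest.AnalysisR.VecCalc3 (R3)
open Crest.Agent.R096.Msh_715 (P I Tiling)
open Crest.Agent.R096.Mal_874 (CB)
open Crest.Agent.R096.Msb_432 (Kc_sub_N)
open Crest.Agent.R096.Sq_55 (E3 Sys w2 toR)
open Crest.Agent.R096.Sqt_143 (DeepS)
open Crest.Agent.R096.Efi_296
open Crest.Agent.R096.Cbs_296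
open Crest.Agent.R096.Sk2_855 (sk1 Mv)
open Crest.Agent.R096.Ca_855 (MIn)
open Crest.Agent.R096.Dps_476 (deepJ)
open Crest.Agent.R096.She_227 (sE image_sE)
open Crest.Agent.R096.Oi_961 (pce)
open Crest.Agent.R096.Gam_968
open Crest.Agent.R096.Pin_753
open Crest.Agent.R96.Coarse_538 (seg Cb PerfG mem_cel)
open Crest.Agent.R96.Intr_538 (cel)
open Crest.Agent.R96.Gdt_538 (MeshG)

noncomputable section

variable {Om W : Set R3} {ρ₀ : R3 → ℝ} {J : Type} [Finite J] {Qb : J → CB R3 3} {k0 : ℕ} {σ : ℝ}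

/-- a point of a closed M-edge lies on an edge `e ∈ Ed` inside the core -/
theorem exists_Ed {Q : CB R3 3} {hk : Q.kc ≤ k0} {y : R3} (hy : y ∈ Gc Q k0 hk) :
    ∃ e ∈ Ed Q k0 hk, segment ℝ e.1 e.2 ⊆ Q.Kc ∧ y ∈ segment ℝ e.1 e.2 := by
  obtain ⟨x, hx, hd, hyx⟩ := hy
  have hx' := hx
  rw [← Q.P_core k0 hk] at hx'
  obtain ⟨e1, e2, -, h1, -⟩ := (Q.T k0 hk).edge_eq ((Q.T k0 hk).sub _ hx') hd
  have hK : segment ℝ e1 e2 ⊆ Q.Kc := by
    rw [← h1]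
    exact fun w hw => Gc_sub_Kc ⟨x, hx, hd, hw⟩
  exact ⟨(e1, e2), ⟨x, hd, h1, hK.trans (Kc_sub_N _)⟩, hK, h1 ▸ hyx⟩

theorem gam_T (h : MIn Om W ρ₀ Qb k0 σ) {a : R3} (ha : ‖a‖ ≤ σ / 8) {j : J} {K1 : ℕ}
    {s : Finset (h.ιT a)} {pr : (Te (h.T a)).Cell → Prop} {c : h.ιT a → E3}
    {R m : h.ιT a → ℝ≥0} {ρ : E3 → ℝ≥0} {X : Sys s (reps (Te (h.T a)) s pr)}
    (H : SysOf (Te (h.T a)) s pr c R ρ m X)
    (hρ : ∀ x ∈ reps (Te (h.T a)) s pr, ∀ k ∈ (Te (h.T a)).at_ x, k ∈ s → R k ≤ m k * ρ x)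
    {κ : ℝ} (hκ : 0 < κ) (hc : ∀ v, κ / 4 * ‖v‖ ≤ ‖(Qb j).ψ v‖) {u : ℝ}
    (hu : u = 4 * κ⁻¹ / (5 * 2 ^ k0)) {M : ℝ≥0} (hM : 1 ≤ M) {nb : ℕ} {C : Set R3}
    (hD : DeepS (h.T a) s pr R m ρ u C M nb (deepJ h a j K1))
    (hRk : ∀ k ∈ deepJ h a j K1, 80 * (M:ℝ)^4 * u ≤ R k)
    (hL : ∀ e ∈ Ed ((Qb j).tr a) k0 (h.hk j), segment ℝ e.1 e.2 ⊆ ((Qb j).tr a).Kc →
      ∀ t : h.ιT a, (P ((h.T a).H t) ∩ w2 '' cthickening (60 * (M:ℝ)^4 * u) (sE e)).Nonempty →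
        t ∈ deepJ h a j K1)
    {f : R3 → R3} (hf : ContinuousOn f Om) {Φ : R3 ≃ₜ R3} (hΦ : Mv (h.T a) Φ)
    {κi : Type*} {x v : κi → R3} (hme : MeshG (h.T a) x v a W) {p κ' τ' σ₀ η t sz : ℝ}
    {D : R3 → R3 →L[ℝ] R3} {z b : R3} {L : R3 →L[ℝ] R3}
    (hP : PerfG x v p Om f D κ τ' σ₀ η t sz a z b L) (hW : cel Cb z sz ⊆ W) (hσ0 : 0 < σ₀)
    (hσ1 : σ₀ < 1) (hsz : 0 < sz)
    {τ A : ℝ} (hτ : τ < 1) (hN : (Qb j).N ⊆ cel Cb z ((1 - τ) * sz)) (hA : ‖a‖ ≤ A)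
    (hA' : A + 60 * (M:ℝ)^4 * u ≤ (τ - σ₀) * sz)
    {e κw σr : ℝ} (he : 0 < e) (hσr : 0 ≤ σr)
    (hnum : 3 * σr + η * t + 100 * κ⁻¹ * (M:ℝ)^4 * u + e ≤ κw * sz) :
    ∃ δ₀ : ℝ, 0 < δ₀ ∧ ∀ (p δ : ℝ) (hA : X.Adm p δ), δ < δ₀ → ∀ (N₁ N₂ : ℕ) (Rr : R3 → R3),
      (∀ y, ‖Rr y - y‖ ≤ 3 * σr) →
      ∀ x ∈ ((Qb j).tr a).Kc, (((Qb j).tr a).T k0 (h.hk j)).dim x = 1 →
      ∀ y ∈ (((Qb j).tr a).T k0 (h.hk j)).cc x, ∀ w ∈ Tw ((Qb j).tr a) k0,
        ‖Rr (f (Φ (toR (Sys.chi hA (N₁+1) (N₂+1)) (y + w)))) - Bk b L z (y + w)‖ ≤ κw * sz := by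
  have hu0 : 0 < u := by rw [hu]; positivity
  have hM' : (1:ℝ) ≤ M := by exact_mod_cast hM
  have hM4 : (1:ℝ) ≤ (M:ℝ)^4 := one_le_pow₀ hM'
  have hM4u : 0 < (M:ℝ)^4 * u := by positivity
  have huM : u ≤ (M:ℝ)^4 * u := by nlinarith
  -- the zone
  have zone : ∀ y ∈ Gc ((Qb j).tr a) k0 (h.hk j), ∀ y' : E3,
      ‖y' - w2.symm y‖ ≤ 60 * (M:ℝ)^4 * u → ∀ k, y' ∈ P ((Te (h.T a)).H k) →
        k ∈ deepJ h a j K1 := by
    intro y hy y' hyy' k hk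
    obtain ⟨e0, he0, hK, hye⟩ := exists_Ed hy
    refine hL e0 he0 hK k ⟨w2 y', mem_P_Te.1 hk, mem_image_of_mem _ ?_⟩
    have h1 : w2.symm y ∈ sE e0 := by
      have h2 : y ∈ w2 '' sE e0 := by rw [image_sE]; exact hye
      obtain ⟨q, hq, hqy⟩ := h2
      rw [← hqy, w2.symm_apply_apply]
      exact hq
    refine mem_cthickening_of_dist_le _ _ _ _ h1 ?_
    rw [dist_eq_norm]
    exact hyy'
  have supn : ∀ (y y' : R3) (r : ℝ), 0 ≤ r → (∀ i, |y' i - y i| ≤ r) →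
      ‖w2.symm y' - w2.symm y‖ ≤ r := by
    intro y y' r hr hh
    rw [pi_norm_le_iff_of_nonneg hr]
    intro i
    exact hh i
  have hin : ∀ y ∈ Gc ((Qb j).tr a) k0 (h.hk j), ∀ i, |y i - z i| ≤ (1 - τ) * sz + A := by
    intro y hy i
    have hyN : y - a ∈ (Qb j).N := ((Qb j).mem_N_tr a y).1 (Kc_sub_N _ (Gc_sub_Kc hy))
    have h1 := (mem_cel (mul_pos (by linarith) hsz)).1 (hN hyN) i
    have h2 : |a i| ≤ ‖a‖ := PiLp.norm_apply_le a i
    calc |y i - z i| = |((y - a) i - z i) + a i| := by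
          congr 1
          rw [PiLp.sub_apply]; ring
      _ ≤ |(y - a) i - z i| + |a i| := abs_add_le _ _
      _ ≤ _ := by linarith
  have hr : 0 < (1 - σ₀) * sz := mul_pos (by linarith) hsz
  have hWO : cel Cb z ((1 - σ₀) * sz) ⊆ W := by
    refine Subset.trans ?_ hW
    intro y hy
    rw [mem_cel hr] at hy
    rw [mem_cel hsz]
    intro i
    refine (hy i).trans ?_
    nlinarith
  exact gam_perf' H hf hΦ hκ hσ0 hσ1 hsz hP (near_of_mesh hme hWO hP) (Q := (Qb j).tr a) (h.hk j)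
    hc (fun y hy => Gc_sk1 h ha hy) hM' (u := u) (u1 := 2 * u) (le_of_eq hu.symm) (by linarith)
    (fun y hy y' hyy' => by
      have h1 : y' ∈ cel Cb z ((1 - σ₀) * sz) := by
        rw [mem_cel hr]
        intro i
        calc |y' i - z i| ≤ |y' i - y i| + |y i - z i| := abs_sub_le _ _ _
          _ ≤ (1 - σ₀) * sz := by
            have := hyy' i
            have := hin y hy i
            nlinarith
      obtain ⟨k, hk⟩ := (h.T a).cov y' (h.W_sub (hWO h1))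
      refine ⟨k, hD.sub k (zone y hy (w2.symm y') ?_ k ?_), hk⟩
      · refine (supn y y' u hu0.le hyy').trans ?_
        nlinarith
      · refine mem_P_Te.2 ?_
        rwa [w2.apply_symm_apply])
    (fun y hy k hks y' hk hyy' => by
      have h1 : k ∈ deepJ h a j K1 := by
        refine zone y hy (w2.symm y') ?_ k ?_
        · refine (supn y y' (2 * u) (by positivity) hyy').trans ?_
          nlinarith
        · refine mem_P_Te.2 ?_
          rwa [w2.apply_symm_apply]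
      refine ⟨by exact_mod_cast hD.hM k h1, le_trans (le_of_eq ?_) (hRk k h1)⟩
      ring)
    hρ
    (fun b' hb' y hy y0 hy0 => by
      by_contra hcon
      push Not at hcon
      refine hb'.2 (hD.hpr b' hb'.1.1 fun k hk => ?_)
      have h1 : y ∈ P ((Te (h.T a)).H k) := by
        rw [b'.set_eq] at hy
        exact (Te (h.T a)).cc_sub_tile hk hy
      refine zone y0 hy0 y (hcon.trans ?_) k h1
      nlinarith)
    (fun y hy i => by
      have := hin y hy i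
      nlinarith)
    he (by
      refine le_trans (le_of_eq ?_) hnum
      ring)

end

end Crest.Agent.R96.Gmt_538
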