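import Crest.Agent.R96.Hole8_348
import Crest.Agent.R096.Ce2_537

/-!
# R96, HOLE-FAMILY (helper348): locally finite families of macro cubes
-/

set_option autoImplicit false

open Set Metric Filter Topology MeasureTheory Module
open scoped ENNReal NNReal
open Crest.AnalysisR.VecCalc3 Crest.AnalysisR.Sobolev

namespace Crest.Agent.R96.Hole_348

open Crest.Agent.R096.Ce_537 Crest.Agent.R096.Bd_416 Crest.Agent.R096.Sk_962

section glue

variable {E : Type*} [NormedAddCommGroup E] [NormedSpace ℝ E]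

/-- **gluing homeomorphisms with disjoint supports** -/
theorem exists_glue_homeo {Om : Set E} {I : Type*} (O : I → Set E)
    (hO : ∀ i, O i ⊆ Om) (hdisj : Pairwise fun i j => Disjoint (O i) (O j))
    (hlf : ∀ x ∈ Om, ∃ U ∈ 𝓝 x, {i | (O i ∩ U).Nonempty}.Finite) (χ : I → (E ≃ₜ E))
    (hpl : ∀ i, PLOn (χ i) univ) (hpl' : ∀ i, PLOn (χ i).symm univ)
    (hout : ∀ i, ∀ x ∉ O i, χ i x = x) (hin : ∀ i, ∀ x ∈ O i, χ i x ∈ O i) :
    ∃ X Y : E → E, (∀ x, Y (X x) = x) ∧ (∀ x, X (Y x) = x) ∧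
      (∀ i, ∀ x ∈ O i, X x = χ i x ∧ Y x = (χ i).symm x) ∧
      (∀ x, (∀ i, x ∉ O i) → X x = x ∧ Y x = x) ∧
      (∀ i, ∀ x, X x ∈ O i ↔ x ∈ O i) ∧ (∀ x, X x ∈ Om ↔ x ∈ Om) ∧
      LocPL X Om ∧ LocPL Y Om := by
  classical
  have huniq : ∀ {i j : I} {x : E}, x ∈ O i → x ∈ O j → i = j := by
    intro i j x hi hj
    by_contra h
    exact disjoint_left.1 (hdisj h) hi hj
  have hout' : ∀ i, ∀ x ∉ O i, (χ i).symm x = x := by
    intro i x hx
    have := hout i x hx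
    conv_lhs => rw [← this]
    exact (χ i).symm_apply_apply x
  have hin' : ∀ i, ∀ x ∈ O i, (χ i).symm x ∈ O i := by
    intro i x hx
    by_contra h
    have h1 := hout i _ h
    rw [(χ i).apply_symm_apply] at h1
    rw [← h1] at h
    exact h hx
  -- general construction
  have key : ∀ ψ : I → (E ≃ₜ E), (∀ i, PLOn (ψ i) univ) → (∀ i, ∀ x ∉ O i, ψ i x = x) →
      (∀ i, ∀ x ∈ O i, ψ i x ∈ O i) → ∃ X : E → E, (∀ i, ∀ x ∈ O i, X x = ψ i x) ∧
        (∀ x, (∀ i, x ∉ O i) → X x = x) ∧ LocPL X Om := by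
    intro ψ h1 h2 h3
    set X : E → E := fun x => if h : ∃ i, x ∈ O i then ψ h.choose x else x with hX
    have hX1 : ∀ i, ∀ x ∈ O i, X x = ψ i x := by
      intro i x hx
      have h : ∃ i, x ∈ O i := ⟨i, hx⟩
      show (if h : ∃ i, x ∈ O i then ψ h.choose x else x) = _
      rw [dif_pos h, huniq h.choose_spec hx]
    have hX2 : ∀ x, (∀ i, x ∉ O i) → X x = x := by
      intro x hx
      show (if h : ∃ i, x ∈ O i then ψ h.choose x else x) = _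
      rw [dif_neg (by rintro ⟨i, hi⟩; exact hx i hi)]
    refine ⟨X, hX1, hX2, ?_⟩
    -- finite compositions
    have hfin : ∀ T : Finset I, ∃ Φ : E → E, PLOn Φ univ ∧
        (∀ i ∈ T, ∀ x ∈ O i, Φ x = ψ i x) ∧ (∀ x, (∀ i ∈ T, x ∉ O i) → Φ x = x) := by
      intro T
      induction T using Finset.induction_on with
      | empty => exact ⟨fun x => x, plOn_id _, by simp, by simp⟩
      | insert j T hj ih =>
        obtain ⟨Φ, hΦ, hΦ1, hΦ2⟩ := ih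
        refine ⟨fun x => ψ j (Φ x), (h1 j).comp hΦ (mapsTo_univ _ _), ?_, ?_⟩
        · intro i hi x hx
          rcases Finset.mem_insert.1 hi with h | h
          · subst h
            show ψ i (Φ x) = _
            rw [hΦ2 x (fun i' hi' hx' => hj (huniq hx hx' ▸ hi'))]
          · show ψ j (Φ x) = _
            rw [hΦ1 i h x hx]
            refine h2 j _ (fun h4 => hj ?_)
            rw [huniq h4 (h3 i x hx)]
            exact h
        · intro x hx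
          show ψ j (Φ x) = x
          rw [hΦ2 x (fun i hi => hx i (Finset.mem_insert_of_mem hi))]
          exact h2 j x (hx j (Finset.mem_insert_self _ _))
    intro x hx
    obtain ⟨U, hU, hUf⟩ := hlf x hx
    obtain ⟨r, hr, hrU⟩ := Metric.mem_nhds_iff.1 hU
    obtain ⟨Φ, hΦ, hΦ1, hΦ2⟩ := hfin hUf.toFinset
    refine ⟨r, hr, (hΦ.mono (subset_univ _)).congr ?_⟩
    intro y hy
    by_cases h : ∃ i, y ∈ O i
    · obtain ⟨i, hi⟩ := h
      rw [hX1 i y hi, hΦ1 i (hUf.mem_toFinset.2 ⟨y, hi, hrU hy⟩) y hi]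
    · rw [hX2 y (fun i hi => h ⟨i, hi⟩), hΦ2 y (fun i _ hi => h ⟨i, hi⟩)]
  obtain ⟨X, hX1, hX2, hX3⟩ := key χ hpl hout hin
  obtain ⟨Y, hY1, hY2, hY3⟩ := key (fun i => (χ i).symm) hpl' hout' hin'
  have hmem : ∀ i, ∀ x, X x ∈ O i ↔ x ∈ O i := by
    intro i x
    constructor
    · intro h
      by_cases h' : ∃ j, x ∈ O j
      · obtain ⟨j, hj⟩ := h'
        rw [hX1 j x hj] at h
        rw [huniq h (hin j x hj)]
        exact hj
      · rw [hX2 x (fun j hj => h' ⟨j, hj⟩)] at h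
        exact h
    · intro h
      rw [hX1 i x h]
      exact hin i x h
  refine ⟨X, Y, ?_, ?_, fun i x hx => ⟨hX1 i x hx, hY1 i x hx⟩, fun x hx => ⟨hX2 x hx, hY2 x hx⟩,
    hmem, ?_, hX3, hY3⟩
  · intro x
    by_cases h : ∃ i, x ∈ O i
    · obtain ⟨i, hi⟩ := h
      rw [hX1 i x hi, hY1 i _ (hin i x hi), (χ i).symm_apply_apply]
    · have h' : ∀ i, x ∉ O i := fun i hi => h ⟨i, hi⟩
      rw [hX2 x h', hY2 x h']
  · intro x
    by_cases h : ∃ i, x ∈ O i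
    · obtain ⟨i, hi⟩ := h
      rw [hY1 i x hi, hX1 i _ (hin' i x hi), (χ i).apply_symm_apply]
    · have h' : ∀ i, x ∉ O i := fun i hi => h ⟨i, hi⟩
      rw [hY2 x h', hX2 x h']
  · intro x
    by_cases h : ∃ i, x ∈ O i
    · obtain ⟨i, hi⟩ := h
      exact ⟨fun _ => hO i hi, fun _ => hO i ((hmem i x).2 hi)⟩
    · rw [hX2 x (fun i hi => h ⟨i, hi⟩)]

lemma LocPL.comp' {F G : Type*} [NormedAddCommGroup F] [NormedSpace ℝ F] [NormedAddCommGroup G]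
    [NormedSpace ℝ G] {f : E → F} {g : F → G} {Om : Set E} {La : Set F} (hg : LocPL g La)
    (hf : LocPL f Om) (hm : MapsTo f Om La) : LocPL (fun x => g (f x)) Om := by
  intro x hx
  obtain ⟨r, hr, hf1⟩ := hf x hx
  obtain ⟨ρ, hρ, hg1⟩ := hg (f x) (hm hx)
  have hc : ContinuousAt f x := hf1.1.continuousAt (ball_mem_nhds x hr)
  obtain ⟨s, hs, hs1⟩ := Metric.mem_nhds_iff.1 (hc (ball_mem_nhds (f x) hρ))
  refine ⟨min r s, lt_min hr hs, hg1.comp (hf1.mono (ball_subset_ball (min_le_left _ _))) ?_⟩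
  intro y hy
  exact hs1 (ball_subset_ball (min_le_right _ _) hy)

lemma LocPL.continuousOn' {F : Type*} [NormedAddCommGroup F] [NormedSpace ℝ F] {f : E → F}
    {Om : Set E} (hf : LocPL f Om) : ContinuousOn f Om := by
  intro x hx
  obtain ⟨r, hr, hf1⟩ := hf x hx
  exact (hf1.1.continuousAt (ball_mem_nhds x hr)).continuousWithinAt

end glue

/-- transfer of an energy bound to a map with the same germs at almost all points -/
lemma EnCov.congr {E G : Type*} [NormedAddCommGroup E] [MeasurableSpace E]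
    [NormedAddCommGroup G] {m : Measure E} {p : ℝ} {f f' : E → G} {K : Set E} {A : ENNReal}
    (hK : MeasurableSet K) (h : ∀ᵐ x ∂m, x ∈ K → f' =ᶠ[𝓝 x] f) (H : EnCov m p f K A) :
    EnCov m p f' K A := by
  obtain ⟨J, i, S, c, hS, hc, hcov, hL, hA⟩ := H
  refine ⟨J, i, fun j => S j ∩ K, c, fun j => (hS j).inter hK, hc, ?_, ?_, ?_⟩
  · intro x hx
    obtain ⟨j, hj⟩ := mem_iUnion.1 (hcov hx)
    exact mem_iUnion.2 ⟨j, hj, hx⟩
  · intro j
    filter_upwards [hL j, h] with x h1 h2 hx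
    have h3 := h2 hx.2
    have h4 := h1 hx.1
    have h5 : f' x = f x := h3.eq_of_nhds
    filter_upwards [h3, h4] with y h6 h7
    rw [h6, h5]
    exact h7
  · exact (Finset.sum_le_sum fun j _ => mul_le_mul' le_rfl (measure_mono inter_subset_left)).trans
      hA

section cubes

variable {V : R3 ≃ₗᵢ[ℝ] R3} {a : R3} {R : ℝ}

lemma isClosed_Kc (hR : 0 < R) : IsClosed (Kc V a R) := by
  have : Kc V a R = dn V a R ⁻¹' closedBall 0 1 := by
    ext y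
    rw [mem_preimage, mem_closedBall_zero_iff, mem_Kc_iff hR]
  rw [this]
  exact isClosed_closedBall.preimage continuous_dn

lemma isOpen_Ko (hR : 0 < R) : IsOpen (Ko V a R) := by
  have : Ko V a R = dn V a R ⁻¹' ball 0 1 := by
    ext y
    rw [mem_preimage, mem_ball_zero_iff, mem_Ko_iff hR]
  rw [this]
  exact isOpen_ball.preimage continuous_dn

lemma Ko_sub_Kc (hR : 0 < R) : Ko V a R ⊆ Kc V a R := by
  intro y hy
  rw [mem_Ko_iff hR] at hy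
  exact (mem_Kc_iff hR).2 hy.le

lemma volume_bd (hR : 0 < R) : volume (Kc V a R \ Ko V a R) = 0 := by
  have h1 : Kc V a R \ Ko V a R = dn V a R ⁻¹' sphere 0 1 := by
    ext y
    rw [mem_preimage, mem_sphere_zero_iff_norm, Set.mem_sdiff, mem_Kc_iff hR, mem_Ko_iff hR, not_lt]
    exact ⟨fun h => le_antisymm h.1 h.2, fun h => ⟨h.le, h.ge⟩⟩
  rw [h1]
  refine le_antisymm ((volume_dn hR _).trans ?_) zero_le
  rw [Measure.addHaar_sphere, mul_zero]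

end cubes

/-- a locally finite family of cubes in `Om` with pairwise disjoint interiors -/
structure CubeFam (Om : Set R3) {I : Type*} (V : I → (R3 ≃ₗᵢ[ℝ] R3)) (a : I → R3) (R : I → ℝ) :
    Prop where
  pos : ∀ i, 0 < R i
  sub : ∀ i, Kc (V i) (a i) (R i) ⊆ Om
  disj : Pairwise fun i j => Disjoint (Ko (V i) (a i) (R i)) (Ko (V j) (a j) (R j))
  lf : ∀ x ∈ Om, ∃ U ∈ 𝓝 x, {i | (Kc (V i) (a i) (R i) ∩ U).Nonempty}.Finite

/-- **HOLE-FAMILY**: domain squeeze of a locally finite family of macro cubes; only the local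
Lipschitz constants of `g` restricted to the boundary of each cube count. -/
theorem hole_family {p : ℝ} (hp0 : 0 < p) (hp3 : p < 3) {G : Type*} [NormedAddCommGroup G]
    [NormedSpace ℝ G] {Om : Set R3} {I : Type*} {V : I → (R3 ≃ₗᵢ[ℝ] R3)} {a : I → R3} {R : I → ℝ}
    (hfam : CubeFam Om V a R) {r : I → ℝ} (hr0 : ∀ i, 0 < r i) (hrR : ∀ i, r i ≤ R i)
    (ι : I → Type) [∀ i, Fintype (ι i)] (F : ∀ i, ι i → Set R3)
    (hFc : ∀ i j, IsClosed (F i j)) (hd : ∀ i j, ∀ x ∈ F i j, ∀ y ∈ F i j, ‖x - y‖ ≤ r i)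
    (hcov : ∀ i, Kc (V i) (a i) (R i) \ Ko (V i) (a i) (R i) ⊆ ⋃ j, F i j)
    {μ : ∀ i, ι i → ℝ} (hμ : ∀ i j, 0 ≤ μ i j) {g : R3 → G}
    (hg : ∀ i, PLOn g (Kc (V i) (a i) (R i)))
    (htr : ∀ i j, ∀ ω ∈ F i j, ω ∈ Kc (V i) (a i) (R i) \ Ko (V i) (a i) (R i) →
      ω ∈ closure (TB (μ i j) g (Kc (V i) (a i) (R i) \ Ko (V i) (a i) (R i))))
    {ε : I → ℝ} (hε : ∀ i, 0 < ε i) :
    ∃ X Y : R3 → R3, (∀ x, Y (X x) = x) ∧ (∀ x, X (Y x) = x) ∧
      (∀ x, (∀ i, x ∉ Ko (V i) (a i) (R i)) → X x = x ∧ Y x = x) ∧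
      (∀ i, ∀ x, X x ∈ Ko (V i) (a i) (R i) ↔ x ∈ Ko (V i) (a i) (R i)) ∧
      (∀ x, X x ∈ Om ↔ x ∈ Om) ∧ LocPL X Om ∧ LocPL Y Om ∧
      ∀ i, EnCov volume p (fun x => g (X x)) (Kc (V i) (a i) (R i))
        (ENNReal.ofReal (Chole3 p * (R i * (r i)^2) * ∑ j, μ i j ^ p + ε i)) := by
  have h1 := fun i => hole_trace hp0 hp3 (V i) (a i) (hr0 i) (hrR i) (F i) (hFc i) (hd i) (hcov i)
    (hμ i) (hg i) (htr i) (hε i)
  choose χ hχ1 hχ2 hχ3 hχ4 hχ5 using h1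
  obtain ⟨X, Y, e1, e2, e3, e4, e5, e6, e7, e8⟩ := exists_glue_homeo
    (Om := Om) (fun i => Ko (V i) (a i) (R i))
    (fun i => (Ko_sub_Kc (hfam.pos i)).trans (hfam.sub i)) hfam.disj (by
      intro x hx
      obtain ⟨U, hU, hf⟩ := hfam.lf x hx
      refine ⟨U, hU, hf.subset ?_⟩
      rintro i ⟨y, hy1, hy2⟩
      exact ⟨y, Ko_sub_Kc (hfam.pos i) hy1, hy2⟩) χ hχ1 hχ2 hχ3 hχ4
  refine ⟨X, Y, e1, e2, e4, e5, e6, e7, e8, fun i => ?_⟩
  refine (hχ5 i).congr (isClosed_Kc (hfam.pos i)).measurableSet ?_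
  have h2 : ∀ᵐ x : R3, x ∉ Kc (V i) (a i) (R i) \ Ko (V i) (a i) (R i) :=
    measure_eq_zero_iff_ae_notMem.1 (volume_bd (hfam.pos i))
  filter_upwards [h2] with x hx hxK
  have h3 : x ∈ Ko (V i) (a i) (R i) := by
    by_contra h
    exact hx ⟨hxK, h⟩
  filter_upwards [(isOpen_Ko (hfam.pos i)).mem_nhds h3] with y hy
  show g (X y) = g (χ i y)
  rw [(e3 i y hy).1]

/-- **HOLE-FAMILY for homeomorphisms** `g : Om → La`, locally PL. -/
theorem hole_family_homeo {p : ℝ} (hp0 : 0 < p) (hp3 : p < 3) {Om La : Set R3} {I : Type*}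
    {V : I → (R3 ≃ₗᵢ[ℝ] R3)} {a : I → R3} {R : I → ℝ}
    (hfam : CubeFam Om V a R) {r : I → ℝ} (hr0 : ∀ i, 0 < r i) (hrR : ∀ i, r i ≤ R i)
    (ι : I → Type) [∀ i, Fintype (ι i)] (F : ∀ i, ι i → Set R3)
    (hFc : ∀ i j, IsClosed (F i j)) (hd : ∀ i j, ∀ x ∈ F i j, ∀ y ∈ F i j, ‖x - y‖ ≤ r i)
    (hcov : ∀ i, Kc (V i) (a i) (R i) \ Ko (V i) (a i) (R i) ⊆ ⋃ j, F i j)
    {μ : ∀ i, ι i → ℝ} (hμ : ∀ i j, 0 ≤ μ i j) {g ginv : R3 → R3}
    (hm : MapsTo g Om La) (hm' : MapsTo ginv La Om) (hl : ∀ x ∈ Om, ginv (g x) = x)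
    (hr : ∀ y ∈ La, g (ginv y) = y) (hPL : LocPL g Om) (hPL' : LocPL ginv La)
    (hg : ∀ i, PLOn g (Kc (V i) (a i) (R i)))
    (htr : ∀ i j, ∀ ω ∈ F i j, ω ∈ Kc (V i) (a i) (R i) \ Ko (V i) (a i) (R i) →
      ω ∈ closure (TB (μ i j) g (Kc (V i) (a i) (R i) \ Ko (V i) (a i) (R i))))
    {ε : I → ℝ} (hε : ∀ i, 0 < ε i) :
    ∃ g' ginv' : R3 → R3, MapsTo g' Om La ∧ MapsTo ginv' La Om ∧ (∀ x ∈ Om, ginv' (g' x) = x) ∧
      (∀ y ∈ La, g' (ginv' y) = y) ∧ LocPL g' Om ∧ LocPL ginv' La ∧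
      (∀ x, (∀ i, x ∉ Ko (V i) (a i) (R i)) → g' x = g x) ∧
      (∀ i, ∀ x ∈ Ko (V i) (a i) (R i), ∃ x' ∈ Ko (V i) (a i) (R i), g' x = g x') ∧
      ∀ i, EnCov volume p g' (Kc (V i) (a i) (R i))
        (ENNReal.ofReal (Chole3 p * (R i * (r i)^2) * ∑ j, μ i j ^ p + ε i)) := by
  obtain ⟨X, Y, e1, e2, e3, e4, e5, e6, e7, e8⟩ := hole_family hp0 hp3 hfam hr0 hrR ι F hFc hd hcov
    hμ hg htr hε
  refine ⟨fun x => g (X x), fun y => Y (ginv y), ?_, ?_, ?_, ?_, ?_, ?_, ?_, ?_, e8⟩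
  · intro x hx
    exact hm ((e5 x).2 hx)
  · intro y hy
    show Y (ginv y) ∈ Om
    rw [← e5, e2]
    exact hm' hy
  · intro x hx
    show Y (ginv (g (X x))) = x
    rw [hl _ ((e5 x).2 hx), e1]
  · intro y hy
    show g (X (Y (ginv y))) = y
    rw [e2, hr y hy]
  · exact LocPL.comp' hPL e6 (fun x hx => (e5 x).2 hx)
  · exact LocPL.comp' e7 hPL' hm'
  · intro x hx
    show g (X x) = g x
    rw [(e3 x hx).1]
  · intro i x hx
    exact ⟨X x, (e4 i x).2 hx, rfl⟩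

end Crest.Agent.R96.Hole_348
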