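import Crest.Agent.R96.Hr4_348
import Crest.Agent.R96.Hole9_348
import Crest.Agent.R096.Str1_696

/-!
# R96, EA-ASM: the hole squeeze in all macro balls of a tiling at once (helper348)
-/

set_option autoImplicit false

open Set Metric Filter Topology MeasureTheory Module
open scoped ENNReal NNReal

namespace Crest.Agent.R96.Hole_348

open Crest.Agent.R096.Ce_537 Crest.Agent.R096.Bd_416 Crest.Agent.R096.Msh_715

section pl

variable {E F : Type*} [NormedAddCommGroup E] [NormedSpace ℝ E] [NormedAddCommGroup F]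
  [NormedSpace ℝ F]

/-- the two forms of `LocPL` -/
lemma locPL_iff {f : E → F} {Om : Set E} :
    LocPL f Om ↔ Crest.Agent.R096.Str_696.LocPL f Om := by
  constructor
  · intro h x hx
    obtain ⟨r, hr, h1, S, h2⟩ := h x hx
    exact ⟨r, hr, S, h1, h2⟩
  · intro h x hx
    obtain ⟨r, hr, S, h1, h2⟩ := h x hx
    exact ⟨r, hr, h1, S, h2⟩

/-- locally PL maps are PL on compact sets -/
lemma plOn_of_locPL {f : E → F} {Om K : Set E} (h : LocPL f Om) (hK : IsCompact K)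
    (hKO : K ⊆ Om) : PLOn f K := by
  classical
  choose! r hr hf using h
  obtain ⟨t, ht, hc⟩ := hK.elim_nhds_subcover (fun x => ball x (r x))
    (fun x hx => ball_mem_nhds x (hr x (hKO hx)))
  have hS : ∀ x, ∃ S : Finset (E →ᵃ[ℝ] F), x ∈ K → ∀ y ∈ ball x (r x), ∃ g ∈ S, f y = g y := by
    intro x
    by_cases hx : x ∈ K
    · obtain ⟨_, S, hS⟩ := hf x (hKO hx)
      exact ⟨S, fun _ => hS⟩
    · exact ⟨∅, fun h => absurd h hx⟩
  choose S hS using hS
  refine ⟨?_, t.biUnion S, ?_⟩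
  · intro x hx
    exact ((hf x (hKO hx)).1.continuousAt (ball_mem_nhds x (hr x (hKO hx)))).continuousWithinAt
  · intro y hy
    have h1 := hc hy
    simp only [mem_iUnion] at h1
    obtain ⟨x, hx, hxy⟩ := h1
    obtain ⟨g, hg, e⟩ := hS x (ht x hx) y hxy
    exact ⟨g, Finset.mem_biUnion.2 ⟨x, hx, hg⟩, e⟩

end pl

variable {n : ℕ}

/-- a locally finite family of closed balls in `Om`, pairwise disjoint, with rings -/
structure RingFam (Om : Set (Fin n → ℝ)) {κ : Type*} (a : κ → Fin n → ℝ) (R0 R1 : κ → ℝ) :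
    Prop where
  pos : ∀ c, 0 ≤ R0 c
  lt : ∀ c, R0 c < R1 c
  sub : ∀ c, closedBall (a c) (R1 c) ⊆ Om
  disj : Pairwise fun c c' => Disjoint (closedBall (a c) (R1 c)) (closedBall (a c') (R1 c'))
  lf : ∀ x ∈ Om, ∃ U ∈ 𝓝 x, {c | (closedBall (a c) (R1 c) ∩ U).Nonempty}.Finite

/-- **HOLE-FAM**: the hole squeeze in a locally finite family of disjoint macro balls; the energy
on every macro ball is controlled by the energy of the tiles in its ring. -/
theorem hole_fam {p : ℝ} (hp0 : 0 < p) (hpn : p < n) {Om La : Set (Fin n → ℝ)} {ι : Type}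
    (T : Tiling Om ι) {κ : Type*} {a : κ → Fin n → ℝ} {R0 R1 : κ → ℝ} (hF : RingFam Om a R0 R1)
    {g : (Fin n → ℝ) → (Fin n → ℝ)}
    (hg : ∃ gi : (Fin n → ℝ) → (Fin n → ℝ), MapsTo g Om La ∧ MapsTo gi La Om ∧
      (∀ x ∈ Om, gi (g x) = x) ∧ (∀ y ∈ La, g (gi y) = y) ∧ ContinuousOn g Om ∧
      ContinuousOn gi La)
    (hgp : Crest.Agent.R096.Str_696.LocPL g Om) {d : ι → ℝ} {μ : κ → ι → ℝ} (S : κ → Finset ι)
    (hS : ∀ c i, (P (T.H i) ∩ (ball (a c) (R1 c) \ closedBall (a c) (R0 c))).Nonempty → i ∈ S c)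
    (hd0 : ∀ c, ∀ i ∈ S c, 0 < d i)
    (hd : ∀ c, ∀ i ∈ S c, ∀ x ∈ P (T.H i), ∀ y ∈ P (T.H i), ‖x - y‖ ≤ d i)
    (hμ : ∀ c, ∀ i ∈ S c, 0 ≤ μ c i)
    (hL : ∀ c, ∀ i ∈ S c, ∀ x ∈ I (T.H i), x ∈ ball (a c) (R1 c) → x ∉ closedBall (a c) (R0 c) →
      LLV (μ c i) g x) {ε : κ → ℝ} (hε : ∀ c, 0 < ε c) :
    ∃ g' : (Fin n → ℝ) → (Fin n → ℝ),
      (∃ gi : (Fin n → ℝ) → (Fin n → ℝ), MapsTo g' Om La ∧ MapsTo gi La Om ∧
        (∀ x ∈ Om, gi (g' x) = x) ∧ (∀ y ∈ La, g' (gi y) = y) ∧ ContinuousOn g' Om ∧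
        ContinuousOn gi La) ∧
      Crest.Agent.R096.Str_696.LocPL g' Om ∧
      (∀ x, (∀ c, x ∉ closedBall (a c) (R1 c)) → g' x = g x) ∧
      (∀ x ∈ Om, (∀ c, x ∉ closedBall (a c) (R1 c)) → g' =ᶠ[𝓝 x] g) ∧
      (∀ c, ∀ x ∈ closedBall (a c) (R1 c), ∃ x' ∈ closedBall (a c) (R1 c), g' x = g x') ∧
      ∀ c, EnCov volume p g' (closedBall (a c) (R1 c))
        (ENNReal.ofReal (Chr n p (2 * R1 c / (R1 c - R0 c)) *
          ∑ i ∈ S c, d i ^ n * μ c i ^ p + ε c)) := by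
  have hgp' : LocPL g Om := locPL_iff.2 hgp
  have h1 := fun c => hole_tiling hp0 hpn T (a c) (hF.pos c) (hF.lt c) (hF.sub c) (S c) (hS c)
    (hd0 c) (hd c) (hμ c) (plOn_of_locPL hgp' (isCompact_closedBall _ _) (hF.sub c)) (hL c) (hε c)
  choose R hR χ hχ1 hχ2 hχ3 hχ4 hχ5 using h1
  have hRsub : ∀ c, ball (a c) (R c) ⊆ closedBall (a c) (R1 c) := fun c =>
    (ball_subset_ball (hR c).2.le).trans ball_subset_closedBall
  obtain ⟨X, Y, e1, e2, e3, e4, e5, e6, e7, e8⟩ := exists_glue_homeo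
    (Om := Om) (fun c => ball (a c) (R c)) (fun c => (hRsub c).trans (hF.sub c))
    (fun c c' hcc => (hF.disj hcc).mono (hRsub c) (hRsub c')) (by
      intro x hx
      obtain ⟨U, hU, hf⟩ := hF.lf x hx
      refine ⟨U, hU, hf.subset ?_⟩
      rintro c ⟨y, hy1, hy2⟩
      exact ⟨y, hRsub c hy1, hy2⟩) χ hχ1 hχ2 hχ3 hχ4
  obtain ⟨gi, g1, g2, g3, g4, g5, g6⟩ := hg
  -- on the whole closed macro ball, `X` is `χ c`
  have hXc : ∀ c, ∀ x ∈ closedBall (a c) (R1 c), X x = χ c x := by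
    intro c x hx
    by_cases hxc : x ∈ ball (a c) (R c)
    · exact (e3 c x hxc).1
    · rw [hχ3 c x hxc]
      refine (e4 x fun c' hxc' => ?_).1
      by_cases hcc : c' = c
      · rw [hcc] at hxc'
        exact hxc hxc'
      · exact Set.disjoint_left.1 (hF.disj hcc) (hRsub c' hxc') hx
  have hXm : ∀ c, ∀ x ∈ closedBall (a c) (R1 c), X x ∈ closedBall (a c) (R1 c) := by
    intro c x hx
    by_cases hxc : x ∈ ball (a c) (R c)
    · exact hRsub c ((e5 c x).2 hxc)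
    · rw [hXc c x hx, hχ3 c x hxc]
      exact hx
  have hXo : ∀ x, (∀ c, x ∉ closedBall (a c) (R1 c)) → X x = x := fun x hx =>
    (e4 x fun c hxc => hx c (hRsub c hxc)).1
  have hXC : ContinuousOn X Om := LocPL.continuousOn' e7
  have hYC : ContinuousOn Y Om := LocPL.continuousOn' e8
  have hYO : ∀ x ∈ Om, Y x ∈ Om := by
    intro x hx
    rw [← e6, e2]
    exact hx
  refine ⟨fun x => g (X x), ⟨fun y => Y (gi y), ?_, ?_, ?_, ?_, ?_, ?_⟩, ?_, ?_, ?_, ?_, ?_⟩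
  · intro x hx
    exact g1 ((e6 x).2 hx)
  · intro y hy
    exact hYO _ (g2 hy)
  · intro x hx
    show Y (gi (g (X x))) = x
    rw [g3 _ ((e6 x).2 hx), e1]
  · intro y hy
    show g (X (Y (gi y))) = y
    rw [e2, g4 y hy]
  · exact g5.comp hXC fun x hx => (e6 x).2 hx
  · exact hYC.comp g6 g2
  · exact locPL_iff.1 (LocPL.comp' hgp' e7 fun x hx => (e6 x).2 hx)
  · intro x hx
    show g (X x) = g x
    rw [hXo x hx]
  · intro x hxO hx
    -- the union of the closed balls is closed near `x`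
    obtain ⟨U, hU, hf⟩ := hF.lf x hxO
    have h2 : IsClosed (⋃ c ∈ {c | (closedBall (a c) (R1 c) ∩ U).Nonempty},
        closedBall (a c) (R1 c)) := hf.isClosed_biUnion fun c _ => isClosed_closedBall
    have h3 : x ∉ ⋃ c ∈ {c | (closedBall (a c) (R1 c) ∩ U).Nonempty},
        closedBall (a c) (R1 c) := by
      simp only [mem_iUnion, not_exists]
      intro c _
      exact hx c
    filter_upwards [hU, h2.isOpen_compl.mem_nhds h3] with y hyU hy
    show g (X y) = g y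
    rw [hXo y]
    intro c hyc
    apply hy
    simp only [mem_iUnion]
    exact ⟨c, ⟨y, hyc, hyU⟩, hyc⟩
  · intro c x hx
    exact ⟨X x, hXm c x hx, rfl⟩
  · intro c
    refine (hχ5 c).congr isClosed_closedBall.measurableSet ?_
    have hR1 : 0 < R1 c := ((hF.pos c).trans_lt (hF.lt c))
    have h2 : ∀ᵐ x : Fin n → ℝ, x ∉ sphere (a c) (R1 c) :=
      measure_eq_zero_iff_ae_notMem.1 (Measure.addHaar_sphere_of_ne_zero volume _ hR1.ne')
    filter_upwards [h2] with x hx hxK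
    have h3 : x ∈ ball (a c) (R1 c) := by
      rw [mem_ball]
      rw [mem_closedBall] at hxK
      exact lt_of_le_of_ne hxK hx
    filter_upwards [isOpen_ball.mem_nhds h3] with y hy
    show g (X y) = g (χ c y)
    rw [hXc c y (ball_subset_closedBall hy)]

/-- countably many balls -/
lemma RingFam.countable {Om : Set (Fin n → ℝ)} {κ : Type*} {a : κ → Fin n → ℝ} {R0 R1 : κ → ℝ}
    (hF : RingFam Om a R0 R1) : Countable κ := by
  have h1 : (univ : Set κ).Countable := by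
    refine Set.PairwiseDisjoint.countable_of_isOpen (s := fun c => ball (a c) (R1 c))
      (a := univ) ?_ (fun c _ => isOpen_ball)
      (fun c _ => ⟨a c, mem_ball_self ((hF.pos c).trans_lt (hF.lt c))⟩)
    intro c _ c' _ hcc
    exact (hF.disj hcc).mono ball_subset_closedBall ball_subset_closedBall
  exact countable_univ_iff.1 h1

/-- **energy after the hole squeeze** -/
theorem hole_fam_energy {p : ℝ} (hp : 1 ≤ p) {Om : Set (Fin n → ℝ)} (hO : IsOpen Om)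
    {κ : Type*} {a : κ → Fin n → ℝ} {R0 R1 : κ → ℝ} (hF : RingFam Om a R0 R1)
    {g g' : (Fin n → ℝ) → (Fin n → ℝ)}
    (hfar : ∀ x ∈ Om, (∀ c, x ∉ closedBall (a c) (R1 c)) → g' =ᶠ[𝓝 x] g) {A : κ → ℝ≥0∞}
    (hA : ∀ c, EnCov volume p g' (closedBall (a c) (R1 c)) (A c))
    (D : (Fin n → ℝ) → ((Fin n → ℝ) →L[ℝ] (Fin n → ℝ))) :
    ∫⁻ x in Om, ‖fderiv ℝ g' x - D x‖ₑ ^ p ≤
      (∫⁻ x in Om \ ⋃ c, closedBall (a c) (R1 c), ‖fderiv ℝ g x - D x‖ₑ ^ p) +
        2 ^ (p - 1) * ∑' c, (A c + ∫⁻ x in closedBall (a c) (R1 c), ‖D x‖ₑ ^ p) := by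
  have hκ : Countable κ := hF.countable
  have hm : MeasurableSet (⋃ c, closedBall (a c) (R1 c)) :=
    MeasurableSet.iUnion fun c => isClosed_closedBall.measurableSet
  have hsub : (⋃ c, closedBall (a c) (R1 c)) ⊆ Om := iUnion_subset hF.sub
  have h1 : ∫⁻ x in Om, ‖fderiv ℝ g' x - D x‖ₑ ^ p ≤
      (∫⁻ x in Om \ ⋃ c, closedBall (a c) (R1 c), ‖fderiv ℝ g' x - D x‖ₑ ^ p) +
      ∫⁻ x in ⋃ c, closedBall (a c) (R1 c), ‖fderiv ℝ g' x - D x‖ₑ ^ p := by
    have e : Om = (Om \ ⋃ c, closedBall (a c) (R1 c)) ∪ ⋃ c, closedBall (a c) (R1 c) :=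
      (sdiff_union_of_subset hsub).symm
    conv_lhs => rw [e]
    exact lintegral_union_le _ _ _
  have h2 : ∫⁻ x in Om \ ⋃ c, closedBall (a c) (R1 c), ‖fderiv ℝ g' x - D x‖ₑ ^ p =
      ∫⁻ x in Om \ ⋃ c, closedBall (a c) (R1 c), ‖fderiv ℝ g x - D x‖ₑ ^ p := by
    refine setLIntegral_congr_fun (hO.measurableSet.diff hm) fun x hx => ?_
    have h3 := hfar x hx.1 fun c hc => hx.2 (mem_iUnion.2 ⟨c, hc⟩)
    simp only [h3.fderiv_eq]
  have h3 : ∫⁻ x in ⋃ c, closedBall (a c) (R1 c), ‖fderiv ℝ g' x - D x‖ₑ ^ p ≤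
      2 ^ (p - 1) * ∑' c, (A c + ∫⁻ x in closedBall (a c) (R1 c), ‖D x‖ₑ ^ p) := by
    refine (lintegral_iUnion_le _ _).trans ?_
    rw [← ENNReal.tsum_mul_left]
    refine ENNReal.tsum_le_tsum fun c => ?_
    have hmeas : Measurable fun x => ‖fderiv ℝ g' x‖ₑ ^ p :=
      (measurable_fderiv ℝ g').enorm.pow_const p
    calc ∫⁻ x in closedBall (a c) (R1 c), ‖fderiv ℝ g' x - D x‖ₑ ^ p
        ≤ ∫⁻ x in closedBall (a c) (R1 c),
            2 ^ (p - 1) * (‖fderiv ℝ g' x‖ₑ ^ p + ‖D x‖ₑ ^ p) := by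
          refine lintegral_mono fun x => ?_
          refine (ENNReal.rpow_le_rpow (enorm_sub_le) (by linarith)).trans ?_
          exact ENNReal.rpow_add_le_mul_rpow_add_rpow _ _ hp
      _ = 2 ^ (p - 1) * ∫⁻ x in closedBall (a c) (R1 c),
            (‖fderiv ℝ g' x‖ₑ ^ p + ‖D x‖ₑ ^ p) :=
          lintegral_const_mul' _ _ (ENNReal.rpow_ne_top_of_nonneg (by linarith) (by simp))
      _ = 2 ^ (p - 1) * ((∫⁻ x in closedBall (a c) (R1 c), ‖fderiv ℝ g' x‖ₑ ^ p) +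
            ∫⁻ x in closedBall (a c) (R1 c), ‖D x‖ₑ ^ p) := by
          rw [lintegral_add_left hmeas]
      _ ≤ _ := by
          gcongr
          exact (hA c).fderiv_le (by linarith)
  rw [h2] at h1
  exact h1.trans (add_le_add le_rfl h3)

end Crest.Agent.R96.Hole_348
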