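import Crest.Agent.R096.Ho5_627

/-!
# Row 96, U2 PUSH (helper899): the hole-opening homeomorphism of 627 is locally almost as Lipschitz as
the collapse map `th`, off the holes.
-/

set_option autoImplicit false
set_option linter.unusedSectionVars false
set_option linter.unusedVariables false
set_option linter.style.longLine false

open Set Filter Metric Topology

namespace Crest.Agent.R96.HoL_899

open Crest.Agent.R096.Ho_627 Crest.Agent.R096.ThC6_766 Crest.Agent.R096

variable {V : Type*} [NormedAddCommGroup V] [InnerProductSpace ℝ V] {ι : Type*}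
variable {L : Set V} {C : ℝ} {e : V → ℝ} {th : V → V} {yc : ι → V} {R : ι → ℝ}

/-- the solutions off the holes -/
theorem fix_loc (h : Holes L C e th yc R) (hC1 : 1 ≤ C) {y y' q q' : V}
    (hq : FF L th yc R y q = q) (hq' : FF L th yc R y' q' = q')
    (hy : ∀ c, R c / 4 ≤ ‖y - yc c‖) (hy' : ∀ c, R c / 4 ≤ ‖y' - yc c‖)
    (h2 : ∀ c, 2 * R c ≤ ‖q - th (yc c)‖) (h2' : ∀ c, 2 * R c ≤ ‖q' - th (yc c)‖)
    {κ : ℝ} (hκ : κ ≤ 1) (he : e y' ≤ κ) :
    ‖q - q'‖ ≤ C * (1 + κ) * ‖y - y'‖ := by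
  have hκ0 : 0 ≤ κ := (h.sc.nonneg y').trans he
  have c1 : col yc (fun c => R c / 8) univ y = y := col_out fun c _ => by
    have := hy c
    linarith
  have c2 : col yc (fun c => R c / 8) univ y' = y' := col_out fun c _ => by
    have := hy' c
    linarith
  obtain ⟨-, e1⟩ := sol_eq h hq
  obtain ⟨-, e2⟩ := sol_eq h hq'
  rw [c1, TT_none h2, add_zero] at e1
  rw [c2, TT_none h2', add_zero] at e2
  have hn := sol_near h hq'
  set Z := ZZ L th yc R with hZ
  set a : ℝ := del Z q with ha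
  set b : ℝ := del Z q' with hb
  have ha0 : 0 ≤ a := del_nonneg Z q
  have hab : |a - b| ≤ ‖q - q'‖ / 32 := del_lip Z q q'
  have key : (1 + a) • (q - q') = (th y - th y') + a • (y - y') + (a - b) • (y' - q') := by
    have e6 : q - q' = (th y - th y') + a • (y - y') + (a - b) • (y' - q') - a • (q - q') := by
      calc q - q' = (th y + a • (y - q)) - (th y' + b • (y' - q')) := by rw [← e1, ← e2]
        _ = _ := by module
    calc (1 + a) • (q - q') = (q - q') + a • (q - q') := by module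
      _ = ((th y - th y') + a • (y - y') + (a - b) • (y' - q') - a • (q - q')) + a • (q - q') := by
          rw [← e6]
      _ = _ := by abel
  have n1 : (1 + a) * ‖q - q'‖ = ‖(1 + a) • (q - q')‖ := by
    rw [norm_smul, Real.norm_eq_abs, abs_of_nonneg (by linarith)]
  have n2 : ‖th y - th y'‖ ≤ C * ‖y - y'‖ := h.lip y y'
  have n3 : ‖a • (y - y')‖ = a * ‖y - y'‖ := by
    rw [norm_smul, Real.norm_eq_abs, abs_of_nonneg ha0]
  have n4 : ‖(a - b) • (y' - q')‖ ≤ ‖q - q'‖ / 32 * (5 / 4 * κ) := by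
    rw [norm_smul, Real.norm_eq_abs, norm_sub_rev]
    refine mul_le_mul hab (hn.trans ?_) (norm_nonneg _) (by positivity)
    linarith
  have n5 : (1 + a) * ‖q - q'‖ ≤ C * ‖y - y'‖ + a * ‖y - y'‖ + ‖q - q'‖ / 32 * (5 / 4 * κ) := by
    rw [n1, key]
    refine norm_add₃_le.trans ?_
    rw [n3]
    linarith
  set X := ‖q - q'‖ with hX
  set Y := ‖y - y'‖ with hY
  have hX0 : 0 ≤ X := norm_nonneg _
  have hY0 : 0 ≤ Y := norm_nonneg _
  -- `(1 + a - 5 κ / 128) X ≤ (C + a) Y ≤ C (1 + a) Y`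
  have n6 : (1 + a - 5 / 128 * κ) * X ≤ C * (1 + a) * Y := by
    have : a * Y ≤ C * a * Y := by nlinarith [mul_nonneg ha0 hY0]
    nlinarith
  have n7 : (1 + a) * X ≤ (1 + a) * (C * (1 + κ) * Y) := by
    have n8 : 1 + a ≤ (1 + κ) * (1 + a - 5 / 128 * κ) := by nlinarith [mul_nonneg hκ0 ha0]
    calc (1 + a) * X ≤ ((1 + κ) * (1 + a - 5 / 128 * κ)) * X := mul_le_mul_of_nonneg_right n8 hX0
      _ = (1 + κ) * ((1 + a - 5 / 128 * κ) * X) := by ring
      _ ≤ (1 + κ) * (C * (1 + a) * Y) := mul_le_mul_of_nonneg_left n6 (by linarith)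
      _ = _ := by ring
  exact le_of_mul_le_mul_left n7 (by linarith)

/-- 627's `hole_opening` with the local clause. -/
theorem hole_opening' [FiniteDimensional ℝ V] (h : Holes L C e th yc R) (hC1 : 1 ≤ C) :
    ∃ Th : V ≃ₜ V, (∀ y, y ∉ L → Th y = y) ∧ (∀ y, Th y ∈ L ↔ y ∈ L) ∧
      (∀ y, ‖Th y - y‖ ≤ 5 / 4 * e y) ∧
      (∀ y y', ‖Th y - Th y'‖ ≤ 25 / 2 * ‖y - y'‖) ∧
      (∀ c y, ‖y - yc c‖ ≤ R c / 16 → Th y = th (yc c) + (y - yc c)) ∧
      (∀ c y, ‖Th y - th (yc c)‖ ≤ R c / 16 → y = yc c + (Th y - th (yc c))) ∧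
      (∀ y, th y = y → (∀ c, R c / 4 ≤ ‖y - yc c‖) → (∀ c, 2 * R c ≤ ‖y - th (yc c)‖) →
        Th y = y) ∧
      (∀ κ : ℝ, κ ≤ 1 → ∀ y ∈ L, e y ≤ κ → (∀ c, R c / 4 < ‖y - yc c‖) →
        (∀ c, 2 * R c < ‖Th y - th (yc c)‖) →
        ∀ᶠ y' in 𝓝 y, ‖Th y' - Th y‖ ≤ C * (1 + κ) * ‖y' - y‖) := by
  have hcomp : CompleteSpace V := FiniteDimensional.complete ℝ V
  have hprop : ProperSpace V := FiniteDimensional.proper_real V
  choose T hT using exists_fix h
  have hlip : ∀ y y', ‖T y - T y'‖ ≤ 25 / 2 * ‖y - y'‖ := fun y y' => fix_lip h (hT y) (hT y')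
  have hcont : Continuous T := by
    have : LipschitzWith (25 / 2 : ℝ).toNNReal T := by
      apply LipschitzWith.of_dist_le_mul
      intro y y'
      rw [dist_eq_norm, dist_eq_norm, Real.coe_toNNReal _ (by norm_num)]
      exact hlip y y'
    exact this.continuous
  have hnear : ∀ y, ‖T y - y‖ ≤ 5 / 4 * e y := fun y => sol_near h (hT y)
  have hnear2 : ∀ y, ‖T y - y‖ ≤ 2 := fun y => by
    have := hnear y
    have := h.sc.le_one y
    linarith
  have hinj : Function.Injective T := fun y y' hyy => sol_inj h (hT y) (by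
    rw [hyy]; exact hT y')
  have hsurj : Function.Surjective T := by
    intro q0
    obtain ⟨x, hx⟩ := R332.Full.exists_zero_of_inner_pos (fun x => T x - q0)
      (hcont.sub continuous_const) (‖q0‖ + 3) (by positivity) (by
      intro x hx
      have e1 : T x - q0 = x + ((T x - x) - q0) := by abel
      rw [e1, inner_add_left, real_inner_self_eq_norm_sq]
      have e2 : |inner ℝ ((T x - x) - q0) x| ≤ ‖(T x - x) - q0‖ * ‖x‖ := abs_real_inner_le_norm _ _
      have e3 : ‖(T x - x) - q0‖ ≤ 2 + ‖q0‖ := (norm_sub_le _ _).trans (by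
        have := hnear2 x
        linarith)
      have e4 : ‖(T x - x) - q0‖ * ‖x‖ ≤ (2 + ‖q0‖) * ‖x‖ :=
        mul_le_mul_of_nonneg_right e3 (norm_nonneg _)
      have e5 := (abs_le.1 e2).1
      have e6 := norm_nonneg q0
      nlinarith)
    exact ⟨x, sub_eq_zero.1 hx⟩
  have hclosed : IsClosedMap T := by
    have hp : IsProperMap T := by
      rw [isProperMap_iff_tendsto_cocompact]
      refine ⟨hcont, ?_⟩
      rw [← Metric.cobounded_eq_cocompact, ← tendsto_norm_atTop_iff_cobounded]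
      have e1 : Tendsto (fun y : V => ‖y‖ - 2) (Bornology.cobounded V) atTop :=
        tendsto_atTop_add_const_right _ (-2 : ℝ) tendsto_norm_cobounded_atTop
      refine tendsto_atTop_mono (fun y => ?_) e1
      have e2 := hnear2 y
      have e3 := norm_sub_norm_le y (y - T y)
      rw [sub_sub_cancel] at e3
      rw [norm_sub_rev] at e2
      linarith
    exact hp.isClosedMap
  let Eq : V ≃ V := Equiv.ofBijective T ⟨hinj, hsurj⟩
  have huniq : ∀ y q, FF L th yc R y q = q → T y = q := fun y q hq => fix_uniq h (hT y) hq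
  have hoff : ∀ y, y ∉ L → T y = y := fun y hy => huniq y y (free_sol (h.off hy) (fun c => by
      by_contra hcon
      have := h.pos c
      exact hy (h.bally (c := c) (by linarith))) (fun c => by
      by_contra hcon
      exact hy (h.ballp (not_le.1 hcon).le)))
  have hmem : ∀ y, T y ∈ L ↔ y ∈ L := by
    intro y
    constructor
    · intro hy
      by_contra hcon
      rw [hoff y hcon] at hy
      exact hcon hy
    · intro hy
      by_contra hcon
      have := hinj (hoff _ hcon)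
      rw [this] at hcon
      exact hcon hy
  refine ⟨Eq.toHomeomorphOfContinuousClosed hcont hclosed, hoff, hmem, hnear, hlip, ?_, ?_, ?_, ?_⟩
  · intro c y hy
    exact huniq y _ (core_sol h hy)
  · intro c y hy
    exact sol_core h (hT y) hy
  · intro y h1 h2 h3
    exact huniq y y (free_sol h1 h2 h3)
  · intro κ hκ y hyL he h1 h2
    show ∀ᶠ y' in 𝓝 y, ‖T y' - T y‖ ≤ C * (1 + κ) * ‖y' - y‖
    have hthc : Continuous th := by
      have : LipschitzWith (Real.toNNReal C) th := by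
        apply LipschitzWith.of_dist_le_mul
        intro y y'
        rw [dist_eq_norm, dist_eq_norm, Real.coe_toNNReal _ (by linarith)]
        exact h.lip y y'
      exact this.continuous
    -- the images are off the balls `2 R`
    obtain ⟨r, hr, hfin⟩ := h.fin (T y) ((hmem y).2 hyL)
    have ev1 : ∀ᶠ y' in 𝓝 y, ∀ c, 2 * R c ≤ ‖T y' - th (yc c)‖ := by
      have e1 : ∀ᶠ y' in 𝓝 y, T y' ∈ ball (T y) r :=
        hcont.continuousAt.eventually (ball_mem_nhds _ hr)
      have e2 : ∀ᶠ y' in 𝓝 y,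
          ∀ c ∈ {c | (closedBall (th (yc c)) (2 * R c) ∩ ball (T y) r).Nonempty},
            2 * R c < ‖T y' - th (yc c)‖ := by
        rw [Filter.eventually_all_finite hfin]
        intro c _
        exact (hcont.continuousAt.sub continuousAt_const).norm.eventually (lt_mem_nhds (h2 c))
      filter_upwards [e1, e2] with y' h3 h4 c
      by_contra hcon
      push Not at hcon
      have h5 := h4 c ⟨T y', by rw [mem_closedBall, dist_eq_norm]; exact hcon.le, h3⟩
      linarith
    -- the points are off the balls `R / 4`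
    obtain ⟨r', hr', hfin'⟩ := h.fin (th y) (h.memL hyL)
    have ev2 : ∀ᶠ y' in 𝓝 y, ∀ c, R c / 4 ≤ ‖y' - yc c‖ := by
      have e1 : ∀ᶠ y' in 𝓝 y, th y' ∈ ball (th y) r' :=
        hthc.continuousAt.eventually (ball_mem_nhds _ hr')
      have e2 : ∀ᶠ y' in 𝓝 y,
          ∀ c ∈ {c | (closedBall (th (yc c)) (2 * R c) ∩ ball (th y) r').Nonempty},
            R c / 4 < ‖y' - yc c‖ := by
        rw [Filter.eventually_all_finite hfin']
        intro c _
        exact (continuousAt_id.sub continuousAt_const).norm.eventually (lt_mem_nhds (h1 c))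
      filter_upwards [e1, e2] with y' h3 h4 c
      by_contra hcon
      push Not at hcon
      have h5 := h4 c ⟨th y', by
        rw [mem_closedBall, dist_eq_norm]
        have h6 := h.lip y' (yc c)
        have h7 : C * ‖y' - yc c‖ ≤ 2 * ‖y' - yc c‖ := mul_le_mul_of_nonneg_right h.C2 (norm_nonneg _)
        have h8 := h.pos c
        linarith, h3⟩
      linarith
    filter_upwards [ev1, ev2] with y' h3 h4
    exact fix_loc h hC1 (hT y') (hT y) h4 (fun c => (h1 c).le) h3 (fun c => (h2 c).le) hκ he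

/-- 627's `hole_opening_image` with the local clause. -/
theorem hole_opening_image' [FiniteDimensional ℝ V] {ι : Type*} (hL : IsOpen L) (he : Scale L e)
    (hC1 : 1 ≤ C) (hC2 : C ≤ 2) (mono : ∀ y y', 0 ≤ inner ℝ (th y - th y') (y - y'))
    (lip : ∀ y y', ‖th y - th y'‖ ≤ C * ‖y - y'‖) (near : ∀ y, ‖th y - y‖ ≤ e y)
    {Q : V → Prop} (p : ι → V) (R : ι → ℝ) (hex : ∀ i, ∃ y, th y = p i ∧ Q y)
    (pos : ∀ i, 0 < R i) (small : ∀ i, R i ≤ e (p i) / 8)
    (disj : ∀ i j, i ≠ j → 2 * R i + 2 * R j < ‖p i - p j‖)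
    (fin : ∀ q ∈ L, ∃ r : ℝ, 0 < r ∧ {i | (closedBall (p i) (2 * R i) ∩ ball q r).Nonempty}.Finite) :
    ∃ (yc : ι → V) (Th : V ≃ₜ V), (∀ i, th (yc i) = p i ∧ Q (yc i)) ∧
      (∀ y, y ∉ L → Th y = y) ∧ (∀ y, Th y ∈ L ↔ y ∈ L) ∧
      (∀ y, ‖Th y - y‖ ≤ 5 / 4 * e y) ∧
      (∀ y y', ‖Th y - Th y'‖ ≤ 25 / 2 * ‖y - y'‖) ∧
      (∀ i y, ‖y - yc i‖ ≤ R i / 16 → Th y = p i + (y - yc i)) ∧
      (∀ i y, ‖Th y - p i‖ ≤ R i / 16 → y = yc i + (Th y - p i)) ∧
      (∀ y, th y = y → (∀ i, R i / 4 ≤ ‖y - yc i‖) → (∀ i, 2 * R i ≤ ‖y - p i‖) → Th y = y) ∧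
      (∀ κ : ℝ, κ ≤ 1 → ∀ y ∈ L, e y ≤ κ → (∀ i, R i / 4 < ‖y - yc i‖) →
        (∀ i, 2 * R i < ‖Th y - p i‖) →
        ∀ᶠ y' in 𝓝 y, ‖Th y' - Th y‖ ≤ C * (1 + κ) * ‖y' - y‖) := by
  choose yc hyc using hex
  have hp : ∀ i, th (yc i) = p i := fun i => (hyc i).1
  have H : Holes L C e th yc R :=
    { op := hL, sc := he, C2 := hC2, mono := mono, lip := lip, near := near, pos := pos
      small := fun i => by rw [hp]; exact small i
      disj := fun i j hij => by rw [hp, hp]; exact disj i j hij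
      fin := fun q hq => by
        obtain ⟨r, hr, hf⟩ := fin q hq
        refine ⟨r, hr, ?_⟩
        simp only [hp]
        exact hf }
  obtain ⟨Th, h1, h2, h3, h4, h5, h6, h7, h8⟩ := hole_opening' H hC1
  simp only [hp] at h5 h6 h7 h8
  exact ⟨yc, Th, hyc, h1, h2, h3, h4, h5, h6, h7, h8⟩

end Crest.Agent.R96.HoL_899
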