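import Crest.Agent.R096.Toph1_766
import Crest.Agent.R96.HoL1_899

/-!
# Row 96, U2 PUSH (helper899): `toph_β` = 766's `toph` with a collapse map which is
`(1 + 2 β)`-Lipschitz, and the clause: off the holes `Th` is locally `(1 + 4 β)`-Lipschitz.
The proof is 766's proof of `toph` (R096/Toph1_766), with `β` in the place of `1 / 2`.
-/

set_option autoImplicit false
set_option linter.unusedSectionVars false
set_option linter.style.longLine false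
set_option linter.style.haveILetI false
set_option linter.unusedVariables false

namespace Crest.Agent.R96.HoL_899

open MeasureTheory Set Filter Topology Metric
open scoped ENNReal NNReal RealInnerProductSpace
open Crest.AnalysisR.VecCalc3 Crest.AnalysisR.Sobolev
open Crest.Agent.R096 Crest.Agent.R096.Osc_802 Crest.Agent.R096.LusN_766 Crest.Agent.R096.VolC_766
open Crest.Agent.R096.VolC2_766 Crest.Agent.R096.VolC3_766 Crest.Agent.R96.Lu_538
open Crest.Agent.R096.ThC6_766 Crest.Agent.R096.ThCi2_766 Crest.Agent.R096.ThCi3_766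
open Crest.Agent.R096.Sel_766 Crest.Agent.R096.Toph_766

/-- **`toph` with a parameter `β`.** -/
theorem toph_β {β : ℝ} (hβ : 0 < β) (hβ1 : β ≤ 1 / 2) {Ω Λ : Set R3} (hΩ : IsOpen Ω) (hΛ : IsOpen Λ) (hΛc : (Λᶜ).Nonempty) {f : R3 → R3}
    (hf : IsHomeomorphOn f Ω Λ) {G : Fin 3 → R3 → R3} {p : ℝ} {w : R3 → ℝ} (hw : Scale Λ w) :
    ∃ η : ℝ, 0 < η ∧ η < 1 ∧ ∀ {μ κ δ : R3 → ℝ}, (∀ x ∈ Ω, 0 < μ x) → ∀ {κ₁ : ℝ}, κ₁ ≤ 1 / 32 →
      (∀ x ∈ Ω, κ x * 4 ≤ κ₁ * μ x) →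
      (∀ y ∈ Λ, (volume : Measure R3).real ((Λ \ f '' EE Ω f G p μ κ δ) ∩ ball y (w y)) ≤
          η * (volume : Measure R3).real (ball y (w y))) →
      ∀ {σ : R3 → ℝ}, Scale Λ σ →
      ∀ {W D : Set R3}, W = {y | y ∈ Λ ∧ σ y / 2 < infDist y (f '' EE Ω f G p μ κ δ)} →
      D = {y | σ y ≤ infDist y (f '' EE Ω f G p μ κ δ)} →
      ∃ (Phi : R3 → ℝ) (th : R3 → R3), ThC3_766.CT (1 + 2 * β) Phi th ∧ (∀ y ∉ OO η w W, th y = y) ∧
        (∀ y, ‖th y - y‖ ≤ w y / 16) ∧ (∀ y, th y ∈ Λ ↔ y ∈ Λ) ∧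
        (∀ q ∈ Λ, ∃ y ∈ Λ, th y = q ∧ ‖q - y‖ ≤ w q / 16 ∧ y ∉ D) ∧
      (∀ q ∈ Λ, q ∉ OO η w W → ∃ ξ ∈ EE Ω f G p μ κ δ, ‖q - f ξ‖ < σ q) ∧
      ∀ {ι : Type} (P : ι → R3) (R : ι → ℝ), (∀ i, P i ∈ Λ) → (∀ i, 0 < R i) →
        (∀ i, R i ≤ w (P i) / 8) → (∀ i j, i ≠ j → 2 * R i + 2 * R j < ‖P i - P j‖) →
        (∀ q ∈ Λ, ∃ r : ℝ, 0 < r ∧ {i | (closedBall (P i) (2 * R i) ∩ ball q r).Nonempty}.Finite) →
        (∀ i y, ‖P i - y‖ ≤ w (P i) / 16 → σ y ≤ R i) →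
        (∀ i, ∀ x ∈ Ω, ‖f x - P i‖ ≤ w (P i) / 4 → 4 * R i < μ x * δ x) →
        ∃ (yc ξ : ι → R3) (Th : R3 ≃ₜ R3), (∀ i, ξ i ∈ EE Ω f G p μ κ δ) ∧ (∀ i, yc i ∈ Λ) ∧
          (∀ i, ‖yc i - f (ξ i)‖ ≤ R i) ∧ (∀ i, ‖P i - yc i‖ ≤ w (P i) / 16) ∧
          (∀ i, th (yc i) = P i) ∧
          (∀ y, y ∉ Λ → Th y = y) ∧ (∀ y, Th y ∈ Λ ↔ y ∈ Λ) ∧
          (∀ y, ‖Th y - y‖ ≤ 5 / 4 * w y) ∧
          (∀ y y', ‖Th y - Th y'‖ ≤ 25 / 2 * ‖y - y'‖) ∧
          (∀ i y, ‖y - yc i‖ ≤ R i / 16 → Th y = P i + (y - yc i)) ∧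
          (∀ i y, ‖Th y - P i‖ ≤ R i / 16 → y = yc i + (Th y - P i)) ∧
          (∀ y, y ∉ OO η w W → (∀ i, 2 * R i ≤ ‖y - P i‖) → Th y = y) ∧
          (∀ y ∈ Λ, (∀ i, 2 * R i + 2 * w y + w (P i) < ‖y - P i‖) → w y ≤ β →
            ∀ᶠ y' in 𝓝 y, ‖Th y' - Th y‖ ≤ (1 + 4 * β) * ‖y' - y‖) ∧
          (∀ i, GoodAt Ω f G p κ (ξ i) (4 * R i / μ (ξ i))) ∧
          (∀ i, ∀ x ∈ cube (ξ i) (4 * R i / μ (ξ i)),
            x ∈ Ω ∧ ‖f x - (f (ξ i) + Gmat G (ξ i) (x - ξ i))‖ ≤ κ₁ * R i) ∧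
          (∀ i x, x ∈ Ω → ‖Th (f x) - P i‖ ≤ R i / 16 → x ∈ cube (ξ i) (4 * R i / μ (ξ i)) ∧
            ‖Th (f x) - Aff f G (ξ i) (P i - yc i) x‖ ≤ κ₁ * R i) ∧
          (∀ i x, ‖Aff f G (ξ i) (P i - yc i) x - P i‖ ≤ R i / 32 →
            x ∈ Ω ∧ x ∈ cube (ξ i) (4 * R i / μ (ξ i)) ∧
            ‖Th (f x) - Aff f G (ξ i) (P i - yc i) x‖ ≤ κ₁ * R i) := by
  obtain ⟨η, hη, hη1, hmain⟩ := exists_thi (V := R3) (β := β) hβ hβ1
  refine ⟨η, hη, hη1, ?_⟩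
  intro μ κ δ hμ κ₁ hκ₁ hκ hden σ hσ W D hWdef hDdef
  set F : Set R3 := f '' EE Ω f G p μ κ δ with hF
  have hFΛ : F ⊆ Λ := by
    rintro _ ⟨x, hx, rfl⟩
    obtain ⟨g, hfm, -⟩ := hf
    exact hfm hx.1
  have hcd : Continuous fun y : R3 => infDist y F := continuous_infDist_pt F
  have hσc := hσ.cont
  have hW : IsOpen W := by
    rw [hWdef]
    exact hΛ.inter (isOpen_lt (by fun_prop) hcd)
  have hWL : W ⊆ Λ := by rw [hWdef]; exact fun y hy => hy.1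
  have hD : IsClosed D := by
    rw [hDdef]
    exact isClosed_le hσc hcd
  have hDW : D ∩ Λ ⊆ W := by
    rintro y ⟨hy, hyΛ⟩
    rw [hDdef] at hy
    rw [hWdef]
    have h1 := hσ.pos y hyΛ
    have h2 : σ y ≤ infDist y F := hy
    exact ⟨hyΛ, by linarith⟩
  have hWF : W ⊆ Λ \ F := by
    intro y hy
    rw [hWdef] at hy
    refine ⟨hy.1, fun h => ?_⟩
    have h1 := hy.2
    rw [infDist_zero_of_mem h] at h1
    have h2 := hσ.pos y hy.1
    linarith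
  have hdW : ∀ y ∈ Λ, (volume : Measure R3).real (W ∩ ball y (w y)) ≤
      η * (volume : Measure R3).real (ball y (w y)) := by
    intro y hy
    refine le_trans ?_ (hden y hy)
    exact measureReal_mono (inter_subset_inter_left _ hWF)
      ((measure_mono inter_subset_right).trans_lt measure_ball_lt_top).ne
  have hFne : Λ.Nonempty → F.Nonempty := by
    rintro ⟨y, hy⟩
    by_contra hcon
    rw [not_nonempty_iff_eq_empty] at hcon
    have h1 := hden y hy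
    have hwy := hw.pos y hy
    have h2 : Λ ∩ ball y (w y) = ball y (w y) := by
      apply inter_eq_self_of_subset_right
      intro z hz
      apply hw.mem hy
      rw [mem_ball, dist_eq_norm] at hz
      linarith
    rw [hcon, sdiff_empty, h2] at h1
    have h3 : 0 < (volume : Measure R3).real (ball y (w y)) := by
      rw [Measure.real, ENNReal.toReal_pos_iff]
      exact ⟨measure_ball_pos _ _ hwy, measure_ball_lt_top⟩
    nlinarith
  obtain ⟨Phi, th, hCT, hoff, hnear, hmem, -, hex⟩ := hmain hΛ hΛc hw hW hWL hdW hD hDW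
  have hCT2 : ThC3_766.CT (1 + 2 * β) Phi th := hCT
  refine ⟨Phi, th, hCT2, hoff, hnear, hmem, hex, ?_, ?_⟩
  · intro q hq hqO
    have hqW : q ∉ W := fun h => hqO (subset_OO hw hη1 hW hWL h)
    have h1 : infDist q F ≤ σ q / 2 := by
      by_contra hcon
      push Not at hcon
      exact hqW (by rw [hWdef]; exact ⟨hq, hcon⟩)
    have h2 := hσ.pos q hq
    obtain ⟨z, ⟨ξ, hξ, rfl⟩, hz⟩ := (infDist_lt_iff (hFne ⟨q, hq⟩)).1 (show infDist q F < σ q by linarith)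
    rw [dist_eq_norm] at hz
    exact ⟨ξ, hξ, hz⟩
  intro ι P R hPΛ hR0 hRw hdisj hfin hσR hRδ
  have hC : (0 : ℝ) < 1 + 2 * β := by linarith
  obtain ⟨yc, Th, hyc, hTh1, hTh2, hTh3, hTh4, hTh5, hTh6, hTh7, hTh8⟩ :=
    hole_opening_image' (V := R3) (L := Λ) (C := 1 + 2 * β) (e := w) (th := th)
      (Q := fun y => y ∈ Λ ∧ y ∉ D ∧ ∃ q ∈ Λ, th y = q ∧ ‖q - y‖ ≤ w q / 16) hΛ hw
      (by linarith) (by linarith)
      (fun y y' => hCT2.mono y y') (fun y y' => hCT2.lip hC y y')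
      (fun y => (hnear y).trans (by have := hw.nonneg y; linarith)) P R
      (fun i => by
        obtain ⟨y, hyΛ, h1, h2, h3⟩ := hex (P i) (hPΛ i)
        exact ⟨y, h1, hyΛ, h3, P i, hPΛ i, h1, h2⟩) hR0 hRw hdisj hfin
  have hyn : ∀ i, ‖P i - yc i‖ ≤ w (P i) / 16 := by
    intro i
    obtain ⟨h1, -, -, q, -, h2, h3⟩ := hyc i
    rw [h1] at h2
    rwa [← h2] at h3
  have hξ : ∀ i, ∃ ξ ∈ EE Ω f G p μ κ δ, ‖yc i - f ξ‖ ≤ R i := by
    intro i
    obtain ⟨-, h2, h3, -⟩ := hyc i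
    have h4 : infDist (yc i) F < σ (yc i) := by
      by_contra hcon
      push Not at hcon
      exact h3 (by rw [hDdef]; exact hcon)
    obtain ⟨z, ⟨ξ, hξ, rfl⟩, hz⟩ := (infDist_lt_iff (hFne ⟨_, h2⟩)).1 h4
    rw [dist_eq_norm] at hz
    exact ⟨ξ, hξ, (hz.le.trans (hσR i (yc i) (hyn i)))⟩
  choose ξ hξE hξn using hξ
  have hcore : ∀ i, GoodAt Ω f G p κ (ξ i) (4 * R i / μ (ξ i)) ∧
    (∀ x ∈ Ω, ‖f x - yc i‖ ≤ R i → x ∈ cube (ξ i) (4 * R i / μ (ξ i))) ∧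
    (∀ x, ‖f (ξ i) + Gmat G (ξ i) (x - ξ i) - yc i‖ ≤ 2 * R i → x ∈ cube (ξ i) (4 * R i / μ (ξ i))) ∧
    ∀ x ∈ cube (ξ i) (4 * R i / μ (ξ i)), x ∈ Ω ∧
      ‖f x - (f (ξ i) + Gmat G (ξ i) (x - ξ i))‖ ≤ κ₁ * R i := by
    intro i
    have hξΩ := (hξE i).1
    refine core_at hΩ hΛ hf (hR0 i) (hξE i) (hμ _ hξΩ) hκ₁ (hκ _ hξΩ) (hξn i) (hRδ i _ hξΩ ?_)
    have h1 : f (ξ i) - P i = -(yc i - f (ξ i)) - (P i - yc i) := by abel
    have h2 : ‖f (ξ i) - P i‖ ≤ ‖yc i - f (ξ i)‖ + ‖P i - yc i‖ := by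
      rw [h1]
      refine (norm_sub_le _ _).trans ?_
      rw [norm_neg]
    have h3 := hξn i
    have h4 := hyn i
    have h5 := hRw i
    have h6 := hw.nonneg (P i)
    linarith
  refine ⟨yc, ξ, Th, hξE, fun i => (hyc i).2.1, hξn, hyn, fun i => (hyc i).1, hTh1, hTh2, hTh3, hTh4,
    hTh5, hTh6, ?_, ?_, fun i => (hcore i).1, fun i => (hcore i).2.2.2, ?_, ?_⟩
  · intro y hy hyR
    have hthy := hoff y hy
    refine hTh7 y hthy (fun i => ?_) hyR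
    have h1 := hCT2.lip hC y (yc i)
    rw [hthy, (hyc i).1] at h1
    have h2 := hyR i
    have h3 := hR0 i
    have h4 : (1 + 2 * β) * ‖y - yc i‖ ≤ 2 * ‖y - yc i‖ :=
      mul_le_mul_of_nonneg_right (by linarith) (norm_nonneg _)
    linarith
  · intro y hyΛ hyP hwy
    have hwy0 := hw.pos y hyΛ
    have h1 := hTh8 β (by linarith) y hyΛ hwy (fun i => by
      have e1 := hyP i
      have e2 := hyn i
      have e3 : ‖y - P i‖ ≤ ‖y - yc i‖ + ‖P i - yc i‖ := by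
        have : y - P i = (y - yc i) - (P i - yc i) := by abel
        rw [this]
        exact norm_sub_le _ _
      have e4 := hR0 i
      have e5 := hw.nonneg (P i)
      linarith) (fun i => by
      have e1 := hyP i
      have e2 := hTh3 y
      have e3 : ‖y - P i‖ ≤ ‖Th y - P i‖ + ‖Th y - y‖ := by
        have : y - P i = (Th y - P i) - (Th y - y) := by abel
        rw [this]
        exact norm_sub_le _ _
      have e5 := hw.nonneg (P i)
      linarith)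
    filter_upwards [h1] with y' hy'
    refine hy'.trans (mul_le_mul_of_nonneg_right ?_ (norm_nonneg _))
    nlinarith
  · intro i x hx hxT
    have h1 := hTh6 i (f x) hxT
    have h2 : ‖f x - yc i‖ ≤ R i := by
      have e1 : f x - yc i = Th (f x) - P i := by rw [h1]; simp only [add_sub_cancel_left]; rw [← h1]
      rw [e1]
      have := hR0 i
      linarith
    have hxc := (hcore i).2.1 x hx h2
    refine ⟨hxc, ?_⟩
    have h3 := ((hcore i).2.2.2 x hxc).2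
    have e1 : Th (f x) = f x + (P i - yc i) := by
      have : Th (f x) - P i = f x - yc i := by
        conv_rhs => rw [h1]
        rw [add_sub_cancel_left]
      have e2 : Th (f x) = (Th (f x) - P i) + P i := by abel
      rw [e2, this]
      abel
    have e2 : Th (f x) - Aff f G (ξ i) (P i - yc i) x = f x - (f (ξ i) + Gmat G (ξ i) (x - ξ i)) := by
      rw [e1, Aff]
      abel
    rw [e2]
    exact h3
  · intro i x hxA
    have hRi := hR0 i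
    have e0 : f (ξ i) + Gmat G (ξ i) (x - ξ i) - yc i = Aff f G (ξ i) (P i - yc i) x - P i := by
      rw [Aff]; abel
    have h1 : x ∈ cube (ξ i) (4 * R i / μ (ξ i)) := (hcore i).2.2.1 x (by
      rw [e0]; linarith)
    obtain ⟨hxΩ, h3⟩ := (hcore i).2.2.2 x h1
    have h4 : ‖f x - yc i‖ ≤ R i / 16 := by
      have e1 : f x - yc i = (f x - (f (ξ i) + Gmat G (ξ i) (x - ξ i))) +
          (Aff f G (ξ i) (P i - yc i) x - P i) := by
        rw [← e0]; abel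
      rw [e1]
      refine (norm_add_le _ _).trans ?_
      have : κ₁ * R i ≤ 1 / 32 * R i := by gcongr
      linarith
    have h5 := hTh5 i (f x) h4
    refine ⟨hxΩ, h1, ?_⟩
    have e2 : Th (f x) - Aff f G (ξ i) (P i - yc i) x = f x - (f (ξ i) + Gmat G (ξ i) (x - ξ i)) := by
      rw [h5, Aff]
      abel
    rw [e2]
    exact h3

end Crest.Agent.R96.HoL_899
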