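import Crest.Agent.R96.HoL2_899
import Crest.Agent.R096.Bxs2_627
import Crest.Agent.R96.Push12_899

/-!
# Row 96, U2 PUSH (helper899): clause (T4) of `pushNO_T` from the local clause of `toph_β`: holes = the
centres of the bricks of a foam which is uniform near `K₀`.
-/

set_option autoImplicit false
set_option linter.unusedSectionVars false
set_option linter.unusedVariables false
set_option linter.style.longLine false

open Set Filter Topology Metric

namespace Crest.Agent.R96.HoL_899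

open Crest.AnalysisR.VecCalc3 Crest.Agent.R96.En10_199 Crest.Agent.R096.Bxs_627
open Crest.Agent.R096.Bsp_628 Crest.Agent.R96.Push_899

theorem symm_sub_le (y z : R3) (i : Fin 3) : |P3.symm y i - P3.symm z i| ≤ ‖y - z‖ := by
  have h1 := norm_P3_symm_le (y - z)
  rw [map_sub] at h1
  have h2 := norm_le_pi_norm (P3.symm y - P3.symm z) i
  rw [Pi.sub_apply, Real.norm_eq_abs] at h2
  exact h2.trans h1

/-- distance of the centre of a brick from a point which is not in the brick -/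
theorem dist_ctr {La : Set (Fin 3 → ℝ)} {F : Set (Bx (Fin 3))} {δ κ0 : ℝ} (BF : BoxFoam La F δ κ0)
    (hκ : 1 ≤ κ0) {c : Bx (Fin 3)} (hc : c ∈ F) {y : R3} (hy : P3.symm y ∉ c.set) :
    4 * rad κ0 c ≤ ‖y - P3 (ctr c)‖ := by
  by_contra hcon
  push Not at hcon
  apply hy
  rw [Bx.mem_set]
  intro i
  have h1 := symm_sub_le y (P3 (ctr c)) i
  rw [ContinuousLinearEquiv.symm_apply_apply] at h1
  have h2 := BF.asp c hc i
  have h3 : 4 * rad κ0 c ≤ c.side i / 2 := by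
    unfold rad
    rw [show 4 * (c.sz / (8 * κ0)) = c.sz / (2 * κ0) by field_simp; ring,
      div_le_div_iff₀ (by positivity) (by norm_num)]
    nlinarith
  have h4 := abs_le.1 (h1.trans (hcon.le.trans h3))
  have h5 := ctr_lo c i
  have h6 := ctr_hi c i
  constructor <;> linarith [h4.1, h4.2]

/-- **(T4)** -/
theorem t4 {Λ K₀ : Set R3} {F : Set (Bx (Fin 3))} {δ κ0 : ℝ} (BF : BoxFoam (P3 ⁻¹' Λ) F δ κ0)
    (hκ : 1 ≤ κ0) {k : Fin 3} {a : Fin 3 → ℝ} {s β : ℝ} (hs : 0 < s) (hsβ : s / 32 ≤ β)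
    (hU : ∀ c (hc : c ∈ F), (∃ y, P3.symm y ∈ c.set ∧ ∃ y₀ ∈ K₀, ‖y - y₀‖ ≤ 2 * s) →
      Uni k a s (qb c (BF.pos c hc)))
    (hKs : ∀ y, (∃ y₀ ∈ K₀, ‖y - y₀‖ ≤ s) → y ∈ Λ)
    {w : R3 → ℝ} (hw : ∀ y, w y ≤ s / 32) {T : R3 → R3}
    (hT : ∀ y ∈ Λ, (∀ c ∈ F, 2 * rad κ0 c + 2 * w y + w (P3 (ctr c)) < ‖y - P3 (ctr c)‖) →
      w y ≤ β → ∀ᶠ y' in 𝓝 y, ‖T y' - T y‖ ≤ (1 + 4 * β) * ‖y' - y‖) :
    ∀ y, (∃ y₀ ∈ K₀, ‖y - y₀‖ ≤ s) → (∃ N : ℤ, |y k - (a k + N * s)| ≤ s / 8) →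
      ∀ᶠ y' in 𝓝 y, ‖T y' - T y‖ ≤ (1 + 4 * β) * ‖y' - y‖ := by
  rintro y ⟨y₀, hy₀, hyy⟩ ⟨N, hN⟩
  refine hT y (hKs y ⟨y₀, hy₀, hyy⟩) (fun c hc => ?_) ((hw y).trans hsβ)
  have w1 := hw y
  have w2 := hw (P3 (ctr c))
  by_cases hc2 : ∃ z, P3.symm z ∈ c.set ∧ ∃ y₀ ∈ K₀, ‖z - y₀‖ ≤ 2 * s
  · -- uniform brick
    obtain ⟨⟨n, hn⟩, hhi, -, -⟩ := hU c hc hc2
    have e1 : c.lo k = a k + n * s := hn
    have e2 : c.hi k = c.lo k + s := hhi
    have h1 := symm_sub_le y (P3 (ctr c)) k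
    rw [ContinuousLinearEquiv.symm_apply_apply] at h1
    have e3 : P3.symm y k = y k := rfl
    have e4 : ctr c k = a k + (n + 1 / 2) * s := by simp only [ctr]; rw [e2, e1]; ring
    rw [e3, e4] at h1
    have h2 : 3 * s / 8 ≤ |y k - (a k + (n + 1 / 2) * s)| := by
      have h3 := abs_le.1 hN
      rcases le_or_gt N n with hNn | hNn
      · have h4 : (N : ℝ) ≤ n := by exact_mod_cast hNn
        have h5 : (N : ℝ) * s ≤ n * s := mul_le_mul_of_nonneg_right h4 hs.le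
        rw [abs_sub_comm]
        refine le_trans ?_ (le_abs_self _)
        linarith [h3.2]
      · have h4 : (n : ℝ) + 1 ≤ N := by exact_mod_cast hNn
        have h5 : ((n : ℝ) + 1) * s ≤ N * s := mul_le_mul_of_nonneg_right h4 hs.le
        refine le_trans ?_ (le_abs_self _)
        linarith [h3.1]
    have h3 : 2 * rad κ0 c ≤ s / 4 := by
      have h4 := BF.asp c hc k
      have e5 : c.side k = s := by simp only [Bx.side]; linarith
      rw [e5] at h4
      unfold rad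
      rw [show 2 * (c.sz / (8 * κ0)) = c.sz / (4 * κ0) by field_simp; ring,
        div_le_div_iff₀ (by positivity) (by norm_num)]
      linarith
    linarith
  · push Not at hc2
    have h1 : P3.symm y ∉ c.set := fun h => by
      have := hc2 y h y₀ hy₀
      linarith
    have h2 := dist_ctr BF hκ hc h1
    have h3 := hc2 (P3 (ctr c)) (by
      rw [ContinuousLinearEquiv.symm_apply_apply]; exact ctr_mem (BF.pos c hc)) y₀ hy₀
    have h4 : ‖P3 (ctr c) - y₀‖ ≤ ‖y - P3 (ctr c)‖ + ‖y - y₀‖ := by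
      have : P3 (ctr c) - y₀ = -(y - P3 (ctr c)) + (y - y₀) := by abel
      rw [this]
      refine (norm_add_le _ _).trans ?_
      rw [norm_neg]
    linarith

end Crest.Agent.R96.HoL_899
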