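import Crest.Agent.R096.Bd3_416

/-!
# R96, P4-HOLE, part 1: the squeeze of a cube into a thin collar (helper348)

`hf τ N ρ : [-1,1]^n ⟶ [-ρ,ρ]^n` maps the dyadic shell `2^-(k+1) ≤ ‖x‖ ≤ 2^-k` along the lines of
416's PL collar of the cube onto the shell `ρ - (k+1) τ ≤ ‖y‖ ≤ ρ - k τ` (`k < N`) and the cube
`‖x‖ ≤ 2^-N` onto `‖y‖ ≤ ρ - N τ`.  `chi N τ` is the resulting PL homeomorphism of the space,
equal to the identity off the open unit cube.
-/

set_option autoImplicit false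

open Set Metric

namespace Crest.Agent.R96.Hole_348

open Crest.Agent.R096.Ce_537 Crest.Agent.R096.Bd_416

variable {n : ℕ}

/-- forward map -/
noncomputable def hf (τ : ℝ) : ℕ → ℝ → (Fin n → ℝ) → (Fin n → ℝ)
  | 0, ρ, x => fun j => cg ρ (x j)
  | N + 1, ρ, x => if ‖x‖ ≤ 1/2 then hf τ N (ρ - τ) ((2:ℝ) • x)
      else fun j => cg (ρ - τ + (2 * ‖x‖ - 1) * τ) (cf ‖x‖ (x j))

/-- backward map -/
noncomputable def hg (τ : ℝ) : ℕ → ℝ → (Fin n → ℝ) → (Fin n → ℝ)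
  | 0, ρ, y => fun j => cf ρ (y j)
  | N + 1, ρ, y => if ‖y‖ ≤ ρ - τ then (1/2 : ℝ) • hg τ N (ρ - τ) y
      else fun j => cg ((1 + (‖y‖ - (ρ - τ)) / τ) / 2) (cf ‖y‖ (y j))

lemma cf_half (x : ℝ) : cf (1/2) x = 2 * x := by
  unfold cf
  rcases le_total 0 x with h | h
  · rw [max_eq_right (by linarith), max_eq_left (by linarith)]; ring
  · rw [max_eq_left (by linarith), max_eq_right (by linarith)]; ring

lemma cg_half (x : ℝ) : cg (1/2) x = x / 2 := by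
  unfold cg
  rcases le_total 0 x with h | h
  · rw [max_eq_right (by linarith), max_eq_left (by linarith)]; ring
  · rw [max_eq_left (by linarith), max_eq_right (by linarith)]; ring

lemma norm_cg_le {ρ : ℝ} (h1 : 1/2 ≤ ρ) (h2 : ρ ≤ 1) {x : Fin n → ℝ} (hx : ‖x‖ ≤ 1) :
    ‖fun j => cg ρ (x j)‖ ≤ ρ := by
  rw [pi_norm_le_iff_of_nonneg (by linarith)]
  intro i
  rw [Real.norm_eq_abs, abs_cg _ _ h1]
  calc cg ρ |x i| ≤ cg ρ 1 := cg_mono h1 (abs_nonneg _) ((abs_apply_le x i).trans hx)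
    _ = ρ := cg_top h1 h2

lemma norm_cf_le {ρ : ℝ} (h1 : 1/2 ≤ ρ) (h2 : ρ ≤ 1) {y : Fin n → ℝ} (hy : ‖y‖ ≤ ρ) :
    ‖fun j => cf ρ (y j)‖ ≤ 1 := by
  rw [pi_norm_le_iff_of_nonneg zero_le_one]
  intro i
  rw [Real.norm_eq_abs, abs_cf _ _ h1]
  calc cf ρ |y i| ≤ cf ρ ρ := cf_mono h1 (abs_nonneg _) ((abs_apply_le y i).trans hy)
    _ = 1 := cf_top h1 h2

/-- the hypotheses on the parameters -/
structure Par (τ : ℝ) (N : ℕ) (ρ : ℝ) : Prop where
  t0 : 0 < τ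
  lo : 1/2 ≤ ρ - N * τ
  hi : ρ ≤ 1

lemma Par.half_le {τ : ℝ} {N : ℕ} {ρ : ℝ} (h : Par τ N ρ) : 1/2 ≤ ρ := by
  have h1 := h.lo
  have h2 : 0 ≤ (N : ℝ) * τ := mul_nonneg (Nat.cast_nonneg _) h.t0.le
  linarith

lemma Par.pred {τ : ℝ} {N : ℕ} {ρ : ℝ} (h : Par τ (N + 1) ρ) : Par τ N (ρ - τ) := by
  refine ⟨h.t0, ?_, ?_⟩
  · have := h.lo
    push_cast at this
    linarith
  · have := h.hi
    have := h.t0
    linarith

lemma hf_bd {τ : ℝ} : ∀ {N : ℕ} {ρ : ℝ} {x : Fin n → ℝ}, ‖x‖ = 1 →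
    hf τ N ρ x = fun j => cg ρ (x j)
  | 0, ρ, x, _ => rfl
  | N + 1, ρ, x, hx => by
    rw [hf, if_neg (by rw [hx]; norm_num), hx]
    funext j
    rw [cf_one (by rw [← hx]; exact abs_apply_le x j)]
    congr 1
    ring

lemma hg_bd {τ : ℝ} : ∀ {N : ℕ} {ρ : ℝ}, Par τ N ρ → ∀ {y : Fin n → ℝ}, ‖y‖ = ρ →
    hg τ N ρ y = fun j => cf ρ (y j)
  | 0, ρ, _, y, _ => rfl
  | N + 1, ρ, h, y, hy => by
    have ht := h.t0
    rw [hg, if_neg (by rw [hy]; linarith), hy]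
    funext j
    have e : (1 + (ρ - (ρ - τ)) / τ) / 2 = 1 := by
      rw [sub_sub_cancel, div_self ht.ne']; norm_num
    rw [e, cg_one]
    have := norm_cf_le h.half_le h.hi (y := y) hy.le
    exact (abs_apply_le (fun j => cf ρ (y j)) j).trans this

/-- norm on the outer shell -/
lemma norm_outer {τ ρ : ℝ} (ht : 0 < τ) (h1 : 1/2 ≤ ρ - τ) (h2 : ρ ≤ 1) {x : Fin n → ℝ}
    (hx1 : 1/2 ≤ ‖x‖) (hx : ‖x‖ ≤ 1) :
    ‖fun j => cg (ρ - τ + (2 * ‖x‖ - 1) * τ) (cf ‖x‖ (x j))‖ = ρ - τ + (2 * ‖x‖ - 1) * τ := by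
  have hm : (fun j => cf ‖x‖ (x j)) ∈ sph n := by
    simpa using norm_cf (n := n) ⟨hx1, hx⟩
  refine norm_cg hm ⟨?_, ?_⟩
  · nlinarith
  · nlinarith

lemma norm_hf {τ : ℝ} : ∀ {N : ℕ} {ρ : ℝ}, Par τ N ρ → ∀ {x : Fin n → ℝ}, ‖x‖ ≤ 1 →
    ‖hf τ N ρ x‖ ≤ ρ
  | 0, ρ, h, x, hx => norm_cg_le h.half_le h.hi hx
  | N + 1, ρ, h, x, hx => by
    have ht := h.t0
    by_cases h1 : ‖x‖ ≤ 1/2
    · rw [hf, if_pos h1]
      have := norm_hf h.pred (x := (2:ℝ) • x) (by rw [norm_smul]; norm_num; linarith)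
      linarith
    · rw [hf, if_neg h1, norm_outer ht h.pred.half_le h.hi (not_le.1 h1).le hx]
      nlinarith

lemma norm_outer_inv {τ ρ : ℝ} (ht : 0 < τ) (h1 : 1/2 ≤ ρ - τ) (h2 : ρ ≤ 1) {y : Fin n → ℝ}
    (hy1 : ρ - τ ≤ ‖y‖) (hy : ‖y‖ ≤ ρ) :
    ‖fun j => cg ((1 + (‖y‖ - (ρ - τ)) / τ) / 2) (cf ‖y‖ (y j))‖ =
      (1 + (‖y‖ - (ρ - τ)) / τ) / 2 := by
  have hm : (fun j => cf ‖y‖ (y j)) ∈ sph n := by
    simpa using norm_cf (n := n) ⟨by linarith, hy.trans h2⟩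
  have e1 : 0 ≤ (‖y‖ - (ρ - τ)) / τ := div_nonneg (by linarith) ht.le
  have e2 : (‖y‖ - (ρ - τ)) / τ ≤ 1 := by rw [div_le_one ht]; linarith
  exact norm_cg hm ⟨by linarith, by linarith⟩

lemma norm_hg {τ : ℝ} : ∀ {N : ℕ} {ρ : ℝ}, Par τ N ρ → ∀ {y : Fin n → ℝ}, ‖y‖ ≤ ρ →
    ‖hg τ N ρ y‖ ≤ 1
  | 0, ρ, h, y, hy => norm_cf_le h.half_le h.hi hy
  | N + 1, ρ, h, y, hy => by
    have ht := h.t0
    by_cases h1 : ‖y‖ ≤ ρ - τ
    · rw [hg, if_pos h1, norm_smul]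
      have := norm_hg h.pred h1
      norm_num
      linarith
    · rw [hg, if_neg h1, norm_outer_inv ht h.pred.half_le h.hi (not_le.1 h1).le hy]
      have e2 : (‖y‖ - (ρ - τ)) / τ ≤ 1 := by rw [div_le_one ht]; linarith
      linarith

lemma hg_hf {τ : ℝ} : ∀ {N : ℕ} {ρ : ℝ}, Par τ N ρ → ∀ {x : Fin n → ℝ}, ‖x‖ ≤ 1 →
    hg τ N ρ (hf τ N ρ x) = x
  | 0, ρ, h, x, _ => by
    funext j
    exact cf_cg h.half_le
  | N + 1, ρ, h, x, hx => by
    have ht := h.t0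
    by_cases h1 : ‖x‖ ≤ 1/2
    · have h2 : ‖(2:ℝ) • x‖ ≤ 1 := by rw [norm_smul]; norm_num; linarith
      rw [hf, if_pos h1, hg, if_pos (norm_hf h.pred h2), hg_hf h.pred h2, smul_smul]
      norm_num
    · have h1' := not_le.1 h1
      have e := norm_outer ht h.pred.half_le h.hi h1'.le hx
      rw [hf, if_neg h1, hg, e, if_neg (by nlinarith)]
      funext j
      rw [cf_cg (by nlinarith [h.pred.half_le])]
      have e2 : (1 + (ρ - τ + (2 * ‖x‖ - 1) * τ - (ρ - τ)) / τ) / 2 = ‖x‖ := by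
        field_simp; ring
      rw [e2, cg_cf h1'.le]

lemma hf_hg {τ : ℝ} : ∀ {N : ℕ} {ρ : ℝ}, Par τ N ρ → ∀ {y : Fin n → ℝ}, ‖y‖ ≤ ρ →
    hf τ N ρ (hg τ N ρ y) = y
  | 0, ρ, h, y, _ => by
    funext j
    exact cg_cf h.half_le
  | N + 1, ρ, h, y, hy => by
    have ht := h.t0
    by_cases h1 : ‖y‖ ≤ ρ - τ
    · have h2 : ‖(1/2:ℝ) • hg τ N (ρ - τ) y‖ ≤ 1/2 := by
        rw [norm_smul]
        have := norm_hg h.pred h1
        norm_num
        linarith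
      rw [hg, if_pos h1, hf, if_pos h2, smul_smul]
      norm_num
      exact hf_hg h.pred h1
    · have h1' := not_le.1 h1
      have e := norm_outer_inv ht h.pred.half_le h.hi h1'.le hy
      have e1 : 0 < (‖y‖ - (ρ - τ)) / τ := div_pos (by linarith) ht
      rw [hg, if_neg h1, hf, e, if_neg (by linarith)]
      funext j
      rw [cf_cg (by linarith)]
      have e2 : ρ - τ + (2 * ((1 + (‖y‖ - (ρ - τ)) / τ) / 2) - 1) * τ = ‖y‖ := by
        field_simp; ring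
      rw [e2, cg_cf (by linarith [h.pred.half_le])]

lemma plOn_hf {τ : ℝ} : ∀ {N : ℕ} {ρ : ℝ}, Par τ N ρ →
    PLOn (hf (n := n) τ N ρ) (closedBall 0 1)
  | 0, ρ, h => pl_pi fun j => pl_cg (plOn_const _ _) (pl_apply (plOn_id _) j)
  | N + 1, ρ, h => by
    have hA : PLOn (hf (n := n) τ (N + 1) ρ) (closedBall 0 (1/2)) := by
      have h1 : PLOn (fun x : Fin n → ℝ => hf τ N (ρ - τ) ((2:ℝ) • x)) (closedBall 0 (1/2)) := by
        refine (plOn_hf h.pred).comp (pl_smul 2 (plOn_id _)) ?_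
        intro x hx
        rw [mem_closedBall_zero_iff] at hx ⊢
        rw [norm_smul]; norm_num; linarith
      refine h1.congr ?_
      intro x hx
      rw [mem_closedBall_zero_iff] at hx
      show hf τ (N + 1) ρ x = _
      rw [hf, if_pos hx]
    have hB : PLOn (hf (n := n) τ (N + 1) ρ) (Ann n) := by
      have h1 : PLOn (fun x : Fin n → ℝ =>
          fun j => cg (ρ - τ + (2 * ‖x‖ - 1) * τ) (cf ‖x‖ (x j))) (Ann n) := by
        refine pl_pi fun j => pl_cg ?_ (pl_cf (pl_norm _) (pl_apply (plOn_id _) j))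
        have h2 : PLOn (fun x : Fin n → ℝ => τ * (2 * ‖x‖ - 1) + (ρ - τ)) (Ann n) :=
          pl_add_const (pl_mul τ (pl_sub_const (pl_mul 2 (pl_norm _)) 1)) _
        refine h2.congr ?_
        intro x _
        show ρ - τ + (2 * ‖x‖ - 1) * τ = _
        ring
      refine h1.congr ?_
      intro x hx
      by_cases hx2 : ‖x‖ ≤ 1/2
      · have e : ‖x‖ = 1/2 := le_antisymm hx2 hx.1
        show hf τ (N + 1) ρ x = _
        rw [hf, if_pos hx2, hf_bd (by rw [norm_smul, e]; norm_num)]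
        funext j
        show cg (ρ - τ) (2 * x j) = cg (ρ - τ + (2 * ‖x‖ - 1) * τ) (cf ‖x‖ (x j))
        rw [e, cf_half]
        congr 1
        ring
      · show hf τ (N + 1) ρ x = _
        rw [hf, if_neg hx2]
    have hU : (closedBall (0 : Fin n → ℝ) 1) = closedBall 0 (1/2) ∪ Ann n := by
      ext x
      simp only [mem_closedBall_zero_iff, mem_union, Ann, mem_setOf_eq]
      constructor
      · intro hx
        rcases le_total ‖x‖ (1/2) with h1 | h1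
        · exact Or.inl h1
        · exact Or.inr ⟨h1, hx⟩
      · rintro (hx | hx)
        · linarith
        · exact hx.2
    rw [hU]
    exact hA.union hB isClosed_closedBall isClosed_Ann

lemma plOn_hg {τ : ℝ} : ∀ {N : ℕ} {ρ : ℝ}, Par τ N ρ →
    PLOn (hg (n := n) τ N ρ) (closedBall 0 ρ)
  | 0, ρ, h => pl_pi fun j => pl_cf (plOn_const _ _) (pl_apply (plOn_id _) j)
  | N + 1, ρ, h => by
    have ht := h.t0
    have hA : PLOn (hg (n := n) τ (N + 1) ρ) (closedBall 0 (ρ - τ)) := by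
      have h1 : PLOn (fun y : Fin n → ℝ => (1/2:ℝ) • hg τ N (ρ - τ) y) (closedBall 0 (ρ - τ)) :=
        pl_smul _ (plOn_hg h.pred)
      refine h1.congr ?_
      intro x hx
      rw [mem_closedBall_zero_iff] at hx
      show hg τ (N + 1) ρ x = _
      rw [hg, if_pos hx]
    have hB : PLOn (hg (n := n) τ (N + 1) ρ) {y | ρ - τ ≤ ‖y‖ ∧ ‖y‖ ≤ ρ} := by
      have h1 : PLOn (fun y : Fin n → ℝ =>
          fun j => cg ((1 + (‖y‖ - (ρ - τ)) / τ) / 2) (cf ‖y‖ (y j)))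
            {y | ρ - τ ≤ ‖y‖ ∧ ‖y‖ ≤ ρ} := by
        refine pl_pi fun j => pl_cg ?_ (pl_cf (pl_norm _) (pl_apply (plOn_id _) j))
        have h2 : PLOn (fun y : Fin n → ℝ => ((‖y‖ - (ρ - τ)) / τ + 1) / 2)
            {y | ρ - τ ≤ ‖y‖ ∧ ‖y‖ ≤ ρ} :=
          pl_div (pl_add_const (pl_div (pl_sub_const (pl_norm _) _) τ) 1) 2
        refine h2.congr ?_
        intro x _
        show (1 + (‖x‖ - (ρ - τ)) / τ) / 2 = _
        ring
      refine h1.congr ?_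
      intro y hy
      by_cases hy2 : ‖y‖ ≤ ρ - τ
      · have e : ‖y‖ = ρ - τ := le_antisymm hy2 hy.1
        show hg τ (N + 1) ρ y = _
        rw [hg, if_pos hy2, hg_bd h.pred e]
        funext j
        show (1/2) * cf (ρ - τ) (y j) = cg ((1 + (‖y‖ - (ρ - τ)) / τ) / 2) (cf ‖y‖ (y j))
        rw [e, sub_self, zero_div, add_zero, cg_half]
        ring
      · show hg τ (N + 1) ρ y = _
        rw [hg, if_neg hy2]
    have hU : (closedBall (0 : Fin n → ℝ) ρ) = closedBall 0 (ρ - τ) ∪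
        {y | ρ - τ ≤ ‖y‖ ∧ ‖y‖ ≤ ρ} := by
      ext x
      simp only [mem_closedBall_zero_iff, mem_union, mem_setOf_eq]
      constructor
      · intro hx
        rcases le_total ‖x‖ (ρ - τ) with h1 | h1
        · exact Or.inl h1
        · exact Or.inr ⟨h1, hx⟩
      · rintro (hx | hx)
        · linarith
        · exact hx.2
    rw [hU]
    exact hA.union hB isClosed_closedBall ((isClosed_le continuous_const continuous_norm).inter
      (isClosed_le continuous_norm continuous_const))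

/-! ### explicit forms -/

/-- on the `k`-th dyadic shell -/
lemma hf_shell {τ : ℝ} : ∀ {k N : ℕ} {ρ : ℝ}, k < N → ∀ {x : Fin n → ℝ},
    1/2 ≤ 2^k * ‖x‖ → 2^k * ‖x‖ ≤ 1 → hf τ N ρ x =
      fun j => cg (ρ - (k + 1) * τ + (2 * (2^k * ‖x‖) - 1) * τ) (cf (2^k * ‖x‖) (2^k * x j))
  | 0, 0, _, h, _, _, _ => absurd h (lt_irrefl _)
  | 0, N + 1, ρ, _, x, h1, h2 => by
    rw [pow_zero, one_mul] at h1 h2
    have : hf τ (N + 1) ρ x = fun j => cg (ρ - τ + (2 * ‖x‖ - 1) * τ) (cf ‖x‖ (x j)) := by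
      by_cases hx2 : ‖x‖ ≤ 1/2
      · have e : ‖x‖ = 1/2 := le_antisymm hx2 h1
        rw [hf, if_pos hx2, hf_bd (by rw [norm_smul, e]; norm_num)]
        funext j
        show cg (ρ - τ) (2 * x j) = _
        rw [e, cf_half]
        congr 1
        ring
      · rw [hf, if_neg hx2]
    rw [this]
    funext j
    simp only [pow_zero, one_mul, Nat.cast_zero, zero_add]
  | k + 1, 0, _, h, _, _, _ => absurd h (Nat.not_lt_zero _)
  | k + 1, N + 1, ρ, h, x, h1, h2 => by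
    have hp : (1:ℝ) ≤ 2^k := one_le_pow₀ (by norm_num)
    have hx : ‖x‖ ≤ 1/2 := by
      rw [pow_succ] at h2
      have := norm_nonneg x
      nlinarith
    have e : ‖(2:ℝ) • x‖ = 2 * ‖x‖ := by rw [norm_smul]; norm_num
    have e2 : (2:ℝ)^k * (2 * ‖x‖) = 2^(k+1) * ‖x‖ := by ring
    rw [hf, if_pos hx, hf_shell (Nat.lt_of_succ_lt_succ h) (by rw [e, e2]; exact h1)
      (by rw [e, e2]; exact h2)]
    funext j
    rw [e, e2]
    congr 1
    · push_cast; ring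
    · congr 1
      simp only [Pi.smul_apply, smul_eq_mul]
      ring

/-- in the inner cube -/
lemma hf_inner {τ : ℝ} : ∀ {N : ℕ} {ρ : ℝ} {x : Fin n → ℝ}, 2^N * ‖x‖ ≤ 1 →
    hf τ N ρ x = fun j => cg (ρ - N * τ) (2^N * x j)
  | 0, ρ, x, _ => by
    show (fun j => cg ρ (x j)) = _
    simp
  | N + 1, ρ, x, h => by
    have hp : (1:ℝ) ≤ 2^N := one_le_pow₀ (by norm_num)
    have hx : ‖x‖ ≤ 1/2 := by
      rw [pow_succ] at h
      have := norm_nonneg x
      nlinarith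
    have e : ‖(2:ℝ) • x‖ = 2 * ‖x‖ := by rw [norm_smul]; norm_num
    rw [hf, if_pos hx, hf_inner (by rw [e]; calc (2:ℝ)^N * (2 * ‖x‖) = 2^(N+1) * ‖x‖ := by ring
      _ ≤ 1 := h)]
    funext j
    congr 1
    · push_cast; ring
    · simp only [Pi.smul_apply, smul_eq_mul]
      ring

/-! ### the homeomorphism of the space -/

/-- the extension by the identity -/
noncomputable def chf (τ : ℝ) (N : ℕ) (x : Fin n → ℝ) : Fin n → ℝ :=
  if ‖x‖ ≤ 1 then hf τ N 1 x else x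

/-- its inverse -/
noncomputable def chg (τ : ℝ) (N : ℕ) (x : Fin n → ℝ) : Fin n → ℝ :=
  if ‖x‖ ≤ 1 then hg τ N 1 x else x

lemma chf_out {τ : ℝ} {N : ℕ} {x : Fin n → ℝ} (hx : 1 ≤ ‖x‖) : chf τ N x = x := by
  by_cases h : ‖x‖ ≤ 1
  · have e : ‖x‖ = 1 := le_antisymm h hx
    rw [chf, if_pos h, hf_bd e]
    funext j
    exact cg_one (by rw [← e]; exact abs_apply_le x j)
  · rw [chf, if_neg h]

lemma chg_out {τ : ℝ} {N : ℕ} (hP : Par τ N 1) {x : Fin n → ℝ} (hx : 1 ≤ ‖x‖) :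
    chg τ N x = x := by
  by_cases h : ‖x‖ ≤ 1
  · have e : ‖x‖ = 1 := le_antisymm h hx
    rw [chg, if_pos h, hg_bd hP e]
    funext j
    exact cf_one (by rw [← e]; exact abs_apply_le x j)
  · rw [chg, if_neg h]

lemma univ_eq_union : (univ : Set (Fin n → ℝ)) = closedBall 0 1 ∪ {x | 1 ≤ ‖x‖} := by
  ext x
  simp only [mem_univ, mem_closedBall_zero_iff, mem_union, mem_setOf_eq, true_iff]
  exact le_total _ _

lemma plOn_chf {τ : ℝ} {N : ℕ} (hP : Par τ N 1) : PLOn (chf (n := n) τ N) univ := by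
  rw [univ_eq_union]
  refine PLOn.union ((plOn_hf hP).congr ?_) ((plOn_id _).congr ?_) isClosed_closedBall
    (isClosed_le continuous_const continuous_norm)
  · intro x hx
    rw [mem_closedBall_zero_iff] at hx
    exact if_pos hx
  · intro x hx
    exact chf_out hx

lemma plOn_chg {τ : ℝ} {N : ℕ} (hP : Par τ N 1) : PLOn (chg (n := n) τ N) univ := by
  rw [univ_eq_union]
  refine PLOn.union ((plOn_hg hP).congr ?_) ((plOn_id _).congr ?_) isClosed_closedBall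
    (isClosed_le continuous_const continuous_norm)
  · intro x hx
    rw [mem_closedBall_zero_iff] at hx
    exact if_pos hx
  · intro x hx
    exact chg_out hP hx

/-- the squeeze as a homeomorphism of the space -/
noncomputable def chi {τ : ℝ} {N : ℕ} (hP : Par τ N 1) : (Fin n → ℝ) ≃ₜ (Fin n → ℝ) where
  toFun := chf τ N
  invFun := chg τ N
  left_inv x := by
    by_cases h : ‖x‖ ≤ 1
    · have h2 := norm_hf hP h
      rw [chf, if_pos h, chg, if_pos h2, hg_hf hP h]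
    · rw [chf, if_neg h, chg, if_neg h]
  right_inv x := by
    by_cases h : ‖x‖ ≤ 1
    · have h2 := norm_hg hP h
      rw [chg, if_pos h, chf, if_pos h2, hf_hg hP h]
    · rw [chg, if_neg h, chf, if_neg h]
  continuous_toFun := continuousOn_univ.1 (plOn_chf hP).1
  continuous_invFun := continuousOn_univ.1 (plOn_chg hP).1

@[simp] lemma chi_apply {τ : ℝ} {N : ℕ} (hP : Par τ N 1) (x : Fin n → ℝ) :
    chi hP x = chf τ N x := rfl

@[simp] lemma chi_symm_apply {τ : ℝ} {N : ℕ} (hP : Par τ N 1) (x : Fin n → ℝ) :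
    (chi hP).symm x = chg τ N x := rfl

end Crest.Agent.R96.Hole_348
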