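import Crest.Agent.R96.Hole1_348

/-!
# R96, P4-HOLE, part 2: Lipschitz constants and volumes (helper348)
-/

set_option autoImplicit false

open Set Metric Filter Topology MeasureTheory

namespace Crest.Agent.R96.Hole_348

open Crest.Agent.R096.Ce_537 Crest.Agent.R096.Bd_416

variable {n : ℕ}

/-- local Lipschitz constant at a point -/
def LLV {E F : Type*} [NormedAddCommGroup E] [NormedAddCommGroup F] (K : ℝ) (f : E → F)
    (x : E) : Prop := ∀ᶠ y in 𝓝 x, ‖f y - f x‖ ≤ K * ‖y - x‖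

lemma max_lip (a b : ℝ) : |max 0 a - max 0 b| ≤ |a - b| := by
  have h1 := abs_max_sub_max_le_max 0 a 0 b
  rw [sub_self, abs_zero] at h1
  exact h1.trans (le_of_eq (max_eq_right (abs_nonneg _)))

lemma cf_lip (r r' x x' : ℝ) : |cf r x - cf r' x'| ≤ 3 * |x - x'| + 4 * |r - r'| := by
  have h1 := max_lip (x + 1 - 2 * r) (x' + 1 - 2 * r')
  have h2 := max_lip (-x + 1 - 2 * r) (-x' + 1 - 2 * r')
  have h3 : |x + 1 - 2 * r - (x' + 1 - 2 * r')| ≤ |x - x'| + 2 * |r - r'| := by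
    have e : x + 1 - 2 * r - (x' + 1 - 2 * r') = (x - x') - 2 * (r - r') := by ring
    rw [e]
    calc |(x - x') - 2 * (r - r')| ≤ |x - x'| + |2 * (r - r')| := abs_sub _ _
      _ = _ := by rw [abs_mul]; norm_num
  have h4 : |-x + 1 - 2 * r - (-x' + 1 - 2 * r')| ≤ |x - x'| + 2 * |r - r'| := by
    have e : -x + 1 - 2 * r - (-x' + 1 - 2 * r') = (x' - x) - 2 * (r - r') := by ring
    rw [e]
    calc |(x' - x) - 2 * (r - r')| ≤ |x' - x| + |2 * (r - r')| := abs_sub _ _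
      _ = _ := by rw [abs_mul, abs_sub_comm x' x]; norm_num
  have h5 := abs_le.1 (h1.trans h3)
  have h6 := abs_le.1 (h2.trans h4)
  have h7 := abs_le.1 (le_refl |x - x'|)
  unfold cf
  rw [abs_le]
  constructor <;> linarith [h5.1, h5.2, h6.1, h6.2, h7.1, h7.2]

lemma cg_lip (r r' x x' : ℝ) : |cg r x - cg r' x'| ≤ 2 * |x - x'| + 2 * |r - r'| := by
  have h1 := max_lip ((x + 1 - 2 * r) / 2) ((x' + 1 - 2 * r') / 2)
  have h2 := max_lip ((-x + 1 - 2 * r) / 2) ((-x' + 1 - 2 * r') / 2)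
  have h7 := abs_le.1 (le_refl |x - x'|)
  have h8 := abs_le.1 (le_refl |r - r'|)
  have h3 : |(x + 1 - 2 * r) / 2 - (x' + 1 - 2 * r') / 2| ≤ |x - x'| / 2 + |r - r'| := by
    rw [abs_le]
    constructor <;> linarith [h7.1, h7.2, h8.1, h8.2]
  have h4 : |(-x + 1 - 2 * r) / 2 - (-x' + 1 - 2 * r') / 2| ≤ |x - x'| / 2 + |r - r'| := by
    rw [abs_le]
    constructor <;> linarith [h7.1, h7.2, h8.1, h8.2]
  have h5 := abs_le.1 (h1.trans h3)
  have h6 := abs_le.1 (h2.trans h4)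
  unfold cg
  rw [abs_le]
  constructor <;> linarith [h5.1, h5.2, h6.1, h6.2, h7.1, h7.2]

lemma abs_norm_sub_le' (x y : Fin n → ℝ) : |‖x‖ - ‖y‖| ≤ ‖x - y‖ := abs_norm_sub_norm_le x y

lemma abs_sub_apply_le (x y : Fin n → ℝ) (j : Fin n) : |x j - y j| ≤ ‖x - y‖ := by
  simpa using norm_le_pi_norm (x - y) j

/-- the foot of the collar line of a point of the `k`-th shell -/
noncomputable def foot (k : ℕ) (x : Fin n → ℝ) : Fin n → ℝ :=
  fun j => cf (2^k * ‖x‖) (2^k * x j)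

lemma foot_zero (x : Fin n → ℝ) : foot 0 x = fun j => cf ‖x‖ (x j) := by
  funext j; simp [foot]

lemma foot_eq (k : ℕ) (x : Fin n → ℝ) : foot k x = foot 0 ((2:ℝ)^k • x) := by
  funext j
  rw [foot_zero]
  show cf (2^k * ‖x‖) (2^k * x j) = cf ‖(2:ℝ)^k • x‖ ((2:ℝ)^k * x j)
  rw [norm_smul]
  simp

lemma foot_sub_le (k : ℕ) (x y : Fin n → ℝ) :
    ‖foot k x - foot k y‖ ≤ 7 * 2^k * ‖x - y‖ := by
  have hp : (0:ℝ) < 2^k := by positivity
  rw [pi_norm_le_iff_of_nonneg (by positivity)]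
  intro j
  have h1 := cf_lip (2^k * ‖x‖) (2^k * ‖y‖) (2^k * x j) (2^k * y j)
  rw [← mul_sub, ← mul_sub, abs_mul, abs_mul, abs_of_pos hp] at h1
  have h2 := abs_norm_sub_le' x y
  have h3 := abs_sub_apply_le x y j
  have h4 : (2:ℝ)^k * |x j - y j| ≤ 2^k * ‖x - y‖ := mul_le_mul_of_nonneg_left h3 hp.le
  have h5 : (2:ℝ)^k * |‖x‖ - ‖y‖| ≤ 2^k * ‖x - y‖ := mul_le_mul_of_nonneg_left h2 hp.le
  show |cf (2^k * ‖x‖) (2^k * x j) - cf (2^k * ‖y‖) (2^k * y j)| ≤ _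
  linarith

lemma continuous_foot (k : ℕ) : Continuous (foot (n := n) k) := by
  refine (LipschitzWith.of_dist_le_mul (K := ⟨7 * 2^k, by positivity⟩) ?_).continuous
  intro x y
  rw [dist_eq_norm, dist_eq_norm]
  exact foot_sub_le k x y

lemma Par.t_le {τ : ℝ} {N : ℕ} {ρ : ℝ} (h : Par τ N ρ) (hN : 0 < N) : τ ≤ 1/2 := by
  have h1 := h.lo
  have h2 := h.hi
  have h3 := h.t0
  have h4 : (1:ℝ) ≤ N := by exact_mod_cast hN
  nlinarith

/-- the value in the collar -/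
lemma chf_shell {τ : ℝ} {N k : ℕ} (hk : k < N) {x : Fin n → ℝ}
    (h1 : 1/2 ≤ 2^k * ‖x‖) (h2 : 2^k * ‖x‖ ≤ 1) :
    chf τ N x = fun j => cg (1 - (k + 1) * τ + (2 * (2^k * ‖x‖) - 1) * τ) (foot k x j) := by
  have hp : (1:ℝ) ≤ 2^k := one_le_pow₀ (by norm_num)
  have hx : ‖x‖ ≤ 1 := by nlinarith [norm_nonneg x]
  rw [chf, if_pos hx, hf_shell hk h1 h2]
  rfl

lemma chf_shell_lip {τ : ℝ} {N k : ℕ} (hP : Par τ N 1) (hk : k < N) {x y : Fin n → ℝ}
    (h1 : 1/2 ≤ 2^k * ‖x‖) (h2 : 2^k * ‖x‖ ≤ 1) (h1' : 1/2 ≤ 2^k * ‖y‖) (h2' : 2^k * ‖y‖ ≤ 1) :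
    ‖chf τ N x - chf τ N y‖ ≤ 16 * 2^k * ‖x - y‖ := by
  have hp : (0:ℝ) < 2^k := by positivity
  have ht := hP.t0
  have ht2 := hP.t_le (lt_of_le_of_lt (Nat.zero_le _) hk)
  rw [chf_shell hk h1 h2, chf_shell hk h1' h2', pi_norm_le_iff_of_nonneg (by positivity)]
  intro j
  have h3 := cg_lip (1 - (k + 1) * τ + (2 * (2^k * ‖x‖) - 1) * τ)
    (1 - (k + 1) * τ + (2 * (2^k * ‖y‖) - 1) * τ) (foot k x j) (foot k y j)
  have h4 := (abs_sub_apply_le (foot k x) (foot k y) j).trans (foot_sub_le k x y)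
  have e : 1 - (k + 1) * τ + (2 * (2^k * ‖x‖) - 1) * τ -
    (1 - (k + 1) * τ + (2 * (2^k * ‖y‖) - 1) * τ) = (2 * τ) * (2^k * (‖x‖ - ‖y‖)) := by ring
  have h5 : |(2 * τ) * (2^k * (‖x‖ - ‖y‖))| ≤ 2^k * ‖x - y‖ := by
    rw [abs_mul (2 * τ), abs_mul (2^k), abs_of_pos hp, abs_of_pos (by linarith : 0 < 2 * τ)]
    have h6 := abs_norm_sub_le' x y
    have h7 : (2:ℝ)^k * |‖x‖ - ‖y‖| ≤ 2^k * ‖x - y‖ := mul_le_mul_of_nonneg_left h6 hp.le
    have h8 : 0 ≤ (2:ℝ)^k * |‖x‖ - ‖y‖| := by positivity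
    nlinarith
  rw [e] at h3
  show |cg _ _ - cg _ _| ≤ _
  refine h3.trans ?_
  linarith

lemma chf_inner_lip {τ : ℝ} {N : ℕ} {x y : Fin n → ℝ}
    (h1 : 2^N * ‖x‖ ≤ 1) (h2 : 2^N * ‖y‖ ≤ 1) :
    ‖chf τ N x - chf τ N y‖ ≤ 2 * 2^N * ‖x - y‖ := by
  have hp : (0:ℝ) < 2^N := by positivity
  have hp1 : (1:ℝ) ≤ 2^N := one_le_pow₀ (by norm_num)
  have hx : ‖x‖ ≤ 1 := by nlinarith [norm_nonneg x]
  have hy : ‖y‖ ≤ 1 := by nlinarith [norm_nonneg y]
  rw [chf, if_pos hx, chf, if_pos hy, hf_inner h1, hf_inner h2,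
    pi_norm_le_iff_of_nonneg (by positivity)]
  intro j
  have h3 := cg_lip (1 - N * τ) (1 - N * τ) (2^N * x j) (2^N * y j)
  rw [sub_self, abs_zero, mul_zero, add_zero, ← mul_sub, abs_mul, abs_of_pos hp] at h3
  have h4 := mul_le_mul_of_nonneg_left (abs_sub_apply_le x y j) hp.le
  show |cg _ _ - cg _ _| ≤ _
  linarith

lemma continuous_chf {τ : ℝ} {N : ℕ} (hP : Par τ N 1) : Continuous (chf (n := n) τ N) :=
  (chi hP).continuous

section comp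

variable {F : Type*} [NormedAddCommGroup F] {g : (Fin n → ℝ) → F}

lemma LLV_shell {τ μ : ℝ} {N k : ℕ} (hP : Par τ N 1) (hk : k < N) {x : Fin n → ℝ}
    (h1 : 1/2 < 2^k * ‖x‖) (h2 : 2^k * ‖x‖ < 1) (hμ : 0 ≤ μ) (hg : LLV μ g (chf τ N x)) :
    LLV (μ * (16 * 2^k)) (fun y => g (chf τ N y)) x := by
  have hc : Tendsto (chf (n := n) τ N) (𝓝 x) (𝓝 (chf τ N x)) :=
    (continuous_chf hP).continuousAt
  have ho : ∀ᶠ y in 𝓝 x, 1/2 < 2^k * ‖y‖ ∧ 2^k * ‖y‖ < 1 := by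
    have hcn : Continuous (fun y : Fin n → ℝ => 2^k * ‖y‖) := continuous_const.mul continuous_norm
    exact ((isOpen_lt continuous_const hcn).inter (isOpen_lt hcn continuous_const)).mem_nhds
      ⟨h1, h2⟩
  filter_upwards [hc.eventually hg, ho] with y hy hy2
  have h3 := chf_shell_lip hP hk hy2.1.le hy2.2.le h1.le h2.le
  calc ‖g (chf τ N y) - g (chf τ N x)‖ ≤ μ * ‖chf τ N y - chf τ N x‖ := hy
    _ ≤ μ * (16 * 2^k * ‖y - x‖) := mul_le_mul_of_nonneg_left h3 hμ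
    _ = _ := by ring

lemma LLV_inner {τ μ : ℝ} {N : ℕ} (hP : Par τ N 1) {x : Fin n → ℝ}
    (h2 : 2^N * ‖x‖ < 1) (hμ : 0 ≤ μ) (hg : LLV μ g (chf τ N x)) :
    LLV (μ * (2 * 2^N)) (fun y => g (chf τ N y)) x := by
  have hc : Tendsto (chf (n := n) τ N) (𝓝 x) (𝓝 (chf τ N x)) :=
    (continuous_chf hP).continuousAt
  have ho : ∀ᶠ y in 𝓝 x, 2^N * ‖y‖ < 1 := by
    have hcn : Continuous (fun y : Fin n → ℝ => 2^N * ‖y‖) := continuous_const.mul continuous_norm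
    exact (isOpen_lt hcn continuous_const).mem_nhds h2
  filter_upwards [hc.eventually hg, ho] with y hy hy2
  have h3 := chf_inner_lip (τ := τ) hy2.le h2.le
  calc ‖g (chf τ N y) - g (chf τ N x)‖ ≤ μ * ‖chf τ N y - chf τ N x‖ := hy
    _ ≤ μ * (2 * 2^N * ‖y - x‖) := mul_le_mul_of_nonneg_left h3 hμ
    _ = _ := by ring

end comp

/-- position of the image of a point of the shell -/
lemma chf_near {τ : ℝ} {N k : ℕ} (hP : Par τ N 1) (hk : k < N) {x : Fin n → ℝ}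
    (h1 : 1/2 < 2^k * ‖x‖) (h2 : 2^k * ‖x‖ < 1) :
    ‖foot k x‖ = 1 ∧ ‖chf τ N x‖ < 1 ∧ ‖chf τ N x - foot k x‖ ≤ 2 * (N * τ) := by
  have ht := hP.t0
  have e2 : ‖(2:ℝ)^k • x‖ = 2^k * ‖x‖ := by rw [norm_smul]; simp
  have hf1 : ‖foot k x‖ = 1 := by
    rw [foot_eq, foot_zero]
    exact norm_cf ⟨by rw [e2]; exact h1.le, by rw [e2]; exact h2.le⟩
  have hkN : (k : ℝ) + 1 ≤ N := by exact_mod_cast hk
  have hlo := hP.lo
  have hk0 : (0:ℝ) ≤ k := Nat.cast_nonneg _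
  set ρ := 1 - (k + 1) * τ + (2 * (2^k * ‖x‖) - 1) * τ with hρ
  have hρ1 : ρ < 1 := by
    have : (2 * (2^k * ‖x‖) - 1) * τ < τ := by nlinarith
    nlinarith
  have hρ2 : 1 - N * τ ≤ ρ := by
    have : 0 ≤ (2 * (2^k * ‖x‖) - 1) * τ := by
      apply mul_nonneg _ ht.le; linarith
    nlinarith
  have hm : foot k x ∈ sph n := by simpa using hf1
  refine ⟨hf1, ?_, ?_⟩
  · rw [chf_shell hk h1.le h2.le, ← hρ, norm_cg hm ⟨by linarith, hρ1.le⟩]
    exact hρ1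
  · rw [chf_shell hk h1.le h2.le, ← hρ, pi_norm_le_iff_of_nonneg
      (by have := mul_nonneg (Nat.cast_nonneg (α := ℝ) N) ht.le; linarith)]
    intro j
    show |cg ρ (foot k x j) - foot k x j| ≤ _
    have e : foot k x j = cg 1 (foot k x j) :=
      (cg_one (by rw [← hf1]; exact abs_apply_le _ j)).symm
    have h3 := cg_lip ρ 1 (foot k x j) (foot k x j)
    rw [sub_self, abs_zero, mul_zero, zero_add] at h3
    have h4 : |ρ - 1| ≤ N * τ := by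
      rw [abs_le]; constructor <;> linarith
    calc |cg ρ (foot k x j) - foot k x j| = |cg ρ (foot k x j) - cg 1 (foot k x j)| := by
          rw [← e]
      _ ≤ 2 * |ρ - 1| := h3
      _ ≤ _ := by linarith

/-! ### volumes -/

/-- the part of the shell over a small set -/
def sect (k : ℕ) (F : Set (Fin n → ℝ)) : Set (Fin n → ℝ) :=
  {x | 1/2 ≤ 2^k * ‖x‖ ∧ 2^k * ‖x‖ ≤ 1 ∧ foot k x ∈ F}

lemma isClosed_sect (k : ℕ) {F : Set (Fin n → ℝ)} (hF : IsClosed F) : IsClosed (sect k F) := by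
  have hcn : Continuous (fun y : Fin n → ℝ => 2^k * ‖y‖) := continuous_const.mul continuous_norm
  exact (isClosed_le continuous_const hcn).inter ((isClosed_le hcn continuous_const).inter
    (hF.preimage (continuous_foot k)))

lemma dist_of_foot {F : Set (Fin n → ℝ)} {r : ℝ}
    (hd : ∀ x ∈ F, ∀ y ∈ F, ‖x - y‖ ≤ r) {x y : Fin n → ℝ} (hx : x ∈ sect 0 F)
    (hy : y ∈ sect 0 F) (h : |‖x‖ - ‖y‖| ≤ r) : ‖x - y‖ ≤ 4 * r := by
  obtain ⟨hx1, hx2, hx3⟩ := hx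
  obtain ⟨hy1, hy2, hy3⟩ := hy
  rw [pow_zero, one_mul] at hx1 hx2 hy1 hy2
  have hr : 0 ≤ r := (abs_nonneg _).trans h
  have h1 := hd _ hx3 _ hy3
  rw [pi_norm_le_iff_of_nonneg (by linarith)]
  intro j
  have h2 := (abs_sub_apply_le (foot 0 x) (foot 0 y) j).trans h1
  have h3 := cg_lip ‖x‖ ‖y‖ (foot 0 x j) (foot 0 y j)
  have ex : cg ‖x‖ (foot 0 x j) = x j := by rw [foot_zero]; exact cg_cf hx1
  have ey : cg ‖y‖ (foot 0 y j) = y j := by rw [foot_zero]; exact cg_cf hy1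
  rw [ex, ey] at h3
  show |x j - y j| ≤ _
  linarith

lemma volume_sect_zero (F : Set (Fin n → ℝ)) {r : ℝ} (hr0 : 0 < r)
    (hr1 : r ≤ 1) (hd : ∀ x ∈ F, ∀ y ∈ F, ‖x - y‖ ≤ r) :
    volume (sect 0 F) ≤ ENNReal.ofReal (2 * 8^n * (r^n / r)) := by
  classical
  set M := ⌊1 / (2 * r)⌋₊ with hM
  set T : ℕ → Set (Fin n → ℝ) := fun m => {x | x ∈ sect 0 F ∧ 1/2 + m * r ≤ ‖x‖ ∧
    ‖x‖ ≤ 1/2 + (m + 1) * r} with hT
  have hcov : sect 0 F ⊆ ⋃ m ∈ Finset.range (M + 1), T m := by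
    intro x hx
    have hx1 := hx.1
    have hx2 := hx.2.1
    rw [pow_zero, one_mul] at hx1 hx2
    have h0 : 0 ≤ (‖x‖ - 1/2) / r := div_nonneg (by linarith) hr0.le
    simp only [mem_iUnion, Finset.mem_range]
    refine ⟨⌊(‖x‖ - 1/2) / r⌋₊, ?_, hx, ?_, ?_⟩
    · refine Nat.lt_succ_of_le (Nat.floor_le_floor ?_)
      rw [div_le_div_iff₀ hr0 (by linarith)]
      nlinarith
    · have := Nat.floor_le h0
      rw [le_div_iff₀ hr0] at this
      linarith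
    · have := (Nat.lt_floor_add_one ((‖x‖ - 1/2) / r)).le
      rw [div_le_iff₀ hr0] at this
      linarith
  have hT1 : ∀ m, volume (T m) ≤ ENNReal.ofReal ((8 * r)^n) := by
    intro m
    rcases (T m).eq_empty_or_nonempty with h | ⟨y, hy⟩
    · rw [h]; simp
    · have hsub : T m ⊆ closedBall y (4 * r) := by
        intro x hx
        rw [mem_closedBall, dist_eq_norm]
        refine dist_of_foot hd hx.1 hy.1 ?_
        have a1 := hx.2.1
        have a2 := hx.2.2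
        have a3 := hy.2.1
        have a4 := hy.2.2
        rw [abs_le]
        constructor <;> nlinarith
      refine (measure_mono hsub).trans ?_
      rw [Real.volume_pi_closedBall _ (by linarith), Fintype.card_fin]
      apply ENNReal.ofReal_le_ofReal
      apply le_of_eq
      congr 1
      ring
  have hMr : ((M + 1 : ℕ) : ℝ) ≤ 2 / r := by
    have h1 : (M : ℝ) ≤ 1 / (2 * r) := Nat.floor_le (by positivity)
    have h2 : 1 / (2 * r) + 1 ≤ 2 / r := by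
      rw [div_add_one (by linarith), div_le_div_iff₀ (by linarith) hr0]
      nlinarith
    push_cast
    linarith
  calc volume (sect 0 F) ≤ volume (⋃ m ∈ Finset.range (M + 1), T m) := measure_mono hcov
    _ ≤ ∑ m ∈ Finset.range (M + 1), volume (T m) := measure_biUnion_finset_le _ _
    _ ≤ ∑ m ∈ Finset.range (M + 1), ENNReal.ofReal ((8 * r)^n) :=
        Finset.sum_le_sum fun m _ => hT1 m
    _ = ENNReal.ofReal (((M + 1 : ℕ) : ℝ) * (8 * r)^n) := by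
        rw [Finset.sum_const, Finset.card_range, nsmul_eq_mul,
          ENNReal.ofReal_mul (Nat.cast_nonneg _), ENNReal.ofReal_natCast]
    _ ≤ ENNReal.ofReal (2 / r * (8 * r)^n) := by
        apply ENNReal.ofReal_le_ofReal
        exact mul_le_mul_of_nonneg_right hMr (by positivity)
    _ = _ := by
        congr 1
        rw [mul_pow]
        field_simp

lemma volume_sect (k : ℕ) (F : Set (Fin n → ℝ)) {r : ℝ} (hr0 : 0 < r)
    (hr1 : r ≤ 1) (hd : ∀ x ∈ F, ∀ y ∈ F, ‖x - y‖ ≤ r) :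
    volume (sect k F) ≤ ENNReal.ofReal (((2:ℝ)^k)⁻¹^n * (2 * 8^n * (r^n / r))) := by
  have hp : (0:ℝ) < 2^k := by positivity
  have e : sect k F = (fun x : Fin n → ℝ => (2:ℝ)^k • x) ⁻¹' sect 0 F := by
    ext x
    have e2 : ‖(2:ℝ)^k • x‖ = 2^k * ‖x‖ := by rw [norm_smul]; simp
    show _ ↔ (1/2 ≤ 2^0 * ‖(2:ℝ)^k • x‖ ∧ 2^0 * ‖(2:ℝ)^k • x‖ ≤ 1 ∧ foot 0 ((2:ℝ)^k • x) ∈ F)
    rw [e2, pow_zero, one_mul, ← foot_eq]
    rfl
  rw [e, Measure.addHaar_preimage_smul _ hp.ne', ENNReal.ofReal_mul (by positivity)]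
  refine mul_le_mul' ?_ (volume_sect_zero F hr0 hr1 hd)
  apply ENNReal.ofReal_le_ofReal
  rw [Module.finrank_fin_fun, abs_of_pos (by positivity), inv_pow]

end Crest.Agent.R96.Hole_348
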