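import Crest.Agent.R96.Hole3_348
import Crest.Agent.R096.Sk0_962

/-!
# R96, P4-HOLE, part 4: the hole squeeze in a rotated cube of `R3` (helper348)
-/

set_option autoImplicit false

open Set Metric Filter Topology MeasureTheory

namespace Crest.Agent.R96.Hole_348

open Crest.Agent.R096.Ce_537 Crest.Agent.R096.Bd_416 Crest.Agent.R096.Sk_962
open Crest.AnalysisR.VecCalc3
open scoped Gradient

section transport

variable {E E' G : Type*} [NormedAddCommGroup E] [NormedAddCommGroup E'] [NormedAddCommGroup G]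

lemma LLV.comp {f : E → G} {φ : E' → E} {c l : ℝ} (hc : 0 ≤ c) {y : E'}
    (h : LLV c f (φ y)) (hφ : ContinuousAt φ y) (hl : LLV l φ y) :
    LLV (c * l) (fun z => f (φ z)) y := by
  filter_upwards [hφ.eventually h, hl] with z h1 h2
  calc ‖f (φ z) - f (φ y)‖ ≤ c * ‖φ z - φ y‖ := h1
    _ ≤ c * (l * ‖z - y‖) := mul_le_mul_of_nonneg_left h2 hc
    _ = _ := by ring

lemma LLV.mono {f : E → G} {c d : ℝ} {y : E} (h : LLV c f y) (hcd : c ≤ d) : LLV d f y := by
  filter_upwards [h] with z hz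
  exact hz.trans (mul_le_mul_of_nonneg_right hcd (norm_nonneg _))

lemma EnCov.mono {E G : Type*} [NormedAddCommGroup E] [MeasurableSpace E] [NormedAddCommGroup G]
    {m : Measure E} {p : ℝ} {f : E → G} {K : Set E} {A B : ENNReal} (h : EnCov m p f K A)
    (hAB : A ≤ B) : EnCov m p f K B := by
  obtain ⟨J, i, S, c, hS, hc, hK, hL, hA⟩ := h
  exact ⟨J, i, S, c, hS, hc, hK, hL, hA.trans hAB⟩

/-- change of the domain by a homeomorphism -/
lemma EnCov.transport [MeasurableSpace E] [MeasurableSpace E'] [BorelSpace E] [BorelSpace E']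
    {m : Measure E} {m' : Measure E'} {p : ℝ} {f : E → G} {K : Set E} {A : ENNReal}
    (h : EnCov m p f K A) (φ : E' → E) (hφ : Continuous φ) {l κ : ℝ} (hl : 0 ≤ l)
    (hlip : ∀ y y', ‖φ y - φ y'‖ ≤ l * ‖y - y'‖)
    (hm : ∀ S : Set E, m' (φ ⁻¹' S) ≤ ENNReal.ofReal κ * m S) :
    EnCov m' p (fun y => f (φ y)) (φ ⁻¹' K) (ENNReal.ofReal (l^p) * ENNReal.ofReal κ * A) := by
  obtain ⟨J, _, S, c, hS, hc, hK, hL, hA⟩ := h
  refine ⟨J, inferInstance, fun j => φ ⁻¹' S j, fun j => c j * l,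
    fun j => hφ.measurable (hS j), fun j => mul_nonneg (hc j) hl, ?_, ?_, ?_⟩
  · intro y hy
    obtain ⟨j, hj⟩ := mem_iUnion.1 (hK hy)
    exact mem_iUnion.2 ⟨j, hj⟩
  · intro j
    have h1 : m {x | ¬ (x ∈ S j → LLV (c j) f x)} = 0 := ae_iff.1 (hL j)
    rw [ae_iff]
    refine measure_mono_null (t := φ ⁻¹' {x | ¬ (x ∈ S j → LLV (c j) f x)}) ?_ ?_
    · intro y hy
      simp only [mem_setOf_eq, mem_preimage] at hy ⊢
      intro h2
      refine hy (fun h3 => ?_)
      refine LLV.comp (hc j) (h2 h3) hφ.continuousAt ?_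
      exact Eventually.of_forall fun z => hlip z y
    · refine le_antisymm ((hm _).trans ?_) zero_le
      rw [h1, mul_zero]
  · calc ∑ j, ENNReal.ofReal ((c j * l)^p) * m' (φ ⁻¹' S j)
        ≤ ∑ j, ENNReal.ofReal (l^p) * ENNReal.ofReal κ *
            (ENNReal.ofReal (c j ^ p) * m (S j)) := by
          refine Finset.sum_le_sum fun j _ => ?_
          rw [Real.mul_rpow (hc j) hl, ENNReal.ofReal_mul (Real.rpow_nonneg (hc j) p)]
          calc ENNReal.ofReal (c j ^ p) * ENNReal.ofReal (l ^ p) * m' (φ ⁻¹' S j)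
              ≤ ENNReal.ofReal (c j ^ p) * ENNReal.ofReal (l ^ p) *
                (ENNReal.ofReal κ * m (S j)) := mul_le_mul' le_rfl (hm _)
            _ = _ := by ring
      _ = ENNReal.ofReal (l^p) * ENNReal.ofReal κ * ∑ j, ENNReal.ofReal (c j ^ p) * m (S j) := by
          rw [Finset.mul_sum]
      _ ≤ _ := mul_le_mul' le_rfl hA

end transport

/-! ### the chart of a rotated cube -/

section chart

variable (V : R3 ≃ₗᵢ[ℝ] R3) (a : R3) (R : ℝ)

/-- from the model cube to the rotated cube -/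
noncomputable def up (u : Fin 3 → ℝ) : R3 := a + R • V (WithLp.toLp 2 u)

/-- back -/
noncomputable def dn (y : R3) : Fin 3 → ℝ := WithLp.ofLp (V.symm (R⁻¹ • (y - a)))

variable {V a R}

lemma dn_up (hR : R ≠ 0) (u : Fin 3 → ℝ) : dn V a R (up V a R u) = u := by
  simp [dn, up, smul_smul, inv_mul_cancel₀ hR]

lemma up_dn (hR : R ≠ 0) (y : R3) : up V a R (dn V a R y) = y := by
  simp [dn, up, smul_smul, mul_inv_cancel₀ hR]

lemma norm_toLp_le (u : Fin 3 → ℝ) : ‖(WithLp.toLp 2 u : R3)‖ ≤ 2 * ‖u‖ := by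
  rw [EuclideanSpace.norm_eq]
  apply Real.sqrt_le_iff.2
  refine ⟨by positivity, ?_⟩
  calc ∑ i, ‖(WithLp.toLp 2 u : R3) i‖^2 ≤ ∑ _i : Fin 3, ‖u‖^2 := by
        refine Finset.sum_le_sum fun i _ => ?_
        exact pow_le_pow_left₀ (norm_nonneg _) (norm_le_pi_norm u i) 2
    _ = 3 * ‖u‖^2 := by simp
    _ ≤ (2 * ‖u‖)^2 := by nlinarith [sq_nonneg ‖u‖]

lemma norm_ofLp_le (x : R3) : ‖(WithLp.ofLp x : Fin 3 → ℝ)‖ ≤ ‖x‖ := by
  rw [pi_norm_le_iff_of_nonneg (norm_nonneg _)]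
  intro i
  exact PiLp.norm_apply_le x i

lemma up_sub_le (hR : 0 < R) (u u' : Fin 3 → ℝ) :
    ‖up V a R u - up V a R u'‖ ≤ 2 * R * ‖u - u'‖ := by
  have e : up V a R u - up V a R u' = R • V (WithLp.toLp 2 (u - u')) := by
    simp only [up, add_sub_add_left_eq_sub, ← smul_sub, ← map_sub]
    rfl
  rw [e, norm_smul, LinearIsometryEquiv.norm_map, Real.norm_eq_abs, abs_of_pos hR]
  have := mul_le_mul_of_nonneg_left (norm_toLp_le (u - u')) hR.le
  linarith

lemma dn_sub_le (hR : 0 < R) (y y' : R3) :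
    ‖dn V a R y - dn V a R y'‖ ≤ R⁻¹ * ‖y - y'‖ := by
  have e : dn V a R y - dn V a R y' = WithLp.ofLp (V.symm (R⁻¹ • (y - y'))) := by
    simp only [dn]
    rw [← WithLp.ofLp_sub, ← map_sub, ← smul_sub, sub_sub_sub_cancel_right]
  rw [e]
  refine (norm_ofLp_le _).trans ?_
  rw [LinearIsometryEquiv.norm_map, norm_smul, norm_inv, Real.norm_eq_abs, abs_of_pos hR]

lemma continuous_up : Continuous (up V a R) := by
  unfold up
  exact continuous_const.add
    ((V.continuous.comp (PiLp.continuous_toLp 2 _)).const_smul R)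

lemma continuous_dn : Continuous (dn V a R) := by
  unfold dn
  exact (PiLp.continuous_ofLp 2 _).comp
    (V.symm.continuous.comp ((continuous_id.sub continuous_const).const_smul R⁻¹))

/-- the chart as an affine map -/
noncomputable def upA (V : R3 ≃ₗᵢ[ℝ] R3) (a : R3) (R : ℝ) : (Fin 3 → ℝ) →ᵃ[ℝ] R3 where
  toFun := up V a R
  linear := R • (V.toLinearEquiv.toLinearMap ∘ₗ
    (WithLp.linearEquiv 2 ℝ (Fin 3 → ℝ)).symm.toLinearMap)
  map_vadd' p v := by
    simp only [up, vadd_eq_add]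
    rw [show (WithLp.toLp 2 (v + p) : R3) = WithLp.toLp 2 v + WithLp.toLp 2 p from rfl, map_add,
      smul_add]
    show _ = R • V (WithLp.toLp 2 v) + _
    abel

/-- the inverse chart as an affine map -/
noncomputable def dnA (V : R3 ≃ₗᵢ[ℝ] R3) (a : R3) (R : ℝ) : R3 →ᵃ[ℝ] (Fin 3 → ℝ) where
  toFun := dn V a R
  linear := R⁻¹ • ((WithLp.linearEquiv 2 ℝ (Fin 3 → ℝ)).toLinearMap ∘ₗ
    V.symm.toLinearEquiv.toLinearMap)
  map_vadd' p v := by
    have e : R⁻¹ • (v + p - a) = R⁻¹ • v + R⁻¹ • (p - a) := by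
      rw [← smul_add, add_sub_assoc]
    simp only [dn, vadd_eq_add]
    rw [e, map_add, map_smul]
    rfl

lemma volume_dn (hR : 0 < R) (S : Set (Fin 3 → ℝ)) :
    volume (dn V a R ⁻¹' S) ≤ ENNReal.ofReal (R^3) * volume S := by
  have e : dn V a R ⁻¹' S = (fun y : R3 => y + (-a)) ⁻¹' ((fun y : R3 => R⁻¹ • y) ⁻¹'
      (V.symm ⁻¹' ((MeasurableEquiv.toLp 2 (Fin 3 → ℝ)).symm ⁻¹' S))) := by
    ext y
    simp [dn, sub_eq_add_neg]
  rw [e, measure_preimage_add_right, Measure.addHaar_preimage_smul _ (inv_ne_zero hR.ne')]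
  have h1 : volume (V.symm ⁻¹' ((MeasurableEquiv.toLp 2 (Fin 3 → ℝ)).symm ⁻¹' S)) = volume S := by
    have h2 := (LinearIsometryEquiv.measurePreserving V.symm).measure_preimage_emb
      V.symm.toHomeomorph.measurableEmbedding ((MeasurableEquiv.toLp 2 (Fin 3 → ℝ)).symm ⁻¹' S)
    rw [h2]
    exact (EuclideanSpace.volume_preserving_symm_measurableEquiv_toLp
      (Fin 3)).measure_preimage_equiv S
  rw [h1]
  refine mul_le_mul' ?_ le_rfl
  apply ENNReal.ofReal_le_ofReal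
  rw [finrank_euclideanSpace_fin, inv_pow, inv_inv, abs_of_pos (by positivity)]

lemma mem_Kc_iff (hR : 0 < R) {y : R3} : y ∈ Kc V a R ↔ ‖dn V a R y‖ ≤ 1 := by
  rw [pi_norm_le_iff_of_nonneg zero_le_one]
  constructor
  · rintro ⟨u, hu, rfl⟩ i
    have e : dn V a R (a + R • V u) = WithLp.ofLp u := dn_up (V := V) (a := a) hR.ne' _
    rw [e]
    exact hu i
  · intro h
    refine ⟨WithLp.toLp 2 (dn V a R y), fun i => h i, ?_⟩
    exact (up_dn (V := V) (a := a) hR.ne' y).symm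

lemma mem_Ko_iff (hR : 0 < R) {y : R3} : y ∈ Ko V a R ↔ ‖dn V a R y‖ < 1 := by
  rw [pi_norm_lt_iff one_pos]
  constructor
  · rintro ⟨u, hu, rfl⟩ i
    have e : dn V a R (a + R • V u) = WithLp.ofLp u := dn_up (V := V) (a := a) hR.ne' _
    rw [e]
    exact hu i
  · intro h
    refine ⟨WithLp.toLp 2 (dn V a R y), fun i => h i, ?_⟩
    exact (up_dn (V := V) (a := a) hR.ne' y).symm

end chart

lemma plOn_affineMap {E F : Type*} [NormedAddCommGroup E] [NormedSpace ℝ E]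
    [NormedAddCommGroup F] [NormedSpace ℝ F] (A : E →ᵃ[ℝ] F) (hA : Continuous A) (K : Set E) :
    PLOn (fun x => A x) K :=
  ⟨hA.continuousOn, {A}, fun _ _ => ⟨A, Finset.mem_singleton_self _, rfl⟩⟩

/-- the constant -/
noncomputable def Chole3 (p : ℝ) : ℝ := Chole 3 p * 2^p

lemma Chole3_nonneg {p : ℝ} (hp3 : p < 3) : 0 ≤ Chole3 p := by
  have := Chole_nonneg (n := 3) (p := p) (by exact_mod_cast hp3)
  unfold Chole3
  positivity

/-- **HOLE SQUEEZE in a rotated cube of `R3`.** -/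
theorem hole_R3 {p : ℝ} (hp0 : 0 < p) (hp3 : p < 3)
    {G : Type*} [NormedAddCommGroup G] (V : R3 ≃ₗᵢ[ℝ] R3) (a : R3) {R r : ℝ} (hr0 : 0 < r)
    (hrR : r ≤ R) {ι : Type} [Fintype ι] (F : ι → Set R3) (hFc : ∀ i, IsClosed (F i))
    (hd : ∀ i, ∀ x ∈ F i, ∀ y ∈ F i, ‖x - y‖ ≤ r) (hcov : Kc V a R \ Ko V a R ⊆ ⋃ i, F i)
    {μ : ι → ℝ} (hμ : ∀ i, 0 ≤ μ i) (g : R3 → G) {τ₀ L : ℝ} (hτ₀ : 0 < τ₀) (hL0 : 0 ≤ L)
    (hg : ∀ i, ∀ ω ∈ F i, ∀ y ∈ Ko V a R, ‖y - ω‖ ≤ τ₀ → LLV (μ i) g y)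
    (hL : ∀ y ∈ Ko V a R, LLV L g y) {ε : ℝ} (hε : 0 < ε) :
    ∃ χ : R3 ≃ₜ R3, PLOn χ univ ∧ PLOn χ.symm univ ∧
      (∀ x, x ∉ Ko V a R → χ x = x) ∧ (∀ x ∈ Ko V a R, χ x ∈ Ko V a R) ∧
      EnCov volume p (fun x => g (χ x)) (Kc V a R)
        (ENNReal.ofReal (Chole3 p * (R * r^2) * ∑ i, μ i ^ p + ε)) := by
  have hR : 0 < R := hr0.trans_le hrR
  have hR0 := hR.ne'
  have hRp : (0:ℝ) < R^(p - 3) := Real.rpow_pos_of_pos hR _
  set g' : (Fin 3 → ℝ) → G := fun u => g (up V a R u) with hg'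
  have hε' : 0 < R^(p - 3) * ε := mul_pos hRp hε
  have hcontup : ∀ u, ContinuousAt (up V a R) u := fun u => continuous_up.continuousAt
  have hlipup : ∀ u, LLV (2 * R) (up V a R) u := fun u =>
    Eventually.of_forall fun z => up_sub_le hR z u
  obtain ⟨χ', h1, h2, h3, h4, h5⟩ := hole_unit_cov (n := 3) (p := p) hp0 (by exact_mod_cast hp3)
    (fun i => up V a R ⁻¹' F i) (fun i => (hFc i).preimage continuous_up)
    (r := r / R) (by positivity) (by rw [div_le_one hR]; exact hrR) (by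
      intro i x hx y hy
      have h6 := hd i _ hx _ hy
      have h7 := dn_sub_le (V := V) (a := a) hR (up V a R x) (up V a R y)
      rw [dn_up hR0, dn_up hR0] at h7
      calc ‖x - y‖ ≤ R⁻¹ * ‖up V a R x - up V a R y‖ := h7
        _ ≤ R⁻¹ * r := mul_le_mul_of_nonneg_left h6 (by positivity)
        _ = r / R := by ring) (by
      intro u hu
      have hu1 : ‖u‖ = 1 := by simpa using hu
      have hK : up V a R u ∈ Kc V a R \ Ko V a R := by
        refine ⟨(mem_Kc_iff hR).2 (by rw [dn_up hR0]; exact hu1.le), fun h => ?_⟩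
        have := (mem_Ko_iff hR).1 h
        rw [dn_up hR0] at this
        linarith
      obtain ⟨i, hi⟩ := mem_iUnion.1 (hcov hK)
      exact mem_iUnion.2 ⟨i, hi⟩)
    (μ := fun i => μ i * (2 * R)) (fun i => mul_nonneg (hμ i) (by positivity)) g'
    (τ₀ := τ₀ / (2 * R)) (L := L * (2 * R)) (by positivity) (by positivity) (by
      intro i ω hω y hy hyω
      have hyK : up V a R y ∈ Ko V a R := (mem_Ko_iff hR).2 (by rw [dn_up hR0]; exact hy)
      have h6 : ‖up V a R y - up V a R ω‖ ≤ τ₀ := by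
        refine (up_sub_le hR y ω).trans ?_
        rw [le_div_iff₀ (by positivity)] at hyω
        linarith
      exact LLV.comp (hμ i) (hg i _ hω _ hyK h6) (hcontup y) (hlipup y)) (by
      intro y hy
      have hyK : up V a R y ∈ Ko V a R := (mem_Ko_iff hR).2 (by rw [dn_up hR0]; exact hy)
      exact LLV.comp hL0 (hL _ hyK) (hcontup y) (hlipup y)) hε'
  -- the homeomorphism
  let χ : R3 ≃ₜ R3 :=
    { toFun := fun y => up V a R (χ' (dn V a R y))
      invFun := fun y => up V a R (χ'.symm (dn V a R y))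
      left_inv := fun y => by
        show up V a R (χ'.symm (dn V a R (up V a R (χ' (dn V a R y))))) = y
        rw [dn_up hR0, χ'.symm_apply_apply, up_dn hR0]
      right_inv := fun y => by
        show up V a R (χ' (dn V a R (up V a R (χ'.symm (dn V a R y))))) = y
        rw [dn_up hR0, χ'.apply_symm_apply, up_dn hR0]
      continuous_toFun := continuous_up.comp (χ'.continuous.comp continuous_dn)
      continuous_invFun := continuous_up.comp (χ'.symm.continuous.comp continuous_dn) }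
  have hup : PLOn (up V a R) univ := plOn_affineMap (upA V a R) continuous_up univ
  have hdn : PLOn (dn V a R) univ := plOn_affineMap (dnA V a R) continuous_dn univ
  refine ⟨χ, ?_, ?_, ?_, ?_, ?_⟩
  · exact hup.comp (h1.comp hdn (mapsTo_univ _ _)) (mapsTo_univ _ _)
  · exact hup.comp (h2.comp hdn (mapsTo_univ _ _)) (mapsTo_univ _ _)
  · intro x hx
    show up V a R (χ' (dn V a R x)) = x
    rw [mem_Ko_iff hR, not_lt] at hx
    rw [h3 _ hx, up_dn hR0]
  · intro x hx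
    rw [mem_Ko_iff hR] at hx ⊢
    show ‖dn V a R (up V a R (χ' (dn V a R x)))‖ < 1
    rw [dn_up hR0]
    exact h4 _ hx
  · have h6 := h5.transport (m' := (volume : Measure R3)) (dn V a R) continuous_dn
      (l := R⁻¹) (κ := R^3) (by positivity) (dn_sub_le hR) (volume_dn hR)
    have hK : dn V a R ⁻¹' closedBall 0 1 = Kc V a R := by
      ext y
      rw [mem_preimage, mem_closedBall_zero_iff, mem_Kc_iff hR]
    rw [hK] at h6
    refine h6.mono ?_
    rw [← ENNReal.ofReal_mul (by positivity), ← ENNReal.ofReal_mul (by positivity)]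
    apply ENNReal.ofReal_le_ofReal
    have e1 : ∀ i, (μ i * (2 * R))^p = 2^p * R^p * μ i ^ p := by
      intro i
      rw [Real.mul_rpow (hμ i) (by positivity), Real.mul_rpow (by norm_num) hR.le]
      ring
    have e2 : (R⁻¹)^p * R^p = 1 := by
      rw [← Real.mul_rpow (by positivity) hR.le, inv_mul_cancel₀ hR0, Real.one_rpow]
    have e3 : (R⁻¹)^p * R^3 * R^(p - 3) = 1 := by
      rw [Real.rpow_sub hR, show (R:ℝ)^(3:ℝ) = R^(3:ℕ) by
        rw [← Real.rpow_natCast]; norm_num]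
      have h7 : R^(3:ℕ) ≠ 0 := by positivity
      calc (R⁻¹)^p * R^3 * (R^p / R^3) = (R⁻¹)^p * R^p * (R^3 / R^3) := by ring
        _ = 1 := by rw [div_self h7, mul_one, e2]
    have e4 : ∑ i, (μ i * (2 * R))^p = 2^p * R^p * ∑ i, μ i ^ p := by
      rw [Finset.mul_sum]
      exact Finset.sum_congr rfl fun i _ => e1 i
    show (R⁻¹)^p * R^3 * (Chole 3 p * ((r / R)^3 / (r / R)) * ∑ i, (μ i * (2 * R))^p +
      R^(p - 3) * ε) ≤ _
    rw [e4, mul_add]
    have e5 : (R⁻¹)^p * R^3 * (R^(p - 3) * ε) = ε := by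
      rw [← mul_assoc, e3, one_mul]
    rw [e5]
    apply le_of_eq
    congr 1
    have e6 : R^3 * ((r / R)^3 / (r / R)) = R * r^2 := by
      field_simp
    calc (R⁻¹)^p * R^3 * (Chole 3 p * ((r / R)^3 / (r / R)) * (2^p * R^p * ∑ i, μ i ^ p))
        = ((R⁻¹)^p * R^p) * (Chole 3 p * 2^p * (R^3 * ((r / R)^3 / (r / R))) *
            ∑ i, μ i ^ p) := by ring
      _ = _ := by rw [e2, e6, one_mul]; rfl

/-- the gradients of the components -/
lemma gr_le {f : R3 → R3} {x : R3} {c : ℝ} (hc : 0 ≤ c) (h : LLV c f x) (j : Fin 3) :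
    ‖Gr f j x‖ ≤ c := by
  have h1 : LLV c (fun y => f y j) x := by
    filter_upwards [h] with y hy
    refine le_trans ?_ hy
    have := PiLp.norm_apply_le (f y - f x) j
    simpa using this
  have h2 := norm_fderiv_le_of_lip' ℝ hc h1
  unfold Gr gradient
  rw [LinearIsometryEquiv.norm_map]
  exact h2

/-- the energy in the language of the row -/
lemma EnCov.gr {p : ℝ} (hp : 0 < p) {f : R3 → R3} {K : Set R3} {A : ENNReal}
    (h : EnCov volume p f K A) : ∫⁻ x in K, ∑ j : Fin 3, ‖Gr f j x‖ₑ^p ≤ 3 * A := by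
  obtain ⟨J, i, S, c, hS, hc, hK, hL, hA⟩ := h
  have h1 : ∀ x : R3, ∀ c : ℝ, 0 ≤ c → LLV c f x →
      ∑ j : Fin 3, ‖Gr f j x‖ₑ^p ≤ 3 * ENNReal.ofReal (c^p) := by
    intro x c hc hx
    calc ∑ j : Fin 3, ‖Gr f j x‖ₑ^p ≤ ∑ _j : Fin 3, ENNReal.ofReal (c^p) := by
          refine Finset.sum_le_sum fun j _ => ?_
          rw [← ENNReal.ofReal_rpow_of_nonneg hc hp.le]
          refine ENNReal.rpow_le_rpow ?_ hp.le
          rw [← ofReal_norm]
          exact ENNReal.ofReal_le_ofReal (gr_le hc hx j)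
      _ = _ := by simp
  calc ∫⁻ x in K, ∑ j : Fin 3, ‖Gr f j x‖ₑ^p
      ≤ ∫⁻ x in ⋃ j, S j, ∑ j : Fin 3, ‖Gr f j x‖ₑ^p := lintegral_mono_set hK
    _ ≤ ∑' j, ∫⁻ x in S j, ∑ j : Fin 3, ‖Gr f j x‖ₑ^p := lintegral_iUnion_le _ _
    _ = ∑ j, ∫⁻ x in S j, ∑ j : Fin 3, ‖Gr f j x‖ₑ^p := tsum_fintype _
    _ ≤ ∑ j, 3 * (ENNReal.ofReal (c j ^ p) * volume (S j)) := by
        refine Finset.sum_le_sum fun j _ => ?_
        calc ∫⁻ x in S j, ∑ j : Fin 3, ‖Gr f j x‖ₑ^p
            ≤ ∫⁻ _x in S j, 3 * ENNReal.ofReal (c j ^ p) := by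
              refine setLIntegral_mono_ae' (hS j) ?_
              filter_upwards [hL j] with x hx hxS
              exact h1 x _ (hc j) (hx hxS)
          _ = _ := by rw [setLIntegral_const, mul_assoc]
    _ = 3 * ∑ j, ENNReal.ofReal (c j ^ p) * volume (S j) := by rw [Finset.mul_sum]
    _ ≤ _ := mul_le_mul' le_rfl hA

end Crest.Agent.R96.Hole_348
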