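import Crest.Agent.R96.Hole4_348

/-!
# R96, HOLE-TRACE, part 1: null sets and the local structure at the boundary (helper348)

The squeeze `chf τ N` of Hole1 puts the `k`-th dyadic shell of the cube into a layer of thickness `τ`
at the boundary.  If `τ → 0` the normal derivative of a PL map `g` is multiplied by `τ`, so only the
Lipschitz constants of `g` restricted to the boundary of the cube count.
-/

set_option autoImplicit false

open Set Metric Filter Topology MeasureTheory Module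
open scoped ENNReal NNReal

namespace Crest.Agent.R96.Hole_348

open Crest.Agent.R096.Ce_537 Crest.Agent.R096.Bd_416

variable {n : ℕ}

/-! ### null sets -/

lemma null_sect_range {d : ℕ} (hd : d + 1 < n) (φ : (Fin d → ℝ) → (Fin n → ℝ)) {K : ℝ≥0}
    (hφ : LipschitzWith K φ) : volume (sect 0 (range φ)) = 0 := by
  set ψ : (Fin d → ℝ) × ℝ → (Fin n → ℝ) := fun t j => cg t.2 (φ t.1 j) with hψ
  have hL : LipschitzWith (2 * K + 2) ψ := by
    refine LipschitzWith.of_dist_le_mul fun s t => ?_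
    rw [dist_eq_norm, dist_eq_norm]
    rw [pi_norm_le_iff_of_nonneg (by positivity)]
    intro j
    have h1 := cg_lip s.2 t.2 (φ s.1 j) (φ t.1 j)
    have h2 := abs_sub_apply_le (φ s.1) (φ t.1) j
    have h3 : ‖φ s.1 - φ t.1‖ ≤ K * ‖s.1 - t.1‖ := by
      have := hφ.dist_le_mul s.1 t.1
      rwa [dist_eq_norm, dist_eq_norm] at this
    have h4 : ‖s.1 - t.1‖ ≤ ‖s - t‖ := norm_fst_le (s - t)
    have h5 : |s.2 - t.2| ≤ ‖s - t‖ := norm_snd_le (s - t)
    have h6 : (K:ℝ) * ‖s.1 - t.1‖ ≤ K * ‖s - t‖ := mul_le_mul_of_nonneg_left h4 K.2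
    show |cg s.2 (φ s.1 j) - cg t.2 (φ t.1 j)| ≤ _
    push_cast
    nlinarith
  have hsub : sect 0 (range φ) ⊆ range ψ := by
    intro x hx
    obtain ⟨h1, h2, t, ht⟩ := hx
    rw [pow_zero, one_mul] at h1 h2
    refine ⟨(t, ‖x‖), ?_⟩
    funext j
    show cg ‖x‖ (φ t j) = x j
    rw [ht, foot_zero]
    exact cg_cf h1
  have hdim : dimH (range ψ) < ((n : ℝ≥0) : ℝ≥0∞) := by
    refine (hL.dimH_range_le).trans_lt ?_
    rw [Real.dimH_univ_eq_finrank]
    have : finrank ℝ ((Fin d → ℝ) × ℝ) = d + 1 := by simp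
    rw [this]
    exact_mod_cast hd
  have h0 : (μH[((n : ℝ≥0) : ℝ)] : Measure (Fin n → ℝ)) (range ψ) = 0 :=
    hausdorffMeasure_of_dimH_lt hdim
  have h1 : (volume : Measure (Fin n → ℝ)) = μH[((n : ℝ≥0) : ℝ)] := by
    rw [← hausdorffMeasure_pi_real]
    simp
  refine measure_mono_null hsub ?_
  rw [h1]
  exact h0

lemma null_sect_sub {S : Set (Fin n → ℝ)} (D : Submodule ℝ (Fin n → ℝ))
    (hD : finrank ℝ D + 1 < n) (w : Fin n → ℝ) (hS : ∀ ω ∈ S, ω - w ∈ D) :
    volume (sect 0 S) = 0 := by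
  set e : (Fin (finrank ℝ D) → ℝ) ≃ₗ[ℝ] D := LinearEquiv.ofFinrankEq _ _ (by simp) with he
  set A : (Fin (finrank ℝ D) → ℝ) →L[ℝ] (Fin n → ℝ) :=
    LinearMap.toContinuousLinearMap (D.subtype ∘ₗ e.toLinearMap) with hA
  have hφ : LipschitzWith ‖A‖₊ (fun t => w + A t) := by
    refine LipschitzWith.of_dist_le_mul fun s t => ?_
    rw [dist_eq_norm, dist_eq_norm, add_sub_add_left_eq_sub, ← map_sub]
    exact A.le_opNorm _
  refine measure_mono_null ?_ (null_sect_range hD _ hφ)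
  rintro x ⟨h1, h2, h3⟩
  refine ⟨h1, h2, e.symm ⟨foot 0 x - w, hS _ h3⟩, ?_⟩
  show w + A (e.symm ⟨foot 0 x - w, hS _ h3⟩) = foot 0 x
  have : A (e.symm ⟨foot 0 x - w, hS _ h3⟩) = foot 0 x - w := by
    show D.subtype (e (e.symm ⟨foot 0 x - w, hS _ h3⟩)) = _
    rw [LinearEquiv.apply_symm_apply]
    rfl
  rw [this]
  abel

/-- the zero set, in a hyperplane `ω k = σ`, of an affine map which is not identically zero there -/
lemma null_sect_face {F : Type*} [NormedAddCommGroup F] [NormedSpace ℝ F] (k : Fin n) (σ : ℝ)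
    (C : (Fin n → ℝ) →ᵃ[ℝ] F) (hC : ∃ ω : Fin n → ℝ, ω k = σ ∧ C ω ≠ 0) :
    volume (sect 0 {ω : Fin n → ℝ | ω k = σ ∧ C ω = 0}) = 0 := by
  rcases (({ω : Fin n → ℝ | ω k = σ ∧ C ω = 0})).eq_empty_or_nonempty with h | ⟨w, hw1, hw2⟩
  · rw [h]
    have : sect 0 (∅ : Set (Fin n → ℝ)) = ∅ := by
      ext x; simp [sect]
    rw [this, measure_empty]
  obtain ⟨v, hv1, hv2⟩ := hC
  set P : (Fin n → ℝ) →ₗ[ℝ] ℝ := LinearMap.proj k with hP
  set D : Submodule ℝ (Fin n → ℝ) := LinearMap.ker P ⊓ LinearMap.ker C.linear with hD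
  have hlin : ∀ x y, C.linear (x - y) = C x - C y := by
    intro x y
    have := C.linearMap_vsub x y
    simpa using this
  have hlt : D < LinearMap.ker P := by
    refine lt_of_le_of_ne inf_le_left ?_
    intro h
    have h1 : v - w ∈ LinearMap.ker P := by
      rw [LinearMap.mem_ker]
      show v k - w k = 0
      rw [hv1, hw1, sub_self]
    rw [← h] at h1
    have h2 := (Submodule.mem_inf.1 h1).2
    rw [LinearMap.mem_ker, hlin, hw2, sub_zero] at h2
    exact hv2 h2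
  have h1 : finrank ℝ D < finrank ℝ (LinearMap.ker P) := Submodule.finrank_lt_finrank_of_lt hlt
  have h2 : finrank ℝ (LinearMap.ker P) + 1 = n := by
    have h3 := LinearMap.finrank_range_add_finrank_ker P
    have h4 : LinearMap.range P = ⊤ := by
      rw [LinearMap.range_eq_top]
      intro t
      exact ⟨fun _ => t, rfl⟩
    rw [h4, finrank_top, finrank_self, Module.finrank_fin_fun] at h3
    omega
  refine null_sect_sub D (by omega) w ?_
  rintro ω ⟨hω1, hω2⟩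
  refine Submodule.mem_inf.2 ⟨?_, ?_⟩
  · rw [LinearMap.mem_ker]
    show ω k - w k = 0
    rw [hω1, hw1, sub_self]
  · rw [LinearMap.mem_ker, hlin, hω2, hw2, sub_zero]

/-! ### the exceptional set -/

section Z

variable {F : Type*} [NormedAddCommGroup F] [NormedSpace ℝ F]

/-- edges of the cube -/
def Z1 (n : ℕ) : Set (Fin n → ℝ) :=
  {ω | ‖ω‖ = 1 ∧ ∃ k j : Fin n, k ≠ j ∧ |ω k| = 1 ∧ |ω j| = 1}

/-- changes of the affine map on the faces of the cube -/
def Z2 (s : Finset ((Fin n → ℝ) →ᵃ[ℝ] F)) : Set (Fin n → ℝ) :=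
  {ω | ‖ω‖ = 1 ∧ ∃ k : Fin n, |ω k| = 1 ∧ ∃ A ∈ s, ∃ B ∈ s,
    (∃ ω' : Fin n → ℝ, ω' k = ω k ∧ A ω' ≠ B ω') ∧ A ω = B ω}

lemma abs_eq_one_iff {t : ℝ} : |t| = 1 ↔ t = 1 ∨ t = -1 := abs_eq zero_le_one

lemma null_Z1 : volume (sect 0 (Z1 n)) = 0 := by
  have hsub : sect 0 (Z1 n) ⊆ ⋃ (k : Fin n) (j : Fin n) (_ : k ≠ j) (σ ∈ ({1, -1} : Set ℝ))
      (σ' ∈ ({1, -1} : Set ℝ)), sect 0 {ω : Fin n → ℝ | ω k = σ ∧
        (((LinearMap.proj j : (Fin n → ℝ) →ₗ[ℝ] ℝ).toAffineMap - AffineMap.const ℝ _ σ') :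
          (Fin n → ℝ) →ᵃ[ℝ] ℝ) ω = 0} := by
    rintro x ⟨h1, h2, h3, k, j, hkj, hk, hj⟩
    simp only [mem_iUnion]
    refine ⟨k, j, hkj, foot 0 x k, ?_, foot 0 x j, ?_, h1, h2, rfl, ?_⟩
    · simpa using abs_eq_one_iff.1 hk
    · simpa using abs_eq_one_iff.1 hj
    · simp
  refine measure_mono_null hsub ?_
  refine (measure_iUnion_null_iff.2 fun k => ?_)
  refine (measure_iUnion_null_iff.2 fun j => ?_)
  refine (measure_iUnion_null_iff.2 fun hkj => ?_)
  refine (measure_biUnion_null_iff (by simp)).2 fun σ _ => ?_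
  refine (measure_biUnion_null_iff (by simp)).2 fun σ' _ => ?_
  refine null_sect_face k σ _ ?_
  refine ⟨Function.update (fun _ => σ' + 1) k σ, by simp, ?_⟩
  simp [Function.update_of_ne (Ne.symm hkj)]

lemma null_Z2 (s : Finset ((Fin n → ℝ) →ᵃ[ℝ] F)) : volume (sect 0 (Z2 s)) = 0 := by
  classical
  have hsub : sect 0 (Z2 s) ⊆ ⋃ (k : Fin n) (σ ∈ ({1, -1} : Set ℝ)) (A ∈ s) (B ∈ s)
      (_ : ∃ ω' : Fin n → ℝ, ω' k = σ ∧ A ω' ≠ B ω'),
        sect 0 {ω : Fin n → ℝ | ω k = σ ∧ (A - B) ω = 0} := by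
    rintro x ⟨h1, h2, h3, k, hk, A, hA, B, hB, hAB, h4⟩
    simp only [mem_iUnion]
    refine ⟨k, foot 0 x k, ?_, A, hA, B, hB, hAB, h1, h2, rfl, ?_⟩
    · simpa using abs_eq_one_iff.1 hk
    · simp [h4]
  refine measure_mono_null hsub ?_
  refine (measure_iUnion_null_iff.2 fun k => ?_)
  refine (measure_biUnion_null_iff (by simp)).2 fun σ _ => ?_
  refine (measure_biUnion_null_iff s.countable_toSet).2 fun A _ => ?_
  refine (measure_biUnion_null_iff s.countable_toSet).2 fun B _ => ?_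
  refine (measure_iUnion_null_iff.2 fun h => ?_)
  obtain ⟨ω, h1, h2⟩ := h
  refine null_sect_face k σ _ ⟨ω, h1, ?_⟩
  simpa [sub_ne_zero] using h2

lemma isClosed_Z1 : IsClosed (Z1 n) := by
  have e : Z1 n = {ω | ‖ω‖ = 1} ∩ ⋃ (k : Fin n) (j : Fin n) (_ : k ≠ j),
      {ω : Fin n → ℝ | |ω k| = 1 ∧ |ω j| = 1} := by
    ext ω
    simp only [Z1, mem_setOf_eq, mem_inter_iff, mem_iUnion, exists_prop]
  rw [e]
  refine (isClosed_eq continuous_norm continuous_const).inter ?_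
  refine isClosed_iUnion_of_finite fun k => isClosed_iUnion_of_finite fun j =>
    isClosed_iUnion_of_finite fun _ => ?_
  exact (isClosed_eq (continuous_apply k).abs continuous_const).inter
    (isClosed_eq (continuous_apply j).abs continuous_const)

lemma isClosed_Z2 (s : Finset ((Fin n → ℝ) →ᵃ[ℝ] F)) : IsClosed (Z2 s) := by
  have e : Z2 s = {ω | ‖ω‖ = 1} ∩ ⋃ (k : Fin n) (σ ∈ ({1, -1} : Set ℝ)) (A ∈ s) (B ∈ s)
      (_ : ∃ ω' : Fin n → ℝ, ω' k = σ ∧ A ω' ≠ B ω'),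
        {ω : Fin n → ℝ | ω k = σ ∧ A ω = B ω} := by
    ext ω
    simp only [Z2, mem_setOf_eq, mem_inter_iff, mem_iUnion, exists_prop]
    refine and_congr_right fun _ => exists_congr fun k => ?_
    constructor
    · rintro ⟨hk, A, hA, B, hB, h1, h2⟩
      exact ⟨ω k, by simpa using abs_eq_one_iff.1 hk, A, hA, B, hB, h1, rfl, h2⟩
    · rintro ⟨σ, hσ, A, hA, B, hB, h1, h2, h3⟩
      subst h2
      exact ⟨abs_eq_one_iff.2 (by simpa using hσ), A, hA, B, hB, h1, h3⟩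
  rw [e]
  refine (isClosed_eq continuous_norm continuous_const).inter ?_
  refine isClosed_iUnion_of_finite fun k => ?_
  refine Set.Finite.isClosed_biUnion (by simp) fun σ _ => ?_
  refine Set.Finite.isClosed_biUnion s.finite_toSet fun A _ => ?_
  refine Set.Finite.isClosed_biUnion s.finite_toSet fun B _ => ?_
  refine isClosed_iUnion_of_finite fun _ => ?_
  exact (isClosed_eq (continuous_apply k) continuous_const).inter
    (isClosed_eq A.continuous_of_finiteDimensional B.continuous_of_finiteDimensional)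

end Z

end Crest.Agent.R96.Hole_348
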