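import Crest.Agent.R96.Hole5_348

/-!
# R96, HOLE-TRACE, part 2: local structure of a PL map at the boundary of the cube (helper348)
-/

set_option autoImplicit false

open Set Metric Filter Topology MeasureTheory Module
open scoped ENNReal NNReal

namespace Crest.Agent.R96.Hole_348

open Crest.Agent.R096.Ce_537 Crest.Agent.R096.Bd_416

variable {n : ℕ} {G : Type*} [NormedAddCommGroup G] [NormedSpace ℝ G]

/-- near `ω` the boundary of the cube is a face and `g` is affine in the cube -/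
structure Nice (g : (Fin n → ℝ) → G) (s : Finset ((Fin n → ℝ) →ᵃ[ℝ] G)) (ω : Fin n → ℝ) (δ : ℝ)
    (k : Fin n) (A : (Fin n → ℝ) →ᵃ[ℝ] G) : Prop where
  pos : 0 < δ
  mem : A ∈ s
  bd : |ω k| = 1
  side : ∀ y ∈ ball ω δ, ∀ j, j ≠ k → |y j| < 1
  face : ∀ y ∈ ball ω δ, ‖y‖ = 1 → y k = ω k
  eq : ∀ y ∈ ball ω δ, ‖y‖ ≤ 1 → g y = A y

lemma exists_max_coord (hn : 0 < n) {ω : Fin n → ℝ} (h : ‖ω‖ = 1) : ∃ k, |ω k| = 1 := by
  have : Nonempty (Fin n) := ⟨⟨0, hn⟩⟩
  obtain ⟨k, hk⟩ := Finite.exists_max (fun k => |ω k|)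
  refine ⟨k, le_antisymm (by rw [← h]; exact norm_le_pi_norm ω k) ?_⟩
  rw [← h]
  exact (pi_norm_le_iff_of_nonneg (abs_nonneg _)).2 hk

/-- two affine maps which agree on a hyperplane `ω k = σ` and at a point off it are equal -/
lemma affine_eq_of {A B : (Fin n → ℝ) →ᵃ[ℝ] G} {k : Fin n} {σ : ℝ}
    (h : ∀ ω : Fin n → ℝ, ω k = σ → A ω = B ω) {y : Fin n → ℝ} (hy : y k ≠ σ) (h2 : A y = B y) :
    A = B := by
  have hlin : ∀ (C : (Fin n → ℝ) →ᵃ[ℝ] G) x y, C.linear (x - y) = C x - C y := by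
    intro C x y
    have := C.linearMap_vsub x y
    simpa using this
  ext x
  -- choose ω₀ in the hyperplane and scale
  set ω₀ : Fin n → ℝ := Function.update y k σ with hω₀
  have h0 : ω₀ k = σ := by simp [hω₀]
  set c : ℝ := (x k - σ) / (y k - σ) with hc
  have hyσ : y k - σ ≠ 0 := sub_ne_zero.2 hy
  set w : Fin n → ℝ := x - c • (y - ω₀) with hw
  have hwk : w k = σ := by
    show x k - c * (y k - ω₀ k) = σ
    rw [h0, hc, div_mul_cancel₀ _ hyσ]
    ring
  have e : ∀ C : (Fin n → ℝ) →ᵃ[ℝ] G, C x = C w + c • (C y - C ω₀) := by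
    intro C
    rw [← hlin, ← map_smul]
    have : c • (y - ω₀) = x - w := by rw [hw]; abel
    rw [this, hlin]
    abel
  rw [e A, e B, h w hwk, h ω₀ h0, h2]

lemma exists_nice (hn : 0 < n) {g : (Fin n → ℝ) → G} (hc : ContinuousOn g (closedBall 0 1))
    {s : Finset ((Fin n → ℝ) →ᵃ[ℝ] G)} (hs : ∀ x ∈ closedBall (0 : Fin n → ℝ) 1, ∃ A ∈ s, g x = A x)
    {ω : Fin n → ℝ} (hω : ‖ω‖ = 1) (h1 : ω ∉ Z1 n) (h2 : ω ∉ Z2 s) :
    ∃ δ k A, Nice g s ω δ k A := by
  classical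
  obtain ⟨k, hk⟩ := exists_max_coord hn hω
  have hj : ∀ j, j ≠ k → |ω j| < 1 := by
    intro j hjk
    refine lt_of_le_of_ne (by rw [← hω]; exact norm_le_pi_norm ω j) ?_
    intro h
    exact h1 ⟨hω, j, k, hjk, h, hk⟩
  -- the pairs
  have hpair : ∀ A ∈ s, ∀ B ∈ s, A ≠ B → ∀ᶠ y in 𝓝 ω, ‖y‖ < 1 → A y ≠ B y := by
    intro A hA B hB hAB
    by_cases he : A ω = B ω
    · have hall : ∀ ω' : Fin n → ℝ, ω' k = ω k → A ω' = B ω' := by
        intro ω' hω'
        by_contra hne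
        exact h2 ⟨hω, k, hk, A, hA, B, hB, ⟨ω', hω', hne⟩, he⟩
      refine Eventually.of_forall fun y hy h3 => hAB ?_
      refine affine_eq_of hall ?_ h3
      intro h4
      have : |y k| ≤ ‖y‖ := norm_le_pi_norm y k
      rw [h4, hk] at this
      linarith
    · have hcA : Continuous A := A.continuous_of_finiteDimensional
      have hcB : Continuous B := B.continuous_of_finiteDimensional
      have : ∀ᶠ y in 𝓝 ω, A y ≠ B y :=
        (isOpen_ne_fun hcA hcB).mem_nhds he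
      filter_upwards [this] with y hy _
      exact hy
  have hside : ∀ᶠ y in 𝓝 ω, ∀ j, j ≠ k → |y j| < 1 := by
    rw [eventually_all]
    intro j
    by_cases hjk : j = k
    · exact Eventually.of_forall fun y h => absurd hjk h
    · have : ∀ᶠ y in 𝓝 ω, |y j| < 1 :=
        (isOpen_lt (continuous_apply j).abs continuous_const).mem_nhds (hj j hjk)
      filter_upwards [this] with y hy _
      exact hy
  have hface : ∀ᶠ y in 𝓝 ω, |y k - ω k| < 1 :=
    (isOpen_lt ((continuous_apply k).sub continuous_const).abs continuous_const).mem_nhds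
      (by simp)
  have hall : ∀ᶠ y in 𝓝 ω, ∀ A ∈ s, ∀ B ∈ s, A ≠ B → ‖y‖ < 1 → A y ≠ B y := by
    refine (Filter.eventually_all_finset s).2 fun A hA => ?_
    refine (Filter.eventually_all_finset s).2 fun B hB => ?_
    by_cases hAB : A = B
    · exact Eventually.of_forall fun y h => absurd hAB h
    · filter_upwards [hpair A hA B hB hAB] with y hy _
      exact hy
  obtain ⟨δ, hδ, hball⟩ := Metric.eventually_nhds_iff_ball.1 ((hall.and hside).and hface)
  -- the map on the open part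
  set U : Set (Fin n → ℝ) := ball ω δ ∩ ball 0 1 with hU
  have hUc : Convex ℝ U := (convex_ball _ _).inter (convex_ball _ _)
  have happ : ∀ y : Fin n → ℝ, ‖y‖ ≤ 1 → y ∈ ball ω δ → y ∈ closure U := by
    intro y hy hyb
    have ht : Tendsto (fun t : ℝ => (1 - t) • y) (𝓝[>] 0) (𝓝 y) := by
      have : Tendsto (fun t : ℝ => (1 - t) • y) (𝓝 0) (𝓝 ((1 - 0 : ℝ) • y)) :=
        ((continuous_const.sub continuous_id).smul continuous_const).tendsto 0
      rw [sub_zero, one_smul] at this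
      exact this.mono_left nhdsWithin_le_nhds
    refine mem_closure_of_tendsto ht ?_
    have e1 : ∀ᶠ t : ℝ in 𝓝[>] 0, (1 - t) • y ∈ ball ω δ := ht.eventually (isOpen_ball.mem_nhds hyb)
    have e2 : ∀ᶠ t : ℝ in 𝓝[>] 0, t < 1 := by
      have : ∀ᶠ t : ℝ in 𝓝 0, t < 1 := isOpen_Iio.mem_nhds (by norm_num)
      exact this.filter_mono nhdsWithin_le_nhds
    filter_upwards [e1, e2, self_mem_nhdsWithin] with t h3 h4 h5
    refine ⟨h3, ?_⟩
    rw [mem_ball_zero_iff, norm_smul, Real.norm_eq_abs, abs_of_pos (by linarith)]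
    have h5' : (0:ℝ) < t := h5
    nlinarith [norm_nonneg y]
  have hUne : U.Nonempty := by
    rw [← closure_nonempty_iff]
    exact ⟨ω, happ ω hω.le (mem_ball_self hδ)⟩
  obtain ⟨y₀, hy₀⟩ := hUne
  obtain ⟨A, hA, hgA⟩ := hs y₀ (ball_subset_closedBall hy₀.2)
  set T : Set (Fin n → ℝ) := {y | y ∈ closedBall (0 : Fin n → ℝ) 1 ∧ g y = A y} with hT
  have hclosed : ∀ B : (Fin n → ℝ) →ᵃ[ℝ] G,
      IsClosed {y | y ∈ closedBall (0 : Fin n → ℝ) 1 ∧ g y = B y} := by
    intro B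
    have hd : ContinuousOn (fun y => g y - B y) (closedBall (0 : Fin n → ℝ) 1) :=
      hc.sub B.continuous_of_finiteDimensional.continuousOn
    have h3 := hd.preimage_isClosed_of_isClosed isClosed_closedBall (isClosed_singleton (x := (0:G)))
    convert h3 using 1
    ext y
    simp [sub_eq_zero]
  have hUT : U ⊆ T := by
    set T' : Set (Fin n → ℝ) := ⋃ B ∈ s.erase A, {y | y ∈ closedBall (0 : Fin n → ℝ) 1 ∧ g y = B y}
      with hT'
    have hT'c : IsClosed T' := (s.erase A).finite_toSet.isClosed_biUnion fun B _ => hclosed B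
    have hcov : U ⊆ T ∪ T' := by
      intro y hy
      have hy1 := ball_subset_closedBall hy.2
      obtain ⟨B, hB, hgB⟩ := hs y hy1
      by_cases hBA : B = A
      · exact Or.inl ⟨hy1, by rw [← hBA]; exact hgB⟩
      · right
        simp only [hT', mem_iUnion]
        exact ⟨B, Finset.mem_erase.2 ⟨hBA, hB⟩, hy1, hgB⟩
    intro y hy
    rcases hcov hy with h3 | h3
    · exact h3
    · exfalso
      have hpre := isPreconnected_closed_iff.1 hUc.isPreconnected T T' (hclosed A) hT'c hcov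
        ⟨y₀, hy₀, ball_subset_closedBall hy₀.2, hgA⟩ ⟨y, hy, h3⟩
      obtain ⟨z, hz, hz1, hz2⟩ := hpre
      simp only [hT', mem_iUnion] at hz2
      obtain ⟨B, hB, hz3⟩ := hz2
      have hB' := Finset.mem_erase.1 hB
      exact (hball z hz.1).1.1 A hA B hB'.2 (Ne.symm hB'.1) (by simpa using hz.2)
        (hz1.2.symm.trans hz3.2)
  refine ⟨δ, k, A, hδ, hA, hk, fun y hy j hjk => (hball y hy).1.2 j hjk, ?_, ?_⟩
  · intro y hy hy1
    have hyk : |y k| = 1 := by
      obtain ⟨k', hk'⟩ := exists_max_coord hn hy1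
      by_cases hkk : k' = k
      · rw [← hkk]; exact hk'
      · have := (hball y hy).1.2 k' hkk
        linarith
    have h3 := (hball y hy).2
    rcases abs_eq_one_iff.1 hyk with h4 | h4 <;> rcases abs_eq_one_iff.1 hk with h5 | h5
    · rw [h4, h5]
    · rw [h4, h5] at h3; norm_num at h3
    · rw [h4, h5] at h3; norm_num at h3
    · rw [h4, h5]
  · intro y hy hy1
    have h3 : closure U ⊆ T := (hclosed A).closure_subset_iff.2 hUT
    exact (h3 (happ y hy1 hy)).2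

/-- the points of `S` at which `g` restricted to `S` has local Lipschitz constant `≤ μ` -/
def TB {E G' : Type*} [NormedAddCommGroup E] [NormedAddCommGroup G'] (μ : ℝ) (g : E → G')
    (S : Set E) : Set E := {z | z ∈ S ∧ ∀ᶠ y in 𝓝[S] z, ‖g y - g z‖ ≤ μ * ‖y - z‖}

/-- the tangential bound -/
lemma Nice.tan {g : (Fin n → ℝ) → G} {s : Finset ((Fin n → ℝ) →ᵃ[ℝ] G)} {ω : Fin n → ℝ} {δ : ℝ}
    {k : Fin n} {A : (Fin n → ℝ) →ᵃ[ℝ] G} (h : Nice g s ω δ k A) {μ : ℝ}
    (hμ : ω ∈ closure (TB μ g (sphere 0 1))) (v : Fin n → ℝ) (hv : v k = 0) :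
    ‖A.linear v‖ ≤ μ * ‖v‖ := by
  have hlin : ∀ x y, A.linear (x - y) = A x - A y := by
    intro x y
    have := A.linearMap_vsub x y
    simpa using this
  obtain ⟨z, hzb, hz1, hz2⟩ := mem_closure_iff_nhds.1 hμ _ (ball_mem_nhds ω h.pos)
  have hzn : ‖z‖ = 1 := by simpa using hz1
  have hzk : z k = ω k := h.face z hzb hzn
  have h1 : Tendsto (fun t : ℝ => z + t • v) (𝓝[>] 0) (𝓝 z) := by
    have : Tendsto (fun t : ℝ => z + t • v) (𝓝 0) (𝓝 (z + (0:ℝ) • v)) :=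
      (continuous_const.add (continuous_id.smul continuous_const)).tendsto 0
    rw [zero_smul, add_zero] at this
    exact this.mono_left nhdsWithin_le_nhds
  have hb : ∀ᶠ t : ℝ in 𝓝[>] 0, z + t • v ∈ ball ω δ := h1.eventually (isOpen_ball.mem_nhds hzb)
  have hs : ∀ t : ℝ, z + t • v ∈ ball ω δ → ‖z + t • v‖ = 1 := by
    intro t ht
    have hk : (z + t • v) k = ω k := by simp [hv, hzk]
    refine le_antisymm ((pi_norm_le_iff_of_nonneg zero_le_one).2 fun j => ?_) ?_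
    · by_cases hj : j = k
      · rw [hj, Real.norm_eq_abs, hk, h.bd]
      · exact (h.side _ ht j hj).le
    · calc (1:ℝ) = |(z + t • v) k| := by rw [hk, h.bd]
        _ ≤ _ := norm_le_pi_norm (z + t • v) k
  have ht : Tendsto (fun t : ℝ => z + t • v) (𝓝[>] 0) (𝓝[sphere 0 1] z) := by
    refine tendsto_nhdsWithin_iff.2 ⟨h1, ?_⟩
    filter_upwards [hb] with t ht
    rw [mem_sphere_zero_iff_norm]
    exact hs t ht
  have h2 := ht.eventually hz2
  obtain ⟨t, ⟨h4, h5⟩, h7⟩ := ((h2.and hb).and self_mem_nhdsWithin).exists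
  have h7' : (0:ℝ) < t := h7
  rw [h.eq _ h5 (hs t h5).le, h.eq _ hzb hzn.le, ← hlin, add_sub_cancel_left,
    map_smul, norm_smul, norm_smul, Real.norm_eq_abs, abs_of_pos h7'] at h4
  have : t * ‖A.linear v‖ ≤ t * (μ * ‖v‖) := by linarith
  exact le_of_mul_le_mul_left this h7'

/-- **the local Lipschitz constant of the squeezed map in the shells: only the tangential
constant, up to a term with the factor `τ`** -/
lemma LLV_shell_tan {g : (Fin n → ℝ) → G} {s : Finset ((Fin n → ℝ) →ᵃ[ℝ] G)} {δ : ℝ}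
    {k₀ : Fin n} {A : (Fin n → ℝ) →ᵃ[ℝ] G} {τ μ L : ℝ} {N k : ℕ} (hP : Par τ N 1) (hk : k < N)
    {x : Fin n → ℝ} (h1 : 1/2 < 2^k * ‖x‖) (h2 : 2^k * ‖x‖ < 1)
    (h : Nice g s (foot k x) δ k₀ A) (hμ0 : 0 ≤ μ)
    (hμ : ∀ v : Fin n → ℝ, v k₀ = 0 → ‖A.linear v‖ ≤ μ * ‖v‖)
    (hL : ∀ v, ‖A.linear v‖ ≤ L * ‖v‖) (hL0 : 0 ≤ L) (hτ : 2 * (N * τ) < δ) :
    LLV (14 * 2^k * μ + 4 * τ * 2^k * L) (fun y => g (chf τ N y)) x := by
  have hlin : ∀ x y, A.linear (x - y) = A x - A y := by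
    intro x y
    have := A.linearMap_vsub x y
    simpa using this
  obtain ⟨hf1, hf2, hf3⟩ := chf_near hP hk h1 h2
  have hp : (0:ℝ) < 2^k := by positivity
  have ht0 := hP.t0
  have hc : Tendsto (chf (n := n) τ N) (𝓝 x) (𝓝 (chf τ N x)) :=
    (continuous_chf hP).continuousAt
  have hyb : chf τ N x ∈ ball (foot k x) δ := by
    rw [mem_ball, dist_eq_norm]; linarith
  have ho : ∀ᶠ y in 𝓝 x, 1/2 < 2^k * ‖y‖ ∧ 2^k * ‖y‖ < 1 := by
    have hcn : Continuous (fun y : Fin n → ℝ => 2^k * ‖y‖) := continuous_const.mul continuous_norm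
    exact ((isOpen_lt continuous_const hcn).inter (isOpen_lt hcn continuous_const)).mem_nhds
      ⟨h1, h2⟩
  have hb1 : ∀ᶠ y in 𝓝 x, chf τ N y ∈ ball (foot k x) δ := hc.eventually (isOpen_ball.mem_nhds hyb)
  have hb2 : ∀ᶠ y in 𝓝 x, foot k y ∈ ball (foot k x) δ :=
    (continuous_foot k).continuousAt.eventually (ball_mem_nhds _ h.pos)
  filter_upwards [ho, hb1, hb2] with y hy hy1 hy2
  obtain ⟨hg1, hg2, hg3⟩ := chf_near hP hk hy.1 hy.2
  rw [h.eq _ hy1 hg2.le, h.eq _ hyb hf2.le, ← hlin]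
  set ρ := 1 - (k + 1) * τ + (2 * (2^k * ‖x‖) - 1) * τ with hρ
  set ρ' := 1 - (k + 1) * τ + (2 * (2^k * ‖y‖) - 1) * τ with hρ'
  have e1 : chf τ N x = fun j => cg ρ (foot k x j) := chf_shell hk h1.le h2.le
  have e2 : chf τ N y = fun j => cg ρ' (foot k y j) := chf_shell hk hy.1.le hy.2.le
  set z : Fin n → ℝ := fun j => cg ρ (foot k y j) with hz
  have h5 : chf τ N y - chf τ N x = (chf τ N y - z) + (z - chf τ N x) := by abel
  rw [h5, map_add]
  have h6 : ‖chf τ N y - z‖ ≤ 4 * τ * 2^k * ‖y - x‖ := by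
    rw [pi_norm_le_iff_of_nonneg (by positivity)]
    intro j
    have h7 := cg_lip ρ' ρ (foot k y j) (foot k y j)
    have e : ρ' - ρ = (2 * τ) * (2^k * (‖y‖ - ‖x‖)) := by rw [hρ, hρ']; ring
    rw [sub_self, abs_zero, mul_zero, zero_add, e, abs_mul (2 * τ), abs_mul (2^k), abs_of_pos hp,
      abs_of_pos (by linarith : 0 < 2 * τ)] at h7
    have h8 := abs_norm_sub_le' y x
    have h9 : 2 * τ * (2^k * |‖y‖ - ‖x‖|) ≤ 2 * τ * (2^k * ‖y - x‖) := by gcongr
    rw [e2]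
    show |cg ρ' (foot k y j) - cg ρ (foot k y j)| ≤ _
    calc _ ≤ 2 * (2 * τ * (2^k * |‖y‖ - ‖x‖|)) := h7
      _ ≤ 2 * (2 * τ * (2^k * ‖y - x‖)) := by linarith
      _ = _ := by ring
  have h7 : ‖z - chf τ N x‖ ≤ 14 * 2^k * ‖y - x‖ := by
    rw [e1, pi_norm_le_iff_of_nonneg (by positivity)]
    intro j
    have h8 := cg_lip ρ ρ (foot k y j) (foot k x j)
    rw [sub_self, abs_zero, mul_zero, add_zero] at h8
    have h9 := (abs_sub_apply_le (foot k y) (foot k x) j).trans (foot_sub_le k y x)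
    show |cg ρ (foot k y j) - cg ρ (foot k x j)| ≤ _
    linarith
  have h8 : (z - chf τ N x) k₀ = 0 := by
    rw [e1]
    show cg ρ (foot k y k₀) - cg ρ (foot k x k₀) = 0
    rw [h.face _ hy2 hg1, sub_self]
  have h9 := hμ _ h8
  calc ‖A.linear (chf τ N y - z) + A.linear (z - chf τ N x)‖
      ≤ ‖A.linear (chf τ N y - z)‖ + ‖A.linear (z - chf τ N x)‖ := norm_add_le _ _
    _ ≤ L * (4 * τ * 2^k * ‖y - x‖) + μ * (14 * 2^k * ‖y - x‖) := by
        refine add_le_add ((hL _).trans ?_) (h9.trans ?_)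
        · exact mul_le_mul_of_nonneg_left h6 hL0
        · exact mul_le_mul_of_nonneg_left h7 hμ0
    _ = _ := by ring

/-- uniform size on compact sets -/
lemma exists_nice_unif {g : (Fin n → ℝ) → G} {s : Finset ((Fin n → ℝ) →ᵃ[ℝ] G)}
    {K : Set (Fin n → ℝ)} (hK : IsCompact K) (hK1 : ∀ ω ∈ K, ‖ω‖ = 1)
    (h : ∀ ω ∈ K, ∃ δ k A, Nice g s ω δ k A) :
    ∃ δ > 0, ∀ ω ∈ K, ∃ k A, Nice g s ω δ k A := by
  have key : ∃ δ > 0, ∀ ω ∈ K, ‖ω‖ = 1 → ∃ k A, Nice g s ω δ k A := by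
    refine hK.induction_on (p := fun S => ∃ δ > 0, ∀ ω ∈ S, ‖ω‖ = 1 → ∃ k A, Nice g s ω δ k A)
      ⟨1, one_pos, fun ω hω => absurd hω (notMem_empty _)⟩ ?_ ?_ ?_
    · rintro S T hST ⟨δ, hδ, h1⟩
      exact ⟨δ, hδ, fun ω hω => h1 ω (hST hω)⟩
    · rintro S T ⟨δ, hδ, h1⟩ ⟨δ', hδ', h1'⟩
      refine ⟨min δ δ', lt_min hδ hδ', ?_⟩
      have hmono : ∀ {ω : Fin n → ℝ} {a b : ℝ} {k A}, 0 < b → b ≤ a → Nice g s ω a k A →
          Nice g s ω b k A := by
        intro ω a b k A hb hab hn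
        have hsub := ball_subset_ball (x := ω) hab
        exact ⟨hb, hn.mem, hn.bd, fun y hy => hn.side y (hsub hy), fun y hy => hn.face y (hsub hy),
          fun y hy => hn.eq y (hsub hy)⟩
      rintro ω (hω | hω) hω1
      · obtain ⟨k, A, h2⟩ := h1 ω hω hω1
        exact ⟨k, A, hmono (lt_min hδ hδ') (min_le_left _ _) h2⟩
      · obtain ⟨k, A, h2⟩ := h1' ω hω hω1
        exact ⟨k, A, hmono (lt_min hδ hδ') (min_le_right _ _) h2⟩
    · intro ω hω
      obtain ⟨δ, k, A, h1⟩ := h ω hω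
      refine ⟨ball ω (δ/2), mem_nhdsWithin_of_mem_nhds (ball_mem_nhds _ (half_pos h1.pos)),
        δ/2, half_pos h1.pos, ?_⟩
      intro ω' hω' hn1
      have hsub : ball ω' (δ/2) ⊆ ball ω δ := by
        refine ball_subset_ball' ?_
        rw [mem_ball] at hω'
        linarith
      have hmem : ω' ∈ ball ω δ := hsub (mem_ball_self (half_pos h1.pos))
      have hf := h1.face ω' hmem hn1
      exact ⟨k, A, half_pos h1.pos, h1.mem, by rw [hf]; exact h1.bd,
        fun y hy => h1.side y (hsub hy), fun y hy hy1 => by rw [hf]; exact h1.face y (hsub hy) hy1,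
        fun y hy => h1.eq y (hsub hy)⟩
  obtain ⟨δ, hδ, h1⟩ := key
  exact ⟨δ, hδ, fun ω hω => h1 ω hω (hK1 ω hω)⟩

end Crest.Agent.R96.Hole_348
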