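import Crest.Agent.R96.Hole6_348
import Crest.Agent.R096.Sk1_962

/-!
# R96, HOLE-TRACE, part 3: the unit cube (helper348)

`hole_unit_trace`: for a PL map `g` on the closed cube, only the Lipschitz constants of `g`
restricted to the boundary sphere count.
-/

set_option autoImplicit false

open Set Metric Filter Topology MeasureTheory Module
open scoped ENNReal NNReal

namespace Crest.Agent.R96.Hole_348

open Crest.Agent.R096.Ce_537 Crest.Agent.R096.Bd_416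

variable {n : ℕ} {G : Type*} [NormedAddCommGroup G] [NormedSpace ℝ G]

lemma volume_sect_null (k : ℕ) {Z : Set (Fin n → ℝ)} (h : volume (sect 0 Z) = 0) :
    volume (sect k Z) = 0 := by
  have hp : (0:ℝ) < 2^k := by positivity
  have e : sect k Z = (fun x : Fin n → ℝ => (2:ℝ)^k • x) ⁻¹' sect 0 Z := by
    ext x
    have e2 : ‖(2:ℝ)^k • x‖ = 2^k * ‖x‖ := by rw [norm_smul]; simp
    show _ ↔ (1/2 ≤ 2^0 * ‖(2:ℝ)^k • x‖ ∧ 2^0 * ‖(2:ℝ)^k • x‖ ≤ 1 ∧ foot 0 ((2:ℝ)^k • x) ∈ Z)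
    rw [e2, pow_zero, one_mul, ← foot_eq]
    rfl
  rw [e, Measure.addHaar_preimage_smul _ hp.ne', h, mul_zero]

lemma sect_sub_closedBall (k : ℕ) (Z : Set (Fin n → ℝ)) : sect k Z ⊆ closedBall 0 1 := by
  rintro x ⟨_, h2, _⟩
  rw [mem_closedBall_zero_iff]
  have hp : (1:ℝ) ≤ 2^k := one_le_pow₀ (by norm_num)
  nlinarith [norm_nonneg x]

/-- the shells over small neighbourhoods of a null set are small -/
lemma exists_thick {Z : Set (Fin n → ℝ)} (hZc : IsClosed Z) (hZ : volume (sect 0 Z) = 0) (N : ℕ)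
    (c : ℕ → ℝ) {ε : ℝ} (hε : 0 < ε) : ∃ m : ℕ, ∑ k : Fin N,
      ENNReal.ofReal (c k) * volume (sect k (cthickening (1 / ((m:ℝ) + 1)) Z)) ≤
        ENNReal.ofReal ε := by
  have hk : ∀ k : ℕ, Tendsto (fun m : ℕ => volume (sect k (cthickening (1 / ((m:ℝ) + 1)) Z)))
      atTop (𝓝 0) := by
    intro k
    have hanti : Antitone (fun m : ℕ => sect k (cthickening (1 / ((m:ℝ) + 1)) Z)) := by
      intro m m' hm x hx
      obtain ⟨h1, h2, h3⟩ := hx
      refine ⟨h1, h2, cthickening_mono ?_ _ h3⟩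
      have h4 : (m:ℝ) ≤ m' := by exact_mod_cast hm
      have h5 : (0:ℝ) ≤ m := Nat.cast_nonneg _
      exact one_div_le_one_div_of_le (by linarith) (by linarith)
    have h1 := tendsto_measure_iInter_atTop (μ := (volume : Measure (Fin n → ℝ)))
      (s := fun m : ℕ => sect k (cthickening (1 / ((m:ℝ) + 1)) Z))
      (fun m => (isClosed_sect k isClosed_cthickening).measurableSet.nullMeasurableSet) hanti
      ⟨0, ne_top_of_le_ne_top (measure_closedBall_lt_top (x := (0 : Fin n → ℝ)) (r := 1)).ne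
        (measure_mono (sect_sub_closedBall _ _))⟩
    have h2 : (⋂ m : ℕ, sect k (cthickening (1 / ((m:ℝ) + 1)) Z)) ⊆ sect k Z := by
      intro x hx
      rw [mem_iInter] at hx
      refine ⟨(hx 0).1, (hx 0).2.1, ?_⟩
      have h3 : foot k x ∈ ⋂ m : ℕ, cthickening (1 / ((m:ℝ) + 1)) Z :=
        mem_iInter.2 fun m => (hx m).2.2
      have h4 : infEDist (foot k x) Z = 0 := by
        have h5 : ∀ m : ℕ, infEDist (foot k x) Z ≤ ENNReal.ofReal (1 / ((m:ℝ) + 1)) := fun m =>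
          mem_iInter.1 h3 m
        have h6 : Tendsto (fun m : ℕ => ENNReal.ofReal (1 / ((m:ℝ) + 1))) atTop (𝓝 0) := by
          rw [← ENNReal.ofReal_zero]
          exact ENNReal.tendsto_ofReal tendsto_one_div_add_atTop_nhds_zero_nat
        exact le_antisymm (ge_of_tendsto' h6 h5) zero_le
      exact (mem_iff_infEDist_zero_of_closed hZc).2 h4
    have h3 : volume (⋂ m : ℕ, sect k (cthickening (1 / ((m:ℝ) + 1)) Z)) = 0 :=
      measure_mono_null h2 (volume_sect_null k hZ)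
    rw [h3] at h1
    exact h1
  have hsum : Tendsto (fun m : ℕ => ∑ k : Fin N, ENNReal.ofReal (c k) *
      volume (sect k (cthickening (1 / ((m:ℝ) + 1)) Z))) atTop (𝓝 (∑ _k : Fin N, 0)) := by
    refine tendsto_finsetSum _ fun k _ => ?_
    have := ENNReal.Tendsto.const_mul (a := ENNReal.ofReal (c k)) (hk k)
      (Or.inr ENNReal.ofReal_ne_top)
    rwa [mul_zero] at this
  rw [Finset.sum_const_zero] at hsum
  have := hsum.eventually (gt_mem_nhds (show (0:ENNReal) < ENNReal.ofReal ε by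
    rw [ENNReal.ofReal_pos]; exact hε))
  obtain ⟨m, hm⟩ := this.exists
  exact ⟨m, hm.le⟩

lemma exists_eta {ι : Type} [Fintype ι] {p : ℝ} (hp : 0 < p) (μ : ι → ℝ) (hμ : ∀ i, 0 ≤ μ i)
    (C : ℝ) {ε : ℝ} (hε : 0 < ε) :
    ∃ η > 0, C * ∑ i, (μ i + η)^p ≤ C * ∑ i, μ i ^ p + ε := by
  have h1 : Tendsto (fun η : ℝ => C * ∑ i, (μ i + η)^p) (𝓝 0) (𝓝 (C * ∑ i, (μ i + 0)^p)) := by
    have : Continuous (fun η : ℝ => C * ∑ i, (μ i + η)^p) := by
      refine continuous_const.mul (continuous_finsetSum _ fun i _ => ?_)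
      exact (continuous_const.add continuous_id).rpow_const fun _ => Or.inr hp.le
    exact this.tendsto 0
  simp only [add_zero] at h1
  have h2 : ∀ᶠ η : ℝ in 𝓝[>] 0, C * ∑ i, (μ i + η)^p < C * ∑ i, μ i ^ p + ε :=
    (h1.mono_left nhdsWithin_le_nhds).eventually (gt_mem_nhds (by linarith))
  obtain ⟨η, h3, h4⟩ := (h2.and self_mem_nhdsWithin).exists
  exact ⟨η, h4, h3.le⟩

lemma exists_lin_bound (s : Finset ((Fin n → ℝ) →ᵃ[ℝ] G)) :
    ∃ L : ℝ, 0 ≤ L ∧ ∀ A ∈ s, ∀ v, ‖A.linear v‖ ≤ L * ‖v‖ := by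
  classical
  set T : ((Fin n → ℝ) →ᵃ[ℝ] G) → ((Fin n → ℝ) →L[ℝ] G) :=
    fun A => LinearMap.toContinuousLinearMap A.linear with hT
  refine ⟨∑ A ∈ s, ‖T A‖, Finset.sum_nonneg fun _ _ => norm_nonneg _, ?_⟩
  intro A hA v
  have h1 : ‖T A‖ ≤ ∑ A ∈ s, ‖T A‖ :=
    Finset.single_le_sum (f := fun A => ‖T A‖) (fun _ _ => norm_nonneg _) hA
  exact ((T A).le_opNorm v).trans (mul_le_mul_of_nonneg_right h1 (norm_nonneg _))

lemma Par.cover {N : ℕ} {ι : Type} {F : ι → Set (Fin n → ℝ)} (hcov : sphere 0 1 ⊆ ⋃ i, F i) :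
    closedBall (0 : Fin n → ℝ) 1 ⊆
      (⋃ a : Fin N × ι, sect a.1 (F a.2)) ∪ closedBall 0 (((2:ℝ)^N)⁻¹) := by
  intro x hx
  rw [mem_closedBall_zero_iff] at hx
  by_cases hxN : ‖x‖ ≤ ((2:ℝ)^N)⁻¹
  · exact Or.inr (by rw [mem_closedBall_zero_iff]; exact hxN)
  · left
    have hex : ∃ k, 1/2 ≤ (2:ℝ)^k * ‖x‖ := by
      refine ⟨N, ?_⟩
      have hp : (0:ℝ) < 2^N := by positivity
      have := mul_lt_mul_of_pos_left (not_le.1 hxN) hp
      rw [mul_inv_cancel₀ hp.ne'] at this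
      linarith
    set k := Nat.find hex with hk
    have hk1 := Nat.find_spec hex
    rw [← hk] at hk1
    have hk2 : (2:ℝ)^k * ‖x‖ ≤ 1 := by
      rcases Nat.eq_zero_or_pos k with h | h
      · rw [h]; simpa using hx
      · obtain ⟨m, hm⟩ : ∃ m, k = m + 1 := ⟨k - 1, by omega⟩
        have := Nat.find_min hex (m := m) (by omega)
        rw [hm, pow_succ]
        linarith [not_le.1 this]
    have hkN : k < N := by
      by_contra hc
      have h1 : (2:ℝ)^N ≤ 2^k := pow_le_pow_right₀ (by norm_num) (not_lt.1 hc)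
      have hp : (0:ℝ) < 2^N := by positivity
      have := mul_lt_mul_of_pos_left (not_le.1 hxN) hp
      rw [mul_inv_cancel₀ hp.ne'] at this
      nlinarith [norm_nonneg x]
    have hfoot : ‖foot k x‖ = 1 := by
      have e2 : ‖(2:ℝ)^k • x‖ = 2^k * ‖x‖ := by rw [norm_smul]; simp
      rw [foot_eq, foot_zero]
      exact norm_cf ⟨by rw [e2]; exact hk1, by rw [e2]; exact hk2⟩
    obtain ⟨i, hi⟩ := mem_iUnion.1 (hcov (show foot k x ∈ sphere 0 1 by simpa using hfoot))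
    exact mem_iUnion.2 ⟨(⟨k, hkN⟩, i), hk1, hk2, hi⟩

/-- **HOLE SQUEEZE, TRACE FORM, unit cube**: only the local Lipschitz constants of `g`
restricted to the boundary of the cube count. -/
theorem hole_unit_trace {p : ℝ} (hp0 : 0 < p) (hpn : p < n) {ι : Type} [Fintype ι]
    (F : ι → Set (Fin n → ℝ)) (hFc : ∀ i, IsClosed (F i)) {r : ℝ} (hr0 : 0 < r) (hr1 : r ≤ 1)
    (hd : ∀ i, ∀ x ∈ F i, ∀ y ∈ F i, ‖x - y‖ ≤ r) (hcov : sphere 0 1 ⊆ ⋃ i, F i)
    {μ : ι → ℝ} (hμ : ∀ i, 0 ≤ μ i) {g : (Fin n → ℝ) → G} (hg : PLOn g (closedBall 0 1))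
    (htr : ∀ i, ∀ ω ∈ F i, ‖ω‖ = 1 → ω ∈ closure (TB (μ i) g (sphere 0 1)))
    {ε : ℝ} (hε : 0 < ε) :
    ∃ χ : (Fin n → ℝ) ≃ₜ (Fin n → ℝ), PLOn χ univ ∧ PLOn χ.symm univ ∧
      (∀ x, 1 ≤ ‖x‖ → χ x = x) ∧ (∀ x, ‖x‖ < 1 → ‖χ x‖ < 1) ∧
      EnCov volume p (fun x => g (χ x)) (closedBall 0 1)
        (ENNReal.ofReal (Chole n p * (r^n / r) * ∑ i, μ i ^ p + ε)) := by
  classical
  have hn : 0 < n := by
    have : (0:ℝ) < n := hp0.trans hpn
    exact_mod_cast this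
  have hq1 := q_lt_one (n := n) hpn
  have hq0 := q_pos (n := n) (p := p)
  set q := (2:ℝ)^(p - n) with hq
  obtain ⟨hc, s, hs⟩ := hg
  obtain ⟨L, hL0, hL⟩ := exists_lin_bound s
  obtain ⟨L', hL'⟩ := Crest.Agent.R096.Sk_962.lipschitzOn_of_sel
    (convex_closedBall (0 : Fin n → ℝ) 1) hc hs
  have hLLV : ∀ y : Fin n → ℝ, ‖y‖ < 1 → LLV (L' : ℝ) g y := by
    intro y hy
    have h1 : ∀ᶠ z in 𝓝 y, ‖z‖ < 1 := (isOpen_lt continuous_norm continuous_const).mem_nhds hy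
    filter_upwards [h1] with z hz
    have := hL'.dist_le_mul z (by simpa using hz.le) y (by simpa using hy.le)
    rwa [dist_eq_norm, dist_eq_norm] at this
  have hε3 : 0 < ε / 3 := by linarith
  -- choice of N
  obtain ⟨N, hN⟩ : ∃ N : ℕ, ((2 * (L':ℝ))^p * 2^n) * q^N ≤ ε/3 := by
    rcases (show (0:ℝ) ≤ (2 * (L':ℝ))^p * 2^n by positivity).eq_or_lt with h | h
    · exact ⟨0, by rw [← h, zero_mul]; exact hε3.le⟩
    · obtain ⟨N, hN⟩ := exists_pow_lt_of_lt_one (div_pos hε3 h) hq1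
      refine ⟨N, ?_⟩
      rw [lt_div_iff₀ h] at hN
      linarith
  -- the exceptional set
  set Z : Set (Fin n → ℝ) := Z1 n ∪ Z2 s with hZ
  have hZc : IsClosed Z := isClosed_Z1.union (isClosed_Z2 s)
  have hZ0 : volume (sect 0 Z) = 0 := by
    have : sect 0 Z ⊆ sect 0 (Z1 n) ∪ sect 0 (Z2 s) := by
      rintro x ⟨h1, h2, h3 | h3⟩
      · exact Or.inl ⟨h1, h2, h3⟩
      · exact Or.inr ⟨h1, h2, h3⟩
    exact measure_mono_null this (measure_union_null null_Z1 (null_Z2 s))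
  obtain ⟨m, hm⟩ := exists_thick hZc hZ0 N (fun k => ((L':ℝ) * (16 * 2^k))^p) hε3
  set D := cthickening (1 / ((m:ℝ) + 1)) Z with hD
  -- uniform size
  set K : Set (Fin n → ℝ) := {ω | ‖ω‖ = 1 ∧ ENNReal.ofReal (1 / ((m:ℝ) + 1)) ≤ infEDist ω Z}
    with hK
  have hKc : IsCompact K := by
    have h1 : K = sphere 0 1 ∩ {ω | ENNReal.ofReal (1 / ((m:ℝ) + 1)) ≤ infEDist ω Z} := by
      ext ω; simp [hK]
    rw [h1]
    exact (isCompact_sphere 0 1).inter_right (isClosed_le continuous_const continuous_infEDist)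
  obtain ⟨δ, hδ, hnice⟩ := exists_nice_unif (g := g) (s := s) hKc (fun ω hω => hω.1) (by
    intro ω hω
    have h1 : ω ∉ Z := by
      intro h
      have h2 := hω.2
      rw [infEDist_zero_of_mem h] at h2
      have h3 : (0:ENNReal) < ENNReal.ofReal (1 / ((m:ℝ) + 1)) := by
        rw [ENNReal.ofReal_pos]; positivity
      exact absurd (h3.trans_le h2) (lt_irrefl _)
    exact exists_nice hn hc hs hω.1 (fun h => h1 (Or.inl h)) (fun h => h1 (Or.inr h)))
  obtain ⟨η, hη, hηs⟩ := exists_eta hp0 μ hμ (Chole n p * (r^n / r)) hε3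
  -- choice of τ
  set t := min δ (min 1 (η / (L + 1))) with ht
  have ht0 : 0 < t := lt_min hδ (lt_min one_pos (by positivity))
  set τ := t / (4 * (N + 1)) with hτ
  have hτ0 : 0 < τ := by positivity
  have hNτ : 2 * (N * τ) < t := by
    rw [hτ]
    have h1 : 2 * ((N:ℝ) * (t / (4 * (N + 1)))) = t * (N / (N + 1)) / 2 := by field_simp; ring
    rw [h1]
    have h2 : (N:ℝ) / (N + 1) ≤ 1 := by rw [div_le_one (by positivity)]; linarith
    nlinarith
  have ht1 : t ≤ 1 := (min_le_right _ _).trans (min_le_left _ _)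
  have htη : t ≤ η / (L + 1) := (min_le_right _ _).trans (min_le_right _ _)
  have h4τ : 4 * τ * L ≤ η := by
    have h1 : 4 * τ ≤ t := by
      rw [hτ]
      have h2 : 4 * (t / (4 * ((N:ℝ) + 1))) = t / (N + 1) := by field_simp
      rw [h2]
      exact div_le_self ht0.le (by have : (0:ℝ) ≤ N := Nat.cast_nonneg _; linarith)
    calc 4 * τ * L ≤ η / (L + 1) * L := by
          apply mul_le_mul_of_nonneg_right (h1.trans htη) hL0
      _ = η * (L / (L + 1)) := by ring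
      _ ≤ η * 1 := by
          apply mul_le_mul_of_nonneg_left _ hη.le
          rw [div_le_one (by linarith)]; linarith
      _ = η := mul_one _
  have hP : Par τ N 1 := ⟨hτ0, by linarith, le_rfl⟩
  refine ⟨chi hP, plOn_chf hP, plOn_chg hP, fun x hx => chf_out hx,
    fun x hx => norm_chf_lt hP hx, ?_⟩
  set f : (Fin n → ℝ) → G := fun x => g (chf τ N x) with hf
  have hshell : ∀ k : ℕ, ∀ᵐ x : Fin n → ℝ, 1/2 ≤ 2^k * ‖x‖ → 2^k * ‖x‖ ≤ 1 →
      1/2 < 2^k * ‖x‖ ∧ 2^k * ‖x‖ < 1 := by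
    intro k
    filter_upwards [ae_norm_ne (((2:ℝ)^k)⁻¹) hn, ae_norm_ne (((2:ℝ)^k)⁻¹ / 2) hn]
      with x hx1 hx2 h1 h2
    have hp : (0:ℝ) < 2^k := by positivity
    constructor
    · refine lt_of_le_of_ne h1 (fun h => hx2 ?_)
      field_simp
      linarith
    · refine lt_of_le_of_ne h2 (fun h => hx1 ?_)
      field_simp
      linarith
  -- a.e. bounds
  have hsect : ∀ k < N, ∀ i, ∀ᵐ x, x ∈ sect k (F i) \ sect k D →
      LLV ((μ i + η) * (16 * 2^k)) f x := by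
    intro k hk i
    filter_upwards [hshell k] with x hx hxS
    obtain ⟨⟨h1, h2, h3⟩, h4⟩ := hxS
    obtain ⟨h1', h2'⟩ := hx h1 h2
    obtain ⟨a1, a2, a3⟩ := chf_near hP hk h1' h2'
    have h5 : foot k x ∉ D := fun h => h4 ⟨h1, h2, h⟩
    have h6 : foot k x ∈ K := by
      refine ⟨a1, ?_⟩
      by_contra hcon
      exact h5 (le_of_lt (not_le.1 hcon))
    obtain ⟨k₀, A, hA⟩ := hnice _ h6
    have h7 := hA.tan (htr i _ h3 a1)
    have h8 := LLV_shell_tan hP hk h1' h2' hA (hμ i) h7 (hL A hA.mem) hL0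
      (hNτ.trans_le (min_le_left _ _))
    refine h8.mono ?_
    have hp : (0:ℝ) < 2^k := by positivity
    have h9 : 4 * τ * 2^k * L ≤ η * 2^k := by
      calc 4 * τ * 2^k * L = (4 * τ * L) * 2^k := by ring
        _ ≤ η * 2^k := mul_le_mul_of_nonneg_right h4τ hp.le
    have h10 : 0 ≤ μ i * 2^k := mul_nonneg (hμ i) hp.le
    have h11 : 0 ≤ η * 2^k := by positivity
    nlinarith
  have hbad : ∀ k < N, ∀ᵐ x, x ∈ sect k D → LLV ((L':ℝ) * (16 * 2^k)) f x := by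
    intro k hk
    filter_upwards [hshell k] with x hx hxS
    obtain ⟨h1, h2, h3⟩ := hxS
    obtain ⟨h1', h2'⟩ := hx h1 h2
    obtain ⟨a1, a2, a3⟩ := chf_near hP hk h1' h2'
    exact LLV_shell hP hk h1' h2' L'.2 (hLLV _ a2)
  have hinn : ∀ᵐ x, x ∈ closedBall (0 : Fin n → ℝ) (((2:ℝ)^N)⁻¹) →
      LLV ((L':ℝ) * (2 * 2^N)) f x := by
    filter_upwards [ae_norm_ne (((2:ℝ)^N)⁻¹) hn, ae_norm_ne (n := n) 1 hn] with x hx1 hx1' hxS
    rw [mem_closedBall_zero_iff] at hxS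
    have hp : (0:ℝ) < 2^N := by positivity
    have hp1 : (1:ℝ) ≤ 2^N := one_le_pow₀ (by norm_num)
    have h1 : ‖x‖ < ((2:ℝ)^N)⁻¹ := lt_of_le_of_ne hxS hx1
    have h2 : 2^N * ‖x‖ < 1 := by
      have := mul_lt_mul_of_pos_left h1 hp
      rwa [mul_inv_cancel₀ hp.ne'] at this
    have h3 : ‖x‖ < 1 := by nlinarith [norm_nonneg x]
    exact LLV_inner hP h2 L'.2 (hLLV _ (norm_chf_lt hP h3))
  set V : ℝ := 2 * 8^n * (r^n / r) with hV
  have hV0 : 0 ≤ V := by positivity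
  have h16 : (0:ℝ) ≤ (16:ℝ)^p := by positivity
  have hμη : ∀ i, 0 ≤ μ i + η := fun i => add_nonneg (hμ i) hη.le
  have hstep : ∀ a : Fin N × ι, ENNReal.ofReal (((μ a.2 + η) * (16 * 2^(a.1:ℕ)))^p) *
      volume (sect a.1 (F a.2) \ sect a.1 D) ≤
      ENNReal.ofReal ((16:ℝ)^p * V * (q^(a.1 : ℕ) * (μ a.2 + η) ^ p)) := by
    rintro ⟨k, i⟩
    have hnn : 0 ≤ (μ i + η) * (16 * 2^(k:ℕ)) := mul_nonneg (hμη i) (by positivity)
    refine (mul_le_mul' le_rfl ((measure_mono sdiff_subset).trans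
      (volume_sect k (F i) hr0 hr1 (hd i)))).trans ?_
    rw [← ENNReal.ofReal_mul (by positivity)]
    apply le_of_eq
    congr 1
    rw [Real.mul_rpow (hμη i) (by positivity), Real.mul_rpow (by norm_num) (by positivity)]
    have := pow_aux (n := n) (k : ℕ) (p := p)
    rw [← hq] at this
    calc (μ i + η) ^ p * ((16:ℝ)^p * ((2:ℝ)^(k:ℕ))^p) *
          ((((2:ℝ)^(k:ℕ))⁻¹)^n * (2 * 8^n * (r^n / r)))
        = (16:ℝ)^p * V * ((((2:ℝ)^(k:ℕ))^p * (((2:ℝ)^(k:ℕ))⁻¹)^n) * (μ i + η) ^ p) := by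
          rw [hV]; ring
      _ = _ := by rw [this]
  have hin : ENNReal.ofReal (((L':ℝ) * (2 * 2^N))^p) *
      volume (closedBall (0 : Fin n → ℝ) (((2:ℝ)^N)⁻¹)) ≤ ENNReal.ofReal (ε/3) := by
    rw [Real.volume_pi_closedBall _ (by positivity), Fintype.card_fin,
      ← ENNReal.ofReal_mul (by positivity)]
    apply ENNReal.ofReal_le_ofReal
    refine le_trans (le_of_eq ?_) hN
    have := pow_aux (n := n) N (p := p)
    rw [← hq] at this
    have e : ((L':ℝ) * (2 * 2^N))^p = (2 * (L':ℝ))^p * ((2:ℝ)^N)^p := by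
      rw [← Real.mul_rpow (by positivity) (by positivity)]
      congr 1; ring
    rw [e, mul_pow, ← this]
    ring
  have hmain : ∑ a : Fin N × ι, (16:ℝ)^p * V * (q^(a.1 : ℕ) * (μ a.2 + η) ^ p) ≤
      Chole n p * (r^n / r) * ∑ i, (μ i + η) ^ p := by
    have e1 : ∑ a : Fin N × ι, (16:ℝ)^p * V * (q^(a.1 : ℕ) * (μ a.2 + η) ^ p) =
        (16:ℝ)^p * V * ((∑ k ∈ Finset.range N, q^k) * ∑ i, (μ i + η) ^ p) := by
      rw [← Finset.mul_sum, Fintype.sum_prod_type, Finset.sum_mul, Finset.sum_range]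
      congr 1
      refine Finset.sum_congr rfl fun k _ => ?_
      rw [Finset.mul_sum]
    rw [e1]
    have h1 := geom_le hq0.le hq1 N
    have h2 : 0 ≤ ∑ i, (μ i + η) ^ p :=
      Finset.sum_nonneg fun i _ => Real.rpow_nonneg (hμη i) p
    have h3 : (16:ℝ)^p * V * ((∑ k ∈ Finset.range N, q^k) * ∑ i, (μ i + η) ^ p) ≤
        (16:ℝ)^p * V * ((1 / (1 - q)) * ∑ i, (μ i + η) ^ p) := by
      refine mul_le_mul_of_nonneg_left ?_ (by positivity)
      exact mul_le_mul_of_nonneg_right h1 h2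
    have h4 : (16:ℝ)^p * V * ((1 / (1 - q)) * ∑ i, (μ i + η) ^ p) =
        Chole n p * (r^n / r) * ∑ i, (μ i + η) ^ p := by
      rw [Chole, hV, ← hq]
      ring
    linarith
  refine ⟨Option (Fin N × Option ι), inferInstance, fun o => o.elim (closedBall 0 (((2:ℝ)^N)⁻¹))
    (fun a => a.2.elim (sect a.1 D) (fun i => sect a.1 (F i) \ sect a.1 D)),
    fun o => o.elim ((L':ℝ) * (2 * 2^N))
    (fun a => a.2.elim ((L':ℝ) * (16 * 2^(a.1:ℕ))) (fun i => (μ i + η) * (16 * 2^(a.1:ℕ)))),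
    ?_, ?_, ?_, ?_, ?_⟩
  · rintro (_ | ⟨k, _ | i⟩)
    · exact isClosed_closedBall.measurableSet
    · exact (isClosed_sect _ isClosed_cthickening).measurableSet
    · exact (isClosed_sect _ (hFc _)).measurableSet.diff
        (isClosed_sect _ isClosed_cthickening).measurableSet
  · rintro (_ | ⟨k, _ | i⟩)
    · show 0 ≤ (L':ℝ) * (2 * 2^N)
      positivity
    · show 0 ≤ (L':ℝ) * (16 * 2^(k:ℕ))
      positivity
    · exact mul_nonneg (hμη i) (by positivity)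
  · intro x hx
    rcases Par.cover (N := N) hcov hx with h | h
    · obtain ⟨⟨k, i⟩, ha⟩ := mem_iUnion.1 h
      by_cases hxD : x ∈ sect k D
      · exact mem_iUnion.2 ⟨some (k, none), hxD⟩
      · exact mem_iUnion.2 ⟨some (k, some i), ha, hxD⟩
    · exact mem_iUnion.2 ⟨none, h⟩
  · rintro (_ | ⟨k, _ | i⟩)
    · exact hinn
    · exact hbad k k.2
    · exact hsect k k.2 i
  rw [Fintype.sum_option]
  show ENNReal.ofReal (((L':ℝ) * (2 * 2^N))^p) *
    volume (closedBall (0 : Fin n → ℝ) (((2:ℝ)^N)⁻¹)) + ∑ a : Fin N × Option ι, _ ≤ _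
  rw [Fintype.sum_prod_type]
  simp only [Fintype.sum_option]
  rw [Finset.sum_add_distrib]
  have hA : ∑ k : Fin N, ENNReal.ofReal (((L':ℝ) * (16 * 2^(k:ℕ)))^p) * volume (sect k D) ≤
      ENNReal.ofReal (ε/3) := hm
  have hB : ∑ k : Fin N, ∑ i, ENNReal.ofReal (((μ i + η) * (16 * 2^(k:ℕ)))^p) *
      volume (sect k (F i) \ sect k D) ≤
      ENNReal.ofReal (Chole n p * (r^n / r) * ∑ i, μ i ^ p + ε/3) := by
    calc ∑ k : Fin N, ∑ i, ENNReal.ofReal (((μ i + η) * (16 * 2^(k:ℕ)))^p) *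
          volume (sect k (F i) \ sect k D)
        = ∑ a : Fin N × ι, ENNReal.ofReal (((μ a.2 + η) * (16 * 2^(a.1:ℕ)))^p) *
          volume (sect a.1 (F a.2) \ sect a.1 D) := by rw [Fintype.sum_prod_type]
      _ ≤ ∑ a : Fin N × ι, ENNReal.ofReal ((16:ℝ)^p * V * (q^(a.1 : ℕ) * (μ a.2 + η) ^ p)) :=
          Finset.sum_le_sum fun a _ => hstep a
      _ = ENNReal.ofReal (∑ a : Fin N × ι, (16:ℝ)^p * V * (q^(a.1 : ℕ) * (μ a.2 + η) ^ p)) := by
          rw [ENNReal.ofReal_sum_of_nonneg fun a _ => ?_]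
          have := Real.rpow_nonneg (hμη a.2) p
          positivity
      _ ≤ _ := ENNReal.ofReal_le_ofReal (hmain.trans hηs)
  have h0 : 0 ≤ Chole n p * (r^n / r) * ∑ i, μ i ^ p := by
    have := Chole_nonneg (n := n) hpn
    have h2 : 0 ≤ ∑ i, μ i ^ p := Finset.sum_nonneg fun i _ => Real.rpow_nonneg (hμ i) p
    positivity
  calc _ ≤ ENNReal.ofReal (ε/3) + (ENNReal.ofReal (ε/3) +
        ENNReal.ofReal (Chole n p * (r^n / r) * ∑ i, μ i ^ p + ε/3)) :=
        add_le_add hin (add_le_add hA hB)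
    _ = ENNReal.ofReal (ε/3 + (ε/3 + (Chole n p * (r^n / r) * ∑ i, μ i ^ p + ε/3))) := by
        rw [← ENNReal.ofReal_add (by positivity) (by positivity),
          ← ENNReal.ofReal_add (by positivity) (by positivity)]
    _ ≤ _ := by
        apply ENNReal.ofReal_le_ofReal
        linarith

end Crest.Agent.R96.Hole_348
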