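import Crest.Agent.R96.Hole7_348

/-!
# R96, HOLE-TRACE, part 4: rotated cubes in `R3` (helper348)
-/

set_option autoImplicit false

open Set Metric Filter Topology MeasureTheory Module
open scoped ENNReal NNReal
open Crest.AnalysisR.VecCalc3

namespace Crest.Agent.R96.Hole_348

open Crest.Agent.R096.Ce_537 Crest.Agent.R096.Bd_416 Crest.Agent.R096.Sk_962

variable {G : Type*} [NormedAddCommGroup G] [NormedSpace ℝ G]

/-- a convenient way to verify the trace hypothesis: `g` is `μ`-Lipschitz on a piece of `S`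
which is the closure of its relative interior -/
lemma sub_closure_TB {E G' : Type*} [NormedAddCommGroup E] [NormedAddCommGroup G'] {μ : ℝ≥0}
    {g : E → G'} {S P : Set E} (hL : LipschitzOnWith μ g P)
    (hP : P ⊆ closure {z | z ∈ P ∧ z ∈ S ∧ P ∈ 𝓝[S] z}) : P ⊆ closure (TB (μ : ℝ) g S) := by
  intro ω hω
  refine closure_mono ?_ (hP hω)
  rintro z ⟨hz1, hz2, hz3⟩
  refine ⟨hz2, ?_⟩
  filter_upwards [hz3] with y hy
  have := hL.dist_le_mul y hy z hz1
  rwa [dist_eq_norm, dist_eq_norm] at this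

section

variable {V : R3 ≃ₗᵢ[ℝ] R3} {a : R3} {R : ℝ}

lemma up_mem_bd (hR : 0 < R) (u : Fin 3 → ℝ) :
    up V a R u ∈ Kc V a R \ Ko V a R ↔ ‖u‖ = 1 := by
  have hR0 := hR.ne'
  constructor
  · rintro ⟨h1, h2⟩
    rw [mem_Kc_iff hR, dn_up hR0] at h1
    rw [mem_Ko_iff hR, dn_up hR0, not_lt] at h2
    exact le_antisymm h1 h2
  · intro h
    refine ⟨(mem_Kc_iff hR).2 (by rw [dn_up hR0]; exact h.le), fun h' => ?_⟩
    have := (mem_Ko_iff hR).1 h'
    rw [dn_up hR0] at this
    linarith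

lemma tb_transport (hR : 0 < R) {μ : ℝ} (hμ : 0 ≤ μ) {g : R3 → G} {u : Fin 3 → ℝ}
    (h : up V a R u ∈ closure (TB μ g (Kc V a R \ Ko V a R))) :
    u ∈ closure (TB (μ * (2 * R)) (fun u => g (up V a R u)) (sphere 0 1)) := by
  have hR0 := hR.ne'
  rw [mem_closure_iff_nhds] at h ⊢
  intro T hT
  have h1 : dn V a R ⁻¹' T ∈ 𝓝 (up V a R u) := by
    have : ContinuousAt (dn V a R) (up V a R u) := continuous_dn.continuousAt
    refine this ?_
    rw [dn_up hR0]
    exact hT
  obtain ⟨z, hz1, hz2, hz3⟩ := h _ h1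
  have hzu : up V a R (dn V a R z) = z := up_dn hR0 z
  refine ⟨dn V a R z, hz1, ?_, ?_⟩
  · rw [mem_sphere_zero_iff_norm, ← up_mem_bd (V := V) (a := a) hR, hzu]
    exact hz2
  · have h2 : Tendsto (up V a R) (𝓝[sphere 0 1] (dn V a R z)) (𝓝[Kc V a R \ Ko V a R] z) := by
      refine tendsto_nhdsWithin_iff.2 ⟨?_, ?_⟩
      · have h3 : Tendsto (up V a R) (𝓝 (dn V a R z)) (𝓝 (up V a R (dn V a R z))) :=
          continuous_up.continuousAt
        rw [hzu] at h3
        exact h3.mono_left nhdsWithin_le_nhds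
      · filter_upwards [self_mem_nhdsWithin] with y hy
        rw [up_mem_bd hR]
        simpa using hy
    filter_upwards [h2.eventually hz3] with y hy
    show ‖g (up V a R y) - g (up V a R (dn V a R z))‖ ≤ _
    rw [hzu]
    refine hy.trans ?_
    have h4 := up_sub_le (V := V) (a := a) hR y (dn V a R z)
    rw [hzu] at h4
    calc μ * ‖up V a R y - z‖ ≤ μ * (2 * R * ‖y - dn V a R z‖) :=
          mul_le_mul_of_nonneg_left h4 hμ
      _ = _ := by ring

end

/-- **HOLE SQUEEZE, TRACE FORM, in a rotated cube of `R3`**: `g` PL on the closed cube `Kc V a R`,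
with local Lipschitz constant `≤ μ i` *within the boundary of the cube* on the piece `F i` of the
boundary (a.e. in the sense of closures), `diam F i ≤ r ≤ R`. -/
theorem hole_trace {p : ℝ} (hp0 : 0 < p) (hp3 : p < 3) (V : R3 ≃ₗᵢ[ℝ] R3) (a : R3) {R r : ℝ}
    (hr0 : 0 < r) (hrR : r ≤ R) {ι : Type} [Fintype ι] (F : ι → Set R3)
    (hFc : ∀ i, IsClosed (F i)) (hd : ∀ i, ∀ x ∈ F i, ∀ y ∈ F i, ‖x - y‖ ≤ r)
    (hcov : Kc V a R \ Ko V a R ⊆ ⋃ i, F i) {μ : ι → ℝ} (hμ : ∀ i, 0 ≤ μ i) {g : R3 → G}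
    (hg : PLOn g (Kc V a R))
    (htr : ∀ i, ∀ ω ∈ F i, ω ∈ Kc V a R \ Ko V a R → ω ∈ closure (TB (μ i) g (Kc V a R \ Ko V a R)))
    {ε : ℝ} (hε : 0 < ε) :
    ∃ χ : R3 ≃ₜ R3, PLOn χ univ ∧ PLOn χ.symm univ ∧
      (∀ x, x ∉ Ko V a R → χ x = x) ∧ (∀ x ∈ Ko V a R, χ x ∈ Ko V a R) ∧
      EnCov volume p (fun x => g (χ x)) (Kc V a R)
        (ENNReal.ofReal (Chole3 p * (R * r^2) * ∑ i, μ i ^ p + ε)) := by
  have hR : 0 < R := hr0.trans_le hrR
  have hR0 := hR.ne'
  have hRp : (0:ℝ) < R^(p - 3) := Real.rpow_pos_of_pos hR _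
  set g' : (Fin 3 → ℝ) → G := fun u => g (up V a R u) with hg'
  have hε' : 0 < R^(p - 3) * ε := mul_pos hRp hε
  have hup : PLOn (up V a R) univ := plOn_affineMap (upA V a R) continuous_up univ
  have hdn : PLOn (dn V a R) univ := plOn_affineMap (dnA V a R) continuous_dn univ
  obtain ⟨χ', h1, h2, h3, h4, h5⟩ := hole_unit_trace (n := 3) (p := p) hp0
    (by exact_mod_cast hp3)
    (fun i => up V a R ⁻¹' F i) (fun i => (hFc i).preimage continuous_up)
    (r := r / R) (by positivity) (by rw [div_le_one hR]; exact hrR) (by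
      intro i x hx y hy
      have h6 := hd i _ hx _ hy
      have h7 := dn_sub_le (V := V) (a := a) hR (up V a R x) (up V a R y)
      rw [dn_up hR0, dn_up hR0] at h7
      calc ‖x - y‖ ≤ R⁻¹ * ‖up V a R x - up V a R y‖ := h7
        _ ≤ R⁻¹ * r := mul_le_mul_of_nonneg_left h6 (by positivity)
        _ = r / R := by ring) (by
      intro u hu
      have hu1 : ‖u‖ = 1 := by simpa using hu
      obtain ⟨i, hi⟩ := mem_iUnion.1 (hcov ((up_mem_bd hR u).2 hu1))
      exact mem_iUnion.2 ⟨i, hi⟩)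
    (μ := fun i => μ i * (2 * R)) (fun i => mul_nonneg (hμ i) (by positivity)) (g := g')
    (hg.comp (hup.mono (subset_univ _)) (by
      intro u hu
      rw [mem_Kc_iff hR, dn_up hR0]
      simpa using hu)) (by
      intro i ω hω hω1
      exact tb_transport hR (hμ i) (htr i _ hω ((up_mem_bd hR ω).2 hω1))) hε'
  -- the homeomorphism
  let χ : R3 ≃ₜ R3 :=
    { toFun := fun y => up V a R (χ' (dn V a R y))
      invFun := fun y => up V a R (χ'.symm (dn V a R y))
      left_inv := fun y => by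
        show up V a R (χ'.symm (dn V a R (up V a R (χ' (dn V a R y))))) = y
        rw [dn_up hR0, χ'.symm_apply_apply, up_dn hR0]
      right_inv := fun y => by
        show up V a R (χ' (dn V a R (up V a R (χ'.symm (dn V a R y))))) = y
        rw [dn_up hR0, χ'.apply_symm_apply, up_dn hR0]
      continuous_toFun := continuous_up.comp (χ'.continuous.comp continuous_dn)
      continuous_invFun := continuous_up.comp (χ'.symm.continuous.comp continuous_dn) }
  refine ⟨χ, ?_, ?_, ?_, ?_, ?_⟩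
  · exact hup.comp (h1.comp hdn (mapsTo_univ _ _)) (mapsTo_univ _ _)
  · exact hup.comp (h2.comp hdn (mapsTo_univ _ _)) (mapsTo_univ _ _)
  · intro x hx
    show up V a R (χ' (dn V a R x)) = x
    rw [mem_Ko_iff hR, not_lt] at hx
    rw [h3 _ hx, up_dn hR0]
  · intro x hx
    rw [mem_Ko_iff hR] at hx ⊢
    show ‖dn V a R (up V a R (χ' (dn V a R x)))‖ < 1
    rw [dn_up hR0]
    exact h4 _ hx
  · have h6 := h5.transport (m' := (volume : Measure R3)) (dn V a R) continuous_dn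
      (l := R⁻¹) (κ := R^3) (by positivity) (dn_sub_le hR) (volume_dn hR)
    have hK : dn V a R ⁻¹' closedBall 0 1 = Kc V a R := by
      ext y
      rw [mem_preimage, mem_closedBall_zero_iff, mem_Kc_iff hR]
    rw [hK] at h6
    refine h6.mono ?_
    rw [← ENNReal.ofReal_mul (by positivity), ← ENNReal.ofReal_mul (by positivity)]
    apply ENNReal.ofReal_le_ofReal
    have e1 : ∀ i, (μ i * (2 * R))^p = 2^p * R^p * μ i ^ p := by
      intro i
      rw [Real.mul_rpow (hμ i) (by positivity), Real.mul_rpow (by norm_num) hR.le]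
      ring
    have e2 : (R⁻¹)^p * R^p = 1 := by
      rw [← Real.mul_rpow (by positivity) hR.le, inv_mul_cancel₀ hR0, Real.one_rpow]
    have e3 : (R⁻¹)^p * R^3 * R^(p - 3) = 1 := by
      rw [Real.rpow_sub hR, show (R:ℝ)^(3:ℝ) = R^(3:ℕ) by
        rw [← Real.rpow_natCast]; norm_num]
      have h7 : R^(3:ℕ) ≠ 0 := by positivity
      calc (R⁻¹)^p * R^3 * (R^p / R^3) = (R⁻¹)^p * R^p * (R^3 / R^3) := by ring
        _ = 1 := by rw [div_self h7, mul_one, e2]
    have e4 : ∑ i, (μ i * (2 * R))^p = 2^p * R^p * ∑ i, μ i ^ p := by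
      rw [Finset.mul_sum]
      exact Finset.sum_congr rfl fun i _ => e1 i
    show (R⁻¹)^p * R^3 * (Chole 3 p * ((r / R)^3 / (r / R)) * ∑ i, (μ i * (2 * R))^p +
      R^(p - 3) * ε) ≤ _
    rw [e4, mul_add]
    have e5 : (R⁻¹)^p * R^3 * (R^(p - 3) * ε) = ε := by
      rw [← mul_assoc, e3, one_mul]
    rw [e5]
    apply le_of_eq
    congr 1
    have e6 : R^3 * ((r / R)^3 / (r / R)) = R * r^2 := by
      field_simp
    calc (R⁻¹)^p * R^3 * (Chole 3 p * ((r / R)^3 / (r / R)) * (2^p * R^p * ∑ i, μ i ^ p))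
        = ((R⁻¹)^p * R^p) * (Chole 3 p * 2^p * (R^3 * ((r / R)^3 / (r / R))) *
            ∑ i, μ i ^ p) := by ring
      _ = _ := by rw [e2, e6, one_mul]; rfl

end Crest.Agent.R96.Hole_348
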