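import Crest.Agent.R96.Hole8_348

/-!
# R96, (HR) of 663 #9825, part 1: hole squeeze in a cube `closedBall a R` of `Fin n → ℝ`,
pieces of different sizes (helper348)
-/

set_option autoImplicit false

open Set Metric Filter Topology MeasureTheory Module
open scoped ENNReal NNReal

namespace Crest.Agent.R96.Hole_348

open Crest.Agent.R096.Ce_537 Crest.Agent.R096.Bd_416

section scale

variable {n : ℕ} {G : Type*} [NormedAddCommGroup G] [NormedSpace ℝ G]
variable {a : Fin n → ℝ} {R : ℝ}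

/-- from the unit cube to `closedBall a R` -/
noncomputable def up1 (a : Fin n → ℝ) (R : ℝ) (u : Fin n → ℝ) : Fin n → ℝ := a + R • u

/-- back -/
noncomputable def dn1 (a : Fin n → ℝ) (R : ℝ) (y : Fin n → ℝ) : Fin n → ℝ := R⁻¹ • (y - a)

lemma dn1_up1 (hR : R ≠ 0) (u : Fin n → ℝ) : dn1 a R (up1 a R u) = u := by
  simp [dn1, up1, smul_smul, inv_mul_cancel₀ hR]

lemma up1_dn1 (hR : R ≠ 0) (y : Fin n → ℝ) : up1 a R (dn1 a R y) = y := by
  simp [dn1, up1, smul_smul, mul_inv_cancel₀ hR]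

lemma up1_sub (hR : 0 < R) (u u' : Fin n → ℝ) :
    ‖up1 a R u - up1 a R u'‖ = R * ‖u - u'‖ := by
  simp only [up1, add_sub_add_left_eq_sub, ← smul_sub]
  rw [norm_smul, Real.norm_eq_abs, abs_of_pos hR]

lemma dn1_sub (hR : 0 < R) (y y' : Fin n → ℝ) :
    ‖dn1 a R y - dn1 a R y'‖ = R⁻¹ * ‖y - y'‖ := by
  simp only [dn1]
  rw [← smul_sub, sub_sub_sub_cancel_right, norm_smul, norm_inv, Real.norm_eq_abs, abs_of_pos hR]

lemma norm_dn1 (hR : 0 < R) (y : Fin n → ℝ) : ‖dn1 a R y‖ = R⁻¹ * ‖y - a‖ := by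
  simp only [dn1]
  rw [norm_smul, norm_inv, Real.norm_eq_abs, abs_of_pos hR]

lemma norm_up1_sub (hR : 0 < R) (u : Fin n → ℝ) : ‖up1 a R u - a‖ = R * ‖u‖ := by
  simp only [up1, add_sub_cancel_left]
  rw [norm_smul, Real.norm_eq_abs, abs_of_pos hR]

lemma continuous_up1 : Continuous (up1 a R) := by
  unfold up1
  exact continuous_const.add (continuous_id.const_smul R)

lemma continuous_dn1 : Continuous (dn1 a R) := by
  unfold dn1
  exact (continuous_id.sub continuous_const).const_smul R⁻¹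

/-- the chart as an affine map -/
noncomputable def up1A (a : Fin n → ℝ) (R : ℝ) : (Fin n → ℝ) →ᵃ[ℝ] (Fin n → ℝ) where
  toFun := up1 a R
  linear := R • LinearMap.id
  map_vadd' p v := by
    simp only [up1, vadd_eq_add, smul_add]
    show _ = R • v + _
    abel

/-- the inverse chart as an affine map -/
noncomputable def dn1A (a : Fin n → ℝ) (R : ℝ) : (Fin n → ℝ) →ᵃ[ℝ] (Fin n → ℝ) where
  toFun := dn1 a R
  linear := R⁻¹ • LinearMap.id
  map_vadd' p v := by
    simp only [dn1, vadd_eq_add]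
    show _ = R⁻¹ • v + _
    rw [← smul_add, add_sub_assoc]

lemma volume_dn1 (hR : 0 < R) (S : Set (Fin n → ℝ)) :
    volume (dn1 a R ⁻¹' S) ≤ ENNReal.ofReal (R^n) * volume S := by
  have e : dn1 a R ⁻¹' S = (fun y : Fin n → ℝ => y + (-a)) ⁻¹'
      ((fun y : Fin n → ℝ => R⁻¹ • y) ⁻¹' S) := by
    ext y
    simp [dn1, sub_eq_add_neg]
  rw [e, measure_preimage_add_right, Measure.addHaar_preimage_smul _ (inv_ne_zero hR.ne')]
  refine mul_le_mul' ?_ le_rfl
  apply ENNReal.ofReal_le_ofReal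
  rw [Module.finrank_fin_fun, inv_pow, inv_inv, abs_of_pos (by positivity)]

lemma mem_closedBall_iff1 (hR : 0 < R) {y : Fin n → ℝ} :
    y ∈ closedBall a R ↔ ‖dn1 a R y‖ ≤ 1 := by
  rw [mem_closedBall, dist_eq_norm, norm_dn1 hR, inv_mul_le_iff₀ hR, mul_one]

lemma mem_ball_iff1 (hR : 0 < R) {y : Fin n → ℝ} :
    y ∈ ball a R ↔ ‖dn1 a R y‖ < 1 := by
  rw [mem_ball, dist_eq_norm, norm_dn1 hR, inv_mul_lt_iff₀ hR, mul_one]

lemma up1_mem_sphere (hR : 0 < R) {u : Fin n → ℝ} : up1 a R u ∈ sphere a R ↔ ‖u‖ = 1 := by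
  rw [mem_sphere, dist_eq_norm, norm_up1_sub hR]
  constructor
  · intro h
    have : R * (‖u‖ - 1) = 0 := by linarith
    rcases mul_eq_zero.1 this with h | h
    · exact absurd h hR.ne'
    · linarith
  · intro h
    rw [h, mul_one]

omit [NormedSpace ℝ G] in
lemma tb_transport1 (hR : 0 < R) {μ : ℝ} {g : (Fin n → ℝ) → G} {u : Fin n → ℝ}
    (h : up1 a R u ∈ closure (TB μ g (sphere a R))) :
    u ∈ closure (TB (μ * R) (fun u => g (up1 a R u)) (sphere 0 1)) := by
  have hR0 := hR.ne'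
  rw [mem_closure_iff_nhds] at h ⊢
  intro T hT
  have h1 : dn1 a R ⁻¹' T ∈ 𝓝 (up1 a R u) := by
    have : ContinuousAt (dn1 a R) (up1 a R u) := continuous_dn1.continuousAt
    refine this ?_
    rw [dn1_up1 hR0]
    exact hT
  obtain ⟨z, hz1, hz2, hz3⟩ := h _ h1
  have hzu : up1 a R (dn1 a R z) = z := up1_dn1 hR0 z
  refine ⟨dn1 a R z, hz1, ?_, ?_⟩
  · rw [mem_sphere_zero_iff_norm, ← up1_mem_sphere (a := a) hR, hzu]
    exact hz2
  · have h2 : Tendsto (up1 a R) (𝓝[sphere 0 1] (dn1 a R z)) (𝓝[sphere a R] z) := by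
      refine tendsto_nhdsWithin_iff.2 ⟨?_, ?_⟩
      · have h3 : Tendsto (up1 a R) (𝓝 (dn1 a R z)) (𝓝 (up1 a R (dn1 a R z))) :=
          continuous_up1.continuousAt
        rw [hzu] at h3
        exact h3.mono_left nhdsWithin_le_nhds
      · filter_upwards [self_mem_nhdsWithin] with y hy
        rw [up1_mem_sphere hR]
        simpa using hy
    filter_upwards [h2.eventually hz3] with y hy
    show ‖g (up1 a R y) - g (up1 a R (dn1 a R z))‖ ≤ _
    rw [hzu]
    refine hy.trans ?_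
    have h4 := up1_sub (a := a) hR y (dn1 a R z)
    rw [hzu] at h4
    rw [h4]
    apply le_of_eq
    ring

/-- **HOLE SQUEEZE, TRACE FORM, in the cube `closedBall a R` of `Fin n → ℝ`**. -/
theorem hole_ball {p : ℝ} (hp0 : 0 < p) (hpn : p < n) (a : Fin n → ℝ) {R r : ℝ}
    (hr0 : 0 < r) (hrR : r ≤ R) {ι : Type} [Fintype ι] (F : ι → Set (Fin n → ℝ))
    (hFc : ∀ i, IsClosed (F i)) (hd : ∀ i, ∀ x ∈ F i, ∀ y ∈ F i, ‖x - y‖ ≤ r)
    (hcov : sphere a R ⊆ ⋃ i, F i) {μ : ι → ℝ} (hμ : ∀ i, 0 ≤ μ i) {g : (Fin n → ℝ) → G}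
    (hg : PLOn g (closedBall a R))
    (htr : ∀ i, ∀ ω ∈ F i, ω ∈ sphere a R → ω ∈ closure (TB (μ i) g (sphere a R)))
    {ε : ℝ} (hε : 0 < ε) :
    ∃ χ : (Fin n → ℝ) ≃ₜ (Fin n → ℝ), PLOn χ univ ∧ PLOn χ.symm univ ∧
      (∀ x, x ∉ ball a R → χ x = x) ∧ (∀ x ∈ ball a R, χ x ∈ ball a R) ∧
      EnCov volume p (fun x => g (χ x)) (closedBall a R)
        (ENNReal.ofReal (Chole n p * (R * (r^n / r)) * ∑ i, μ i ^ p + ε)) := by
  have hR : 0 < R := hr0.trans_le hrR
  have hR0 := hR.ne'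
  have hRp : (0:ℝ) < R^(p - n) := Real.rpow_pos_of_pos hR _
  set g' : (Fin n → ℝ) → G := fun u => g (up1 a R u) with hg'
  have hε' : 0 < R^(p - n) * ε := mul_pos hRp hε
  have hup : PLOn (up1 a R) univ := plOn_affineMap (up1A a R) continuous_up1 univ
  have hdn : PLOn (dn1 a R) univ := plOn_affineMap (dn1A a R) continuous_dn1 univ
  obtain ⟨χ', h1, h2, h3, h4, h5⟩ := hole_unit_trace (n := n) (p := p) hp0 hpn
    (fun i => up1 a R ⁻¹' F i) (fun i => (hFc i).preimage continuous_up1)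
    (r := r / R) (by positivity) (by rw [div_le_one hR]; exact hrR) (by
      intro i x hx y hy
      have h6 := hd i _ hx _ hy
      rw [up1_sub hR] at h6
      rw [le_div_iff₀ hR]
      linarith) (by
      intro u hu
      have hu1 : ‖u‖ = 1 := by simpa using hu
      obtain ⟨i, hi⟩ := mem_iUnion.1 (hcov ((up1_mem_sphere hR).2 hu1))
      exact mem_iUnion.2 ⟨i, hi⟩)
    (μ := fun i => μ i * R) (fun i => mul_nonneg (hμ i) hR.le) (g := g')
    (hg.comp (hup.mono (subset_univ _)) (by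
      intro u hu
      rw [mem_closedBall_iff1 hR, dn1_up1 hR0]
      simpa using hu)) (by
      intro i ω hω hω1
      exact tb_transport1 hR (htr i _ hω ((up1_mem_sphere hR).2 hω1))) hε'
  -- the homeomorphism
  let χ : (Fin n → ℝ) ≃ₜ (Fin n → ℝ) :=
    { toFun := fun y => up1 a R (χ' (dn1 a R y))
      invFun := fun y => up1 a R (χ'.symm (dn1 a R y))
      left_inv := fun y => by
        show up1 a R (χ'.symm (dn1 a R (up1 a R (χ' (dn1 a R y))))) = y
        rw [dn1_up1 hR0, χ'.symm_apply_apply, up1_dn1 hR0]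
      right_inv := fun y => by
        show up1 a R (χ' (dn1 a R (up1 a R (χ'.symm (dn1 a R y))))) = y
        rw [dn1_up1 hR0, χ'.apply_symm_apply, up1_dn1 hR0]
      continuous_toFun := continuous_up1.comp (χ'.continuous.comp continuous_dn1)
      continuous_invFun := continuous_up1.comp (χ'.symm.continuous.comp continuous_dn1) }
  refine ⟨χ, ?_, ?_, ?_, ?_, ?_⟩
  · exact hup.comp (h1.comp hdn (mapsTo_univ _ _)) (mapsTo_univ _ _)
  · exact hup.comp (h2.comp hdn (mapsTo_univ _ _)) (mapsTo_univ _ _)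
  · intro x hx
    show up1 a R (χ' (dn1 a R x)) = x
    rw [mem_ball_iff1 hR, not_lt] at hx
    rw [h3 _ hx, up1_dn1 hR0]
  · intro x hx
    rw [mem_ball_iff1 hR] at hx ⊢
    show ‖dn1 a R (up1 a R (χ' (dn1 a R x)))‖ < 1
    rw [dn1_up1 hR0]
    exact h4 _ hx
  · have h6 := h5.transport (m' := (volume : Measure (Fin n → ℝ))) (dn1 a R) continuous_dn1
      (l := R⁻¹) (κ := R^n) (by positivity) (fun y y' => (dn1_sub hR y y').le) (volume_dn1 hR)
    have hK : dn1 a R ⁻¹' closedBall 0 1 = closedBall a R := by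
      ext y
      rw [mem_preimage, mem_closedBall_zero_iff, mem_closedBall_iff1 hR]
    rw [hK] at h6
    refine h6.mono ?_
    rw [← ENNReal.ofReal_mul (by positivity), ← ENNReal.ofReal_mul (by positivity)]
    apply ENNReal.ofReal_le_ofReal
    have e1 : ∀ i, (μ i * R)^p = R^p * μ i ^ p := by
      intro i
      rw [Real.mul_rpow (hμ i) hR.le]
      ring
    have e2 : (R⁻¹)^p * R^p = 1 := by
      rw [← Real.mul_rpow (by positivity) hR.le, inv_mul_cancel₀ hR0, Real.one_rpow]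
    have e3 : (R⁻¹)^p * R^n * R^(p - n) = 1 := by
      rw [Real.rpow_sub hR, Real.rpow_natCast]
      have h7 : R^n ≠ 0 := by positivity
      calc (R⁻¹)^p * R^n * (R^p / R^n) = (R⁻¹)^p * R^p * (R^n / R^n) := by ring
        _ = 1 := by rw [div_self h7, mul_one, e2]
    have e4 : ∑ i, (μ i * R)^p = R^p * ∑ i, μ i ^ p := by
      rw [Finset.mul_sum]
      exact Finset.sum_congr rfl fun i _ => e1 i
    show (R⁻¹)^p * R^n * (Chole n p * ((r / R)^n / (r / R)) * ∑ i, (μ i * R)^p +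
      R^(p - n) * ε) ≤ _
    rw [e4, mul_add]
    have e5 : (R⁻¹)^p * R^n * (R^(p - n) * ε) = ε := by
      rw [← mul_assoc, e3, one_mul]
    rw [e5]
    apply le_of_eq
    congr 1
    have e6 : R^n * ((r / R)^n / (r / R)) = R * (r^n / r) := by
      rw [div_pow]
      field_simp
    calc (R⁻¹)^p * R^n * (Chole n p * ((r / R)^n / (r / R)) * (R^p * ∑ i, μ i ^ p))
        = ((R⁻¹)^p * R^p) * (Chole n p * (R^n * ((r / R)^n / (r / R))) *
            ∑ i, μ i ^ p) := by ring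
      _ = _ := by rw [e2, e6, one_mul]

end scale

end Crest.Agent.R96.Hole_348
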