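import Crest.Agent.R96.Hr1_348

/-!
# R96, (HR) of 663 #9825, part 2: hole squeeze, pieces of different sizes (helper348)
-/

set_option autoImplicit false

open Set Metric Filter Topology MeasureTheory Module
open scoped ENNReal NNReal

namespace Crest.Agent.R96.Hole_348

open Crest.Agent.R096.Ce_537 Crest.Agent.R096.Bd_416

variable {n : ℕ} {G : Type*} [NormedAddCommGroup G] [NormedSpace ℝ G]

/-- the constant of `hole_ball_var` -/
noncomputable def Chv (n : ℕ) (p : ℝ) : ℝ := Chole n p * (2 * n * 3^(n - 1))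

lemma Chv_nonneg {p : ℝ} (hpn : p < n) : 0 ≤ Chv n p := by
  have := Chole_nonneg hpn
  unfold Chv
  positivity

/-- **HOLE SQUEEZE, TRACE FORM, pieces of different sizes `d i`.** -/
theorem hole_ball_var {p : ℝ} (hp0 : 0 < p) (hpn : p < n) (a : Fin n → ℝ) {R : ℝ} (hR : 0 < R)
    {ι : Type} [Fintype ι] (F : ι → Set (Fin n → ℝ)) (hFc : ∀ i, IsClosed (F i)) {d : ι → ℝ}
    (hd0 : ∀ i, 0 < d i) (hd : ∀ i, ∀ x ∈ F i, ∀ y ∈ F i, ‖x - y‖ ≤ d i)
    (hcov : sphere a R ⊆ ⋃ i, F i) {μ : ι → ℝ} (hμ : ∀ i, 0 ≤ μ i) {g : (Fin n → ℝ) → G}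
    (hg : PLOn g (closedBall a R))
    (htr : ∀ i, ∀ ω ∈ F i, ω ∈ sphere a R → ω ∈ closure (TB (μ i) g (sphere a R)))
    {ε : ℝ} (hε : 0 < ε) :
    ∃ χ : (Fin n → ℝ) ≃ₜ (Fin n → ℝ), PLOn χ univ ∧ PLOn χ.symm univ ∧
      (∀ x, x ∉ ball a R → χ x = x) ∧ (∀ x ∈ ball a R, χ x ∈ ball a R) ∧
      EnCov volume p (fun x => g (χ x)) (closedBall a R)
        (ENNReal.ofReal (Chv n p * R * ∑ i, d i ^ (n - 1) * μ i ^ p + ε)) := by
  classical
  have hn : 0 < n := by
    rcases Nat.eq_zero_or_pos n with h | h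
    · subst h; simp at hpn; linarith
    · exact h
  -- the common scale
  obtain ⟨r, ⟨hrR, hrd⟩, hr0⟩ : ∃ r : ℝ, (r ≤ R ∧ ∀ i, r ≤ d i) ∧ 0 < r := by
    have h1 : ∀ᶠ r in 𝓝[>] (0:ℝ), r ≤ R ∧ ∀ i, r ≤ d i := by
      refine Filter.Eventually.and ?_ (Filter.eventually_all.2 fun i => ?_)
      · filter_upwards [Ioc_mem_nhdsGT hR] with r hr using hr.2
      · filter_upwards [Ioc_mem_nhdsGT (hd0 i)] with r hr using hr.2
    exact (h1.and self_mem_nhdsWithin).exists
  set b : ι → (Fin n → ℝ) := fun i => if h : (F i).Nonempty then h.some else 0 with hb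
  have hbd : ∀ i, ∀ x ∈ F i, ‖x - b i‖ ≤ d i := by
    intro i x hx
    have hne : (F i).Nonempty := ⟨x, hx⟩
    have e : b i = hne.some := by simp only [hb]; rw [dif_pos hne]
    rw [e]
    exact hd i x hx _ hne.some_mem
  set M : ι → ℕ := fun i => ⌊2 * d i / r⌋₊ + 1 with hM
  have hM3 : ∀ i, (M i : ℝ) ≤ 3 * d i / r := by
    intro i
    have h1 : 0 ≤ 2 * d i / r := by have := hd0 i; positivity
    have h2 := Nat.floor_le h1
    have h3 : 1 ≤ d i / r := by rw [le_div_iff₀ hr0, one_mul]; exact hrd i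
    have e : 3 * d i / r = 2 * d i / r + d i / r := by ring
    rw [e]
    push_cast [hM]
    linarith
  -- the subdivided pieces
  let sg : Bool → ℝ := fun s => if s then 1 else -1
  let J : Type := Σ i : ι, Σ k : Fin n, Bool × ({j : Fin n // j ≠ k} → Fin (M i))
  let F' : J → Set (Fin n → ℝ) := fun q =>
    {x | x ∈ F q.1 ∧ x q.2.1 = a q.2.1 + sg q.2.2.1 * R ∧
      ∀ j : {j : Fin n // j ≠ q.2.1}, b q.1 j - d q.1 + r * ((q.2.2.2 j : ℕ) : ℝ) ≤ x j ∧
        x j ≤ b q.1 j - d q.1 + r * (((q.2.2.2 j : ℕ) : ℝ) + 1)}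
  obtain ⟨χ, h1, h2, h3, h4, h5⟩ := hole_ball (p := p) hp0 hpn a hr0 hrR (ι := J) F' (by
      intro q
      have e : F' q = F q.1 ∩ ({x | x q.2.1 = a q.2.1 + sg q.2.2.1 * R} ∩
          ⋂ j : {j : Fin n // j ≠ q.2.1}, {x : Fin n → ℝ |
            b q.1 j - d q.1 + r * ((q.2.2.2 j : ℕ) : ℝ) ≤ x j ∧
            x j ≤ b q.1 j - d q.1 + r * (((q.2.2.2 j : ℕ) : ℝ) + 1)}) := by
        ext x
        simp only [F', mem_setOf_eq, mem_inter_iff, mem_iInter]
      rw [e]
      refine (hFc _).inter ((isClosed_eq (continuous_apply _) continuous_const).inter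
        (isClosed_iInter fun j => ?_))
      exact (isClosed_le continuous_const (continuous_apply _)).inter
        (isClosed_le (continuous_apply _) continuous_const)) (by
      intro q x hx y hy
      rw [pi_norm_le_iff_of_nonneg hr0.le]
      intro j
      rw [Pi.sub_apply, Real.norm_eq_abs]
      by_cases hj : j = q.2.1
      · rw [hj, hx.2.1, hy.2.1, sub_self, abs_zero]
        exact hr0.le
      · have h6 := hx.2.2 ⟨j, hj⟩
        have h7 := hy.2.2 ⟨j, hj⟩
        rw [abs_le]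
        simp only at h6 h7
        constructor <;> nlinarith [h6.1, h6.2, h7.1, h7.2]) (by
      intro ω hω
      obtain ⟨i, hi⟩ := mem_iUnion.1 (hcov hω)
      have h6 : ‖dn1 a R ω‖ = 1 := by
        rw [norm_dn1 hR, ← dist_eq_norm, mem_sphere.1 hω, inv_mul_cancel₀ hR.ne']
      obtain ⟨k, hk⟩ := exists_max_coord hn h6
      have hk1 : |ω k - a k| = R := by
        have e : dn1 a R ω k = R⁻¹ * (ω k - a k) := rfl
        rw [e, abs_mul, abs_of_pos (inv_pos.2 hR), inv_mul_eq_iff_eq_mul₀ hR.ne', mul_one] at hk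
        exact hk
      have hs : ∃ s : Bool, ω k = a k + sg s * R := by
        rcases (abs_eq hR.le).1 hk1 with h | h
        · exact ⟨true, by simp only [sg, if_true]; linarith⟩
        · exact ⟨false, by simp only [sg]; norm_num; linarith⟩
      obtain ⟨s, hs⟩ := hs
      have h7 := hbd i ω hi
      have h8 : ∀ j, |ω j - b i j| ≤ d i := fun j => (abs_sub_apply_le ω (b i) j).trans h7
      have h9 : ∀ j, 0 ≤ (ω j - b i j + d i) / r := fun j =>
        div_nonneg (by have := (abs_le.1 (h8 j)).1; linarith) hr0.le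
      have h10 : ∀ j, ⌊(ω j - b i j + d i) / r⌋₊ < M i := by
        intro j
        refine Nat.lt_succ_of_le (Nat.floor_le_floor ?_)
        apply div_le_div_of_nonneg_right _ hr0.le
        have := (abs_le.1 (h8 j)).2
        linarith
      refine mem_iUnion.2 ⟨⟨i, k, s, fun j => ⟨⌊(ω j - b i j + d i) / r⌋₊, h10 j⟩⟩, hi, hs, ?_⟩
      rintro ⟨j, hj⟩
      have h11 := Nat.floor_le (h9 j)
      have h12 := (Nat.lt_floor_add_one ((ω j - b i j + d i) / r)).le
      rw [le_div_iff₀ hr0] at h11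
      rw [div_le_iff₀ hr0] at h12
      constructor
      · simp only
        linarith
      · simp only
        linarith)
    (μ := fun q => μ q.1) (fun q => hμ _) hg (fun q ω hω hω1 => htr _ ω hω.1 hω1) hε
  refine ⟨χ, h1, h2, h3, h4, h5.mono ?_⟩
  apply ENNReal.ofReal_le_ofReal
  have hcard : ∀ (i : ι), (Fintype.card (Σ k : Fin n, Bool × ({j : Fin n // j ≠ k} → Fin (M i))) : ℝ)
      = n * (2 * (M i : ℝ)^(n - 1)) := by
    intro i
    rw [Fintype.card_sigma]
    have : ∀ k : Fin n, Fintype.card (Bool × ({j : Fin n // j ≠ k} → Fin (M i))) =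
        2 * (M i)^(n - 1) := by
      intro k
      rw [Fintype.card_prod, Fintype.card_bool, Fintype.card_fun, Fintype.card_fin]
      congr 2
      rw [Fintype.card_subtype_compl]
      simp
    simp only [this, Finset.sum_const, Finset.card_univ, Fintype.card_fin, smul_eq_mul]
    push_cast
    ring
  have hsum : ∑ q : J, μ q.1 ^ p = ∑ i, (n * (2 * (M i : ℝ)^(n - 1))) * μ i ^ p := by
    rw [Fintype.sum_sigma]
    refine Finset.sum_congr rfl fun i _ => ?_
    simp only [Finset.sum_const, Finset.card_univ, nsmul_eq_mul]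
    rw [hcard]
  rw [hsum]
  have hrn : r^n / r = r^(n - 1) := by
    rw [div_eq_iff hr0.ne', ← pow_succ, Nat.sub_add_cancel hn]
  have hC := Chole_nonneg hpn
  have h6 : R * (r^n / r) * ∑ i, (n * (2 * (M i : ℝ)^(n - 1))) * μ i ^ p ≤
      (2 * n * 3^(n - 1)) * R * ∑ i, d i ^ (n - 1) * μ i ^ p := by
    rw [hrn, Finset.mul_sum, Finset.mul_sum]
    refine Finset.sum_le_sum fun i _ => ?_
    have h7 : r^(n - 1) * (M i : ℝ)^(n - 1) ≤ 3^(n - 1) * d i ^ (n - 1) := by
      rw [← mul_pow, ← mul_pow]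
      refine pow_le_pow_left₀ (by positivity) ?_ _
      have := hM3 i
      rw [le_div_iff₀ hr0] at this
      linarith
    have h8 : 0 ≤ μ i ^ p := Real.rpow_nonneg (hμ i) p
    calc R * r^(n - 1) * (n * (2 * (M i : ℝ)^(n - 1)) * μ i ^ p)
        = 2 * n * R * (r^(n - 1) * (M i : ℝ)^(n - 1)) * μ i ^ p := by ring
      _ ≤ 2 * n * R * (3^(n - 1) * d i ^ (n - 1)) * μ i ^ p := by
          refine mul_le_mul_of_nonneg_right ?_ h8
          exact mul_le_mul_of_nonneg_left h7 (by positivity)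
      _ = _ := by ring
  have h7 := mul_le_mul_of_nonneg_left h6 hC
  unfold Chv
  have e : Chole n p * (R * (r^n / r)) * ∑ i, (n * (2 * (M i : ℝ)^(n - 1))) * μ i ^ p =
    Chole n p * (R * (r^n / r) * ∑ i, (n * (2 * (M i : ℝ)^(n - 1))) * μ i ^ p) := by ring
  rw [e]
  calc _ ≤ Chole n p * ((2 * n * 3^(n - 1)) * R * ∑ i, d i ^ (n - 1) * μ i ^ p) + ε := by
        linarith
    _ = _ := by ring

end Crest.Agent.R96.Hole_348
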