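import Crest.Agent.R96.Hr2_348

/-!
# R96, (HR) of 663 #9825, part 3: choice of the radius by averaging, arbitrary tiles in the ring
(helper348)
-/

set_option autoImplicit false

open Set Metric Filter Topology MeasureTheory Module
open scoped ENNReal NNReal

namespace Crest.Agent.R96.Hole_348

open Crest.Agent.R096.Ce_537 Crest.Agent.R096.Bd_416

section slices

variable {n : ℕ}

/-- the complement of `N` is dense in the slice `x k = t` -/
def GoodSl (N : Set (Fin n → ℝ)) (k : Fin n) (t : ℝ) : Prop :=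
  ∀ x : Fin n → ℝ, x k = t → ∀ δ > 0, ∃ y : Fin n → ℝ, y k = t ∧ ‖y - x‖ < δ ∧ y ∉ N

lemma ae_slice_succ {m : ℕ} {N : Set (Fin (m + 1) → ℝ)} (hN : volume N = 0) (k : Fin (m + 1)) :
    ∀ᵐ t : ℝ, GoodSl N k t := by
  have hmp := volume_preserving_piFinSuccAbove (fun _ : Fin (m + 1) => ℝ) k
  have h1 : ∀ᵐ x : Fin (m + 1) → ℝ, x ∉ N := measure_eq_zero_iff_ae_notMem.1 hN
  have h2 := hmp.symm.quasiMeasurePreserving.ae h1
  have h3 := Measure.ae_ae_of_ae_prod h2
  filter_upwards [h3] with t ht x hx δ hδ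
  obtain ⟨y', hy', hd⟩ := (Measure.dense_of_ae ht).exists_dist_lt
    (fun j => x (k.succAbove j)) hδ
  refine ⟨k.insertNth t y', by simp, ?_, hy'⟩
  rw [pi_norm_lt_iff hδ]
  rw [dist_comm, dist_pi_lt_iff hδ] at hd
  refine (Fin.forall_iff_succAbove k).2 ⟨?_, fun j => ?_⟩
  · simp [hx, hδ]
  · have := hd j
    rw [Real.dist_eq] at this
    simpa using this

lemma ae_slice {N : Set (Fin n → ℝ)} (hN : volume N = 0) (k : Fin n) :
    ∀ᵐ t : ℝ, GoodSl N k t := by
  cases n with
  | zero => exact k.elim0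
  | succ m => exact ae_slice_succ hN k

lemma ae_slice_pm {N : Set (Fin n → ℝ)} (hN : volume N = 0) (a : Fin n → ℝ) :
    ∀ᵐ R : ℝ, ∀ k : Fin n, GoodSl N k (a k + R) ∧ GoodSl N k (a k - R) := by
  rw [ae_all_iff]
  intro k
  have h1 := ae_slice hN k
  exact ((measurePreserving_add_left volume (a k)).quasiMeasurePreserving.ae h1).and
    ((Measure.measurePreserving_sub_left volume (a k)).quasiMeasurePreserving.ae h1)

lemma sphere_dense {N : Set (Fin n → ℝ)} {a : Fin n → ℝ} {R : ℝ} (hR : 0 < R)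
    (h : ∀ k : Fin n, GoodSl N k (a k + R) ∧ GoodSl N k (a k - R)) {ω : Fin n → ℝ}
    (hω : ω ∈ sphere a R) {δ : ℝ} (hδ : 0 < δ) :
    ∃ y ∈ sphere a R, ‖y - ω‖ < δ ∧ y ∉ N := by
  have hn : 0 < n := by
    rcases Nat.eq_zero_or_pos n with h0 | h0
    · subst h0
      rw [mem_sphere, dist_eq_norm, show ω - a = 0 from Subsingleton.elim _ _, norm_zero] at hω
      exact absurd hω hR.ne
    · exact h0
  have h6 : ‖dn1 a R ω‖ = 1 := by
    rw [norm_dn1 hR, ← dist_eq_norm, mem_sphere.1 hω, inv_mul_cancel₀ hR.ne']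
  obtain ⟨k, hk⟩ := exists_max_coord hn h6
  have hk1 : |ω k - a k| = R := by
    have e : dn1 a R ω k = R⁻¹ * (ω k - a k) := rfl
    rw [e, abs_mul, abs_of_pos (inv_pos.2 hR), inv_mul_eq_iff_eq_mul₀ hR.ne', mul_one] at hk
    exact hk
  have hG : GoodSl N k (ω k) := by
    rcases (abs_eq hR.le).1 hk1 with h1 | h1
    · rw [show ω k = a k + R by linarith]
      exact (h k).1
    · rw [show ω k = a k - R by linarith]
      exact (h k).2
  have hωa : ∀ j, |ω j - a j| ≤ R := by
    intro j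
    rw [mem_sphere, dist_eq_norm] at hω
    rw [← hω]
    exact abs_sub_apply_le ω a j
  set η : ℝ := min (1/2) (δ / (2 * R)) with hη
  have hη0 : 0 < η := lt_min (by norm_num) (by positivity)
  have hη1 : η ≤ 1/2 := min_le_left _ _
  have hηR : η * R ≤ δ / 2 := by
    calc η * R ≤ δ / (2 * R) * R := mul_le_mul_of_nonneg_right (min_le_right _ _) hR.le
      _ = δ / 2 := by field_simp
  set ω' : Fin n → ℝ := fun j => if j = k then ω k else a j + (1 - η) * (ω j - a j) with hω'
  have hωk : ω' k = ω k := by simp [hω']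
  have h1 : ‖ω' - ω‖ ≤ δ / 2 := by
    rw [pi_norm_le_iff_of_nonneg (by positivity)]
    intro j
    rw [Pi.sub_apply, Real.norm_eq_abs]
    by_cases hj : j = k
    · rw [hj, hωk, sub_self, abs_zero]
      positivity
    · have e : ω' j - ω j = -(η * (ω j - a j)) := by
        simp only [hω', if_neg hj]
        ring
      rw [e, abs_neg, abs_mul, abs_of_pos hη0]
      exact (mul_le_mul_of_nonneg_left (hωa j) hη0.le).trans hηR
  obtain ⟨y, hy1, hy2, hy3⟩ := hG ω' hωk (min (δ / 2) (η * R)) (lt_min (by positivity)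
    (by positivity))
  refine ⟨y, ?_, ?_, hy3⟩
  · rw [mem_sphere, dist_eq_norm]
    apply le_antisymm
    · rw [pi_norm_le_iff_of_nonneg hR.le]
      intro j
      rw [Pi.sub_apply, Real.norm_eq_abs]
      by_cases hj : j = k
      · rw [hj, hy1, hk1]
      · have h2 : |y j - ω' j| ≤ η * R :=
          (abs_sub_apply_le y ω' j).trans (hy2.le.trans (min_le_right _ _))
        have e : ω' j - a j = (1 - η) * (ω j - a j) := by
          simp only [hω', if_neg hj]
          ring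
        have h3 : |ω' j - a j| ≤ (1 - η) * R := by
          rw [e, abs_mul, abs_of_nonneg (by linarith)]
          exact mul_le_mul_of_nonneg_left (hωa j) (by linarith)
        calc |y j - a j| = |(y j - ω' j) + (ω' j - a j)| := by congr 1; ring
          _ ≤ |y j - ω' j| + |ω' j - a j| := abs_add_le _ _
          _ ≤ η * R + (1 - η) * R := add_le_add h2 h3
          _ = R := by ring
    · rw [← hk1, ← hy1]
      exact abs_sub_apply_le y a k
  · calc ‖y - ω‖ = ‖(y - ω') + (ω' - ω)‖ := by congr 1; abel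
      _ ≤ ‖y - ω'‖ + ‖ω' - ω‖ := norm_add_le _ _
      _ < δ / 2 + δ / 2 := add_lt_add_of_lt_of_le (hy2.trans_le (min_le_left _ _)) h1
      _ = δ := by ring

end slices

section averaging

/-- **averaging over the radius** -/
lemma exists_radius {ι : Type} [Fintype ι] (I : ι → Set ℝ) {l w : ι → ℝ} (hl : ∀ i, 0 ≤ l i)
    (hI : ∀ i, ∃ c, I i ⊆ Icc (c - l i) (c + l i)) (hw : ∀ i, 0 ≤ w i) {R0 R1 : ℝ}
    (h01 : R0 < R1) {B : Set ℝ} (hB : volume B = 0) :
    ∃ R ∈ Ioo R0 R1, R ∉ B ∧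
      ∀ s : Finset ι, (∀ i ∈ s, R ∈ I i) → ∑ i ∈ s, w i ≤ (∑ i, 2 * l i * w i) / (R1 - R0) := by
  classical
  choose c hc using hI
  set f : ℝ → ℝ≥0∞ := fun R => ∑ i, (Icc (c i - l i) (c i + l i)).indicator
    (fun _ => ENNReal.ofReal (w i)) R with hf
  set m : Measure ℝ := volume.restrict (Ioo R0 R1) with hm
  have hm1 : m univ = ENNReal.ofReal (R1 - R0) := by
    rw [hm, Measure.restrict_apply_univ, Real.volume_Ioo]
  have hfin : IsFiniteMeasure m := ⟨by rw [hm1]; exact ENNReal.ofReal_lt_top⟩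
  have hm0 : m ≠ 0 := by
    intro h
    rw [h] at hm1
    simp at hm1
    linarith
  have hfm : Measurable f := by
    refine Finset.measurable_sum _ fun i _ => ?_
    exact measurable_const.indicator measurableSet_Icc
  have hN : m (B ∪ (Ioo R0 R1)ᶜ) = 0 := by
    refine measure_union_null ?_ ?_
    · exact le_antisymm ((Measure.restrict_apply_le _ _).trans hB.le) zero_le
    · rw [hm, Measure.restrict_apply measurableSet_Ioo.compl, compl_inter_self, measure_empty]
  obtain ⟨R, hR1, hR2⟩ := exists_notMem_null_le_laverage hm0 hfm.aemeasurable hN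
  rw [mem_union, not_or, notMem_compl_iff] at hR1
  refine ⟨R, hR1.2, hR1.1, fun s hs => ?_⟩
  have h1 : ∫⁻ x, f x ∂m ≤ ENNReal.ofReal (∑ i, 2 * l i * w i) := by
    calc ∫⁻ x, f x ∂m ≤ ∫⁻ x, f x := lintegral_mono' Measure.restrict_le_self le_rfl
      _ = ∑ i, ∫⁻ x, (Icc (c i - l i) (c i + l i)).indicator
            (fun _ => ENNReal.ofReal (w i)) x :=
          lintegral_finsetSum _ fun i _ => measurable_const.indicator measurableSet_Icc
      _ = ∑ i, ENNReal.ofReal (2 * l i * w i) := by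
          refine Finset.sum_congr rfl fun i _ => ?_
          rw [lintegral_indicator_const measurableSet_Icc, Real.volume_Icc,
            ← ENNReal.ofReal_mul (hw i)]
          congr 1
          ring
      _ = _ := (ENNReal.ofReal_sum_of_nonneg fun i _ =>
          mul_nonneg (mul_nonneg (by norm_num) (hl i)) (hw i)).symm
  have h2 : f R ≤ ENNReal.ofReal ((∑ i, 2 * l i * w i) / (R1 - R0)) := by
    refine hR2.trans ?_
    rw [laverage_eq, hm1, ENNReal.ofReal_div_of_pos (by linarith)]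
    exact ENNReal.div_le_div_right h1 _
  have h3 : ENNReal.ofReal (∑ i ∈ s, w i) ≤ f R := by
    rw [ENNReal.ofReal_sum_of_nonneg fun i _ => hw i]
    calc ∑ i ∈ s, ENNReal.ofReal (w i) = ∑ i ∈ s, (Icc (c i - l i) (c i + l i)).indicator
            (fun _ => ENNReal.ofReal (w i)) R := by
          refine Finset.sum_congr rfl fun i hi => ?_
          rw [indicator_of_mem (hc i (hs i hi))]
      _ ≤ f R := Finset.sum_le_univ_sum_of_nonneg fun _ => zero_le
  have h4 := h3.trans h2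
  rwa [ENNReal.ofReal_le_ofReal_iff] at h4
  refine div_nonneg (Finset.sum_nonneg fun i _ => ?_) (by linarith)
  exact mul_nonneg (mul_nonneg (by norm_num) (hl i)) (hw i)

end averaging

variable {n : ℕ} {G : Type*} [NormedAddCommGroup G] [NormedSpace ℝ G]

lemma closure_diam {E : Type*} [NormedAddCommGroup E] {S : Set E} {d : ℝ}
    (h : ∀ x ∈ S, ∀ y ∈ S, ‖x - y‖ ≤ d) : ∀ x ∈ closure S, ∀ y ∈ closure S, ‖x - y‖ ≤ d := by
  intro x hx y hy
  have h1 : (x, y) ∈ closure (S ×ˢ S) := by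
    rw [closure_prod_eq]
    exact ⟨hx, hy⟩
  have h2 : closure (S ×ˢ S) ⊆ {q : E × E | ‖q.1 - q.2‖ ≤ d} := by
    refine closure_minimal ?_ (isClosed_le (continuous_fst.sub continuous_snd).norm
      continuous_const)
    rintro ⟨u, v⟩ ⟨hu, hv⟩
    exact h u hu v hv
  exact h2 h1

/-- **HOLE IN A RING.** `U i` open tiles of size `≤ d i`, which cover the ring
`ball a R1 \ closedBall a R0` up to a null set, `g` has local Lipschitz constant `μ i` on `U i`
(inside the ring). Then for some radius `R` in `(R0, R1)` the hole squeeze in `closedBall a R`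
costs only the energy of the ring. -/
theorem hole_ring {p : ℝ} (hp0 : 0 < p) (hpn : p < n) (a : Fin n → ℝ) {R0 R1 : ℝ} (h0 : 0 ≤ R0)
    (h01 : R0 < R1) {ι : Type} [Fintype ι] (U : ι → Set (Fin n → ℝ)) {d : ι → ℝ}
    (hd0 : ∀ i, 0 < d i) (hd : ∀ i, ∀ x ∈ U i, ∀ y ∈ U i, ‖x - y‖ ≤ d i)
    (hcov : volume ((ball a R1 \ closedBall a R0) \ ⋃ i, U i) = 0) {μ : ι → ℝ}
    (hμ : ∀ i, 0 ≤ μ i) {g : (Fin n → ℝ) → G} (hg : PLOn g (closedBall a R1))
    (hL : ∀ i, ∀ x ∈ U i, x ∈ ball a R1 → x ∉ closedBall a R0 → LLV (μ i) g x)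
    {ε : ℝ} (hε : 0 < ε) :
    ∃ R ∈ Ioo R0 R1, ∃ χ : (Fin n → ℝ) ≃ₜ (Fin n → ℝ), PLOn χ univ ∧ PLOn χ.symm univ ∧
      (∀ x, x ∉ ball a R → χ x = x) ∧ (∀ x ∈ ball a R, χ x ∈ ball a R) ∧
      EnCov volume p (fun x => g (χ x)) (closedBall a R)
        (ENNReal.ofReal (Chv n p * (2 * R1 / (R1 - R0)) * ∑ i, d i ^ n * μ i ^ p + ε)) := by
  classical
  have hn : 0 < n := by
    rcases Nat.eq_zero_or_pos n with h | h
    · subst h; simp at hpn; linarith
    · exact h
  set N : Set (Fin n → ℝ) := (ball a R1 \ closedBall a R0) \ ⋃ i, U i with hNdef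
  have hB := ae_iff.1 (ae_slice_pm hcov a)
  set I : ι → Set ℝ := fun i => {R | (U i ∩ sphere a R).Nonempty} with hI
  obtain ⟨R, hR, hRB, hsum⟩ := exists_radius I (l := d) (w := fun i => d i ^ (n - 1) * μ i ^ p)
    (fun i => (hd0 i).le) (by
      intro i
      rcases (U i).eq_empty_or_nonempty with h | ⟨y, hy⟩
      · refine ⟨0, ?_⟩
        rintro R ⟨x, hx, _⟩
        rw [h] at hx
        exact absurd hx (notMem_empty _)
      · refine ⟨‖y - a‖, ?_⟩
        rintro R ⟨x, hx, hx2⟩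
        have h1 := hd i x hx y hy
        rw [mem_sphere, dist_eq_norm] at hx2
        have h2 := abs_norm_sub_norm_le (x - a) (y - a)
        rw [sub_sub_sub_cancel_right, hx2] at h2
        have h3 := abs_le.1 (h2.trans h1)
        exact ⟨by linarith [h3.1], by linarith [h3.2]⟩)
    (fun i => mul_nonneg (pow_nonneg (hd0 i).le _) (Real.rpow_nonneg (hμ i) p)) h01 hB
  have hRg : ∀ k : Fin n, GoodSl N k (a k + R) ∧ GoodSl N k (a k - R) := by
    simpa using hRB
  have hR0 : 0 < R := h0.trans_lt hR.1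
  have hring : ∀ y ∈ sphere a R, y ∈ ball a R1 ∧ y ∉ closedBall a R0 := by
    intro y hy
    rw [mem_sphere] at hy
    rw [mem_ball, mem_closedBall, hy]
    exact ⟨hR.2, not_le.2 hR.1⟩
  let F : ι → Set (Fin n → ℝ) := fun i => closure (U i ∩ sphere a R)
  have hcovF : sphere a R ⊆ ⋃ i, F i := by
    intro ω hω
    by_contra hcon
    have hcl : IsClosed (⋃ i, F i) := isClosed_iUnion_of_finite fun i => isClosed_closure
    obtain ⟨δ, hδ, hball⟩ := Metric.isOpen_iff.1 hcl.isOpen_compl ω hcon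
    obtain ⟨y, hy1, hy2, hy3⟩ := sphere_dense hR0 hRg hω hδ
    have h1 : y ∈ ⋃ i, U i := by
      by_contra h2
      exact hy3 ⟨hring y hy1, h2⟩
    obtain ⟨i, hi⟩ := mem_iUnion.1 h1
    exact hball (show y ∈ ball ω δ by rw [mem_ball, dist_eq_norm]; exact hy2)
      (mem_iUnion.2 ⟨i, subset_closure ⟨hi, hy1⟩⟩)
  let ι' : Type := {i : ι // (U i ∩ sphere a R).Nonempty}
  obtain ⟨χ, h1, h2, h3, h4, h5⟩ := hole_ball_var (p := p) hp0 hpn a hR0 (ι := ι')
    (fun i => F i.1) (fun i => isClosed_closure) (d := fun i => d i.1) (fun i => hd0 _)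
    (fun i => closure_diam fun x hx y hy => hd i.1 x hx.1 y hy.1) (by
      intro ω hω
      obtain ⟨i, hi⟩ := mem_iUnion.1 (hcovF hω)
      have hne : (U i ∩ sphere a R).Nonempty := by
        rw [← closure_nonempty_iff]
        exact ⟨ω, hi⟩
      exact mem_iUnion.2 ⟨⟨i, hne⟩, hi⟩)
    (μ := fun i => μ i.1) (fun i => hμ _) (g := g)
    (hg.mono (closedBall_subset_closedBall hR.2.le)) (by
      intro i ω hω _
      refine closure_mono ?_ hω
      rintro x ⟨hx1, hx2⟩
      refine ⟨hx2, ?_⟩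
      have h6 := hL i.1 x hx1 (hring x hx2).1 (hring x hx2).2
      exact h6.filter_mono nhdsWithin_le_nhds) hε
  refine ⟨R, hR, χ, h1, h2, h3, h4, h5.mono ?_⟩
  apply ENNReal.ofReal_le_ofReal
  have h6 := hsum (Finset.univ.filter fun i => (U i ∩ sphere a R).Nonempty) (by
    intro i hi
    exact (Finset.mem_filter.1 hi).2)
  have h7 : ∑ i : ι', d i.1 ^ (n - 1) * μ i.1 ^ p =
      ∑ i ∈ Finset.univ.filter (fun i => (U i ∩ sphere a R).Nonempty),
        d i ^ (n - 1) * μ i ^ p :=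
    (Finset.sum_subtype _ (fun i => by simp) (fun i => d i ^ (n - 1) * μ i ^ p)).symm
  rw [h7]
  have hC := Chv_nonneg hpn
  have h8 : ∑ i, 2 * d i * (d i ^ (n - 1) * μ i ^ p) = 2 * ∑ i, d i ^ n * μ i ^ p := by
    rw [Finset.mul_sum]
    refine Finset.sum_congr rfl fun i _ => ?_
    have : d i ^ n = d i * d i ^ (n - 1) := by
      rw [← pow_succ', Nat.sub_add_cancel hn]
    rw [this]
    ring
  rw [h8] at h6
  have h9 : 0 ≤ ∑ i, d i ^ n * μ i ^ p := Finset.sum_nonneg fun i _ =>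
    mul_nonneg (pow_nonneg (hd0 i).le _) (Real.rpow_nonneg (hμ i) p)
  have h10 : 0 ≤ (2 * ∑ i, d i ^ n * μ i ^ p) / (R1 - R0) :=
    div_nonneg (by positivity) (by linarith)
  have h11 : R * (∑ i ∈ Finset.univ.filter (fun i => (U i ∩ sphere a R).Nonempty),
        d i ^ (n - 1) * μ i ^ p) ≤ R1 * ((2 * ∑ i, d i ^ n * μ i ^ p) / (R1 - R0)) :=
    (mul_le_mul_of_nonneg_left h6 hR0.le).trans (mul_le_mul_of_nonneg_right hR.2.le h10)
  have h12 := mul_le_mul_of_nonneg_left h11 hC
  rw [mul_assoc (Chv n p) R]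
  calc _ ≤ Chv n p * (R1 * ((2 * ∑ i, d i ^ n * μ i ^ p) / (R1 - R0))) + ε := by linarith
    _ = _ := by ring

end Crest.Agent.R96.Hole_348
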