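import Crest.Agent.R96.Hr3_348
import Crest.Agent.R096.Ea1_713
import Crest.Agent.R096.Msh2_715

/-!
# R96, (HR) of 663 #9825, part 4: the whole ball; the tiles of a `Tiling`; grid cells (helper348)
-/

set_option autoImplicit false

open Set Metric Filter Topology MeasureTheory Module
open scoped ENNReal NNReal

namespace Crest.Agent.R96.Hole_348

open Crest.Agent.R096.Ce_537 Crest.Agent.R096.Bd_416 Crest.Agent.R096.Msh_715

section union

variable {E G : Type*} [NormedAddCommGroup E] [MeasurableSpace E] [NormedAddCommGroup G]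
  {m : Measure E} {p : ℝ} {f : E → G}

lemma EnCov.union {K K' : Set E} {A A' : ENNReal} (h : EnCov m p f K A)
    (h' : EnCov m p f K' A') : EnCov m p f (K ∪ K') (A + A') := by
  obtain ⟨J, _, S, c, hS, hc, hK, hL, hA⟩ := h
  obtain ⟨J', _, S', c', hS', hc', hK', hL', hA'⟩ := h'
  refine ⟨J ⊕ J', inferInstance, Sum.elim S S', Sum.elim c c', ?_, ?_, ?_, ?_, ?_⟩
  · rintro (j | j)
    · exact hS j
    · exact hS' j
  · rintro (j | j)
    · exact hc j
    · exact hc' j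
  · rintro x (hx | hx)
    · obtain ⟨j, hj⟩ := mem_iUnion.1 (hK hx)
      exact mem_iUnion.2 ⟨Sum.inl j, hj⟩
    · obtain ⟨j, hj⟩ := mem_iUnion.1 (hK' hx)
      exact mem_iUnion.2 ⟨Sum.inr j, hj⟩
  · rintro (j | j)
    · exact hL j
    · exact hL' j
  · rw [Fintype.sum_sum_type]
    exact add_le_add hA hA'

lemma EnCov.subset {K K' : Set E} {A : ENNReal} (h : EnCov m p f K A) (hK : K' ⊆ K) :
    EnCov m p f K' A := by
  obtain ⟨J, i, S, c, hS, hc, hKS, hL, hA⟩ := h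
  exact ⟨J, i, S, c, hS, hc, hK.trans hKS, hL, hA⟩

/-- a null set costs nothing -/
lemma EnCov.of_null (hp : 0 < p) {K : Set E} (hK : MeasurableSet K) (h0 : m K = 0) :
    EnCov m p f K 0 := by
  refine ⟨Unit, inferInstance, fun _ => K, fun _ => 0, fun _ => hK, fun _ => le_rfl, ?_, ?_, ?_⟩
  · intro x hx
    exact mem_iUnion.2 ⟨(), hx⟩
  · intro _
    filter_upwards [measure_eq_zero_iff_ae_notMem.1 h0] with x hx hx2
    exact absurd hx2 hx
  · simp [Real.zero_rpow hp.ne']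

/-- finitely many open tiles -/
lemma EnCov.tiles {ι : Type} [Fintype ι] {U : ι → Set E} {μ : ι → ℝ}
    (hU : ∀ i, MeasurableSet (U i)) (hμ : ∀ i, 0 ≤ μ i) (hL : ∀ i, ∀ x ∈ U i, LLV (μ i) f x) :
    EnCov m p f (⋃ i, U i) (∑ i, ENNReal.ofReal (μ i ^ p) * m (U i)) :=
  ⟨ι, inferInstance, U, μ, hU, hμ, subset_rfl, fun i => Eventually.of_forall (hL i), le_rfl⟩

end union

variable {n : ℕ} {G : Type*} [NormedAddCommGroup G] [NormedSpace ℝ G]

/-- the constant of `hole_ring_full`; `t = 2 R1 / (R1 - R0)` -/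
noncomputable def Chr (n : ℕ) (p t : ℝ) : ℝ := Chv n p * t + 2^n

lemma volume_le_of_diam {S : Set (Fin n → ℝ)} {d : ℝ} (hd0 : 0 ≤ d)
    (hd : ∀ x ∈ S, ∀ y ∈ S, ‖x - y‖ ≤ d) : volume S ≤ ENNReal.ofReal ((2 * d)^n) := by
  rcases S.eq_empty_or_nonempty with h | ⟨y, hy⟩
  · rw [h]; simp
  · refine (measure_mono (t := closedBall y d) fun x hx => ?_).trans ?_
    · rw [mem_closedBall, dist_eq_norm]
      exact hd x hx y hy
    · rw [Real.volume_pi_closedBall _ hd0, Fintype.card_fin]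

/-- **HOLE IN A RING, energy on the whole ball.** -/
theorem hole_ring_full {p : ℝ} (hp0 : 0 < p) (hpn : p < n) (a : Fin n → ℝ) {R0 R1 : ℝ}
    (h0 : 0 ≤ R0) (h01 : R0 < R1) {ι : Type} [Fintype ι] (U : ι → Set (Fin n → ℝ))
    (hU : ∀ i, IsOpen (U i)) {d : ι → ℝ}
    (hd0 : ∀ i, 0 < d i) (hd : ∀ i, ∀ x ∈ U i, ∀ y ∈ U i, ‖x - y‖ ≤ d i)
    (hcov : volume ((ball a R1 \ closedBall a R0) \ ⋃ i, U i) = 0) {μ : ι → ℝ}
    (hμ : ∀ i, 0 ≤ μ i) {g : (Fin n → ℝ) → G} (hg : PLOn g (closedBall a R1))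
    (hL : ∀ i, ∀ x ∈ U i, x ∈ ball a R1 → x ∉ closedBall a R0 → LLV (μ i) g x)
    {ε : ℝ} (hε : 0 < ε) :
    ∃ R ∈ Ioo R0 R1, ∃ χ : (Fin n → ℝ) ≃ₜ (Fin n → ℝ), PLOn χ univ ∧ PLOn χ.symm univ ∧
      (∀ x, x ∉ ball a R → χ x = x) ∧ (∀ x ∈ ball a R, χ x ∈ ball a R) ∧
      EnCov volume p (fun x => g (χ x)) (closedBall a R1)
        (ENNReal.ofReal (Chr n p (2 * R1 / (R1 - R0)) * ∑ i, d i ^ n * μ i ^ p + ε)) := by
  obtain ⟨R, hR, χ, h1, h2, h3, h4, h5⟩ := hole_ring hp0 hpn a h0 h01 U hd0 hd hcov hμ hg hL hε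
  refine ⟨R, hR, χ, h1, h2, h3, h4, ?_⟩
  have hR1 : 0 < R1 := (h0.trans_lt hR.1).trans hR.2
  -- the tiles outside the hole
  have hUR : ∀ i, IsOpen (U i ∩ (ball a R1 \ closedBall a R)) := fun i =>
    (hU i).inter (isOpen_ball.sdiff isClosed_closedBall)
  have h6 : EnCov volume p (fun x => g (χ x)) (⋃ i, (U i ∩ (ball a R1 \ closedBall a R)))
      (∑ i, ENNReal.ofReal (μ i ^ p) * volume (U i ∩ (ball a R1 \ closedBall a R))) := by
    refine EnCov.tiles (fun i => (hUR i).measurableSet) hμ ?_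
    rintro i x ⟨hx1, hx2, hx3⟩
    have h7 := hL i x hx1 hx2 (fun h => hx3 (closedBall_subset_closedBall hR.1.le h))
    have h8 : ∀ᶠ y in 𝓝 x, χ y = y := by
      filter_upwards [isClosed_closedBall.isOpen_compl.mem_nhds hx3] with y hy
      exact h3 y fun h => hy (ball_subset_closedBall h)
    filter_upwards [h7, h8] with y hy1 hy2
    rw [hy2, h8.self_of_nhds]
    exact hy1
  have h7 : EnCov volume p (fun x => g (χ x)) (sphere a R1) 0 := by
    refine EnCov.of_null hp0 isClosed_sphere.measurableSet ?_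
    exact Measure.addHaar_sphere_of_ne_zero volume a hR1.ne'
  have h8 : EnCov volume p (fun x => g (χ x)) ((ball a R1 \ closedBall a R0) \ ⋃ i, U i) 0 :=
    EnCov.of_null hp0 ((measurableSet_ball.diff measurableSet_closedBall).diff
      (isOpen_iUnion hU).measurableSet) hcov
  have h9 := ((h5.union h6).union h7).union h8
  refine (h9.subset ?_).mono ?_
  · intro x hx
    by_cases hxR : x ∈ closedBall a R
    · exact Or.inl (Or.inl (Or.inl hxR))
    · by_cases hxs : x ∈ sphere a R1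
      · exact Or.inl (Or.inr hxs)
      · have hxb : x ∈ ball a R1 := by
          rw [mem_ball]
          rw [mem_closedBall] at hx
          exact lt_of_le_of_ne hx hxs
        have hx0 : x ∉ closedBall a R0 := fun h => hxR (closedBall_subset_closedBall hR.1.le h)
        by_cases hxU : x ∈ ⋃ i, U i
        · obtain ⟨i, hi⟩ := mem_iUnion.1 hxU
          exact Or.inl (Or.inl (Or.inr (mem_iUnion.2 ⟨i, hi, hxb, hxR⟩)))
        · exact Or.inr ⟨⟨hxb, hx0⟩, hxU⟩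
  · have h10 : ∑ i, ENNReal.ofReal (μ i ^ p) * volume (U i ∩ (ball a R1 \ closedBall a R)) ≤
        ENNReal.ofReal (2^n * ∑ i, d i ^ n * μ i ^ p) := by
      rw [Finset.mul_sum, ENNReal.ofReal_sum_of_nonneg (fun i _ => mul_nonneg (by positivity)
        (mul_nonneg (pow_nonneg (hd0 i).le _) (Real.rpow_nonneg (hμ i) p)))]
      refine Finset.sum_le_sum fun i _ => ?_
      have h11 : volume (U i ∩ (ball a R1 \ closedBall a R)) ≤ ENNReal.ofReal ((2 * d i)^n) :=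
        volume_le_of_diam (hd0 i).le fun x hx y hy => hd i x hx.1 y hy.1
      calc _ ≤ ENNReal.ofReal (μ i ^ p) * ENNReal.ofReal ((2 * d i)^n) := mul_le_mul' le_rfl h11
        _ = _ := by
            rw [← ENNReal.ofReal_mul (Real.rpow_nonneg (hμ i) p)]
            congr 1
            rw [mul_pow]
            ring
    have h12 : 0 ≤ ∑ i, d i ^ n * μ i ^ p := Finset.sum_nonneg fun i _ =>
      mul_nonneg (pow_nonneg (hd0 i).le _) (Real.rpow_nonneg (hμ i) p)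
    have hC := Chv_nonneg hpn
    rw [add_zero, add_zero]
    refine (add_le_add le_rfl h10).trans ?_
    have h13 : 0 ≤ 2 * R1 / (R1 - R0) := div_nonneg (by linarith) (by linarith)
    rw [← ENNReal.ofReal_add (by positivity) (by positivity)]
    apply ENNReal.ofReal_le_ofReal
    apply le_of_eq
    unfold Chr
    ring

/-- **(HR), tiles of a tiling**: `g` has local Lipschitz constant `≤ μ i` in the open tile `i` for
the tiles that meet the ring, `diam ≤ d i`; `S` = the tiles which meet the ring. -/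
theorem hole_tiling {p : ℝ} (hp0 : 0 < p) (hpn : p < n) {Om : Set (Fin n → ℝ)} {ι : Type}
    (T : Tiling Om ι) (a : Fin n → ℝ) {R0 R1 : ℝ} (h0 : 0 ≤ R0) (h01 : R0 < R1)
    (hsub : closedBall a R1 ⊆ Om) {d μ : ι → ℝ} (S : Finset ι)
    (hS : ∀ i, (P (T.H i) ∩ (ball a R1 \ closedBall a R0)).Nonempty → i ∈ S)
    (hd0 : ∀ i ∈ S, 0 < d i) (hd : ∀ i ∈ S, ∀ x ∈ P (T.H i), ∀ y ∈ P (T.H i), ‖x - y‖ ≤ d i)
    (hμ : ∀ i ∈ S, 0 ≤ μ i) {g : (Fin n → ℝ) → G} (hg : PLOn g (closedBall a R1))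
    (hL : ∀ i ∈ S, ∀ x ∈ I (T.H i), x ∈ ball a R1 → x ∉ closedBall a R0 → LLV (μ i) g x)
    {ε : ℝ} (hε : 0 < ε) :
    ∃ R ∈ Ioo R0 R1, ∃ χ : (Fin n → ℝ) ≃ₜ (Fin n → ℝ), PLOn χ univ ∧ PLOn χ.symm univ ∧
      (∀ x, x ∉ ball a R → χ x = x) ∧ (∀ x ∈ ball a R, χ x ∈ ball a R) ∧
      EnCov volume p (fun x => g (χ x)) (closedBall a R1)
        (ENNReal.ofReal (Chr n p (2 * R1 / (R1 - R0)) * ∑ i ∈ S, d i ^ n * μ i ^ p + ε)) := by
  classical
  let ι' : Type := {i : ι // i ∈ S}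
  have h := hole_ring_full (p := p) hp0 hpn a h0 h01 (ι := ι') (fun i => I (T.H i.1))
    (fun i => isOpen_I _) (d := fun i => d i.1) (fun i => hd0 _ i.2)
    (fun i x hx y hy => hd i.1 i.2 x (I_sub_P _ hx) y (I_sub_P _ hy)) (by
      have h1 : (ball a R1 \ closedBall a R0) \ ⋃ i : ι', I (T.H i.1) ⊆
          ⋃ i : ι', (P (T.H i.1) \ I (T.H i.1)) := by
        rintro x ⟨hx, hx2⟩
        obtain ⟨i, hi⟩ := T.cov x (hsub (ball_subset_closedBall hx.1))
        have hiS : i ∈ S := hS i ⟨x, hi, hx⟩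
        refine mem_iUnion.2 ⟨⟨i, hiS⟩, hi, fun h => hx2 (mem_iUnion.2 ⟨⟨i, hiS⟩, h⟩)⟩
      refine measure_mono_null h1 ?_
      rw [measure_iUnion_null_iff]
      intro i
      exact Crest.Agent.R096.Ea_713.null_diff volume (T.ne i.1))
    (μ := fun i => μ i.1) (fun i => hμ _ i.2) hg (fun i x hx hx1 hx2 => hL i.1 i.2 x hx hx1 hx2)
    hε
  have hsum : ∑ i : ι', d i.1 ^ n * μ i.1 ^ p = ∑ i ∈ S, d i ^ n * μ i ^ p :=
    (Finset.sum_subtype S (fun i => Iff.rfl) (fun i => d i ^ n * μ i ^ p)).symm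
  rw [hsum] at h
  exact h

end Crest.Agent.R96.Hole_348
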