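import Crest.Agent.R96.Nu5_199

/-!
Row 96, helper931: the constants `Kn`, `C𝒦` of 199 are monotone in `K₀`, `A`, `ε` and antitone in the
squeezing numbers `b n` (so for `1/4 ≤ b n < 1/2` they are bounded by their values at `b = 1/4`).
-/

set_option autoImplicit false

namespace Crest.Agent.R96.Nub_931

open Crest.Agent.R96.Nu1_199 Crest.Agent.R96.Nu5_199

/-- monotonicity of the constants of the recursion -/
theorem Kn_mono {K₀ K₀' A A' ε ε' : ℝ} {b b' : ℕ → ℝ} (hK : 0 ≤ K₀) (hKK : K₀ ≤ K₀') (hA : 0 ≤ A)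
    (hAA : A ≤ A') (hε : ε ≤ ε') (hε1 : ε' < 1) (hb' : ∀ n, 0 < b' n) (hbb : ∀ n, b' n ≤ b n) :
    ∀ n, Kn K₀ A ε b n ≤ Kn K₀' A' ε' b' n
  | 0 => hKK
  | n + 1 => by
    have ih := Kn_mono hK hKK hA hAA hε hε1 hb' hbb n
    have hb : ∀ n, 0 < b n := fun n => (hb' n).trans_le (hbb n)
    have h0 := Kn_nonneg (A := A) (ε := ε) hK hb n
    have h1 : 0 < 2 * b' n := by have := hb' n; linarith
    have h2 : 2 * b' n ≤ 2 * b n := by have := hbb n; linarith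
    rw [Kn_succ, Kn_succ]
    refine max_le_max ?_ (max_le_max ?_ ?_)
    · exact div_le_div₀ (h0.trans ih) ih h1 h2
    · exact div_le_div₀ (hA.trans hAA) hAA (by linarith) (by linarith)
    · refine mul_le_mul ?_ (max_le_max ih le_rfl) (by positivity) ?_
      · exact div_le_div₀ (by nlinarith) (by nlinarith) h1 h2
      · have : 0 ≤ A' := hA.trans hAA
        positivity

/-- the constant of a configuration is bounded by its value at smaller squeezing numbers -/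
theorem C𝒦_mono {E : Type*} [NormedAddCommGroup E] [NormedSpace ℝ E] [FiniteDimensional ℝ E] {K₀ K₀' ε ε' : ℝ}
    {b b' : ℕ → ℝ} (hK : 0 ≤ K₀) (hKK : K₀ ≤ K₀') (hε : ε ≤ ε') (hε1 : ε' < 1)
    (hb' : ∀ n, 0 < b' n) (hbb : ∀ n, b' n ≤ b n) (m : ℕ) (𝒦 : Set (Set E)) :
    C𝒦 K₀ ε b m 𝒦 ≤ C𝒦 K₀' ε' b' m 𝒦 := by
  have h1 := A𝒦_pos m 𝒦
  unfold C𝒦
  refine mul_le_mul_of_nonneg_right (Kn_mono hK hKK zero_le_one le_rfl hε hε1 hb' hbb _) ?_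
  positivity

/-- `b n → 1/2` does not change the constants: for `1/4 ≤ b n` they are at most the value at the
constant sequence `1/4` -/
theorem C𝒦_le_quarter {E : Type*} [NormedAddCommGroup E] [NormedSpace ℝ E] [FiniteDimensional ℝ E] {K₀ ε : ℝ}
    {b : ℕ → ℝ} (hK : 0 ≤ K₀) (hε1 : ε < 1) (hb : ∀ n, 1 / 4 ≤ b n) (m : ℕ) (𝒦 : Set (Set E)) :
    C𝒦 K₀ ε b m 𝒦 ≤ C𝒦 K₀ ε (fun _ => 1 / 4) m 𝒦 :=
  C𝒦_mono hK le_rfl le_rfl hε1 (fun _ => by norm_num) hb m 𝒦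

theorem Kn_le_quarter {K₀ A ε : ℝ} {b : ℕ → ℝ} (hK : 0 ≤ K₀) (hA : 0 ≤ A) (hε1 : ε < 1)
    (hb : ∀ n, 1 / 4 ≤ b n) (n : ℕ) : Kn K₀ A ε b n ≤ Kn K₀ A ε (fun _ => 1 / 4) n :=
  Kn_mono hK le_rfl hA le_rfl le_rfl hε1 (fun _ => by norm_num) hb n

end Crest.Agent.R96.Nub_931
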