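import Mathlib

/-!
# Row 96, P6-PURE (helper392): pure edges, the line lemma (861 #7252 (2), 543 #7215 (1))

`W k a` = (normalised) number of crossings of the `k`-th edge of a line with the family `a`,
`w k` = bound for `∑ a, W k a` (`∫_e |D_e F|_1`), `t` = the target value of the pure family `j`.
If the label of the family `j` changes along the line by at least `N t - D`, then
`∑_k ∑_a |W k a - t δ_{a j}| ≤ 3 ∑_k |w k - t| + 2 D`, and an `L^p` version. Then: nearly pure cells.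
-/

set_option autoImplicit false

open Finset

namespace Crest.Agent.R96.Pur_392

set_option linter.unusedSectionVars false

variable {ι κ : Type*} [Fintype ι] [DecidableEq ι]

theorem real_add_rpow {x y p : ℝ} (hx : 0 ≤ x) (hy : 0 ≤ y) (hp : 1 ≤ p) :
    (x + y) ^ p ≤ 2 ^ (p - 1) * (x ^ p + y ^ p) := by
  lift x to NNReal using hx
  lift y to NNReal using hy
  exact_mod_cast NNReal.rpow_add_le_mul_rpow_add_rpow x y hp

/-- target value of the family `a` when the family `j` is the pure one -/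
def tg (j : ι) (t : ℝ) (a : ι) : ℝ := if a = j then t else 0

theorem tg_nonneg {j : ι} {t : ℝ} (ht : 0 ≤ t) (a : ι) : 0 ≤ tg j t a := by
  unfold tg; split_ifs <;> simp [ht]

theorem sum_tg (j : ι) (t : ℝ) : ∑ a, tg j t a = t := by
  simp [tg]

/-- deviation from purity of an edge -/
def dev (j : ι) (t : ℝ) (W : ι → ℝ) : ℝ := ∑ a, |W a - tg j t a|

theorem dev_nonneg (j : ι) (t : ℝ) (W : ι → ℝ) : 0 ≤ dev j t W :=
  sum_nonneg fun _ _ => abs_nonneg _

/-- one edge: only the pure family can have a defect -/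
theorem dev_le {j : ι} {t : ℝ} {W : ι → ℝ} {w : ℝ} (hW : ∀ a, 0 ≤ W a)
    (hsum : ∑ a, W a ≤ w) : dev j t W ≤ (w - t) + 2 * max (t - W j) 0 := by
  have h1 : ∀ a, |W a - tg j t a| ≤ (W a - tg j t a) + (if a = j then 2 * max (t - W j) 0 else 0) := by
    intro a
    by_cases haj : a = j
    · subst haj
      simp only [tg, if_true]
      rcases le_total (W a) t with h | h
      · rw [abs_of_nonpos (by linarith), max_eq_left (by linarith)]; linarith
      · rw [abs_of_nonneg (by linarith), max_eq_right (by linarith)]; linarith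
    · simp [tg, haj, abs_of_nonneg (hW a)]
  calc dev j t W ≤ ∑ a, ((W a - tg j t a) + (if a = j then 2 * max (t - W j) 0 else 0)) :=
        sum_le_sum fun a _ => h1 a
    _ = (∑ a, W a - t) + 2 * max (t - W j) 0 := by
        rw [sum_add_distrib, sum_sub_distrib, sum_tg]; simp
    _ ≤ _ := by linarith

/-- the defects of the pure family along a line -/
theorem defect_le {j : ι} {t D : ℝ} {s : Finset κ} {W : κ → ι → ℝ} {w : κ → ℝ}
    (hW : ∀ k ∈ s, ∀ a, 0 ≤ W k a) (hsum : ∀ k ∈ s, ∑ a, W k a ≤ w k)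
    (hD : (s.card : ℝ) * t - D ≤ ∑ k ∈ s, W k j) :
    ∑ k ∈ s, max (t - W k j) 0 ≤ ∑ k ∈ s, max (w k - t) 0 + D := by
  have h1 : ∀ k ∈ s, max (t - W k j) 0 ≤ (t - W k j) + max (w k - t) 0 := by
    intro k hk
    have hWj : W k j ≤ w k :=
      (single_le_sum (f := fun a => W k a) (fun a _ => hW k hk a) (mem_univ j)).trans (hsum k hk)
    rcases le_total (t - W k j) 0 with h | h
    · rw [max_eq_right h]
      have := le_max_left (w k - t) 0
      linarith
    · rw [max_eq_left h]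
      have := le_max_right (w k - t) 0
      linarith
  calc ∑ k ∈ s, max (t - W k j) 0 ≤ ∑ k ∈ s, ((t - W k j) + max (w k - t) 0) := sum_le_sum h1
    _ = (s.card : ℝ) * t - ∑ k ∈ s, W k j + ∑ k ∈ s, max (w k - t) 0 := by
        rw [sum_add_distrib, sum_sub_distrib]; simp
    _ ≤ _ := by linarith

/-- **line lemma**, `L¹` -/
theorem line_pure {j : ι} {t D : ℝ} {s : Finset κ} {W : κ → ι → ℝ} {w : κ → ℝ}
    (hW : ∀ k ∈ s, ∀ a, 0 ≤ W k a) (hsum : ∀ k ∈ s, ∑ a, W k a ≤ w k)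
    (hD : (s.card : ℝ) * t - D ≤ ∑ k ∈ s, W k j) :
    ∑ k ∈ s, dev j t (W k) ≤ 3 * ∑ k ∈ s, |w k - t| + 2 * D := by
  have h1 := defect_le hW hsum hD
  have h2 : ∑ k ∈ s, max (w k - t) 0 ≤ ∑ k ∈ s, |w k - t| :=
    sum_le_sum fun k _ => max_le (le_abs_self _) (abs_nonneg _)
  have h3 : ∑ k ∈ s, dev j t (W k) ≤ ∑ k ∈ s, ((w k - t) + 2 * max (t - W k j) 0) :=
    sum_le_sum fun k hk => dev_le (hW k hk) (hsum k hk)
  have h4 : ∑ k ∈ s, (w k - t) ≤ ∑ k ∈ s, |w k - t| := sum_le_sum fun k _ => le_abs_self _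
  rw [sum_add_distrib, ← mul_sum] at h3
  linarith

/-- one edge, `p`-th power -/
theorem dev_rpow_le {j : ι} {t p : ℝ} (hp : 1 ≤ p) (ht : 0 ≤ t) {W : ι → ℝ} {w : ℝ}
    (hW : ∀ a, 0 ≤ W a) (hsum : ∑ a, W a ≤ w) :
    dev j t W ^ p ≤ 2 ^ (p - 1) * |w - t| ^ p + 2 ^ (2 * p - 1) * (t ^ (p - 1) * max (t - W j) 0) := by
  have h0 : 0 ≤ max (t - W j) 0 := le_max_right _ _
  have h1 : dev j t W ≤ |w - t| + 2 * max (t - W j) 0 :=
    (dev_le (t := t) (j := j) hW hsum).trans (by gcongr; exact le_abs_self _)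
  have h2 : dev j t W ^ p ≤ (|w - t| + 2 * max (t - W j) 0) ^ p :=
    Real.rpow_le_rpow (dev_nonneg _ _ _) h1 (by linarith)
  have h3 : (|w - t| + 2 * max (t - W j) 0) ^ p ≤
      2 ^ (p - 1) * (|w - t| ^ p + (2 * max (t - W j) 0) ^ p) :=
    real_add_rpow (abs_nonneg _) (by positivity) hp
  have h4 : (2 * max (t - W j) 0) ^ p ≤ 2 ^ p * (t ^ (p - 1) * max (t - W j) 0) := by
    rw [Real.mul_rpow (by norm_num) h0]
    gcongr
    rcases h0.eq_or_lt with h | h
    · rw [← h, Real.zero_rpow (by linarith)]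
      simp
    · have : max (t - W j) 0 ^ p = max (t - W j) 0 ^ (p - 1) * max (t - W j) 0 := by
        conv_lhs => rw [show p = (p - 1) + 1 by ring, Real.rpow_add h, Real.rpow_one]
      rw [this]
      have h5 : max (t - W j) 0 ≤ t := max_le (by have := hW j; linarith) ht
      exact mul_le_mul_of_nonneg_right (Real.rpow_le_rpow h0 h5 (by linarith)) h0
  have h6 : (2 : ℝ) ^ (2 * p - 1) = 2 ^ (p - 1) * 2 ^ p := by
    rw [← Real.rpow_add (by norm_num)]; congr 1; ring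
  calc dev j t W ^ p ≤ 2 ^ (p - 1) * (|w - t| ^ p + (2 * max (t - W j) 0) ^ p) := h2.trans h3
    _ ≤ 2 ^ (p - 1) * (|w - t| ^ p + 2 ^ p * (t ^ (p - 1) * max (t - W j) 0)) := by gcongr
    _ = _ := by rw [h6]; ring

/-- **line lemma**, `L^p` -/
theorem line_pure_rpow {j : ι} {t D p : ℝ} (hp : 1 ≤ p) (ht : 0 ≤ t) {s : Finset κ}
    {W : κ → ι → ℝ} {w : κ → ℝ}
    (hW : ∀ k ∈ s, ∀ a, 0 ≤ W k a) (hsum : ∀ k ∈ s, ∑ a, W k a ≤ w k)
    (hD : (s.card : ℝ) * t - D ≤ ∑ k ∈ s, W k j) :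
    ∑ k ∈ s, dev j t (W k) ^ p ≤ 2 ^ (p - 1) * ∑ k ∈ s, |w k - t| ^ p +
      2 ^ (2 * p - 1) * (t ^ (p - 1) * (∑ k ∈ s, |w k - t| + D)) := by
  have h1 := defect_le hW hsum hD
  have h2 : ∑ k ∈ s, max (w k - t) 0 ≤ ∑ k ∈ s, |w k - t| :=
    sum_le_sum fun k _ => max_le (le_abs_self _) (abs_nonneg _)
  have ht' : 0 ≤ t ^ (p - 1) := Real.rpow_nonneg ht _
  calc ∑ k ∈ s, dev j t (W k) ^ p
      ≤ ∑ k ∈ s, (2 ^ (p - 1) * |w k - t| ^ p +
          2 ^ (2 * p - 1) * (t ^ (p - 1) * max (t - W k j) 0)) :=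
        sum_le_sum fun k hk => dev_rpow_le hp ht (hW k hk) (hsum k hk)
    _ = 2 ^ (p - 1) * ∑ k ∈ s, |w k - t| ^ p +
          2 ^ (2 * p - 1) * (t ^ (p - 1) * ∑ k ∈ s, max (t - W k j) 0) := by
        rw [sum_add_distrib, mul_sum, mul_sum, mul_sum]
    _ ≤ _ := by gcongr; exact h1.trans (by linarith)

/-- edges in a direction without image: no family crosses them much -/
theorem sum_zero_rpow {p : ℝ} (hp : 1 ≤ p) {s : Finset κ} {W : κ → ι → ℝ} {w : κ → ℝ}
    (hW : ∀ k ∈ s, ∀ a, 0 ≤ W k a) (hsum : ∀ k ∈ s, ∑ a, W k a ≤ w k) :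
    ∑ k ∈ s, (∑ a, W k a) ^ p ≤ ∑ k ∈ s, |w k| ^ p :=
  sum_le_sum fun k hk => Real.rpow_le_rpow (sum_nonneg fun a _ => hW k hk a)
    ((hsum k hk).trans (le_abs_self _)) (by linarith)

end Crest.Agent.R96.Pur_392
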