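import Crest.Agent.R96.Pur1_392
import Crest.Agent.R96.Bulk1_348

/-!
# Row 96, P6-PURE (helper392): pure edges on a block of the mesh (348's block format)

Data on the block `V n M` (direction `i`): crossing numbers `W p a` of the edge `p → p + e_i` with the
family `a`, `∑ a, W p a ≤ w p`; a label function `g` of the pure family `j` with
`|g (p + e_i) - g p| ≤ W p j`, close to `f` off the bad vertices `B`, and `f (p+e_i) - f p ≥ t - x p`.
Then `∑_p dev^q` is small (`block_pure`); cells: `card_bad`, `sum_bad`.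
-/

set_option autoImplicit false
set_option linter.unusedSectionVars false

open Finset

namespace Crest.Agent.R96.Pur_392

open Crest.Agent.R96.Bulk_348

variable {ι : Type*} [Fintype ι] [DecidableEq ι]

/-- the label of the pure family changes enough along the line -/
theorem line_D {M : ℕ} {t ε : ℝ} (ht : 0 ≤ t) (hε : 0 ≤ ε) {g f W x : ℕ → ℝ} {B : Finset ℕ}
    (hW0 : ∀ k < M, 0 ≤ W k) (hx : ∀ k < M, 0 ≤ x k)
    (hg : ∀ k < M, g (k + 1) - g k ≤ W k)
    (hclose : ∀ k ≤ M, k ∉ B → |g k - f k| ≤ ε)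
    (hf : ∀ k < M, t - x k ≤ f (k + 1) - f k) :
    (M : ℝ) * t - (∑ k ∈ range M, x k + 2 * ε + t * ((range (M + 1)).filter (· ∈ B)).card) ≤
      ∑ k ∈ range M, W k := by
  classical
  have hWs : 0 ≤ ∑ k ∈ range M, W k := sum_nonneg fun k hk => hW0 k (mem_range.1 hk)
  have hxs : 0 ≤ ∑ k ∈ range M, x k := sum_nonneg fun k hk => hx k (mem_range.1 hk)
  set S := (range (M + 1)).filter (· ∉ B) with hS
  rcases S.eq_empty_or_nonempty with hemp | hne
  · -- all vertices are bad
    have hall : (range (M + 1)).filter (· ∈ B) = range (M + 1) := by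
      rw [filter_eq_self]
      intro k hk
      by_contra hkB
      have : k ∈ S := by simp only [hS, mem_filter]; exact ⟨hk, hkB⟩
      rw [hemp] at this
      exact absurd this (notMem_empty k)
    rw [hall, card_range]
    push_cast
    nlinarith
  · set u := S.min' hne with hu
    set v := S.max' hne with hv
    have huS : u ∈ S := min'_mem _ _
    have hvS : v ∈ S := max'_mem _ _
    have huv : u ≤ v := min'_le _ _ hvS
    have hvM : v ≤ M := by
      have := (mem_filter.1 hvS).1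
      rw [mem_range] at this; omega
    have huB : u ∉ B := (mem_filter.1 huS).2
    have hvB : v ∉ B := (mem_filter.1 hvS).2
    -- label change
    have h1 : g v - g u ≤ ∑ k ∈ Ico u v, W k := by
      rw [← Finset.sum_Ico_sub g huv]
      exact sum_le_sum fun k hk => hg k (by rw [mem_Ico] at hk; omega)
    have h2 : ∑ k ∈ Ico u v, (t - x k) ≤ f v - f u := by
      rw [← Finset.sum_Ico_sub f huv]
      exact sum_le_sum fun k hk => hf k (by rw [mem_Ico] at hk; omega)
    have h3 := hclose v hvM hvB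
    have h4 := hclose u (huv.trans hvM) huB
    rw [abs_le] at h3 h4
    have hsub : Ico u v ⊆ range M := by
      intro k hk; rw [mem_Ico] at hk; rw [mem_range]; omega
    have h5 : ∑ k ∈ Ico u v, W k ≤ ∑ k ∈ range M, W k :=
      sum_le_sum_of_subset_of_nonneg hsub fun k hk _ => hW0 k (mem_range.1 hk)
    have h6 : ∑ k ∈ Ico u v, x k ≤ ∑ k ∈ range M, x k :=
      sum_le_sum_of_subset_of_nonneg hsub fun k hk _ => hx k (mem_range.1 hk)
    rw [sum_sub_distrib, sum_const, Nat.card_Ico, nsmul_eq_mul] at h2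
    -- the count
    have h7 : (M - (v - u) : ℕ) ≤ ((range (M + 1)).filter (· ∈ B)).card := by
      have hsub2 : range (M + 1) \ Icc u v ⊆ (range (M + 1)).filter (· ∈ B) := by
        intro k hk
        rw [mem_sdiff, mem_Icc] at hk
        rw [mem_filter]
        refine ⟨hk.1, ?_⟩
        by_contra hkB
        have hkS : k ∈ S := by simp only [hS, mem_filter]; exact ⟨hk.1, hkB⟩
        exact hk.2 ⟨min'_le _ _ hkS, le_max' _ _ hkS⟩
      have h8 := card_le_card hsub2
      have h9 : Icc u v ⊆ range (M + 1) := by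
        intro k hk; rw [mem_Icc] at hk; rw [mem_range]; omega
      rw [card_sdiff_of_subset h9, card_range, Nat.card_Icc] at h8
      omega
    have h10 : (M : ℝ) - (v - u : ℕ) ≤ ((range (M + 1)).filter (· ∈ B)).card := by
      have : (M : ℝ) ≤ ((v - u : ℕ) : ℝ) + ((range (M + 1)).filter (· ∈ B)).card := by
        exact_mod_cast (by omega : M ≤ (v - u) + ((range (M + 1)).filter (· ∈ B)).card)
      linarith
    have h11 := mul_le_mul_of_nonneg_left h10 ht
    have h12 : t * ((M : ℝ) - (v - u : ℕ)) = M * t - (v - u : ℕ) * t := by ring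
    rw [h12] at h11
    linarith

variable {n M : ℕ}

/-- the number of bad vertices on the line through `h` -/
noncomputable def nb (B : Finset (V n M)) (i : Fin n) (h : V n M) : ℝ :=
  ∑ t : Fin (M + 1), if Function.update h i t ∈ B then (1 : ℝ) else 0

theorem sum_update (F : V n M → ℝ) (i : Fin n) :
    ∑ h : V n M, ∑ t : Fin (M + 1), F (Function.update h i t) = ((M : ℝ) + 1) * ∑ p, F p := by
  let e : V n M × Fin (M + 1) ≃ V n M × Fin (M + 1) :=
    { toFun := fun p => (Function.update p.1 i p.2, p.1 i)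
      invFun := fun p => (Function.update p.1 i p.2, p.1 i)
      left_inv := fun p => by
        ext <;> simp
      right_inv := fun p => by
        ext <;> simp }
  have h2 : ∑ h : V n M, ∑ t : Fin (M + 1), F (Function.update h i t) =
      ∑ p : V n M × Fin (M + 1), (fun q : V n M × Fin (M + 1) => F q.1) (e p) := by
    rw [Fintype.sum_prod_type]
    exact sum_congr rfl fun h _ => sum_congr rfl fun t _ => rfl
  rw [h2, Equiv.sum_comp e (fun q : V n M × Fin (M + 1) => F q.1), Fintype.sum_prod_type]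
  simp only [sum_const, card_univ, Fintype.card_fin, nsmul_eq_mul]
  rw [← mul_sum]
  push_cast
  ring

theorem sum_nb (B : Finset (V n M)) (i : Fin n) :
    ∑ h : V n M, nb B i h = ((M : ℝ) + 1) * B.card := by
  unfold nb
  rw [sum_update (fun p => if p ∈ B then (1 : ℝ) else 0) i]
  simp

/-- sum of a function over the edges of direction `i` -/
noncomputable def es (i : Fin n) (F : V n M → ℝ) : ℝ := ∑ p : V n M, if (p i : ℕ) < M then F p else 0

theorem sum_line' (F : V n M → ℝ) (i : Fin n) :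
    ∑ h : V n M, ∑ t : Fin M, F (Function.update h i t.castSucc) = ((M : ℝ) + 1) * es i F := by
  have := sum_line (fun _ => F) i
  simpa [line, es] using this

theorem es_mono {i : Fin n} {F F' : V n M → ℝ} (h : ∀ p, (p i : ℕ) < M → F p ≤ F' p) :
    es i F ≤ es i F' := by
  unfold es
  refine sum_le_sum fun p _ => ?_
  split_ifs with hp
  · exact h p hp
  · exact le_rfl

/-- **pure edges on a block** -/
theorem block_pure {i : Fin n} {j : ι} {t ε q : ℝ} (hq : 1 ≤ q) (ht : 0 ≤ t) (hε : 0 ≤ ε)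
    {W : V n M → ι → ℝ} {w x g f : V n M → ℝ} {B : Finset (V n M)}
    (hW : ∀ p, (p i : ℕ) < M → ∀ a, 0 ≤ W p a)
    (hsum : ∀ p, (p i : ℕ) < M → ∑ a, W p a ≤ w p)
    (hx : ∀ p, (p i : ℕ) < M → 0 ≤ x p)
    (hg : ∀ (p : V n M) (k : Fin M),
      g (Function.update p i k.succ) - g (Function.update p i k.castSucc) ≤
        W (Function.update p i k.castSucc) j)
    (hclose : ∀ p, p ∉ B → |g p - f p| ≤ ε)
    (hf : ∀ (p : V n M) (k : Fin M), t - x (Function.update p i k.castSucc) ≤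
      f (Function.update p i k.succ) - f (Function.update p i k.castSucc)) :
    es i (fun p => dev j t (W p) ^ q) ≤
      2 ^ (q - 1) * es i (fun p => |w p - t| ^ q) +
      2 ^ (2 * q - 1) * (t ^ (q - 1) * (es i (fun p => |w p - t|) + es i x +
        2 * ε * ((M : ℝ) + 1) ^ n / ((M : ℝ) + 1) + t * B.card)) := by
  classical
  have hM1 : (0 : ℝ) < (M : ℝ) + 1 := by positivity
  -- one line
  have hline : ∀ h : V n M,
      ∑ k : Fin M, dev j t (W (Function.update h i k.castSucc)) ^ q ≤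
        2 ^ (q - 1) * ∑ k : Fin M, |w (Function.update h i k.castSucc) - t| ^ q +
        2 ^ (2 * q - 1) * (t ^ (q - 1) * (∑ k : Fin M, |w (Function.update h i k.castSucc) - t| +
          (∑ k : Fin M, x (Function.update h i k.castSucc) + 2 * ε + t * nb B i h))) := by
    intro h
    have hlt : ∀ k : Fin M, ((Function.update h i k.castSucc : V n M) i : ℕ) < M := by
      intro k; simp
    refine line_pure_rpow (s := (univ : Finset (Fin M))) hq ht
      (W := fun k => W (Function.update h i k.castSucc))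
      (w := fun k => w (Function.update h i k.castSucc))
      (fun k _ a => hW _ (hlt k) a) (fun k _ => hsum _ (hlt k)) ?_
    -- transfer to ℕ
    let φ : ℕ → V n M := fun s => Function.update h i (Fin.ofNat (M + 1) s)
    have hφ1 : ∀ k : Fin M, φ k = Function.update h i k.castSucc := by
      intro k
      simp only [φ]
      congr 1
      ext
      simp only [Fin.ofNat, Fin.val_castSucc]
      exact Nat.mod_eq_of_lt (by omega)
    have hφ2 : ∀ k : Fin M, φ (k + 1) = Function.update h i k.succ := by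
      intro k
      simp only [φ]
      congr 1
      ext
      simp only [Fin.ofNat, Fin.val_succ]
      exact Nat.mod_eq_of_lt (by omega)
    have hφi : ∀ k < M, ((φ k) i : ℕ) < M := by
      intro k hk
      have := hφ1 ⟨k, hk⟩
      simp only at this
      rw [this]
      simp [hk]
    have key := line_D (M := M) (t := t) (ε := ε) ht hε (g := fun k => g (φ k)) (f := fun k => f (φ k))
      (W := fun k => W (φ k) j) (x := fun k => x (φ k))
      (B := (range (M + 1)).filter (fun k => φ k ∈ B))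
      (fun k hk => hW _ (hφi k hk) j) (fun k hk => hx _ (hφi k hk))
      (fun k hk => by
        have := hg h ⟨k, hk⟩
        rw [← hφ1 ⟨k, hk⟩, ← hφ2 ⟨k, hk⟩] at this
        exact this)
      (fun k hk hkB => by
        apply hclose
        intro hB
        apply hkB
        rw [mem_filter, mem_range]
        exact ⟨by omega, hB⟩)
      (fun k hk => by
        have := hf h ⟨k, hk⟩
        rw [← hφ1 ⟨k, hk⟩, ← hφ2 ⟨k, hk⟩] at this
        exact this)
    rw [Finset.sum_range, Finset.sum_range] at key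
    simp only [hφ1] at key
    have hcard : (((range (M + 1)).filter
        (· ∈ (range (M + 1)).filter (fun k => φ k ∈ B))).card : ℝ) = nb B i h := by
      unfold nb
      rw [card_eq_sum_ones, sum_filter, sum_range]
      push_cast
      refine sum_congr rfl fun k _ => ?_
      have h1 : φ k = Function.update h i k := by
        simp only [φ]; congr 1; ext; simp only [Fin.ofNat]
        exact Nat.mod_eq_of_lt k.2
      by_cases hkB : Function.update h i k ∈ B
      · rw [if_pos (by rw [mem_filter, h1]; exact ⟨mem_range.2 k.2, hkB⟩), if_pos hkB]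
      · rw [if_neg (by rw [mem_filter, h1]; exact fun h => hkB h.2), if_neg hkB]
    rw [hcard] at key
    simpa [card_univ] using key
  -- sum over all lines
  have hs := sum_le_sum (s := (univ : Finset (V n M))) fun h _ => hline h
  rw [sum_line' (fun p => dev j t (W p) ^ q) i] at hs
  simp only [sum_add_distrib, ← mul_sum] at hs
  rw [sum_line' (fun p => |w p - t| ^ q) i, sum_line' (fun p => |w p - t|) i,
    sum_line' x i, sum_nb, sum_const, card_univ, card_V, nsmul_eq_mul] at hs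
  push_cast at hs
  have h1 : ((M : ℝ) + 1) * es i (fun p => dev j t (W p) ^ q) ≤ ((M : ℝ) + 1) *
      (2 ^ (q - 1) * es i (fun p => |w p - t| ^ q) +
      2 ^ (2 * q - 1) * (t ^ (q - 1) * (es i (fun p => |w p - t|) + es i x +
        2 * ε * ((M : ℝ) + 1) ^ n / ((M : ℝ) + 1) + t * B.card))) := by
    refine hs.trans (le_of_eq ?_)
    have h2 : 2 * ε * ((M : ℝ) + 1) ^ n / ((M : ℝ) + 1) * ((M : ℝ) + 1) =
        2 * (((M : ℝ) + 1) ^ n * ε) := by
      rw [div_mul_cancel₀ _ hM1.ne']; ring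
    linear_combination (2 ^ (2 * q - 1) * t ^ (q - 1)) * (-h2)
  exact le_of_mul_le_mul_left h1 hM1

/-! ### cells -/

section cells

variable {Q E : Type*} [DecidableEq E]

/-- each edge lies in at most `m` cells -/
theorem sum_cells {cs : Finset Q} {ed : Q → Finset E} {es : Finset E} {m : ℕ}
    (hed : ∀ c ∈ cs, ed c ⊆ es) (hmult : ∀ e ∈ es, (cs.filter (e ∈ ed ·)).card ≤ m)
    {F : E → ℝ} (h0 : ∀ e ∈ es, 0 ≤ F e) :
    ∑ c ∈ cs, ∑ e ∈ ed c, F e ≤ m * ∑ e ∈ es, F e := by
  classical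
  have h1 : ∑ c ∈ cs, ∑ e ∈ ed c, F e = ∑ e ∈ es, ∑ c ∈ cs.filter (e ∈ ed ·), F e := by
    refine sum_comm' fun c e => ?_
    rw [mem_filter]
    exact ⟨fun h => ⟨⟨h.1, h.2⟩, hed c h.1 h.2⟩, fun h => ⟨h.1.1, h.1.2⟩⟩
  rw [h1, mul_sum]
  refine sum_le_sum fun e he => ?_
  rw [sum_const, nsmul_eq_mul]
  exact mul_le_mul_of_nonneg_right (by exact_mod_cast hmult e he) (h0 e he)

/-- number of cells with an edge of large deviation -/
theorem card_bad {cs : Finset Q} {ed : Q → Finset E} {es : Finset E} {m : ℕ}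
    (hed : ∀ c ∈ cs, ed c ⊆ es) (hmult : ∀ e ∈ es, (cs.filter (e ∈ ed ·)).card ≤ m)
    {dv : E → ℝ} (h0 : ∀ e ∈ es, 0 ≤ dv e) {η q : ℝ} (hη : 0 ≤ η) (hq : 0 ≤ q)
    [DecidablePred fun c => ∃ e ∈ ed c, η < dv e] :
    ((cs.filter fun c => ∃ e ∈ ed c, η < dv e).card : ℝ) * η ^ q ≤
      m * ∑ e ∈ es, dv e ^ q := by
  classical
  have h1 : ∀ c ∈ cs.filter (fun c => ∃ e ∈ ed c, η < dv e), η ^ q ≤ ∑ e ∈ ed c, dv e ^ q := by
    intro c hc
    rw [mem_filter] at hc
    obtain ⟨e, he, hlt⟩ := hc.2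
    calc η ^ q ≤ dv e ^ q := Real.rpow_le_rpow hη hlt.le hq
      _ ≤ ∑ e ∈ ed c, dv e ^ q := single_le_sum (f := fun e => dv e ^ q)
          (fun e he => Real.rpow_nonneg (h0 e (hed c hc.1 he)) _) he
  have h2 : ∑ c ∈ cs, ∑ e ∈ ed c, dv e ^ q ≤ m * ∑ e ∈ es, dv e ^ q := sum_cells hed hmult
    fun e he => Real.rpow_nonneg (h0 e he) _
  calc ((cs.filter fun c => ∃ e ∈ ed c, η < dv e).card : ℝ) * η ^ q
      = ∑ c ∈ cs.filter (fun c => ∃ e ∈ ed c, η < dv e), η ^ q := by
        rw [sum_const, nsmul_eq_mul]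
    _ ≤ ∑ c ∈ cs.filter (fun c => ∃ e ∈ ed c, η < dv e), ∑ e ∈ ed c, dv e ^ q := sum_le_sum h1
    _ ≤ ∑ c ∈ cs, ∑ e ∈ ed c, dv e ^ q :=
        sum_le_sum_of_subset_of_nonneg (filter_subset _ _) fun c hc _ =>
          sum_nonneg fun e he => Real.rpow_nonneg (h0 e (hed c hc he)) _
    _ ≤ _ := h2

/-- energy of the bad cells: `w e ≤ dv e + τ` on every edge -/
theorem sum_bad {cs : Finset Q} {ed : Q → Finset E} {es : Finset E} {m k : ℕ}
    (hed : ∀ c ∈ cs, ed c ⊆ es) (hmult : ∀ e ∈ es, (cs.filter (e ∈ ed ·)).card ≤ m)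
    (hk : ∀ c ∈ cs, (ed c).card ≤ k)
    {dv w : E → ℝ} (h0 : ∀ e ∈ es, 0 ≤ dv e) (hw : ∀ e ∈ es, 0 ≤ w e) {τ η q : ℝ} (hτ : 0 ≤ τ)
    (hwd : ∀ e ∈ es, w e ≤ dv e + τ) (hη : 0 < η) (hq : 1 ≤ q)
    [DecidablePred fun c => ∃ e ∈ ed c, η < dv e] :
    ∑ c ∈ cs.filter (fun c => ∃ e ∈ ed c, η < dv e), (∑ e ∈ ed c, w e) ^ q ≤
      (k : ℝ) ^ (q - 1) * 2 ^ (q - 1) * m * (1 + k * (τ / η) ^ q) * ∑ e ∈ es, dv e ^ q := by
  classical
  have hq0 : 0 ≤ q - 1 := by linarith
  have hS : 0 ≤ ∑ e ∈ es, dv e ^ q := sum_nonneg fun e he => Real.rpow_nonneg (h0 e he) _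
  have h1 : ∀ c ∈ cs, (∑ e ∈ ed c, w e) ^ q ≤
      (k : ℝ) ^ (q - 1) * 2 ^ (q - 1) * (∑ e ∈ ed c, dv e ^ q + k * τ ^ q) := by
    intro c hc
    have h2 : (∑ e ∈ ed c, w e) ^ q ≤ ((ed c).card : ℝ) ^ (q - 1) * ∑ e ∈ ed c, w e ^ q := by
      have := Real.rpow_sum_le_const_mul_sum_rpow_of_nonneg (ed c) (f := w) hq
        (fun e he => hw e (hed c hc he))
      exact this
    have h3 : ∑ e ∈ ed c, w e ^ q ≤ 2 ^ (q - 1) * (∑ e ∈ ed c, dv e ^ q + k * τ ^ q) := by
      calc ∑ e ∈ ed c, w e ^ q ≤ ∑ e ∈ ed c, 2 ^ (q - 1) * (dv e ^ q + τ ^ q) := by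
            refine sum_le_sum fun e he => ?_
            exact (Real.rpow_le_rpow (hw e (hed c hc he)) (hwd e (hed c hc he)) (by linarith)).trans
              (real_add_rpow (h0 e (hed c hc he)) hτ hq)
        _ = 2 ^ (q - 1) * (∑ e ∈ ed c, dv e ^ q + (ed c).card * τ ^ q) := by
            rw [← mul_sum, sum_add_distrib, sum_const, nsmul_eq_mul]
        _ ≤ _ := by
            have : ((ed c).card : ℝ) ≤ k := by exact_mod_cast hk c hc
            gcongr
    have h4 : ((ed c).card : ℝ) ^ (q - 1) ≤ (k : ℝ) ^ (q - 1) :=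
      Real.rpow_le_rpow (by positivity) (by exact_mod_cast hk c hc) hq0
    have h5 : 0 ≤ ∑ e ∈ ed c, w e ^ q :=
      sum_nonneg fun e he => Real.rpow_nonneg (hw e (hed c hc he)) _
    calc (∑ e ∈ ed c, w e) ^ q ≤ ((ed c).card : ℝ) ^ (q - 1) * ∑ e ∈ ed c, w e ^ q := h2
      _ ≤ (k : ℝ) ^ (q - 1) * (2 ^ (q - 1) * (∑ e ∈ ed c, dv e ^ q + k * τ ^ q)) := by gcongr
      _ = _ := by ring
  have hb := card_bad (η := η) (q := q) hed hmult h0 hη.le (by linarith)
  have hc := sum_cells hed hmult (F := fun e => dv e ^ q) fun e he => Real.rpow_nonneg (h0 e he) _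
  set S := ∑ e ∈ es, dv e ^ q with hSdef
  set b : ℝ := ((cs.filter fun c => ∃ e ∈ ed c, η < dv e).card : ℝ) with hbdef
  have hηq : 0 < η ^ q := Real.rpow_pos_of_pos hη _
  have hbS : b * τ ^ q ≤ m * (τ / η) ^ q * S := by
    rw [Real.div_rpow hτ hη.le]
    have h6 : b ≤ m * S / η ^ q := by rw [le_div_iff₀ hηq]; exact hb
    calc b * τ ^ q ≤ (m * S / η ^ q) * τ ^ q := by gcongr
      _ = _ := by ring
  calc ∑ c ∈ cs.filter (fun c => ∃ e ∈ ed c, η < dv e), (∑ e ∈ ed c, w e) ^ q
      ≤ ∑ c ∈ cs.filter (fun c => ∃ e ∈ ed c, η < dv e),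
        ((k : ℝ) ^ (q - 1) * 2 ^ (q - 1) * (∑ e ∈ ed c, dv e ^ q + k * τ ^ q)) :=
        sum_le_sum fun c hc => h1 c (mem_filter.1 hc).1
    _ = (k : ℝ) ^ (q - 1) * 2 ^ (q - 1) *
        (∑ c ∈ cs.filter (fun c => ∃ e ∈ ed c, η < dv e), ∑ e ∈ ed c, dv e ^ q + b * (k * τ ^ q)) := by
        rw [← mul_sum, sum_add_distrib, sum_const, nsmul_eq_mul]
    _ ≤ (k : ℝ) ^ (q - 1) * 2 ^ (q - 1) * (m * S + b * (k * τ ^ q)) := by
        have h7 : ∑ c ∈ cs.filter (fun c => ∃ e ∈ ed c, η < dv e), ∑ e ∈ ed c, dv e ^ q ≤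
            ∑ c ∈ cs, ∑ e ∈ ed c, dv e ^ q :=
          sum_le_sum_of_subset_of_nonneg (filter_subset _ _) fun c hc _ =>
            sum_nonneg fun e he => Real.rpow_nonneg (h0 e (hed c hc he)) _
        have h8 := h7.trans hc
        gcongr
    _ = (k : ℝ) ^ (q - 1) * 2 ^ (q - 1) * (m * S + k * (b * τ ^ q)) := by ring
    _ ≤ (k : ℝ) ^ (q - 1) * 2 ^ (q - 1) * (m * S + k * (m * (τ / η) ^ q * S)) := by gcongr
    _ = _ := by ring

end cells

end Crest.Agent.R96.Pur_392
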