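/-
helper776, row 96, EA p (p < 3), leaf [REG] of helper348 #11024: regularity (`Tms_582.RegV`) of a Sobolev
map on ALL closed 1-cells of ALL meshes of a shiftable family `M : MF Om F J`, for almost every shift `a`
and all admissible shifts of the blocks.
-/
import Crest.Agent.R096.Alt2_232
import Crest.Agent.R96.Pm2_199
import Crest.Agent.R096.Exa1_365

set_option autoImplicit false
set_option linter.unusedSectionVars false
set_option linter.style.longLine false

open MeasureTheory Set Filter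
open scoped Topology ENNReal

namespace Crest.Agent.R96.Regm_776

open Crest.Agent.R096.Msh_715 Crest.Agent.R096.Tms_582
open Crest.Agent.R096.Ls_222 (Edg ea ev sgm_edg)
open Crest.Agent.R96.Sg1_199 (sgm mem_sgm)
open Crest.Agent.R96.Acl_392
open Crest.Agent.R096.SkC1_961 (E3)
open Crest.Agent.R096.Mbf_337 (KJ)
open Crest.Agent.R96.Pm_199

noncomputable section

variable {Om Ω : Set E3} {F J : Type} {f : E3 → E3}

theorem sgm_rev {E : Type*} [NormedAddCommGroup E] [NormedSpace ℝ E] (x v : E) :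
    sgm (x + v) (-v) = sgm x v := by
  ext y
  constructor
  · rintro ⟨τ, ⟨h0, h1⟩, rfl⟩
    refine ⟨1 - τ, ⟨by linarith, by linarith⟩, ?_⟩
    show x + (1 - τ) • v = x + v + τ • (-v)
    rw [sub_smul, one_smul, smul_neg]; abel
  · rintro ⟨τ, ⟨h0, h1⟩, rfl⟩
    refine ⟨1 - τ, ⟨by linarith, by linarith⟩, ?_⟩
    show x + v + (1 - τ) • (-v) = x + τ • v
    rw [sub_smul, one_smul, smul_neg]; abel

/-- Lipschitz functions of `f` have finite level sets on the segment, for almost every level -/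
def FinLev (f : E3 → E3) (S : Set E3) : Prop :=
  ∀ ℓ : E3 → ℝ, (∃ k, LipschitzWith k ℓ) → ∀ᵐ t : ℝ, {y ∈ S | ℓ (f y) = t}.Finite

/-- **almost every translate of a segment is regular** -/
theorem ae_finLev (hΩ : IsOpen Ω) (hf : ContinuousOn f Ω) {g : Fin 3 → E3 → E3 → ℝ}
    (hg : ∀ k v, WD Ω volume (fun y => f y k) (g k v) v) (x v : E3) :
    ∀ᵐ a : E3, v ≠ 0 → sgm (x + a) v ⊆ Ω → FinLev f (sgm (x + a) v) := by
  have h1 : ∀ k : Fin 3, ∀ᵐ y ∂(volume : Measure E3), ACLat Ω (fun y => f y k) (g k v) v y :=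
    fun k => acl hΩ (hg k v) ((continuous_apply k).comp_continuousOn hf)
  have h2 : ∀ᵐ y ∂(volume : Measure E3), ∀ k : Fin 3, ACLat Ω (fun y => f y k) (g k v) v y :=
    ae_all_iff.2 h1
  have h3 := (measurePreserving_add_left (volume : Measure E3) x).quasiMeasurePreserving.ae h2
  filter_upwards [h3] with a ha hv hsub
  rintro ℓ ⟨K, hℓ⟩
  exact Crest.Agent.R096.Alt_232.finite_levels hf (g := fun k => g k v) hv hsub ha hℓ

/-- **[REG]**: for almost every shift `a` the map `f` is regular on all closed 1-cells of all meshes of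
the shiftable family `M`, for ALL sets `V` of tiles and all admissible shifts of the blocks -/
theorem ae_regV (M : MF Om F J) (hΩ : IsOpen Ω) (hOm : Om ⊆ Ω) (hf : ContinuousOn f Ω)
    {g : Fin 3 → E3 → E3 → ℝ} (hg : ∀ k v, WD Ω volume (fun y => f y k) (g k v) v) :
    ∀ᵐ a : E3, ∀ w (h : M.Ok a w), ∀ V : Set (M.md a w h).ι, RegV (M.md a w h).T f V := by
  have h1 := M.ae_edges (Q := fun x v => v ≠ 0 → sgm x v ⊆ Ω → FinLev f (sgm x v))
    (fun x v => ae_finLev hΩ hf hg x v) (fun x v hq hv hsub => by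
      rw [sgm_rev] at hsub ⊢
      exact hq (fun h0 => hv (by rw [h0, neg_zero])) hsub)
  filter_upwards [h1] with a ha w h V y hy hd ℓ hℓ
  obtain ⟨i, hi, hyi⟩ := mem_iUnion₂.1 hy
  have hyO : y ∈ Om := (M.md a w h).T.sub i hyi
  let e : Edg (M.md a w h).T := ⟨(M.md a w h).T.cc y, y, hyO, hd, rfl⟩
  have h3 : sgm (ea e) (ev e) = (M.md a w h).T.cc y := sgm_edg e
  have hsub : sgm (ea e) (ev e) ⊆ Ω := by
    rw [h3]
    exact ((M.md a w h).T.cc_sub_Om hyO).trans hOm
  have h4 := ha w h e (Crest.Agent.R096.Ls_222.ev_ne e) hsub ℓ hℓ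
  rwa [h3] at h4

/-- [REG] for components with weak derivatives in the three coordinate directions (199's form) -/
theorem ae_regV_coord (M : MF Om F J) (hΩ : IsOpen Ω) (hOm : Om ⊆ Ω) (hf : ContinuousOn f Ω)
    {g : Fin 3 → Fin 3 → E3 → ℝ}
    (hg : ∀ k l, WD Ω volume (fun y => f y k) (g k l) (Pi.single l (1:ℝ))) :
    ∀ᵐ a : E3, ∀ w (h : M.Ok a w), ∀ V : Set (M.md a w h).ι, RegV (M.md a w h).T f V :=
  ae_regV M hΩ hOm hf (g := fun k v => Crest.Agent.R96.Sg5_199.gdir (g k) v)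
    (fun k v => Crest.Agent.R96.Sg5_199.wd_dir (hg k) v)

/-- [REG] for a Sobolev homeomorphism in the form `SH3` -/
theorem ae_regV_sh3 (M : MF Om F J) (hΩ : IsOpen Ω) (hOm : Om ⊆ Ω) {p : ℝ} {La : Set E3}
    {D : E3 → E3 →L[ℝ] E3} (h : Crest.Agent.R096.Er_594.SH3 p Ω La f D) :
    ∀ᵐ a : E3, ∀ w (h : M.Ok a w), ∀ V : Set (M.md a w h).ι, RegV (M.md a w h).T f V := by
  obtain ⟨fi, -, -, -, -, hc, -⟩ := h.homeo
  exact ae_regV M hΩ hOm hc (g := fun k v y => D y v k)
    fun k v => Crest.Agent.R096.Exa_365.wd_coord h v k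

end

end Crest.Agent.R96.Regm_776
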