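import Crest.Agent.R96.Top6_199
import Crest.Agent.R096.Eaz3_663
import Crest.Agent.R096.Pas7_753
import Crest.Agent.R96.Eld1_538

/-!
Row 96 (S0127), helper199.  **The top of the row from the seven leaves that are open at 10:45Z**: DOORS, `PreX`,
`ElP`, `OneP`, R3, `ExBlkN`, `PreGenN`.
-/

set_option autoImplicit false
set_option linter.style.longLine false

namespace Crest.Agent.R96.Top_199

open MeasureTheory Metric Set Filter Topology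
open scoped ENNReal Gradient NNReal
open Crest.AnalysisR.VecCalc3 Crest.AnalysisR.Sobolev
open Crest.Agent.R096 Crest.Agent.R096.Sk_962 Crest.Agent.R096.Sk4_663
open Crest.Agent.R096.Pas_753

/-- **S0127 from the seven leaves open at 10:45Z** -/
theorem s0127_seven {b : ℝ} (hb : 0 < b) (hD : Frs_662.DoorsQb b)
    (preX : ∀ p : ℝ, 2 < p → Eau_365.PreX p)
    (hEL : ∀ p : ℝ, 1 ≤ p → p ≤ 2 → ElP p Crest.Agent.R96.Eld_538.Els)
    (hO : ∀ p : ℝ, 1 ≤ p → p ≤ 2 → OneP p Crest.Agent.R96.Eld_538.Els)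
    (r3 : ∀ p : ℝ, 1 ≤ p → p ≤ 2 → Ea0_961.EA0 p → Pin_753.PreIN p → Br_695.BFk p)
    (blkN : ∀ p : ℝ, 3 ≤ p → Bmd_798.ExBlkN p) (genN : Bmd_798.PreGenN)
    (Ω Λ : Set R3) (hΩo : IsOpen Ω) (hΩb : Bornology.IsBounded Ω) (hΩc : IsConnected Ω)
    (hΛo : IsOpen Λ) (hΛb : Bornology.IsBounded Λ) (hΛc : IsConnected Λ)
    (p : ℝ) (hp : 1 ≤ p) (f : R3 → R3) (hf : IsHomeomorphOn f Ω Λ)
    (hfp : MemLp f (ENNReal.ofReal p) (volume.restrict Ω))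
    (G : Fin 3 → R3 → R3) (hG : ∀ j : Fin 3, HasWeakGradOn Ω (fun x => f x j) (G j))
    (hGp : ∀ j : Fin 3, MemLp (G j) (ENNReal.ofReal p) (volume.restrict Ω))
    (ε : ℝ≥0∞) (hε : 0 < ε) :
    ∃ g : R3 → R3, IsSmoothDiffeoOn g Ω Λ ∧ MemLp g (ENNReal.ofReal p) (volume.restrict Ω) ∧
      (∀ j : Fin 3, MemLp (fun x => ∇ (fun y => g y j) x) (ENNReal.ofReal p) (volume.restrict Ω)) ∧
      ∫⁻ x in Ω, (‖g x - f x‖ₑ ^ p + ∑ j : Fin 3, ‖∇ (fun y => g y j) x - G j x‖ₑ ^ p) < ε :=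
  s0127_doorsQ hb hD preX (fun p hp hp2 => Eaz_663.pre0 hp (by linarith))
    (fun p hp hp2 hE => r3 p hp hp2 hE (preIN_of hp hp2 hE Crest.Agent.R96.Eld_538.Els
      (hEL p hp hp2) (hO p hp hp2)))
    blkN genN
    Ω Λ hΩo hΩb hΩc hΛo hΛb hΛc p hp f hf hfp G hG hGp ε hε

end Crest.Agent.R96.Top_199
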