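/-
helper872, row 96, p ≤ 2, (EL), leaf [WLa] of 538 #12014: the tiles near the walls lie in 812's layer
`WL`.
-/
import Mathlib
import Crest.Agent.R096.Rmt4_816
import Crest.Agent.R096.Eln1_812

set_option autoImplicit false
set_option linter.unusedSectionVars false
set_option linter.style.longLine false
set_option maxHeartbeats 400000

open MeasureTheory Set Filter Metric Module
open scoped ENNReal NNReal Topology

namespace Crest.Agent.R96.Wla_872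

open Crest.AnalysisR.VecCalc3 (R3)
open Crest.Agent.R96.Coarse_538 (Dt)
open Crest.Agent.R096.Msh_715 (P)
open Crest.Agent.R096.Mal_874 (CB)
open Crest.Agent.R096.Ca_855 (MIn)
open Crest.Agent.R096.Rmt_816 (Bj Cl2 diam2 norm_Dt norm_D0)

noncomputable section

variable {Om W : Set R3} {ρ₀ : R3 → ℝ} {J : Type} [Finite J] {Qb : J → CB R3 3} {k0 : ℕ} {σ : ℝ}

/-- a point of the wall of the block at the position `a`, moved back by the position -/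
theorem wall_pt0 (h : MIn Om W ρ₀ Qb k0 σ) {κ : ℝ} (hκ : 0 < κ) {Bs Nn : ℕ}
    (hb : ∀ j, MIn.BQ κ Bs Nn (Qb j) k0) {a : R3} (ha : a ∈ Dt (1 / 2 ^ k0)) {j : J} {y : R3} :
    ∃ z ∈ frontier (Qb j).N,
      ‖(Qb j).ψ y - (Qb j).ψ z‖ ≤ infDist ((Qb j).ψ y) (Bj h a j).W + 8 * κ⁻¹ / 2 ^ k0 := by
  have hWc : IsCompact (Bj h a j).W := by
    have h1 := (Bj h a j).frontier_N
    have h2 : IsCompact (frontier (Bj h a j).N) :=
      (Bj h a j).isCompact_N.of_isClosed_subset isClosed_frontier (Bj h a j).frontier_sub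
    have h3 : (Bj h a j).W = (Bj h a j).ψ '' frontier (Bj h a j).N := by
      rw [h1, image_preimage_eq _ (Bj h a j).ψ.surjective]
    rw [h3]
    exact h2.image (Bj h a j).ψ.continuous
  obtain ⟨w, hw, e⟩ := hWc.exists_infDist_eq_dist (Bj h a j).W_ne ((Qb j).ψ y)
  have hfr : (Qb j).ψ.symm w ∈ frontier (Bj h a j).N := by
    rw [(Bj h a j).frontier_N, mem_preimage]
    show (Qb j).ψ ((Qb j).ψ.symm w) ∈ _
    rw [ContinuousLinearEquiv.apply_symm_apply]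
    exact hw
  have hcl : h.cl a = a := h.cl_eq (norm_D0 h a ha).le
  refine ⟨(Qb j).ψ.symm w - h.cl a, (CB.frontier_N_tr (Qb j) (h.cl a)).1 hfr, ?_⟩
  have e1 : (Qb j).ψ y - (Qb j).ψ ((Qb j).ψ.symm w - h.cl a) = ((Qb j).ψ y - w) + (Qb j).ψ a := by
    rw [map_sub, ContinuousLinearEquiv.apply_symm_apply, hcl]
    abel
  rw [e1, e, dist_eq_norm]
  refine (norm_add_le _ _).trans (add_le_add le_rfl ?_)
  have h1 : ‖(Qb j).ψ a‖ ≤ 4 * κ⁻¹ * ‖a‖ := ((hb j).cnd a).2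
  have h2 : ‖a‖ ≤ 2 * (1 / 2 ^ k0) := norm_Dt (by positivity) ha
  calc ‖(Qb j).ψ a‖ ≤ 4 * κ⁻¹ * ‖a‖ := h1
    _ ≤ 4 * κ⁻¹ * (2 * (1 / 2 ^ k0)) := mul_le_mul_of_nonneg_left h2 (by positivity)
    _ = 8 * κ⁻¹ / 2 ^ k0 := by ring

/-- **[WLa]**: the tiles near the walls lie in the layer `WL` -/
theorem cl2_WL (h : MIn Om W ρ₀ Qb k0 σ) {κ : ℝ} (hκ : 0 < κ) (hκ1 : κ ≤ 1) {Bs Nn : ℕ}
    (hb : ∀ j, MIn.BQ κ Bs Nn (Qb j) k0) {r : ℝ} (hr : 7 ≤ r)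
    (hsm : 4 * κ⁻¹ * (r / 2 ^ k0) < σ / 8) {a : R3} (ha : a ∈ Dt (1 / 2 ^ k0)) {i : h.ιT a}
    (hi : Cl2 h r a i) :
    P ((h.T a).H i) ⊆
      Crest.Agent.R096.Eln_812.WL Qb k0 (r + 16 * κ⁻¹ ^ 2 * max 1 (Bs:ℝ) * r + 8 * κ⁻¹) := by
  have hd := diam2 h hκ hκ1 hb hr hsm hi
  obtain ⟨j, y, hy, hyW⟩ := hi
  obtain ⟨z, hz, hyz⟩ := wall_pt0 h hκ hb ha (j := j) (y := y)
  intro x hx
  refine mem_iUnion.2 ⟨j, z, hz, ?_⟩
  have h1 : ‖(Qb j).ψ x - (Qb j).ψ y‖ ≤ 4 * κ⁻¹ * (4 * κ⁻¹ * max 1 (Bs:ℝ) * (r / 2 ^ k0)) := by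
    rw [← map_sub]
    exact ((hb j).cnd (x - y)).2.trans (mul_le_mul_of_nonneg_left (hd x hx y hy) (by positivity))
  calc ‖(Qb j).ψ x - (Qb j).ψ z‖
      ≤ ‖(Qb j).ψ x - (Qb j).ψ y‖ + ‖(Qb j).ψ y - (Qb j).ψ z‖ := norm_sub_le_norm_sub_add_norm_sub _ _ _
    _ ≤ 4 * κ⁻¹ * (4 * κ⁻¹ * max 1 (Bs:ℝ) * (r / 2 ^ k0)) + (r / 2 ^ k0 + 8 * κ⁻¹ / 2 ^ k0) :=
        add_le_add h1 (hyz.trans (add_le_add hyW le_rfl))
    _ = (r + 16 * κ⁻¹ ^ 2 * max 1 (Bs:ℝ) * r + 8 * κ⁻¹) / 2 ^ k0 := by ring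

end

end Crest.Agent.R96.Wla_872
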