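/-
helper872, row 96, p ≤ 2, (EL), leaf [WLa] of 538 #12014 / #12048, part 2: the neighbours of the tiles
near the walls.
-/
import Mathlib
import Crest.Agent.R96.Wla1_872

set_option autoImplicit false
set_option linter.unusedSectionVars false
set_option linter.style.longLine false
set_option maxHeartbeats 400000

open MeasureTheory Set Filter Metric Module
open scoped ENNReal NNReal Topology

namespace Crest.Agent.R96.Wla_872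

open Crest.AnalysisR.VecCalc3 (R3)
open Crest.Agent.R96.Coarse_538 (Dt)
open Crest.Agent.R096.Msh_715 (P)
open Crest.Agent.R096.Mal_874 (CB)
open Crest.Agent.R096.Ca_855 (MIn)
open Crest.Agent.R096.Rmt_816 (Bj Cl2 diam2)

noncomputable section

variable {Om W : Set R3} {ρ₀ : R3 → ℝ} {J : Type} [Finite J] {Qb : J → CB R3 3} {k0 : ℕ} {σ : ℝ}

/-- monotone in the radius -/
theorem Cl2_mono (h : MIn Om W ρ₀ Qb k0 σ) {r r' : ℝ} (hr : r ≤ r') {a : R3} {i : h.ιT a}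
    (hi : Cl2 h r a i) : Cl2 h r' a i := by
  obtain ⟨j, y, hy, hyW⟩ := hi
  exact ⟨j, y, hy, hyW.trans (div_le_div_of_nonneg_right hr (by positivity))⟩

/-- **all the points of a tile near a wall are near this wall** -/
theorem Cl2_pt (h : MIn Om W ρ₀ Qb k0 σ) {κ : ℝ} (hκ : 0 < κ) (hκ1 : κ ≤ 1) {Bs Nn : ℕ}
    (hb : ∀ j, MIn.BQ κ Bs Nn (Qb j) k0) {r : ℝ} (hr : 7 ≤ r)
    (hsm : 4 * κ⁻¹ * (r / 2 ^ k0) < σ / 8) {a : R3} {k : h.ιT a} (hk : Cl2 h r a k) :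
    ∃ j, ∀ x ∈ P ((h.T a).H k), infDist ((Qb j).ψ x) (Bj h a j).W ≤
      (r + 16 * κ⁻¹ ^ 2 * max 1 (Bs:ℝ) * r) / 2 ^ k0 := by
  have hd := diam2 h hκ hκ1 hb hr hsm hk
  obtain ⟨j, y, hy, hyW⟩ := hk
  refine ⟨j, fun x hx => ?_⟩
  have h1 : dist ((Qb j).ψ x) ((Qb j).ψ y) ≤ 4 * κ⁻¹ * (4 * κ⁻¹ * max 1 (Bs:ℝ) * (r / 2 ^ k0)) := by
    rw [dist_eq_norm, ← map_sub]
    exact ((hb j).cnd (x - y)).2.trans (mul_le_mul_of_nonneg_left (hd x hx y hy) (by positivity))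
  calc infDist ((Qb j).ψ x) (Bj h a j).W
      ≤ infDist ((Qb j).ψ y) (Bj h a j).W + dist ((Qb j).ψ x) ((Qb j).ψ y) :=
        infDist_le_infDist_add_dist
    _ ≤ r / 2 ^ k0 + 4 * κ⁻¹ * (4 * κ⁻¹ * max 1 (Bs:ℝ) * (r / 2 ^ k0)) := add_le_add hyW h1
    _ = (r + 16 * κ⁻¹ ^ 2 * max 1 (Bs:ℝ) * r) / 2 ^ k0 := by ring

/-- **`nbr2`**: the neighbours of the tiles near the walls are near the walls -/
theorem nbr2 (h : MIn Om W ρ₀ Qb k0 σ) {κ : ℝ} (hκ : 0 < κ) (hκ1 : κ ≤ 1) {Bs Nn : ℕ}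
    (hb : ∀ j, MIn.BQ κ Bs Nn (Qb j) k0) {r : ℝ} (hr : 7 ≤ r)
    (hsm : 4 * κ⁻¹ * (r / 2 ^ k0) < σ / 8) {a : R3} {k i : h.ιT a} (hk : Cl2 h r a k)
    (hki : (P ((h.T a).H k) ∩ P ((h.T a).H i)).Nonempty) :
    Cl2 h (r + 16 * κ⁻¹ ^ 2 * max 1 (Bs:ℝ) * r) a i := by
  obtain ⟨j, hj⟩ := Cl2_pt h hκ hκ1 hb hr hsm hk
  obtain ⟨x, hx, hx'⟩ := hki
  exact ⟨j, x, hx', hj x hx⟩

/-- **the neighbours of the tiles near the walls lie in the layer `WL`** -/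
theorem nbr2_WL (h : MIn Om W ρ₀ Qb k0 σ) {κ : ℝ} (hκ : 0 < κ) (hκ1 : κ ≤ 1) {Bs Nn : ℕ}
    (hb : ∀ j, MIn.BQ κ Bs Nn (Qb j) k0) {r r' : ℝ} (hr : 7 ≤ r)
    (hr' : r + 16 * κ⁻¹ ^ 2 * max 1 (Bs:ℝ) * r ≤ r')
    (hsm : 4 * κ⁻¹ * (r' / 2 ^ k0) < σ / 8) {a : R3} (ha : a ∈ Dt (1 / 2 ^ k0)) {k i : h.ιT a}
    (hk : Cl2 h r a k) (hki : (P ((h.T a).H k) ∩ P ((h.T a).H i)).Nonempty) :
    P ((h.T a).H i) ⊆
      Crest.Agent.R096.Eln_812.WL Qb k0 (r' + 16 * κ⁻¹ ^ 2 * max 1 (Bs:ℝ) * r' + 8 * κ⁻¹) := by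
  have h0 : 0 ≤ 16 * κ⁻¹ ^ 2 * max 1 (Bs:ℝ) * r := by positivity
  have hrr : r ≤ r' := by linarith
  have hsm' : 4 * κ⁻¹ * (r / 2 ^ k0) < σ / 8 := lt_of_le_of_lt
    (mul_le_mul_of_nonneg_left (div_le_div_of_nonneg_right hrr (by positivity)) (by positivity)) hsm
  exact cl2_WL h hκ hκ1 hb (hr.trans hrr) hsm ha
    (Cl2_mono h hr' (nbr2 h hκ hκ1 hb hr hsm' hk hki))

end

end Crest.Agent.R96.Wla_872
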