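import Crest.Agent.R96.Wm1_72
import Crest.Agent.R096.Mal15_874
import Crest.Agent.R96.Pm1_199

/-!
# Row 96, (S2) of 199 #10868: the mean energy of a cut class tends to zero

Potential pieces of a cut class at scale `k`: a countable family, every piece lies within `c / 2^k`
of `F + w`, `F` a fixed compact null set (the boundary of the block), `w` in a FINITE set of shifts;
pieces with the same tag have disjoint interiors. Total volume `≤ #W * vol (c/2^k-nbhd of F) → 0`.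
-/

set_option autoImplicit false

open MeasureTheory Set Filter Metric
open scoped Topology ENNReal Pointwise

namespace Crest.Agent.R96.Wm2_72

open Crest.Agent.R96.Sg8_199 (Mu EnA Mu_le_vol act_avg)

noncomputable section

variable {E : Type*} [NormedAddCommGroup E] [NormedSpace ℝ E] [FiniteDimensional ℝ E]
  [MeasurableSpace E] [BorelSpace E] {μ : Measure E} [μ.IsAddHaarMeasure]

omit [NormedSpace ℝ E] [FiniteDimensional ℝ E] [BorelSpace E] [MeasurableSpace E] in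
/-- neighbourhood of a translate -/
theorem cth_tr (F : Set E) (w : E) (δ : ℝ) :
    cthickening δ ((fun y => y + w) '' F) = (fun y => y + w) '' cthickening δ F := by
  ext x
  rw [image_add_right, image_add_right, mem_preimage, mem_cthickening_iff, mem_cthickening_iff]
  have h : infEDist x ((fun y => y + -w) ⁻¹' F) = infEDist (x + -w) F := by
    have e : (fun y => y + -w) ⁻¹' F = (IsometryEquiv.addRight w) '' F := by
      rw [← image_add_right]
      rfl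
    rw [e]
    have h2 := infEDist_image (Φ := IsometryEquiv.addRight w) (IsometryEquiv.addRight w).isometry
      (x := x + -w) (t := F)
    rw [← h2]
    congr 1
    show x = x + -w + w
    rw [neg_add_cancel_right]
  rw [h]

omit [NormedSpace ℝ E] [FiniteDimensional ℝ E] in
/-- volume of the neighbourhood of a translate -/
theorem vol_cth_tr (F : Set E) (w : E) (δ : ℝ) :
    μ (cthickening δ ((fun y => y + w) '' F)) = μ (cthickening δ F) := by
  rw [cth_tr, image_add_right, measure_preimage_add_right]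

/-- **total volume of a tagged family** -/
theorem vol_tag {E : Type*} [MeasurableSpace E] {μ : Measure E} {τ W : Type*} [Countable τ] [Fintype W] {Til : τ → Set E} (wt : τ → W)
    (hm : ∀ t, MeasurableSet (Til t))
    (hd : ∀ t t', t ≠ t' → wt t = wt t' → AEDisjoint μ (Til t) (Til t'))
    {U : W → Set E} (hU : ∀ t, Til t ⊆ U (wt t)) {M : ℝ≥0∞} (hM : ∀ w, μ (U w) ≤ M) :
    ∑' t, μ (Til t) ≤ Fintype.card W * M := by
  rw [← (Equiv.sigmaFiberEquiv wt).tsum_eq fun t => μ (Til t), ENNReal.tsum_sigma', tsum_fintype]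
  calc ∑ w, ∑' t : {t // wt t = w}, μ (Til t) ≤ ∑ _w : W, M := by
        refine Finset.sum_le_sum fun w _ => le_trans ?_ (hM w)
        rw [← measure_iUnion₀ ?_ fun t : {t // wt t = w} => (hm t.1).nullMeasurableSet]
        · refine measure_mono (iUnion_subset fun t => ?_)
          have := hU t.1
          rwa [t.2] at this
        · intro t t' h
          exact hd _ _ (fun e => h (Subtype.ext e)) (t.2.trans t'.2.symm)
    _ = _ := by rw [Finset.sum_const, nsmul_eq_mul, Finset.card_univ]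

/-- the neighbourhoods of a compact null set are small -/
theorem vol_cth_small {F : Set E} (hF : IsCompact F) (hF0 : μ F = 0) (c : ℝ) {ε : ℝ≥0∞}
    (hε : ε ≠ 0) : ∃ k0 : ℕ, ∀ k ≥ k0, μ (cthickening (c / 2 ^ k) F) ≤ ε := by
  have h1 : Tendsto (fun r => μ (cthickening r F)) (𝓝 0) (𝓝 (μ F)) :=
    tendsto_measure_cthickening_of_isCompact hF
  have h2 : Tendsto (fun k : ℕ => c / (2 : ℝ) ^ k) atTop (𝓝 0) := by
    have := (tendsto_pow_atTop_nhds_zero_of_lt_one (r := (1 / 2 : ℝ)) (by norm_num)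
      (by norm_num)).const_mul c
    rw [mul_zero] at this
    refine this.congr fun k => ?_
    rw [one_div, inv_pow]
    rfl
  have h3 := h1.comp h2
  rw [hF0] at h3
  have h4 : ∀ᶠ k : ℕ in atTop, μ (cthickening (c / 2 ^ k) F) < ε :=
    h3.eventually_lt_const (pos_iff_ne_zero.2 hε)
  obtain ⟨k0, hk0⟩ := eventually_atTop.1 h4
  exact ⟨k0, fun k hk => (hk0 k hk).le⟩

/-- **total volume of the pieces of a cut class is small** -/
theorem vol_small {F : Set E} (hF : IsCompact F) (hF0 : μ F = 0) {W : Type*} [Fintype W]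
    (sh : W → E) (c : ℝ) {ε : ℝ≥0∞} (hε : ε ≠ 0) :
    ∃ k0 : ℕ, ∀ k ≥ k0, ∀ {τ : Type*} [Countable τ] {Til : τ → Set E} (wt : τ → W),
      (∀ t, MeasurableSet (Til t)) →
      (∀ t t', t ≠ t' → wt t = wt t' → AEDisjoint μ (Til t) (Til t')) →
      (∀ t, Til t ⊆ cthickening (c / 2 ^ k) ((fun y => y + sh (wt t)) '' F)) →
      ∑' t, μ (Til t) ≤ ε := by
  have hN : (Fintype.card W : ℝ≥0∞) + 1 ≠ 0 := by simp
  have hN2 : (Fintype.card W : ℝ≥0∞) + 1 ≠ ∞ := by simp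
  have hε' : ε / (Fintype.card W + 1) ≠ 0 := ENNReal.div_ne_zero.2 ⟨hε, hN2⟩
  obtain ⟨k0, hk0⟩ := vol_cth_small (μ := μ) hF hF0 c hε'
  refine ⟨k0, fun k hk τ _ Til wt hm hd hT => ?_⟩
  refine (vol_tag wt hm hd (U := fun w => cthickening (c / 2 ^ k) ((fun y => y + sh w) '' F)) hT
    (M := ε / (Fintype.card W + 1)) fun w => ?_).trans ?_
  · rw [vol_cth_tr]
    exact hk0 k hk
  · calc (Fintype.card W : ℝ≥0∞) * (ε / (Fintype.card W + 1))
        ≤ (Fintype.card W + 1) * (ε / (Fintype.card W + 1)) := by gcongr; exact le_self_add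
      _ = ε := ENNReal.mul_div_cancel hN hN2

/-- **(S2) MEAN ENERGY OF THE CUT CLASSES.** -/
theorem cut_avg {F : Set E} (hF : IsCompact F) (hF0 : μ F = 0) {W : Type*} [Fintype W]
    (sh : W → E) (c : ℝ) {n : ℕ} {K : ℝ≥0∞} (hK : K ≠ ∞) {R : Set E} (hR : MeasurableSet R)
    {H : E → ℝ≥0∞} {p : ℝ} (hp : 1 ≤ p) (hH : ∫⁻ z in R, H z ^ p ∂μ ≠ ∞) {ε : ℝ≥0∞}
    (hε : ε ≠ 0) :
    ∃ k0 : ℕ, ∀ k ≥ k0, ∀ {τ η : Type*} [Countable τ] {Til Ac : τ → Set E} (wt : τ → W),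
      (∀ t, MeasurableSet (Til t)) → (∀ t, MeasurableSet (Ac t)) →
      (∀ t t', t ≠ t' → wt t = wt t' → AEDisjoint μ (Til t) (Til t')) →
      (∀ t, Til t ⊆ cthickening (c / 2 ^ k) ((fun y => y + sh (wt t)) '' F)) →
      ∀ (Ed : τ → Finset η), (∀ i, (Ed i).card ≤ n) →
      ∀ (x v : η → E), (∀ i, ∀ j ∈ Ed i, Sg1_199.sgm (x j) (v j) ⊆ Til i) →
      ∀ (β : τ → ℝ≥0∞) {G : η → E → ℝ≥0∞}, (∀ j, Measurable (G j)) →
      ∀ {cc : η → ℝ≥0∞}, (∀ᵐ z ∂μ, ∀ i, ∀ j ∈ Ed i, G j z ≤ cc j * H z) →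
      (∀ i, ∀ j ∈ Ed i, β i * cc j ≤ K) →
      (∀ i, ∀ y ∈ Til i, ∀ b ∈ Ac i, y + b ∈ R) →
      ∫⁻ a, EnA μ Til Ac Ed β G x v p a ∂μ ≤ ε := by
  have hp0 : 0 ≤ p := by linarith
  set A : ℝ≥0∞ := (n * K) ^ p * ∫⁻ z in R, H z ^ p ∂μ with hA
  have hA1 : A ≠ ∞ := ENNReal.mul_ne_top (ENNReal.rpow_ne_top_of_nonneg hp0
      (ENNReal.mul_ne_top (ENNReal.natCast_ne_top n) hK)) hH
  have hA2 : A + 1 ≠ ∞ := by simp [hA1]
  have hA3 : A + 1 ≠ 0 := by simp
  set ε' : ℝ≥0∞ := min 1 (ε / (A + 1)) with hε'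
  have h1 : ε' ≠ 0 := by
    rw [hε']
    refine (lt_min one_pos (pos_iff_ne_zero.2 (ENNReal.div_ne_zero.2 ⟨hε, hA2⟩))).ne'
  obtain ⟨k0, hk0⟩ := vol_small (μ := μ) hF hF0 sh c h1
  refine ⟨k0, fun k hk τ η _ Til Ac wt hm hAm hd hT Ed hn x v hsub β G hG cc hGH hβ hRA => ?_⟩
  have hM : ∑' t, μ (Til t) ≤ ε' := hk0 k hk wt hm hd hT
  refine (act_avg hAm Ed hn x v hsub β hG hGH hK hβ hR hRA (M := ε')
    (ne_top_of_le_ne_top ENNReal.one_ne_top (min_le_left _ _))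
    (fun z _ => (Mu_le_vol z).trans hM) hp).trans ?_
  calc (n * K) ^ p * ε' * ∫⁻ z in R, H z ^ p ∂μ = A * ε' := by rw [hA]; ring
    _ ≤ (A + 1) * (ε / (A + 1)) := by
        gcongr
        · exact le_self_add
        · exact min_le_right _ _
    _ = ε := ENNReal.mul_div_cancel hA3 hA2

/-! ### tiles with activity sets -/

omit [NormedSpace ℝ E] [FiniteDimensional ℝ E] [BorelSpace E] [μ.IsAddHaarMeasure] in
/-- tiles which are never used do not count -/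
theorem Mu_le_vol' {τ : Type*} {Til Ac : τ → Set E} (z : E) :
    Mu μ Til Ac z ≤ ∑' i : {i // (Ac i).Nonempty}, μ (Til i) := by
  unfold Mu
  have e := tsum_subtype {i | (Ac i).Nonempty} fun i => μ (Til i)
  refine le_trans ?_ e.ge
  refine ENNReal.tsum_le_tsum fun i => ?_
  by_cases hi : (Ac i).Nonempty
  · rw [indicator_of_mem (s := {i | (Ac i).Nonempty}) hi]
    exact indicator_le_self _ _ _
  · rw [indicator_of_notMem (s := {i | (Ac i).Nonempty}) hi, indicator_of_notMem]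
    rintro ⟨y, -, hy⟩
    exact hi ⟨_, hy⟩

/-- **(S2) MEAN ENERGY OF THE CUT CLASSES**, hypotheses only for the shifts of the activity sets. -/
theorem cut_avg' {F : Set E} (hF : IsCompact F) (hF0 : μ F = 0) {W : Type*} [Fintype W]
    (sh : W → E) (c : ℝ) {n : ℕ} {K : ℝ≥0∞} (hK : K ≠ ∞) {R : Set E} (hR : MeasurableSet R)
    {H : E → ℝ≥0∞} {p : ℝ} (hp : 1 ≤ p) (hH : ∫⁻ z in R, H z ^ p ∂μ ≠ ∞) {ε : ℝ≥0∞}
    (hε : ε ≠ 0) :
    ∃ k0 : ℕ, ∀ k ≥ k0, ∀ {τ η : Type*} [Countable τ] {Til Ac : τ → Set E} (wt : τ → W),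
      (∀ t, MeasurableSet (Til t)) → (∀ t, MeasurableSet (Ac t)) →
      (∀ t t', t ≠ t' → wt t = wt t' → (Ac t).Nonempty → (Ac t').Nonempty →
        AEDisjoint μ (Til t) (Til t')) →
      (∀ t, (Ac t).Nonempty → Til t ⊆ cthickening (c / 2 ^ k) ((fun y => y + sh (wt t)) '' F)) →
      ∀ (Ed : τ → Finset η), (∀ i, (Ed i).card ≤ n) →
      ∀ (x v : η → E), (∀ i, ∀ j ∈ Ed i, Sg1_199.sgm (x j) (v j) ⊆ Til i) →
      ∀ (β : τ → ℝ≥0∞) {G : η → E → ℝ≥0∞}, (∀ j, Measurable (G j)) →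
      ∀ {cc : η → ℝ≥0∞}, (∀ᵐ z ∂μ, ∀ i, ∀ j ∈ Ed i, G j z ≤ cc j * H z) →
      (∀ i, ∀ j ∈ Ed i, β i * cc j ≤ K) →
      (∀ i, ∀ y ∈ Til i, ∀ b ∈ Ac i, y + b ∈ R) →
      ∫⁻ a, EnA μ Til Ac Ed β G x v p a ∂μ ≤ ε := by
  have hp0 : 0 ≤ p := by linarith
  set A : ℝ≥0∞ := (n * K) ^ p * ∫⁻ z in R, H z ^ p ∂μ with hA
  have hA1 : A ≠ ∞ := ENNReal.mul_ne_top (ENNReal.rpow_ne_top_of_nonneg hp0
      (ENNReal.mul_ne_top (ENNReal.natCast_ne_top n) hK)) hH
  have hA2 : A + 1 ≠ ∞ := by simp [hA1]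
  have hA3 : A + 1 ≠ 0 := by simp
  set ε' : ℝ≥0∞ := min 1 (ε / (A + 1)) with hε'
  have h1 : ε' ≠ 0 := by
    rw [hε']
    refine (lt_min one_pos (pos_iff_ne_zero.2 (ENNReal.div_ne_zero.2 ⟨hε, hA2⟩))).ne'
  obtain ⟨k0, hk0⟩ := vol_small (μ := μ) hF hF0 sh c h1
  refine ⟨k0, fun k hk τ η _ Til Ac wt hm hAm hd hT Ed hn x v hsub β G hG cc hGH hβ hRA => ?_⟩
  have hM : ∑' t : {t // (Ac t).Nonempty}, μ (Til t) ≤ ε' :=
    hk0 k hk (fun t : {t // (Ac t).Nonempty} => wt t.1) (fun t => hm t.1)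
      (fun t t' h h' => hd t.1 t'.1 (fun e => h (Subtype.ext e)) h' t.2 t'.2)
      (fun t => hT t.1 t.2)
  refine (act_avg hAm Ed hn x v hsub β hG hGH hK hβ hR hRA (M := ε')
    (ne_top_of_le_ne_top ENNReal.one_ne_top (min_le_left _ _))
    (fun z _ => (Mu_le_vol' z).trans hM) hp).trans ?_
  calc (n * K) ^ p * ε' * ∫⁻ z in R, H z ^ p ∂μ = A * ε' := by rw [hA]; ring
    _ ≤ (A + 1) * (ε / (A + 1)) := by
        gcongr
        · exact le_self_add
        · exact min_le_right _ _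
    _ = ε := ENNReal.mul_div_cancel hA3 hA2

/-! ### polytopes -/

section pol

open Crest.Agent.R096.Msh_715 (P I I_sub_P)
open Crest.Agent.R096.Cut_874 (cutH mem_I_cutH mem_P_cutH)

/-- the zero sets of affine functions are null -/
theorem func_null {f : E →L[ℝ] ℝ} (hf : f ≠ 0) (c : ℝ) : μ {x | f x = c} = 0 := by
  rcases eq_empty_or_nonempty {x | f x = c} with h | ⟨x₀, hx₀⟩
  · rw [h, measure_empty]
  · have hne : LinearMap.ker f.toLinearMap ≠ ⊤ := by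
      intro h
      apply hf
      ext x
      have h1 : x ∈ LinearMap.ker f.toLinearMap := h ▸ Submodule.mem_top
      exact h1
    have h2 : {x | f x = c} ⊆
        (AffineSubspace.mk' x₀ (LinearMap.ker f.toLinearMap) : Set E) := by
      intro x hx
      rw [SetLike.mem_coe, AffineSubspace.mem_mk', LinearMap.mem_ker, vsub_eq_sub, map_sub]
      show f x - f x₀ = 0
      rw [show f x = c from hx, show f x₀ = c from hx₀, sub_self]
    refine measure_mono_null h2 (Measure.addHaar_affineSubspace μ _ ?_)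
    intro h3
    apply hne
    have := congrArg AffineSubspace.direction h3
    rwa [AffineSubspace.direction_mk', AffineSubspace.direction_top] at this

/-- the boundary of a polytope is null -/
theorem P_diff_I (H : Finset ((E →L[ℝ] ℝ) × ℝ)) (h : (∀ a ∈ H, a.1 ≠ 0) ∨ (I H).Nonempty) :
    μ (P H \ I H) = 0 := by
  have h1 : P H \ I H ⊆ ⋃ a ∈ H, {x | a.1 ≠ 0 ∧ a.1 x = a.2} := by
    rintro x ⟨hx, hx'⟩
    have h2 : ∃ a ∈ H, a.2 ≤ a.1 x := by
      by_contra hcon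
      push Not at hcon
      exact hx' hcon
    obtain ⟨a, ha, hax⟩ := h2
    have h3 : a.1 x = a.2 := le_antisymm (hx a ha) hax
    simp only [mem_iUnion]
    refine ⟨a, ha, ?_, h3⟩
    rcases h with h | ⟨z, hz⟩
    · exact h a ha
    · intro h4
      have h5 := hz a ha
      rw [h4] at h3 h5
      simp only [zero_apply] at h3 h5
      linarith
  refine measure_mono_null h1 ((measure_biUnion_null_iff H.countable_toSet).2 fun a _ => ?_)
  by_cases h4 : a.1 = 0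
  · have : {x : E | a.1 ≠ 0 ∧ a.1 x = a.2} = ∅ := by
      ext x
      simp [h4]
    rw [this, measure_empty]
  · exact measure_mono_null (fun x hx => hx.2) (func_null (μ := μ) h4 a.2)

/-- polytopes with disjoint interiors are a.e. disjoint -/
theorem aedisj_P {H H' : Finset ((E →L[ℝ] ℝ) × ℝ)} (h : (∀ a ∈ H, a.1 ≠ 0) ∨ (I H).Nonempty)
    (h' : (∀ a ∈ H', a.1 ≠ 0) ∨ (I H').Nonempty) (hd : Disjoint (I H) (I H')) :
    AEDisjoint μ (P H) (P H') := by
  refine measure_mono_null (t := (P H \ I H) ∪ (P H' \ I H')) ?_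
    (measure_union_null (P_diff_I H h) (P_diff_I H' h'))
  rintro x ⟨hx, hx'⟩
  by_cases h1 : x ∈ I H
  · exact Or.inr ⟨hx', fun h2 => Set.disjoint_left.1 hd h1 h2⟩
  · exact Or.inl ⟨hx, h1⟩

omit [FiniteDimensional ℝ E] in
theorem measurableSet_P (H : Finset ((E →L[ℝ] ℝ) × ℝ)) : MeasurableSet (P H) :=
  (Crest.Agent.R096.Msh_715.isClosed_P H).measurableSet

omit [FiniteDimensional ℝ E] [MeasurableSpace E] [BorelSpace E] in
/-- different sign patterns: disjoint interiors -/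
theorem cut_disj {H A σ σ' : Finset ((E →L[ℝ] ℝ) × ℝ)} (hσ : σ ⊆ A) (hσ' : σ' ⊆ A)
    (h : σ ≠ σ') : Disjoint (I (cutH H A σ)) (I (cutH H A σ')) := by
  rw [Set.disjoint_left]
  intro x hx hy
  obtain ⟨hx1, hx2, hx3⟩ := mem_I_cutH.1 hx
  obtain ⟨hy1, hy2, hy3⟩ := mem_I_cutH.1 hy
  apply h
  ext a
  constructor
  · intro ha
    by_contra hn
    have h1 := hx2 a ha
    have h2 := hy3 a (hσ ha) hn
    exact absurd h1 (not_lt.2 h2.le)
  · intro ha
    by_contra hn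
    have h1 := hy2 a ha
    have h2 := hx3 a (hσ' ha) hn
    exact absurd h1 (not_lt.2 h2.le)

/-- **pieces of one cut cube are a.e. disjoint** -/
theorem cut_aedisj {H A σ σ' : Finset ((E →L[ℝ] ℝ) × ℝ)} (hA : ∀ a ∈ A, a.1 ≠ 0) (hσ : σ ⊆ A)
    (hσ' : σ' ⊆ A) (h : σ ≠ σ') : AEDisjoint μ (P (cutH H A σ)) (P (cutH H A σ')) := by
  obtain ⟨a, ha⟩ : ∃ a, ¬ (a ∈ σ ↔ a ∈ σ') := by
    by_contra hcon
    push Not at hcon
    exact h (Finset.ext hcon)
  have key : ∀ s s' : Finset ((E →L[ℝ] ℝ) × ℝ), s ⊆ A → a ∈ s → a ∉ s' →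
      μ (P (cutH H A s) ∩ P (cutH H A s')) = 0 := by
    intro s s' hs h1 h2
    refine measure_mono_null ?_ (func_null (μ := μ) (hA a (hs h1)) a.2)
    rintro x ⟨hx, hx'⟩
    exact le_antisymm ((mem_P_cutH.1 hx).2.1 a h1) ((mem_P_cutH.1 hx').2.2 a (hs h1) h2)
  by_cases h1 : a ∈ σ
  · exact key σ σ' hσ h1 fun h2 => ha ⟨fun _ => h2, fun _ => h1⟩
  · have h2 : a ∈ σ' := by
      by_contra h3
      exact ha ⟨fun h => absurd h h1, fun h => absurd h h3⟩
    have := key σ' σ hσ' h2 h1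
    rwa [inter_comm] at this

end pol

/-! ### the walls of the blocks -/

section geo

open Crest.Agent.R096.Mal_874 Crest.Agent.R096.Msh_810

variable {n : ℕ}

omit [FiniteDimensional ℝ E] [MeasurableSpace E] [BorelSpace E] in
theorem isCompact_front (Q : CB E n) : IsCompact (frontier Q.N) :=
  Q.isCompact_N.of_isClosed_subset isClosed_frontier Q.frontier_sub

/-- **the wall of a block is null** -/
theorem front_null (Q : CB E n) : μ (frontier Q.N) = 0 := by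
  have hp : (2 : ℝ) ^ Q.kc ≠ 0 := by positivity
  have h : frontier Q.N ⊆ ⋃ l : Fin n, ({x | Q.ψ x l = Q.a' l + Q.al l / 2 ^ Q.kc} ∪
      {x | Q.ψ x l = Q.a' l + Q.be l / 2 ^ Q.kc}) := by
    intro x hx
    rw [Q.frontier_N] at hx
    obtain ⟨l, hl⟩ := of_mem_frontier_bx Q.al_lt hx
    refine mem_iUnion.2 ⟨l, ?_⟩
    rcases hl with hl | hl
    · left
      show Q.ψ x l = Q.a' l + Q.al l / 2 ^ Q.kc
      unfold ps at hl
      rw [← hl]
      field_simp
      ring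
    · right
      show Q.ψ x l = Q.a' l + Q.be l / 2 ^ Q.kc
      unfold ps at hl
      rw [← hl]
      field_simp
      ring
  refine measure_mono_null h ((measure_iUnion_null_iff).2 fun l => ?_)
  exact measure_union_null (Wm_72.hyper_null Q.ψ l _) (Wm_72.hyper_null Q.ψ l _)

omit [FiniteDimensional ℝ E] [MeasurableSpace E] [BorelSpace E] in
/-- the wall of a translated block -/
theorem front_tr (Q : CB E n) (v : E) : frontier (Q.tr v).N = (fun y => y + v) '' frontier Q.N := by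
  ext y
  rw [Q.frontier_N_tr v, image_add_right, mem_preimage, sub_eq_add_neg]

omit [FiniteDimensional ℝ E] [MeasurableSpace E] [BorelSpace E] in
/-- comparison of the norm with the outer coordinates -/
theorem exists_c (φ : E ≃L[ℝ] (Fin n → ℝ)) :
    ∃ c : ℝ, 0 < c ∧ ∀ x y : E, dist x y ≤ c * dist (φ x) (φ y) := by
  refine ⟨‖(φ.symm : (Fin n → ℝ) →L[ℝ] E)‖ + 1, by positivity, fun x y => ?_⟩
  rw [dist_eq_norm, dist_eq_norm, ← map_sub]
  have h := (φ.symm : (Fin n → ℝ) →L[ℝ] E).le_opNorm (φ (x - y))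
  have e : (φ.symm : (Fin n → ℝ) →L[ℝ] E) (φ (x - y)) = x - y := φ.symm_apply_apply _
  rw [e] at h
  refine h.trans (mul_le_mul_of_nonneg_right (by linarith) (norm_nonneg _))

omit [FiniteDimensional ℝ E] [MeasurableSpace E] [BorelSpace E] in
/-- a piece near the shifted wall: unshifted form -/
theorem til_sub {φ : E ≃L[ℝ] (Fin n → ℝ)} {c : ℝ} (hc0 : 0 ≤ c)
    (hc : ∀ x y : E, dist x y ≤ c * dist (φ x) (φ y)) {Q : CB E n} {b w y : E} {δ : ℝ}
    (hy : y ∈ frontier (Q.tr (b + w)).N) {T : Set E}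
    (h : ∀ x ∈ T, dist (φ (x + b)) (φ y) ≤ δ) :
    T ⊆ cthickening (c * δ) ((fun y => y + w) '' frontier Q.N) := by
  intro x hx
  rw [front_tr] at hy
  obtain ⟨u, hu, rfl⟩ := hy
  refine mem_cthickening_of_dist_le x (u + w) _ _ ⟨u, hu, rfl⟩ ?_
  have h1 := hc (x + b) (u + (b + w))
  have e : u + (b + w) = (u + w) + b := by abel
  rw [e, dist_add_right] at h1
  refine h1.trans (mul_le_mul_of_nonneg_left ?_ hc0)
  rw [← e]
  exact h x hx

omit [FiniteDimensional ℝ E] [MeasurableSpace E] [BorelSpace E] in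
/-- a piece near the shifted wall: it stays in the zone of the wall -/
theorem in_zone {φ : E ≃L[ℝ] (Fin n → ℝ)} {Q : CB E n} {v y x : E} {s δ r : ℝ}
    (hy : y ∈ frontier (Q.tr v).N) (hv : ‖φ v‖ ≤ s) (h : dist (φ x) (φ y) ≤ δ)
    (hr : s + δ ≤ r) : x ∈ φ ⁻¹' cthickening r (φ '' frontier Q.N) := by
  rw [front_tr] at hy
  obtain ⟨u, hu, rfl⟩ := hy
  refine mem_cthickening_of_dist_le (φ x) (φ u) _ _ ⟨u, hu, rfl⟩ ?_
  have h1 := dist_triangle (φ x) (φ (u + v)) (φ u)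
  have h2 : dist (φ (u + v)) (φ u) = ‖φ v‖ := by
    rw [dist_eq_norm, ← map_sub, add_sub_cancel_left]
  rw [h2] at h1
  exact h1.trans (by linarith)

/-- **CUT CLASS OF A BLOCK**: mean energy → 0. Block `Q`, finite list of shifts `sh`, pieces within
`d / 2^k` (outer coordinates) of the wall of the block at the total shift `b + sh`, total shifts in
the ball of radius `s < r`; energy of `H` in the zone of the wall. -/
theorem cut_blk (φ : E ≃L[ℝ] (Fin n → ℝ)) (Q : CB E n) {W : Type*} [Fintype W] (sh : W → E)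
    (d : ℝ) {s r : ℝ} (hsr : s < r) {m : ℕ} {K : ℝ≥0∞} (hK : K ≠ ∞) {H : E → ℝ≥0∞} {p : ℝ}
    (hp : 1 ≤ p) (hH : ∫⁻ z in φ ⁻¹' cthickening r (φ '' frontier Q.N), H z ^ p ∂μ ≠ ∞)
    {ε : ℝ≥0∞} (hε : ε ≠ 0) :
    ∃ k0 : ℕ, ∀ k ≥ k0, ∀ {τ η : Type*} [Countable τ] {Til Ac : τ → Set E} (wt : τ → W),
      (∀ t, MeasurableSet (Til t)) → (∀ t, MeasurableSet (Ac t)) →
      (∀ t t', t ≠ t' → wt t = wt t' → (Ac t).Nonempty → (Ac t').Nonempty →
        AEDisjoint μ (Til t) (Til t')) →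
      (∀ t, ∀ b ∈ Ac t, ‖φ (b + sh (wt t))‖ ≤ s ∧ ∃ y ∈ frontier (Q.tr (b + sh (wt t))).N,
        ∀ x ∈ Til t, dist (φ (x + b)) (φ y) ≤ d / 2 ^ k) →
      ∀ (Ed : τ → Finset η), (∀ i, (Ed i).card ≤ m) →
      ∀ (x v : η → E), (∀ i, ∀ j ∈ Ed i, Sg1_199.sgm (x j) (v j) ⊆ Til i) →
      ∀ (β : τ → ℝ≥0∞) {G : η → E → ℝ≥0∞}, (∀ j, Measurable (G j)) →
      ∀ {cc : η → ℝ≥0∞}, (∀ᵐ z ∂μ, ∀ i, ∀ j ∈ Ed i, G j z ≤ cc j * H z) →
      (∀ i, ∀ j ∈ Ed i, β i * cc j ≤ K) →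
      ∫⁻ a, EnA μ Til Ac Ed β G x v p a ∂μ ≤ ε := by
  obtain ⟨c, hc0, hc⟩ := exists_c φ
  have hR : MeasurableSet (φ ⁻¹' cthickening r (φ '' frontier Q.N)) :=
    (isClosed_cthickening.preimage φ.continuous).measurableSet
  obtain ⟨k0, hk0⟩ := cut_avg' (μ := μ) (isCompact_front Q) (front_null Q) sh (c * d) (n := m) hK hR
    hp hH hε
  obtain ⟨k1, hk1⟩ : ∃ k1 : ℕ, ∀ k ≥ k1, s + d / 2 ^ k ≤ r := by
    obtain ⟨k1, hk1⟩ := exists_nat_gt (|d| / (r - s))
    refine ⟨k1, fun k hk => ?_⟩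
    have h0 : 0 < r - s := by linarith
    have h1 : (0 : ℝ) < 2 ^ k := by positivity
    have h2 : (k1 : ℝ) ≤ 2 ^ k := by
      have : (k : ℝ) ≤ 2 ^ k := by exact_mod_cast Nat.lt_two_pow_self.le
      have h3 : (k1 : ℝ) ≤ k := by exact_mod_cast hk
      linarith
    rw [div_lt_iff₀ h0] at hk1
    have h3 : d / 2 ^ k ≤ r - s := by
      rw [div_le_iff₀ h1]
      have h4 := le_abs_self d
      nlinarith
    linarith
  refine ⟨max k0 k1, fun k hk τ η _ Til Ac wt hm hAm hd hT Ed hn x v hsub β G hG cc hGH hβ => ?_⟩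
  refine hk0 k ((le_max_left _ _).trans hk) wt hm hAm hd ?_ Ed hn x v hsub β hG hGH hβ ?_
  · rintro t ⟨b, hb⟩
    obtain ⟨-, y, hy, h⟩ := hT t b hb
    rw [mul_div_assoc]
    exact til_sub hc0.le hc hy h
  · intro t y hy b hb
    obtain ⟨hs, z, hz, h⟩ := hT t b hb
    exact in_zone hz hs (h y hy) (hk1 k ((le_max_right _ _).trans hk))

omit [FiniteDimensional ℝ E] [MeasurableSpace E] [BorelSpace E] in
/-- outer pieces at the wall (from `MD.outer_shape`, case 2), potential form: `T + b` is the piece -/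
theorem outer_near {J : Type*} {M : MD E n J} {j : J} {k : ℕ} {b w : E}
    {T P' : Set E} (hT : ∀ x ∈ T, x + b ∈ P')
    (h : ∃ y ∈ frontier ((M.Q j).tr (b + w)).N, ∀ x ∈ P', dist (M.φ x) (M.φ y) ≤ 2 / 2 ^ k) :
    ∃ y ∈ frontier ((M.Q j).tr (b + w)).N, ∀ x ∈ T, dist (M.φ (x + b)) (M.φ y) ≤ 2 / 2 ^ k := by
  obtain ⟨y, hy, h⟩ := h
  exact ⟨y, hy, fun x hx => h _ (hT x hx)⟩

open Crest.Agent.R096.Msh_715 in
omit [FiniteDimensional ℝ E] [MeasurableSpace E] [BorelSpace E] in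
/-- inner cubes at the wall (`MD.inner_shape`, case 3): within `c / 2^k` of the wall -/
theorem inner_near [NeZero n] {J : Type*} {M : MD E n J} {k : J → ℕ} (hk : M.Sc k)
    (a : Fin n → ℝ) {v : J → E} (hv : M.Adm v) {j : J} {i : M.IIx hk a hv j} {c : ℝ}
    (hc0 : 0 ≤ c) (hc : Cn M.φ (M.Q j).ψ c)
    (h : ∃ τ, i.1 = Sum.inl τ ∧ τ.1.1.1.k = k j)
    (hne : (P ((M.mesh hk a hv).H (Sum.inr ⟨j, i⟩)) ∩ frontier (M.Bk v j).N).Nonempty) :
    ∃ y ∈ frontier (M.Bk v j).N, ∀ x ∈ P ((M.mesh hk a hv).H (Sum.inr ⟨j, i⟩)),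
      dist (M.φ x) (M.φ y) ≤ c / 2 ^ k j := by
  obtain ⟨τ, hi, hτ⟩ := h
  obtain ⟨y, hy, hyf⟩ := hne
  refine ⟨y, hyf, fun x hx => ?_⟩
  change x ∈ P ((M.S hk (v := v) j).H i.1) at hx
  change y ∈ P ((M.S hk (v := v) j).H i.1) at hy
  rw [hi] at hx hy
  have h1 := dist_cube (((M.Bk v j).tile_T0 (k j) (hk.kc j)).1 hx)
    (((M.Bk v j).tile_T0 (k j) (hk.kc j)).1 hy)
  rw [hτ] at h1
  refine (hc x y).trans ?_
  rw [div_eq_mul_one_div]
  exact mul_le_mul_of_nonneg_left h1 hc0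

end geo

/-! ### the form for one class of an `MF` -/

section mf

open Crest.Agent.R096.Mal_874
open Crest.Agent.R096.SkC1_961 (E3)
open Crest.Agent.R96.Pm_199

/-- **(S2) FOR ONE CLASS OF AN `MF`**: ∀ ε ∃ k0: for every `MF` and every class `c` of it which is a
cut class of the block `Q` at a scale `k ≥ k0` (tags `wt`, total shift of the block `b + sh (wt t)`),
the mean energy is at most `ε`. -/
theorem cut_mean (φ : E3 ≃L[ℝ] (Fin 3 → ℝ)) (Q : CB E3 3) {W : Type*} [Fintype W] (sh : W → E3)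
    (d : ℝ) {s r : ℝ} (hsr : s < r) {m : ℕ} {K : ℝ≥0∞} (hK : K ≠ ∞) {H : E3 → ℝ≥0∞} {p : ℝ}
    (hp : 1 ≤ p) (hH : ∫⁻ z in φ ⁻¹' cthickening r (φ '' frontier Q.N), H z ^ p ≠ ∞)
    {ε : ℝ≥0∞} (hε : ε ≠ 0) :
    ∃ k0 : ℕ, ∀ k ≥ k0, ∀ {Om : Set E3} {F J : Type} (M : MF Om F J) {c : M.κ}
      (wt : {t // M.cl t = c} → W),
      (∀ t, M.cl t = c → MeasurableSet (M.Til t)) →
      (∀ t t' : {t // M.cl t = c}, t ≠ t' → wt t = wt t' → (M.Ac t ∩ M.A).Nonempty →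
        (M.Ac t' ∩ M.A).Nonempty → AEDisjoint volume (M.Til t) (M.Til t')) →
      (∀ t : {t // M.cl t = c}, ∀ b ∈ M.Ac t, b ∈ M.A → ‖φ (b + sh (wt t))‖ ≤ s ∧
        ∃ y ∈ frontier (Q.tr (b + sh (wt t))).N,
          ∀ x ∈ M.Til t, dist (φ (x + b)) (φ y) ≤ d / 2 ^ k) →
      (∀ t, M.cl t = c → (M.Ed t).card ≤ m) →
      (∀ t, M.cl t = c → ∀ j ∈ M.Ed t, ENNReal.ofReal (M.β t) * ‖M.v j‖ₑ ≤ K) →
      ∀ {G : E3 → E3 → ℝ≥0∞}, (∀ v, Measurable (G v)) → (∀ᵐ y : E3, ∀ v, G v y ≤ ‖v‖ₑ * H y) →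
      ∫⁻ a in M.A, M.EnC G p c a ≤ ε := by
  classical
  obtain ⟨k0, hk0⟩ := cut_blk (μ := (volume : Measure E3)) φ Q sh d hsr (m := m) hK hp hH hε
  refine ⟨k0, fun k hk Om F J M c wt hm hd hT hn hβ G hGm hGH => ?_⟩
  have := M.cτ
  have e1 : ∫⁻ a in M.A, M.EnC G p c a =
      ∫⁻ a, EnA volume (fun t : {t // M.cl t = c} => M.Til t) (fun t => M.Ac t ∩ M.A)
        (fun t => M.Ed t) (fun t => ENNReal.ofReal (M.β t)) (fun j => G (M.v j)) M.x M.v p a := by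
    rw [← lintegral_indicator M.Am]
    refine lintegral_congr fun a => ?_
    unfold MF.EnC EnA
    by_cases ha : a ∈ M.A
    · rw [indicator_of_mem ha]
      refine tsum_congr fun t => ?_
      by_cases hb : a ∈ M.Ac t
      · rw [indicator_of_mem hb, indicator_of_mem (show a ∈ M.Ac t ∩ M.A from ⟨hb, ha⟩)]
      · rw [indicator_of_notMem hb, indicator_of_notMem (fun h : a ∈ M.Ac t ∩ M.A => hb h.1)]
    · rw [indicator_of_notMem ha]
      symm
      rw [ENNReal.tsum_eq_zero]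
      intro t
      exact indicator_of_notMem (fun h : a ∈ M.Ac t ∩ M.A => ha h.2) _
  rw [e1]
  refine hk0 k hk wt (fun t => hm t.1 t.2) (fun t => (M.Acm t.1).inter M.Am) hd
    (fun t b hb => hT t b hb.1 hb.2) (fun t : {t // M.cl t = c} => M.Ed t)
    (fun t => hn t.1 t.2) M.x M.v (fun t j hj => (M.sub t.1 j hj).2) _ (fun j => hGm _)
    (cc := fun j => ‖M.v j‖ₑ) ?_ (fun t j hj => hβ t.1 t.2 j hj)
  filter_upwards [hGH] with y hy t j _
  exact hy _

end mf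

end

end Crest.Agent.R96.Wm2_72
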