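import Crest.Agent.R096.Mal13_874
import Crest.Agent.R96.Wm1_72

/-!
# Row 96, PREMACH (S3) of 199 #10868 (III): the fine scales inside a core block

Block `Q : CB E n` of 874, frame `Q.ψ`, wall `Q.W`.  The cubes of scale `m > kc` of ALL meshes
`Q.T0 k` (any `k`, any shift of the block) lie within `15 / 2^m` of the wall (`nw_of_top`, `nw_of_tr`).
Potential tiles: `Tw Q.ψ Q.a' m z` with `Nw Q m z`, `m ≥ k0`, all shifts `b` with `‖Q.ψ b‖ ≤ ρ`.
Multiplicity of all scales `≥ k0` together `≤ 60 n * μ (Q.ψ⁻¹ (ball of radius ρ + 2^-k0))`, hence the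
average of the energy over the shifts of size `ρ ≥ 2^-k0 / t` costs a universal factor.
-/

set_option autoImplicit false
set_option linter.unusedSectionVars false
set_option linter.unusedVariables false

open MeasureTheory Set Filter Metric
open scoped Topology ENNReal Pointwise

namespace Crest.Agent.R96.Wm3_748

open Crest.Agent.R096.Msh_810 Crest.Agent.R096.Msh_715
open Crest.Agent.R096.Mal_874 (CB pc bx of_mem_frontier_bx)
open Crest.Agent.R96.Sg8_199 (Mu EnA Mu_sigma act_avg)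
open Crest.Agent.R96.Wm_72 (Tw Tw_tr Tw_aedisj isCompact_Tw measurableSet_Tw Mu_mono)

noncomputable section

variable {n : ℕ}

/-! ### slabs -/

/-- the slabs round the coordinate planes through two corners -/
def Slab (α β : Fin n → ℝ) (s : ℝ) : Set (Fin n → ℝ) :=
  {x | ∃ l, |x l - α l| ≤ s ∨ |x l - β l| ≤ s}

theorem vol_one (y : Fin n → ℝ) {r s : ℝ} (hr : 0 ≤ r) (hs : 0 ≤ s) (l : Fin n) (t : ℝ) :
    volume (closedBall y r ∩ {x : Fin n → ℝ | |x l - t| ≤ s}) ≤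
      ENNReal.ofReal ((2 * r) ^ (n - 1) * (2 * s)) := by
  classical
  have h1 : closedBall y r ∩ {x : Fin n → ℝ | |x l - t| ≤ s} ⊆
      Icc (Function.update (fun i => y i - r) l (t - s))
        (Function.update (fun i => y i + r) l (t + s)) := by
    rintro x ⟨hx, hxl⟩
    have hx' : ∀ i, |x i - y i| ≤ r := by
      intro i
      have h2 := dist_le_pi_dist x y i
      rw [Real.dist_eq] at h2
      exact h2.trans hx
    have hxl' := abs_le.1 (show |x l - t| ≤ s from hxl)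
    refine ⟨fun i => ?_, fun i => ?_⟩
    · by_cases h : i = l
      · subst h
        rw [Function.update_self]
        linarith [hxl'.1]
      · rw [Function.update_of_ne h]
        linarith [(abs_le.1 (hx' i)).1]
    · by_cases h : i = l
      · subst h
        rw [Function.update_self]
        linarith [hxl'.2]
      · rw [Function.update_of_ne h]
        linarith [(abs_le.1 (hx' i)).2]
  refine (measure_mono h1).trans ?_
  rw [Real.volume_Icc_pi, ← Finset.mul_prod_erase Finset.univ _ (Finset.mem_univ l),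
    Function.update_self, Function.update_self]
  have e1 : t + s - (t - s) = 2 * s := by ring
  have e2 : ∏ i ∈ Finset.univ.erase l, ENNReal.ofReal
      (Function.update (fun i => y i + r) l (t + s) i -
        Function.update (fun i => y i - r) l (t - s) i) = ENNReal.ofReal ((2 * r) ^ (n - 1)) := by
    have e3 : ∀ i ∈ Finset.univ.erase l, ENNReal.ofReal
        (Function.update (fun i => y i + r) l (t + s) i -
          Function.update (fun i => y i - r) l (t - s) i) = ENNReal.ofReal (2 * r) := by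
      intro i hi
      have hne : i ≠ l := Finset.ne_of_mem_erase hi
      rw [Function.update_of_ne hne, Function.update_of_ne hne]
      congr 1
      ring
    rw [Finset.prod_congr rfl e3, Finset.prod_const, Finset.card_erase_of_mem (Finset.mem_univ l),
      Finset.card_univ, Fintype.card_fin, ENNReal.ofReal_pow (by positivity)]
  rw [e1, e2, mul_comm, ← ENNReal.ofReal_mul (by positivity)]

theorem vol_slab (y : Fin n → ℝ) {r s : ℝ} (hr : 0 ≤ r) (hs : 0 ≤ s) (α β : Fin n → ℝ) :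
    volume (closedBall y r ∩ Slab α β s) ≤
      ENNReal.ofReal (2 * n * ((2 * r) ^ (n - 1) * (2 * s))) := by
  have h1 : closedBall y r ∩ Slab α β s ⊆ ⋃ l : Fin n,
      (closedBall y r ∩ {x : Fin n → ℝ | |x l - α l| ≤ s}) ∪
        (closedBall y r ∩ {x : Fin n → ℝ | |x l - β l| ≤ s}) := by
    rintro x ⟨hx, l, hl⟩
    rw [mem_iUnion]
    refine ⟨l, ?_⟩
    rcases hl with hl | hl
    · exact Or.inl ⟨hx, hl⟩
    · exact Or.inr ⟨hx, hl⟩
  refine (measure_mono h1).trans ((measure_iUnion_le _).trans ?_)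
  rw [tsum_fintype]
  have h2 : ∀ l : Fin n, volume ((closedBall y r ∩ {x : Fin n → ℝ | |x l - α l| ≤ s}) ∪
      (closedBall y r ∩ {x : Fin n → ℝ | |x l - β l| ≤ s})) ≤
      ENNReal.ofReal (2 * ((2 * r) ^ (n - 1) * (2 * s))) := by
    intro l
    refine (measure_union_le _ _).trans ?_
    rw [two_mul ((2 * r) ^ (n - 1) * (2 * s)), ENNReal.ofReal_add (by positivity) (by positivity)]
    exact add_le_add (vol_one y hr hs l _) (vol_one y hr hs l _)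
  refine (Finset.sum_le_sum fun l _ => h2 l).trans ?_
  rw [Finset.sum_const, Finset.card_univ, Fintype.card_fin, nsmul_eq_mul,
    ← ENNReal.ofReal_natCast n, ← ENNReal.ofReal_mul (by positivity)]
  refine ENNReal.ofReal_le_ofReal (le_of_eq ?_)
  ring

/-- points close to a set in the planes are in the slabs -/
theorem sub_slab {W : Set (Fin n → ℝ)} (hWc : IsClosed W) (hWn : W.Nonempty) {α β : Fin n → ℝ}
    (hWp : ∀ w ∈ W, ∃ l, w l = α l ∨ w l = β l) {x : Fin n → ℝ} {s : ℝ} (h : infDist x W ≤ s) :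
    x ∈ Slab α β s := by
  obtain ⟨w, hw, hd⟩ := hWc.exists_infDist_eq_dist hWn x
  obtain ⟨l, hl⟩ := hWp w hw
  refine ⟨l, ?_⟩
  have h1 := dist_le_pi_dist x w l
  rw [Real.dist_eq, ← hd] at h1
  rcases hl with hl | hl
  · left
    rw [← hl]
    exact h1.trans h
  · right
    rw [← hl]
    exact h1.trans h

/-! ### cubes of a block near the wall -/

variable {E : Type*} [NormedAddCommGroup E] [NormedSpace ℝ E]

/-- the cube `m, z` of the block is within `15 / 2^m` of the wall -/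
def Nw (Q : CB E n) (m : ℕ) (z : Fin n → ℤ) : Prop :=
  ∀ x ∈ Cu Q.a' m z, infDist x Q.W ≤ 15 / 2 ^ m

/-- the wall lies in coordinate planes -/
theorem W_planes (Q : CB E n) : ∃ α β : Fin n → ℝ, ∀ w ∈ Q.W, ∃ l, w l = α l ∨ w l = β l := by
  have hp : (2 : ℝ) ^ Q.kc ≠ 0 := by positivity
  refine ⟨fun l => Q.a' l + Q.al l / 2 ^ Q.kc, fun l => Q.a' l + Q.be l / 2 ^ Q.kc, ?_⟩
  intro w hw
  obtain ⟨l, hl⟩ := of_mem_frontier_bx Q.al_lt hw
  refine ⟨l, ?_⟩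
  unfold ps at hl
  rcases hl with hl | hl
  · left
    show w l = Q.a' l + Q.al l / 2 ^ Q.kc
    rw [← hl]
    field_simp
    ring
  · right
    show w l = Q.a' l + Q.be l / 2 ^ Q.kc
    rw [← hl]
    field_simp
    ring

/-- **all cubes of scale `> kc` of the block meshes are near the wall** -/
theorem nw_of_top (Q : CB E n) {k : ℕ} (hk : Q.kc ≤ k) (τ : Top (Q.D k hk))
    (h : Q.kc < τ.1.1.k) : Nw Q τ.1.1.k τ.1.1.z := by
  obtain ⟨⟨i, x0, hx, hx0, hK⟩, hJ⟩ := τ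
  change Q.kc < i.k at h
  show ∀ x ∈ Cu Q.a' i.k i.z, infDist x Q.W ≤ 15 / 2 ^ i.k
  obtain ⟨m, hm⟩ : ∃ m, i.k = m + 1 := ⟨i.k - 1, by omega⟩
  have hnot : m ∉ gd (Q.D k hk) x0 := pred_notMem hx0 (by rw [hK, hm]; omega)
  have h1 : ∃ z, x0 ∈ Cu (Q.D k hk).a m z ∧ ¬ Adm (Q.D k hk) m z := by
    by_contra hcon
    push Not at hcon
    exact hnot fun z hz => hcon z hz
  obtain ⟨z, hz, hA⟩ := h1
  unfold Adm at hA
  push Not at hA
  obtain ⟨y, hy, hlt⟩ := hA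
  have hρ : (Q.D k hk).ρ y = max (6 / 2 ^ k) (min (6 / 2 ^ Q.kc) (infDist y Q.W)) := rfl
  have hC : (Q.D k hk).C = 6 := rfl
  rw [hρ, hC] at hlt
  have hpm : (0 : ℝ) < 2 ^ m := by positivity
  have h2 : min (6 / 2 ^ Q.kc) (infDist y Q.W) < 6 / 2 ^ m := by
    rw [lt_div_iff₀' hpm]
    exact lt_of_le_of_lt (mul_le_mul_of_nonneg_left (le_max_right _ _) hpm.le) hlt
  have h3 : (6 : ℝ) / 2 ^ m ≤ 6 / 2 ^ Q.kc :=
    div_le_div_of_nonneg_left (by norm_num) (by positivity)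
      (pow_le_pow_right₀ (by norm_num) (by omega))
  have h4 : infDist y Q.W < 6 / 2 ^ m := by
    rcases min_lt_iff.1 h2 with h5 | h5
    · exact absurd h5 (not_lt.2 h3)
    · exact h5
  intro x hx'
  have h5 := dist_le_of_mem_Cu hy hz
  have hxz : x0 ∈ Cu Q.a' i.k i.z := by
    have := Do_subset_Dc _ _ hx
    have e : (⟨i.k, i.z, Finset.univ⟩ : Idx n) = i := by
      cases i
      simp only [Idx.mk.injEq, true_and]
      exact hJ.symm
    unfold Cu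
    rw [e]
    exact this
  have h6 := dist_le_of_mem_Cu hx' hxz
  have hpk : (2 : ℝ) ^ i.k = 2 * 2 ^ m := by rw [hm, pow_succ]; ring
  have h7 : dist y x0 ≤ 1 / 2 ^ m := by
    rw [le_div_iff₀' hpm]
    exact h5
  have h8 : dist x x0 ≤ 1 / 2 ^ i.k := by
    rw [le_div_iff₀' (by positivity)]
    exact h6
  have h9 := infDist_le_infDist_add_dist (s := Q.W) (x := x) (y := y)
  have h10 := dist_triangle x x0 y
  rw [dist_comm x0 y] at h10
  have e1 : (1 : ℝ) / 2 ^ m = 2 / 2 ^ i.k := by rw [hpk]; field_simp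
  have e2 : (6 : ℝ) / 2 ^ m = 12 / 2 ^ i.k := by rw [hpk]; field_simp; norm_num
  have e3 : (15 : ℝ) / 2 ^ i.k = 12 / 2 ^ i.k + (2 / 2 ^ i.k + 1 / 2 ^ i.k) := by ring
  rw [e1] at h7
  rw [e2] at h4
  linarith

/-- the wall of the translated block -/
theorem mem_W_tr (Q : CB E n) (v : E) {x : Fin n → ℝ} : x ∈ (Q.tr v).W ↔ x - Q.ψ v ∈ Q.W := by
  have h1 := Q.frontier_N_tr v (y := Q.ψ.symm x)
  rw [CB.frontier_N, CB.frontier_N, mem_preimage, mem_preimage] at h1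
  have e : (Q.tr v).ψ = Q.ψ := rfl
  rw [e, map_sub, ContinuousLinearEquiv.apply_symm_apply] at h1
  exact h1

theorem infDist_W_tr (Q : CB E n) (v : E) (x : Fin n → ℝ) :
    infDist (x + Q.ψ v) (Q.tr v).W = infDist x Q.W := by
  have e : (Q.tr v).W = (IsometryEquiv.addRight (Q.ψ v)) '' Q.W := by
    ext y
    rw [mem_W_tr]
    constructor
    · intro h
      exact ⟨y - Q.ψ v, h, by simp⟩
    · rintro ⟨w, hw, rfl⟩
      simpa using hw
  rw [e]
  have h2 := infDist_image (IsometryEquiv.addRight (Q.ψ v)).isometry (x := x) (t := Q.W)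
  simpa using h2

/-- **the same for the translated blocks** (the potential tile is the unshifted cube) -/
theorem nw_of_tr (Q : CB E n) (v : E) {k : ℕ} (hk : (Q.tr v).kc ≤ k) (τ : Top ((Q.tr v).D k hk))
    (h : Q.kc < τ.1.1.k) : Nw Q τ.1.1.k τ.1.1.z := by
  have h1 := nw_of_top (Q.tr v) hk τ h
  intro x hx
  have h2 : x + Q.ψ v ∈ Cu (Q.tr v).a' τ.1.1.k τ.1.1.z := by
    have e : (Q.tr v).a' = Q.a' + Q.ψ v := rfl
    rw [e, mem_Cu]
    intro i
    have h3 := mem_Cu.1 hx i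
    have e2 : ps (Q.a' + Q.ψ v) τ.1.1.k (x + Q.ψ v) i = ps Q.a' τ.1.1.k x i := by
      unfold ps
      simp only [Pi.add_apply]
      ring
    rw [e2]
    exact h3
  have h3 := h1 _ h2
  rwa [infDist_W_tr] at h3

/-! ### one scale -/

section meas

variable [FiniteDimensional ℝ E] [MeasurableSpace E] [BorelSpace E] {μ : Measure E}
  [μ.IsAddHaarMeasure]

/-- a frame multiplies the volume by a constant -/
theorem exists_cst (ψ : E ≃L[ℝ] (Fin n → ℝ)) : ∃ c : ℝ≥0∞, c ≠ ∞ ∧ ∀ S : Set (Fin n → ℝ),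
    MeasurableSet S → μ (ψ ⁻¹' S) = c * volume S := by
  have : (μ.map ψ).IsAddHaarMeasure := ψ.isAddHaarMeasure_map μ
  have h := Measure.isAddLeftInvariant_eq_smul (μ.map ψ) (volume : Measure (Fin n → ℝ))
  refine ⟨(Measure.addHaarScalarFactor (μ.map ψ) (volume : Measure (Fin n → ℝ)) : ℝ≥0∞),
    ENNReal.coe_ne_top, fun S hS => ?_⟩
  rw [← Measure.map_apply ψ.continuous.measurable hS]
  exact congrArg (fun ν : Measure (Fin n → ℝ) => ν S) h

/-- **multiplicity of the cubes of one scale** in a set `S` -/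
theorem Mu_scale (ψ : E ≃L[ℝ] (Fin n → ℝ)) (a' : Fin n → ℝ) (m : ℕ) {S : Set (Fin n → ℝ)} {ρ : ℝ}
    {Ac : (Fin n → ℤ) → Set E} (hA : ∀ z, ∀ b ∈ Ac z, ‖ψ b‖ ≤ ρ ∧ Cu a' m z ⊆ S) (x : E) :
    Mu μ (fun z : Fin n → ℤ => Tw ψ a' m z) Ac x ≤
      μ (ψ ⁻¹' (closedBall (ψ x) (ρ + 1 / 2 ^ m) ∩ S)) := by
  set S' : Set (Fin n → ℤ) := {z | ∃ y ∈ Tw ψ a' m z, x - y ∈ Ac z} with hS'
  have h1 : Mu μ (fun z : Fin n → ℤ => Tw ψ a' m z) Ac x = ∑' z : S', μ (Tw ψ a' m z) := by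
    unfold Mu
    rw [tsum_subtype S' fun z => μ (Tw ψ a' m z)]
    refine tsum_congr fun z => ?_
    by_cases hz : z ∈ S'
    · rw [indicator_of_mem hz, indicator_of_mem (by exact hz)]
    · rw [indicator_of_notMem hz, indicator_of_notMem (by exact hz)]
  rw [h1, ← measure_iUnion₀ (f := fun z : S' => Tw ψ a' m z)
    (fun i i' h => Tw_aedisj ψ a' m fun e => h (Subtype.ext e))
    fun i => measurableSet_Tw.nullMeasurableSet]
  refine measure_mono (iUnion_subset fun z y hy => ?_)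
  obtain ⟨y0, hy0, hb⟩ := z.2
  obtain ⟨hb1, hb2⟩ := hA _ _ hb
  refine ⟨?_, hb2 hy⟩
  rw [mem_closedBall]
  have h2 := dist_le_of_mem_Cu (show ψ y ∈ Cu a' m z from hy) (show ψ y0 ∈ Cu a' m z from hy0)
  have hp : (0 : ℝ) < 2 ^ m := by positivity
  have h3 : dist (ψ y) (ψ y0) ≤ 1 / 2 ^ m := by
    rw [le_div_iff₀' hp]
    exact h2
  have h4 : dist (ψ y0) (ψ x) ≤ ρ := by
    rw [dist_comm, dist_eq_norm, ← map_sub]
    exact hb1
  have h5 := dist_triangle (ψ y) (ψ y0) (ψ x)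
  linarith

/-- activity set: all shifts of size `ρ`, if the cube is near the wall `W` -/
def Aq (ψ : E ≃L[ℝ] (Fin n → ℝ)) (a' : Fin n → ℝ) (W : Set (Fin n → ℝ)) (ρ : ℝ) (m : ℕ)
    (z : Fin n → ℤ) : Set E := {b | ‖ψ b‖ ≤ ρ ∧ ∀ x ∈ Cu a' m z, infDist x W ≤ 15 / 2 ^ m}

/-- **multiplicity of all scales `≥ k0`** (cubes of scale `m` within `15 / 2^m` of `W`) -/
theorem Mu_all [NeZero n] (ψ : E ≃L[ℝ] (Fin n → ℝ)) (a' : Fin n → ℝ) {W : Set (Fin n → ℝ)}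
    (hWc : IsClosed W) (hWn : W.Nonempty) {α β : Fin n → ℝ}
    (hWp : ∀ w ∈ W, ∃ l, w l = α l ∨ w l = β l) {ρ : ℝ} (hρ : 0 ≤ ρ) (k0 : ℕ) (x : E) :
    Mu μ (fun q : Σ _ : ℕ, (Fin n → ℤ) => Tw ψ a' (k0 + q.1) q.2)
      (fun q => Aq ψ a' W ρ (k0 + q.1) q.2) x ≤
      ENNReal.ofReal (60 * n) * μ (ψ ⁻¹' closedBall 0 (ρ + 1 / 2 ^ k0)) := by
  obtain ⟨c, -, hc⟩ := exists_cst (μ := μ) ψ
  rw [Mu_sigma]
  have hl0 : (0 : ℝ) < 1 / 2 ^ k0 := by positivity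
  set R : ℝ := 2 * (ρ + 1 / 2 ^ k0) with hR
  have hR0 : 0 < R := by positivity
  set B : ℝ := 60 * n * R ^ (n - 1) * (1 / 2 ^ k0) with hB
  have hB0 : 0 ≤ B := by positivity
  have h1 : ∀ m : ℕ, Mu μ (fun z : Fin n → ℤ => Tw ψ a' (k0 + m) z)
      (fun z => Aq ψ a' W ρ (k0 + m) z) x ≤ c * ENNReal.ofReal (B * (1 / 2) ^ m) := by
    intro m
    have hp : (0 : ℝ) < 1 / 2 ^ (k0 + m) := by positivity
    have hpm : (1 : ℝ) / 2 ^ (k0 + m) = 1 / 2 ^ k0 * (1 / 2) ^ m := by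
      rw [pow_add, one_div_pow]
      field_simp
    have hple : (1 : ℝ) / 2 ^ (k0 + m) ≤ 1 / 2 ^ k0 :=
      one_div_le_one_div_of_le (by positivity) (pow_le_pow_right₀ (by norm_num) (by omega))
    have h2 := Mu_scale (μ := μ) ψ a' (k0 + m) (S := Slab α β (15 / 2 ^ (k0 + m))) (ρ := ρ)
      (Ac := fun z => Aq ψ a' W ρ (k0 + m) z)
      (fun z b hb => ⟨hb.1, fun y hy => sub_slab hWc hWn hWp (hb.2 y hy)⟩) x
    refine h2.trans ?_
    have hms : MeasurableSet (closedBall (ψ x) (ρ + 1 / 2 ^ (k0 + m)) ∩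
        Slab α β (15 / 2 ^ (k0 + m))) := by
      refine isClosed_closedBall.measurableSet.inter ?_
      have e : Slab α β (15 / 2 ^ (k0 + m)) = ⋃ l : Fin n,
          ({x : Fin n → ℝ | |x l - α l| ≤ 15 / 2 ^ (k0 + m)} ∪
            {x : Fin n → ℝ | |x l - β l| ≤ 15 / 2 ^ (k0 + m)}) := by
        ext y
        simp only [Slab, mem_iUnion, mem_union, mem_ofPred_eq]
      rw [e]
      refine MeasurableSet.iUnion fun l => MeasurableSet.union ?_ ?_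
      · exact (isClosed_le (by fun_prop) continuous_const).measurableSet
      · exact (isClosed_le (by fun_prop) continuous_const).measurableSet
    rw [hc _ hms]
    refine mul_le_mul_of_nonneg_left ?_ (by positivity)
    refine (vol_slab _ (by positivity) (by positivity) α β).trans (ENNReal.ofReal_le_ofReal ?_)
    have h3 : (2 * (ρ + 1 / 2 ^ (k0 + m))) ^ (n - 1) ≤ R ^ (n - 1) := by
      refine pow_le_pow_left₀ (by positivity) ?_ _
      rw [hR]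
      linarith
    have e15 : (15 : ℝ) / 2 ^ (k0 + m) = 15 * (1 / 2 ^ (k0 + m)) := by ring
    rw [e15]
    calc 2 * (n : ℝ) * ((2 * (ρ + 1 / 2 ^ (k0 + m))) ^ (n - 1) * (2 * (15 * (1 / 2 ^ (k0 + m)))))
        ≤ 2 * n * (R ^ (n - 1) * (2 * (15 * (1 / 2 ^ (k0 + m))))) := by gcongr
      _ = B * (1 / 2) ^ m := by rw [hpm, hB]; ring
  refine (ENNReal.tsum_le_tsum h1).trans ?_
  rw [ENNReal.tsum_mul_left]
  have h4 : ∑' m : ℕ, ENNReal.ofReal (B * (1 / 2) ^ m) = ENNReal.ofReal (B * 2) := by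
    rw [← ENNReal.ofReal_tsum_of_nonneg (fun m => by positivity)
      (summable_geometric_two.mul_left B), tsum_mul_left, tsum_geometric_two]
  rw [h4, hc _ isClosed_closedBall.measurableSet, Real.volume_pi_closedBall _ (by positivity),
    Fintype.card_fin, mul_left_comm, ← ENNReal.ofReal_mul (by positivity)]
  refine mul_le_mul_of_nonneg_left (ENNReal.ofReal_le_ofReal ?_) (by positivity)
  obtain ⟨q, hq⟩ : ∃ q, n = q + 1 := ⟨n - 1, by have := NeZero.pos n; omega⟩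
  have h5 : R ^ n = R ^ (n - 1) * R := by
    rw [hq, Nat.add_sub_cancel, pow_succ]
  rw [← hR, h5, hB]
  have h6 : 1 / 2 ^ k0 * 2 ≤ R := by rw [hR]; linarith
  have h7 : 0 ≤ 60 * (n : ℝ) * R ^ (n - 1) := by positivity
  calc 60 * (n : ℝ) * R ^ (n - 1) * (1 / 2 ^ k0) * 2
      = 60 * (n : ℝ) * R ^ (n - 1) * (1 / 2 ^ k0 * 2) := by ring
    _ ≤ 60 * (n : ℝ) * R ^ (n - 1) * R := mul_le_mul_of_nonneg_left h6 h7
    _ = 60 * n * (R ^ (n - 1) * R) := by ring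

/-- **MULTIPLICITY OF THE FINE SCALES OF A BLOCK**, for any family of potential tiles -/
theorem Mu_le [NeZero n] (Q : CB E n) {τ : Type*} {Til Ac : τ → Set E} (sc : τ → ℕ)
    (zc : τ → Fin n → ℤ) (hinj : ∀ t t', sc t = sc t' → zc t = zc t' → t = t')
    (hT : ∀ t, Til t = Tw Q.ψ Q.a' (sc t) (zc t)) {k0 : ℕ} (hk0 : ∀ t, k0 ≤ sc t)
    (hnw : ∀ t, Nw Q (sc t) (zc t)) {ρ : ℝ} (hρ : 0 ≤ ρ) (hA : ∀ t, ∀ b ∈ Ac t, ‖Q.ψ b‖ ≤ ρ)
    (x : E) :
    Mu μ Til Ac x ≤ ENNReal.ofReal (60 * n) * μ (Q.ψ ⁻¹' closedBall 0 (ρ + 1 / 2 ^ k0)) := by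
  obtain ⟨α, β, hWp⟩ := W_planes Q
  refine (Mu_mono (μ := μ) (fun t => (⟨sc t - k0, zc t⟩ : Σ _ : ℕ, (Fin n → ℤ)))
    (fun t t' h => ?_) (fun t => ?_) (fun t b hb => ?_) x).trans
    (Mu_all (μ := μ) Q.ψ Q.a' isClosed_frontier Q.W_ne hWp hρ k0 x)
  · have h1 : sc t - k0 = sc t' - k0 := congrArg Sigma.fst h
    have h2 : zc t = zc t' := congrArg (fun q : Σ _ : ℕ, (Fin n → ℤ) => q.2) h
    have h3 := hk0 t
    have h4 := hk0 t'
    exact hinj t t' (by omega) h2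
  · show Til t = Tw Q.ψ Q.a' (k0 + (sc t - k0)) (zc t)
    rw [Nat.add_sub_cancel' (hk0 t)]
    exact hT t
  · show b ∈ Aq Q.ψ Q.a' Q.W ρ (k0 + (sc t - k0)) (zc t)
    rw [Nat.add_sub_cancel' (hk0 t)]
    exact ⟨hA t b hb, hnw t⟩

/-- the layer at the wall -/
def Lyr (Q : CB E n) (s : ℝ) : Set E := Q.ψ ⁻¹' {y | infDist y Q.W ≤ s}

theorem isClosed_Lyr (Q : CB E n) (s : ℝ) : IsClosed (Lyr Q s) :=
  (isClosed_le (continuous_infDist_pt _) continuous_const).preimage Q.ψ.continuous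

/-- the shifted tiles lie in the layer -/
theorem add_mem_Lyr (Q : CB E n) {m k0 : ℕ} (hk : k0 ≤ m) {z : Fin n → ℤ} (hnw : Nw Q m z)
    {ρ : ℝ} {y b : E} (hy : y ∈ Tw Q.ψ Q.a' m z) (hb : ‖Q.ψ b‖ ≤ ρ) :
    y + b ∈ Lyr Q (15 / 2 ^ k0 + ρ) := by
  show infDist (Q.ψ (y + b)) Q.W ≤ _
  have h1 := infDist_le_infDist_add_dist (s := Q.W) (x := Q.ψ (y + b)) (y := Q.ψ y)
  have h2 : dist (Q.ψ (y + b)) (Q.ψ y) ≤ ρ := by
    rw [dist_eq_norm, ← map_sub, add_sub_cancel_left]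
    exact hb
  have h3 := hnw _ (show Q.ψ y ∈ Cu Q.a' m z from hy)
  have h4 : (15 : ℝ) / 2 ^ m ≤ 15 / 2 ^ k0 :=
    div_le_div_of_nonneg_left (by norm_num) (by positivity)
      (pow_le_pow_right₀ (by norm_num) hk)
  linarith

/-- balls of comparable radii in the frame -/
theorem ball_ratio (ψ : E ≃L[ℝ] (Fin n → ℝ)) {ρ t l : ℝ} (hρ : 0 ≤ ρ) (ht : 0 ≤ t)
    (hl : l ≤ t * ρ) :
    μ (ψ ⁻¹' closedBall 0 (ρ + l)) ≤ ENNReal.ofReal ((1 + t) ^ n) * μ (ψ ⁻¹' closedBall 0 ρ) := by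
  obtain ⟨c, -, hc⟩ := exists_cst (μ := μ) ψ
  have h1 : μ (ψ ⁻¹' closedBall 0 (ρ + l)) ≤ μ (ψ ⁻¹' closedBall 0 ((1 + t) * ρ)) :=
    measure_mono (preimage_mono (closedBall_subset_closedBall (by linarith)))
  refine h1.trans (le_of_eq ?_)
  rw [hc _ isClosed_closedBall.measurableSet, hc _ isClosed_closedBall.measurableSet,
    Real.volume_pi_closedBall _ (by positivity), Real.volume_pi_closedBall _ hρ,
    Fintype.card_fin]
  have e : 2 * ((1 + t) * ρ) = (1 + t) * (2 * ρ) := by ring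
  rw [e, mul_pow, ENNReal.ofReal_mul (by positivity)]
  ring

/-- **AVERAGE OF THE ENERGY OF ALL FINE SCALES OF A BLOCK**: shifts of size `ρ`, scales `≥ k0`,
region = layer of width `15 / 2^k0 + ρ` at the wall -/
theorem fine_avg [NeZero n] (Q : CB E n) {τ η : Type*} [Countable τ] {Til Ac : τ → Set E}
    (sc : τ → ℕ) (zc : τ → Fin n → ℤ) (hinj : ∀ t t', sc t = sc t' → zc t = zc t' → t = t')
    (hT : ∀ t, Til t = Tw Q.ψ Q.a' (sc t) (zc t)) {k0 : ℕ} (hk0 : ∀ t, k0 ≤ sc t)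
    (hnw : ∀ t, Nw Q (sc t) (zc t)) {ρ : ℝ} (hρ : 0 ≤ ρ) (hA : ∀ t, ∀ b ∈ Ac t, ‖Q.ψ b‖ ≤ ρ)
    (hAm : ∀ t, MeasurableSet (Ac t)) (Ed : τ → Finset η) {m : ℕ} (hn : ∀ i, (Ed i).card ≤ m)
    (x v : η → E) (hsub : ∀ i, ∀ j ∈ Ed i, Sg1_199.sgm (x j) (v j) ⊆ Til i) (β : τ → ℝ≥0∞)
    {G : η → E → ℝ≥0∞} (hG : ∀ j, Measurable (G j)) {H : E → ℝ≥0∞} {cc : η → ℝ≥0∞}
    (hGH : ∀ᵐ z ∂μ, ∀ i, ∀ j ∈ Ed i, G j z ≤ cc j * H z) {K : ℝ≥0∞} (hK : K ≠ ∞)
    (hβ : ∀ i, ∀ j ∈ Ed i, β i * cc j ≤ K) {p : ℝ} (hp : 1 ≤ p) :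
    ∫⁻ a, EnA μ Til Ac Ed β G x v p a ∂μ ≤
      (m * K) ^ p * (ENNReal.ofReal (60 * n) * μ (Q.ψ ⁻¹' closedBall 0 (ρ + 1 / 2 ^ k0))) *
        ∫⁻ z in Lyr Q (15 / 2 ^ k0 + ρ), H z ^ p ∂μ := by
  refine act_avg hAm Ed hn x v hsub β hG hGH hK hβ (isClosed_Lyr Q _).measurableSet ?_ ?_ ?_ hp
  · intro t y hy b hb
    rw [hT t] at hy
    exact add_mem_Lyr Q (hk0 t) (hnw t) hy (hA t b hb)
  · refine ENNReal.mul_ne_top ENNReal.ofReal_ne_top ?_
    exact ((Q.ψ.toHomeomorph.isCompact_preimage.2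
      (isCompact_closedBall _ _)).measure_lt_top).ne
  · intro z _
    exact Mu_le Q sc zc hinj hT hk0 hnw hρ hA z

/-- **the same with the volume of the set of shifts** (`ρ ≥ 2^-k0 / t`): the mean over the shifts
costs the universal factor `60 n (1+t)^n` -/
theorem fine_avg' [NeZero n] (Q : CB E n) {τ η : Type*} [Countable τ] {Til Ac : τ → Set E}
    (sc : τ → ℕ) (zc : τ → Fin n → ℤ) (hinj : ∀ t t', sc t = sc t' → zc t = zc t' → t = t')
    (hT : ∀ t, Til t = Tw Q.ψ Q.a' (sc t) (zc t)) {k0 : ℕ} (hk0 : ∀ t, k0 ≤ sc t)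
    (hnw : ∀ t, Nw Q (sc t) (zc t)) {ρ : ℝ} (hρ : 0 ≤ ρ) (hA : ∀ t, ∀ b ∈ Ac t, ‖Q.ψ b‖ ≤ ρ)
    (hAm : ∀ t, MeasurableSet (Ac t)) (Ed : τ → Finset η) {m : ℕ} (hn : ∀ i, (Ed i).card ≤ m)
    (x v : η → E) (hsub : ∀ i, ∀ j ∈ Ed i, Sg1_199.sgm (x j) (v j) ⊆ Til i) (β : τ → ℝ≥0∞)
    {G : η → E → ℝ≥0∞} (hG : ∀ j, Measurable (G j)) {H : E → ℝ≥0∞} {cc : η → ℝ≥0∞}
    (hGH : ∀ᵐ z ∂μ, ∀ i, ∀ j ∈ Ed i, G j z ≤ cc j * H z) {K : ℝ≥0∞} (hK : K ≠ ∞)
    (hβ : ∀ i, ∀ j ∈ Ed i, β i * cc j ≤ K) {p : ℝ} (hp : 1 ≤ p) {t : ℝ} (ht : 0 ≤ t)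
    (hl : 1 / 2 ^ k0 ≤ t * ρ) :
    ∫⁻ a, EnA μ Til Ac Ed β G x v p a ∂μ ≤
      (m * K) ^ p * ENNReal.ofReal (60 * n * (1 + t) ^ n) * μ (Q.ψ ⁻¹' closedBall 0 ρ) *
        ∫⁻ z in Lyr Q (15 / 2 ^ k0 + ρ), H z ^ p ∂μ := by
  refine (fine_avg Q sc zc hinj hT hk0 hnw hρ hA hAm Ed hn x v hsub β hG hGH hK hβ hp).trans ?_
  refine mul_le_mul_of_nonneg_right ?_ (by positivity)
  have e : ENNReal.ofReal (60 * n * (1 + t) ^ n) =
      ENNReal.ofReal (60 * n) * ENNReal.ofReal ((1 + t) ^ n) := ENNReal.ofReal_mul (by positivity)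
  calc (m * K) ^ p * (ENNReal.ofReal (60 * n) * μ (Q.ψ ⁻¹' closedBall 0 (ρ + 1 / 2 ^ k0)))
      ≤ (m * K) ^ p * (ENNReal.ofReal (60 * n) *
          (ENNReal.ofReal ((1 + t) ^ n) * μ (Q.ψ ⁻¹' closedBall 0 ρ))) := by
        gcongr
        exact ball_ratio (μ := μ) Q.ψ hρ ht hl
    _ = (m * K) ^ p * ENNReal.ofReal (60 * n * (1 + t) ^ n) * μ (Q.ψ ⁻¹' closedBall 0 ρ) := by
        rw [e]; ring

end meas

end

end Crest.Agent.R96.Wm3_748
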