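import Crest.Agent.R96.Wm3_748
import Crest.Agent.R096.Exa3_365

/-!
# Row 96, PREMACH (S3), part 2: the mean of the energy of the inner tiles of a core block, A-form

`∫⁻ v in Wt A ρ, EnA .. v ≤ (K3 * ‖lin A‖ₑ^p * ∫⁻_S ‖(D' z) ∘ lin A⁻¹‖ₑ^p) * volume (Wt A ρ)` with a
constant `K3` of the shapes only (365 #10976 (4), 872 `exists_blocks_W`).
-/

set_option autoImplicit false
set_option linter.unusedSectionVars false
set_option linter.unusedVariables false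

open MeasureTheory Set Filter Metric
open scoped Topology ENNReal Pointwise

namespace Crest.Agent.R96.Wm4_748

open Crest.Agent.R096.Msh_810 Crest.Agent.R096.Msh_715
open Crest.Agent.R096.Mal_874 (CB)
open Crest.Agent.R96.Sg8_199 (Mu EnA Mu_sigma act_avg)
open Crest.Agent.R96.Wm_72 (Tw Tw_tr Tw_aedisj isCompact_Tw measurableSet_Tw Mu_mono)
open Crest.Agent.R96.Wm3_748

noncomputable section

variable {n : ℕ} {E : Type*} [NormedAddCommGroup E] [NormedSpace ℝ E]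
  [FiniteDimensional ℝ E] [MeasurableSpace E] [BorelSpace E] {μ : Measure E} [μ.IsAddHaarMeasure]

/-! ### multiplicities -/

/-- tiles which are a.e. disjoint and small in the frame `ψ` -/
theorem Mu_frame (ψ : E ≃L[ℝ] (Fin n → ℝ)) {τ : Type*} [Countable τ] {Til Ac : τ → Set E}
    (hm : ∀ t, MeasurableSet (Til t)) (hdis : Pairwise (Function.onFun (AEDisjoint μ) Til))
    {D ρ : ℝ} (hD : ∀ t, ∀ y ∈ Til t, ∀ y' ∈ Til t, dist (ψ y') (ψ y) ≤ D)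
    (hA : ∀ t, ∀ b ∈ Ac t, ‖ψ b‖ ≤ ρ) (x : E) :
    Mu μ Til Ac x ≤ μ (ψ ⁻¹' closedBall 0 (ρ + D)) := by
  set S' : Set τ := {t | ∃ y ∈ Til t, x - y ∈ Ac t} with hS'
  have h1 : Mu μ Til Ac x = ∑' t : S', μ (Til t) := by
    unfold Mu
    rw [tsum_subtype S' fun t => μ (Til t)]
    refine tsum_congr fun t => ?_
    by_cases ht : t ∈ S'
    · rw [indicator_of_mem ht, indicator_of_mem (by exact ht)]
    · rw [indicator_of_notMem ht, indicator_of_notMem (by exact ht)]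
  have h2 : μ (ψ ⁻¹' closedBall 0 (ρ + D)) = μ (ψ ⁻¹' closedBall (ψ x) (ρ + D)) := by
    obtain ⟨c, -, hc⟩ := exists_cst (μ := μ) ψ
    rw [hc _ isClosed_closedBall.measurableSet, hc _ isClosed_closedBall.measurableSet,
      Measure.addHaar_closedBall_center volume (ψ x)]
  rw [h1, h2, ← measure_iUnion₀ (f := fun t : S' => Til t)
    (fun i i' h => hdis fun e => h (Subtype.ext e)) fun i => (hm i).nullMeasurableSet]
  refine measure_mono (iUnion_subset fun t y hy => ?_)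
  obtain ⟨y0, hy0, hb⟩ := t.2
  rw [mem_preimage, mem_closedBall]
  have h3 := hD _ _ hy0 _ hy
  have h4 : dist (ψ y0) (ψ x) ≤ ρ := by
    rw [dist_comm, dist_eq_norm, ← map_sub]
    exact hA _ _ hb
  have h5 := dist_triangle (ψ y) (ψ y0) (ψ x)
  linarith

/-- activity set: all shifts of size `ρ`; finer cubes only near the wall `W` -/
def Ar (ψ : E ≃L[ℝ] (Fin n → ℝ)) (a' : Fin n → ℝ) (W : Set (Fin n → ℝ)) (ρ : ℝ) (k0 q : ℕ)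
    (z : Fin n → ℤ) : Set E :=
  {b | ‖ψ b‖ ≤ ρ ∧ (q ≠ 0 → ∀ x ∈ Cu a' (k0 + q) z, infDist x W ≤ 15 / 2 ^ (k0 + q))}

/-- **multiplicity of all scales `≥ k0`**, the scale `k0` unrestricted -/
theorem Mu_all' [NeZero n] (ψ : E ≃L[ℝ] (Fin n → ℝ)) (a' : Fin n → ℝ) {W : Set (Fin n → ℝ)}
    (hWc : IsClosed W) (hWn : W.Nonempty) {α β : Fin n → ℝ}
    (hWp : ∀ w ∈ W, ∃ l, w l = α l ∨ w l = β l) {ρ : ℝ} (hρ : 0 ≤ ρ) (k0 : ℕ) (x : E) :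
    Mu μ (fun q : Σ _ : ℕ, (Fin n → ℤ) => Tw ψ a' (k0 + q.1) q.2)
      (fun q => Ar ψ a' W ρ k0 q.1 q.2) x ≤
      ENNReal.ofReal (60 * n + 1) * μ (ψ ⁻¹' closedBall 0 (ρ + 1 / 2 ^ k0)) := by
  classical
  have h0 := Mu_all (μ := μ) ψ a' hWc hWn hWp hρ k0 x
  rw [Mu_sigma] at h0 ⊢
  have h1 : ∀ m : ℕ, Mu μ (fun z : Fin n → ℤ => Tw ψ a' (k0 + m) z)
      (fun z => Ar ψ a' W ρ k0 m z) x ≤
      (Pi.single (M := fun _ : ℕ => ℝ≥0∞) 0 (μ (ψ ⁻¹' closedBall 0 (ρ + 1 / 2 ^ k0)))) m +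
        Mu μ (fun z : Fin n → ℤ => Tw ψ a' (k0 + m) z) (fun z => Aq ψ a' W ρ (k0 + m) z) x := by
    intro m
    rcases Nat.eq_zero_or_pos m with rfl | hm
    · rw [Pi.single_eq_same]
      refine le_trans ?_ le_self_add
      have h2 := Mu_frame (μ := μ) ψ (τ := Fin n → ℤ) (Til := fun z => Tw ψ a' (k0 + 0) z)
        (Ac := fun z => Ar ψ a' W ρ k0 0 z) (D := 1 / 2 ^ (k0 + 0)) (ρ := ρ)
        (fun z => measurableSet_Tw) (fun z z' h => Tw_aedisj ψ a' _ h) ?_ (fun z b hb => hb.1) x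
      · simpa using h2
      · intro z y hy y' hy'
        have h3 := dist_le_of_mem_Cu (show ψ y' ∈ Cu a' (k0 + 0) z from hy')
          (show ψ y ∈ Cu a' (k0 + 0) z from hy)
        rw [le_div_iff₀' (by positivity)]
        exact h3
    · refine le_trans ?_ le_add_self
      refine Mu_mono (μ := μ) id Function.injective_id (fun z => rfl) (fun z b hb => ?_) x
      exact ⟨hb.1, hb.2 (by omega)⟩
  refine (ENNReal.tsum_le_tsum h1).trans ?_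
  rw [ENNReal.tsum_add, tsum_pi_single]
  have e : ENNReal.ofReal (60 * n + 1) = ENNReal.ofReal (60 * n) + 1 := by
    rw [ENNReal.ofReal_add (by positivity) (by norm_num), ENNReal.ofReal_one]
  rw [e, add_mul, one_mul, add_comm]
  exact add_le_add h0 le_rfl

/-- **multiplicity of the inner cubes of a block**: all scales `≥ k0`, those `> k0` near the wall -/
theorem Mu_cubes [NeZero n] (Q : CB E n) {τ : Type*} {Til Ac : τ → Set E} (sc : τ → ℕ)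
    (zc : τ → Fin n → ℤ) (hinj : ∀ t t', sc t = sc t' → zc t = zc t' → t = t')
    (hT : ∀ t, Til t = Tw Q.ψ Q.a' (sc t) (zc t)) {k0 : ℕ} (hk0 : ∀ t, k0 ≤ sc t)
    (hnw : ∀ t, k0 < sc t → Nw Q (sc t) (zc t)) {ρ : ℝ} (hρ : 0 ≤ ρ)
    (hA : ∀ t, ∀ b ∈ Ac t, ‖Q.ψ b‖ ≤ ρ) (x : E) :
    Mu μ Til Ac x ≤ ENNReal.ofReal (60 * n + 1) * μ (Q.ψ ⁻¹' closedBall 0 (ρ + 1 / 2 ^ k0)) := by
  obtain ⟨α, β, hWp⟩ := W_planes Q
  refine (Mu_mono (μ := μ) (fun t => (⟨sc t - k0, zc t⟩ : Σ _ : ℕ, (Fin n → ℤ)))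
    (fun t t' h => ?_) (fun t => ?_) (fun t b hb => ?_) x).trans
    (Mu_all' (μ := μ) Q.ψ Q.a' isClosed_frontier Q.W_ne hWp hρ k0 x)
  · have h1 : sc t - k0 = sc t' - k0 := congrArg Sigma.fst h
    have h2 : zc t = zc t' := congrArg (fun q : Σ _ : ℕ, (Fin n → ℤ) => q.2) h
    have h3 := hk0 t
    have h4 := hk0 t'
    exact hinj t t' (by omega) h2
  · show Til t = Tw Q.ψ Q.a' (k0 + (sc t - k0)) (zc t)
    rw [Nat.add_sub_cancel' (hk0 t)]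
    exact hT t
  · refine ⟨hA t b hb, fun hq => ?_⟩
    have h3 := hk0 t
    change sc t - k0 ≠ 0 at hq
    change ∀ x ∈ Cu Q.a' (k0 + (sc t - k0)) (zc t), infDist x Q.W ≤ 15 / 2 ^ (k0 + (sc t - k0))
    rw [Nat.add_sub_cancel' (hk0 t)]
    exact hnw t (by omega)

/-! ### volumes -/

/-- the cube of shifts against the balls of the multiplicity -/
theorem ball_cube (ψ : E ≃L[ℝ] (Fin n → ℝ)) {r t l : ℝ} (hr : 0 ≤ r) (ht : 0 ≤ t)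
    (hl : l ≤ t * r) :
    μ (ψ ⁻¹' closedBall 0 (r + l)) ≤
      ENNReal.ofReal ((2 * (1 + t)) ^ n) * μ (ψ ⁻¹' Icc 0 (fun _ => r)) := by
  obtain ⟨c, -, hc⟩ := exists_cst (μ := μ) ψ
  have h1 : μ (ψ ⁻¹' closedBall 0 (r + l)) ≤ μ (ψ ⁻¹' closedBall 0 ((1 + t) * r)) :=
    measure_mono (preimage_mono (closedBall_subset_closedBall (by linarith)))
  refine h1.trans (le_of_eq ?_)
  rw [hc _ isClosed_closedBall.measurableSet, hc _ measurableSet_Icc,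
    Real.volume_pi_closedBall _ (by positivity), Real.volume_Icc_pi, Fintype.card_fin]
  simp only [Pi.zero_apply, sub_zero, Finset.prod_const, Finset.card_univ, Fintype.card_fin]
  have e : 2 * ((1 + t) * r) = 2 * (1 + t) * r := by ring
  rw [e, mul_pow, ENNReal.ofReal_mul (by positivity), ENNReal.ofReal_pow hr]
  ring

/-! ### the mean of the energy in the frame of the block -/

/-- **mean of the energy**, from a bound of the multiplicity; `sc t` the scale of the tile `t` -/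
theorem mean_of_Mu (ψ : E ≃L[ℝ] (Fin n → ℝ)) {F : Type*} [NormedAddCommGroup F] [NormedSpace ℝ F]
    [MeasurableSpace F] [BorelSpace F]
    {τ η : Type*} [Countable τ] {Til Ac : τ → Set E} (hAm : ∀ t, MeasurableSet (Ac t))
    (Ed : τ → Finset η) {m : ℕ} (hn : ∀ t, (Ed t).card ≤ m) (x v : η → E)
    (hsub : ∀ t, ∀ j ∈ Ed t, Sg1_199.sgm (x j) (v j) ⊆ Til t)
    {β : τ → ℝ≥0∞} (sc : τ → ℕ) {b R : ℝ} (hb : 0 ≤ b) (hR : 0 ≤ R)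
    (hβ : ∀ t, β t ≤ ENNReal.ofReal (b * 2 ^ sc t) * ‖(ψ : E →L[ℝ] (Fin n → ℝ))‖ₑ)
    (hdiam : ∀ t, ∀ y ∈ Til t, ∀ y' ∈ Til t, dist (ψ y') (ψ y) ≤ R / 2 ^ sc t)
    {D' : E → E →L[ℝ] F} (hD : ∀ w, Measurable fun z => D' z w)
    {S : Set E} (hS : MeasurableSet S) (hSA : ∀ t, ∀ y ∈ Til t, ∀ a ∈ Ac t, y + a ∈ S)
    {M : ℝ≥0∞} (hM1 : M ≠ ∞) (hM : ∀ z ∈ S, Mu μ Til Ac z ≤ M) {p : ℝ} (hp : 1 ≤ p) :
    ∫⁻ a, EnA μ Til Ac Ed β (fun j z => ‖D' z (v j)‖ₑ) x v p a ∂μ ≤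
      (m * (ENNReal.ofReal (b * R) * ‖(ψ : E →L[ℝ] (Fin n → ℝ))‖ₑ)) ^ p * M *
        ∫⁻ z in S, ‖(D' z).comp (ψ.symm : (Fin n → ℝ) →L[ℝ] E)‖ₑ ^ p ∂μ := by
  have hK : ENNReal.ofReal (b * R) * ‖(ψ : E →L[ℝ] (Fin n → ℝ))‖ₑ ≠ ∞ :=
    ENNReal.mul_ne_top ENNReal.ofReal_ne_top enorm_ne_top
  refine act_avg (c := fun j => ‖ψ (v j)‖ₑ) hAm Ed hn x v hsub β
    (fun j => (hD (v j)).enorm) (Eventually.of_forall ?_) hK ?_ hS hSA hM1 hM hp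
  · intro z t j _
    have e : D' z (v j) = ((D' z).comp (ψ.symm : (Fin n → ℝ) →L[ℝ] E)) (ψ (v j)) := by
      simp
    rw [e, mul_comm]
    exact ContinuousLinearMap.le_opENorm _ _
  · intro t j hj
    have h1 : x j ∈ Til t := hsub t j hj ⟨0, ⟨le_rfl, zero_le_one⟩, by simp⟩
    have h2 : x j + v j ∈ Til t := hsub t j hj ⟨1, ⟨zero_le_one, le_rfl⟩, by simp⟩
    have h3 := hdiam t _ h1 _ h2
    rw [dist_eq_norm, ← map_sub, add_sub_cancel_left] at h3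
    have h4 : ‖ψ (v j)‖ₑ ≤ ENNReal.ofReal (R / 2 ^ sc t) := by
      rw [← ofReal_norm]
      exact ENNReal.ofReal_le_ofReal h3
    calc β t * ‖ψ (v j)‖ₑ
        ≤ (ENNReal.ofReal (b * 2 ^ sc t) * ‖(ψ : E →L[ℝ] (Fin n → ℝ))‖ₑ) *
            ENNReal.ofReal (R / 2 ^ sc t) := mul_le_mul' (hβ t) h4
      _ = (ENNReal.ofReal (b * 2 ^ sc t) * ENNReal.ofReal (R / 2 ^ sc t)) *
            ‖(ψ : E →L[ℝ] (Fin n → ℝ))‖ₑ := by ring
      _ = _ := by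
          rw [← ENNReal.ofReal_mul (by positivity)]
          congr 2
          field_simp

end

/-! ### the form with the affine map of the core -/

section Aform

open Crest.Agent.R096.SkC1_961 (E3)
open Crest.Agent.R096.EaX_766 (lin)
open Crest.Agent.R096.Exa_365 (Wt)

noncomputable section

/-- the constant -/
def K3 (p : ℝ) (m : ℕ) (b R t : ℝ) (cM : ℝ≥0∞) : ℝ≥0∞ :=
  (m * ENNReal.ofReal (b * R)) ^ p * (cM * ENNReal.ofReal ((2 * (1 + t)) ^ 3))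

theorem K3_ne_top {p : ℝ} (hp : 0 ≤ p) {m : ℕ} {b R t : ℝ} {cM : ℝ≥0∞} (h : cM ≠ ∞) :
    K3 p m b R t cM ≠ ∞ :=
  ENNReal.mul_ne_top (ENNReal.rpow_ne_top_of_nonneg hp
    (ENNReal.mul_ne_top (ENNReal.natCast_ne_top m) ENNReal.ofReal_ne_top))
    (ENNReal.mul_ne_top h ENNReal.ofReal_ne_top)

theorem lin_symm_lin (A : E3 ≃ᵃ[ℝ] E3) (y : E3) : lin A.symm (lin A y) = y := by
  show A.symm.linear (A.linear y) = y
  rw [AffineEquiv.linear_symm]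
  exact A.linear.symm_apply_apply y

variable {A : E3 ≃ᵃ[ℝ] E3} {s : ℝ} {ψ : E3 ≃L[ℝ] (Fin 3 → ℝ)}

theorem psi_symm (hs : 0 < s) (hψ : ∀ y, ψ y = s⁻¹ • lin A y) (y : Fin 3 → ℝ) :
    ψ.symm y = s • lin A.symm y := by
  have h1 := hψ (ψ.symm y)
  rw [ContinuousLinearEquiv.apply_symm_apply] at h1
  have h2 : lin A (ψ.symm y) = s • y := by
    calc lin A (ψ.symm y) = s • (s⁻¹ • lin A (ψ.symm y)) := by
          rw [smul_smul, mul_inv_cancel₀ hs.ne', one_smul]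
      _ = s • y := by rw [← h1]
  have h3 := lin_symm_lin A (ψ.symm y)
  rw [h2, map_smul] at h3
  exact h3.symm

theorem enorm_psi (hψ : ∀ y, ψ y = s⁻¹ • lin A y) :
    ‖(ψ : E3 →L[ℝ] (Fin 3 → ℝ))‖ₑ = ‖s⁻¹‖ₑ * ‖lin A‖ₑ := by
  have e : (ψ : E3 →L[ℝ] (Fin 3 → ℝ)) = s⁻¹ • lin A := by
    ext y i
    have := congrFun (hψ y) i
    simpa using this
  rw [e, enorm_smul]

theorem enorm_comp {F : Type*} [NormedAddCommGroup F] [NormedSpace ℝ F] (hs : 0 < s)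
    (hψ : ∀ y, ψ y = s⁻¹ • lin A y) (D : E3 →L[ℝ] F) :
    ‖D.comp (ψ.symm : (Fin 3 → ℝ) →L[ℝ] E3)‖ₑ = ‖s‖ₑ * ‖D.comp (lin A.symm)‖ₑ := by
  have e : D.comp (ψ.symm : (Fin 3 → ℝ) →L[ℝ] E3) = s • D.comp (lin A.symm) := by
    ext y
    have := psi_symm hs hψ y
    simp [this]
  rw [e, enorm_smul]

theorem Wt_eq (hs : 0 < s) (hψ : ∀ y, ψ y = s⁻¹ • lin A y) (ρ : ℝ) :
    Wt A ρ = ψ ⁻¹' Icc 0 (fun _ => ρ / s) := by
  ext w
  show lin A w ∈ Icc 0 (fun _ => ρ) ↔ ψ w ∈ Icc 0 (fun _ => ρ / s)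
  rw [hψ w]
  constructor
  · rintro ⟨h1, h2⟩
    refine ⟨fun i => ?_, fun i => ?_⟩
    · have := h1 i
      simp only [Pi.zero_apply, Pi.smul_apply, smul_eq_mul] at this ⊢
      positivity
    · have := h2 i
      simp only [Pi.smul_apply, smul_eq_mul] at this ⊢
      rw [div_eq_inv_mul]
      exact mul_le_mul_of_nonneg_left this (by positivity)
  · rintro ⟨h1, h2⟩
    refine ⟨fun i => ?_, fun i => ?_⟩
    · have := h1 i
      simp only [Pi.zero_apply, Pi.smul_apply, smul_eq_mul] at this ⊢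
      exact (mul_nonneg_iff_of_pos_left (inv_pos.2 hs)).1 this
    · have := h2 i
      simp only [Pi.smul_apply, smul_eq_mul] at this ⊢
      rw [div_eq_inv_mul] at this
      exact le_of_mul_le_mul_left this (inv_pos.2 hs)

/-- shifts in `Wt A ρ` are small in the frame -/
theorem norm_of_Wt (hs : 0 < s) (hψ : ∀ y, ψ y = s⁻¹ • lin A y) {ρ : ℝ} (hρ : 0 ≤ ρ) {w : E3}
    (hw : w ∈ Wt A ρ) : ‖ψ w‖ ≤ ρ / s := by
  rw [Wt_eq hs hψ ρ] at hw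
  obtain ⟨h1, h2⟩ := hw
  rw [pi_norm_le_iff_of_nonneg (by positivity)]
  intro i
  have h3 := h1 i
  have h4 := h2 i
  rw [Real.norm_eq_abs, abs_le]
  simp only [Pi.zero_apply] at h3
  constructor
  · have : 0 ≤ ρ / s := by positivity
    linarith
  · exact h4

/-- **MEAN OF THE ENERGY OF A CLASS OF INNER TILES, A-FORM**, from the multiplicity -/
theorem mean_A (hs : 0 < s) (hψ : ∀ y, ψ y = s⁻¹ • lin A y) {F : Type*} [NormedAddCommGroup F]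
    [NormedSpace ℝ F] [MeasurableSpace F] [BorelSpace F]
    {τ η : Type*} [Countable τ] {Til Ac : τ → Set E3} (hAm : ∀ t, MeasurableSet (Ac t))
    (Ed : τ → Finset η) {m : ℕ} (hn : ∀ t, (Ed t).card ≤ m) (x v : η → E3)
    (hsub : ∀ t, ∀ j ∈ Ed t, Sg1_199.sgm (x j) (v j) ⊆ Til t)
    {β : τ → ℝ≥0∞} (sc : τ → ℕ) {b R : ℝ} (hb : 0 ≤ b) (hR : 0 ≤ R)
    (hβ : ∀ t, β t ≤ ENNReal.ofReal (b * 2 ^ sc t) * ‖(ψ : E3 →L[ℝ] (Fin 3 → ℝ))‖ₑ)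
    (hdiam : ∀ t, ∀ y ∈ Til t, ∀ y' ∈ Til t, dist (ψ y') (ψ y) ≤ R / 2 ^ sc t)
    {D' : E3 → E3 →L[ℝ] F} (hD : ∀ w, Measurable fun z => D' z w)
    {S : Set E3} (hS : MeasurableSet S) (hSA : ∀ t, ∀ y ∈ Til t, ∀ a ∈ Ac t, y + a ∈ S)
    {cM : ℝ≥0∞} (hcM : cM ≠ ∞) {ρ t l : ℝ} (hρ : 0 ≤ ρ) (ht : 0 ≤ t) (hl : s * l ≤ t * ρ)
    (hM : ∀ z ∈ S, Mu volume Til Ac z ≤ cM * volume (ψ ⁻¹' closedBall 0 (ρ / s + l))) {p : ℝ}
    (hp : 1 ≤ p) :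
    ∫⁻ a in Wt A ρ, EnA volume Til Ac Ed β (fun j z => ‖D' z (v j)‖ₑ) x v p a ≤
      (K3 p m b R t cM * ‖lin A‖ₑ ^ p * ∫⁻ z in S, ‖(D' z).comp (lin A.symm)‖ₑ ^ p) *
        volume (Wt A ρ) := by
  have hp0 : 0 ≤ p := by linarith
  refine (setLIntegral_le_lintegral _ _).trans ?_
  have hM1 : cM * volume (ψ ⁻¹' closedBall 0 (ρ / s + l)) ≠ ∞ :=
    ENNReal.mul_ne_top hcM ((ψ.toHomeomorph.isCompact_preimage.2
      (isCompact_closedBall _ _)).measure_lt_top).ne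
  refine (mean_of_Mu (μ := volume) ψ hAm Ed hn x v hsub sc hb hR hβ hdiam hD hS hSA hM1 hM
    hp).trans ?_
  have h1 : volume (ψ ⁻¹' closedBall 0 (ρ / s + l)) ≤
      ENNReal.ofReal ((2 * (1 + t)) ^ 3) * volume (Wt A ρ) := by
    rw [Wt_eq hs hψ ρ]
    refine ball_cube (μ := volume) ψ (by positivity) ht ?_
    rw [← mul_div_assoc, le_div_iff₀' hs]
    exact hl
  have hs1 : ‖s⁻¹‖ₑ * ‖s‖ₑ = 1 := by
    rw [← enorm_mul, inv_mul_cancel₀ hs.ne', enorm_one]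
  have h2 : ∫⁻ z in S, ‖(D' z).comp (ψ.symm : (Fin 3 → ℝ) →L[ℝ] E3)‖ₑ ^ p =
      ‖s‖ₑ ^ p * ∫⁻ z in S, ‖(D' z).comp (lin A.symm)‖ₑ ^ p := by
    rw [← lintegral_const_mul' _ _ (ENNReal.rpow_ne_top_of_nonneg hp0 enorm_ne_top)]
    refine lintegral_congr fun z => ?_
    rw [enorm_comp hs hψ, ENNReal.mul_rpow_of_nonneg _ _ hp0]
  rw [h2, enorm_psi hψ]
  set N := ‖lin A‖ₑ
  set I := ∫⁻ z in S, ‖(D' z).comp (lin A.symm)‖ₑ ^ p
  calc ((m : ℝ≥0∞) * (ENNReal.ofReal (b * R) * (‖s⁻¹‖ₑ * N))) ^ p *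
        (cM * volume (ψ ⁻¹' closedBall 0 (ρ / s + l))) * (‖s‖ₑ ^ p * I)
      ≤ ((m : ℝ≥0∞) * (ENNReal.ofReal (b * R) * (‖s⁻¹‖ₑ * N))) ^ p *
        (cM * (ENNReal.ofReal ((2 * (1 + t)) ^ 3) * volume (Wt A ρ))) * (‖s‖ₑ ^ p * I) := by
        gcongr
    _ = (((m : ℝ≥0∞) * (ENNReal.ofReal (b * R) * (‖s⁻¹‖ₑ * N))) * ‖s‖ₑ) ^ p *
        (cM * (ENNReal.ofReal ((2 * (1 + t)) ^ 3) * volume (Wt A ρ))) * I := by
        rw [ENNReal.mul_rpow_of_nonneg _ ‖s‖ₑ hp0]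
        ring
    _ = (((m : ℝ≥0∞) * ENNReal.ofReal (b * R)) * N) ^ p *
        (cM * (ENNReal.ofReal ((2 * (1 + t)) ^ 3) * volume (Wt A ρ))) * I := by
        congr 3
        calc (m : ℝ≥0∞) * (ENNReal.ofReal (b * R) * (‖s⁻¹‖ₑ * N)) * ‖s‖ₑ
            = (m : ℝ≥0∞) * ENNReal.ofReal (b * R) * N * (‖s⁻¹‖ₑ * ‖s‖ₑ) := by ring
          _ = _ := by rw [hs1, mul_one]
    _ = (K3 p m b R t cM * N ^ p * I) * volume (Wt A ρ) := by
        rw [ENNReal.mul_rpow_of_nonneg _ N hp0]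
        unfold K3
        ring

/-- **INNER CUBES**: all scales `≥ k0`, those `> k0` near the wall; `s 2^-k0 ≤ t ρ` -/
theorem cubes_A (Q : CB E3 3) (hs : 0 < s) (hψ : ∀ y, Q.ψ y = s⁻¹ • lin A y) {F : Type*}
    [NormedAddCommGroup F] [NormedSpace ℝ F] [MeasurableSpace F] [BorelSpace F]
    {τ η : Type*} [Countable τ] {Til Ac : τ → Set E3} (hAm : ∀ t, MeasurableSet (Ac t))
    (Ed : τ → Finset η) {m : ℕ} (hn : ∀ t, (Ed t).card ≤ m) (x v : η → E3)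
    (hsub : ∀ t, ∀ j ∈ Ed t, Sg1_199.sgm (x j) (v j) ⊆ Til t)
    {β : τ → ℝ≥0∞} (sc : τ → ℕ) (zc : τ → Fin 3 → ℤ)
    (hinj : ∀ t t', sc t = sc t' → zc t = zc t' → t = t')
    (hT : ∀ t, Til t = Tw Q.ψ Q.a' (sc t) (zc t)) {k0 : ℕ} (hk0 : ∀ t, k0 ≤ sc t)
    (hnw : ∀ t, k0 < sc t → Nw Q (sc t) (zc t)) {b : ℝ} (hb : 0 ≤ b)
    (hβ : ∀ t, β t ≤ ENNReal.ofReal (b * 2 ^ sc t) * ‖(Q.ψ : E3 →L[ℝ] (Fin 3 → ℝ))‖ₑ)
    {D' : E3 → E3 →L[ℝ] F} (hD : ∀ w, Measurable fun z => D' z w)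
    {S : Set E3} (hS : MeasurableSet S) (hSA : ∀ t, ∀ y ∈ Til t, ∀ a ∈ Ac t, y + a ∈ S)
    {ρ t : ℝ} (hρ : 0 ≤ ρ) (ht : 0 ≤ t) (hl : s * (1 / 2 ^ k0) ≤ t * ρ)
    (hA : ∀ i, Ac i ⊆ Wt A ρ) {p : ℝ} (hp : 1 ≤ p) :
    ∫⁻ a in Wt A ρ, EnA volume Til Ac Ed β (fun j z => ‖D' z (v j)‖ₑ) x v p a ≤
      (K3 p m b 1 t 181 * ‖lin A‖ₑ ^ p * ∫⁻ z in S, ‖(D' z).comp (lin A.symm)‖ₑ ^ p) *
        volume (Wt A ρ) := by
  refine mean_A hs hψ hAm Ed hn x v hsub sc hb zero_le_one hβ ?_ hD hS hSA (by simp) hρ ht hl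
    ?_ hp
  · intro i y hy y' hy'
    rw [hT i] at hy hy'
    have h3 := dist_le_of_mem_Cu (show Q.ψ y' ∈ Cu Q.a' (sc i) (zc i) from hy')
      (show Q.ψ y ∈ Cu Q.a' (sc i) (zc i) from hy)
    rw [le_div_iff₀' (by positivity)]
    exact h3
  · intro z _
    have h := Mu_cubes (μ := volume) Q sc zc hinj hT hk0 hnw (ρ := ρ / s) (by positivity)
      (fun i b hb => norm_of_Wt hs hψ hρ (hA i hb)) z
    refine h.trans (le_of_eq ?_)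
    congr 1
    norm_num

/-- **TILES OF BOUNDED SIZE** (prism shell, coarse cubes): a.e. disjoint, `ψ`-diameter `≤ R / 2^k` -/
theorem shell_A (hs : 0 < s) (hψ : ∀ y, ψ y = s⁻¹ • lin A y) {F : Type*}
    [NormedAddCommGroup F] [NormedSpace ℝ F] [MeasurableSpace F] [BorelSpace F]
    {τ η : Type*} [Countable τ] {Til Ac : τ → Set E3} (hAm : ∀ t, MeasurableSet (Ac t))
    (hTm : ∀ t, MeasurableSet (Til t))
    (hdis : Pairwise (Function.onFun (AEDisjoint volume) Til))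
    (Ed : τ → Finset η) {m : ℕ} (hn : ∀ t, (Ed t).card ≤ m) (x v : η → E3)
    (hsub : ∀ t, ∀ j ∈ Ed t, Sg1_199.sgm (x j) (v j) ⊆ Til t)
    {β : τ → ℝ≥0∞} {k : ℕ} {b R : ℝ} (hb : 0 ≤ b) (hR : 0 ≤ R)
    (hβ : ∀ t, β t ≤ ENNReal.ofReal (b * 2 ^ k) * ‖(ψ : E3 →L[ℝ] (Fin 3 → ℝ))‖ₑ)
    (hdiam : ∀ t, ∀ y ∈ Til t, ∀ y' ∈ Til t, dist (ψ y') (ψ y) ≤ R / 2 ^ k)
    {D' : E3 → E3 →L[ℝ] F} (hD : ∀ w, Measurable fun z => D' z w)
    {S : Set E3} (hS : MeasurableSet S) (hSA : ∀ t, ∀ y ∈ Til t, ∀ a ∈ Ac t, y + a ∈ S)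
    {ρ t : ℝ} (hρ : 0 ≤ ρ) (ht : 0 ≤ t) (hl : s * (R / 2 ^ k) ≤ t * ρ)
    (hA : ∀ i, Ac i ⊆ Wt A ρ) {p : ℝ} (hp : 1 ≤ p) :
    ∫⁻ a in Wt A ρ, EnA volume Til Ac Ed β (fun j z => ‖D' z (v j)‖ₑ) x v p a ≤
      (K3 p m b R t 1 * ‖lin A‖ₑ ^ p * ∫⁻ z in S, ‖(D' z).comp (lin A.symm)‖ₑ ^ p) *
        volume (Wt A ρ) := by
  refine mean_A hs hψ hAm Ed hn x v hsub (fun _ => k) hb hR hβ hdiam hD hS hSA ENNReal.one_ne_top
    hρ ht hl ?_ hp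
  intro z _
  rw [one_mul]
  exact Mu_frame (μ := volume) ψ hTm hdis hdiam
    (fun i b hb => norm_of_Wt hs hψ hρ (hA i hb)) z

end

end Aform

end Crest.Agent.R96.Wm4_748
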