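import Crest.Agent.R96.Wm2_72
import Crest.Agent.R096.Mou3_324

/-!
# Row 96, (WALL-MEAN): the means of the wall classes of the instance of `MF`

`cut_pt` : a thin class of a `PT` (880) has small mean energy; `mean_QW` : the wall classes of 324's outer half `QW`
(potential tiles `(j, z, S)`): for every `ε ≠ 0` there is `k0` such that the mean is at most `ε` if `k0 ≤ k j`.
-/

set_option autoImplicit false

open MeasureTheory Set Filter Metric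
open scoped Topology ENNReal Pointwise

namespace Crest.Agent.R96.Wm5_72

open Crest.Agent.R096.Msh_810 Crest.Agent.R096.Mal_874 Crest.Agent.R096.Mou_324
open Crest.Agent.R096.SkC1_961 (E3)
open Crest.Agent.R96.Sg1_199 (li sgm)
open Crest.Agent.R96.Sg8_199 (Mu EnA Mu_le_vol act_avg)
open Crest.Agent.R96.Wm2_72
open Crest.Agent.R096.Mfa_880 (PT)
open Crest.Agent.R096.Mfe_161 (PTn)

noncomputable section

/-- restriction of the shifts -/
theorem enA_restrict {E : Type*} [NormedAddCommGroup E] [NormedSpace ℝ E] [MeasurableSpace E]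
    {μ : Measure E} {τ η : Type*} {Til Ac : τ → Set E} {Ed : τ → Finset η} {β : τ → ℝ≥0∞}
    {G : η → E → ℝ≥0∞} {x v : η → E} {p : ℝ} {A : Set E} (Am : MeasurableSet A) :
    ∫⁻ a in A, EnA μ Til Ac Ed β G x v p a ∂μ =
      ∫⁻ a, EnA μ Til (fun t => Ac t ∩ A) Ed β G x v p a ∂μ := by
  rw [← lintegral_indicator Am]
  refine lintegral_congr fun a => ?_
  unfold EnA
  by_cases ha : a ∈ A
  · rw [indicator_of_mem ha]
    refine tsum_congr fun t => ?_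
    by_cases hb : a ∈ Ac t
    · rw [indicator_of_mem hb, indicator_of_mem (show a ∈ Ac t ∩ A from ⟨hb, ha⟩)]
    · rw [indicator_of_notMem hb, indicator_of_notMem (fun h : a ∈ Ac t ∩ A => hb h.1)]
  · rw [indicator_of_notMem ha]
    symm
    rw [ENNReal.tsum_eq_zero]
    intro t
    exact indicator_of_notMem (fun h : a ∈ Ac t ∩ A => ha h.2) _

/-- **thin class of a `PT`** -/
theorem cut_pt {F : Set E3} (hF : IsCompact F) (hF0 : volume F = 0) {W : Type*} [Fintype W]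
    (sh : W → E3) (c : ℝ) {n : ℕ} {K : ℝ≥0∞} (hK : K ≠ ∞) {R : Set E3} (hR : MeasurableSet R)
    {H : E3 → ℝ≥0∞} {p : ℝ} (hp : 1 ≤ p) (hH : ∫⁻ z in R, H z ^ p ≠ ∞) {ε : ℝ≥0∞}
    (hε : ε ≠ 0) :
    ∃ k0 : ℕ, ∀ k ≥ k0, ∀ {J : Type} (Q : PT J) {κ : Q.κ} {A : Set E3}, MeasurableSet A →
      ∀ (wt : {t // Q.cl t = κ} → W),
      (∀ t, Q.cl t = κ → MeasurableSet (Q.Til t)) →
      (∀ t t' : {t // Q.cl t = κ}, t ≠ t' → wt t = wt t' → (Q.Ac t ∩ A).Nonempty →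
        (Q.Ac t' ∩ A).Nonempty → AEDisjoint volume (Q.Til t) (Q.Til t')) →
      (∀ t : {t // Q.cl t = κ}, (Q.Ac t ∩ A).Nonempty →
        Q.Til t ⊆ cthickening (c / 2 ^ k) ((fun y => y + sh (wt t)) '' F)) →
      (∀ t, Q.cl t = κ → (Q.Ed t).card ≤ n) →
      (∀ t, Q.cl t = κ → ∀ j ∈ Q.Ed t, ENNReal.ofReal (Q.β t) * ‖Q.v j‖ₑ ≤ K) →
      (∀ t, Q.cl t = κ → ∀ y ∈ Q.Til t, ∀ b ∈ Q.Ac t, b ∈ A → y + b ∈ R) →
      ∀ {G : E3 → E3 → ℝ≥0∞}, (∀ v, Measurable (G v)) → (∀ᵐ y : E3, ∀ v, G v y ≤ ‖v‖ₑ * H y) →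
      ∫⁻ a in A, Q.EnC G p κ a ≤ ε := by
  obtain ⟨k0, hk0⟩ := cut_avg' (μ := (volume : Measure E3)) hF hF0 sh c (n := n) hK hR hp hH hε
  refine ⟨k0, fun k hk J Q κ A Am wt hm hd hT hn hβ hRA G hGm hGH => ?_⟩
  have := Q.cτ
  have e1 := enA_restrict (μ := (volume : Measure E3))
    (Til := fun t : {t // Q.cl t = κ} => Q.Til t) (Ac := fun t => Q.Ac t) (Ed := fun t => Q.Ed t)
    (β := fun t => ENNReal.ofReal (Q.β t)) (G := fun j => G (Q.v j)) (x := Q.x) (v := Q.v)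
    (p := p) Am
  refine (le_of_eq e1).trans ?_
  refine hk0 k hk wt (fun t => hm t.1 t.2) (fun t => (Q.Acm t.1).inter Am) hd hT
    (fun t : {t // Q.cl t = κ} => Q.Ed t) (fun t => hn t.1 t.2) Q.x Q.v
    (fun t j hj => (Q.sub t.1 j hj).2) _ (fun j => hGm _) (cc := fun j => ‖Q.v j‖ₑ) ?_
    (fun t j hj => hβ t.1 t.2 j hj) (fun t y hy b hb => hRA t.1 t.2 y hy b hb.1 hb.2)
  filter_upwards [hGH] with y hy t j _
  exact hy _

section

variable {J : Type} {M : MD E3 3 J} {k : J → ℕ} {W : J → Set E3}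

/-- size of the potential tiles -/
theorem Tq_dist {φ : E3 ≃L[ℝ] (Fin 3 → ℝ)} {κ : ℕ} {z : Fin 3 → ℤ} {S : Set (Fin 3 → ℝ)} {R : ℝ}
    (hS : BS R S) (hR : 0 ≤ R) {x y : E3} (hx : x ∈ Tq φ 0 κ z S) (hy : y ∈ Tq φ 0 κ z S) :
    dist (φ x) (φ y) ≤ (2 * R + 1) / 2 ^ κ := by
  have hp : (0 : ℝ) < 2 ^ κ := by positivity
  rw [dist_pi_le_iff (by positivity)]
  intro m
  have h1 := hS _ hx m
  have h2 := hS _ hy m
  simp only [chi_apply, Pi.zero_apply, sub_zero] at h1 h2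
  have h3 : |φ x m - φ y m| = |2 ^ κ * (φ x m - φ y m)| / 2 ^ κ := by
    rw [abs_mul, abs_of_pos hp]; field_simp
  rw [Real.dist_eq, h3]
  refine div_le_div_of_nonneg_right ?_ hp.le
  rw [abs_le]
  constructor <;> linarith [h1.1, h1.2, h2.1, h2.2]

/-- different potential tiles with the same shape and the same residues are disjoint -/
theorem Tq_disj {φ : E3 ≃L[ℝ] (Fin 3 → ℝ)} {κ : ℕ} {z z' : Fin 3 → ℤ} {S : Set (Fin 3 → ℝ)}
    {R : ℝ} (hS : BS R S) {N : ℕ} (hN : 2 * R + 1 < N) (hz : z ≠ z')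
    (hzz : ∀ m, (z m : ZMod N) = (z' m : ZMod N)) : Disjoint (Tq φ 0 κ z S) (Tq φ 0 κ z' S) := by
  obtain ⟨m, hm⟩ : ∃ m, z m ≠ z' m := Function.ne_iff.1 hz
  rw [Set.disjoint_left]
  intro y hy hy'
  have h1 := hS _ hy m
  have h2 := hS _ hy' m
  have h3 : (N : ℤ) ∣ z' m - z m := (ZMod.intCast_eq_intCast_iff_dvd_sub _ _ _).1 (hzz m)
  have h4 : (N : ℤ) ≤ |z' m - z m| := Int.le_of_dvd (abs_pos.2 (sub_ne_zero.2 (Ne.symm hm)))
    ((dvd_abs _ _).2 h3)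
  have h5 : (N : ℝ) ≤ |(z' m : ℝ) - z m| := by exact_mod_cast h4
  have h6 : |(z' m : ℝ) - z m| ≤ 2 * R + 1 := by
    rw [abs_le]
    constructor <;> linarith [h1.1, h1.2, h2.1, h2.2]
  linarith

/-- the number of potential edges of a tile at the wall `j` -/
def nW (X : RD M) (j : J) : ℕ :=
  (⋃₀ {c | c ∈ simL (NR (X.A j) (X.d j)) (X.d j) (X.c j) ∧ c.Finite}).ncard

theorem near_sub {c C : ℝ} (hC0 : 0 ≤ C) (hC : ∀ x y : E3, dist x y ≤ C * dist (M.φ x) (M.φ y))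
    {j : J} {w : E3} {κ : ℕ} {T : Set E3} (h : NearW M j w c κ T) :
    T ⊆ cthickening (C * c / 2 ^ κ) ((fun y => y + w) '' frontier (M.Q j).N) := by
  obtain ⟨y, hy, hd⟩ := h
  intro x hx
  refine mem_cthickening_of_dist_le x y _ _ ⟨y - w, hy, sub_add_cancel y w⟩ ?_
  refine (hC x y).trans ?_
  rw [mul_div_assoc]
  exact mul_le_mul_of_nonneg_left (hd x hx) hC0

theorem mem_cast {j j' : J} (h : j' = j) {x : E3} (hx : x ∈ W j') : x ∈ W j := h ▸ hx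

theorem sj_cast (X : RD M) {j j' : J} (h : j' = j) {S : Set (Fin 3 → ℝ)}
    (hx : S ∈ ShW X j' ∧ BS (X.c j') S) : S ∈ ShW X j ∧ BS (X.c j) S := h ▸ hx

/-- **THE WALL CLASSES OF THE OUTER HALF HAVE SMALL MEANS** -/
theorem mean_QW [Countable J] (Wc : ∀ j, (W j).Countable) (X : RD M) (j : J) (hW : (W j).Finite)
    {r' : ℝ} (hr' : M.r j < r') {H : E3 → ℝ≥0∞} {p : ℝ} (hp : 1 ≤ p)
    (hH : ∫⁻ z in M.φ ⁻¹' (M.D0.Om ∩ cthickening r' (M.φ '' frontier (M.Q j).N)), H z ^ p ≠ ∞)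
    {ε : ℝ≥0∞} (hε : ε ≠ 0) :
    ∃ k0 : ℕ, ∀ k : J → ℕ, k0 ≤ k j → ∀ (r : ℝ) {A : Set E3}, MeasurableSet A →
      ∀ {G : E3 → E3 → ℝ≥0∞}, (∀ v, Measurable (G v)) → (∀ᵐ y : E3, ∀ v, G v y ≤ ‖v‖ₑ * H y) →
      ∫⁻ a in A, (QW k Wc X r).toPT.EnC G p j a ≤ ε := by
  classical
  obtain ⟨C, hC0, hC⟩ := exists_c M.φ
  have hc1 := X.c1 j
  have hWf : Finite (W j) := hW.to_subtype
  have := Fintype.ofFinite (W j)
  have := Fintype.ofFinite (SJ X j)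
  obtain ⟨N, hN⟩ := exists_nat_gt (2 * X.c j + 1)
  have hN0 : NeZero N := ⟨by
    rintro rfl
    rw [Nat.cast_zero] at hN
    linarith⟩
  have hR : MeasurableSet (M.φ ⁻¹' (M.D0.Om ∩ cthickening r' (M.φ '' frontier (M.Q j).N))) := by
    refine M.φ.continuous.measurable (MeasurableSet.inter ?_ isClosed_cthickening.measurableSet)
    exact (isOpen_lt continuous_const M.D0.continuous_ρ).measurableSet
  obtain ⟨k0, hk0⟩ := cut_pt (isCompact_front (M.Q j)) (front_null (M.Q j))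
    (W := W j × SJ X j × (Fin 3 → ZMod N)) (fun t => (t.1 : E3)) (C * (2 + X.c j))
    (n := nW X j)
    (K := ENNReal.ofReal (‖(M.φ : E3 →L[ℝ] (Fin 3 → ℝ))‖ * (C * (2 * X.c j + 1))))
    ENNReal.ofReal_ne_top hR hp hH hε
  obtain ⟨k1, hk1⟩ : ∃ k1 : ℕ, ∀ κ ≥ k1, M.r j + (2 + X.c j) / 2 ^ κ ≤ r' := by
    obtain ⟨k1, hk1⟩ := exists_nat_gt ((2 + X.c j) / (r' - M.r j))
    refine ⟨k1, fun κ hκ => ?_⟩
    have h0 : 0 < r' - M.r j := by linarith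
    have h1 : (0 : ℝ) < 2 ^ κ := by positivity
    have h2 : (k1 : ℝ) ≤ 2 ^ κ := by
      have : (κ : ℝ) ≤ 2 ^ κ := by exact_mod_cast Nat.lt_two_pow_self.le
      have h3 : (k1 : ℝ) ≤ κ := by exact_mod_cast hκ
      linarith
    rw [div_lt_iff₀ h0] at hk1
    have h3 : (2 + X.c j) / 2 ^ κ ≤ r' - M.r j := by
      rw [div_le_iff₀ h1]
      nlinarith
    linarith
  refine ⟨max k0 k1, fun k hk r A Am G hGm hGH => ?_⟩
  refine hk0 (k j) ((le_max_left _ _).trans hk) (QW k Wc X r).toPT (κ := j) Am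
    (fun t => (⟨t.1.2.1, mem_cast t.2 t.1.2.1.2⟩,
      ⟨t.1.2.2.2.1, sj_cast X t.2 t.1.2.2.2.2⟩,
      fun m => (t.1.2.2.1 m : ZMod N))) ?_ ?_ ?_ ?_ ?_ ?_ hGm hGH
  · intro t ht
    exact (tW_compact k X t).isClosed.measurableSet
  · rintro ⟨⟨j1, w, z, S⟩, h1⟩ ⟨⟨j2, w', z', S'⟩, h2⟩ hne htag - -
    obtain rfl : j1 = j := h1
    obtain rfl : j2 = j1 := h2
    refine Disjoint.aedisjoint ?_
    rw [Prod.mk.injEq, Prod.mk.injEq] at htag
    obtain ⟨hw, hS, hz⟩ := htag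
    obtain rfl : w = w' := Subtype.ext (congrArg Subtype.val hw)
    obtain rfl : S = S' := Subtype.ext (congrArg Subtype.val hS)
    refine Tq_disj S.2.2 hN (fun h => hne ?_) fun m => congrFun hz m
    subst h
    rfl
  · rintro ⟨⟨j1, w, z, S⟩, h1⟩ ⟨b, hb, -⟩
    obtain rfl : j1 = j := h1
    exact near_sub hC0.le hC hb.1.2.2
  · rintro t ht
    obtain rfl : t.1 = j := ht
    exact PTn.card_Ed_le (QW k Wc X r) t
  · rintro ⟨j1, w, z, S⟩ h1 e he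
    obtain rfl : j1 = j := h1
    obtain ⟨-, hsub⟩ := (QW k Wc X r).toPT.sub _ e he
    have hx : (QW k Wc X r).toPT.x e ∈ Tq M.φ 0 (k j1) z S.1 :=
      hsub ⟨0, ⟨le_rfl, zero_le_one⟩, by simp⟩
    have hx' : (QW k Wc X r).toPT.x e + (QW k Wc X r).toPT.v e ∈ Tq M.φ 0 (k j1) z S.1 :=
      hsub ⟨1, ⟨zero_le_one, le_rfl⟩, by simp⟩
    have h3 := Tq_dist S.2.2 (by linarith) hx' hx
    have h4 := hC ((QW k Wc X r).toPT.x e + (QW k Wc X r).toPT.v e) ((QW k Wc X r).toPT.x e)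
    rw [dist_eq_norm (_ + _), add_sub_cancel_left] at h4
    have hp2 : (0 : ℝ) < 2 ^ k j1 := by positivity
    have h5 : ‖(QW k Wc X r).toPT.v e‖ ≤ C * ((2 * X.c j1 + 1) / 2 ^ k j1) :=
      h4.trans (mul_le_mul_of_nonneg_left h3 hC0.le)
    have e1 : ‖(QW k Wc X r).toPT.v e‖ₑ = ENNReal.ofReal ‖(QW k Wc X r).toPT.v e‖ :=
      (ofReal_norm _).symm
    rw [e1]
    have e2 : (QW k Wc X r).toPT.β ⟨j1, w, z, S⟩ =
      2 ^ k j1 * ‖(M.φ : E3 →L[ℝ] (Fin 3 → ℝ))‖ := rfl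
    rw [e2, ← ENNReal.ofReal_mul (by positivity)]
    refine ENNReal.ofReal_le_ofReal ?_
    calc 2 ^ k j1 * ‖(M.φ : E3 →L[ℝ] (Fin 3 → ℝ))‖ * ‖(QW k Wc X r).toPT.v e‖
        ≤ 2 ^ k j1 * ‖(M.φ : E3 →L[ℝ] (Fin 3 → ℝ))‖ * (C * ((2 * X.c j1 + 1) / 2 ^ k j1)) :=
          mul_le_mul_of_nonneg_left h5 (by positivity)
      _ = _ := by field_simp
  · rintro ⟨j1, w, z, S⟩ h1 y hy b hb hbA
    obtain rfl : j1 = j := h1
    obtain ⟨⟨-, hbw, y0, hy0, hd⟩, hin⟩ := hb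
    refine ⟨hin y hy, ?_⟩
    refine mem_cthickening_of_dist_le _ _ _ _ (mem_image_of_mem M.φ hy0) ?_
    have h3 := hd y hy
    have e : M.φ (y + b) - M.φ (y0 - (w : E3)) = (M.φ y - M.φ y0) + M.φ (b + w) := by
      rw [map_add, map_sub, map_add]; abel
    rw [dist_eq_norm, e]
    refine (norm_add_le _ _).trans ?_
    rw [← dist_eq_norm]
    have h4 := hk1 (k j1) ((le_max_right _ _).trans hk)
    linarith

end

end

end Crest.Agent.R96.Wm5_72
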