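import Crest.Agent.R96.Eld1_538
import Crest.Agent.R096.Gsc3_476

/-!
Row 96 (S0127), helper199.  (EL), leaf [E1] of 538 #12014: the closed neighbourhoods `Zj` of the cores and
the tiles which are in no block.
-/

set_option autoImplicit false
set_option linter.unusedSectionVars false
set_option linter.style.longLine false

open MeasureTheory Set Filter Metric
open scoped ENNReal NNReal Topology

namespace Crest.Agent.R96.Zj_199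

open Crest.AnalysisR.VecCalc3 (R3)
open Crest.Agent.R96.Coarse_538 (Dt)
open Crest.Agent.R096.Msh_715 (P I Tiling)
open Crest.Agent.R096.Mal_874 (CB)
open Crest.Agent.R096.Ca_855 (MIn)
open Crest.Agent.R096.Rmt_816 (Bj norm_D0 norm_Dt)

variable {Om W : Set R3} {ρ₀ : R3 → ℝ} {J : Type} [Finite J] {Qb : J → CB R3 3} {k0 : ℕ} {σ : ℝ}

/-- the closed neighbourhood of the core `j` -/
def Zj {J : Type} (Qb : J → CB R3 3) (κ : ℝ) (k0 : ℕ) (j : J) : Set R3 :=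
  {y | ∃ z ∈ (Qb j).Kc, ‖(Qb j).ψ y - (Qb j).ψ z‖ ≤ 8 * κ⁻¹ / 2 ^ k0}

theorem isCompact_Kc (Q : CB R3 3) : IsCompact Q.Kc := by
  rw [← Q.P_core Q.kc le_rfl]
  exact (Q.T Q.kc le_rfl).cpt _

theorem isClosed_Zj {κ : ℝ} (hκ : 0 < κ) (j : J) : IsClosed (Zj Qb κ k0 j) := by
  have h1 : Zj Qb κ k0 j = (Qb j).ψ ⁻¹' cthickening (8 * κ⁻¹ / 2 ^ k0) ((Qb j).ψ '' (Qb j).Kc) := by
    ext y
    rw [mem_preimage, ((isCompact_Kc (Qb j)).image (Qb j).ψ.continuous).cthickening_eq_biUnion_closedBall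
      (by positivity)]
    simp only [mem_iUnion, mem_image, exists_prop, mem_closedBall, exists_exists_and_eq_and,
      dist_eq_norm]
    rfl
  rw [h1]
  exact isClosed_cthickening.preimage (Qb j).ψ.continuous

theorem Kc_sub_Zj {κ : ℝ} (hκ : 0 < κ) {Bs Nn : ℕ} (hb : ∀ j, MIn.BQ κ Bs Nn (Qb j) k0) {a : R3}
    (ha : a ∈ Dt (1 / 2 ^ k0)) (j : J) : ((Qb j).tr a).Kc ⊆ Zj Qb κ k0 j := by
  intro y hy
  rw [CB.mem_Kc_tr] at hy
  refine ⟨y - a, hy, ?_⟩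
  rw [← map_sub, sub_sub_cancel]
  refine ((hb j).cnd a).2.trans ?_
  have h1 := norm_Dt (by positivity) ha
  calc 4 * κ⁻¹ * ‖a‖ ≤ 4 * κ⁻¹ * (2 * (1 / 2 ^ k0)) := by gcongr
    _ = 8 * κ⁻¹ / 2 ^ k0 := by ring

/-- points of `Zj` are inside the open block at the position `a` -/
theorem Zj_sub {κ : ℝ} (hκ : 0 < κ) {Bs Nn : ℕ} (hb : ∀ j, MIn.BQ κ Bs Nn (Qb j) k0) {a : R3}
    (ha : a ∈ Dt (1 / 2 ^ k0)) (j : J) (hsm : 16 * κ⁻¹ / 2 ^ k0 < 1 / 2 ^ (Qb j).kc) :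
    Zj Qb κ k0 j ⊆ interior ((Qb j).tr a).N := by
  rintro y ⟨z, hz, hyz⟩
  set Q := Qb j with hQ
  have hp : (0:ℝ) < 2 ^ Q.kc := by positivity
  have h1 : ‖Q.ψ (y - a) - Q.ψ z‖ < 1 / 2 ^ Q.kc := by
    have e1 : Q.ψ (y - a) - Q.ψ z = (Q.ψ y - Q.ψ z) - Q.ψ a := by
      rw [map_sub]; abel
    rw [e1]
    have h2 := norm_Dt (by positivity) ha
    have h3 : ‖Q.ψ a‖ ≤ 8 * κ⁻¹ / 2 ^ k0 := by
      refine ((hb j).cnd a).2.trans ?_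
      calc 4 * κ⁻¹ * ‖a‖ ≤ 4 * κ⁻¹ * (2 * (1 / 2 ^ k0)) := by gcongr
        _ = 8 * κ⁻¹ / 2 ^ k0 := by ring
    calc ‖(Q.ψ y - Q.ψ z) - Q.ψ a‖ ≤ ‖Q.ψ y - Q.ψ z‖ + ‖Q.ψ a‖ := norm_sub_le _ _
      _ ≤ 8 * κ⁻¹ / 2 ^ k0 + 8 * κ⁻¹ / 2 ^ k0 := add_le_add hyz h3
      _ = 16 * κ⁻¹ / 2 ^ k0 := by ring
      _ < _ := hsm
  -- the point `y - a` is near the core
  have h4 : Q.near 0 (y - a) := by
    intro l
    have h5 := hz l
    have h6 : |Q.ψ (y - a) l - Q.ψ z l| < 1 / 2 ^ Q.kc := by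
      have := norm_le_pi_norm (Q.ψ (y - a) - Q.ψ z) l
      rw [Pi.sub_apply, Real.norm_eq_abs] at this
      exact this.trans_lt h1
    have e2 : Crest.Agent.R096.Msh_810.ps Q.a' Q.kc (Q.ψ (y - a)) l -
        Crest.Agent.R096.Msh_810.ps Q.a' Q.kc (Q.ψ z) l = 2 ^ Q.kc * (Q.ψ (y - a) l - Q.ψ z l) := by
      unfold Crest.Agent.R096.Msh_810.ps
      ring
    have h7 : |Crest.Agent.R096.Msh_810.ps Q.a' Q.kc (Q.ψ (y - a)) l -
        Crest.Agent.R096.Msh_810.ps Q.a' Q.kc (Q.ψ z) l| < 1 := by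
      rw [e2, abs_mul, abs_of_pos hp]
      calc 2 ^ Q.kc * |Q.ψ (y - a) l - Q.ψ z l| < 2 ^ Q.kc * (1 / 2 ^ Q.kc) := by gcongr
        _ = 1 := by field_simp
    have h8 := abs_lt.1 h7
    have ht : (1:ℝ) ≤ Q.S.t := by exact_mod_cast Q.S.t0
    constructor <;> linarith [h5.1, h5.2, h8.1, h8.2]
  have h5 : Q.near 2 (y - a) := fun l => ⟨by linarith [(h4 l).1], by linarith [(h4 l).2]⟩
  have h6 := Q.near_infDist h5
  have h7 : y - a ∈ Q.N := by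
    rw [CB.mem_N]
    intro l
    have h := h4 l
    have hw := Q.w_real
    constructor <;> linarith [h.1, h.2]
  have h8 : y - a ∉ frontier Q.N := by
    rw [Q.frontier_N, mem_preimage]
    intro h
    rw [infDist_zero_of_mem h] at h6
    have : (0:ℝ) < (6 + 1) / 2 ^ Q.kc := by positivity
    linarith
  have h9 : y ∈ (Q.tr a).N := (CB.mem_N_tr _ _ _).2 h7
  have h10 : y ∉ frontier (Q.tr a).N := fun h => h8 ((Q.frontier_N_tr a).1 h)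
  by_contra h11
  exact h10 ⟨subset_closure h9, h11⟩

/-- **[E1]** -/
theorem e1_leaf (h : MIn Om W ρ₀ Qb k0 σ) {κ : ℝ} (hκ : 0 < κ) {Bs Nn : ℕ}
    (hb : ∀ j, MIn.BQ κ Bs Nn (Qb j) k0) (hsm : ∀ j, 16 * κ⁻¹ / 2 ^ k0 < 1 / 2 ^ (Qb j).kc) {a : R3}
    (ha : a ∈ Dt (1 / 2 ^ k0)) :
    (∀ j, IsClosed (Zj Qb κ k0 j)) ∧ (∀ j, ((Qb j).tr a).Kc ⊆ Zj Qb κ k0 j) ∧
      ∀ i : h.ιT a, (∀ j, ¬ P ((h.T a).H i) ⊆ (Bj h a j).N) →
        ∀ j, Disjoint (P ((h.T a).H i)) (Zj Qb κ k0 j) := by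
  have hn := norm_D0 h a ha
  refine ⟨isClosed_Zj hκ, Kc_sub_Zj hκ hb ha, fun i hi j => ?_⟩
  have h1 : ¬ P ((h.T a).H i) ⊆ ((Qb j).tr a).N := by
    have h0 : ¬ P ((h.T a).H i) ⊆ (h.M.Bk (fun _ => h.cl a) j).N := hi j
    rwa [Crest.Agent.R096.Gsc_476.Bk_eq h hn.le j] at h0
  have h2 := (Crest.Agent.R096.Gsc_476.in_or_outT h hn.le j i).resolve_left h1
  rw [Set.disjoint_left]
  intro y hy hyZ
  have h3 := Zj_sub hκ hb ha j (hsm j) hyZ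
  rw [← Crest.Agent.R096.Msh_715.closure_I ((h.T a).ne i)] at hy
  obtain ⟨w, hw1, hw2⟩ := mem_closure_iff.1 hy _ isOpen_interior h3
  exact Set.disjoint_left.1 h2 hw2 (interior_subset hw1)

end Crest.Agent.R96.Zj_199
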